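import Crest.Agent.R202.FamD

/-!
# Fourier components of eigenfunctions: definitions
-/

set_option autoImplicit false

noncomputable section

open scoped InnerProductSpace ContDiff
open Set Filter Topology
open MvPolynomial Real

namespace Crest.Agent.R202

/-- `ϱ = 1/m₁₁` -/
def rr (x : ℝ) : ℝ := (1 + 4 * x ^ 2)⁻¹
/-- `g sin θ = -m₁₂ ϱ` -/
def gs (x : ℝ) : ℝ := -(x - 4 * x ^ 3) * rr x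

/-- the sector system for `(Y, P)` at `θ` -/
def SecODE (n : ℕ) (κ l : ℝ) (μ : ℤ) (ϱ g : ℝ → ℝ) (Y P : ℝ → ℂ) (θ : ℝ) : Prop :=
  HasDerivAt Y ((ϱ θ / sin θ : ℝ) * P θ + Complex.I * μ * g θ * Y θ) θ ∧
  HasDerivAt P (Complex.I * μ * g θ * P θ + (((n : ℝ) - 3) * tan θ : ℝ) * P θ +
    (sin θ * (κ / cos θ ^ 2 - l) + ϱ θ * (μ : ℝ) ^ 2 / sin θ : ℝ) * Y θ) θ

/-- `∑ (P_μ - μ Y_μ) e^{iμφ}` -/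
def Wsum (m₀ : ℕ) (Y P : ℤ → ℝ → ℂ) (θ φ : ℝ) : ℂ :=
  ∑ μ ∈ Finset.Icc (-(m₀ : ℤ)) m₀, (P μ θ - μ * Y μ θ) * Complex.exp (Complex.I * μ * φ)

structure SecData (r n : ℕ) (κ : ℝ) (x : ℝ → ℝ) (m₀ : ℕ) (lp : ℝ) {M : ℕ} (l : Fin M → ℝ)
    (Y P : Fin M → ℤ → ℝ → ℂ) (U : Fin M → ℝ → ℝ → ℂ) : Prop where
  l_mem : ∀ a, 1 ≤ l a ∧ l a ≤ lp
  c1 : ∀ a μ, ContDiff ℝ 1 (Y a μ)
  ode : ∀ a μ, ∀ θ ∈ Ioo 0 (π / r),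
    SecODE n κ (l a) μ (fun s => rr (x s)) (fun s => gs (x s) / sin s) (Y a μ) (P a μ) θ
  conj : ∀ a μ θ, Y a (-μ) θ = starRingEnd ℂ (Y a μ θ) ∧ P a (-μ) θ = starRingEnd ℂ (P a μ θ)
  wr : ∀ a a₁ μ μ₁, μ ^ 2 = μ₁ ^ 2 → ∀ θ ∈ Ioo 0 (π / r),
    cos θ ^ (n - 3) * ‖Y a μ θ * P a₁ μ₁ θ - P a μ θ * Y a₁ μ₁ θ‖ ≤ |l a - l a₁|
  mass : ∀ v : Fin M → ℝ, ∑ a, v a ^ 2 = 2 * π * ∑ μ ∈ Finset.Icc (-(m₀ : ℤ)) m₀,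
    ∫ θ in (0 : ℝ)..π / r, ‖∑ a, (v a : ℂ) * Y a μ θ‖ ^ 2 * w0 n θ
  energy : ∀ a, ∑ μ ∈ Finset.Icc (-(m₀ : ℤ)) m₀,
    ∫ θ in (0 : ℝ)..π / r, ‖deriv (Y a μ) θ‖ ^ 2 * w0 n θ ≤ lp
  Uc : ∀ a, Continuous fun p : ℝ × ℝ => U a p.1 p.2
  Ueq : ∀ a θ φ, (1 - 2 * Complex.I * x θ) * sin θ * U a θ φ = Wsum m₀ (Y a) (P a) θ φ
  Ul2 : ∀ a, sint r n (fun θ φ => ‖U a θ φ‖ ^ 2) ≤ 4 * lp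

namespace Cl
variable {r n : ℕ} (c : Cl r n)

def Decay (V : c.J → ℝ) : Prop :=
  ∃ C ε : ℝ, 0 < ε ∧ ∀ k, |V k| ≤ C * Real.exp (-(ε * c.deg k))

/-- coefficient of `trig μ` -/
def comp (V : c.J → ℝ) (μ : ℤ) (θ : ℝ) : ℝ :=
  ∑' k : c.J, if k.1.1 = μ then V k / √(c.base.lam k) * c.prof k θ else 0

/-- coefficient of `e^{iμφ}` -/
def Ys (V : c.J → ℝ) (μ : ℤ) (θ : ℝ) : ℂ :=
  if μ = 0 then c.comp V 0 θ else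
    (c.comp V |μ| θ - Complex.I * (Int.sign μ : ℤ) * c.comp V (-|μ|) θ) / 2

def Ps (cp : Polynomial ℝ) (V : c.J → ℝ) (μ : ℤ) (θ : ℝ) : ℂ :=
  (sin θ * (1 + 4 * xx r cp θ ^ 2) : ℝ) * deriv (c.Ys V μ) θ +
    Complex.I * μ * (xx r cp θ - 4 * xx r cp θ ^ 3 : ℝ) * c.Ys V μ θ

def DθV (V : c.J → ℝ) (θ φ : ℝ) : ℝ := ∑' k : c.J, V k / √(c.base.lam k) * c.Dθ (c.ek k) θ φ
def DφV (V : c.J → ℝ) (θ φ : ℝ) : ℝ := ∑' k : c.J, V k / √(c.base.lam k) * c.Dφ (c.ek k) θ φ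
def Uf (cp : Polynomial ℝ) (V : c.J → ℝ) (θ φ : ℝ) : ℂ :=
  Ucx (xx r cp θ) (c.DθV V θ φ) (c.DφV V θ φ)

end Cl

end Crest.Agent.R202
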