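import Crest.Agent.R202.LieSl2
import Crest.Agent.R202.SecDefs

/-!
# Algebraic independence of solutions with a rough coefficient (task F6b)

`sin θ u' = (ϱ X + N) u`, `X = e + μ f`, `N = ρ f + m E₂₂`, `ρ = sin²(κ/cos² - λ)`, `m = (n-3) sin tan`.  Let `𝓘` be the set of families of complex matrix functions
`Q α β θ`, smooth on `(a,b)`, symmetric, with `∑ u_αᵀ Q u_β ≡ 0`, and `(Z·Q) α β = (Z α)ᵀ Q α β + Q α β Z β`.  Differentiating, `ϱ (X·Q)(u) + (DQ)(u) = 0`, `DQ = sin Q' + N·Q`.  If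
`(X·Q)(u) ≠ 0` at a point then nearby `ϱ = -Re((DQ)(u)/(X·Q)(u))` and bootstrapping (`ϱ ∈ Cᵏ ⇒ u ∈ Cᵏ⁺¹ ⇒ ϱ ∈ Cᵏ⁺¹`) makes `ϱ` smooth; so `X·Q, DQ ∈ 𝓘`.
The smooth traceless real `Z` with `Z·𝓘 ⊆ 𝓘` are closed under sums, smooth multiples, brackets and `Z ↦ sin Z' + ZN - NZ`; this produces
`N' = !![-ρ,0;2mμ,ρ]` (up to sign and a multiple of `X`) and `N''` (entry `(1,0)` is `∓2ρ²` if `μ = 0`).  At a point avoiding finitely many values of `cos θ`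
(zeros of non-zero polynomials in `cos θ`) `lie_full` and `form_zero` apply.
-/

set_option autoImplicit false

noncomputable section

open scoped InnerProductSpace ContDiff
open Set Filter Topology
open Matrix Real

namespace Crest.Agent.R202

section abs

variable {ι : Type} [Fintype ι] [DecidableEq ι] {J : Set ℝ} {u : ℝ → ι → ℂ}
  {P Q W Z : ℝ → Matrix ι ι ℂ}

/-- entrywise smoothness -/
def aiSm (J : Set ℝ) (Q : ℝ → Matrix ι ι ℂ) : Prop := ∀ i j, ContDiffOn ℝ ∞ (fun t => Q t i j) J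

/-- entrywise derivative -/
def aiD (Q : ℝ → Matrix ι ι ℂ) (θ : ℝ) : Matrix ι ι ℂ :=
  Matrix.of fun i j => deriv (fun t => Q t i j) θ

/-- the infinitesimal action on bilinear forms -/
def aiAct (Z Q : Matrix ι ι ℂ) : Matrix ι ι ℂ := Zᵀ * Q + Q * Z

/-- smooth forms vanishing along `u` -/
def aiI (J : Set ℝ) (u : ℝ → ι → ℂ) (Q : ℝ → Matrix ι ι ℂ) : Prop :=
  aiSm J Q ∧ ∀ θ ∈ J, u θ ⬝ᵥ (Q θ *ᵥ u θ) = 0

/-- smooth matrix functions preserving `aiI` -/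
def aiG (J : Set ℝ) (u : ℝ → ι → ℂ) (W : ℝ → Matrix ι ι ℂ) : Prop :=
  aiSm J W ∧ ∀ Q, aiI J u Q → aiI J u fun t => aiAct (W t) (Q t)

omit [Fintype ι] [DecidableEq ι] in
theorem aiSm.add (hP : aiSm J P) (hQ : aiSm J Q) : aiSm J fun t => P t + Q t := fun i j =>
  (hP i j).add (hQ i j)

omit [Fintype ι] [DecidableEq ι] in
theorem aiSm.sub (hP : aiSm J P) (hQ : aiSm J Q) : aiSm J fun t => P t - Q t := fun i j =>
  (hP i j).sub (hQ i j)

omit [Fintype ι] [DecidableEq ι] in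
theorem aiSm_const (C : Matrix ι ι ℂ) : aiSm J fun _ => C := fun _ _ => contDiffOn_const

omit [DecidableEq ι] in
theorem aiSm.mul (hP : aiSm J P) (hQ : aiSm J Q) : aiSm J fun t => P t * Q t := fun i j => by
  simp only [Matrix.mul_apply]
  exact ContDiffOn.sum fun k _ => (hP i k).mul (hQ k j)

omit [Fintype ι] [DecidableEq ι] in
theorem aiSm.transpose (hP : aiSm J P) : aiSm J fun t => (P t)ᵀ := fun i j => hP j i

theorem ai_ofReal {k : WithTop ℕ∞} {φ : ℝ → ℝ} (hφ : ContDiffOn ℝ k φ J) :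
    ContDiffOn ℝ k (fun t => (φ t : ℂ)) J :=
  Complex.ofRealCLM.contDiff.comp_contDiffOn hφ

omit [Fintype ι] [DecidableEq ι] in
theorem aiSm.smul {φ : ℝ → ℝ} (hφ : ContDiffOn ℝ ∞ φ J) (hP : aiSm J P) :
    aiSm J fun t => (φ t : ℂ) • P t := fun i j => (ai_ofReal hφ).mul (hP i j)

omit [Fintype ι] [DecidableEq ι] in
theorem aiSm.deriv (hJ : IsOpen J) (hP : aiSm J P) : aiSm J (aiD P) := fun i j =>
  (hP i j).deriv_of_isOpen hJ le_rfl

omit [DecidableEq ι] in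
theorem aiSm.act (hP : aiSm J P) (hQ : aiSm J Q) : aiSm J fun t => aiAct (P t) (Q t) :=
  (hP.transpose.mul hQ).add (hQ.mul hP)

omit [Fintype ι] [DecidableEq ι] in
theorem aiSm.hasDerivAt (hJ : IsOpen J) (hP : aiSm J P) {θ : ℝ} (hθ : θ ∈ J) (i j : ι) :
    HasDerivAt (fun t => P t i j) (aiD P θ i j) θ :=
  (((hP i j).contDiffAt (hJ.mem_nhds hθ)).differentiableAt (by simp)).hasDerivAt

omit [DecidableEq ι] in
theorem aiD_act (hJ : IsOpen J) (hP : aiSm J P) (hQ : aiSm J Q) {θ : ℝ} (hθ : θ ∈ J) :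
    aiD (fun t => aiAct (P t) (Q t)) θ = aiAct (aiD P θ) (Q θ) + aiAct (P θ) (aiD Q θ) := by
  ext i j
  have h1 := (HasDerivAt.fun_sum (u := Finset.univ) fun k _ =>
    (hP.hasDerivAt hJ hθ k i).fun_mul (hQ.hasDerivAt hJ hθ k j)).fun_add
    (HasDerivAt.fun_sum (u := Finset.univ) fun k _ =>
      (hQ.hasDerivAt hJ hθ i k).fun_mul (hP.hasDerivAt hJ hθ k j))
  have h2 : aiD (fun t => aiAct (P t) (Q t)) θ i j = _ := h1.deriv
  rw [h2]
  simp only [aiAct, Matrix.add_apply, Matrix.mul_apply, Matrix.transpose_apply,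
    Finset.sum_add_distrib]
  ring

omit [DecidableEq ι] in
theorem ai_dot_act (Z Q : Matrix ι ι ℂ) (v w : ι → ℂ) :
    v ⬝ᵥ (aiAct Z Q *ᵥ w) = (Z *ᵥ v) ⬝ᵥ (Q *ᵥ w) + v ⬝ᵥ (Q *ᵥ (Z *ᵥ w)) := by
  rw [aiAct, add_mulVec, dotProduct_add, ← mulVec_mulVec, ← mulVec_mulVec, dotProduct_mulVec v,
    vecMul_transpose]

omit [DecidableEq ι] in
theorem ai_hasDerivAt {θ : ℝ} {u' : ι → ℂ} {Q' : Matrix ι ι ℂ}
    (hu : ∀ i, HasDerivAt (fun t => u t i) (u' i) θ)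
    (hQ : ∀ i j, HasDerivAt (fun t => Q t i j) (Q' i j) θ) :
    HasDerivAt (fun t => u t ⬝ᵥ (Q t *ᵥ u t))
      (u' ⬝ᵥ (Q θ *ᵥ u θ) + u θ ⬝ᵥ (Q' *ᵥ u θ) + u θ ⬝ᵥ (Q θ *ᵥ u')) θ := by
  have h1 := HasDerivAt.fun_sum (u := Finset.univ) fun i _ =>
    (hu i).fun_mul (HasDerivAt.fun_sum (u := Finset.univ) fun j _ => (hQ i j).fun_mul (hu j))
  refine HasDerivAt.congr_deriv h1 ?_
  simp only [dotProduct, mulVec, Finset.sum_add_distrib, mul_add, add_assoc]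

omit [DecidableEq ι] in
theorem ai_contDiffOn {k : WithTop ℕ∞} (hk : k ≤ ∞) (hu : ∀ i, ContDiffOn ℝ k (fun t => u t i) J)
    (hQ : aiSm J Q) : ContDiffOn ℝ k (fun t => u t ⬝ᵥ (Q t *ᵥ u t)) J := by
  simp only [dotProduct, mulVec]
  exact ContDiffOn.sum fun i _ => (hu i).mul
    (ContDiffOn.sum fun j _ => ((hQ i j).of_le hk).mul (hu j))

omit [DecidableEq ι] in
theorem aiI.congr (hQ : aiI J u Q) (h : ∀ θ ∈ J, P θ = Q θ) : aiI J u P :=
  ⟨fun i j => (hQ.1 i j).congr fun θ hθ => by rw [h θ hθ], fun θ hθ => by rw [h θ hθ, hQ.2 θ hθ]⟩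

omit [DecidableEq ι] in
theorem aiI.add (hP : aiI J u P) (hQ : aiI J u Q) : aiI J u fun t => P t + Q t :=
  ⟨hP.1.add hQ.1, fun θ hθ => by rw [add_mulVec, dotProduct_add, hP.2 θ hθ, hQ.2 θ hθ, add_zero]⟩

omit [DecidableEq ι] in
theorem aiI.sub (hP : aiI J u P) (hQ : aiI J u Q) : aiI J u fun t => P t - Q t :=
  ⟨hP.1.sub hQ.1, fun θ hθ => by rw [sub_mulVec, dotProduct_sub, hP.2 θ hθ, hQ.2 θ hθ, sub_zero]⟩

omit [DecidableEq ι] in
theorem aiI.smul {φ : ℝ → ℝ} (hφ : ContDiffOn ℝ ∞ φ J) (hP : aiI J u P) :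
    aiI J u fun t => (φ t : ℂ) • P t :=
  ⟨hP.1.smul hφ, fun θ hθ => by rw [smul_mulVec, dotProduct_smul, hP.2 θ hθ, smul_zero]⟩

omit [DecidableEq ι] in
theorem aiG_zero : aiG J u fun _ => 0 :=
  ⟨aiSm_const 0, fun Q _ => ⟨(aiSm_const 0).act ‹aiI J u Q›.1, fun θ _ => by simp [aiAct]⟩⟩

omit [DecidableEq ι] in
theorem aiG.add (hW : aiG J u W) (hZ : aiG J u Z) : aiG J u fun t => W t + Z t :=
  ⟨hW.1.add hZ.1, fun Q hQ => ((hW.2 Q hQ).add (hZ.2 Q hQ)).congr fun θ _ => by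
    simp only [aiAct, transpose_add, Matrix.add_mul, Matrix.mul_add]
    abel⟩

omit [DecidableEq ι] in
theorem aiG.smul {φ : ℝ → ℝ} (hφ : ContDiffOn ℝ ∞ φ J) (hW : aiG J u W) :
    aiG J u fun t => (φ t : ℂ) • W t :=
  ⟨hW.1.smul hφ, fun Q hQ => ((hW.2 Q hQ).smul hφ).congr fun θ _ => by
    simp only [aiAct, transpose_smul, Matrix.smul_mul, Matrix.mul_smul, smul_add]⟩

omit [DecidableEq ι] in
theorem aiG.br (hW : aiG J u W) (hZ : aiG J u Z) : aiG J u fun t => W t * Z t - Z t * W t :=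
  ⟨(hW.1.mul hZ.1).sub (hZ.1.mul hW.1), fun Q hQ =>
    ((hZ.2 _ (hW.2 Q hQ)).sub (hW.2 _ (hZ.2 Q hQ))).congr fun θ _ => by
      simp only [aiAct, transpose_sub, transpose_mul, Matrix.add_mul, Matrix.mul_add,
        Matrix.sub_mul, Matrix.mul_sub, Matrix.mul_assoc]
      abel⟩

variable {a b : ℝ} {σ : ℝ → ℝ} {X : Matrix ι ι ℂ} {M : ℝ → Matrix ι ι ℂ}

omit [DecidableEq ι] in
theorem ai_rel (hJ : IsOpen J)
    (hu : ∀ θ ∈ J, ∀ i, HasDerivAt (fun t => u t i) ((((σ θ : ℂ) • X + M θ) *ᵥ u θ) i) θ)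
    (hQ : aiI J u Q) {θ : ℝ} (hθ : θ ∈ J) :
    σ θ * (u θ ⬝ᵥ (aiAct X (Q θ) *ᵥ u θ)) + u θ ⬝ᵥ ((aiD Q θ + aiAct (M θ) (Q θ)) *ᵥ u θ) = 0 := by
  have h1 := ai_hasDerivAt (hu θ hθ) (hQ.1.hasDerivAt hJ hθ)
  have h2 : HasDerivAt (fun t => u t ⬝ᵥ (Q t *ᵥ u t)) 0 θ :=
    (hasDerivAt_const θ (0 : ℂ)).congr_of_eventuallyEq
      (Filter.eventually_of_mem (hJ.mem_nhds hθ) hQ.2)
  rw [← h1.unique h2]
  simp only [ai_dot_act, add_mulVec, smul_mulVec, dotProduct_add, add_dotProduct, mulVec_add,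
    mulVec_smul, dotProduct_smul, smul_dotProduct, smul_eq_mul]
  ring

omit [DecidableEq ι] in
theorem ai_boot (hJ : IsOpen J) (hσ : ContinuousOn σ J) (hM : aiSm J M)
    (hu : ∀ θ ∈ J, ∀ i, HasDerivAt (fun t => u t i) ((((σ θ : ℂ) • X + M θ) *ᵥ u θ) i) θ)
    (hP : aiSm J P) (hQ : aiSm J Q) (hne : ∀ θ ∈ J, u θ ⬝ᵥ (P θ *ᵥ u θ) ≠ 0)
    (h : ∀ θ ∈ J, σ θ * (u θ ⬝ᵥ (P θ *ᵥ u θ)) + u θ ⬝ᵥ (Q θ *ᵥ u θ) = 0) :
    ContDiffOn ℝ ∞ σ J := by
  have hd : ∀ i, DifferentiableOn ℝ (fun t => u t i) J := fun i θ hθ =>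
    (hu θ hθ i).differentiableAt.differentiableWithinAt
  have key : ∀ k : ℕ, ContDiffOn ℝ k σ J ∧ ∀ i, ContDiffOn ℝ k (fun t => u t i) J := by
    intro k
    induction k with
    | zero => exact ⟨contDiffOn_zero.2 hσ, fun i => contDiffOn_zero.2 (hd i).continuousOn⟩
    | succ k ih =>
      have h1 : ∀ i, ContDiffOn ℝ (k + 1 : ℕ) (fun t => u t i) J := by
        intro i
        rw [Nat.cast_succ, contDiffOn_succ_iff_deriv_of_isOpen hJ]
        refine ⟨hd i, by simp, ContDiffOn.congr ?_ fun θ hθ => (hu θ hθ i).deriv⟩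
        simp only [mulVec, dotProduct, Matrix.add_apply, Matrix.smul_apply, smul_eq_mul]
        exact ContDiffOn.sum fun j _ => (((ai_ofReal ih.1).mul contDiffOn_const).add
          ((hM i j).of_le (by exact_mod_cast le_top))).mul (ih.2 j)
      refine ⟨?_, h1⟩
      have hk : ((k + 1 : ℕ) : WithTop ℕ∞) ≤ ∞ := by exact_mod_cast le_top
      have h2 := Complex.reCLM.contDiff.comp_contDiffOn
        ((ai_contDiffOn hk h1 hQ).neg.mul ((ai_contDiffOn hk h1 hP).inv hne))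
      refine h2.congr fun θ hθ => ?_
      have h3 : -(u θ ⬝ᵥ (Q θ *ᵥ u θ)) * (u θ ⬝ᵥ (P θ *ᵥ u θ))⁻¹ = σ θ := by
        rw [mul_inv_eq_iff_eq_mul₀ (hne θ hθ)]
        linear_combination -h θ hθ
      simp only [Function.comp, Pi.inv_apply, h3, Complex.reCLM_apply, Complex.ofReal_re]
  exact contDiffOn_infty.2 fun k => (key k).1

omit [DecidableEq ι] in
theorem ai_key (hσ : ContinuousOn σ (Ioo a b)) (hM : aiSm (Ioo a b) M)
    (hrough : ∀ a' b', a ≤ a' → a' < b' → b' ≤ b → ¬ContDiffOn ℝ ∞ σ (Ioo a' b'))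
    (hu : ∀ θ ∈ Ioo a b, ∀ i, HasDerivAt (fun t => u t i) ((((σ θ : ℂ) • X + M θ) *ᵥ u θ) i) θ)
    (hQ : aiI (Ioo a b) u Q) :
    aiI (Ioo a b) u (fun t => aiAct X (Q t)) ∧
      aiI (Ioo a b) u fun t => aiD Q t + aiAct (M t) (Q t) := by
  have s1 : aiSm (Ioo a b) fun t => aiAct X (Q t) := (aiSm_const X).act hQ.1
  have s2 : aiSm (Ioo a b) fun t => aiD Q t + aiAct (M t) (Q t) :=
    (hQ.1.deriv isOpen_Ioo).add (hM.act hQ.1)
  have h1 : ∀ θ ∈ Ioo a b, u θ ⬝ᵥ (aiAct X (Q θ) *ᵥ u θ) = 0 := by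
    intro θ hθ
    by_contra hne
    have hc : ContinuousAt (fun t => u t ⬝ᵥ (aiAct X (Q t) *ᵥ u t)) θ :=
      (ai_hasDerivAt (hu θ hθ) (s1.hasDerivAt isOpen_Ioo hθ)).continuousAt
    obtain ⟨a', b', h2, h3⟩ := mem_nhds_iff_exists_Ioo_subset.1
      ((hc.eventually_ne hne).and (isOpen_Ioo.mem_nhds hθ))
    have h4 : Ioo a' b' ⊆ Ioo a b := fun t ht => (h3 ht).2
    have h5 := (Ioo_subset_Ioo_iff (h2.1.trans h2.2)).1 h4
    exact hrough a' b' h5.1 (h2.1.trans h2.2) h5.2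
      (ai_boot isOpen_Ioo (hσ.mono h4) (fun i j => (hM i j).mono h4) (fun t ht => hu t (h4 ht))
        (fun i j => (s1 i j).mono h4) (fun i j => (s2 i j).mono h4) (fun t ht => (h3 ht).1)
        fun t ht => ai_rel isOpen_Ioo hu hQ (h4 ht))
  refine ⟨⟨s1, h1⟩, s2, fun θ hθ => ?_⟩
  have := ai_rel isOpen_Ioo hu hQ hθ
  rwa [h1 θ hθ, mul_zero, zero_add] at this

omit [DecidableEq ι] in
theorem aiG.D (hJ : IsOpen J) (hM : aiSm J M)
    (hD : ∀ Q, aiI J u Q → aiI J u fun t => aiD Q t + aiAct (M t) (Q t)) (hW : aiG J u W) :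
    aiG J u fun t => aiD W t + (W t * M t - M t * W t) :=
  ⟨(hW.1.deriv hJ).add ((hW.1.mul hM).sub (hM.mul hW.1)), fun Q hQ =>
    ((hD _ (hW.2 Q hQ)).sub (hW.2 _ (hD Q hQ))).congr fun θ hθ => by
      rw [aiD_act hJ hW.1 hQ.1 hθ]
      simp only [aiAct, transpose_sub, transpose_add, transpose_mul, Matrix.add_mul,
        Matrix.mul_add, Matrix.sub_mul, Matrix.mul_sub, Matrix.mul_assoc]
      abel⟩

end abs

section conc

variable {A : Type} [Fintype A] [DecidableEq A]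

/-- block diagonal complexification -/
def aiEmb (x : A → Matrix (Fin 2) (Fin 2) ℝ) : Matrix (Fin 2 × A) (Fin 2 × A) ℂ :=
  blockDiagonal fun α => (x α).map (↑)

/-- a family of vectors as one vector -/
def aiFlat (v : A → Fin 2 → ℂ) : Fin 2 × A → ℂ := fun q => v q.2 q.1

/-- a family of matrices as one matrix -/
def aiBig (Q : A → A → Matrix (Fin 2) (Fin 2) ℂ) : Matrix (Fin 2 × A) (Fin 2 × A) ℂ :=
  Matrix.of fun q q' => Q q.2 q'.2 q.1 q'.1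

omit [Fintype A] in
theorem aiEmb_apply (x : A → Matrix (Fin 2) (Fin 2) ℝ) (q q' : Fin 2 × A) :
    aiEmb x q q' = if q.2 = q'.2 then (x q.2 q.1 q'.1 : ℂ) else 0 := rfl

omit [Fintype A] in
theorem aiEmb_zero : aiEmb (0 : A → Matrix (Fin 2) (Fin 2) ℝ) = 0 := by
  ext q q'
  simp [aiEmb_apply]

omit [Fintype A] in
theorem aiEmb_add (x x' : A → Matrix (Fin 2) (Fin 2) ℝ) : aiEmb (x + x') = aiEmb x + aiEmb x' := by
  ext q q'
  simp only [aiEmb_apply, Matrix.add_apply, Pi.add_apply]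
  split_ifs <;> simp

omit [Fintype A] in
theorem aiEmb_sub (x x' : A → Matrix (Fin 2) (Fin 2) ℝ) : aiEmb (x - x') = aiEmb x - aiEmb x' := by
  ext q q'
  simp only [aiEmb_apply, Matrix.sub_apply, Pi.sub_apply]
  split_ifs <;> simp

omit [Fintype A] in
theorem aiEmb_smul (c : ℝ) (x : A → Matrix (Fin 2) (Fin 2) ℝ) :
    aiEmb (c • x) = (c : ℂ) • aiEmb x := by
  ext q q'
  simp only [aiEmb_apply, Matrix.smul_apply, Pi.smul_apply]
  split_ifs <;> simp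

theorem ai_map_mul (x x' : Matrix (Fin 2) (Fin 2) ℝ) :
    (x * x').map ((↑) : ℝ → ℂ) = x.map (↑) * x'.map (↑) :=
  Matrix.map_mul (f := Complex.ofRealHom)

theorem aiEmb_mul (x x' : A → Matrix (Fin 2) (Fin 2) ℝ) : aiEmb (x * x') = aiEmb x * aiEmb x' := by
  rw [aiEmb, aiEmb, aiEmb, ← blockDiagonal_mul]
  congr 1
  funext α
  exact ai_map_mul _ _

theorem aiEmb_mulVec (x : A → Matrix (Fin 2) (Fin 2) ℝ) (v : A → Fin 2 → ℂ) :
    aiEmb x *ᵥ aiFlat v = aiFlat fun α => (x α).map (↑) *ᵥ v α := by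
  ext ⟨i, α⟩
  simp [mulVec, dotProduct, aiEmb_apply, aiFlat, Fintype.sum_prod_type]

omit [DecidableEq A] in
theorem aiBig_dot (Q : A → A → Matrix (Fin 2) (Fin 2) ℂ) (v w : A → Fin 2 → ℂ) :
    aiFlat v ⬝ᵥ (aiBig Q *ᵥ aiFlat w) = ∑ α, ∑ β, v α ⬝ᵥ (Q α β *ᵥ w β) := by
  simp only [mulVec, dotProduct, aiBig, aiFlat, Fintype.sum_prod_type_right, Matrix.of_apply,
    Finset.mul_sum]
  exact Finset.sum_congr rfl fun α _ => Finset.sum_comm

omit [DecidableEq A] in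
theorem aiBig_symm {Q : A → A → Matrix (Fin 2) (Fin 2) ℂ} (hQ : ∀ α β, Q β α = (Q α β)ᵀ)
    (v w : Fin 2 × A → ℂ) : v ⬝ᵥ (aiBig Q *ᵥ w) = w ⬝ᵥ (aiBig Q *ᵥ v) := by
  have : (aiBig Q)ᵀ = aiBig Q := by
    ext q q'
    simp only [aiBig, transpose_apply, Matrix.of_apply]
    rw [hQ q.2 q'.2, transpose_apply]
  rw [dotProduct_mulVec, ← mulVec_transpose, this, dotProduct_comm]

omit [Fintype A] in
theorem ai_single (α : A) (Z : Matrix (Fin 2) (Fin 2) ℝ) (v : A → Fin 2 → ℂ) :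
    (fun γ => ((Pi.single α Z : A → Matrix (Fin 2) (Fin 2) ℝ) γ).map ((↑) : ℝ → ℂ) *ᵥ v γ) =
      Pi.single α (Z.map (↑) *ᵥ v α) := by
  funext γ
  by_cases h : γ = α
  · subst h
    simp
  · simp [h]

theorem aiBig_single (Q : A → A → Matrix (Fin 2) (Fin 2) ℂ) (α : A) (z : Fin 2 → ℂ)
    (w : A → Fin 2 → ℂ) :
    aiFlat (Pi.single α z) ⬝ᵥ (aiBig Q *ᵥ aiFlat w) = ∑ β, z ⬝ᵥ (Q α β *ᵥ w β) := by
  rw [aiBig_dot, Finset.sum_eq_single α]
  · simp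
  · intro γ _ h
    simp [h]
  · simp

omit [Fintype A] in
theorem aiSm_emb {J : Set ℝ} {x : ℝ → A → Matrix (Fin 2) (Fin 2) ℝ}
    (h : ∀ α i j, ContDiffOn ℝ ∞ (fun t => x t α i j) J) : aiSm J fun t => aiEmb (x t) := by
  intro q q'
  simp only [aiEmb_apply]
  split_ifs
  · exact ai_ofReal (h _ _ _)
  · exact contDiffOn_const

omit [Fintype A] in
theorem aiD_emb {x : ℝ → A → Matrix (Fin 2) (Fin 2) ℝ} {x' : A → Matrix (Fin 2) (Fin 2) ℝ} {θ : ℝ}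
    (h : ∀ α i j, HasDerivAt (fun t => x t α i j) (x' α i j) θ) :
    aiD (fun t => aiEmb (x t)) θ = aiEmb x' := by
  ext q q'
  simp only [aiD, aiEmb_apply, Matrix.of_apply]
  split_ifs
  · exact (h _ _ _).ofReal_comp.deriv
  · exact deriv_const _ _

/-- the values at `θ` of the admissible matrix functions -/
def aiLie (J : Set ℝ) (u : ℝ → Fin 2 × A → ℂ) (θ : ℝ) :
    Submodule ℝ (A → Matrix (Fin 2) (Fin 2) ℝ) where
  carrier := {x | (∀ α, (x α).trace = 0) ∧ ∃ W, aiG J u W ∧ W θ = aiEmb x}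
  zero_mem' := ⟨fun _ => trace_zero _ _, _, aiG_zero, aiEmb_zero.symm⟩
  add_mem' := by
    rintro x x' ⟨h1, W, h2, h3⟩ ⟨h1', W', h2', h3'⟩
    exact ⟨fun α => by rw [Pi.add_apply, trace_add, h1, h1', add_zero], _, h2.add h2', by
      rw [aiEmb_add, ← h3, ← h3']⟩
  smul_mem' := by
    rintro c x ⟨h1, W, h2, h3⟩
    exact ⟨fun α => by rw [Pi.smul_apply, trace_smul, h1, smul_zero], _,
      h2.smul (φ := fun _ => c) contDiffOn_const, by rw [aiEmb_smul, ← h3]⟩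

theorem aiLie_br {J : Set ℝ} {u : ℝ → Fin 2 × A → ℂ} {θ : ℝ} :
    ∀ x ∈ aiLie J u θ, ∀ y ∈ aiLie J u θ, x * y - y * x ∈ aiLie J u θ := by
  rintro x ⟨-, W, h2, h3⟩ x' ⟨-, W', h2', h3'⟩
  exact ⟨fun α => by rw [Pi.sub_apply, Pi.mul_apply, Pi.mul_apply, trace_sub, trace_mul_comm, sub_self],
    _, h2.br h2', by rw [aiEmb_sub, aiEmb_mul, aiEmb_mul, ← h3, ← h3']⟩

theorem ai_final {J : Set ℝ} {v : ℝ → A → Fin 2 → ℂ} {θ : ℝ} (hθ : θ ∈ J) (hv : ∀ α, v θ α ≠ 0)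
    (h : ∀ α (Z : Matrix (Fin 2) (Fin 2) ℝ), Z.trace = 0 →
      Pi.single α Z ∈ aiLie J (fun t => aiFlat (v t)) θ)
    (Q : A → A → Matrix (Fin 2) (Fin 2) ℂ) (hQ : ∀ α β, Q β α = (Q α β)ᵀ)
    (h0 : aiI J (fun t => aiFlat (v t)) fun _ => aiBig Q) : Q = 0 := by
  refine form_zero Q hQ (v θ) hv (fun α Z hZ => ?_) fun α β Z Z₁ hZ hZ₁ => ?_
  · obtain ⟨-, W, h1, h2⟩ := h α Z hZ
    have := (h1.2 _ h0).2 θ hθ
    simp only [h2] at this
    rw [ai_dot_act, aiBig_symm hQ (aiFlat (v θ)), aiEmb_mulVec, ai_single, aiBig_single] at this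
    linear_combination this / 2
  · obtain ⟨-, W, h1, h2⟩ := h α Z hZ
    obtain ⟨-, W₁, h3, h4⟩ := h β Z₁ hZ₁
    have := (h3.2 _ (h1.2 _ h0)).2 θ hθ
    simp only [h2, h4] at this
    rw [ai_dot_act, ai_dot_act, ai_dot_act, aiBig_symm hQ (aiFlat (v θ)),
      aiBig_symm hQ (aiEmb (Pi.single β Z₁) *ᵥ aiFlat (v θ))] at this
    simp only [aiEmb_mulVec, ai_single, aiBig_single] at this
    have e : ∀ z z' : Fin 2 → ℂ,
        ∑ γ, z ⬝ᵥ (Q α γ *ᵥ (Pi.single β z' : A → Fin 2 → ℂ) γ) = z ⬝ᵥ (Q α β *ᵥ z') := fun z z' => by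
      rw [Finset.sum_eq_single β (fun γ _ hγ => by rw [Pi.single_eq_of_ne hγ, mulVec_zero,
        dotProduct_zero]) (by simp), Pi.single_eq_same]
    rw [e] at this
    split_ifs with hαβ
    · subst hαβ
      rw [Pi.single_eq_same, mulVec_mulVec, ← ai_map_mul] at this
      linear_combination this / 2
    · rw [Pi.single_eq_of_ne hαβ] at this
      simp only [mulVec_zero, zero_dotProduct, Finset.sum_const_zero] at this
      linear_combination this / 2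

theorem ai_quad {c₂ c₁ c₀ : ℝ} (h : c₂ ≠ 0 ∨ c₁ ≠ 0) :
    {x : ℝ | c₂ * x ^ 2 + c₁ * x + c₀ = 0}.Finite := by
  have hp : (Polynomial.C c₂ * Polynomial.X ^ 2 + Polynomial.C c₁ * Polynomial.X +
      Polynomial.C c₀ : Polynomial ℝ) ≠ 0 := by
    intro h0
    have h2 := congrArg (Polynomial.coeff · 2) h0
    have h1 := congrArg (Polynomial.coeff · 1) h0
    simp [Polynomial.coeff_C] at h1 h2
    tauto
  refine (Polynomial.finite_setOfPred_isRoot hp).subset fun x hx => ?_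
  simpa using hx

omit [DecidableEq A] in
theorem ai_generic (ν : ℝ) (κ lam μ : A → ℝ) (hinj : Function.Injective fun α => (κ α, lam α, μ α))
    (hlam : ∀ α, 0 < lam α) {a b : ℝ} (ha : 0 < a) (hab : a < b) (hb : b < π / 2) :
    ∃ θ ∈ Ioo a b, (∀ α, κ α - lam α * cos θ ^ 2 ≠ 0) ∧
      (∀ α, (κ α - lam α * cos θ ^ 2) ^ 2 ≠ ν ^ 2 * μ α * cos θ ^ 2) ∧
      ∀ α β, α ≠ β → μ α = μ β →
        (κ α - lam α * cos θ ^ 2) ^ 2 ≠ (κ β - lam β * cos θ ^ 2) ^ 2 := by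
  have f1 : (⋃ α, {x : ℝ | κ α - lam α * x = 0}).Finite := finite_iUnion fun α =>
    (ai_quad (c₂ := 0) (c₁ := -lam α) (c₀ := κ α) (Or.inr (neg_ne_zero.2 (hlam α).ne'))).subset
      fun x (hx : _ = _) => by
        change _ = _
        linear_combination hx
  have f2 : (⋃ α, {x : ℝ | (κ α - lam α * x) ^ 2 = ν ^ 2 * μ α * x}).Finite :=
    finite_iUnion fun α =>
      (ai_quad (c₂ := lam α ^ 2) (c₁ := -2 * κ α * lam α - ν ^ 2 * μ α) (c₀ := κ α ^ 2)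
        (Or.inl (pow_ne_zero 2 (hlam α).ne'))).subset fun x (hx : _ = _) => by
          change _ = _
          linear_combination hx
  have f3 : (⋃ α, ⋃ β, {x : ℝ | α ≠ β ∧ μ α = μ β ∧
      (κ α - lam α * x) ^ 2 = (κ β - lam β * x) ^ 2}).Finite := by
    refine finite_iUnion fun α => finite_iUnion fun β => ?_
    by_cases h : α ≠ β ∧ μ α = μ β
    · refine (ai_quad (c₂ := lam α ^ 2 - lam β ^ 2) (c₁ := -2 * (κ α * lam α - κ β * lam β))
        (c₀ := κ α ^ 2 - κ β ^ 2) ?_).subset fun x hx => ?_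
      · by_contra h0
        push Not at h0
        have e1 : lam α = lam β := by
          have := hlam α
          have := hlam β
          nlinarith [h0.1]
        have e2 : κ α = κ β := by
          have h3 := h0.2
          rw [← e1] at h3
          exact mul_right_cancel₀ (hlam α).ne' (by linarith)
        exact h.1 (hinj (by simp only [e1, e2, h.2]))
      · change _ = _
        linear_combination hx.2.2
    · exact finite_empty.subset fun x hx => h ⟨hx.1, hx.2.1⟩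
  have hI : ((fun θ => cos θ ^ 2) '' Ioo a b).Infinite := by
    refine (Ioo_infinite hab).image fun s hs t ht hst => ?_
    have h1 : 0 < cos s := cos_pos_of_mem_Ioo ⟨by linarith [hs.1, pi_pos], hs.2.trans hb⟩
    have h2 : 0 < cos t := cos_pos_of_mem_Ioo ⟨by linarith [ht.1, pi_pos], ht.2.trans hb⟩
    exact injOn_cos ⟨by linarith [hs.1], by linarith [hs.2, pi_pos]⟩
      ⟨by linarith [ht.1], by linarith [ht.2, pi_pos]⟩ ((sq_eq_sq₀ h1.le h2.le).1 hst)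
  obtain ⟨_, ⟨θ, hθ, rfl⟩, h⟩ := hI.exists_notMem_finite ((f1.union f2).union f3)
  simp only [mem_union, mem_iUnion, mem_ofPred_eq, not_or, not_exists, not_and] at h
  exact ⟨θ, hθ, h.1.1, h.1.2, h.2⟩

end conc

theorem alg_indep {A : Type} [Fintype A] [DecidableEq A] (n : ℕ) (κ lam μ : A → ℝ)
    (hinj : Function.Injective fun α => (κ α, lam α, μ α)) (hlam : ∀ α, 0 < lam α) {a b : ℝ}
    (ha : 0 < a) (hab : a < b) (hb : b < π / 2) {ϱ : ℝ → ℝ} (hc : ContinuousOn ϱ (Ioo a b))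
    (hrough : ∀ a' b', a ≤ a' → a' < b' → b' ≤ b → ¬ContDiffOn ℝ ∞ ϱ (Ioo a' b'))
    (y p : A → ℝ → ℂ) (hy : ∀ α, ∀ θ ∈ Ioo a b, HasDerivAt (y α) ((ϱ θ / sin θ : ℝ) * p α θ) θ ∧
      HasDerivAt (p α) ((((n : ℝ) - 3) * tan θ : ℝ) * p α θ +
        (sin θ * (κ α / cos θ ^ 2 - lam α) + ϱ θ * μ α / sin θ : ℝ) * y α θ) θ)
    (hne : ∀ α, ∀ θ ∈ Ioo a b, y α θ ≠ 0 ∨ p α θ ≠ 0) (Q : A → A → Matrix (Fin 2) (Fin 2) ℂ)
    (hQ : ∀ α β, Q β α = (Q α β)ᵀ)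
    (h0 : ∀ θ ∈ Ioo a b, ∑ α, ∑ β, ![y α θ, p α θ] ⬝ᵥ (Q α β *ᵥ ![y β θ, p β θ]) = 0) : Q = 0 := by
  have hsin : ∀ θ ∈ Ioo a b, 0 < sin θ := fun θ hθ =>
    sin_pos_of_pos_of_lt_pi (ha.trans hθ.1) (by linarith [hθ.2, pi_pos])
  have hcos : ∀ θ ∈ Ioo a b, 0 < cos θ := fun θ hθ =>
    cos_pos_of_mem_Ioo ⟨by linarith [hθ.1, pi_pos], hθ.2.trans hb⟩
  set ν : ℝ := (n : ℝ) - 3
  let r : A → ℝ → ℝ := fun α θ => sin θ * (κ α / cos θ ^ 2 - lam α)
  let w : ℝ → ℝ := fun θ => ν * tan θ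
  have hr : ∀ α, ContDiffOn ℝ ∞ (r α) (Ioo a b) := fun α =>
    contDiff_sin.contDiffOn.mul ((contDiffOn_const.div (contDiff_cos.contDiffOn.pow 2)
      fun θ hθ => pow_ne_zero 2 (hcos θ hθ).ne').sub contDiffOn_const)
  have hw : ContDiffOn ℝ ∞ w (Ioo a b) := contDiffOn_const.mul fun θ hθ =>
    (contDiffAt_tan.2 (hcos θ hθ).ne').contDiffWithinAt
  let X : A → Matrix (Fin 2) (Fin 2) ℝ := fun α => !![0, 1; μ α, 0]
  let M : ℝ → A → Matrix (Fin 2) (Fin 2) ℝ := fun θ α => !![0, 0; r α θ, w θ]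
  let N : ℝ → A → Matrix (Fin 2) (Fin 2) ℝ := fun θ α => !![-r α θ, 0; 2 * w θ * μ α, r α θ]
  let v : ℝ → A → Fin 2 → ℂ := fun θ α => ![y α θ, p α θ]
  have hM : aiSm (Ioo a b) fun θ => aiEmb (M θ) := aiSm_emb fun α i j => by
    fin_cases i <;> fin_cases j
    · exact contDiffOn_const
    · exact contDiffOn_const
    · exact hr α
    · exact hw
  have hu : ∀ θ ∈ Ioo a b, ∀ q, HasDerivAt (fun t => aiFlat (v t) q)
      (((((ϱ θ / sin θ : ℝ) : ℂ) • aiEmb X + aiEmb (M θ)) *ᵥ aiFlat (v θ)) q) θ := by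
    rintro θ hθ ⟨i, α⟩
    rw [← aiEmb_smul, ← aiEmb_add, aiEmb_mulVec]
    fin_cases i
    · refine (hy α θ hθ).1.congr_deriv ?_
      simp [aiFlat, X, M, v, mulVec, dotProduct]
    · refine (hy α θ hθ).2.congr_deriv ?_
      simp [aiFlat, X, M, v, r, w, mulVec, dotProduct]
      ring
  have key := fun Q' => ai_key (Q := Q') (σ := fun θ => ϱ θ / sin θ)
    (hc.div continuous_sin.continuousOn fun θ hθ => (hsin θ hθ).ne') hM
    (fun a' b' h1 h2 h3 h4 => hrough a' b' h1 h2 h3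
      ((h4.mul contDiff_sin.contDiffOn).congr fun θ hθ =>
        (div_mul_cancel₀ _ (hsin θ ⟨h1.trans_lt hθ.1, hθ.2.trans_le h3⟩).ne').symm)) hu
  have gX : aiG (Ioo a b) (fun t => aiFlat (v t)) fun _ => aiEmb X :=
    ⟨aiSm_const _, fun Q' h => (key Q' h).1⟩
  have gD := fun W => aiG.D (W := W) isOpen_Ioo hM fun Q' h => (key Q' h).2
  have gN : aiG (Ioo a b) (fun t => aiFlat (v t)) fun t => aiEmb (N t) := by
    have := ((gD _ gX).smul (φ := fun _ => -1) contDiffOn_const).add (gX.smul hw)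
    convert this using 2 with t
    rw [aiD_emb (x := fun _ => X) (x' := 0) fun _ _ _ => hasDerivAt_const _ _, ← aiEmb_mul,
      ← aiEmb_mul, ← aiEmb_sub, ← aiEmb_add, ← aiEmb_smul, ← aiEmb_smul, ← aiEmb_add]
    congr 1
    funext α
    ext i j
    fin_cases i <;> fin_cases j <;> simp [X, M, N]
    ring
  obtain ⟨θ, hθ, g1, g2, g3⟩ := ai_generic ν κ lam μ hinj hlam ha hab hb
  have hs := hsin θ hθ
  have hc' := hcos θ hθ
  have er : ∀ α, r α θ = sin θ / cos θ ^ 2 * (κ α - lam α * cos θ ^ 2) := fun α => by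
    simp only [r]
    field_simp
  have hsc : sin θ / cos θ ^ 2 ≠ 0 := by positivity
  have dr : ∀ α, HasDerivAt (r α) (deriv (r α) θ) θ := fun α =>
    (((hr α).contDiffAt (isOpen_Ioo.mem_nhds hθ)).differentiableAt (by simp)).hasDerivAt
  have dw : HasDerivAt w (deriv w θ) θ :=
    ((hw.contDiffAt (isOpen_Ioo.mem_nhds hθ)).differentiableAt (by simp)).hasDerivAt
  let N' : A → Matrix (Fin 2) (Fin 2) ℝ := fun α =>
    !![-deriv (r α) θ, 0; 2 * deriv w θ * μ α, deriv (r α) θ]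
  have dN : aiD (fun t => aiEmb (N t)) θ = aiEmb N' := aiD_emb fun α i j => by
    fin_cases i <;> fin_cases j
    · exact (dr α).neg
    · exact hasDerivAt_const _ _
    · exact (dw.const_mul 2).mul_const _
    · exact dr α
  have hρ : ∀ α, r α θ ≠ 0 := fun α => by
    rw [er]
    exact mul_ne_zero hsc (g1 α)
  refine ai_final (v := v) hθ (fun α h => ?_) (lie_full (aiLie _ _ θ) aiLie_br (fun x hx => hx.1) μ
    (fun α => r α θ) (w θ) hρ (fun α h => g2 α ?_) (fun α β hαβ => ?_)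
    ⟨fun α => by simp, _, gX, rfl⟩ ⟨fun α => by simp, _, gN, rfl⟩ (N' + (N θ * M θ - M θ * N θ))
    ⟨fun α => ?_, _, gD _ gN, ?_⟩ fun α h => ?_) Q hQ ⟨aiSm_const _, fun t ht => ?_⟩
  · rcases hne α θ hθ with h1 | h1
    · exact h1 (congrFun h 0)
    · exact h1 (congrFun h 1)
  · refine mul_left_cancel₀ (pow_ne_zero 2 hsc) ?_
    rw [← mul_pow, ← er, h]
    simp only [w, tan_eq_sin_div_cos]
    field_simp
  · by_cases h : μ α = μ β
    · refine Or.inr fun h' => g3 α β hαβ h (mul_left_cancel₀ (pow_ne_zero 2 hsc) ?_)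
      rw [← mul_pow, ← mul_pow, ← er, ← er, h']
    · exact Or.inl h
  · rw [Pi.add_apply, Pi.sub_apply, Pi.mul_apply, Pi.mul_apply, trace_add, trace_sub, trace_mul_comm]
    simp [N']
  · simp only [dN, aiEmb_add, aiEmb_sub, aiEmb_mul]
  · have := hρ α
    simp [N', N, M, h, this]
  · rw [aiBig_dot]
    exact h0 t ht

end Crest.Agent.R202
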