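import Crest.Agent.R202.GDefs

/-!
# Basic facts on `conf`, `met`, `coneG` (task G0)
-/

set_option autoImplicit false

noncomputable section

open scoped InnerProductSpace ContDiff
open Set Filter Topology
open Crest.GeometryTopology.CoordMetric Crest.GeometryTopology.ChartCurvature Matrix

namespace Crest.Agent.R202

variable {n : ℕ}

theorem Prof.le_one {β : ℝ → ℝ} {b : ℝ} (h : Prof β b) (t : ℝ) : β t ≤ 1 := by
  rcases le_total t 0 with ht | ht
  · exact (h.left t ht).le
  · exact (antitone_of_deriv_nonpos (h.smooth.differentiable (by simp)) h.anti ht).trans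
      (h.left 0 le_rfl).le

theorem hasDerivAt_FF {β : ℝ → ℝ} (h : Continuous β) (t : ℝ) :
    HasDerivAt (FF β) (β t * FF β t) t := by
  have h1 := (h.integral_hasStrictDerivAt 0 t).hasDerivAt.exp
  rw [mul_comm] at h1
  exact h1

theorem confR_eq {β : ℝ → ℝ} (h : Continuous β) {R : ℝ} (hR : 0 < R) :
    confR β R = FF β (Real.log R) / R := by
  unfold confR FF
  rw [intervalIntegral.integral_sub (h.intervalIntegrable _ _) (by simp), Real.exp_sub]
  simp [Real.exp_log hR]

/-- the exponent of the conformal factor -/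
def gbI (β : ℝ → ℝ) (t : ℝ) : ℝ := ∫ s in (0 : ℝ)..t, (β s - 1)

theorem gb_hasDerivAt {β : ℝ → ℝ} (h : Continuous β) (t : ℝ) : HasDerivAt (gbI β) (β t - 1) t :=
  ((h.sub continuous_const).integral_hasStrictDerivAt 0 t).hasDerivAt

theorem gb_zero {β : ℝ → ℝ} {b : ℝ} (h : Prof β b) {t : ℝ} (ht : t ≤ 0) : gbI β t = 0 := by
  unfold gbI
  rw [intervalIntegral.integral_congr (g := fun _ => 0) fun s hs => ?_]
  · simp
  · rw [uIcc_of_ge ht] at hs
    simp [h.left s hs.2]

theorem gb_anti {β : ℝ → ℝ} {b : ℝ} (h : Prof β b) : Antitone (gbI β) :=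
  antitone_of_deriv_nonpos (fun t => (gb_hasDerivAt h.smooth.continuous t).differentiableAt)
    fun t => by
      rw [(gb_hasDerivAt h.smooth.continuous t).deriv]
      exact sub_nonpos.2 (h.le_one t)

theorem gb_contDiff {β : ℝ → ℝ} {b : ℝ} (h : Prof β b) : ContDiff ℝ ∞ (gbI β) := by
  rw [contDiff_infty_iff_deriv]
  refine ⟨fun t => (gb_hasDerivAt h.smooth.continuous t).differentiableAt, ?_⟩
  rw [show deriv (gbI β) = fun t => β t - 1 from
    funext fun t => (gb_hasDerivAt h.smooth.continuous t).deriv]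
  exact h.smooth.sub contDiff_const

theorem Prof.confR_eq_one {β : ℝ → ℝ} {b : ℝ} (h : Prof β b) {R : ℝ} (hR : |R| ≤ 1) :
    confR β R = 1 := by
  have h1 : Real.log R ≤ 0 := by
    rw [← Real.log_abs]
    exact Real.log_nonpos (abs_nonneg _) hR
  change Real.exp (gbI β (Real.log R)) = 1
  rw [gb_zero h h1, Real.exp_zero]

theorem Prof.confR_anti {β : ℝ → ℝ} {b : ℝ} (h : Prof β b) : AntitoneOn (confR β) (Ici 0) := by
  intro R hR R' _ hRR'
  change Real.exp (gbI β (Real.log R')) ≤ Real.exp (gbI β (Real.log R))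
  rw [Real.exp_le_exp]
  rcases (mem_Ici.1 hR).eq_or_lt with rfl | hR0
  · rw [Real.log_zero]
    rcases le_total (Real.log R') 0 with h1 | h1
    · rw [gb_zero h h1, gb_zero h le_rfl]
    · exact gb_anti h h1
  · exact gb_anti h (Real.log_le_log hR0 hRR')

theorem Prof.continuous_confR {β : ℝ → ℝ} {b : ℝ} (h : Prof β b) : Continuous (confR β) := by
  rw [continuous_iff_continuousAt]
  intro R
  by_cases hR : R = 0
  · subst hR
    refine (continuousAt_const (y := (1 : ℝ))).congr ?_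
    filter_upwards [Metric.closedBall_mem_nhds (0 : ℝ) one_pos] with R hR
    exact (h.confR_eq_one (by simpa using hR)).symm
  · exact ((gb_contDiff h).continuous.continuousAt.comp (Real.continuousAt_log hR)).rexp

theorem Prof.contDiff_conf {β : ℝ → ℝ} {b : ℝ} (h : Prof β b) :
    ContDiff ℝ ∞ (conf β : Vec n → ℝ) := by
  rw [contDiff_iff_contDiffAt]
  intro x
  by_cases hx : x = 0
  · subst hx
    refine (contDiffAt_const (c := (1 : ℝ))).congr_of_eventuallyEq ?_
    filter_upwards [Metric.closedBall_mem_nhds (0 : Vec n) one_pos] with y hy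
    exact h.confR_eq_one (by simpa using hy)
  · exact ((gb_contDiff h).contDiffAt.comp x
      ((contDiffAt_norm ℝ hx).log (norm_ne_zero_iff.2 hx))).exp

theorem Prof.pderiv_conf {β : ℝ → ℝ} {b : ℝ} (h : Prof β b) {x : Vec n} (hx : x ≠ 0) (i : Fin n) :
    pderiv i (conf β) x = conf β x * ((β (Real.log ‖x‖) - 1) * x i / ‖x‖ ^ 2) := by
  have hn : ‖x‖ ^ 2 ≠ 0 := pow_ne_zero 2 (norm_ne_zero_iff.2 hx)
  have h1 := (((hasStrictFDerivAt_norm_sq x).hasFDerivAt.log hn).const_mul (1 / 2 : ℝ))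
  have e1 : (fun y : Vec n => (1 / 2 : ℝ) * Real.log (‖y‖ ^ 2)) = fun y => Real.log ‖y‖ := by
    funext y
    rw [Real.log_pow]
    push_cast
    ring
  rw [e1] at h1
  have h2 := (gb_hasDerivAt h.smooth.continuous (Real.log ‖x‖)).exp.comp_hasFDerivAt x h1
  have h3 : fderiv ℝ (conf β) x = _ := h2.fderiv
  unfold Crest.GeometryTopology.CoordMetric.pderiv
  rw [h3]
  change _ = Real.exp (gbI β (Real.log ‖x‖)) * _
  simp [EuclideanSpace.inner_single_right]
  field_simp

theorem Prof.FF_ge {β : ℝ → ℝ} {b : ℝ} (h : Prof β b) {t : ℝ} (ht : 0 ≤ t) :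
    Real.exp (b * t) ≤ FF β t := by
  unfold FF
  rw [Real.exp_le_exp]
  have h1 := intervalIntegral.integral_mono_on (μ := MeasureTheory.volume) ht
    (f := fun _ => b) (by simp) (h.smooth.continuous.intervalIntegrable _ _) fun s _ => h.ge s
  simpa [mul_comm] using h1

theorem Prof.FF_le_rho {β : ℝ → ℝ} {b : ℝ} (h : Prof β b) {R : ℝ} (hR : 0 < R) :
    FF β (Real.log R) ≤ rho β R := by
  have h1 := intervalIntegral.integral_mono_on (μ := MeasureTheory.volume) hR.le
    (f := fun _ => confR β R) (by simp) (h.continuous_confR.intervalIntegrable _ _)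
    fun s hs => h.confR_anti hs.1 hR.le hs.2
  rw [intervalIntegral.integral_const, confR_eq h.smooth.continuous hR, sub_zero, smul_eq_mul,
    mul_div_cancel₀ _ hR.ne'] at h1
  exact h1

theorem Rad.posDef {G : MetricField n} (h : Rad G) (x : Vec n) : (G x).PosDef := by
  refine Matrix.PosDef.of_dotProduct_mulVec_pos (Matrix.isHermitian_iff_isSymm.2 (h.symm x))
    fun v hv => ?_
  have h1 := (h.bnd x (WithLp.toLp 2 v)).1
  have h2 : 0 < ‖(WithLp.toLp 2 v : Vec n)‖ := norm_pos_iff.2 (by simpa using hv)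
  refine lt_of_lt_of_le (by positivity) (h1.trans (le_of_eq ?_))
  simp only [quadForm, dotProduct, mulVec, star_trivial, Finset.mul_sum]
  exact Finset.sum_congr rfl fun i _ => Finset.sum_congr rfl fun j _ => by ring

theorem isRiemannian_met {β : ℝ → ℝ} {b : ℝ} (h : Prof β b) {G : MetricField n} (hG : Rad G) :
    IsRiemannianOn (met β G) univ := by
  refine ⟨isOpen_univ, fun i j => ?_, fun x _ => (hG.posDef x).smul ?_⟩
  · exact ((h.contDiff_conf.pow 2).mul (hG.smooth i j)).contDiffOn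
  · exact pow_pos (Real.exp_pos _) 2

theorem met_eq_one {β : ℝ → ℝ} {b : ℝ} (h : Prof β b) {G : MetricField n} (hG : Rad G) {x : Vec n}
    (hx : ‖x‖ ≤ 1) : met β G x = 1 := by
  unfold met conf
  rw [h.confR_eq_one (by simpa using hx), hG.left x hx]
  simp

theorem contDiffAt_hat {x : Vec n} (hx : x ≠ 0) : ContDiffAt ℝ ∞ (hat : Vec n → Vec n) x := by
  exact ((contDiffAt_norm ℝ hx).inv (norm_ne_zero_iff.2 hx)).smul contDiffAt_id

theorem norm_hat {x : Vec n} (hx : x ≠ 0) : ‖hat x‖ = 1 := by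
  unfold hat
  rw [norm_smul, norm_inv, norm_norm, inv_mul_cancel₀ (norm_ne_zero_iff.2 hx)]

theorem gb_bnd {G : MetricField n} {x : Vec n} {ε : ℝ} (hε : 2 * n * ε ≤ 1)
    (h : ∀ i j, |G x i j - (1 : Matrix (Fin n) (Fin n) ℝ) i j| ≤ ε) (w : Vec n) :
    ‖w‖ ^ 2 / 2 ≤ quadForm G x w ∧ quadForm G x w ≤ 2 * ‖w‖ ^ 2 := by
  have hw : ‖w‖ ^ 2 = ∑ i, w i ^ 2 := EuclideanSpace.real_norm_sq_eq w
  have e1 : quadForm G x w - ‖w‖ ^ 2 =
      ∑ i, ∑ j, (G x i j - (1 : Matrix (Fin n) (Fin n) ℝ) i j) * w i * w j := by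
    simp only [quadForm, hw, sub_mul, Finset.sum_sub_distrib, Matrix.one_apply, ite_mul, one_mul,
      zero_mul, Finset.sum_ite_eq, Finset.mem_univ, if_true, sq]
  have e2 : ∑ i, ∑ j, ε * ((w i ^ 2 + w j ^ 2) / 2) = n * ε * ‖w‖ ^ 2 := by
    simp only [← Finset.mul_sum, ← Finset.sum_div, Finset.sum_add_distrib, ← hw, Finset.sum_const,
      Finset.card_univ, Fintype.card_fin, nsmul_eq_mul]
    ring
  have h1 : |quadForm G x w - ‖w‖ ^ 2| ≤ n * ε * ‖w‖ ^ 2 := by
    rw [e1, ← e2]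
    refine (Finset.abs_sum_le_sum_abs _ _).trans (Finset.sum_le_sum fun i _ =>
      (Finset.abs_sum_le_sum_abs _ _).trans (Finset.sum_le_sum fun j _ => ?_))
    rw [mul_assoc, abs_mul]
    refine mul_le_mul (h i j) ?_ (abs_nonneg _) ((abs_nonneg _).trans (h i j))
    rw [abs_le]
    constructor <;> nlinarith [sq_nonneg (w i + w j), sq_nonneg (w i - w j)]
  have h2 : n * ε * ‖w‖ ^ 2 ≤ 1 / 2 * ‖w‖ ^ 2 :=
    mul_le_mul_of_nonneg_right (by linarith) (sq_nonneg _)
  have h3 := abs_le.1 (h1.trans h2)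
  constructor <;> nlinarith [sq_nonneg ‖w‖]

theorem GFam.rad_coneG {E : Type} [NormedAddCommGroup E] [NormedSpace ℝ E] {𝒢 : E → MetricField n}
    (h : GFam 𝒢) {z : ℝ → E} (hz : ContDiff ℝ ∞ z) (hz0 : ∀ t, t ≤ 0 → z t = 0) {ε : ℝ}
    (hε : 2 * n * ε ≤ 1) (hs : ∀ t, GSmall (𝒢 (z t)) ε) : Rad (coneG 𝒢 z) := by
  have hl : ∀ x : Vec n, ‖x‖ ≤ 1 → coneG 𝒢 z x = 1 := fun x hx => by
    unfold coneG
    rw [hz0 _ (Real.log_nonpos (norm_nonneg _) hx), h.zero]
  refine ⟨fun i j => ?_, fun x => h.symm _ _, fun x w => ?_, hl, fun x => ?_, fun x => ?_⟩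
  · rw [contDiff_iff_contDiffAt]
    intro x
    by_cases hx : x = 0
    · subst hx
      refine (contDiffAt_const (c := (1 : Matrix (Fin n) (Fin n) ℝ) i j)).congr_of_eventuallyEq ?_
      filter_upwards [Metric.closedBall_mem_nhds (0 : Vec n) one_pos] with y hy
      rw [hl y (by simpa using hy)]
    · exact (h.smooth i j).contDiffAt.comp x ((hz.contDiffAt.comp x
        ((contDiffAt_norm ℝ hx).log (norm_ne_zero_iff.2 hx))).prodMk (contDiffAt_hat hx))
  · by_cases hx : x = 0
    · refine gb_bnd (ε := 0) (by simp) (fun i j => ?_) w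
      rw [hl x (by simp [hx])]
      simp
    · refine gb_bnd hε (fun i j => ?_) w
      have h1 := hs (Real.log ‖x‖) (hat x) (norm_hat hx) i j 0 (by norm_num)
      rwa [norm_iteratedFDeriv_zero, Real.norm_eq_abs] at h1
  · by_cases hx : x = 0
    · simp [hx]
    · have h1 := h.rad (z (Real.log ‖x‖)) (hat x) (norm_hat hx)
      have h2 : x.ofLp = ‖x‖ • (hat x).ofLp := by
        unfold hat
        rw [WithLp.ofLp_smul, smul_inv_smul₀ (norm_ne_zero_iff.2 hx)]
      unfold coneG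
      conv_lhs => rw [h2, Matrix.mulVec_smul, h1]
      exact h2.symm
  · by_cases hx : x = 0
    · rw [hl x (by simp [hx]), Matrix.det_one]
    · exact h.det _ _ (norm_hat hx)

end Crest.Agent.R202
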