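import Crest.Agent.R202.GDefs

/-!
# Markov-type bounds for homogeneous polynomials (task G9a)

One variable: `|p| ≤ M` on `[a,b]`, `deg p ≤ d` gives `|p'(b)| ≤ 2 d² M/(b-a)` (Mathlib:
`Polynomial.Chebyshev` extremal results in `Mathlib/Analysis/SpecialFunctions/Trigonometric/Chebyshev/Extremal.lean`, `T_d'(1) = d²`).
For `‖x‖ ≤ 1` use the segment of length `1/d` ending at `x` in direction `eᵢ`; by homogeneity `|P| ≤ (1+1/d)^d M ≤ 3M` there.  So
`|∂ᵢ P| ≤ 6 d³ M` on the unit ball; `∂ᵢ P` is homogeneous of degree `d-1`; induct on `p`.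
-/

set_option autoImplicit false

noncomputable section

open scoped InnerProductSpace ContDiff
open Set Filter Topology
open Crest.GeometryTopology.CoordMetric Crest.GeometryTopology.ChartCurvature Matrix

namespace Crest.Agent.R202

theorem mkv_C {n : ℕ} (a : ℝ) : evp (MvPolynomial.C a : MvPolynomial (Fin n) ℝ) = fun _ => a :=
  funext fun x => by simp [evp]

theorem mkv_add {n : ℕ} (P Q : MvPolynomial (Fin n) ℝ) :
    evp (P + Q) = fun x => evp P x + evp Q x := funext fun x => by simp [evp]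

theorem mkv_mul {n : ℕ} (P : MvPolynomial (Fin n) ℝ) (j : Fin n) :
    evp (P * MvPolynomial.X j) = fun x => evp P x * EuclideanSpace.proj (𝕜 := ℝ) j x :=
  funext fun x => by simp [evp]

theorem contDiff_evp {n : ℕ} (P : MvPolynomial (Fin n) ℝ) : ContDiff ℝ ∞ (evp P) := by
  induction P using MvPolynomial.induction_on with
  | C a => rw [mkv_C]; exact contDiff_const
  | add P Q hP hQ => rw [mkv_add]; exact hP.add hQ
  | mul_X P j hP => rw [mkv_mul]; exact hP.mul (ContinuousLinearMap.contDiff _)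

theorem pderiv_evp {n : ℕ} (P : MvPolynomial (Fin n) ℝ) (i : Fin n) (x : Vec n) :
    pderiv i (evp P) x = evp (MvPolynomial.pderiv i P) x := by
  have hd : ∀ Q : MvPolynomial (Fin n) ℝ, DifferentiableAt ℝ (evp Q) x := fun Q =>
    ((contDiff_evp Q).differentiable (by simp)).differentiableAt
  unfold pderiv
  induction P using MvPolynomial.induction_on with
  | C a => rw [mkv_C]; simp [evp]
  | add P Q hP hQ =>
    rw [mkv_add, fderiv_fun_add (hd P) (hd Q), _root_.add_apply, hP, hQ, map_add, mkv_add]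
  | mul_X P j hP =>
    rw [mkv_mul, fderiv_fun_mul (hd P) (ContinuousLinearMap.differentiableAt _),
      ContinuousLinearMap.fderiv]
    simp only [_root_.add_apply, _root_.smul_apply, hP, smul_eq_mul]
    by_cases h : j = i
    · subst h
      simp [evp]
    · simp [evp, h, MvPolynomial.pderiv_X_of_ne h]

theorem evp_smul {n d : ℕ} {P : MvPolynomial (Fin n) ℝ} (hP : P.IsHomogeneous d) (s : ℝ) (x : Vec n) :
    evp P (s • x) = s ^ d * evp P x := by
  unfold evp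
  rw [MvPolynomial.eval_eq', MvPolynomial.eval_eq', Finset.mul_sum]
  refine Finset.sum_congr rfl fun m hm => ?_
  have h : ∑ i, m i = d := by
    rw [← hP (MvPolynomial.mem_support_iff.1 hm), Finsupp.weight_apply, Finsupp.sum_fintype _ _ (by simp)]
    simp
  simp only [WithLp.ofLp_smul, Pi.smul_apply, smul_eq_mul, mul_pow]
  rw [Finset.prod_mul_distrib, Finset.prod_pow_eq_pow_sum, h]
  ring

theorem mkv_one' {d : ℕ} {q : Polynomial ℝ} (hq : q.degree ≤ d) {M : ℝ} (hM : 0 < M)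
    (h : ∀ t ∈ Set.Icc (-1 : ℝ) 1, |q.eval t| ≤ M) : q.derivative.eval 1 ≤ d ^ 2 * M := by
  have h1 := Polynomial.Chebyshev.eval_iterate_derivative_le_of_forall_abs_le_one
    (P := Polynomial.C M⁻¹ * q) (n := d) (k := 1) (x := 1) le_rfl
    ((Polynomial.degree_C_mul (inv_ne_zero hM.ne')).trans_le hq) fun t ht => by
      rw [Polynomial.eval_C_mul, abs_mul, abs_of_pos (inv_pos.2 hM), inv_mul_le_iff₀ hM, mul_one]
      exact h t ht
  rw [Function.iterate_one, Polynomial.Chebyshev.derivative_T_eval_one, Polynomial.derivative_C_mul,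
    Polynomial.eval_C_mul, inv_mul_le_iff₀ hM, mul_comm] at h1
  exact_mod_cast h1

theorem mkv_one {d : ℕ} {q : Polynomial ℝ} (hq : q.degree ≤ d) {M : ℝ} (hM : 0 ≤ M)
    (h : ∀ t ∈ Set.Icc (-1 : ℝ) 1, |q.eval t| ≤ M) : |q.derivative.eval 1| ≤ d ^ 2 * M := by
  refine le_of_forall_pos_le_add fun ε hε => ?_
  have hε' : 0 < ε / (d ^ 2 + 1) := by positivity
  have h0 : (d : ℝ) ^ 2 * (M + ε / (d ^ 2 + 1)) ≤ d ^ 2 * M + ε := by
    rw [mul_add, ← mul_div_assoc, add_le_add_iff_left, div_le_iff₀ (by positivity)]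
    linarith
  have h1 := mkv_one' hq (M := M + ε / (d ^ 2 + 1)) (by linarith) fun t ht => by linarith [h t ht]
  have h2 := mkv_one' (q := -q) (by rwa [Polynomial.degree_neg]) (M := M + ε / (d ^ 2 + 1))
    (by linarith) fun t ht => by
      rw [Polynomial.eval_neg, abs_neg]
      linarith [h t ht]
  rw [Polynomial.derivative_neg, Polynomial.eval_neg] at h2
  exact abs_le.2 ⟨by linarith, by linarith⟩

theorem mkv_big {n d : ℕ} {P : MvPolynomial (Fin n) ℝ} (hP : P.IsHomogeneous d) {M : ℝ}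
    (h : ∀ y : Vec n, ‖y‖ ≤ 1 → |evp P y| ≤ M) {y : Vec n} (hy : ‖y‖ ≤ 1 + ((d : ℝ) + 1)⁻¹) :
    |evp P y| ≤ 3 * M := by
  set s : ℝ := 1 + ((d : ℝ) + 1)⁻¹ with hs
  have hs0 : 0 < s := by positivity
  have h1 : s ^ d ≤ 3 := by
    have h2 : s ≤ Real.exp ((d : ℝ) + 1)⁻¹ := by rw [hs, add_comm]; exact Real.add_one_le_exp _
    refine (pow_le_pow_left₀ hs0.le h2 d).trans ?_
    rw [← Real.exp_nat_mul]
    refine (Real.exp_le_exp.2 ?_).trans (Real.exp_one_lt_d9.le.trans (by norm_num))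
    rw [← div_eq_mul_inv, div_le_one (by positivity)]
    linarith
  have h3 := h (s⁻¹ • y) (by
    rwa [norm_smul, Real.norm_of_nonneg (inv_pos.2 hs0).le, inv_mul_le_iff₀ hs0, mul_one])
  rw [← smul_inv_smul₀ hs0.ne' y, evp_smul hP, abs_mul, abs_of_pos (pow_pos hs0 d)]
  exact mul_le_mul h1 h3 (abs_nonneg _) (by norm_num)

theorem mkv_step {n d : ℕ} {P : MvPolynomial (Fin n) ℝ} (hP : P.IsHomogeneous d) {M : ℝ}
    (h : ∀ y : Vec n, ‖y‖ ≤ 1 → |evp P y| ≤ M) (i : Fin n) {x : Vec n} (hx : ‖x‖ ≤ 1) :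
    |evp (MvPolynomial.pderiv i P) x| ≤ 6 * ((d : ℝ) + 1) ^ 3 * M := by
  have hM : 0 ≤ M := (abs_nonneg _).trans (h x hx)
  set L : ℝ := ((d : ℝ) + 1)⁻¹ with hL
  have hL0 : 0 < L := by positivity
  set v : Vec n := (L / 2) • EuclideanSpace.single i 1 with hv
  set q : Polynomial ℝ := MvPolynomial.aeval
    (fun j => Polynomial.C (v j) * Polynomial.X + Polynomial.C (x j - v j)) P with hq
  have h1 : ∀ t, q.eval t = evp P (x + (t - 1) • v) := fun t => by
    rw [hq, ← Polynomial.coe_aeval_eq_eval, ← AlgHom.comp_apply, MvPolynomial.comp_aeval, evp,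
      ← MvPolynomial.coe_aeval_eq_eval]
    refine congrArg (fun f => MvPolynomial.aeval f P) (funext fun j => ?_)
    simp
    ring
  have h2 : q.degree ≤ d := Polynomial.degree_le_of_natDegree_le
    ((MvPolynomial.aeval_natDegree_le P hP.totalDegree_le _
      fun j => Polynomial.natDegree_linear_le).trans_eq (mul_one d))
  have h3 := mkv_one h2 (M := 3 * M) (by positivity) fun t ht => by
    rw [h1]
    refine mkv_big hP h ((norm_add_le _ _).trans (add_le_add hx ?_))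
    rw [norm_smul, hv, norm_smul, PiLp.norm_single, norm_one, mul_one,
      Real.norm_of_nonneg (half_pos hL0).le, Real.norm_eq_abs, abs_of_nonpos (by linarith [ht.2])]
    nlinarith [ht.1]
  have h4 : HasDerivAt (fun t : ℝ => x + (t - 1) • v) v 1 := by
    simpa using (((hasDerivAt_id (1 : ℝ)).sub_const 1).smul_const v).const_add x
  have h5 : HasFDerivAt (evp P) (fderiv ℝ (evp P) x) (x + ((1 : ℝ) - 1) • v) := by
    rw [sub_self, zero_smul, add_zero]
    exact ((contDiff_evp P).differentiable (by simp)).differentiableAt.hasFDerivAt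
  have h6 := h5.comp_hasDerivAt (1 : ℝ) h4
  have h7 : q.derivative.eval 1 = fderiv ℝ (evp P) x v :=
    (q.hasDerivAt 1).unique (by rw [funext h1]; exact h6)
  rw [h7, hv, map_smul, smul_eq_mul, abs_mul, abs_of_pos (half_pos hL0)] at h3
  rw [← pderiv_evp, pderiv]
  have h8 : (d : ℝ) ^ 2 ≤ ((d : ℝ) + 1) ^ 2 := by nlinarith [Nat.cast_nonneg (α := ℝ) d]
  have h9 := mul_le_mul_of_nonneg_left (h3.trans (mul_le_mul_of_nonneg_right h8 (by positivity)))
    (show (0 : ℝ) ≤ 2 * (d + 1) by positivity)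
  have h10 : ((d : ℝ) + 1) * L = 1 := mul_inv_cancel₀ (by positivity)
  calc _ = ((d : ℝ) + 1) * L * _ := by rw [h10, one_mul]
    _ = _ := by ring
    _ ≤ _ := h9
    _ = _ := by ring

theorem mkv_fderiv {n : ℕ} (P : MvPolynomial (Fin n) ℝ) : fderiv ℝ (evp P) = ∑ i,
    ContinuousLinearMap.toSpanSingleton ℝ (EuclideanSpace.proj i : Vec n →L[ℝ] ℝ) ∘
      evp (MvPolynomial.pderiv i P) := by
  funext x
  ext v
  conv_lhs => rw [← (EuclideanSpace.basisFun (Fin n) ℝ).sum_repr v]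
  rw [map_sum, Finset.sum_apply, _root_.sum_apply]
  refine Finset.sum_congr rfl fun i _ => ?_
  rw [map_smul, EuclideanSpace.basisFun_apply, Function.comp_apply, ← pderiv_evp, pderiv]
  simp [mul_comm]

theorem mkv_ball (n p : ℕ) : ∃ C : ℝ, 0 < C ∧ ∀ (d : ℕ) (P : MvPolynomial (Fin n) ℝ) (M : ℝ),
    P.IsHomogeneous d → (∀ y : Vec n, ‖y‖ ≤ 1 → |evp P y| ≤ M) →
    ∀ x : Vec n, ‖x‖ ≤ 1 → ‖iteratedFDeriv ℝ p (evp P) x‖ ≤ C * ((d : ℝ) + 1) ^ (3 * p) * M := by
  induction p with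
  | zero => exact ⟨1, one_pos, fun d P M _ h x hx => by simpa using h x hx⟩
  | succ p ih =>
    obtain ⟨C, hC, ih⟩ := ih
    set T := fun i : Fin n =>
      ContinuousLinearMap.toSpanSingleton ℝ (EuclideanSpace.proj i : Vec n →L[ℝ] ℝ) with hT
    have hK : 0 ≤ ∑ i, ‖T i‖ := Finset.sum_nonneg fun i _ => (T i).opNorm_nonneg
    refine ⟨(∑ i, ‖T i‖ + 1) * (6 * C), by positivity, fun d P M hP h x hx => ?_⟩
    have hM : 0 ≤ M := (abs_nonneg _).trans (h x hx)
    have hc : ∀ Q : MvPolynomial (Fin n) ℝ, ContDiffAt ℝ p (evp Q) x := fun Q =>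
      ((contDiff_evp Q).of_le (by exact_mod_cast le_top)).contDiffAt
    rw [← norm_iteratedFDeriv_fderiv, mkv_fderiv, iteratedFDeriv_sum_apply
      fun i _ => (ContinuousLinearMap.contDiff _).contDiffAt.comp x (hc _)]
    have key : ∀ i, ‖iteratedFDeriv ℝ p (evp (MvPolynomial.pderiv i P)) x‖ ≤
        6 * C * ((d : ℝ) + 1) ^ (3 * (p + 1)) * M := fun i => by
      have h1 : ((d - 1 : ℕ) : ℝ) ≤ d := by exact_mod_cast Nat.sub_le d 1
      calc _ ≤ _ := ih _ _ _ hP.pderiv (fun y hy => mkv_step hP h i hy) x hx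
        _ ≤ C * ((d : ℝ) + 1) ^ (3 * p) * (6 * ((d : ℝ) + 1) ^ 3 * M) := by gcongr
        _ = _ := by ring
    calc _ ≤ _ := norm_sum_le _ _
      _ ≤ ∑ i, ‖T i‖ * (6 * C * ((d : ℝ) + 1) ^ (3 * (p + 1)) * M) :=
        Finset.sum_le_sum fun i _ => ((T i).norm_iteratedFDeriv_comp_left (hc _) le_rfl).trans
          (mul_le_mul_of_nonneg_left (key i) (norm_nonneg _))
      _ = (∑ i, ‖T i‖) * (6 * C * ((d : ℝ) + 1) ^ (3 * (p + 1)) * M) := (Finset.sum_mul _ _ _).symm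
      _ ≤ (∑ i, ‖T i‖ + 1) * (6 * C * ((d : ℝ) + 1) ^ (3 * (p + 1)) * M) := by
        gcongr
        linarith
      _ = _ := by ring

theorem markov (n p : ℕ) : ∃ C : ℝ, 0 < C ∧ ∀ (d : ℕ) (P : MvPolynomial (Fin n) ℝ) (M : ℝ),
    P.IsHomogeneous d → (∀ y : Vec n, ‖y‖ = 1 → |evp P y| ≤ M) → 0 ≤ M → 1 ≤ n →
    ∀ x : Vec n, ‖x‖ ≤ 1 → ‖iteratedFDeriv ℝ p (evp P) x‖ ≤ C * ((d : ℝ) + 1) ^ (3 * p) * M := by
  obtain ⟨C, hC, h⟩ := mkv_ball n p
  refine ⟨C, hC, fun d P M hP hM hM0 hn => h d P M hP fun y hy => ?_⟩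
  obtain ⟨u, hu, e⟩ : ∃ u : Vec n, ‖u‖ = 1 ∧ y = ‖y‖ • u := by
    by_cases h0 : y = 0
    · exact ⟨EuclideanSpace.single ⟨0, hn⟩ 1, by simp, by simp [h0]⟩
    · exact ⟨‖y‖⁻¹ • y, norm_smul_inv_norm h0, (smul_inv_smul₀ (norm_ne_zero_iff.2 h0) y).symm⟩
  rw [e, evp_smul hP, abs_mul, abs_of_nonneg (by positivity)]
  exact (mul_le_mul (pow_le_one₀ (norm_nonneg _) hy) (hM u hu) (abs_nonneg _) zero_le_one).trans_eq
    (one_mul M)

end Crest.Agent.R202
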