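import Crest.Agent.R202.CDefs
import Crest.Agent.R202.GBasic
import Crest.Agent.R202.Markov

/-!
# The angular Laplacian on polynomials

`aeTg j Q = ∂ⱼ Q - Xⱼ E Q` (`E` the Euler operator) is the tangential gradient and
`aeDv V = ∑ ∂ᵢ Vᵢ - E (∑ Xᵢ Vᵢ)` the spherical divergence.
-/

set_option autoImplicit false

noncomputable section

open scoped InnerProductSpace ContDiff
open Set Filter Topology
open MvPolynomial Real
open Crest.GeometryTopology.CoordMetric hiding pderiv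

namespace Crest.Agent.R202

section general
variable {n : ℕ}

/-- the Euler operator -/
def aeEu (Q : MvPolynomial (Fin n) ℝ) : MvPolynomial (Fin n) ℝ := ∑ l, X l * pderiv l Q

/-- tangential gradient -/
def aeTg (j : Fin n) (Q : MvPolynomial (Fin n) ℝ) : MvPolynomial (Fin n) ℝ :=
  pderiv j Q - X j * aeEu Q

/-- spherical divergence -/
def aeDv (V : Fin n → MvPolynomial (Fin n) ℝ) : MvPolynomial (Fin n) ℝ :=
  ∑ i, pderiv i (V i) - aeEu (∑ i, X i * V i)

theorem ae_fderiv_eq (f : Vec n → ℝ) (x v : Vec n) :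
    fderiv ℝ f x v = ∑ j, v j * Crest.GeometryTopology.CoordMetric.pderiv j f x := by
  conv_lhs => rw [← (EuclideanSpace.basisFun (Fin n) ℝ).sum_repr v]
  simp [Crest.GeometryTopology.CoordMetric.pderiv]

theorem ae_norm_inv {x : Vec n} (hx : x ≠ 0) :
    HasFDerivAt (fun y : Vec n => ‖y‖⁻¹) (-(‖x‖⁻¹ ^ 3) • innerSL ℝ x) x := by
  have hn : ‖x‖ ≠ 0 := norm_ne_zero_iff.2 hx
  have h0 : ‖x‖ ^ 2 ≠ 0 := pow_ne_zero _ hn
  have h1 := ((hasStrictFDerivAt_norm_sq x).hasFDerivAt).sqrt h0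
  have e : (fun y : Vec n => √(‖y‖ ^ 2)) = fun y => ‖y‖ := by
    funext y; rw [Real.sqrt_sq (norm_nonneg _)]
  rw [e, Real.sqrt_sq (norm_nonneg _)] at h1
  have h2 := (hasDerivAt_inv hn).comp_hasFDerivAt x h1
  refine h2.congr_fderiv ?_
  ext v
  simp
  field_simp

theorem ae_hat {x : Vec n} (hx : x ≠ 0) :
    HasFDerivAt (hat : Vec n → Vec n)
      (‖x‖⁻¹ • ContinuousLinearMap.id ℝ (Vec n) + (-(‖x‖⁻¹ ^ 3) • innerSL ℝ x).smulRight x) x :=
  (ae_norm_inv hx).smul (hasFDerivAt_id x)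

theorem ae_evp_add (P Q : MvPolynomial (Fin n) ℝ) (x : Vec n) : evp (P + Q) x = evp P x + evp Q x := by
  simp [evp]

theorem ae_evp_Eu (Q : MvPolynomial (Fin n) ℝ) (x : Vec n) :
    evp (aeEu Q) x = ∑ l, x l * evp (pderiv l Q) x := by
  simp [evp, aeEu]

theorem ae_comp_hat (Q : MvPolynomial (Fin n) ℝ) {x : Vec n} (hx : x ≠ 0) :
    ∃ L : Vec n →L[ℝ] ℝ, HasFDerivAt (fun x' => evp Q (hat x')) L x ∧
      ∀ j, L (EuclideanSpace.single j 1) = ‖x‖⁻¹ * evp (aeTg j Q) (hat x) := by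
  have hd : DifferentiableAt ℝ (evp Q) (hat x) :=
    ((contDiff_evp Q).differentiable (by simp)).differentiableAt
  refine ⟨_, hd.hasFDerivAt.comp x (ae_hat hx), fun j => ?_⟩
  have hn : ‖x‖ ≠ 0 := norm_ne_zero_iff.2 hx
  rw [ContinuousLinearMap.comp_apply, ae_fderiv_eq]
  simp only [pderiv_evp]
  have e : evp (aeTg j Q) (hat x) = evp (pderiv j Q) (hat x) -
      hat x j * ∑ l, hat x l * evp (pderiv l Q) (hat x) := by
    rw [← ae_evp_Eu]; simp [evp, aeTg]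
  rw [e]
  generalize (fun l => evp (pderiv l Q) (hat x)) = w at *
  have e2 : ∀ l, ((‖x‖⁻¹ • ContinuousLinearMap.id ℝ (Vec n) +
      (-(‖x‖⁻¹ ^ 3) • innerSL ℝ x).smulRight x) (EuclideanSpace.single j 1)) l =
      (if l = j then ‖x‖⁻¹ else 0) - ‖x‖⁻¹ * (hat x j * hat x l) := by
    intro l
    simp [hat, EuclideanSpace.inner_single_right]
    ring
  simp only [e2, sub_mul, Finset.sum_sub_distrib, ite_mul, zero_mul, Finset.sum_ite_eq',
    Finset.mem_univ, if_true, Finset.mul_sum, mul_sub]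
  congr 1
  refine Finset.sum_congr rfl fun l _ => by ring

theorem ae_pd_hat (Q : MvPolynomial (Fin n) ℝ) {x : Vec n} (hx : x ≠ 0) (j : Fin n) :
    Crest.GeometryTopology.CoordMetric.pderiv j (fun x' => evp Q (hat x')) x =
      ‖x‖⁻¹ * evp (aeTg j Q) (hat x) := by
  obtain ⟨L, hL, h⟩ := ae_comp_hat Q hx
  rw [Crest.GeometryTopology.CoordMetric.pderiv, hL.fderiv, h]

theorem ae_hat_unit {y : Vec n} (hy : ‖y‖ = 1) : hat y = y := by simp [hat, hy]

theorem ae_ne_zero {y : Vec n} (hy : ‖y‖ = 1) : y ≠ 0 := by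
  rintro rfl
  simp at hy

theorem ae_pd_hat2 (Q : MvPolynomial (Fin n) ℝ) {y : Vec n} (hy : ‖y‖ = 1) (i : Fin n) :
    Crest.GeometryTopology.CoordMetric.pderiv i (fun x => ‖x‖⁻¹ * evp Q (hat x)) y =
      evp (aeTg i Q - X i * Q) y := by
  obtain ⟨L, hL, h⟩ := ae_comp_hat Q (ae_ne_zero hy)
  have h1 := (ae_norm_inv (ae_ne_zero hy)).mul hL
  rw [Crest.GeometryTopology.CoordMetric.pderiv]
  erw [h1.fderiv]
  simp only [_root_.add_apply, _root_.smul_apply, h, hy, ae_hat_unit hy]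
  simp [evp, EuclideanSpace.inner_single_right]
  ring

theorem ae_Eu_mul (P Q : MvPolynomial (Fin n) ℝ) : aeEu (P * Q) = aeEu P * Q + P * aeEu Q := by
  simp only [aeEu, Derivation.leibniz, smul_eq_mul, Finset.sum_mul, Finset.mul_sum,
    ← Finset.sum_add_distrib]
  exact Finset.sum_congr rfl fun l _ => by ring

theorem ae_Eu_X (i : Fin n) : aeEu (X i : MvPolynomial (Fin n) ℝ) = X i := by
  simp [aeEu, pderiv_X, Pi.single_apply]

theorem ae_Eu_add (P Q : MvPolynomial (Fin n) ℝ) : aeEu (P + Q) = aeEu P + aeEu Q := by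
  simp [aeEu, mul_add, Finset.sum_add_distrib]

theorem ae_Eu_sub (P Q : MvPolynomial (Fin n) ℝ) : aeEu (P - Q) = aeEu P - aeEu Q := by
  simp [aeEu, mul_sub, Finset.sum_sub_distrib]

theorem ae_Eu_sum {ι : Type} (s : Finset ι) (P : ι → MvPolynomial (Fin n) ℝ) :
    aeEu (∑ i ∈ s, P i) = ∑ i ∈ s, aeEu (P i) := by
  simp only [aeEu, map_sum, Finset.mul_sum]
  exact Finset.sum_comm

theorem ae_Dv_eq (V : Fin n → MvPolynomial (Fin n) ℝ) :
    ∑ i, (aeTg i (V i) - X i * V i) = aeDv V := by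
  simp only [aeDv, aeTg, ae_Eu_sum, ae_Eu_mul, ae_Eu_X, ← Finset.sum_sub_distrib]
  exact Finset.sum_congr rfl fun l _ => by ring

theorem ae_angLap {G : MetricField n} {Q : MvPolynomial (Fin n) ℝ}
    {V : Fin n → MvPolynomial (Fin n) ℝ}
    (h : ∀ z : Vec n, ‖z‖ = 1 → ∀ i, ∑ j, (G z)⁻¹ i j * evp (aeTg j Q) z = evp (V i) z)
    {y : Vec n} (hy : ‖y‖ = 1) : angLap G (evp Q) y = evp (aeDv V) y := by
  rw [← ae_Dv_eq, angLap]
  have e : evp (∑ i, (aeTg i (V i) - X i * V i)) y = ∑ i, evp (aeTg i (V i) - X i * V i) y := by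
    simp only [evp, map_sum]
  rw [e]
  refine Finset.sum_congr rfl fun i _ => ?_
  rw [← ae_pd_hat2 _ hy]
  unfold Crest.GeometryTopology.CoordMetric.pderiv
  congr 1
  refine Filter.EventuallyEq.fderiv_eq ?_
  filter_upwards [isOpen_ne.mem_nhds (ae_ne_zero hy)] with x hx
  rw [← h _ (norm_hat hx), Finset.mul_sum]
  refine Finset.sum_congr rfl fun j _ => ?_
  have := ae_pd_hat Q hx j
  unfold Crest.GeometryTopology.CoordMetric.pderiv at this
  rw [this]
  ring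

theorem ae_angLap_one (Q : MvPolynomial (Fin n) ℝ) {y : Vec n} (hy : ‖y‖ = 1) :
    angLap (fun _ => 1) (evp Q) y = evp (aeDv fun i => aeTg i Q) y :=
  ae_angLap (fun z _ i => by simp [Matrix.one_apply]) hy

theorem ae_sum_sq {y : Vec n} (hy : ‖y‖ = 1) : ∑ i, y i ^ 2 = 1 := by
  have := EuclideanSpace.real_norm_sq_eq y
  rw [hy] at this
  simpa using this.symm

end general

section concrete
variable {N : ℕ}

/-- `u` as a polynomial -/
def aeU (r N : ℕ) (i : Fin (N + 3)) : MvPolynomial (Fin (N + 3)) ℝ :=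
  if i.val < 2 then 0 else if r = 1 then 1 else X i
/-- `τ` as a polynomial -/
def aeT (r N : ℕ) : MvPolynomial (Fin (N + 3)) ℝ := ∑ i, aeU r N i * X i
/-- `S` as a polynomial -/
def aeS (N : ℕ) : MvPolynomial (Fin (N + 3)) ℝ := X 0 ^ 2 + X 1 ^ 2
/-- `Z` as a polynomial field -/
def aeZ (r N : ℕ) (i : Fin (N + 3)) : MvPolynomial (Fin (N + 3)) ℝ :=
  if i.val < 2 then -aeT r N * X i else aeS N * aeU r N i
/-- `W` as a polynomial field -/
def aeW (N : ℕ) (i : Fin (N + 3)) : MvPolynomial (Fin (N + 3)) ℝ :=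
  if i = 0 then -X 1 else if i = 1 then X 0 else 0
/-- pull-back along `prj` -/
def aePhi (r N : ℕ) : P3 →ₐ[ℝ] MvPolynomial (Fin (N + 3)) ℝ := aeval ![X 0, X 1, aeT r N]

theorem ae_evp_U (r : ℕ) (y : Vec (N + 3)) (i : Fin (N + 3)) : evp (aeU r N i) y = uvec r y i := by
  unfold aeU uvec
  split_ifs <;> simp [evp]

theorem ae_evp_T (r : ℕ) (y : Vec (N + 3)) : evp (aeT r N) y = tau r y := by
  simp only [aeT, tau, ← ae_evp_U]
  simp [evp]

theorem ae_evp_S (y : Vec (N + 3)) : evp (aeS N) y = y 0 ^ 2 + y 1 ^ 2 := by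
  simp [evp, aeS]

theorem ae_evp_Z (r : ℕ) (y : Vec (N + 3)) (i : Fin (N + 3)) : evp (aeZ r N i) y = Zv r y i := by
  unfold aeZ Zv
  rw [← ae_evp_T, ← ae_evp_U, ← ae_evp_S]
  split_ifs <;> simp [evp]

theorem ae_evp_W (y : Vec (N + 3)) (i : Fin (N + 3)) : evp (aeW N i) y = Wv y i := by
  unfold aeW Wv
  split_ifs <;> simp [evp]

theorem ae_evp_Phi (r : ℕ) (y : Vec (N + 3)) (g : P3) : evp (aePhi r N g) y = eval (prj r y) g := by
  induction g using MvPolynomial.induction_on with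
  | C a => simp [evp, aePhi]
  | add p q hp hq => rw [map_add, map_add, ← hp, ← hq]; simp [evp]
  | mul_X p i hp =>
    rw [map_mul, map_mul, ← hp]
    have : evp (aePhi r N (X i)) y = eval (prj r y) (X i) := by
      fin_cases i
      · simp [evp, aePhi, prj]
      · simp [evp, aePhi, prj]
      · simp [aePhi, prj, ae_evp_T]
    rw [← this]; simp [evp]

theorem ae_sum_split {M : Type} [AddCommMonoid M] (f : Fin (N + 3) → M) :
    ∑ i, f i = f 0 + f 1 + ∑ i : Fin (N + 1), f i.succ.succ := by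
  rw [Fin.sum_univ_succ, Fin.sum_univ_succ, ← _root_.add_assoc]
  rfl

theorem ae_U0 (r : ℕ) : aeU r N 0 = 0 := by simp [aeU]
theorem ae_U1 (r : ℕ) : aeU r N 1 = 0 := by simp [aeU]
theorem ae_Uss (r : ℕ) (i : Fin (N + 1)) :
    aeU r N i.succ.succ = if r = 1 then 1 else X i.succ.succ := by simp [aeU]
theorem ae_Z0 (r : ℕ) : aeZ r N 0 = -aeT r N * X 0 := by simp [aeZ]
theorem ae_Z1 (r : ℕ) : aeZ r N 1 = -aeT r N * X 1 := by simp [aeZ]
theorem ae_Zss (r : ℕ) (i : Fin (N + 1)) :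
    aeZ r N i.succ.succ = aeS N * aeU r N i.succ.succ := by simp [aeZ]
theorem ae_W0 : aeW N 0 = -X 1 := by simp [aeW]
theorem ae_W1 : aeW N 1 = X 0 := by simp [aeW]
theorem ae_ss_ne0 (i : Fin (N + 1)) : (i.succ.succ : Fin (N + 3)) ≠ 0 := Fin.succ_ne_zero _
theorem ae_ss_ne1 (i : Fin (N + 1)) : (i.succ.succ : Fin (N + 3)) ≠ 1 := by
  intro h
  have := congrArg Fin.val h
  simp at this
theorem ae_Wss (i : Fin (N + 1)) : aeW N i.succ.succ = 0 := by
  simp [aeW, ae_ss_ne1]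

theorem ae_T_eq (r : ℕ) : aeT r N = ∑ i : Fin (N + 1), aeU r N i.succ.succ * X i.succ.succ := by
  rw [aeT, ae_sum_split, ae_U0, ae_U1]; simp

theorem ae_XZ (r : ℕ) : ∑ i, X i * aeZ r N i = 0 := by
  rw [ae_sum_split, ae_Z0, ae_Z1]
  simp only [ae_Zss]
  have : ∑ i : Fin (N + 1), X i.succ.succ * (aeS N * aeU r N i.succ.succ) = aeS N * aeT r N := by
    rw [ae_T_eq, Finset.mul_sum]
    exact Finset.sum_congr rfl fun i _ => by ring
  rw [this, aeS]; ring

theorem ae_XW : ∑ i, X i * aeW N i = 0 := by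
  rw [ae_sum_split, ae_W0, ae_W1]
  simp only [ae_Wss]
  simp; ring

theorem ae_pd0_T (r : ℕ) : pderiv 0 (aeT r N) = 0 := by
  rw [ae_T_eq, map_sum]
  refine Finset.sum_eq_zero fun i _ => ?_
  rw [ae_Uss]
  split_ifs <;> simp [pderiv_X_of_ne (ae_ss_ne0 i)]

theorem ae_pd1_T (r : ℕ) : pderiv 1 (aeT r N) = 0 := by
  rw [ae_T_eq, map_sum]
  refine Finset.sum_eq_zero fun i _ => ?_
  rw [ae_Uss]
  split_ifs <;> simp [pderiv_X_of_ne (ae_ss_ne1 i)]

theorem ae_pdss_T (r : ℕ) (i : Fin (N + 1)) :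
    pderiv i.succ.succ (aeT r N) = if r = 1 then 1 else 2 * X i.succ.succ := by
  rw [ae_T_eq, map_sum, Finset.sum_eq_single i]
  · rw [ae_Uss]
    split_ifs <;> simp [two_mul]
  · intro l _ hl
    have : (l.succ.succ : Fin (N + 3)) ≠ i.succ.succ := by simpa using hl
    rw [ae_Uss]
    split_ifs <;> simp [pderiv_X_of_ne this]
  · simp

theorem ae_pdss_S (i : Fin (N + 1)) : pderiv i.succ.succ (aeS N) = 0 := by
  simp [aeS, pderiv_X_of_ne (ae_ss_ne0 i).symm, pderiv_X_of_ne (ae_ss_ne1 i).symm]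

theorem ae_divZ (r : ℕ) : ∑ i, pderiv i (aeZ r N i) =
    -2 * aeT r N + (if r = 1 then 0 else C ((N : ℝ) + 1)) * aeS N := by
  rw [ae_sum_split, ae_Z0, ae_Z1]
  simp only [ae_Zss, ae_Uss]
  split_ifs
  · simp [ae_pd0_T, ae_pd1_T, ae_pdss_S]; ring
  · simp [ae_pd0_T, ae_pd1_T, ae_pdss_S]; ring

theorem ae_divW : ∑ i, pderiv i (aeW N i) = 0 := by
  rw [ae_sum_split, ae_W0, ae_W1]
  simp [ae_Wss, pderiv_X]

/-- the derivation along a polynomial field -/
def aeD {n : ℕ} (V : Fin n → MvPolynomial (Fin n) ℝ) (Q : MvPolynomial (Fin n) ℝ) :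
    MvPolynomial (Fin n) ℝ := ∑ j, V j * pderiv j Q

theorem ae_D_mul {n : ℕ} (V : Fin n → MvPolynomial (Fin n) ℝ) (P Q : MvPolynomial (Fin n) ℝ) :
    aeD V (P * Q) = aeD V P * Q + P * aeD V Q := by
  simp only [aeD, Derivation.leibniz, smul_eq_mul, Finset.sum_mul, Finset.mul_sum,
    ← Finset.sum_add_distrib]
  exact Finset.sum_congr rfl fun l _ => by ring

theorem ae_D_add {n : ℕ} (V : Fin n → MvPolynomial (Fin n) ℝ) (P Q : MvPolynomial (Fin n) ℝ) :
    aeD V (P + Q) = aeD V P + aeD V Q := by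
  simp [aeD, mul_add, Finset.sum_add_distrib]

theorem ae_D_X {n : ℕ} (V : Fin n → MvPolynomial (Fin n) ℝ) (i : Fin n) : aeD V (X i) = V i := by
  simp [aeD, pderiv_X, Pi.single_apply]

theorem ae_D_Phi (r : ℕ) (V : Fin (N + 3) → MvPolynomial (Fin (N + 3)) ℝ) (g : P3) :
    aeD V (aePhi r N g) = aePhi r N (pderiv 0 g) * V 0 + aePhi r N (pderiv 1 g) * V 1 +
      aePhi r N (pderiv 2 g) * aeD V (aeT r N) := by
  induction g using MvPolynomial.induction_on with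
  | C a => simp [aePhi, aeD]
  | add p q hp hq => simp only [map_add, ae_D_add, hp, hq]; ring
  | mul_X p i hp =>
    rw [map_mul, ae_D_mul, hp]
    simp only [Derivation.leibniz, smul_eq_mul, map_add, map_mul]
    fin_cases i
    · simp [aePhi, ae_D_X, pderiv_X]; ring
    · simp [aePhi, ae_D_X, pderiv_X]; ring
    · simp [aePhi, pderiv_X]; ring

theorem ae_D_Tg {n : ℕ} {V : Fin n → MvPolynomial (Fin n) ℝ} (h : ∑ i, X i * V i = 0)
    (Q : MvPolynomial (Fin n) ℝ) : ∑ j, V j * aeTg j Q = aeD V Q := by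
  simp only [aeTg, mul_sub, Finset.sum_sub_distrib, aeD]
  have : ∑ j, V j * (X j * aeEu Q) = (∑ i, X i * V i) * aeEu Q := by
    rw [Finset.sum_mul]
    exact Finset.sum_congr rfl fun l _ => by ring
  rw [this, h]; simp

theorem ae_Dv_add {n : ℕ} (V V' : Fin n → MvPolynomial (Fin n) ℝ) :
    aeDv (fun i => V i + V' i) = aeDv V + aeDv V' := by
  simp only [aeDv, map_add, mul_add, Finset.sum_add_distrib, ae_Eu_add]
  ring

theorem ae_Dv_mul {n : ℕ} {V : Fin n → MvPolynomial (Fin n) ℝ} (h : ∑ i, X i * V i = 0)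
    (Q : MvPolynomial (Fin n) ℝ) :
    aeDv (fun i => V i * Q) = aeD V Q + Q * ∑ i, pderiv i (V i) := by
  have : ∑ i, X i * (V i * Q) = (∑ i, X i * V i) * Q := by
    rw [Finset.sum_mul]
    exact Finset.sum_congr rfl fun l _ => by ring
  rw [aeDv, this, h, zero_mul]
  simp [aeEu, aeD, Finset.mul_sum, Finset.sum_add_distrib]

theorem ae_DW (r : ℕ) {Y : MvPolynomial (Fin (N + 3)) ℝ} (h0 : pderiv 0 Y = 0) (h1 : pderiv 1 Y = 0)
    (g : P3) : aeD (aeW N) (Y * aePhi r N g) = Y * aePhi r N (Phi g) := by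
  have e1 : aeD (aeW N) Y = 0 := by
    rw [aeD, ae_sum_split]; simp [h0, h1, ae_Wss]
  have e2 : aeD (aeW N) (aeT r N) = 0 := by
    rw [aeD, ae_sum_split]; simp [ae_pd0_T, ae_pd1_T, ae_Wss]
  have x0 : aePhi r N (X 0) = X 0 := by simp [aePhi]
  have x1 : aePhi r N (X 1) = X 1 := by simp [aePhi]
  rw [ae_D_mul, e1, ae_D_Phi, e2, ae_W0, ae_W1, Phi]
  simp only [map_add, map_mul, map_neg, x0, x1]; ring

theorem ae_DZ_T {r : ℕ} (c : Cl r (N + 3)) :
    aeD (aeZ r N) (aeT r N) = C (r : ℝ) * aePhi r N (vV r) * aeS N := by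
  rw [aeD, ae_sum_split, ae_pd0_T, ae_pd1_T]
  simp only [ae_Zss, ae_pdss_T]
  rcases c.ok with ⟨rfl, hn, -⟩ | ⟨rfl, -, -⟩
  · obtain rfl : N = 0 := by omega
    simp [ae_Uss, vV]
  · have : aePhi 2 N (vV 2) = aeT 2 N := by simp [vV, aePhi]
    rw [this, ae_T_eq, Finset.mul_sum, Finset.sum_mul]
    simp only [mul_zero, zero_add]
    refine Finset.sum_congr rfl fun i _ => ?_
    have : (C ((2 : ℕ) : ℝ) : MvPolynomial (Fin (N + 3)) ℝ) = 2 := by simp; rfl
    rw [this]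
    simp; ring

theorem ae_DZ_Y {r : ℕ} (c : Cl r (N + 3)) {Y : MvPolynomial (Fin (N + 3)) ℝ} (hY : YOk c.j Y) :
    aeD (aeZ r N) Y = C (c.j : ℝ) * aeS N * Y := by
  have hE := hY.hom.sum_X_mul_pderiv
  rw [ae_sum_split, hY.d0, hY.d1] at hE
  rw [aeD, ae_sum_split, hY.d0, hY.d1]
  simp only [ae_Zss, ae_Uss]
  rcases c.ok with ⟨rfl, hn, hj⟩ | ⟨rfl, -, -⟩
  · have h := hY.hom
    rw [hj] at h ⊢
    have hC : Y = C (coeff 0 Y) := totalDegree_eq_zero_iff_eq_C.1 (by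
      have := h.totalDegree_le; omega)
    rw [hC]; simp
  · simp only [mul_zero, zero_add, nsmul_eq_mul] at hE ⊢
    simp only [show ¬ (2 = 1) by omega, if_false, mul_assoc, ← Finset.mul_sum, hE]
    simp; ring

end concrete

end Crest.Agent.R202
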