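import Crest.Agent.R202.GmAlg
import Crest.Agent.R202.Markov
import Crest.Agent.R202.AngExtra_A

/-!
# The angular Laplacian (task G8c)

`angLap_one`: near `y`, `P (hat x) = ‖x‖^{-d} P x`; expand the Euclidean Laplacian using Euler's identity.
`angLap_extra`: for `f = Y · g ∘ prj` and `f̂ = f ∘ hat`, at `x ≠ 0`: `∑ⱼ Zⱼ(x̂) ∂ⱼ f̂ = ‖x‖⁻¹ (Y · Zj g)(x̂)`, `∑ⱼ Wⱼ(x̂) ∂ⱼ f̂ = ‖x‖⁻¹ (Y · Phi g)(x̂)` (tangential fields; `Z Y = j S Y` for `r = 2` by Euler).
For a smooth tangential field `T` and a function `h`: `∑ᵢ ∂ᵢ (‖x‖⁻¹ Tᵢ(x̂) h(x̂))` at a unit `y` is `T·∇h + h (∑ᵢ ∂ᵢTᵢ - yᵀ DT y)`, and this "spherical divergence" is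
`-2τ + (r-1)(n-2) S` for `Z` and `0` for `W`.  So `div (Y g' Z) = -Y Zs g'` and `div (Y g' W) = Y Phi g'`.
-/

set_option autoImplicit false

noncomputable section

open scoped InnerProductSpace ContDiff
open Set Filter Topology
open MvPolynomial Real
open Crest.GeometryTopology.CoordMetric hiding pderiv

namespace Crest.Agent.R202

theorem angLap_one {n d : ℕ} {P : MvPolynomial (Fin n) ℝ} (hP : P.IsHomogeneous d)
    (hh : ∑ i, pderiv i (pderiv i P) = 0) {y : Vec n} (hy : ‖y‖ = 1) :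
    angLap (fun _ => 1) (evp P) y = -((d : ℝ) * ((d : ℝ) + n - 2)) * evp P y := by
  rw [ae_angLap_one P hy]
  have hE : aeEu P = C (d : ℝ) * P := by
    rw [aeEu, hP.sum_X_mul_pderiv]; simp
  have hC : aeEu (C (d : ℝ) : MvPolynomial (Fin n) ℝ) = 0 := by simp [aeEu]
  have e1 : ∑ i, pderiv i (aeTg i P) = -(C (d : ℝ) * (C (n : ℝ) + C (d : ℝ)) * P) := by
    simp only [aeTg, hE, map_sub, Derivation.leibniz, smul_eq_mul, pderiv_X_self, pderiv_C,
      Finset.sum_sub_distrib, hh, Finset.sum_add_distrib, mul_zero, add_zero, mul_one]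
    have : ∑ x, X x * (C (d : ℝ) * pderiv x P) = C (d : ℝ) * aeEu P := by
      rw [aeEu, Finset.mul_sum]
      exact Finset.sum_congr rfl fun l _ => by ring
    rw [this, hE]
    simp; ring
  have e2 : ∑ i, X i * aeTg i P = (1 - ∑ i, X i * X i) * (C (d : ℝ) * P) := by
    have h1 : ∑ i, X i * aeTg i P = aeEu P - (∑ i, X i * X i) * aeEu P := by
      simp only [aeTg, mul_sub, Finset.sum_sub_distrib, Finset.sum_mul, mul_assoc]
      rfl
    rw [h1, hE]; ring
  have e3 : aeEu (1 - ∑ i, X i * X i : MvPolynomial (Fin n) ℝ) = -(2 * ∑ i, X i * X i) := by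
    rw [ae_Eu_sub, ae_Eu_sum]
    simp only [ae_Eu_mul, ae_Eu_X, Finset.sum_add_distrib]
    simp [aeEu]; ring
  have e4 : eval y.ofLp (∑ i, X i * X i : MvPolynomial (Fin n) ℝ) = 1 := by
    rw [← ae_sum_sq hy]; simp [sq]
  rw [aeDv, e1, e2, ae_Eu_mul, e3]
  simp only [evp, map_sub, map_neg, map_mul, map_add, e4, eval_C, map_one, map_ofNat]
  ring

theorem angLap_congr {n : ℕ} (G : MetricField n) {f f₁ : Vec n → ℝ}
    (h : ∀ x, ‖x‖ = 1 → f x = f₁ x) {y : Vec n} (hy : ‖y‖ = 1) : angLap G f y = angLap G f₁ y := by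
  have key : ∀ x : Vec n, x ≠ 0 → (fun x' => f (hat x')) =ᶠ[𝓝 x] fun x' => f₁ (hat x') := by
    intro x hx
    filter_upwards [isOpen_ne.mem_nhds hx] with x' hx'
    exact h _ (norm_hat hx')
  unfold angLap
  refine Finset.sum_congr rfl fun i _ => ?_
  unfold Crest.GeometryTopology.CoordMetric.pderiv
  congr 1
  refine Filter.EventuallyEq.fderiv_eq ?_
  filter_upwards [isOpen_ne.mem_nhds (ae_ne_zero hy)] with x hx
  rw [(key x hx).fderiv_eq]

theorem ae_DZ {r N : ℕ} (c : Cl r (N + 3)) {Y : MvPolynomial (Fin (N + 3)) ℝ}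
    (hY : YOk c.j Y) (g : P3) {y : Vec (N + 3)} (hy : ‖y‖ = 1) :
    evp (aeD (aeZ r N) (Y * aePhi r N g)) y = evp (Y * aePhi r N (c.Zj g)) y := by
  have hS : eval y.ofLp (aeS N) = eval y.ofLp (aePhi r N (sS r)) := by
    have h1 := ae_evp_S y
    have h2 := ae_evp_Phi r y (sS r)
    unfold evp at h1 h2
    rw [h1, h2]; exact (c.ZW hy).2.2.2.2.2
  have x0 : aePhi r N (X 0) = X 0 := by simp [aePhi]
  have x1 : aePhi r N (X 1) = X 1 := by simp [aePhi]
  have x2 : aePhi r N (X 2) = aeT r N := by simp [aePhi]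
  have xC : ∀ a : ℝ, aePhi r N (C a) = C a := fun a => by simp [aePhi]
  rw [ae_D_mul, ae_DZ_Y c hY, ae_D_Phi, ae_DZ_T c, ae_Z0, ae_Z1, Cl.Zj, Zd, uU]
  simp only [evp, map_add, map_mul, map_sub, map_neg, x0, x1, x2, xC, hS]
  ring

theorem ae_divZ' {r N : ℕ} (c : Cl r (N + 3)) {Y : MvPolynomial (Fin (N + 3)) ℝ}
    (hY : YOk c.j Y) (g : P3) {y : Vec (N + 3)} (hy : ‖y‖ = 1) :
    evp (aeDv fun i => aeZ r N i * (Y * aePhi r N g)) y = -evp (Y * aePhi r N (c.Zs g)) y := by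
  have hS : eval y.ofLp (aeS N) = eval y.ofLp (aePhi r N (sS r)) := by
    have h1 := ae_evp_S y
    have h2 := ae_evp_Phi r y (sS r)
    unfold evp at h1 h2
    rw [h1, h2]; exact (c.ZW hy).2.2.2.2.2
  have x2 : aePhi r N (X 2) = aeT r N := by simp [aePhi]
  have xC : ∀ a : ℝ, aePhi r N (C a) = C a := fun a => by simp [aePhi]
  rw [ae_Dv_mul (ae_XZ r), ae_evp_add, ae_DZ c hY g hy, ae_divZ, Cl.Zj, Cl.Zs]
  simp only [evp, map_add, map_mul, map_sub, map_neg, x2, xC, hS, map_ofNat, eval_C]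
  rcases c.ok with ⟨rfl, -, hj⟩ | ⟨rfl, -, -⟩
  · simp [hj]; ring
  · simp; ring

theorem Cl.angLap_extra {r N : ℕ} (c : Cl r (N + 3)) {Y : MvPolynomial (Fin (N + 3)) ℝ}
    (hY : YOk c.j Y) {t : T3} (ht : DetOne r t) (g : P3) {y : Vec (N + 3)} (hy : ‖y‖ = 1) :
    angLap (Gm r t) (fun x => evp Y x * eval (prj r x) g) y =
      angLap (fun _ => 1) (fun x => evp Y x * eval (prj r x) g) y -
        evp Y y * eval (prj r y) (c.Apol t g) := by
  have ef : (fun x => evp Y x * eval (prj r x) g) = evp (Y * aePhi r N g) := by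
    funext x; rw [← ae_evp_Phi]; simp [evp]
  rw [ef, ae_angLap_one _ hy]
  have key : ∀ z : Vec (N + 3), ‖z‖ = 1 → ∀ i,
      ∑ j, (Gm r t z)⁻¹ i j * evp (aeTg j (Y * aePhi r N g)) z =
        evp (aeTg i (Y * aePhi r N g) +
          (aeZ r N i * (Y * aePhi r N (t.1 * c.Zj g + t.2.1 * Phi g)) +
            aeW N i * (Y * aePhi r N (t.2.1 * c.Zj g + vV r * t.2.2 * Phi g)))) z := by
    intro z hz i
    have hA : ∑ j, Zv r z j * evp (aeTg j (Y * aePhi r N g)) z =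
        evp Y z * eval (prj r z) (c.Zj g) := by
      have := ae_DZ c hY g hz
      rw [← ae_D_Tg (ae_XZ r)] at this
      simp only [← ae_evp_Z, ← ae_evp_Phi]
      simpa only [evp, map_sum, map_mul] using this
    have hB : ∑ j, Wv z j * evp (aeTg j (Y * aePhi r N g)) z =
        evp Y z * eval (prj r z) (Phi g) := by
      have := congrArg (fun Q => evp Q z) (ae_DW r hY.d0 hY.d1 g)
      rw [← ae_D_Tg ae_XW] at this
      simp only [← ae_evp_W, ← ae_evp_Phi]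
      simpa only [evp, map_sum, map_mul] using this
    have e : evp (aeTg i (Y * aePhi r N g) +
          (aeZ r N i * (Y * aePhi r N (t.1 * c.Zj g + t.2.1 * Phi g)) +
            aeW N i * (Y * aePhi r N (t.2.1 * c.Zj g + vV r * t.2.2 * Phi g)))) z =
        evp (aeTg i (Y * aePhi r N g)) z +
          (Zv r z i * (evp Y z * eval (prj r z) (t.1 * c.Zj g + t.2.1 * Phi g)) +
            Wv z i * (evp Y z * eval (prj r z) (t.2.1 * c.Zj g + vV r * t.2.2 * Phi g))) := by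
      simp only [← ae_evp_Z, ← ae_evp_W, ← ae_evp_Phi]
      simp only [evp, map_add, map_mul]
    rw [e, c.inv_Gm ht hz, Ginv, rk2]
    generalize (fun j => evp (aeTg j (Y * aePhi r N g)) z) = w at *
    simp only [Matrix.add_apply, Matrix.of_apply, Matrix.one_apply, add_mul, Finset.sum_add_distrib,
      ite_mul, one_mul, zero_mul, Finset.sum_ite_eq, Finset.mem_univ, if_true, map_add, map_mul,
      mul_add, mul_assoc, ← Finset.mul_sum, hA, hB]
    ring
  rw [ae_angLap key hy, ae_Dv_add, ae_Dv_add, ae_evp_add, ae_evp_add, ae_divZ' c hY _ hy,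
    ae_Dv_mul ae_XW, ae_divW, mul_zero, add_zero, ae_DW r hY.d0 hY.d1, Cl.Apol, ← ae_evp_Phi]
  simp only [evp, map_sub, map_mul]
  ring

end Crest.Agent.R202
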