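import Crest.Agent.R202.EvBasic

/-!
# Banded operators and weights; exponential decay of eigenvectors (task A4)

Split a banded `B` into the `2d+1` pieces that shift `deg` by a fixed amount; each piece has
`|∑ y_k B_{kk'} x_{k'}| ≤ ‖B‖ ∑_ℓ ‖y|_{deg = ℓ}‖ ‖x|_{deg = ℓ+s}‖ ≤ ‖B‖ ‖x‖ ‖y‖`.
-/

set_option autoImplicit false

noncomputable section

open scoped InnerProductSpace ContDiff
open Set Filter Topology

namespace Crest.Agent.R202


variable {n : ℕ} {J : Type} (b : Base n J)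

theorem ent_hasSum (B : H J →L[ℝ] H J) (x : H J) (k : J) :
    HasSum (fun k₁ => ent B k k₁ * x k₁) (B x k) := by
  classical
  have h := ((lp.hasSum_single (by norm_num) x).mapL B).mapL (lp.evalCLM ℝ (fun _ : J => ℝ) 2 k)
  refine HasSum.congr_fun h fun k₁ => ?_
  have : lp.single (E := fun _ : J => ℝ) 2 k₁ (x k₁) = x k₁ • lp.single 2 k₁ (1 : ℝ) := by
    rw [← lp.single_smul, smul_eq_mul, mul_one]
  rw [this, map_smul, map_smul, smul_eq_mul, mul_comm]
  unfold ent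
  congr!

theorem abs_ent_le (B : H J →L[ℝ] H J) (k k₁ : J) : |ent B k k₁| ≤ ‖B‖ := by
  classical
  refine (lp.norm_apply_le_norm (by norm_num) _ k).trans ((B.le_opNorm _).trans_eq ?_)
  rw [lp.norm_single (by norm_num), norm_one, mul_one]

theorem ent_symm {B : H J →L[ℝ] H J} (hB : ∀ x y, ⟪B x, y⟫_ℝ = ⟪x, B y⟫_ℝ) (k k₁ : J) :
    ent B k k₁ = ent B k₁ k := by
  classical
  have := hB (lp.single 2 k₁ (1 : ℝ)) (lp.single 2 k (1 : ℝ))
  rw [lp.inner_single_right, lp.inner_single_left] at this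
  unfold ent
  convert this using 1 <;> simp

theorem adm_norm_le {B : H J →L[ℝ] H J} (hB : Adm B) : ‖B‖ ≤ 2 := by
  refine B.opNorm_le_bound (by norm_num) fun x => ?_
  have h1 := (hB.2 (x + (1 / 2 : ℝ) • B x)).2
  have h2 := (hB.2 (x - (1 / 2 : ℝ) • B x)).1
  have h3 := parallelogram_law_with_norm ℝ x ((1 / 2 : ℝ) • B x)
  have h5 : ⟪B (B x), x⟫_ℝ = ‖B x‖ ^ 2 := by rw [hB.1, real_inner_self_eq_norm_sq]
  simp only [map_add, map_sub, map_smul, inner_add_left, inner_add_right, inner_sub_left,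
    inner_sub_right, real_inner_smul_left, real_inner_smul_right, real_inner_self_eq_norm_sq, h5]
    at h1 h2
  rw [norm_smul, Real.norm_of_nonneg (by norm_num)] at h3
  refine abs_le_of_sq_le_sq' ?_ (by positivity) |>.2
  nlinarith [sq_nonneg ‖x - (1 / 2 : ℝ) • B x‖]

theorem hasSum_inner' (x y : H J) : HasSum (fun k => x k * y k) ⟪x, y⟫_ℝ := by
  simpa [mul_comm] using lp.hasSum_inner (𝕜 := ℝ) x y

theorem hasSum_sq (x : H J) : HasSum (fun k => x k ^ 2) (‖x‖ ^ 2) := by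
  simpa only [real_inner_self_eq_norm_sq, sq] using hasSum_inner' x x

theorem exists_vec (s : Finset J) (x : J → ℝ) : ∃ X : H J, (∀ k ∈ s, X k = x k) ∧
    (∀ k, k ∉ s → X k = 0) ∧ ‖X‖ = √(∑ k ∈ s, x k ^ 2) := by
  classical
  let X : H J := ⟨fun k => if k ∈ s then x k else 0,
    (memℓp_zero (s.finite_toSet.subset fun k hk => by
      by_contra h; exact hk (if_neg h))).of_exponent_ge zero_le⟩
  have h1 : ∀ k ∈ s, X k = x k := fun k hk => if_pos hk
  have h2 : ∀ k, k ∉ s → X k = 0 := fun k hk => if_neg hk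
  refine ⟨X, h1, h2, ?_⟩
  rw [← Real.sqrt_sq (norm_nonneg X), (hasSum_sq X).unique
    (hasSum_sum_of_ne_finset_zero (s := s) fun k hk => by rw [h2 k hk]; simp)]
  exact congrArg _ (Finset.sum_congr rfl fun k hk => by rw [h1 k hk])

theorem block_le (B : H J →L[ℝ] H J) (s s₁ : Finset J) (x y : J → ℝ) :
    |∑ k ∈ s, ∑ k₁ ∈ s₁, y k * ent B k k₁ * x k₁| ≤
      ‖B‖ * √(∑ k ∈ s, y k ^ 2) * √(∑ k₁ ∈ s₁, x k₁ ^ 2) := by
  obtain ⟨X, x1, x2, x3⟩ := exists_vec s₁ x
  obtain ⟨Y, y1, y2, y3⟩ := exists_vec s y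
  have e : ⟪Y, B X⟫_ℝ = ∑ k ∈ s, ∑ k₁ ∈ s₁, y k * ent B k k₁ * x k₁ := by
    rw [(hasSum_inner' Y (B X)).unique
      (hasSum_sum_of_ne_finset_zero (s := s) fun k hk => by rw [y2 k hk, zero_mul])]
    refine Finset.sum_congr rfl fun k hk => ?_
    rw [(ent_hasSum B X k).unique
      (hasSum_sum_of_ne_finset_zero (s := s₁) fun k hk => by rw [x2 k hk, mul_zero]),
      Finset.mul_sum, y1 k hk]
    exact Finset.sum_congr rfl fun k₁ hk₁ => by rw [x1 k₁ hk₁, mul_assoc]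
  rw [← e, ← x3, ← y3, mul_right_comm, mul_comm]
  exact (abs_real_inner_le_norm _ _).trans
    (mul_le_mul_of_nonneg_left (B.le_opNorm _) (norm_nonneg _))

/-- Schur-type bound: a banded operator with entries multiplied by a bounded function of the degrees -/
theorem Base.band_mul_le {d : ℕ} {B : H J →L[ℝ] H J} (hB : b.Banded d B) (r : ℕ → ℕ → ℝ) {R : ℝ}
    (hR : 0 ≤ R) (hr : ∀ p p₁, p ≤ p₁ + d → p₁ ≤ p + d → |r p p₁| ≤ R) (s s₁ : Finset J)
    (x y : J → ℝ) :
    |∑ k ∈ s, ∑ k₁ ∈ s₁, y k * (r (b.deg k) (b.deg k₁) * ent B k k₁) * x k₁| ≤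
      (2 * d + 1) * R * ‖B‖ * √(∑ k ∈ s, y k ^ 2) * √(∑ k₁ ∈ s₁, x k₁ ^ 2) := by
  classical
  set a : ℕ → ℝ := fun p => √(∑ k ∈ s with b.deg k = p, y k ^ 2) with ha
  set c : ℕ → ℝ := fun p => √(∑ k ∈ s₁ with b.deg k = p, x k ^ 2) with hc
  have e1 : ∑ k ∈ s, ∑ k₁ ∈ s₁, y k * (r (b.deg k) (b.deg k₁) * ent B k k₁) * x k₁ =
      ∑ p ∈ s.image b.deg, ∑ p₁ ∈ s₁.image b.deg, r p p₁ * ∑ k ∈ s with b.deg k = p,
        ∑ k₁ ∈ s₁ with b.deg k₁ = p₁, y k * ent B k k₁ * x k₁ := by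
    rw [← Finset.sum_fiberwise_of_maps_to fun k hk => Finset.mem_image_of_mem b.deg hk]
    refine Finset.sum_congr rfl fun p _ => ?_
    simp only [Finset.mul_sum]
    rw [Finset.sum_comm (s := s₁.image b.deg)]
    refine Finset.sum_congr rfl fun k hk => ?_
    rw [← Finset.sum_fiberwise_of_maps_to fun k hk => Finset.mem_image_of_mem b.deg hk]
    refine Finset.sum_congr rfl fun p₁ _ => Finset.sum_congr rfl fun k₁ hk₁ => ?_
    rw [(Finset.mem_filter.1 hk).2, (Finset.mem_filter.1 hk₁).2]; ring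
  set T := (s.image b.deg ×ˢ s₁.image b.deg).filter fun q => q.1 ≤ q.2 + d ∧ q.2 ≤ q.1 + d with hT
  have e2 : |∑ k ∈ s, ∑ k₁ ∈ s₁, y k * (r (b.deg k) (b.deg k₁) * ent B k k₁) * x k₁| ≤
      R * ‖B‖ * ∑ q ∈ T, a q.1 * c q.2 := by
    rw [e1, ← Finset.sum_product', hT, Finset.sum_filter, Finset.mul_sum]
    refine (Finset.abs_sum_le_sum_abs _ _).trans (Finset.sum_le_sum fun q _ => ?_)
    split_ifs with h
    · rw [abs_mul, mul_assoc R, ← mul_assoc ‖B‖]
      exact mul_le_mul (hr _ _ h.1 h.2) (block_le B _ _ x y) (abs_nonneg _) hR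
    · rw [Finset.sum_eq_zero fun k hk => Finset.sum_eq_zero fun k₁ hk₁ => ?_]
      · simp
      · rw [hB k k₁ (by rw [(Finset.mem_filter.1 hk).2, (Finset.mem_filter.1 hk₁).2]; omega)]
        simp
  have cnt : ∀ (P : Finset ℕ) (p : ℕ),
      ((P.filter fun p₁ => p ≤ p₁ + d ∧ p₁ ≤ p + d).card : ℝ) ≤ 2 * d + 1 := by
    intro P p
    have : (P.filter fun p₁ => p ≤ p₁ + d ∧ p₁ ≤ p + d).card ≤ (Finset.Icc (p - d) (p + d)).card :=
      Finset.card_le_card fun p₁ h => by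
        rw [Finset.mem_filter] at h; rw [Finset.mem_Icc]; omega
    rw [Nat.card_Icc] at this
    exact_mod_cast (by omega : _ ≤ 2 * d + 1)
  have e3 : ∑ q ∈ T, a q.1 ^ 2 ≤ (2 * d + 1) * ∑ k ∈ s, y k ^ 2 := by
    rw [hT, Finset.sum_filter, Finset.sum_product, ← Finset.sum_fiberwise_of_maps_to
      (fun k hk => Finset.mem_image_of_mem b.deg hk) fun k => y k ^ 2, Finset.mul_sum]
    refine Finset.sum_le_sum fun p _ => ?_
    dsimp only
    rw [← Finset.sum_filter, Finset.sum_const, nsmul_eq_mul, ha,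
      Real.sq_sqrt (Finset.sum_nonneg fun _ _ => sq_nonneg _)]
    exact mul_le_mul_of_nonneg_right (cnt _ p) (Finset.sum_nonneg fun _ _ => sq_nonneg _)
  have e4 : ∑ q ∈ T, c q.2 ^ 2 ≤ (2 * d + 1) * ∑ k ∈ s₁, x k ^ 2 := by
    rw [hT, Finset.sum_filter, Finset.sum_product_right, ← Finset.sum_fiberwise_of_maps_to
      (fun k hk => Finset.mem_image_of_mem b.deg hk) fun k => x k ^ 2, Finset.mul_sum]
    refine Finset.sum_le_sum fun p _ => ?_
    simp only [and_comm (a := _ ≤ p + d)]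
    rw [← Finset.sum_filter, Finset.sum_const, nsmul_eq_mul, hc,
      Real.sq_sqrt (Finset.sum_nonneg fun _ _ => sq_nonneg _)]
    exact mul_le_mul_of_nonneg_right (cnt _ p) (Finset.sum_nonneg fun _ _ => sq_nonneg _)
  have e5 := (Real.sum_mul_le_sqrt_mul_sqrt T (fun q => a q.1) fun q => c q.2).trans
    (mul_le_mul (Real.sqrt_le_sqrt e3) (Real.sqrt_le_sqrt e4) (Real.sqrt_nonneg _)
      (Real.sqrt_nonneg _))
  rw [Real.sqrt_mul (by positivity), Real.sqrt_mul (by positivity), mul_mul_mul_comm,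
    Real.mul_self_sqrt (by positivity)] at e5
  exact e2.trans ((mul_le_mul_of_nonneg_left e5 (by positivity)).trans_eq (by ring))

theorem Base.summable_poly_exp (p : ℕ) {ε : ℝ} (hε : 0 < ε) :
    Summable fun k => ((b.deg k : ℝ) + 1) ^ p * Real.exp (-(ε * b.deg k)) := by
  classical
  have h1 := ((summable_nat_add_iff 1).2
    (Real.summable_pow_mul_exp_neg_nat_mul (p + 2) hε)).mul_left (2 * Real.exp ε)
  refine summable_of_sum_le (fun k => by positivity) (c := _) fun u => le_trans ?_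
    (h1.sum_le_tsum (u.image b.deg) fun m _ => by positivity)
  rw [← Finset.sum_fiberwise_of_maps_to fun k hk => Finset.mem_image_of_mem b.deg hk]
  refine Finset.sum_le_sum fun m _ => ?_
  rw [Finset.sum_congr rfl (g := fun _ => ((m : ℝ) + 1) ^ p * Real.exp (-(ε * m)))
    fun k hk => by rw [(Finset.mem_filter.1 hk).2], Finset.sum_const, nsmul_eq_mul]
  have h2 : (u.filter fun k => b.deg k = m).card ≤ (2 * m + 1) * (m + 1) := by
    refine le_trans ?_ (b.card m)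
    rw [← Set.ncard_coe_finset]
    exact Set.ncard_le_ncard (fun k hk => (Finset.mem_filter.1 hk).2.le) (b.fin m)
  have h3 : ((u.filter fun k => b.deg k = m).card : ℝ) ≤ 2 * ((m : ℝ) + 1) ^ 2 := by
    have : ((u.filter fun k => b.deg k = m).card : ℝ) ≤ (2 * m + 1) * (m + 1) := by
      exact_mod_cast h2
    nlinarith [Nat.cast_nonneg (α := ℝ) m]
  refine (mul_le_mul_of_nonneg_right h3 (by positivity)).trans_eq ?_
  rw [show -(ε * m) = ε + -ε * ((m + 1 : ℕ) : ℝ) by push_cast; ring, Real.exp_add]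
  push_cast; ring

/-- eigenvectors of banded admissible operators decay exponentially, uniformly -/
theorem Base.eig_decay (d : ℕ) : ∃ ε₀ : ℝ, 0 < ε₀ ∧ ∀ lp : ℝ, ∃ C : ℝ,
    ∀ B : H J →L[ℝ] H J, Adm B → b.Banded d B → ∀ (x : H J) (l : ℝ), B x = l • b.K x → l ≤ lp →
      b.mass x x = 1 → ∀ k, |x k| ≤ C * Real.exp (-(ε₀ * b.deg k)) := by
  classical
  set ε : ℝ := 1 / (32 * (2 * d + 1) * (d + 1)) with hε
  have hε0 : 0 < ε := by positivity
  have hεd : (2 * d + 1) * (2 * (ε * d)) ≤ 1 / 16 := by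
    rw [hε]; field_simp; linarith
  refine ⟨ε, hε0, fun lp => ⟨1 + 4 * (|lp| * Real.exp (ε * (8 * |lp|)) ^ 2),
    fun B hA hB x l hx hl hm k₀ => ?_⟩⟩
  set L := |lp| with hL
  have hL0 : 0 ≤ L := abs_nonneg _
  set w : ℕ → ℝ := fun p => Real.exp (ε * min (p : ℝ) (b.deg k₀)) with hw
  have w0 : ∀ p, 0 < w p := fun p => Real.exp_pos _
  set u : H J := diagOp (fun k => w (b.deg k)) (Real.exp (ε * b.deg k₀)) (fun k => by
    rw [abs_of_pos (w0 _)]
    exact Real.exp_le_exp.2 (mul_le_mul_of_nonneg_left (min_le_right _ _) hε0.le)) x with hu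
  have hu' : ∀ k, u k = w (b.deg k) * x k := fun k => rfl
  have su : ∀ s : Finset J, √(∑ k ∈ s, u k ^ 2) ≤ ‖u‖ := fun s =>
    Real.sqrt_le_iff.2 ⟨norm_nonneg _, sum_le_hasSum s (fun _ _ => sq_nonneg _) (hasSum_sq u)⟩
  have h1 := (hasSum_inner' (B u) u).sub (((hasSum_sq u).mul_left (1 / 8)).add
    ((b.mass_hasSum x x).mul_left (L * Real.exp (ε * (8 * L)) ^ 2)))
  have h2 := hasSum_le_of_sum_le h1 (c := 1 / 8 * ‖u‖ ^ 2) fun s => by
    set s₁ := (b.fin (s.sup b.deg + d)).toFinset with hs₁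
    have fin : ∀ z : H J, ∀ k ∈ s, B z k = ∑ k₁ ∈ s₁, ent B k k₁ * z k₁ := fun z k hk =>
      (ent_hasSum B z k).unique (hasSum_sum_of_ne_finset_zero fun k₁ hk₁ => by
        have := Finset.le_sup (f := b.deg) hk
        rw [hs₁, Set.Finite.mem_toFinset, Set.mem_ofPred_eq] at hk₁
        rw [hB k k₁ (by omega), zero_mul])
    have a1 := b.band_mul_le hB (fun p p₁ => 1 - w p / w p₁) (R := 2 * (ε * d)) (by positivity)
      (fun p p₁ h h' => by
        have c1 : |ε * min (p : ℝ) (b.deg k₀) - ε * min (p₁ : ℝ) (b.deg k₀)| ≤ ε * d := by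
          rw [← mul_sub, abs_mul, abs_of_pos hε0]
          gcongr
          refine (abs_min_sub_min_le_max _ _ _ _).trans ?_
          have h : (p : ℝ) ≤ p₁ + d := by exact_mod_cast h
          have h' : (p₁ : ℝ) ≤ p + d := by exact_mod_cast h'
          rw [sub_self, abs_zero]
          exact max_le (abs_le.2 ⟨by linarith, by linarith⟩) (Nat.cast_nonneg _)
        rw [hw, ← Real.exp_sub, abs_sub_comm]
        refine (Real.abs_exp_sub_one_le (c1.trans ?_)).trans (by linarith)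
        nlinarith [mul_nonneg hε0.le (Nat.cast_nonneg (α := ℝ) d), Nat.cast_nonneg (α := ℝ) d])
      s s₁ u u
    have a2 : (2 * d + 1) * (2 * (ε * d)) * ‖B‖ * √(∑ k ∈ s, u k ^ 2) * √(∑ k ∈ s₁, u k ^ 2) ≤
        1 / 16 * 2 * ‖u‖ * ‖u‖ := by
      have := adm_norm_le hA
      have := su s
      have := su s₁
      gcongr
    refine le_trans (Finset.sum_le_sum fun k hk => ?_) (((le_abs_self _).trans a1).trans
      (a2.trans_eq (by ring)))
    have a3 : ∑ k₁ ∈ s₁, u k * ((1 - w (b.deg k) / w (b.deg k₁)) * ent B k k₁) * u k₁ =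
        B u k * u k - l * (b.lam k)⁻¹ * u k ^ 2 := by
      have a4 : B x k = l * ((b.lam k)⁻¹ * x k) := by rw [hx]; rfl
      calc _ = u k * (∑ k₁ ∈ s₁, ent B k k₁ * u k₁ -
            w (b.deg k) * ∑ k₁ ∈ s₁, ent B k k₁ * x k₁) := by
            rw [Finset.mul_sum, ← Finset.sum_sub_distrib, Finset.mul_sum]
            refine Finset.sum_congr rfl fun k₁ _ => ?_
            have := w0 (b.deg k₁)
            rw [hu' k₁]; field_simp
        _ = _ := by rw [← fin u k hk, ← fin x k hk, a4, hu' k]; ring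
    rw [a3]
    have l2 := b.two_le_lam k
    have a5 : l * (b.lam k)⁻¹ * u k ^ 2 ≤ L * (b.lam k)⁻¹ * u k ^ 2 := by
      have := hl.trans (le_abs_self lp)
      gcongr
    have a6 : 0 ≤ L * Real.exp (ε * (8 * L)) ^ 2 * ((b.lam k)⁻¹ * x k * x k) := by
      rw [mul_assoc (b.lam k)⁻¹]
      exact mul_nonneg (by positivity) (mul_nonneg (by positivity) (mul_self_nonneg _))
    rcases le_total (8 * L) (b.lam k) with h | h
    · have : L * (b.lam k)⁻¹ ≤ 1 / 8 := by
        rw [← div_eq_mul_inv, div_le_iff₀ (by linarith)]; linarith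
      nlinarith [mul_le_mul_of_nonneg_right this (sq_nonneg (u k))]
    · have c1 : (b.deg k : ℝ) ≤ b.lam k := by
        have h1 : (1 : ℝ) ≤ b.deg k := by exact_mod_cast b.deg_pos k
        have h2 : (3 : ℝ) ≤ n := by exact_mod_cast b.hn
        unfold Base.lam; nlinarith
      have c2 : w (b.deg k) ≤ Real.exp (ε * (8 * L)) :=
        Real.exp_le_exp.2 (mul_le_mul_of_nonneg_left ((min_le_left _ _).trans (c1.trans h)) hε0.le)
      have c3 : L * (b.lam k)⁻¹ * u k ^ 2 ≤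
          L * Real.exp (ε * (8 * L)) ^ 2 * ((b.lam k)⁻¹ * x k * x k) := by
        have := (w0 (b.deg k)).le
        calc _ = L * w (b.deg k) ^ 2 * ((b.lam k)⁻¹ * x k ^ 2) := by rw [hu']; ring
          _ ≤ L * Real.exp (ε * (8 * L)) ^ 2 * ((b.lam k)⁻¹ * x k ^ 2) := by gcongr
          _ = _ := by ring
      nlinarith [sq_nonneg (u k)]
  have h3 := (hA.2 u).1
  rw [hm] at h2
  have h4 : |u k₀| ≤ ‖u‖ := _root_.lp.norm_apply_le_norm (by norm_num) u k₀
  rw [hu', abs_mul, abs_of_pos (w0 _), hw] at h4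
  simp only [min_self] at h4
  rw [Real.exp_neg, ← div_eq_mul_inv, le_div_iff₀ (Real.exp_pos _), mul_comm]
  nlinarith [sq_nonneg (‖u‖ - 1), norm_nonneg u]

end Crest.Agent.R202
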