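import Crest.Agent.R202.Expand
import Crest.Agent.R202.Band

/-!
# The operator of a triple (task F3a)

The bilinear form `(V, W) ↦ form t (pol s V) (pol s W)` is bounded by `ε ‖V‖ ‖W‖` on finitely supported vectors (`MqLe`, polarisation /
Cauchy-Schwarz, `energy_le`); such a matrix defines a bounded operator on `ℓ²` (e.g. the matrix is banded, define `(A x) k` as a finite sum and
bound `∑_{k ∈ s} (A x) k ^ 2`).  An operator is determined by its entries (`ent_hasSum`).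
-/

set_option autoImplicit false

noncomputable section

open scoped InnerProductSpace ContDiff
open Set Filter Topology
open MvPolynomial Real

namespace Crest.Agent.R202

section abstract
variable {J : Type}

theorem aopb_fin {m : J → J → ℝ} (hm : ∀ k k₁, m k k₁ = m k₁ k) {ε : ℝ} (hε : 0 < ε)
    (h : ∀ (s : Finset J) (V : J → ℝ), |∑ k ∈ s, ∑ k₁ ∈ s, V k * V k₁ * m k k₁| ≤ ε * ∑ k ∈ s, V k ^ 2)
    (s t : Finset J) (x : J → ℝ) :
    ∑ k ∈ s, (∑ k₁ ∈ t, m k k₁ * x k₁) ^ 2 ≤ ε ^ 2 * ∑ k ∈ t, x k ^ 2 := by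
  classical
  set y : J → ℝ := fun k => ∑ k₁ ∈ t, m k k₁ * x k₁ with hy
  set V : J → ℝ := fun k => if k ∈ s then y k else 0 with hV
  set W : J → ℝ := fun k => if k ∈ t then ε * x k else 0 with hW
  have h1 := (abs_le.1 (h (s ∪ t) fun k => V k + W k)).2
  have h2 := (abs_le.1 (h (s ∪ t) fun k => V k - W k)).1
  have e1 : ∑ k ∈ s ∪ t, ∑ k₁ ∈ s ∪ t, V k * W k₁ * m k k₁ = ε * ∑ k ∈ s, y k ^ 2 := by
    have a1 : ∀ k, ∑ k₁ ∈ s ∪ t, V k * W k₁ * m k k₁ = V k * (ε * y k) := fun k => by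
      rw [hy, Finset.mul_sum, Finset.mul_sum]
      symm
      refine Finset.sum_subset_zero_on_sdiff Finset.subset_union_right (fun j hj => ?_) fun j hj => ?_
      · simp [hW, (Finset.mem_sdiff.1 hj).2]
      · simp only [hW, if_pos hj]; ring
    simp only [a1]
    rw [Finset.mul_sum]
    symm
    refine Finset.sum_subset_zero_on_sdiff Finset.subset_union_left (fun j hj => ?_) fun j hj => ?_
    · simp [hV, (Finset.mem_sdiff.1 hj).2]
    · simp only [hV, if_pos hj]; ring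
  have e2 : ∑ k ∈ s ∪ t, ∑ k₁ ∈ s ∪ t, W k * V k₁ * m k k₁ = ε * ∑ k ∈ s, y k ^ 2 := by
    rw [← e1, Finset.sum_comm]
    exact Finset.sum_congr rfl fun k _ => Finset.sum_congr rfl fun k₁ _ => by rw [hm k₁ k]; ring
  have e3 : ∑ k ∈ s ∪ t, V k ^ 2 = ∑ k ∈ s, y k ^ 2 := by
    symm
    refine Finset.sum_subset_zero_on_sdiff Finset.subset_union_left (fun j hj => ?_) fun j hj => ?_
    · simp [hV, (Finset.mem_sdiff.1 hj).2]
    · simp only [hV, if_pos hj]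
  have e4 : ∑ k ∈ s ∪ t, W k ^ 2 = ε ^ 2 * ∑ k ∈ t, x k ^ 2 := by
    rw [Finset.mul_sum]
    symm
    refine Finset.sum_subset_zero_on_sdiff Finset.subset_union_right (fun j hj => ?_) fun j hj => ?_
    · simp [hW, (Finset.mem_sdiff.1 hj).2]
    · simp only [hW, if_pos hj]; ring
  have e5 : ∑ k ∈ s ∪ t, ∑ k₁ ∈ s ∪ t, (V k + W k) * (V k₁ + W k₁) * m k k₁ -
      ∑ k ∈ s ∪ t, ∑ k₁ ∈ s ∪ t, (V k - W k) * (V k₁ - W k₁) * m k k₁ =
      2 * (∑ k ∈ s ∪ t, ∑ k₁ ∈ s ∪ t, V k * W k₁ * m k k₁) +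
        2 * ∑ k ∈ s ∪ t, ∑ k₁ ∈ s ∪ t, W k * V k₁ * m k k₁ := by
    simp only [Finset.mul_sum, ← Finset.sum_sub_distrib, ← Finset.sum_add_distrib]
    exact Finset.sum_congr rfl fun k _ => Finset.sum_congr rfl fun k₁ _ => by ring
  have e6 : ∑ k ∈ s ∪ t, (V k + W k) ^ 2 + ∑ k ∈ s ∪ t, (V k - W k) ^ 2 =
      2 * (∑ k ∈ s ∪ t, V k ^ 2) + 2 * ∑ k ∈ s ∪ t, W k ^ 2 := by
    simp only [Finset.mul_sum, ← Finset.sum_add_distrib]
    exact Finset.sum_congr rfl fun k _ => by ring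
  rw [e1, e2] at e5
  rw [e3, e4] at e6
  refine le_of_mul_le_mul_left ?_ hε
  have e7 := congrArg (fun z => ε * z) e6
  simp only [mul_add] at e7
  linarith

theorem aopb_memℓp {f : J → ℝ} {C : ℝ} (h : ∀ s : Finset J, ∑ k ∈ s, f k ^ 2 ≤ C) : Memℓp f 2 :=
  memℓp_gen' (C := C) fun s => by simpa using h s

theorem aopb_exists {m : J → J → ℝ} (hm : ∀ k k₁, m k k₁ = m k₁ k) {ε : ℝ} (hε : 0 < ε)
    (h : ∀ (s : Finset J) (V : J → ℝ), |∑ k ∈ s, ∑ k₁ ∈ s, V k * V k₁ * m k k₁| ≤ ε * ∑ k ∈ s, V k ^ 2) :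
    ∃ A : H J →L[ℝ] H J, ∀ k k₁, ent A k k₁ = m k k₁ := by
  classical
  have hf := aopb_fin hm hε h
  let row : J → H J := fun k => ⟨fun k₁ => m k₁ k, aopb_memℓp (C := ε ^ 2) fun s => by
    simpa using hf s {k} fun _ => 1⟩
  have h1 : ∀ (t : Finset J) (y : J → ℝ), ‖∑ k ∈ t, y k • row k‖ ^ 2 ≤ ε ^ 2 * ∑ k ∈ t, y k ^ 2 := by
    intro t y
    refine hasSum_le_of_sum_le (hasSum_sq _) fun s => le_trans (le_of_eq ?_) (hf s t y)
    refine Finset.sum_congr rfl fun k _ => ?_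
    rw [lp.coeFn_sum, Finset.sum_apply]
    exact congrArg (· ^ 2) (Finset.sum_congr rfl fun k₁ _ => mul_comm _ _)
  have h2 : ∀ (x : H J) (s : Finset J), ∑ k ∈ s, ⟪row k, x⟫_ℝ ^ 2 ≤ (ε * ‖x‖) ^ 2 := by
    intro x s
    set S := ∑ k ∈ s, ⟪row k, x⟫_ℝ ^ 2 with hS
    have a0 : 0 ≤ S := Finset.sum_nonneg fun _ _ => sq_nonneg _
    have a1 : S = ⟪∑ k ∈ s, ⟪row k, x⟫_ℝ • row k, x⟫_ℝ := by
      rw [sum_inner]
      exact Finset.sum_congr rfl fun k _ => by rw [real_inner_smul_left, sq]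
    have a2 := h1 s fun k => ⟪row k, x⟫_ℝ
    have a3 := real_inner_le_norm (∑ k ∈ s, ⟪row k, x⟫_ℝ • row k) x
    rw [← a1] at a3
    rw [← hS] at a2
    have a4 := pow_le_pow_left₀ a0 a3 2
    rw [mul_pow] at a4
    have a5 := mul_le_mul_of_nonneg_right a2 (sq_nonneg ‖x‖)
    rcases a0.eq_or_lt with a6 | a6
    · rw [← a6]; positivity
    · refine le_of_mul_le_mul_left ?_ a6
      nlinarith
  refine ⟨LinearMap.mkContinuous
    { toFun := fun x => ⟨fun k => ⟪row k, x⟫_ℝ, aopb_memℓp (h2 x)⟩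
      map_add' := fun x y => lp.ext (funext fun k => inner_add_right _ _ _)
      map_smul' := fun a x => lp.ext (funext fun k => real_inner_smul_right _ _ _) } ε fun x => ?_,
    fun k k₁ => ?_⟩
  · refine le_of_pow_le_pow_left₀ two_ne_zero (by positivity) ?_
    exact hasSum_le_of_sum_le (hasSum_sq _) (h2 x)
  · change ⟪row k, _⟫_ℝ = _
    rw [lp.inner_single_right, hm]
    simp [row]

theorem aopb_ent_add (A B : H J →L[ℝ] H J) (k k₁ : J) : ent (A + B) k k₁ = ent A k k₁ + ent B k k₁ := rfl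

open Classical in
theorem aopb_ent_one (k k₁ : J) : ent (1 : H J →L[ℝ] H J) k k₁ = if k = k₁ then 1 else 0 := by
  unfold ent
  rw [one_apply_eq_self, lp.single_apply, Pi.single_apply]

theorem aopb_trunc [DecidableEq J] (x : H J) (s : Finset J) (j : J) :
    (∑ k ∈ s, lp.single (E := fun _ : J => ℝ) 2 k (x k)) j = if j ∈ s then x j else 0 := by
  rw [lp.coeFn_sum, Finset.sum_apply]
  simp only [lp.single_apply, Pi.single_apply]
  exact Finset.sum_ite_eq s j fun k => x k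

end abstract

variable {r n : ℕ} (c : Cl r n)

def MqLe (r : ℕ) (t : T3) (ε : ℝ) : Prop :=
  ∀ θ φ a b : ℝ, |mq r t θ φ a b a b| ≤ ε * (a ^ 2 + b ^ 2)

theorem exists_mqLe (t : T3) : ∃ ε, 0 ≤ ε ∧ MqLe r t ε := by
  have hb : ∀ g : P3, ∃ C, 0 ≤ C ∧ ∀ θ φ, |eval (pt r θ φ) g| ≤ C := fun g => by
    obtain ⟨C, hC⟩ := (isCompact_closedBall (0 : Fin 3 → ℝ) 1).exists_bound_of_continuousOn
      (MvPolynomial.continuous_eval g).continuousOn
    refine ⟨|C|, abs_nonneg _, fun θ φ => (hC _ ?_).trans (le_abs_self C)⟩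
    rw [mem_closedBall_zero_iff, pi_norm_le_iff_of_nonneg zero_le_one]
    intro i
    fin_cases i
    · simpa [pt] using mul_le_one₀ (abs_sin_le_one θ) (abs_nonneg _) (abs_cos_le_one φ)
    · simpa [pt] using mul_le_one₀ (abs_sin_le_one θ) (abs_nonneg _) (abs_sin_le_one φ)
    · simpa [pt] using pow_le_one₀ (abs_nonneg _) (abs_cos_le_one θ)
  obtain ⟨C₁, p₁, h₁⟩ := hb (uU r * t.1)
  obtain ⟨C₂, p₂, h₂⟩ := hb t.2.1
  obtain ⟨C₃, p₃, h₃⟩ := hb (uU r * t.2.2)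
  refine ⟨C₁ + C₂ + C₃, by positivity, fun θ φ a b => ?_⟩
  have hs : |sgm r θ| ≤ 1 := by
    have a1 : |vp r θ| ≤ 1 := by
      unfold vp; split_ifs
      · simp
      · exact abs_cos_le_one θ
    rw [sgm, abs_mul, abs_pow]
    exact mul_le_one₀ a1 (by positivity) (pow_le_one₀ (abs_nonneg _) (abs_sin_le_one θ))
  have a1 : |eval (pt r θ φ) (uU r * t.1) * (a * a)| ≤ C₁ * a ^ 2 := by
    rw [abs_mul, abs_mul_self, ← sq]
    exact mul_le_mul_of_nonneg_right (h₁ θ φ) (sq_nonneg _)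
  have a3 : |eval (pt r θ φ) (uU r * t.2.2) * (b * b)| ≤ C₃ * b ^ 2 := by
    rw [abs_mul, abs_mul_self, ← sq]
    exact mul_le_mul_of_nonneg_right (h₃ θ φ) (sq_nonneg _)
  have a2 : |sgm r θ * eval (pt r θ φ) t.2.1 * (a * b + b * a)| ≤ C₂ * (a ^ 2 + b ^ 2) := by
    rw [abs_mul, abs_mul]
    refine mul_le_mul ((mul_le_of_le_one_left (abs_nonneg _) hs).trans (h₂ θ φ)) ?_ (abs_nonneg _) p₂
    rw [abs_le]
    constructor <;> nlinarith [sq_nonneg (a + b), sq_nonneg (a - b)]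
  have a4 := mul_nonneg p₁ (sq_nonneg b)
  have a5 := mul_nonneg p₃ (sq_nonneg a)
  rw [abs_le] at a1 a2 a3 ⊢
  unfold mq
  constructor <;> linarith [a1.1, a1.2, a2.1, a2.2, a3.1, a3.2]

theorem ext_ent {J : Type} {A B : H J →L[ℝ] H J} (h : ∀ k k₁, ent A k k₁ = ent B k k₁) : A = B := by
  ext x k
  exact (ent_hasSum A x k).unique (by simpa only [h] using ent_hasSum B x k)

theorem aopb_sint_smul (a : ℝ) (f : ℝ → ℝ → ℝ) : sint r n (fun θ φ => a * f θ φ) = a * sint r n f := by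
  simp only [sint, intervalIntegral.integral_const_mul, mul_assoc]

theorem Cl.aopb_cont (t : T3) (g h : P3) : Continuous fun p : ℝ × ℝ =>
    mq r t p.1 p.2 (c.Dθ g p.1 p.2) (c.Dφ g p.1 p.2) (c.Dθ h p.1 p.2) (c.Dφ h p.1 p.2) := by
  have h1 := fun g => (contDiff_evalpt (r := r) g).continuous
  have h2 := fun g => (c.contDiff_Dθ g).continuous
  have h3 := fun g => (c.contDiff_Dφ g).continuous
  have h4 : Continuous fun p : ℝ × ℝ => sgm r p.1 := by
    unfold sgm vp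
    split_ifs <;> fun_prop
  exact (((h1 _).mul ((h2 g).mul (h2 h))).sub ((h4.mul (h1 _)).mul
    (((h2 g).mul (h3 h)).add ((h3 g).mul (h2 h))))).add ((h1 _).mul ((h3 g).mul (h3 h)))

theorem MqLe.nonneg {t : T3} {ε : ℝ} (h : MqLe r t ε) : 0 ≤ ε := by
  simpa using (abs_nonneg _).trans (h 0 0 1 0)

theorem Cl.aopb_form_le {t : T3} {ε : ℝ} (h : MqLe r t ε) (s : Finset c.J) (V : c.J → ℝ) :
    |c.form t (c.pol s V) (c.pol s V)| ≤ ε * ∑ k ∈ s, V k ^ 2 := by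
  have hc : Continuous fun p : ℝ × ℝ => c.Dθ (c.pol s V) p.1 p.2 ^ 2 + c.Dφ (c.pol s V) p.1 p.2 ^ 2 :=
    ((c.contDiff_Dθ _).continuous.pow 2).add ((c.contDiff_Dφ _).continuous.pow 2)
  have h1 := mul_le_mul_of_nonneg_left (c.energy_le s V) h.nonneg
  have h2 := c.sint_mono (c.aopb_cont t (c.pol s V) (c.pol s V))
    (g := fun θ φ => ε * (c.Dθ (c.pol s V) θ φ ^ 2 + c.Dφ (c.pol s V) θ φ ^ 2)) (continuous_const.mul hc)
    fun θ _ φ => (abs_le.1 (h θ φ _ _)).2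
  have h3 := c.sint_mono (f := fun θ φ => -ε * (c.Dθ (c.pol s V) θ φ ^ 2 + c.Dφ (c.pol s V) θ φ ^ 2))
    (continuous_const.mul hc) (c.aopb_cont t (c.pol s V) (c.pol s V))
    fun θ _ φ => (neg_mul _ _).le.trans (abs_le.1 (h θ φ _ _)).1
  rw [aopb_sint_smul] at h2 h3
  rw [abs_le, Cl.form]
  constructor <;> linarith

theorem Cl.aopb_form_pol (t : T3) (s : Finset c.J) (V W : c.J → ℝ) :
    c.form t (c.pol s V) (c.pol s W) = ∑ k ∈ s, ∑ k₁ ∈ s,
      V k * W k₁ * (c.form t (c.ek k) (c.ek k₁) / (√(c.base.lam k₁) * √(c.base.lam k))) := by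
  rw [Cl.pol, Cl.pol, c.form_sum]
  exact Finset.sum_congr rfl fun k _ => Finset.sum_congr rfl fun k₁ _ => by ring

theorem Cl.ent_Aop (t : T3) (k k₁ : c.J) : ent (c.Aop t) k k₁ =
    c.form t (c.ek k₁) (c.ek k) / (√(c.base.lam k) * √(c.base.lam k₁)) := by
  have h : ∃ A : H c.J →L[ℝ] H c.J, ∀ k k₁, ent A k k₁ =
      c.form t (c.ek k₁) (c.ek k) / (√(c.base.lam k) * √(c.base.lam k₁)) := by
    obtain ⟨ε, hε, h⟩ := exists_mqLe (r := r) t
    refine aopb_exists (fun k k₁ => by rw [c.form_symm, mul_comm]) (ε := ε + 1) (by positivity) fun s V => ?_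
    have h1 := c.aopb_form_le h s V
    rw [c.aopb_form_pol, Finset.sum_comm] at h1
    simp only [mul_comm (V _) (V _)] at h1 ⊢
    exact h1.trans (mul_le_mul_of_nonneg_right (by linarith) (Finset.sum_nonneg fun _ _ => sq_nonneg _))
  rw [Cl.Aop, dif_pos h]
  exact h.choose_spec k k₁

theorem Cl.aopb_inner (t : T3) (s : Finset c.J) {x y : H c.J} (hx : Supp (↑s) x) (hy : Supp (↑s) y) :
    ⟪c.Aop t x, y⟫_ℝ = c.form t (c.pol s x) (c.pol s y) := by
  rw [(hasSum_inner' (c.Aop t x) y).unique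
    (hasSum_sum_of_ne_finset_zero (s := s) fun k hk => by rw [hy k hk, mul_zero]), c.aopb_form_pol,
    Finset.sum_comm]
  refine Finset.sum_congr rfl fun k _ => ?_
  rw [(ent_hasSum (c.Aop t) x k).unique
    (hasSum_sum_of_ne_finset_zero (s := s) fun k hk => by rw [hx k hk, mul_zero]), Finset.sum_mul]
  exact Finset.sum_congr rfl fun k₁ _ => by rw [c.ent_Aop]; ring

theorem Cl.aopb_tendsto (t : T3) (x y : H c.J) :
    Tendsto (fun s : Finset c.J => c.form t (c.pol s x) (c.pol s y)) atTop (𝓝 ⟪c.Aop t x, y⟫_ℝ) := by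
  classical
  have hx : Tendsto (fun s : Finset c.J => ∑ k ∈ s, lp.single (E := fun _ : c.J => ℝ) 2 k (x k)) atTop (𝓝 x) :=
    lp.hasSum_single (by norm_num) x
  have hy : Tendsto (fun s : Finset c.J => ∑ k ∈ s, lp.single (E := fun _ : c.J => ℝ) 2 k (y k)) atTop (𝓝 y) :=
    lp.hasSum_single (by norm_num) y
  refine ((((c.Aop t).continuous.tendsto x).comp hx).inner hy).congr fun s => ?_
  have h1 : ∀ z : H c.J, Supp (↑s) (∑ k ∈ s, lp.single (E := fun _ : c.J => ℝ) 2 k (z k)) := fun z k hk => by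
    rw [aopb_trunc, if_neg (by exact hk)]
  have h2 : ∀ z : H c.J, c.pol s (∑ k ∈ s, lp.single (E := fun _ : c.J => ℝ) 2 k (z k) : H c.J) = c.pol s z :=
    fun z => Finset.sum_congr rfl fun k hk => by rw [aopb_trunc, if_pos hk]
  rw [Function.comp_apply, c.aopb_inner t s (h1 x) (h1 y), h2, h2]

theorem Cl.Aop_symm (t : T3) (x y : H c.J) : ⟪c.Aop t x, y⟫_ℝ = ⟪x, c.Aop t y⟫_ℝ := by
  rw [real_inner_comm (c.Aop t y)]
  exact tendsto_nhds_unique (c.aopb_tendsto t x y)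
    ((c.aopb_tendsto t y x).congr fun s => c.form_symm _ _ _)

theorem Cl.inner_Aop (t : T3) (s : Finset c.J) {x y : H c.J} (hx : Supp (↑s) x) (hy : Supp (↑s) y) :
    ⟪c.Aop t x, y⟫_ℝ = c.form t (c.pol s x) (c.pol s y) := by
  exact c.aopb_inner t s hx hy

theorem Cl.inner_Aop_tendsto (t : T3) (x y : H c.J) :
    Tendsto (fun s : Finset c.J => c.form t (c.pol s x) (c.pol s y)) atTop (𝓝 ⟪c.Aop t x, y⟫_ℝ) := by
  exact c.aopb_tendsto t x y

theorem Cl.abs_inner_Aop_le {t : T3} {ε : ℝ} (h : MqLe r t ε) (x : H c.J) :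
    |⟪c.Aop t x, x⟫_ℝ| ≤ ε * ‖x‖ ^ 2 := by
  refine le_of_tendsto' (c.aopb_tendsto t x x).abs fun s => (c.aopb_form_le h s x).trans ?_
  exact mul_le_mul_of_nonneg_left (sum_le_hasSum s (fun _ _ => sq_nonneg _) (hasSum_sq x)) h.nonneg

theorem Cl.adm_Aop {t : T3} {ε : ℝ} (h : MqLe r t ε) (hε : ε ≤ 1 / 2) : Adm (1 + c.Aop t) := by
  refine ⟨fun x y => ?_, fun x => ?_⟩
  · simp only [add_apply, one_apply_eq_self, inner_add_left, inner_add_right, c.Aop_symm]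
  · have h1 := abs_le.1 ((c.abs_inner_Aop_le h x).trans (mul_le_mul_of_nonneg_right hε (sq_nonneg _)))
    simp only [add_apply, one_apply_eq_self, inner_add_left, real_inner_self_eq_norm_sq]
    constructor <;> linarith [h1.1, h1.2, sq_nonneg ‖x‖]

theorem aopb_mq_sum {I : Type} (s : Finset I) (a : I → ℝ) (t : I → T3) (θ φ u v u' v' : ℝ) :
    mq r (∑ i ∈ s, a i • t i) θ φ u v u' v' = ∑ i ∈ s, a i * mq r (t i) θ φ u v u' v' := by
  classical
  induction s using Finset.induction_on with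
  | empty => simp [mq]
  | insert j s hj ih =>
    rw [Finset.sum_insert hj, Finset.sum_insert hj, ← ih]
    simp only [mq, Prod.fst_add, Prod.snd_add, Prod.smul_fst, Prod.smul_snd, map_mul, map_add, smul_eval]
    ring

theorem Cl.Aop_sum {I : Type} (s : Finset I) (a : I → ℝ) (t : I → T3) :
    c.Aop (∑ i ∈ s, a i • t i) = ∑ i ∈ s, a i • c.Aop (t i) := by
  refine ext_ent fun k k₁ => ?_
  have e : ent (∑ i ∈ s, a i • c.Aop (t i)) k k₁ = ∑ i ∈ s, a i * ent (c.Aop (t i)) k k₁ := by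
    unfold ent
    rw [sum_apply, lp.coeFn_sum, Finset.sum_apply]
    rfl
  rw [e, c.ent_Aop, Cl.form]
  simp only [aopb_mq_sum]
  rw [sint_sum s a _ fun i => c.aopb_cont (t i) _ _, Finset.sum_div]
  exact Finset.sum_congr rfl fun i _ => by rw [c.ent_Aop, Cl.form, mul_div_assoc]

theorem Cl.Aop_zero : c.Aop 0 = 0 := by
  simpa using c.Aop_sum (∅ : Finset Unit) (fun _ => 0) fun _ => 0

theorem Cl.Aop_congr {t t₁ : T3} (h : ∀ θ ∈ Ioo 0 (π / r), ∀ φ a b a' b',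
    mq r t θ φ a b a' b' = mq r t₁ θ φ a b a' b') : c.Aop t = c.Aop t₁ := by
  refine ext_ent fun k k₁ => ?_
  rw [c.ent_Aop, c.ent_Aop]
  congr 1
  exact le_antisymm (c.sint_mono (c.aopb_cont _ _ _) (c.aopb_cont _ _ _) fun θ hθ φ => (h θ hθ φ _ _ _ _).le)
    (c.sint_mono (c.aopb_cont _ _ _) (c.aopb_cont _ _ _) fun θ hθ φ => (h θ hθ φ _ _ _ _).ge)

theorem Cl.banded_Aop {a : ℕ} {t : T3} (h₁ : Fil r a t.1) (h₂ : Fil r a t.2.1)
    (h₃ : Fil r a t.2.2) : c.base.Banded (a + 4) (1 + c.Aop t) := by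
  have key : ∀ k k' : c.J, c.deg k' + (a + 4) < c.deg k → c.form t (c.ek k') (c.ek k) = 0 := fun k k' hk => by
    rw [← c.ip_Apol]
    refine c.ip_ek_eq_zero (c.fil_Apol h₁ h₂ h₃ (c.fil_ek k')) ?_
    unfold Cl.deg at hk ⊢
    omega
  intro k k' hk
  have hne : k ≠ k' := by rintro rfl; omega
  rw [aopb_ent_add, aopb_ent_one, if_neg hne, c.ent_Aop, zero_add]
  rcases hk with hk | hk
  · rw [c.form_symm, key k' k hk, zero_div]
  · rw [key k k' hk, zero_div]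

theorem Cl.qe_Aop (t : T3) (k k₁ : c.J) : c.base.qe (1 + c.Aop t) k₁ k =
    (if k₁ = k then c.base.lam k else 0) + c.ip (c.Apol t (c.ek k)) (c.ek k₁) := by
  have h1 : 0 < √(c.base.lam k) := Real.sqrt_pos.2 (c.base.evb_lam_pos k)
  have h2 : 0 < √(c.base.lam k₁) := Real.sqrt_pos.2 (c.base.evb_lam_pos k₁)
  rw [Base.qe, aopb_ent_add, aopb_ent_one, c.ent_Aop, c.ip_Apol, mul_add, mul_div_cancel₀ _ (by positivity)]
  congr 1
  split_ifs with h
  · rw [h, mul_one, Real.mul_self_sqrt (c.base.evb_lam_pos k).le]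
  · rw [mul_zero]

theorem Cl.Lop_expand (t : T3) (k : c.J) : ∃ s : Finset c.J,
    (∀ k₁ ∉ s, c.base.qe (1 + c.Aop t) k₁ k = 0) ∧ ∀ θ φ : ℝ,
      c.base.lam k * c.fn (c.ek k) θ φ + c.fn (c.Apol t (c.ek k)) θ φ =
        ∑ k₁ ∈ s, c.base.qe (1 + c.Aop t) k₁ k * c.fn (c.ek k₁) θ φ := by
  obtain ⟨a₁, h₁⟩ := exists_fil (r := r) t.1
  obtain ⟨a₂, h₂⟩ := exists_fil (r := r) t.2.1
  obtain ⟨a₃, h₃⟩ := exists_fil (r := r) t.2.2
  have hg := c.fil_Apol (a := a₁ + a₂ + a₃) (h₁.mono (by omega)) (h₂.mono (by omega)) (h₃.mono (by omega))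
    (c.fil_ek k)
  have h0 : c.j = 0 → c.ip (c.Apol t (c.ek k)) 1 = 0 := fun hj => by
    have a1 : ∀ θ φ, c.Dθ 1 θ φ = 0 := fun θ φ => by simp [Cl.Dθ, Cl.fn, hj]
    have a2 : ∀ θ φ, c.Dφ 1 θ φ = 0 := fun θ φ => by simp [Cl.Dφ]
    rw [c.ip_Apol, Cl.form]
    simp [a1, a2, mq, sint]
  have hk : k ∈ c.base.low (c.j + (k.1.1.natAbs + r * k.1.2 + (a₁ + a₂ + a₃) + 4)) := by
    rw [c.base.mem_low]
    change c.j + k.1.1.natAbs + r * k.1.2 ≤ _
    omega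
  refine ⟨c.base.low (c.j + (k.1.1.natAbs + r * k.1.2 + (a₁ + a₂ + a₃) + 4)), fun k₁ hk₁ => ?_, fun θ φ => ?_⟩
  · rw [c.qe_Aop, if_neg (fun h => hk₁ (by rw [h]; exact hk)), zero_add]
    rw [c.base.mem_low, not_le] at hk₁
    exact c.ip_ek_eq_zero hg hk₁
  · simp only [c.qe_Aop, add_mul, Finset.sum_add_distrib, ite_mul, zero_mul]
    rw [Finset.sum_ite_eq', if_pos hk, ← c.expand hg h0]

end Crest.Agent.R202
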