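import Crest.Agent.R202.CDefs

/-!
# The two counting inequalities

`n = 3`: with `b = √v`, choose `x` with `c < x² < (3b/2)²` …, `a₁ ≈ x k`, `a₀ = D₀`; `∑_{a ≤ A} (2a+1) a ≈ 2A³/3`, `∑ (2a+1) ≈ A²`.
`n = 8`: `k = 20 K`, classes `j ∈ [K, 15K)`, `a₀ = K`, `a₁ = 22K - j`; the mean of `a + 2` with weights `a+1` on `(a₀, a₁]` is
`≤ 2/3 (a₁+3) + K/12 + 1`; `cnt 2 a₁ - cnt 2 a₀ ≥ (a₁² - a₀²)/2`; `C(j+5,5) - C(j+3,5) = (j+1)(j+2)²(j+3)/12 ≥ (j+1)⁴/12`;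
the sum telescopes against the antiderivative `arithF` and is `≥ 593031 K⁷`, while the Euclidean count is `≤ (20.4 K)⁷/2520 < 583460 K⁷`.
-/

set_option autoImplicit false

noncomputable section

open scoped InnerProductSpace ContDiff
open Set Filter Topology
open Real

namespace Crest.Agent.R202

theorem arith_Ioc (f F : ℕ → ℝ) (h : ∀ a, F (a + 1) - F a = f (a + 1)) {a₀ a₁ : ℕ} (ha : a₀ ≤ a₁) :
    ∑ a ∈ Finset.Ioc a₀ a₁, f a = F a₁ - F a₀ := by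
  induction a₁, ha using Nat.le_induction with
  | base => simp
  | succ n hn ih => rw [Finset.sum_Ioc_succ_top hn, ih, ← h]; ring

theorem arith_Ico (f F : ℕ → ℝ) {a₀ a₁ : ℕ} (ha : a₀ ≤ a₁)
    (h : ∀ a, a₀ ≤ a → a < a₁ → F (a + 1) - F a ≤ f a) :
    F a₁ - F a₀ ≤ ∑ a ∈ Finset.Ico a₀ a₁, f a := by
  induction a₁, ha using Nat.le_induction with
  | base => simp
  | succ n hn ih =>
    rw [Finset.sum_Ico_succ_top hn]
    have h1 := ih fun a h0 h1 => h a h0 (by omega)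
    have h2 := h n hn (by omega)
    linarith

theorem arith_mult1 (a : ℕ) : (mult 1 a : ℝ) = 2 * a + 1 := by simp [mult]

theorem arith_mult2 (a : ℕ) : (mult 2 a : ℝ) = a + 1 := by simp [mult]

theorem arith_cnt1 {a₀ a₁ : ℕ} (h : a₀ ≤ a₁) :
    ((cnt 1 a₁ - cnt 1 a₀ : ℕ) : ℝ) = ((a₁ : ℝ) + 1) ^ 2 - ((a₀ : ℝ) + 1) ^ 2 := by
  have h0 : 1 ≤ (a₀ + 1) ^ 2 := Nat.one_le_pow _ _ (by omega)
  have h1 : (a₀ + 1) ^ 2 ≤ (a₁ + 1) ^ 2 := Nat.pow_le_pow_left (by omega) 2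
  have h2 : cnt 1 a₁ - cnt 1 a₀ = (a₁ + 1) ^ 2 - (a₀ + 1) ^ 2 := by
    simp only [cnt, if_true]
    omega
  rw [h2, Nat.cast_sub h1]
  push_cast
  rfl

theorem arith_cnt2 {a₀ a₁ : ℕ} (h : a₀ ≤ a₁) :
    ((a₁ : ℝ) ^ 2 - (a₀ : ℝ) ^ 2) / 2 ≤ ((cnt 2 a₁ - cnt 2 a₀ : ℕ) : ℝ) := by
  have h1 : ∀ a : ℕ, 2 * cnt 2 a = (a + 1) * (a + 2) := fun a =>
    Nat.two_mul_div_two_of_even (Nat.even_mul_succ_self (a + 1))
  have h2 : ∀ a : ℕ, 2 * (cnt 2 a : ℝ) = (a + 1) * (a + 2) := fun a => by exact_mod_cast h1 a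
  have h3 : cnt 2 a₀ ≤ cnt 2 a₁ := by
    have : (a₀ + 1) * (a₀ + 2) ≤ (a₁ + 1) * (a₁ + 2) := Nat.mul_le_mul (by omega) (by omega)
    have := h1 a₀
    have := h1 a₁
    omega
  have h4 : (a₀ : ℝ) ≤ a₁ := by exact_mod_cast h
  rw [Nat.cast_sub h3]
  nlinarith [h2 a₀, h2 a₁]

theorem arith_ch (j : ℕ) :
    ((j : ℝ) + 1) ^ 4 / 12 ≤ (((j + 5).choose 5 - (j + 5 - 2).choose 5 : ℕ) : ℝ) := by
  have h1 : (j + 5).choose 5 - (j + 5 - 2).choose 5 = (j + 4).choose 4 + (j + 3).choose 4 := by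
    have e1 : (j + 5).choose 5 = (j + 4).choose 4 + (j + 4).choose 5 := Nat.choose_succ_succ _ _
    have e2 : (j + 4).choose 5 = (j + 3).choose 4 + (j + 3).choose 5 := Nat.choose_succ_succ _ _
    have e3 : j + 5 - 2 = j + 3 := rfl
    rw [e3]
    omega
  have h2 : (j + 1 + 3) * ((j + 1 + 2) * ((j + 1 + 1) * ((j + 1 + 0) * 1))) =
      24 * (j + 4).choose 4 := Nat.ascFactorial_eq_factorial_mul_choose j 4
  have h3 : (j + 3) * ((j + 2) * ((j + 1) * ((j + 0) * 1))) = 24 * (j + 3).choose 4 :=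
    Nat.ascFactorial_eq_factorial_mul_choose' j 4
  have h4 := congrArg (Nat.cast : ℕ → ℝ) h2
  have h5 := congrArg (Nat.cast : ℕ → ℝ) h3
  rw [h1]
  push_cast at h4 h5 ⊢
  have h6 : (0 : ℝ) ≤ j := j.cast_nonneg
  have h7 : 0 ≤ ((j : ℝ) + 1) * (4 * j ^ 2 + 13 * j + 11) := by positivity
  linarith

theorem arith_lhs {k : ℕ} (hk : 1 ≤ k) :
    ((Nat.choose (8 + k - 1) k + Nat.choose (8 + k - 2) (k - 1) : ℕ) : ℝ) ≤ ((k : ℝ) + 7) ^ 7 / 2520 := by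
  obtain ⟨l, rfl⟩ := Nat.exists_eq_add_of_le' hk
  have e1 : 8 + (l + 1) - 1 = l + 1 + 7 := by omega
  have e2 : 8 + (l + 1) - 2 = l + 7 := by omega
  rw [e1, e2, Nat.add_sub_cancel, Nat.choose_symm_add, Nat.choose_symm_add]
  have h1 : (((l + 7).choose 7 : ℕ) : ℝ) ≤ ((l + 1 + 7).choose 7 : ℕ) := by
    exact_mod_cast Nat.choose_le_choose 7 (by omega)
  have h2 := Nat.choose_le_pow_div (α := ℝ) 7 (l + 1 + 7)
  have h3 : ((Nat.factorial 7 : ℕ) : ℝ) = 5040 := by norm_num [Nat.factorial]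
  rw [h3] at h2
  push_cast at h1 h2 ⊢
  linarith

/-- antiderivative of `t⁴ ((22 K - t)² - K²)` -/
def arithF (K t : ℝ) : ℝ := 483 / 5 * K ^ 2 * t ^ 5 - 22 / 3 * K * t ^ 6 + t ^ 7 / 7

theorem arith_step {K j : ℝ} (hK : 0 ≤ K) (hj : 0 ≤ j) (h : j + 1 ≤ 21 * K) :
    arithF K (j + 1) - arithF K j ≤ (j + 1) ^ 4 * ((22 * K - j) ^ 2 - K ^ 2) := by
  obtain ⟨w, hw, e⟩ : ∃ w : ℝ, 0 ≤ w ∧ w = 21 * K - j - 1 := ⟨_, by linarith, rfl⟩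
  have h1 : 0 ≤ 104 / 105 + 29 / 15 * K + 29 / 15 * w + 8 / 5 * w * K + 4 / 5 * w ^ 2 + 59 / 15 * j
      + 38 / 5 * j * K + 38 / 5 * j * w + 6 * j * w * K + 3 * j * w ^ 2 + 29 / 5 * j ^ 2
      + 11 * j ^ 2 * K + 11 * j ^ 2 * w + 8 * j ^ 2 * w * K + 4 * j ^ 2 * w ^ 2 + 11 / 3 * j ^ 3
      + 20 / 3 * j ^ 3 * K + 20 / 3 * j ^ 3 * w + 4 * j ^ 3 * w * K + 2 * j ^ 3 * w ^ 2
      + 2 / 3 * j ^ 4 + j ^ 4 * K + j ^ 4 * w := by positivity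
  subst e
  refine sub_nonneg.1 (h1.trans_eq ?_)
  unfold arithF
  ring

theorem arith_mean {K j A : ℝ} (hK : 100 ≤ K) (hj : j ≤ 15 * K) (hA : A = 22 * K - j) :
    (1 + 1 / 200) * ((A + 1) * (A + 2) * (A + 3) / 3 + (j + 1) * ((A + 1) * (A + 2) / 2) -
      ((K + 1) * (K + 2) * (K + 3) / 3 + (j + 1) * ((K + 1) * (K + 2) / 2))) <
    ((A + 1) * (A + 2) / 2 - (K + 1) * (K + 2) / 2) * (199 / 200 * (20 * K + 3) - 3) := by
  have h1 : 0 < A - K := by linarith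
  have h2 : 0 < (A - K) * (A + K + 3) := mul_pos h1 (by linarith)
  have h3 : (8 * K + 3) * (K / 12 + 1) ≤ (A + K + 3) * (K / 12 + 1) :=
    mul_le_mul_of_nonneg_right (by linarith) (by linarith)
  have h4 : 0 ≤ (A - K) * ((A + K + 3) * (K / 12 + 1) / 2 - (K + 1) * (K + 2) / 3) :=
    mul_nonneg h1.le (by nlinarith)
  have h5 := mul_lt_mul_of_pos_left (show (1 + 1 / 200) * (2 / 3 * (A + 3) + K / 12 + 1 + j + 1) <
    199 / 200 * (20 * K + 3) - 3 by linarith) h2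
  linarith

theorem arith3 {v c : ℝ} (hv : 4 / 9 < v) (hv' : v < 1) (hc : 1 < c) (hc' : c < 9 * v / 4) :
    ∃ ε : ℝ, 0 < ε ∧ ∀ D₀ : ℕ, ∃ k₀ : ℕ, ∀ k : ℕ, k₀ ≤ k → ∃ a₀ a₁ : ℕ, D₀ ≤ a₀ ∧ a₀ < a₁ ∧
      (1 + ε) * ∑ a ∈ Finset.Ioc a₀ a₁, (mult 1 a : ℝ) * ((a : ℝ) + 1 / 2) <
        (∑ a ∈ Finset.Ioc a₀ a₁, (mult 1 a : ℝ)) * (√v * (k + 1 / 2) - 1 / 2) ∧
      c * ((k : ℝ) + 1) ^ 2 ≤ (cnt 1 a₁ - cnt 1 a₀ : ℕ) := by
  have hb : 0 < √v := Real.sqrt_pos.2 (by linarith)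
  have hb1 : √v < 1 := (Real.sqrt_lt' one_pos).2 (by linarith)
  have hb2 : √v ^ 2 = v := Real.sq_sqrt (by linarith)
  have h1 : √c < 3 * √v / 2 := (Real.sqrt_lt' (by positivity)).2 (by nlinarith)
  obtain ⟨x, hx, hx'⟩ := exists_between h1
  obtain ⟨y, hy, hy'⟩ := exists_between hx'
  have hx1 : 1 < x := ((Real.lt_sqrt zero_le_one).2 (by linarith)).trans hx
  have hcx : c < x ^ 2 := (Real.sqrt_lt' (by linarith)).1 hx
  have hε : (1 + (y / x - 1)) * x = y := by field_simp; ring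
  have hε0 : 0 < y / x - 1 := sub_pos.2 ((one_lt_div (by linarith)).2 hy)
  generalize y / x - 1 = ε at hε hε0
  generalize √v = b at *
  refine ⟨ε, hε0, fun D₀ => ?_⟩
  obtain ⟨k₀, hk₀⟩ := exists_nat_gt (max (((D₀ : ℝ) + 1) ^ 2 / (x ^ 2 - c))
    (max ((3 + ε) / (b - 2 / 3 * y)) (((D₀ : ℝ) + 1) ^ 2)))
  simp only [max_lt_iff] at hk₀
  refine ⟨k₀, fun k hk => ?_⟩
  have hk' : (k₀ : ℝ) ≤ k := by exact_mod_cast hk
  have hk0 : (0 : ℝ) ≤ k := k.cast_nonneg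
  have hD : (0 : ℝ) ≤ D₀ := D₀.cast_nonneg
  have c1 : ((D₀ : ℝ) + 1) ^ 2 < (k + 1) * (x ^ 2 - c) :=
    (div_lt_iff₀ (by linarith)).1 (by linarith [hk₀.1])
  have c2 : 3 + ε < (k + 1) * (b - 2 / 3 * y) := (div_lt_iff₀ (by linarith)).1 (by linarith [hk₀.2.1])
  have c3 : ((D₀ : ℝ) + 1) ^ 2 < k := by linarith [hk₀.2.2]
  have hA := Nat.lt_floor_add_one (x * (k + 1))
  have hA' := Nat.floor_le (show 0 ≤ x * (k + 1) by positivity)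
  generalize ⌊x * (k + 1)⌋₊ = A at hA hA'
  have hP : (k : ℝ) + 1 < A + 1 := by
    linarith [mul_lt_mul_of_pos_right hx1 (show (0 : ℝ) < k + 1 by linarith)]
  have hlt : D₀ < A := by
    have : (D₀ : ℝ) < A := by linarith [sq_nonneg (D₀ : ℝ)]
    exact_mod_cast this
  refine ⟨D₀, A, le_rfl, hlt, ?_, ?_⟩
  · rw [arith_Ioc _ (fun a => 2 / 3 * ((a : ℝ) + 1) ^ 3 - a / 6) (fun a => by
        rw [arith_mult1]; push_cast; ring) hlt.le,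
      arith_Ioc _ (fun a => ((a : ℝ) + 1) ^ 2) (fun a => by rw [arith_mult1]; push_cast; ring) hlt.le]
    have hA0 : (D₀ : ℝ) ≤ A := by exact_mod_cast hlt.le
    have e1 : 2 / 3 * ((A : ℝ) + 1) ^ 3 - A / 6 - (2 / 3 * ((D₀ : ℝ) + 1) ^ 3 - D₀ / 6) ≤
        2 / 3 * (x * (k + 1) + 1) * ((A : ℝ) + 1) ^ 2 := by
      have := mul_le_mul_of_nonneg_right (show (A : ℝ) + 1 ≤ x * (k + 1) + 1 by linarith)
        (sq_nonneg ((A : ℝ) + 1))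
      have : 0 ≤ ((D₀ : ℝ) + 1) ^ 3 := by positivity
      linarith
    have e2 : ((k : ℝ) + 1) ^ 2 ≤ ((A : ℝ) + 1) ^ 2 := by gcongr
    have e3 : (1 + ε) * (2 / 3 * (x * (k + 1) + 1)) + 1 ≤ b * (k + 1 / 2) - 1 / 2 := by
      have : (1 + ε) * (2 / 3 * (x * (k + 1) + 1)) = 2 / 3 * y * (k + 1) + 2 / 3 * (1 + ε) := by
        rw [← hε]; ring
      linarith
    have e4 : b * (k + 1 / 2) - 1 / 2 ≤ k + 1 := by
      linarith [mul_le_mul_of_nonneg_right hb1.le (show (0 : ℝ) ≤ k + 1 / 2 by linarith)]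
    have e5 := mul_le_mul_of_nonneg_left e1 (show 0 ≤ 1 + ε by linarith)
    have e6 := mul_le_mul_of_nonneg_left e3 (sq_nonneg ((A : ℝ) + 1))
    have e7 := mul_le_mul_of_nonneg_left e4 (sq_nonneg ((D₀ : ℝ) + 1))
    have e8 := mul_lt_mul_of_pos_right c3 (show (0 : ℝ) < k + 1 by linarith)
    linarith
  · rw [arith_cnt1 hlt.le]
    have e1 : (x * (k + 1)) ^ 2 ≤ ((A : ℝ) + 1) ^ 2 := by gcongr
    have e2 := mul_le_mul_of_nonneg_left (show (1 : ℝ) ≤ k + 1 by linarith)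
      (show 0 ≤ (k + 1) * (x ^ 2 - c) from mul_nonneg (by linarith) (by linarith))
    linarith

theorem arith8 : ∃ b ε ϵ : ℝ, 0 < b ∧ b < 1 ∧ 0 < ε ∧ 0 < ϵ ∧ ∀ D₀ : ℕ,
    ∃ (k : ℕ) (s : Finset ℕ) (a₀ a₁ : ℕ → ℕ), 2 ≤ k ∧ s.Nonempty ∧
      (∀ j ∈ s, 1 ≤ j ∧ D₀ ≤ a₀ j ∧ a₀ j < a₁ j ∧ ϵ * ((j : ℝ) + a₁ j) ≤ j ∧
        ϵ * ((j : ℝ) + a₁ j) ≤ a₀ j ∧
        (1 + ε) * ∑ a ∈ Finset.Ioc (a₀ j) (a₁ j), (mult 2 a : ℝ) * ((j : ℝ) + a + 3) <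
          (∑ a ∈ Finset.Ioc (a₀ j) (a₁ j), (mult 2 a : ℝ)) * (b * (k + 3) - 3)) ∧
      Nat.choose (8 + k - 1) k + Nat.choose (8 + k - 2) (k - 1) <
        ∑ j ∈ s, ((j + 5).choose 5 - (j + 5 - 2).choose 5) * (cnt 2 (a₁ j) - cnt 2 (a₀ j)) := by
  refine ⟨199 / 200, 1 / 200, 1 / 22, by norm_num, by norm_num, by norm_num, by norm_num,
    fun D₀ => ?_⟩
  obtain ⟨K, hK, hD⟩ : ∃ K : ℕ, 100 ≤ K ∧ D₀ ≤ K := ⟨D₀ + 100, by omega, by omega⟩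
  have hK' : (100 : ℝ) ≤ K := by exact_mod_cast hK
  have hA : ∀ j, j < 15 * K → ((22 * K - j : ℕ) : ℝ) = 22 * K - j := fun j hj => by
    rw [Nat.cast_sub (by omega)]
    push_cast
    rfl
  refine ⟨20 * K, Finset.Ico K (15 * K), fun _ => K, fun j => 22 * K - j, by omega,
    Finset.nonempty_Ico.2 (by omega), fun j hj => ?_, ?_⟩
  · rw [Finset.mem_Ico] at hj
    have h1 : (K : ℝ) ≤ j := by exact_mod_cast hj.1
    have h2 : (j : ℝ) ≤ 15 * K := by exact_mod_cast hj.2.le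
    have hle : K ≤ 22 * K - j := by omega
    refine ⟨by omega, hD, (by omega : K < 22 * K - j), ?_, ?_, ?_⟩
    · rw [hA j hj.2]; linarith
    · rw [hA j hj.2]; linarith
    · rw [arith_Ioc _ (fun a => ((a : ℝ) + 1) * (a + 2) * (a + 3) / 3 + (j + 1) * ((a + 1) * (a + 2) / 2))
          (fun a => by rw [arith_mult2]; push_cast; ring) hle,
        arith_Ioc _ (fun a => ((a : ℝ) + 1) * (a + 2) / 2)
          (fun a => by rw [arith_mult2]; push_cast; ring) hle, hA j hj.2]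
      push_cast
      exact arith_mean hK' h2 rfl
  · have h1 := arith_lhs (k := 20 * K) (by omega)
    have h2 := arith_Ico (fun j => (((j + 5).choose 5 - (j + 5 - 2).choose 5 : ℕ) : ℝ) *
      ((cnt 2 (22 * K - j) - cnt 2 K : ℕ) : ℝ)) (fun j => arithF K j / 24)
      (show K ≤ 15 * K by omega) fun j h0 h1 => by
        have e0 : (j : ℝ) + 1 ≤ 15 * K := by exact_mod_cast h1
        have e1 := arith_step (K := K) (j := j) (by linarith) j.cast_nonneg (by linarith)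
        have e2 := arith_cnt2 (show K ≤ 22 * K - j by omega)
        rw [hA j h1] at e2
        have e3 := mul_le_mul (arith_ch j) e2 (by nlinarith) (Nat.cast_nonneg _)
        push_cast [-Nat.cast_sub] at e3 ⊢
        linarith
    have h3 : ((20 * K : ℕ) + 7 : ℝ) ^ 7 ≤ (102 / 5 * K) ^ 7 := by
      push_cast
      gcongr
      linarith
    have h4 : (0 : ℝ) < (K : ℝ) ^ 7 := by positivity
    have h5 : arithF K (15 * K : ℕ) / 24 - arithF K K / 24 = 213491516 / 360 * (K : ℝ) ^ 7 := by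
      unfold arithF
      push_cast
      ring
    rw [← Nat.cast_lt (α := ℝ), Nat.cast_sum]
    simp only [Nat.cast_mul (_ - _ : ℕ)]
    rw [mul_pow] at h3
    linarith

end Crest.Agent.R202
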