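import Crest.Agent.R202.Scalar

/-!
# Time averages along the slow loop (task C9)

`P σ = ∫₀^σ (f - ā)`; `f(σ_m) - ā ≤ (P σ_{m+1} - P σ_m)/(σ_{m+1}-σ_m) + L (σ_{m+1}-σ_m)`; the weights `1/(σ_{m+1}-σ_m)` increase
(`sg` is concave), so Abel summation and `P σ₂ - P σ₁ ≤ A` bound the sum by `A/(σ_{n}-σ_{n-1}) + O(∑ϑ⁶) = o(n)`.
-/

set_option autoImplicit false

noncomputable section

open scoped InnerProductSpace ContDiff
open Set Filter Topology

namespace Crest.Agent.R202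

theorem avg_cesaro {a : ℕ → ℝ} (ha : Tendsto a atTop (𝓝 0)) {η : ℝ} (hη : 0 < η) (n₁ : ℕ) :
    ∃ C : ℝ, ∀ n : ℕ, n₁ ≤ n → ∑ m ∈ Finset.Ico n₁ n, a m ≤ η * ((n : ℝ) - n₁) + C := by
  obtain ⟨N, hN⟩ := eventually_atTop.1 (ha.eventually_le_const hη)
  refine ⟨∑ m ∈ Finset.range N, |a m|, fun n hn => ?_⟩
  have h1 : ∑ m ∈ Finset.Ico n₁ n, a m ≤
      ∑ m ∈ Finset.Ico n₁ n, (η + if m < N then |a m| else 0) := by
    refine Finset.sum_le_sum fun m _ => ?_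
    split_ifs with h
    · linarith [le_abs_self (a m)]
    · linarith [hN m (not_lt.1 h)]
  rw [Finset.sum_add_distrib, Finset.sum_const, Nat.card_Ico, nsmul_eq_mul, Nat.cast_sub hn,
    ← Finset.sum_filter] at h1
  have h2 : ∑ m ∈ (Finset.Ico n₁ n).filter (fun m => m < N), |a m| ≤ ∑ m ∈ Finset.range N, |a m| :=
    Finset.sum_le_sum_of_subset_of_nonneg
      (fun m hm => Finset.mem_range.2 (Finset.mem_filter.1 hm).2) fun _ _ _ => abs_nonneg _
  linarith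

/-- Abel summation with increasing weights. -/
theorem avg_abel {P w : ℕ → ℝ} {A : ℝ} {n₁ : ℕ} (hP : ∀ n k, n₁ ≤ n → n ≤ k → P k - P n ≤ A)
    (hw0 : 0 ≤ w n₁) (hw : ∀ n, n₁ ≤ n → w n ≤ w (n + 1)) (n : ℕ) (hn : n₁ ≤ n) :
    ∀ k, n ≤ k → ∑ m ∈ Finset.Ico n₁ n, w m * (P (m + 1) - P m) + w n * (P k - P n) ≤ w n * A := by
  induction n, hn using Nat.le_induction with
  | base =>
    intro k hk
    rw [Finset.Ico_self, Finset.sum_empty, zero_add]
    exact mul_le_mul_of_nonneg_left (hP _ _ le_rfl hk) hw0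
  | succ n hn ih =>
    intro k hk
    rw [Finset.sum_Ico_succ_top hn]
    have h1 := ih k (by omega)
    have h2 := mul_le_mul_of_nonneg_left (hP (n + 1) k (by omega) hk) (sub_nonneg.2 (hw n hn))
    linarith

theorem avg_step {f : ℝ → ℝ} {L : ℝ} (hf : ∀ σ σ', |f σ - f σ'| ≤ L * |σ - σ'|)
    (hc : Continuous f) {a b : ℝ} (hab : a ≤ b) :
    (b - a) * (f a - L * (b - a)) ≤ ∫ σ in a..b, f σ := by
  have hL : 0 ≤ L := by
    have := (abs_nonneg _).trans (hf 1 0)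
    simpa using this
  rw [← smul_eq_mul, ← intervalIntegral.integral_const]
  refine intervalIntegral.integral_mono_on hab (by simp) (hc.intervalIntegrable _ _) fun x hx => ?_
  have h1 := (le_abs_self _).trans (hf a x)
  rw [abs_sub_comm a x, abs_of_nonneg (sub_nonneg.2 hx.1)] at h1
  have := mul_le_mul_of_nonneg_left (sub_le_sub_right hx.2 a) hL
  linarith

theorem avg_th_pow {t₀ T t : ℝ} (h : 0 < t - t₀ + T) : th t₀ T t ^ 7 * (t - t₀ + T) = 1 := by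
  rw [th, ← Real.rpow_mul_natCast h.le, ← Real.rpow_add_one h.ne']
  norm_num

theorem avg_inv_le {t₀ T t ε : ℝ} (h : 0 < t - t₀ + T) (hε : 0 < ε) :
    1 / th t₀ T t ^ 6 ≤ ε * (t - t₀ + T) + 1 / ε ^ 6 := by
  have h0 := th_pos h
  rcases le_total (th t₀ T t) ε with h1 | h1
  · have e : 1 / th t₀ T t ^ 6 = th t₀ T t * (t - t₀ + T) := by
      rw [div_eq_iff (by positivity), ← avg_th_pow h]; ring
    have := mul_le_mul_of_nonneg_right h1 h.le
    have : 0 < 1 / ε ^ 6 := by positivity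
    linarith
  · have : 1 / th t₀ T t ^ 6 ≤ 1 / ε ^ 6 :=
      one_div_le_one_div_of_le (by positivity) (pow_le_pow_left₀ hε.le h1 _)
    have := mul_pos hε h
    linarith

theorem avg_sum (f : ℝ → ℝ) (L A abar η : ℝ) (hη : 0 < η)
    (hf : ∀ σ σ', |f σ - f σ'| ≤ L * |σ - σ'|)
    (hA : ∀ σ₁ σ₂, 0 ≤ σ₁ → σ₁ ≤ σ₂ → ∫ σ in σ₁..σ₂, f σ ≤ abar * (σ₂ - σ₁) + A)
    (t₀ T n₁ : ℕ) (hT : 1 ≤ T) (h₁ : t₀ ≤ n₁) : ∃ C : ℝ, ∀ n : ℕ, n₁ ≤ n →
      ∑ m ∈ Finset.Ico n₁ n, (f (sg t₀ T m) + th t₀ T m ^ 3) ≤ (abar + η) * ((n : ℝ) - n₁) + C := by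
  have hL : 0 ≤ L := by
    have := (abs_nonneg _).trans (hf 1 0)
    simpa using this
  have hA0 : 0 ≤ A := by simpa using hA 0 0 le_rfl le_rfl
  have hc : Continuous f := by
    refine LipschitzWith.continuous (K := ⟨L, hL⟩) (LipschitzWith.of_dist_le_mul fun x y => ?_)
    exact hf x y
  have hT' : (1 : ℝ) ≤ T := by exact_mod_cast hT
  have hx : ∀ m : ℕ, n₁ ≤ m → (0 : ℝ) < m - t₀ + T := fun m hm => by
    have : (t₀ : ℝ) ≤ m := by exact_mod_cast h₁.trans hm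
    linarith
  set σ : ℕ → ℝ := fun m => sg t₀ T m with hσ
  have hd : ∀ m : ℕ, n₁ ≤ m → th t₀ T (m + 1 : ℕ) ^ 6 ≤ σ (m + 1) - σ m ∧
      σ (m + 1) - σ m ≤ th t₀ T m ^ 6 := fun m hm => by
    have := sg_step (hx m hm) (t := (m + 1 : ℕ)) (by push_cast; linarith)
    have e : ((m + 1 : ℕ) : ℝ) - m = 1 := by push_cast; ring
    rwa [e, mul_one, mul_one] at this
  have hd0 : ∀ m : ℕ, n₁ ≤ m → 0 < σ (m + 1) - σ m := fun m hm =>
    (pow_pos (th_pos (hx (m + 1) (by omega))) 6).trans_le (hd m hm).1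
  have hmono : ∀ n k : ℕ, n₁ ≤ n → n ≤ k → σ n ≤ σ k := fun n k hn hk => by
    have h1 := (sg_step (hx n hn) (t := k) (by exact_mod_cast hk)).1
    have h2 : (0 : ℝ) ≤ k - n := sub_nonneg.2 (by exact_mod_cast hk)
    have := mul_nonneg (by positivity : 0 ≤ th t₀ T k ^ 6) h2
    simp only [hσ]
    linarith
  have hσ0 : ∀ n : ℕ, n₁ ≤ n → 0 ≤ σ n := fun n hn => by
    have h0 : (t₀ : ℝ) ≤ n := by exact_mod_cast h₁.trans hn
    have h1 := Real.rpow_le_rpow (by linarith : (0 : ℝ) ≤ T) (by linarith : (T : ℝ) ≤ n - t₀ + T)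
      (by norm_num : (0 : ℝ) ≤ 1 / 7)
    simp only [hσ, sg]
    linarith
  set P : ℕ → ℝ := fun m => (∫ s in (0 : ℝ)..σ m, f s) - abar * σ m with hP
  have hPd : ∀ n k, P k - P n = (∫ s in σ n..σ k, f s) - abar * (σ k - σ n) := fun n k => by
    simp only [hP]
    rw [← intervalIntegral.integral_interval_sub_left (a := 0) (b := σ k) (c := σ n)
      (hc.intervalIntegrable _ _) (hc.intervalIntegrable _ _)]
    ring
  set w : ℕ → ℝ := fun m => 1 / (σ (m + 1) - σ m) with hw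
  have habel := avg_abel (P := P) (w := w) (A := A) (n₁ := n₁)
    (fun n k hn hk => by
      rw [hPd]; linarith [hA _ _ (hσ0 n hn) (hmono n k hn hk)])
    (one_div_pos.2 (hd0 n₁ le_rfl)).le
    (fun n hn => one_div_le_one_div_of_le (hd0 (n + 1) (by omega))
      ((hd (n + 1) (by omega)).2.trans (hd n hn).1))
  have hterm : ∀ m, n₁ ≤ m → f (σ m) + th t₀ T m ^ 3 ≤
      abar + w m * (P (m + 1) - P m) + (L * th t₀ T m ^ 6 + th t₀ T m ^ 3) := fun m hm => by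
    have h0 := hd0 m hm
    have h1 := avg_step hf hc (sub_pos.1 h0).le
    have h2 : f (σ m) - L * (σ (m + 1) - σ m) - abar ≤ w m * (P (m + 1) - P m) := by
      simp only [hw]
      rw [hPd, one_div_mul_eq_div, le_div_iff₀ h0]
      linarith
    have h3 := mul_le_mul_of_nonneg_left (hd m hm).2 hL
    linarith
  have hth : Tendsto (fun m : ℕ => th t₀ T m) atTop (𝓝 0) := by
    refine (tendsto_rpow_neg_atTop (by norm_num : (0 : ℝ) < 1 / 7)).comp ?_
    exact tendsto_atTop_add_const_right _ _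
      (tendsto_atTop_add_const_right _ _ tendsto_natCast_atTop_atTop)
  have ha : Tendsto (fun m : ℕ => L * th t₀ T m ^ 6 + th t₀ T m ^ 3) atTop (𝓝 0) := by
    simpa using ((hth.pow 6).const_mul L).add (hth.pow 3)
  obtain ⟨C, hC⟩ := avg_cesaro ha (half_pos hη) n₁
  set ε : ℝ := η / 2 / (A + 1) with hε
  have hε0 : 0 < ε := by positivity
  have hεA : ε * A ≤ η / 2 := by
    rw [hε, div_mul_eq_mul_div, div_le_iff₀ (by positivity)]
    nlinarith
  refine ⟨C + η / 2 * ((n₁ : ℝ) + 1 - t₀ + T) + 1 / ε ^ 6 * A, fun n hn => ?_⟩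
  have h1 : ∑ m ∈ Finset.Ico n₁ n, (f (σ m) + th t₀ T m ^ 3) ≤ ∑ m ∈ Finset.Ico n₁ n,
      (abar + w m * (P (m + 1) - P m) + (L * th t₀ T m ^ 6 + th t₀ T m ^ 3)) :=
    Finset.sum_le_sum fun m hm => hterm m (Finset.mem_Ico.1 hm).1
  rw [Finset.sum_add_distrib (g := fun m : ℕ => L * th t₀ T m ^ 6 + th t₀ T m ^ 3),
    Finset.sum_add_distrib (f := fun _ => abar), Finset.sum_const, Nat.card_Ico,
    nsmul_eq_mul, Nat.cast_sub hn] at h1
  have h2 := habel n hn n le_rfl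
  rw [sub_self, mul_zero, add_zero] at h2
  have h3 := hC n hn
  have h4 : w n ≤ ε * (((n + 1 : ℕ) : ℝ) - t₀ + T) + 1 / ε ^ 6 :=
    (one_div_le_one_div_of_le (pow_pos (th_pos (hx (n + 1) (by omega))) 6) (hd n hn).1).trans
      (avg_inv_le (hx (n + 1) (by omega)) hε0)
  have h5 := mul_le_mul_of_nonneg_right h4 hA0
  have h6 := mul_le_mul_of_nonneg_right hεA (hx (n + 1) (by omega)).le
  push_cast at h5 h6
  change ∑ m ∈ Finset.Ico n₁ n, (f (σ m) + th t₀ T m ^ 3) ≤ _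
  linarith

end Crest.Agent.R202
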