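import Crest.Agent.R202.Dist

/-!
# The asymptotic volume ratio (task G5)

`riemBall 0 R = ball 0 (ρ⁻¹ R)`, `√det g = conf^n`, polar coordinates (`MeasureTheory.integral_fun_norm_addHaar`), and l'Hôpital
(in `t = log r`: `ρ' = F`, `F' = βF`, so `F/ρ → b`; `V' = Fⁿ`, so `n V/ρⁿ → b^{n-1}`).
-/

set_option autoImplicit false

noncomputable section

open scoped InnerProductSpace ContDiff
open Set Filter Topology
open Crest.GeometryTopology.CoordMetric Crest.GeometryTopology.ChartCurvature Matrix

namespace Crest.Agent.R202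

/-- one-sided l'Hôpital `∞/∞` -/
theorem avr_lhop_le {f g f' g' : ℝ → ℝ} {l : ℝ} (hf : ∀ᶠ x in atTop, HasDerivAt f (f' x) x)
    (hg : ∀ᶠ x in atTop, HasDerivAt g (g' x) x) (hinf : Tendsto g atTop atTop)
    (hl : ∀ᶠ x in atTop, f' x ≤ l * g' x) {m : ℝ} (hm : l < m) :
    ∀ᶠ x in atTop, f x / g x < m := by
  obtain ⟨a, ha⟩ := eventually_atTop.1 (hf.and (hg.and hl))
  have hd : ∀ x, a ≤ x → HasDerivAt (fun x => l * g x - f x) (l * g' x - f' x) x := fun x hx =>
    ((ha x hx).2.1.const_mul l).sub (ha x hx).1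
  have hmono : MonotoneOn (fun x => l * g x - f x) (Ici a) := by
    refine monotoneOn_of_deriv_nonneg (convex_Ici a) ?_ ?_ ?_
    · exact fun x hx => (hd x hx).continuousAt.continuousWithinAt
    · intro x hx
      rw [interior_Ici] at hx
      exact (hd x (le_of_lt hx)).differentiableAt.differentiableWithinAt
    · intro x hx
      rw [interior_Ici] at hx
      rw [(hd x (le_of_lt hx)).deriv]
      linarith [(ha x (le_of_lt hx)).2.2]
  set u := l * g a - f a with hu
  filter_upwards [eventually_ge_atTop a, hinf.eventually_gt_atTop 0,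
    hinf.eventually_gt_atTop (-u / (m - l))] with x hx h0 h1
  have h2 : u ≤ l * g x - f x := hmono self_mem_Ici hx hx
  rw [div_lt_iff₀ (by linarith)] at h1
  rw [div_lt_iff₀ h0]
  nlinarith

/-- l'Hôpital `∞/∞` at `atTop` -/
theorem avr_lhop {f g f' g' : ℝ → ℝ} {l : ℝ} (hf : ∀ᶠ x in atTop, HasDerivAt f (f' x) x)
    (hg : ∀ᶠ x in atTop, HasDerivAt g (g' x) x) (hpos : ∀ᶠ x in atTop, 0 < g' x)
    (hinf : Tendsto g atTop atTop) (hl : Tendsto (fun x => f' x / g' x) atTop (𝓝 l)) :
    Tendsto (fun x => f x / g x) atTop (𝓝 l) := by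
  rw [tendsto_order]
  constructor
  · intro m hm
    obtain ⟨k, hk1, hk2⟩ := exists_between hm
    have h1 : ∀ᶠ x in atTop, -f' x ≤ -k * g' x := by
      filter_upwards [hpos, hl.eventually (lt_mem_nhds hk2)] with x h0 h1
      rw [lt_div_iff₀ h0] at h1
      linarith
    have h2 := avr_lhop_le (f := fun x => -f x) (f' := fun x => -f' x)
      (hf.mono fun x hx => hx.neg) hg hinf h1 (m := -m) (by linarith)
    filter_upwards [h2] with x hx
    rw [neg_div] at hx
    linarith
  · intro m hm
    obtain ⟨k, hk1, hk2⟩ := exists_between hm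
    have h1 : ∀ᶠ x in atTop, f' x ≤ k * g' x := by
      filter_upwards [hpos, hl.eventually (gt_mem_nhds hk1)] with x h0 h1
      rw [div_lt_iff₀ h0] at h1
      linarith
    exact avr_lhop_le hf hg hinf h1 hk2

section
variable {β : ℝ → ℝ} {b : ℝ}

theorem avr_confR_pos (β : ℝ → ℝ) (R : ℝ) : 0 < confR β R := Real.exp_pos _

theorem avr_hasDerivAt_rho (h : Prof β b) (R : ℝ) : HasDerivAt (rho β) (confR β R) R :=
  intervalIntegral.integral_hasDerivAt_right (h.continuous_confR.intervalIntegrable _ _)
      (h.continuous_confR.stronglyMeasurableAtFilter _ _) h.continuous_confR.continuousAt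

theorem avr_rho_strictMono (h : Prof β b) : StrictMono (rho β) :=
  strictMono_of_deriv_pos fun x => by
    rw [(avr_hasDerivAt_rho h x).deriv]; exact avr_confR_pos β x

theorem avr_rho_tendsto (h : Prof β b) : Tendsto (rho β) atTop atTop := by
  have h1 : Tendsto (fun R : ℝ => Real.exp (b * Real.log R)) atTop atTop :=
    Real.tendsto_exp_atTop.comp (Real.tendsto_log_atTop.const_mul_atTop h.b_pos)
  refine tendsto_atTop_mono' atTop ?_ h1
  filter_upwards [eventually_ge_atTop (1 : ℝ)] with R hR
  exact (h.FF_ge (Real.log_nonneg hR)).trans (h.FF_le_rho (by linarith))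

theorem avr_ratio (h : Prof β b) :
    Tendsto (fun R => R * confR β R / rho β R) atTop (𝓝 b) := by
  have hc := h.smooth.continuous
  have h1 : Tendsto (fun R => FF β (Real.log R) / rho β R) atTop (𝓝 b) := by
    refine avr_lhop (f' := fun R => β (Real.log R) * confR β R) (g' := confR β) ?_
      (Eventually.of_forall (avr_hasDerivAt_rho h)) (Eventually.of_forall (avr_confR_pos β))
      (avr_rho_tendsto h) ?_
    · filter_upwards [eventually_gt_atTop (0 : ℝ)] with R hR
      have := (hasDerivAt_FF hc (Real.log R)).comp R (Real.hasDerivAt_log hR.ne')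
      refine this.congr_deriv ?_
      rw [confR_eq hc hR]
      field_simp
    · have := h.lim.comp Real.tendsto_log_atTop
      refine this.congr fun R => ?_
      have := (avr_confR_pos β R).ne'
      simp only [Function.comp]
      field_simp
  refine h1.congr' ?_
  filter_upwards [eventually_gt_atTop (0 : ℝ)] with R hR
  rw [confR_eq hc hR]
  field_simp

/-- radial volume function -/
def avrW (n : ℕ) (β : ℝ → ℝ) (R : ℝ) : ℝ := ∫ s in (0 : ℝ)..R, s ^ (n - 1) * confR β s ^ n

theorem avr_hasDerivAt_W (h : Prof β b) (n : ℕ) (R : ℝ) :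
    HasDerivAt (avrW n β) (R ^ (n - 1) * confR β R ^ n) R := by
  have hc : Continuous fun s : ℝ => s ^ (n - 1) * confR β s ^ n :=
    (continuous_pow _).mul (h.continuous_confR.pow _)
  exact intervalIntegral.integral_hasDerivAt_right (hc.intervalIntegrable _ _)
      (hc.stronglyMeasurableAtFilter _ _) hc.continuousAt

theorem avr_vol_ratio (h : Prof β b) {n : ℕ} (hn : 1 ≤ n) :
    Tendsto (fun R => n * avrW n β R / rho β R ^ n) atTop (𝓝 (b ^ (n - 1))) := by
  have hn0 : (0 : ℝ) < n := by exact_mod_cast hn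
  have hpos : ∀ᶠ R in atTop, 0 < rho β R := (avr_rho_tendsto h).eventually_gt_atTop 0
  refine avr_lhop (f' := fun R => n * (R ^ (n - 1) * confR β R ^ n))
    (g' := fun R => n * rho β R ^ (n - 1) * confR β R)
    (Eventually.of_forall fun R => (avr_hasDerivAt_W h n R).const_mul _)
    (Eventually.of_forall fun R => (avr_hasDerivAt_rho h R).pow n) ?_ ?_ ?_
  · filter_upwards [hpos] with R hR
    have := avr_confR_pos β R
    positivity
  · exact (tendsto_pow_atTop (by omega)).comp (avr_rho_tendsto h)
  · refine ((avr_ratio h).pow (n - 1)).congr' ?_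
    filter_upwards [hpos] with R hR
    have := avr_confR_pos β R
    obtain ⟨k, rfl⟩ : ∃ k, n = k + 1 := ⟨n - 1, by omega⟩
    simp only [Nat.add_sub_cancel]
    rw [div_pow, mul_pow]
    field_simp
    ring

end

theorem avr_vol_ball {n : ℕ} (hn : 1 ≤ n) {β : ℝ → ℝ} {b : ℝ} {G : MetricField n} (h : Prof β b)
    (hG : Rad G) {r : ℝ} (hr : 0 ≤ r) :
    (riemVolume (met β G) (Metric.ball 0 r)).toReal =
      (MeasureTheory.volume (Metric.ball (0 : Vec n) 1)).toReal * (n * avrW n β r) := by
  have : Nonempty (Fin n) := ⟨⟨0, hn⟩⟩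
  have hdet : ∀ x : Vec n, √((met β G x).det) = confR β ‖x‖ ^ n := by
    intro x
    unfold met conf
    rw [Matrix.det_smul, hG.det, mul_one, Fintype.card_fin, ← pow_mul, mul_comm 2 n, pow_mul,
      Real.sqrt_sq (pow_nonneg (avr_confR_pos β _).le _)]
  have hcont : Continuous fun x : Vec n => confR β ‖x‖ ^ n :=
    (h.continuous_confR.comp continuous_norm).pow _
  have hint : MeasureTheory.IntegrableOn (fun x : Vec n => confR β ‖x‖ ^ n) (Metric.ball 0 r) :=
    (hcont.continuousOn.integrableOn_compact (isCompact_closedBall 0 r)).mono_set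
      Metric.ball_subset_closedBall
  unfold riemVolume
  simp_rw [hdet]
  rw [← MeasureTheory.integral_eq_lintegral_of_nonneg_ae
    (Eventually.of_forall fun x => pow_nonneg (avr_confR_pos β _).le _) hint.aestronglyMeasurable]
  have h1 := MeasureTheory.integral_fun_norm_addHaar (MeasureTheory.volume : MeasureTheory.Measure (Vec n))
    ((Iio r).indicator fun s => confR β s ^ n)
  rw [← MeasureTheory.integral_indicator Metric.isOpen_ball.measurableSet]
  have h2 : ((Metric.ball (0 : Vec n) r).indicator fun x : Vec n => confR β ‖x‖ ^ n) =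
      fun x : Vec n => ((Iio r).indicator fun s => confR β s ^ n) ‖x‖ := by
    funext x
    by_cases hx : ‖x‖ < r
    · rw [indicator_of_mem (by simpa using hx), indicator_of_mem (by simpa using hx)]
    · rw [indicator_of_notMem (by simpa using hx), indicator_of_notMem (by simpa using hx)]
  rw [h2, h1, finrank_euclideanSpace, Fintype.card_fin]
  have h3 : ∫ y in Ioi (0 : ℝ), y ^ (n - 1) • ((Iio r).indicator fun s => confR β s ^ n) y =
      avrW n β r := by
    unfold avrW
    rw [intervalIntegral.integral_of_le hr, MeasureTheory.integral_Ioc_eq_integral_Ioo,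
      ← Ioi_inter_Iio, ← MeasureTheory.setIntegral_indicator measurableSet_Iio]
    refine MeasureTheory.setIntegral_congr_fun measurableSet_Ioi fun y _ => ?_
    by_cases hy : y < r
    · simp only [indicator_of_mem (show y ∈ Iio r from hy), smul_eq_mul]
    · simp only [indicator_of_notMem (show y ∉ Iio r from hy), smul_zero]
  rw [h3, nsmul_eq_mul, smul_eq_mul, MeasureTheory.Measure.real]
  ring

theorem avr_met {n : ℕ} (hn : 1 ≤ n) {β : ℝ → ℝ} {b : ℝ} {G : MetricField n} (h : Prof β b)
    (hG : Rad G) : HasAsymptoticVolumeRatio (met β G) (b ^ (n - 1)) := by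
  have hcont : Continuous (rho β) :=
    continuous_iff_continuousAt.2 fun x => (avr_hasDerivAt_rho h x).continuousAt
  have hr0 : rho β 0 = 0 := by simp [rho]
  have hex : ∀ R : ℝ, ∃ r : ℝ, 0 ≤ R → 0 ≤ r ∧ rho β r = R := by
    intro R
    by_cases hR : 0 ≤ R
    · obtain ⟨r, hr, hr'⟩ := intermediate_value_Ici (a := (0 : ℝ)) hcont.continuousOn
        (avr_rho_tendsto h) (show R ∈ Ici (rho β 0) by rw [hr0]; exact hR)
      exact ⟨r, fun _ => ⟨hr, hr'⟩⟩
    · exact ⟨0, fun h' => absurd h' hR⟩
  choose σ hσ using hex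
  have hσt : Tendsto σ atTop atTop := by
    rw [tendsto_atTop]
    intro a
    filter_upwards [eventually_ge_atTop (0 : ℝ), eventually_ge_atTop (rho β a)] with R hR hR'
    rw [← (hσ R hR).2] at hR'
    exact (avr_rho_strictMono h).le_iff_le.1 hR'
  have hω : (MeasureTheory.volume (Metric.ball (0 : Vec n) 1)).toReal ≠ 0 :=
    ENNReal.toReal_ne_zero.2 ⟨(Metric.measure_ball_pos _ _ one_pos).ne',
      MeasureTheory.measure_ball_lt_top.ne⟩
  refine ((avr_vol_ratio h hn).comp hσt).congr' ?_
  filter_upwards [eventually_ge_atTop (0 : ℝ)] with R hR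
  have hball : riemBall (met β G) 0 R = Metric.ball 0 (σ R) := by
    ext y
    simp only [riemBall, mem_ofPred_eq, riemDist_zero h hG, mem_ball_zero_iff]
    conv_lhs => rw [← (hσ R hR).2]
    exact (avr_rho_strictMono h).lt_iff_lt
  simp only [Function.comp]
  rw [hball, avr_vol_ball hn h hG (hσ R hR).1, (hσ R hR).2, mul_div_mul_left _ _ hω]

end Crest.Agent.R202
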