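import Crest.Agent.R202.Defs

/-!
# The scalar recursion through the crossings (task C4)

Write `ϑ_n = th t₀ T n`, `δ = ϑ⁶`.  First bound: strong induction with a window of `h ≈ R/ϑ³` steps (at most two switches; in
the first or the last quarter of the window `hdist ≥ δ h/4`, so the product of the factors is `≤ m² exp(-c c' R²/20)`).
Second bound: if `ω_n ≤ ϑ²` use the first; otherwise `ω ≥ ϑ²/2` on the previous `≈ ϑ⁻⁴/(4L)` steps (no switch there).
-/

set_option autoImplicit false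

noncomputable section

open scoped InnerProductSpace ContDiff
open Set Filter Topology

namespace Crest.Agent.R202

theorem th_pos {t₀ T t : ℝ} (h : 0 < t - t₀ + T) : 0 < th t₀ T t := by
  exact Real.rpow_pos_of_pos h _

theorem scalar_th_pow {t₀ T t : ℝ} (h : 0 < t - t₀ + T) (k : ℕ) :
    th t₀ T t ^ k = (t - t₀ + T) ^ (-(1 / 7 : ℝ) * k) := by
  rw [th, ← Real.rpow_natCast, ← Real.rpow_mul h.le]

theorem hasDerivAt_th {t₀ T t : ℝ} (h : 0 < t - t₀ + T) :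
    HasDerivAt (th t₀ T) (-(th t₀ T t ^ 8) / 7) t := by
  have h1 : HasDerivAt (fun t => t - t₀ + T) 1 t := ((hasDerivAt_id t).sub_const t₀).add_const T
  have h2 := h1.rpow_const (p := -(1 / 7 : ℝ)) (Or.inl h.ne')
  rw [scalar_th_pow h]
  convert h2 using 1
  · rfl
  · rw [show (-(1 / 7 : ℝ) * (8 : ℕ)) = -(1 / 7) - 1 by norm_num]
    ring

theorem hasDerivAt_sg {t₀ T t : ℝ} (h : 0 < t - t₀ + T) :
    HasDerivAt (sg t₀ T) (th t₀ T t ^ 6) t := by
  have h1 : HasDerivAt (fun t => t - t₀ + T) 1 t := ((hasDerivAt_id t).sub_const t₀).add_const T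
  have h2 := ((h1.rpow_const (p := (1 / 7 : ℝ)) (Or.inl h.ne')).const_mul 7).sub_const
    (7 * T ^ (1 / 7 : ℝ))
  rw [scalar_th_pow h, show (-(1 / 7 : ℝ) * (6 : ℕ)) = (1 / 7) - 1 by norm_num]
  exact h2.congr_deriv (by ring)

theorem th_anti {t₀ T s t : ℝ} (h : 0 < s - t₀ + T) (hst : s ≤ t) : th t₀ T t ≤ th t₀ T s := by
  exact Real.rpow_le_rpow_of_nonpos h (by linarith) (by norm_num)

theorem th_slow {t₀ T s t : ℝ} (h : 1 ≤ s - t₀ + T) (hst : s ≤ t) :
    th t₀ T s ≤ th t₀ T t * Real.exp ((t - s) / 7) := by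
  have h0 : 0 < s - t₀ + T := by linarith
  have h1 : t - t₀ + T ≤ (s - t₀ + T) * Real.exp (t - s) := by
    have := Real.add_one_le_exp (t - s)
    nlinarith
  have h2 := Real.rpow_le_rpow_of_nonpos (by linarith) h1 (show -(1 / 7 : ℝ) ≤ 0 by norm_num)
  rw [Real.mul_rpow h0.le (Real.exp_pos _).le, ← Real.exp_mul] at h2
  have h3 := mul_le_mul_of_nonneg_right h2 (Real.exp_pos ((t - s) / 7)).le
  rw [mul_assoc, ← Real.exp_add, show (t - s) * -(1 / 7) + (t - s) / 7 = 0 by ring, Real.exp_zero,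
    mul_one] at h3
  exact h3

theorem sg_step {t₀ T s t : ℝ} (h : 0 < s - t₀ + T) (hst : s ≤ t) :
    th t₀ T t ^ 6 * (t - s) ≤ sg t₀ T t - sg t₀ T s ∧
      sg t₀ T t - sg t₀ T s ≤ th t₀ T s ^ 6 * (t - s) := by
  rcases hst.eq_or_lt with rfl | hst
  · simp
  have hd : ∀ x ∈ Icc s t, HasDerivAt (sg t₀ T) (th t₀ T x ^ 6) x := fun x hx =>
    hasDerivAt_sg (by linarith [hx.1])
  obtain ⟨x, hx, e⟩ := exists_hasDerivAt_eq_slope (sg t₀ T) (fun x => th t₀ T x ^ 6) hst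
    (fun x hx => (hd x hx).continuousAt.continuousWithinAt) fun x hx => hd x (Ioo_subset_Icc_self hx)
  have h0 : 0 < t - s := by linarith
  rw [eq_div_iff h0.ne'] at e
  have hx0 : 0 < x - t₀ + T := by linarith [hx.1]
  rw [← e]
  exact ⟨mul_le_mul_of_nonneg_right
      (pow_le_pow_left₀ (th_pos (by linarith)).le (th_anti hx0 hx.2.le) 6) h0.le,
    mul_le_mul_of_nonneg_right (pow_le_pow_left₀ (th_pos hx0).le (th_anti h hx.1.le) 6) h0.le⟩

theorem scalar_th_step {t₀ T t : ℝ} (h : 0 < t - t₀ + T) :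
    th t₀ T t - th t₀ T t ^ 8 / 7 ≤ th t₀ T (t + 1) := by
  have h' : 0 < t + 1 - t₀ + T := by linarith
  have h1 := (sg_step h (show t ≤ t + 1 by linarith)).2
  have e : ∀ {u : ℝ}, 0 < u - t₀ + T → (u - t₀ + T) ^ (1 / 7 : ℝ) = (th t₀ T u)⁻¹ := fun hu => by
    rw [th, Real.rpow_neg hu.le, inv_inv]
  rw [sg, sg, e h, e h'] at h1
  have a := th_pos h
  have b := th_pos h'
  have c := th_anti h (show t ≤ t + 1 by linarith)
  generalize th t₀ T t = x at *
  generalize th t₀ T (t + 1) = y at *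
  have h2 : 7 * (x - y) ≤ x ^ 6 * (x * y) := by
    have h3 : 7 * (x - y) = (7 * y⁻¹ - 7 * x⁻¹) * (x * y) := by field_simp
    rw [h3]
    exact mul_le_mul_of_nonneg_right (by linarith) (by positivity)
  have h4 : x ^ 6 * (x * y) ≤ x ^ 6 * (x * x) := by gcongr
  nlinarith

/-- the barrier -/
def scalarPsi (A A' B x s : ℝ) : ℝ := s * (A + A' * (1 / 2 - x)) + B * max (-(2 * s)) (min x (2 * s))

/-- the jump factor -/
def scalarJ (m x : ℝ) : ℝ := if x < 0 then 1 else if x = 0 then m else m ^ 2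

theorem scalarJ_bd {m : ℝ} (hm : 1 ≤ m) (x : ℝ) : 1 ≤ scalarJ m x ∧ scalarJ m x ≤ m ^ 2 := by
  unfold scalarJ
  split_ifs <;> constructor <;> nlinarith

theorem scalarJ_mono {m : ℝ} (hm : 1 ≤ m) {x y : ℝ} (h : x < y) : scalarJ m x ≤ scalarJ m y := by
  unfold scalarJ
  split_ifs <;> nlinarith

theorem scalarJ_jump {m : ℝ} (hm : 1 ≤ m) {x y : ℝ} (h : x < y) (hx : x ≤ 0) (hy : 0 ≤ y) :
    m * scalarJ m x ≤ scalarJ m y := by
  unfold scalarJ
  split_ifs with h1 h2 h3 h4 h5 h6 h7 h8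
  · linarith
  · linarith
  · nlinarith
  · linarith
  · linarith
  · nlinarith
  · linarith
  · linarith
  · exact absurd (le_antisymm hx (not_lt.1 h1)) h4

theorem scalar_cl_bd {s : ℝ} (hs : 0 ≤ s) (x : ℝ) :
    -(2 * s) ≤ max (-(2 * s)) (min x (2 * s)) ∧ max (-(2 * s)) (min x (2 * s)) ≤ 2 * s :=
  ⟨le_max_left _ _, max_le (by linarith) (min_le_right _ _)⟩

theorem scalarPsi_bd {A A' B x s : ℝ} (hA' : 0 ≤ A') (hB : 0 ≤ B) (hs : 0 ≤ s) (h1 : -(1 / 2) ≤ x)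
    (h2 : x ≤ 1 / 2) :
    (A - 2 * B) * s ≤ scalarPsi A A' B x s ∧ scalarPsi A A' B x s ≤ (A + A' + 2 * B) * s := by
  obtain ⟨a, b⟩ := scalar_cl_bd hs x
  have a' := mul_le_mul_of_nonneg_left a hB
  have b' := mul_le_mul_of_nonneg_left b hB
  have c1 : 0 ≤ s * A' * (1 / 2 - x) := mul_nonneg (mul_nonneg hs hA') (by linarith)
  have c2 : 0 ≤ s * A' * (1 / 2 + x) := mul_nonneg (mul_nonneg hs hA') (by linarith)
  unfold scalarPsi
  constructor <;> nlinarith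

/-- a step without wrap-around -/
theorem scalar_step {A A' B C d s s' x x' w : ℝ} (hA' : 0 ≤ A') (hC : 0 < C) (hB : B = 2 * (C + 1))
    (hd : 0 < d) (hA : C + 1 ≤ d * (A - 2 * B)) (hs : 0 < s) (hs1 : s ≤ 1 / 2)
    (hs2 : (A + 2 * A' + 2 * B) * s ≤ 1) (h1 : s' ≤ s) (h2 : s - s ^ 3 ≤ s')
    (h3 : s' ^ 2 ≤ x' - x) (h4 : x' - x ≤ s ^ 2) (h5 : -(1 / 2) ≤ x) (h6 : x' ≤ 1 / 2)
    (hw : d * |x| ≤ w) :
    (1 - w) * scalarPsi A A' B x s + C * s ^ 2 ≤ scalarPsi A A' B x' s' := by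
  have hB0 : 0 < B := by rw [hB]; positivity
  have hA0 : 0 < A - 2 * B := by
    by_contra h
    nlinarith [mul_nonneg hd.le (neg_nonneg.2 (not_lt.1 h))]
  have hs3 : s ^ 2 ≤ s / 2 := by nlinarith
  have hs4 : s ^ 3 ≤ s / 4 := by nlinarith
  have hs' : 0 < s' := by linarith
  have hxx : x ≤ x' := by nlinarith
  have hψ := (scalarPsi_bd (A := A) hA' hB0.le hs.le h5 (hxx.trans h6)).1
  have hψ0 : 0 ≤ scalarPsi A A' B x s := le_trans (by positivity) hψ
  have t1 : s * (A + A' * (1 / 2 - x)) - (A + 2 * A') * s ^ 3 ≤ s' * (A + A' * (1 / 2 - x')) := by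
    have a1 : 0 ≤ A + A' * (1 / 2 - x') := add_nonneg (by linarith) (mul_nonneg hA' (by linarith))
    have a2 : A' * (1 / 2 - x') ≤ A' * 1 := mul_le_mul_of_nonneg_left (by linarith) hA'
    have a3 := mul_le_mul_of_nonneg_right h2 a1
    have a4 : s ^ 3 * (A + A' * (1 / 2 - x')) ≤ s ^ 3 * (A + A') :=
      mul_le_mul_of_nonneg_left (by linarith) (by positivity)
    have a5 : s * A' * (x' - x) ≤ s * A' * s ^ 2 := mul_le_mul_of_nonneg_left h4 (by positivity)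
    nlinarith
  have t2 : (A + 2 * A' + 2 * B) * s ^ 3 ≤ s ^ 2 := by
    have := mul_le_mul_of_nonneg_right hs2 (sq_nonneg s)
    nlinarith
  have t3 : 0 ≤ B * s ^ 3 := by positivity
  have hw0 : 0 ≤ w := le_trans (by positivity) hw
  by_cases hx : |x| ≤ s
  · obtain ⟨b1, b2⟩ := abs_le.1 hx
    have e1 : max (-(2 * s)) (min x (2 * s)) = x := by
      rw [min_eq_left (by linarith), max_eq_right (by linarith)]
    have e2 : max (-(2 * s')) (min x' (2 * s')) = x' := by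
      rw [min_eq_left (by linarith), max_eq_right (by linarith)]
    have c1 : s ^ 2 / 2 ≤ x' - x := by nlinarith
    have c2 := mul_le_mul_of_nonneg_left c1 hB0.le
    have c3 := mul_nonneg hw0 hψ0
    have c4 : B * (s ^ 2 / 2) = C * s ^ 2 + s ^ 2 := by rw [hB]; ring
    unfold scalarPsi at c3 ⊢
    rw [e1] at c3 ⊢
    rw [e2]
    linarith
  · have c1 : max (-(2 * s)) (min x (2 * s)) - 2 * s ^ 3 ≤ max (-(2 * s')) (min x' (2 * s')) := by
      rw [sub_le_iff_le_add]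
      refine max_le ?_ ?_
      · have : 0 ≤ s ^ 3 := by positivity
        linarith [le_max_left (-(2 * s')) (min x' (2 * s'))]
      · have : min x (2 * s) ≤ min x' (2 * s') + 2 * s ^ 3 := by
          have : 0 ≤ s ^ 3 := by positivity
          rw [← sub_le_iff_le_add]
          exact le_min (by linarith [min_le_left x (2 * s)]) (by linarith [min_le_right x (2 * s)])
        linarith [le_max_right (-(2 * s')) (min x' (2 * s'))]
    have c2 := mul_le_mul_of_nonneg_left c1 hB0.le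
    have c3 : d * s ≤ w := le_trans (mul_le_mul_of_nonneg_left (not_le.1 hx).le hd.le) hw
    have c4 : d * s * ((A - 2 * B) * s) ≤ w * scalarPsi A A' B x s :=
      mul_le_mul c3 hψ (by positivity) hw0
    have c5 := mul_le_mul_of_nonneg_right hA (sq_nonneg s)
    have c6 : d * s * ((A - 2 * B) * s) = d * (A - 2 * B) * s ^ 2 := by ring
    unfold scalarPsi at c4 ⊢
    linarith

/-- a step with wrap-around -/
theorem scalar_wrap {A A' B C m s s' x x' : ℝ} (hC : 0 < C) (hB : 0 ≤ B) (hA : 2 * B ≤ A)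
    (hm : 1 ≤ m) (hA' : A' = 2 * (m * (m ^ 2 * (A + 1 + 2 * B) + C))) (hs : 0 < s) (hs1 : s ≤ 1 / 2)
    (hs2 : A' * s ≤ 1) (h2 : s - s ^ 3 ≤ s') (h5 : 1 / 2 - x ≤ s ^ 2) (h6 : x' ≤ s ^ 2 - 1 / 2) :
    m * (m ^ 2 * scalarPsi A A' B x s + C * s ^ 2) ≤ scalarPsi A A' B x' s' := by
  have hA0 : 0 ≤ A := by linarith
  have hA'0 : 0 ≤ A' := by rw [hA']; positivity
  have hs3 : s ^ 2 ≤ 1 / 4 := by nlinarith
  have hs4 : s ^ 3 ≤ s / 4 := by nlinarith
  have hs' : 0 < s' := by linarith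
  have a1 : scalarPsi A A' B x s ≤ s * (A + 1 + 2 * B) := by
    have b1 := mul_le_mul_of_nonneg_left (scalar_cl_bd hs.le x).2 hB
    have b2 : A' * (1 / 2 - x) ≤ A' * s ^ 2 := mul_le_mul_of_nonneg_left h5 hA'0
    have b3 : A' * s ^ 2 ≤ 1 := by nlinarith [mul_nonneg hA'0 hs.le]
    have b4 : s * (A + A' * (1 / 2 - x)) ≤ s * (A + 1) :=
      mul_le_mul_of_nonneg_left (by linarith) hs.le
    unfold scalarPsi
    linarith
  have a2 : A' * (s / 2) ≤ scalarPsi A A' B x' s' := by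
    have b1 := mul_le_mul_of_nonneg_left (scalar_cl_bd hs'.le x').1 hB
    have b2 : A' * (3 / 4) ≤ A' * (1 / 2 - x') := mul_le_mul_of_nonneg_left (by linarith) hA'0
    have b3 : s' * (A + A' * (3 / 4)) ≤ s' * (A + A' * (1 / 2 - x')) :=
      mul_le_mul_of_nonneg_left (by linarith) hs'.le
    have b4 : A' * (s / 2) ≤ A' * (s' * (3 / 4)) := mul_le_mul_of_nonneg_left (by linarith) hA'0
    have b5 := mul_le_mul_of_nonneg_left hA hs'.le
    unfold scalarPsi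
    linarith
  refine le_trans ?_ a2
  have a3 : m ^ 2 * scalarPsi A A' B x s ≤ m ^ 2 * (s * (A + 1 + 2 * B)) :=
    mul_le_mul_of_nonneg_left a1 (by positivity)
  have a4 : C * s ^ 2 ≤ C * s := mul_le_mul_of_nonneg_left (by nlinarith) hC.le
  calc m * (m ^ 2 * scalarPsi A A' B x s + C * s ^ 2)
      ≤ m * (m ^ 2 * (s * (A + 1 + 2 * B)) + C * s) :=
        mul_le_mul_of_nonneg_left (by linarith) (by linarith)
    _ = A' * (s / 2) := by rw [hA']; ring

theorem scalar_cube {x y : ℝ} (hy : 0 < y) (h1 : y ≤ x) (h2 : x - x ^ 8 / 7 ≤ y) (h3 : x ≤ 1) :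
    x ^ 3 - (x ^ 3) ^ 3 ≤ y ^ 3 ∧ x ^ 4 - x ^ 6 ≤ y ^ 4 := by
  have hx : 0 < x := by linarith
  have a0 : 0 ≤ x - y := by linarith
  have a1 : x ^ 3 - y ^ 3 ≤ (x - y) * (3 * x ^ 2) := by
    rw [show x ^ 3 - y ^ 3 = (x - y) * (x ^ 2 + x * y + y ^ 2) by ring]
    exact mul_le_mul_of_nonneg_left (by nlinarith) a0
  have a2 : x ^ 4 - y ^ 4 ≤ (x - y) * (4 * x ^ 3) := by
    rw [show x ^ 4 - y ^ 4 = (x - y) * (x ^ 3 + x ^ 2 * y + x * y ^ 2 + y ^ 3) by ring]
    refine mul_le_mul_of_nonneg_left ?_ a0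
    have b1 : x ^ 2 * y ≤ x ^ 2 * x := by gcongr
    have b2 : x * y ^ 2 ≤ x * x ^ 2 := by gcongr
    have b3 : y ^ 3 ≤ x ^ 3 := by gcongr
    linarith
  have a3 : (x - y) * (3 * x ^ 2) ≤ (x ^ 8 / 7) * (3 * x ^ 2) :=
    mul_le_mul_of_nonneg_right (by linarith) (by positivity)
  have a4 : (x - y) * (4 * x ^ 3) ≤ (x ^ 8 / 7) * (4 * x ^ 3) :=
    mul_le_mul_of_nonneg_right (by linarith) (by positivity)
  have a5 : x ^ 10 ≤ x ^ 9 := pow_le_pow_of_le_one hx.le h3 (by norm_num)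
  have a6 : x ^ 11 ≤ x ^ 6 := pow_le_pow_of_le_one hx.le h3 (by norm_num)
  have a7 : 0 ≤ x ^ 10 := by positivity
  have a8 : 0 ≤ x ^ 11 := by positivity
  constructor <;> linarith

/-- the first bound -/
theorem scalar_first (c c' m C : ℝ) (hc : 0 < c) (hc' : 0 < c') (hm : 1 ≤ m) (hC : 0 < C) :
    ∃ K η : ℝ, 0 < K ∧ 0 < η ∧ ∀ (n₁ n₂ : ℕ) (s σ φ w μ : ℕ → ℝ), φ n₁ = 0 →
      (∀ n, n₁ ≤ n → 0 < s n ∧ s n ≤ η ∧ s (n + 1) ≤ s n ∧ s n - s n ^ 3 ≤ s (n + 1) ∧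
        s (n + 1) ^ 2 ≤ σ (n + 1) - σ n ∧ σ (n + 1) - σ n ≤ s n ^ 2) →
      (∀ n, n₁ ≤ n → n < n₂ → c * w n ≤ 1 ∧ c' * hdist (σ n) ≤ w n ∧ 1 ≤ μ n ∧ μ n ≤ m ∧
        (μ n ≠ 1 → ∃ p : ℤ, σ n ≤ p + 1 / 2 ∧ (p : ℝ) + 1 / 2 ≤ σ (n + 1)) ∧
        φ (n + 1) ≤ μ n * ((1 - c * w n) * φ n + C * s n ^ 2)) →
      ∀ n, n₁ ≤ n → n ≤ n₂ → φ n ≤ K * s n := by
  obtain ⟨B, hB⟩ : ∃ B, B = 2 * (C + 1) := ⟨_, rfl⟩
  obtain ⟨A, hA⟩ : ∃ A, A = 2 * B + (C + 1) / (c * c') := ⟨_, rfl⟩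
  obtain ⟨A', hA'⟩ : ∃ A', A' = 2 * (m * (m ^ 2 * (A + 1 + 2 * B) + C)) := ⟨_, rfl⟩
  have hB0 : 0 < B := by rw [hB]; positivity
  have hA0 : 0 < A := by rw [hA]; positivity
  have hA'0 : 0 < A' := by rw [hA']; positivity
  have hA1 : C + 1 ≤ c * c' * (A - 2 * B) := by
    rw [hA, add_sub_cancel_left, mul_div_cancel₀ _ (by positivity)]
  have hA2 : 2 * B ≤ A := by
    have : 0 ≤ (C + 1) / (c * c') := by positivity
    linarith
  refine ⟨m ^ 2 * (A + A' + 2 * B), min (1 / 2) (1 / (A + 2 * A' + 2 * B)), by positivity,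
    by positivity, fun n₁ n₂ s σ φ w μ h0 hs hr => ?_⟩
  obtain ⟨x, hx⟩ : ∃ x : ℕ → ℝ, ∀ n, x n = σ n - 1 / 2 - ⌊σ n⌋ := ⟨_, fun _ => rfl⟩
  have hx1 : ∀ n, -(1 / 2) ≤ x n ∧ x n < 1 / 2 := fun n => by
    have a := Int.floor_le (σ n)
    have b := Int.lt_floor_add_one (σ n)
    rw [hx]
    constructor <;> linarith
  have hx2 : ∀ n, hdist (σ n) = |x n| := fun n => by
    rw [hx, hdist, round_eq, sub_add_cancel]
  have hψ : ∀ n, n₁ ≤ n → 0 ≤ scalarPsi A A' B (x n) (s n) ∧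
      scalarPsi A A' B (x n) (s n) ≤ (A + A' + 2 * B) * s n := fun n hn => by
    obtain ⟨a, b⟩ := scalarPsi_bd (A := A) hA'0.le hB0.le (hs n hn).1.le (hx1 n).1 (hx1 n).2.le
    exact ⟨le_trans (mul_nonneg (by linarith) (hs n hn).1.le) a, b⟩
  have key : ∀ n, n₁ ≤ n → n ≤ n₂ → φ n ≤ scalarJ m (x n) * scalarPsi A A' B (x n) (s n) := by
    intro n hn
    induction n, hn using Nat.le_induction with
    | base =>
      intro _
      rw [h0]
      exact mul_nonneg (by linarith [(scalarJ_bd hm (x n₁)).1]) (hψ n₁ le_rfl).1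
    | succ n hn ih =>
      intro hn2
      have ih := ih (by omega)
      obtain ⟨s1, s2, s3, s4, s5, s6⟩ := hs n hn
      obtain ⟨r1, r2, r3, r4, r5, r6⟩ := hr n hn (by omega)
      have s7 : s n ≤ 1 / 2 := s2.trans (min_le_left _ _)
      have s8 : (A + 2 * A' + 2 * B) * s n ≤ 1 := by
        have := s2.trans (min_le_right _ _)
        rwa [le_div_iff₀ (by positivity), mul_comm] at this
      have s9 : 0 < s (n + 1) := (hs (n + 1) (by omega)).1
      have hσ : σ n < σ (n + 1) := by nlinarith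
      obtain ⟨j1, j2⟩ := scalarJ_bd hm (x n)
      obtain ⟨j3, j4⟩ := scalarJ_bd hm (x (n + 1))
      obtain ⟨p1, p2⟩ := hψ n hn
      obtain ⟨p3, p4⟩ := hψ (n + 1) (by omega)
      have hw : 0 ≤ 1 - c * w n := by linarith
      have hw0 : 0 ≤ w n := le_trans (mul_nonneg hc'.le (by rw [hx2]; positivity)) r2
      have hCs : 0 ≤ C * s n ^ 2 := by positivity
      have a1 := mul_le_mul_of_nonneg_left ih hw
      rcases (Int.floor_mono hσ.le).eq_or_lt with e | e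
      · have e1 : x (n + 1) - x n = σ (n + 1) - σ n := by rw [hx, hx, e]; ring
        have a2 := scalar_step (w := c * w n) hA'0.le hC hB (mul_pos hc hc') hA1 s1 s7 s8 s3 s4
          (e1 ▸ s5) (e1 ▸ s6) (hx1 n).1 (hx1 (n + 1)).2.le (by
            rw [mul_assoc, ← hx2]
            exact mul_le_mul_of_nonneg_left r2 hc.le)
        have a3 : μ n * scalarJ m (x n) ≤ scalarJ m (x (n + 1)) := by
          by_cases hμ : μ n = 1
          · rw [hμ, one_mul]
            exact scalarJ_mono hm (by linarith)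
          · obtain ⟨p, q1, q2⟩ := r5 hμ
            have b1 := hx1 n
            have b2 := hx1 (n + 1)
            have b3 := hx n
            have b4 := hx (n + 1)
            rw [← e] at b4
            have b5 : ((⌊σ n⌋ : ℤ) : ℝ) < p + 1 := by linarith
            have b6 : (p : ℝ) < (⌊σ n⌋ : ℤ) + 1 := by linarith
            have b7 : p = ⌊σ n⌋ := by
              have c1 : ⌊σ n⌋ < p + 1 := by exact_mod_cast b5
              have c2 : p < ⌊σ n⌋ + 1 := by exact_mod_cast b6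
              omega
            rw [b7] at q1 q2
            exact (mul_le_mul_of_nonneg_right r4 (by linarith)).trans
              (scalarJ_jump hm (by linarith) (by linarith) (by linarith))
        calc φ (n + 1) ≤ μ n * ((1 - c * w n) * φ n + C * s n ^ 2) := r6
          _ ≤ μ n * (scalarJ m (x n) *
              ((1 - c * w n) * scalarPsi A A' B (x n) (s n) + C * s n ^ 2)) := by
            refine mul_le_mul_of_nonneg_left ?_ (by linarith)
            nlinarith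
          _ = (μ n * scalarJ m (x n)) *
              ((1 - c * w n) * scalarPsi A A' B (x n) (s n) + C * s n ^ 2) := by ring
          _ ≤ _ := mul_le_mul a3 a2 (by positivity) (by linarith)
      · have e1 : ((⌊σ n⌋ : ℤ) : ℝ) + 1 ≤ (⌊σ (n + 1)⌋ : ℤ) := by exact_mod_cast e
        have b1 := hx1 n
        have b2 := hx1 (n + 1)
        have b3 := hx n
        have b4 := hx (n + 1)
        have a2 := scalar_wrap (x := x n) (x' := x (n + 1)) hC hB0.le hA2 hm hA' s1 s7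
          (by nlinarith) s4 (by linarith) (by linarith)
        have a3 : scalarJ m (x n) * scalarPsi A A' B (x n) (s n)
            ≤ m ^ 2 * scalarPsi A A' B (x n) (s n) := mul_le_mul_of_nonneg_right j2 p1
        have a4 : 0 ≤ scalarJ m (x n) * scalarPsi A A' B (x n) (s n) :=
          mul_nonneg (by linarith) p1
        have a5 := mul_nonneg (mul_nonneg hc.le hw0) a4
        calc φ (n + 1) ≤ μ n * ((1 - c * w n) * φ n + C * s n ^ 2) := r6
          _ ≤ μ n * (m ^ 2 * scalarPsi A A' B (x n) (s n) + C * s n ^ 2) :=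
            mul_le_mul_of_nonneg_left (by linarith) (by linarith)
          _ ≤ m * (m ^ 2 * scalarPsi A A' B (x n) (s n) + C * s n ^ 2) :=
            mul_le_mul_of_nonneg_right r4 (by positivity)
          _ ≤ scalarPsi A A' B (x (n + 1)) (s (n + 1)) := a2
          _ ≤ _ := le_mul_of_one_le_left p3 j3
  intro n hn hn2
  obtain ⟨p1, p2⟩ := hψ n hn
  rw [mul_assoc]
  exact (key n hn hn2).trans (mul_le_mul (scalarJ_bd hm _).2 p2 p1 (by positivity))

/-- the inductive step of the second bound -/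
theorem scalar_second {c L C K x y w w' φ φ' : ℝ} (hc : 0 < c) (hL : 0 < L) (hC : 0 < C)
    (hK : 1 ≤ K) (hx : 0 < x) (hx1 : x ≤ 1) (hx2 : (L + C / c + 1) * x ≤ c / 2)
    (hy : x ^ 4 - x ^ 6 ≤ y ^ 4) (hw : x / 2 ≤ w) (hw1 : c * w ≤ 1) (hw' : 0 ≤ w') (hw'1 : c * w' ≤ 1)
    (hww : w' ≤ w + L * x ^ 6) (hφ : 0 ≤ φ) (h1 : φ ≤ K * x ^ 3) (h2 : w * φ ≤ K * x ^ 4)
    (h3 : φ' ≤ (1 - c * w) * φ + C * x ^ 6) : w' * φ' ≤ K * y ^ 4 := by
  have a0 : 0 ≤ 1 - c * w := by linarith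
  have a1 : w' * φ' ≤ w' * ((1 - c * w) * φ) + w' * (C * x ^ 6) := by
    rw [← mul_add]
    exact mul_le_mul_of_nonneg_left h3 hw'
  have a2 : w' * ((1 - c * w) * φ) ≤ (w + L * x ^ 6) * ((1 - c * w) * φ) :=
    mul_le_mul_of_nonneg_right hww (by positivity)
  have a3 : (1 - c * w) * (w * φ) ≤ (1 - c * (x / 2)) * (K * x ^ 4) :=
    mul_le_mul (by nlinarith) h2 (mul_nonneg (by linarith) hφ) (by nlinarith)
  have a4 : (1 - c * w) * φ ≤ K := by
    have b1 : x ^ 3 ≤ 1 := pow_le_one₀ hx.le hx1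
    have b2 : 0 ≤ c * w * φ := mul_nonneg (mul_nonneg hc.le (by linarith)) hφ
    nlinarith
  have a5 : L * x ^ 6 * ((1 - c * w) * φ) ≤ L * x ^ 6 * K :=
    mul_le_mul_of_nonneg_left a4 (by positivity)
  have a6 : w' * (C * x ^ 6) ≤ K * (C / c) * x ^ 6 := by
    have b1 : w' ≤ 1 / c := by rwa [le_div_iff₀ hc, mul_comm]
    have b2 : w' * C ≤ K * (C / c) := by
      calc w' * C ≤ 1 / c * C := mul_le_mul_of_nonneg_right b1 hC.le
        _ = 1 * (C / c) := by ring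
        _ ≤ _ := mul_le_mul_of_nonneg_right hK (by positivity)
    rw [← mul_assoc]
    exact mul_le_mul_of_nonneg_right b2 (by positivity)
  have a7 := mul_le_mul_of_nonneg_left hx2 (show 0 ≤ K * x ^ 5 by positivity)
  have a8 := mul_le_mul_of_nonneg_left hy (show 0 ≤ K by linarith)
  linarith

theorem scalar_rec (c c' L m C : ℝ) (hc : 0 < c) (hc' : 0 < c') (hL : 0 < L) (hm : 1 ≤ m)
    (hC : 0 < C) : ∃ K T₀ : ℝ, 0 < K ∧ ∀ (t₀ T n₁ n₂ : ℕ), T₀ ≤ T → t₀ ≤ n₁ →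
      ∀ (φ w μ : ℕ → ℝ), φ n₁ = 0 → (∀ n, 0 ≤ φ n) →
      (∀ n, n₁ ≤ n → n ≤ n₂ → 0 ≤ w n ∧ c * w n ≤ 1 ∧ c' * hdist (sg t₀ T n) ≤ w n) →
      (∀ n, n₁ ≤ n → n < n₂ → |w (n + 1) - w n| ≤ L * th t₀ T n ^ 6 ∧ 1 ≤ μ n ∧ μ n ≤ m ∧
        (μ n ≠ 1 → w n ≤ L * th t₀ T n ^ 6 ∧
          ∃ p : ℤ, sg t₀ T n ≤ p + 1 / 2 ∧ (p : ℝ) + 1 / 2 ≤ sg t₀ T (n + 1 : ℕ)) ∧
        φ (n + 1) ≤ μ n * ((1 - c * w n) * φ n + C * th t₀ T n ^ 6)) →
      ∀ n, n₁ ≤ n → n ≤ n₂ → φ n ≤ K * th t₀ T n ^ 3 ∧ w n * φ n ≤ K * th t₀ T n ^ 4 := by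
  obtain ⟨K, η, hK, hη, H⟩ := scalar_first c c' m C hc hc' hm hC
  obtain ⟨ε, hε⟩ : ∃ ε, ε = min (min 1 η) (min (c / 2 / (L + C / c + 1)) (1 / (4 * L + 4))) :=
    ⟨_, rfl⟩
  have hε0 : 0 < ε := by rw [hε]; positivity
  refine ⟨K + 1, (ε⁻¹) ^ 7, by positivity, fun t₀ T n₁ n₂ hT ht φ w μ h0 hφ hw hr => ?_⟩
  have hT0 : (0 : ℝ) < T := lt_of_lt_of_le (by positivity) hT
  have hτ : ∀ n : ℕ, n₁ ≤ n → (T : ℝ) ≤ (n : ℝ) - t₀ + T := fun n hn => by
    have : (t₀ : ℝ) ≤ n := by exact_mod_cast ht.trans hn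
    linarith
  have hτ0 : ∀ n : ℕ, n₁ ≤ n → 0 < (n : ℝ) - t₀ + T := fun n hn => hT0.trans_le (hτ n hn)
  have hth : ∀ n : ℕ, n₁ ≤ n → 0 < th t₀ T n ∧ th t₀ T n ≤ ε ∧
      th t₀ T (n + 1 : ℕ) ≤ th t₀ T n ∧
      th t₀ T n - th t₀ T n ^ 8 / 7 ≤ th t₀ T (n + 1 : ℕ) := fun n hn => by
    refine ⟨th_pos (hτ0 n hn), ?_, th_anti (hτ0 n hn) (by push_cast; linarith), ?_⟩
    · have h1 := Real.rpow_le_rpow_of_nonpos (by positivity) (hT.trans (hτ n hn))
        (show -(1 / 7 : ℝ) ≤ 0 by norm_num)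
      rw [← Real.rpow_natCast, ← Real.rpow_mul (by positivity),
        show ((7 : ℕ) : ℝ) * -(1 / 7) = -1 by norm_num, Real.rpow_neg_one, inv_inv] at h1
      exact h1
    · rw [Nat.cast_succ]
      exact scalar_th_step (hτ0 n hn)
  have hε1 : ε ≤ 1 := by rw [hε]; exact (min_le_left _ _).trans (min_le_left _ _)
  have hε2 : ε ≤ η := by rw [hε]; exact (min_le_left _ _).trans (min_le_right _ _)
  have hε3 : (L + C / c + 1) * ε ≤ c / 2 := by
    have : ε ≤ c / 2 / (L + C / c + 1) := by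
      rw [hε]; exact (min_le_right _ _).trans (min_le_left _ _)
    rwa [le_div_iff₀ (by positivity), mul_comm] at this
  have hε4 : (4 * L + 4) * ε ≤ 1 := by
    have : ε ≤ 1 / (4 * L + 4) := by
      rw [hε]; exact (min_le_right _ _).trans (min_le_right _ _)
    rwa [le_div_iff₀ (by positivity), mul_comm] at this
  have hcube : ∀ n : ℕ, n₁ ≤ n → _ := fun n hn =>
    scalar_cube (hth (n + 1) (by omega)).1 (hth n hn).2.2.1 (hth n hn).2.2.2
      ((hth n hn).2.1.trans hε1)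
  have first : ∀ n, n₁ ≤ n → n ≤ n₂ → φ n ≤ (K + 1) * th t₀ T n ^ 3 := by
    intro n hn hn2
    have h1 := H n₁ n₂ (fun n => th t₀ T n ^ 3) (fun n => sg t₀ T n) φ w μ h0
      (fun n hn => by
        obtain ⟨a, b, c, d⟩ := hth n hn
        have e := sg_step (hτ0 n hn) (show (n : ℝ) ≤ (n + 1 : ℕ) by push_cast; linarith)
        rw [show ((n + 1 : ℕ) : ℝ) - n = 1 by push_cast; ring, mul_one, mul_one] at e
        refine ⟨by positivity, ?_, pow_le_pow_left₀ (hth (n + 1) (by omega)).1.le c 3,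
          (hcube n hn).1, ?_, ?_⟩
        · exact (pow_le_of_le_one a.le (b.trans hε1) (by norm_num)).trans (b.trans hε2)
        · rw [← pow_mul]; exact e.1
        · rw [← pow_mul]; exact e.2)
      (fun n hn hn2 => by
        obtain ⟨a, b, c⟩ := hw n hn hn2.le
        obtain ⟨d, e, f, g, h⟩ := hr n hn hn2
        refine ⟨b, c, e, f, fun h' => (g h').2, ?_⟩
        rw [← pow_mul]
        exact h) n hn hn2
    have h2 : 0 ≤ th t₀ T n ^ 3 := pow_nonneg (hth n hn).1.le 3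
    linarith
  intro n hn hn2
  refine ⟨first n hn hn2, ?_⟩
  induction n, hn using Nat.le_induction with
  | base =>
    rw [h0, mul_zero]
    positivity
  | succ n hn ih =>
    have ih := ih (by omega)
    obtain ⟨a1, a2, a3, a4⟩ := hth n hn
    obtain ⟨w1, w2, -⟩ := hw n hn (by omega)
    obtain ⟨w3, w4, -⟩ := hw (n + 1) (by omega) hn2
    obtain ⟨r1, r2, r3, r4, r5⟩ := hr n hn (by omega)
    have a5 := (hth (n + 1) (by omega)).1
    by_cases hcase : w (n + 1) ≤ th t₀ T (n + 1 : ℕ)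
    · calc w (n + 1) * φ (n + 1) ≤ th t₀ T (n + 1 : ℕ) * ((K + 1) * th t₀ T (n + 1 : ℕ) ^ 3) :=
            mul_le_mul hcase (first (n + 1) (by omega) hn2) (hφ _) a5.le
        _ = _ := by ring
    · obtain ⟨b1, b2⟩ := abs_le.1 r1
      have a6 : th t₀ T n ≤ 1 := a2.trans hε1
      have c1 : th t₀ T n ^ 8 ≤ th t₀ T n ^ 2 := pow_le_pow_of_le_one a1.le a6 (by norm_num)
      have c2 : th t₀ T n ^ 6 ≤ th t₀ T n ^ 2 := pow_le_pow_of_le_one a1.le a6 (by norm_num)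
      have c3 : (4 * L + 4) * th t₀ T n ≤ 1 :=
        (mul_le_mul_of_nonneg_left a2 (by positivity)).trans hε4
      have c4 := mul_le_mul_of_nonneg_right c3 a1.le
      have c5 := mul_le_mul_of_nonneg_left c2 hL.le
      have c6 : 0 ≤ th t₀ T n ^ 2 := by positivity
      have c7 : 0 ≤ L * th t₀ T n ^ 2 := by positivity
      have c8 : th t₀ T n / 2 ≤ w n := by nlinarith
      have hμ : μ n = 1 := by
        by_contra h
        have := (r4 h).1
        nlinarith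
      rw [hμ, one_mul] at r5
      exact scalar_second hc hL hC (by linarith) a1 a6
        ((mul_le_mul_of_nonneg_left a2 (by positivity)).trans hε3) (hcube n hn).2 c8 w2 w3 w4
        (by linarith) (hφ n) (first n hn (by omega)) ih r5

end Crest.Agent.R202
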