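import Crest.Agent.R202.Harm
import Crest.Agent.R202.Scalar

/-!
# The profile `β` and the initial path (task G12)

`t₀ = 3m`, `T = 4m`.  Take `β = 1 - χ(t/m) (1 - b - 7A ϑ̃(t))` with `χ = Real.smoothTransition` (for `t > 0`, `t - t₀ + T = t + m > 0`, so
`ϑ` is smooth there; for `t ≤ 0` the factor `χ` vanishes - handle smoothness with the open cover `t < 0`..., e.g. define by cases and
compare germs, or replace `ϑ` by a globally smooth positive antitone function agreeing with it on `t ≥ -m/2`).  For large `m`,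
`b + 7Aϑ ≤ β₁` on `t ≥ 0` and `|β'| ≤ C/m + Aϑ⁸`.  `zi t = χ((t-m)/(2m)) • ζ`.
-/

set_option autoImplicit false

noncomputable section

open scoped InnerProductSpace ContDiff
open Set Filter Topology
open Crest.GeometryTopology.CoordMetric Crest.GeometryTopology.ChartCurvature Matrix

namespace Crest.Agent.R202

local notation "χ" => Real.smoothTransition

theorem beta_chi_smooth : ContDiff ℝ ∞ χ := Real.smoothTransition.contDiff

theorem beta_chi_hasDerivAt (s : ℝ) : HasDerivAt χ (deriv χ s) s :=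
  (beta_chi_smooth.differentiable (by simp) s).hasDerivAt

theorem beta_chi'_smooth : ContDiff ℝ ∞ (deriv χ) := (contDiff_infty_iff_deriv.1 beta_chi_smooth).2

theorem beta_chi'_hasDerivAt (s : ℝ) : HasDerivAt (deriv χ) (deriv (deriv χ) s) s :=
  (beta_chi'_smooth.differentiable (by simp) s).hasDerivAt

theorem beta_chi'_nonneg (s : ℝ) : 0 ≤ deriv χ s := Real.smoothTransition.monotone.deriv_nonneg

theorem beta_chi'_zero {s : ℝ} (hs : 1 ≤ s) : deriv χ s = 0 := by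
  refine IsLocalMax.deriv_eq_zero (Eventually.of_forall fun x => ?_)
  rw [Real.smoothTransition.one_of_one_le hs]
  exact Real.smoothTransition.le_one x

theorem beta_chi_bound : ∃ K : ℝ, 0 ≤ K ∧ (∀ s, 0 ≤ s → deriv χ s ≤ K) ∧
    ∀ s ∈ Icc (0 : ℝ) 1, |deriv (deriv χ) s| ≤ K := by
  obtain ⟨K₁, h₁⟩ := (isCompact_Icc (a := (0 : ℝ)) (b := 1)).exists_bound_of_continuousOn
    beta_chi'_smooth.continuous.continuousOn
  obtain ⟨K₂, h₂⟩ := (isCompact_Icc (a := (0 : ℝ)) (b := 1)).exists_bound_of_continuousOn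
    (contDiff_infty_iff_deriv.1 beta_chi'_smooth).2.continuous.continuousOn
  have k₁ : 0 ≤ K₁ := (norm_nonneg _).trans (h₁ 0 ⟨le_rfl, zero_le_one⟩)
  have k₂ : 0 ≤ K₂ := (norm_nonneg _).trans (h₂ 0 ⟨le_rfl, zero_le_one⟩)
  refine ⟨K₁ + K₂, by positivity, fun s hs => ?_, fun s hs => ?_⟩
  · rcases le_total s 1 with h | h
    · have := h₁ s ⟨hs, h⟩
      rw [Real.norm_eq_abs] at this
      linarith [le_abs_self (deriv χ s)]
    · rw [beta_chi'_zero h]; positivity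
  · have := h₂ s hs
    rw [Real.norm_eq_abs] at this
    linarith

theorem beta_ev (c : ℝ) {d : ℝ} (hd : 0 < d) :
    ∀ᶠ m : ℕ in atTop, c * (m : ℝ) ^ (-(1 / 7 : ℝ)) ≤ d := by
  have h : Tendsto (fun m : ℕ => c * (m : ℝ) ^ (-(1 / 7 : ℝ))) atTop (𝓝 (c * 0)) :=
    ((tendsto_rpow_neg_atTop (by norm_num)).comp tendsto_natCast_atTop_atTop).const_mul c
  rw [mul_zero] at h
  exact h.eventually (eventually_le_nhds hd)

theorem beta_pow7 {x : ℝ} (hx : 0 < x) : (x ^ (-(1 / 7 : ℝ))) ^ 7 = x⁻¹ := by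
  rw [← Real.rpow_natCast, ← Real.rpow_mul hx.le, ← Real.rpow_neg_one]
  norm_num

theorem beta_th_smooth {t₀ T t : ℝ} (h : 0 < t - t₀ + T) : ContDiffAt ℝ ∞ (th t₀ T) t :=
  ((contDiffAt_id.sub contDiffAt_const).add contDiffAt_const).rpow_const_of_ne h.ne'

theorem beta_th_tendsto (t₀ T : ℝ) : Tendsto (th t₀ T) atTop (𝓝 0) :=
  (tendsto_rpow_neg_atTop (by norm_num)).comp
    (tendsto_atTop_add_const_right _ T (tendsto_atTop_add_const_right _ (-t₀) tendsto_id))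

/-- the profile -/
def betaF (b A μ : ℝ) (t : ℝ) : ℝ := 1 - χ (t / μ) * (1 - b - 7 * A * th (3 * μ) (4 * μ) t)

theorem betaF_left {b A μ : ℝ} (hμ : 0 < μ) {t : ℝ} (ht : t ≤ 0) : betaF b A μ t = 1 := by
  rw [betaF, Real.smoothTransition.zero_of_nonpos (div_nonpos_of_nonpos_of_nonneg ht hμ.le)]
  ring

theorem betaF_right {b A μ : ℝ} (hμ : 0 < μ) {t : ℝ} (ht : μ ≤ t) :
    betaF b A μ t = b + 7 * A * th (3 * μ) (4 * μ) t := by
  rw [betaF, Real.smoothTransition.one_of_one_le ((one_le_div hμ).2 ht)]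
  ring

theorem betaF_smooth (b A : ℝ) {μ : ℝ} (hμ : 0 < μ) : ContDiff ℝ ∞ (betaF b A μ) := by
  refine contDiff_iff_contDiffAt.2 fun t => ?_
  rcases lt_or_ge t 0 with ht | ht
  · refine (contDiffAt_const (c := (1 : ℝ))).congr_of_eventuallyEq ?_
    filter_upwards [eventually_lt_nhds ht] with s hs using betaF_left hμ hs.le
  · exact contDiffAt_const.sub ((beta_chi_smooth.contDiffAt.comp t (contDiffAt_id.div_const μ)).mul
      (contDiffAt_const.sub (contDiffAt_const.mul (beta_th_smooth (by linarith)))))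

theorem betaF_deriv (b A : ℝ) {μ : ℝ} (hμ : 0 < μ) {t : ℝ} (ht : 0 ≤ t) :
    deriv (betaF b A μ) t = -(deriv χ (t / μ) / μ * (1 - b - 7 * A * th (3 * μ) (4 * μ) t) +
      χ (t / μ) * (A * th (3 * μ) (4 * μ) t ^ 8)) := by
  have h1 : HasDerivAt (fun t : ℝ => χ (t / μ)) (deriv χ (t / μ) * (1 / μ)) t :=
    (beta_chi_hasDerivAt (t / μ)).comp t (h := fun t : ℝ => t / μ) ((hasDerivAt_id t).div_const μ)
  have h2 := ((hasDerivAt_th (t₀ := 3 * μ) (T := 4 * μ) (t := t) (by linarith)).const_mul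
    (7 * A)).const_sub (1 - b)
  have h3 := (h1.mul h2).const_sub 1
  have h4 : deriv (betaF b A μ) t = _ := h3.deriv
  rw [h4]
  ring

theorem exists_beta (n : ℕ) (hn : 3 ≤ n) {b β₁ A : ℝ} (hb : 0 < b) (hb₁ : b < β₁) (h₁ : β₁ < 1)
    (hA : 0 < A) : ∃ m₀ : ℕ, ∀ m : ℕ, m₀ ≤ m → ∃ β : ℝ → ℝ, Prof β b ∧ (∀ t, -1 ≤ deriv β t) ∧
      (∀ t : ℝ, m ≤ t → β t ≤ β₁ ∧ deriv β t = -(A * th (3 * m : ℕ) (4 * m : ℕ) t ^ 8)) ∧
      ContDiff ℝ ∞ (qpot n β) ∧ (∀ t, -1 ≤ qpot n β t ∧ qpot n β t ≤ (((n : ℝ) - 2) / 2) ^ 2) ∧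
      (∀ t, t ≤ 0 → qpot n β t = (((n : ℝ) - 2) / 2) ^ 2) ∧
      ∀ t : ℝ, (3 * m : ℕ) ≤ t → 0 ≤ qpot n β t ∧
        |deriv (qpot n β) t| ≤ th (3 * m : ℕ) (4 * m : ℕ) t ^ 6 := by
  obtain ⟨K, hK, hK1, -⟩ := beta_chi_bound
  set a : ℝ := ((n : ℝ) - 2) / 2 with ha
  have ha0 : 0 < a := by
    have : (3 : ℝ) ≤ n := by exact_mod_cast hn
    rw [ha]; linarith
  have hev := ((((((beta_ev 1 one_pos).and (beta_ev (7 * A) (sub_pos.2 hb₁))).and
    (beta_ev (K + A) one_pos)).and (beta_ev (a * (K + A)) one_pos)).and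
    (beta_ev A (show 0 < a * b ^ 2 by positivity))).and
    (beta_ev (2 * a ^ 2 * A + 2 * a * A) one_pos)).and (eventually_ge_atTop 1)
  obtain ⟨m₀, hm₀⟩ := eventually_atTop.1 hev
  refine ⟨m₀, fun m hm => ?_⟩
  obtain ⟨⟨⟨⟨⟨⟨e1, e2⟩, e3⟩, e4⟩, e5⟩, e6⟩, e7⟩ := hm₀ m hm
  have hμ : (0 : ℝ) < m := by exact_mod_cast e7
  push_cast
  set μ : ℝ := (m : ℝ)
  set ε : ℝ := μ ^ (-(1 / 7 : ℝ)) with hε
  have hε0 : 0 < ε := Real.rpow_pos_of_pos hμ _
  rw [one_mul] at e1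
  have hμε : μ⁻¹ ≤ ε := by
    rw [← beta_pow7 hμ, ← hε]
    exact pow_le_of_le_one hε0.le e1 (by norm_num)
  have hθ0 : ∀ t : ℝ, 0 ≤ t → 0 < th (3 * μ) (4 * μ) t := fun t ht => th_pos (by linarith)
  have hθ : ∀ t : ℝ, 0 ≤ t → th (3 * μ) (4 * μ) t ≤ ε := fun t ht =>
    Real.rpow_le_rpow_of_nonpos hμ (by linarith) (by norm_num)
  have hθ8 : ∀ t : ℝ, 0 ≤ t → th (3 * μ) (4 * μ) t ^ 8 ≤ ε := fun t ht =>
    (pow_le_of_le_one (hθ0 t ht).le ((hθ t ht).trans e1) (by norm_num)).trans (hθ t ht)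
  have hg : ∀ t : ℝ, 0 ≤ t → 0 ≤ 1 - b - 7 * A * th (3 * μ) (4 * μ) t ∧
      1 - b - 7 * A * th (3 * μ) (4 * μ) t ≤ 1 - b := fun t ht => by
    have h1 := mul_le_mul_of_nonneg_left (hθ t ht) (show 0 ≤ 7 * A by positivity)
    have h2 : 0 ≤ 7 * A * th (3 * μ) (4 * μ) t := mul_nonneg (by positivity) (hθ0 t ht).le
    constructor <;> linarith
  have hle1 : ∀ t, betaF b A μ t ≤ 1 := fun t => by
    rcases le_total t 0 with ht | ht
    · exact (betaF_left hμ ht).le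
    · have := mul_nonneg (Real.smoothTransition.nonneg (t / μ)) (hg t ht).1
      rw [betaF]; linarith
  have hge : ∀ t, b ≤ betaF b A μ t := fun t => by
    rcases le_total t 0 with ht | ht
    · rw [betaF_left hμ ht]; linarith
    · have := mul_le_mul_of_nonneg_right (Real.smoothTransition.le_one (t / μ)) (hg t ht).1
      have := (hg t ht).2
      rw [betaF]; linarith
  have hd0 : ∀ t, t ≤ 0 → deriv (betaF b A μ) t = 0 := fun t ht => by
    refine IsLocalMax.deriv_eq_zero (Eventually.of_forall fun x => ?_)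
    rw [betaF_left hμ ht]
    exact hle1 x
  have hd : ∀ t, -((K + A) * ε) ≤ deriv (betaF b A μ) t ∧ deriv (betaF b A μ) t ≤ 0 := fun t => by
    rcases le_total t 0 with ht | ht
    · rw [hd0 t ht]
      exact ⟨neg_nonpos.2 (by positivity), le_rfl⟩
    · rw [betaF_deriv b A hμ ht]
      obtain ⟨g0, g1⟩ := hg t ht
      have c0 := Real.smoothTransition.nonneg (t / μ)
      have c1 := Real.smoothTransition.le_one (t / μ)
      have d0 := beta_chi'_nonneg (t / μ)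
      have d1 := hK1 (t / μ) (div_nonneg ht hμ.le)
      have t0 := hθ0 t ht
      have t8 := hθ8 t ht
      constructor
      · have h1 : deriv χ (t / μ) / μ * (1 - b - 7 * A * th (3 * μ) (4 * μ) t) ≤ K * ε * 1 := by
          rw [div_eq_mul_inv]
          exact mul_le_mul (mul_le_mul d1 hμε (inv_nonneg.2 hμ.le) hK) (by linarith) g0
            (by positivity)
        have h2 : χ (t / μ) * (A * th (3 * μ) (4 * μ) t ^ 8) ≤ 1 * (A * ε) :=
          mul_le_mul c1 (mul_le_mul_of_nonneg_left t8 hA.le) (by positivity) zero_le_one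
        linarith
      · exact neg_nonpos.2 (by positivity)
  have hdr : ∀ t : ℝ, μ ≤ t → deriv (betaF b A μ) t = -(A * th (3 * μ) (4 * μ) t ^ 8) :=
    fun t ht => by
      rw [betaF_deriv b A hμ (hμ.le.trans ht), beta_chi'_zero ((one_le_div hμ).2 ht),
        Real.smoothTransition.one_of_one_le ((one_le_div hμ).2 ht)]
      ring
  have hsm := betaF_smooth b A hμ
  refine ⟨betaF b A μ, ⟨hsm, fun t ht => betaF_left hμ ht, hb, hge, fun t => (hd t).2, ?_⟩,
    fun t => by linarith [(hd t).1], fun t ht => ⟨?_, hdr t ht⟩, ?_, fun t => ?_, fun t ht => ?_,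
    fun t ht => ?_⟩
  · have h1 := ((beta_th_tendsto (3 * μ) (4 * μ)).const_mul (7 * A)).const_add b
    rw [mul_zero, add_zero] at h1
    refine h1.congr' ?_
    filter_upwards [eventually_ge_atTop μ] with t ht using (betaF_right hμ ht).symm
  · rw [betaF_right hμ ht]
    have h1 := mul_le_mul_of_nonneg_left (hθ t (hμ.le.trans ht)) (show 0 ≤ 7 * A by positivity)
    linarith
  · exact (contDiff_const.mul (hsm.pow 2)).add
      (contDiff_const.mul (contDiff_infty_iff_deriv.1 hsm).2)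
  · rw [qpot, ← ha]
    have h1 : 0 ≤ a ^ 2 * betaF b A μ t ^ 2 := by positivity
    have h2 := mul_le_mul_of_nonneg_left (hd t).1 ha0.le
    have h3 := mul_le_mul_of_nonneg_left (hd t).2 ha0.le
    have h4 : betaF b A μ t ^ 2 ≤ 1 := pow_le_one₀ (hb.le.trans (hge t)) (hle1 t)
    have h5 := mul_le_mul_of_nonneg_left h4 (sq_nonneg a)
    constructor <;> linarith
  · rw [qpot, ← ha, betaF_left hμ ht, hd0 t ht]
    ring
  · have htμ : μ < t := by linarith
    have ht0 : 0 ≤ t := by linarith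
    have t0 := hθ0 t ht0
    have t1 := hθ t ht0
    have t8 := hθ8 t ht0
    constructor
    · rw [qpot, ← ha, hdr t htμ.le]
      have h1 : b ^ 2 ≤ betaF b A μ t ^ 2 := pow_le_pow_left₀ hb.le (hge t) 2
      have h2 := mul_le_mul_of_nonneg_left h1 (sq_nonneg a)
      have h3 : A * th (3 * μ) (4 * μ) t ^ 8 ≤ a * b ^ 2 :=
        (mul_le_mul_of_nonneg_left t8 hA.le).trans e5
      have h4 := mul_le_mul_of_nonneg_left h3 ha0.le
      nlinarith
    · have hth := hasDerivAt_th (t₀ := 3 * μ) (T := 4 * μ) (t := t) (by linarith)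
      have h1 := ((((hth.const_mul (7 * A)).const_add b).pow 2).const_mul (a ^ 2)).add
        (((hth.pow 8).const_mul A).neg.const_mul a)
      have h2 : qpot n (betaF b A μ) =ᶠ[𝓝 t] fun s =>
          a ^ 2 * (b + 7 * A * th (3 * μ) (4 * μ) s) ^ 2 + a * -(A * th (3 * μ) (4 * μ) s ^ 8) := by
        filter_upwards [eventually_gt_nhds htμ] with s hs
        rw [qpot, ← ha, betaF_right hμ hs.le, hdr s hs.le]
      have h3 : deriv (qpot n (betaF b A μ)) t = _ := (h1.congr_of_eventuallyEq h2).deriv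
      rw [h3]
      have hβ0 : 0 ≤ b + 7 * A * th (3 * μ) (4 * μ) t := by positivity
      have hβ1 : b + 7 * A * th (3 * μ) (4 * μ) t ≤ 1 := by linarith [(hg t ht0).1]
      generalize th (3 * μ) (4 * μ) t = x at *
      have hx1 : x ≤ 1 := t1.trans e1
      have p2 : x ^ 2 ≤ ε := (pow_le_of_le_one t0.le hx1 (by norm_num)).trans t1
      have p9 : x ^ 9 ≤ ε := (pow_le_of_le_one t0.le hx1 (by norm_num)).trans t1
      have q1 : 2 * a ^ 2 * A * ((b + 7 * A * x) * x ^ 2) ≤ 2 * a ^ 2 * A * (1 * ε) := by gcongr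
      have q2 : 8 / 7 * a * A * x ^ 9 ≤ 2 * a * A * ε := by gcongr; norm_num
      have q3 : 0 ≤ 2 * a ^ 2 * A * ((b + 7 * A * x) * x ^ 2) := by positivity
      have q4 : 0 ≤ 8 / 7 * a * A * x ^ 9 := by positivity
      have q5 : |8 / 7 * a * A * x ^ 9 - 2 * a ^ 2 * A * ((b + 7 * A * x) * x ^ 2)| ≤ 1 := by
        rw [abs_le]
        constructor <;> linarith
      calc _ = |x ^ 6 * (8 / 7 * a * A * x ^ 9 - 2 * a ^ 2 * A * ((b + 7 * A * x) * x ^ 2))| := by
            congr 1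
            push_cast
            ring
        _ ≤ x ^ 6 := by
            rw [abs_mul, abs_of_pos (pow_pos t0 6)]
            exact mul_le_of_le_one_right (pow_pos t0 6).le q5

theorem exists_zi {E : Type} [NormedAddCommGroup E] [NormedSpace ℝ E] (ζ : E) :
    ∃ m₀ : ℕ, ∀ m : ℕ, m₀ ≤ m → ∃ zi : ℝ → E, ContDiff ℝ ∞ zi ∧ (∀ t, zi t ∈ segment ℝ 0 ζ) ∧
      (∀ t : ℝ, t ≤ m → zi t = 0) ∧ (∀ t : ℝ, (3 * m : ℕ) ≤ t → zi t = ζ) ∧
      ∀ t : ℝ, m ≤ t → t ≤ (3 * m : ℕ) → ‖deriv zi t‖ ≤ th (3 * m : ℕ) (4 * m : ℕ) t ^ 4 ∧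
        ‖deriv (deriv zi) t‖ ≤ th (3 * m : ℕ) (4 * m : ℕ) t ^ 4 := by
  obtain ⟨K, hK, hK1, hK2⟩ := beta_chi_bound
  have hev := ((beta_ev 1 one_pos).and (beta_ev (2 * (K * ‖ζ‖)) one_pos)).and (eventually_ge_atTop 1)
  obtain ⟨m₀, hm₀⟩ := eventually_atTop.1 hev
  refine ⟨m₀, fun m hm => ?_⟩
  obtain ⟨⟨e1, e2⟩, e7⟩ := hm₀ m hm
  have hμ1 : (1 : ℝ) ≤ m := by exact_mod_cast e7
  push_cast
  set μ : ℝ := (m : ℝ)
  have hμ : 0 < μ := by linarith
  have h2μ : 0 < 2 * μ := by linarith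
  have hl : ∀ t : ℝ, HasDerivAt (fun t : ℝ => (t - μ) / (2 * μ)) (1 / (2 * μ)) t := fun t =>
    ((hasDerivAt_id t).sub_const μ).div_const _
  have hd1 : deriv (fun t : ℝ => χ ((t - μ) / (2 * μ)) • ζ) =
      fun t => (deriv χ ((t - μ) / (2 * μ)) * (1 / (2 * μ))) • ζ := by
    funext t
    exact (((beta_chi_hasDerivAt _).comp t (hl t)).smul_const ζ).deriv
  have hd2 : deriv (fun t => (deriv χ ((t - μ) / (2 * μ)) * (1 / (2 * μ))) • ζ) =
      fun t => (deriv (deriv χ) ((t - μ) / (2 * μ)) * (1 / (2 * μ)) * (1 / (2 * μ))) • ζ := by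
    funext t
    exact ((((beta_chi'_hasDerivAt _).comp t (hl t)).mul_const (1 / (2 * μ))).smul_const ζ).deriv
  refine ⟨fun t => χ ((t - μ) / (2 * μ)) • ζ, ?_, fun t => ?_, fun t ht => ?_, fun t ht => ?_,
    fun t ht ht' => ?_⟩
  · exact (beta_chi_smooth.comp ((contDiff_id.sub contDiff_const).div_const _)).smul contDiff_const
  · exact ⟨1 - χ ((t - μ) / (2 * μ)), χ ((t - μ) / (2 * μ)),
      sub_nonneg.2 (Real.smoothTransition.le_one _), Real.smoothTransition.nonneg _, by ring,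
      by simp⟩
  · show χ ((t - μ) / (2 * μ)) • ζ = 0
    rw [Real.smoothTransition.zero_of_nonpos
      (div_nonpos_of_nonpos_of_nonneg (by linarith) h2μ.le), zero_smul]
  · show χ ((t - μ) / (2 * μ)) • ζ = ζ
    rw [Real.smoothTransition.one_of_one_le ((one_le_div h2μ).2 (by linarith)), one_smul]
  · rw [hd1, hd2]
    have hs0 : 0 ≤ (t - μ) / (2 * μ) := div_nonneg (by linarith) h2μ.le
    have hs1 : (t - μ) / (2 * μ) ≤ 1 := (div_le_one h2μ).2 (by linarith)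
    have h4μ : 0 < 4 * μ := by linarith
    set η : ℝ := (4 * μ) ^ (-(1 / 7 : ℝ)) with hη
    have hη0 : 0 < η := Real.rpow_pos_of_pos h4μ _
    have hηε : η ≤ μ ^ (-(1 / 7 : ℝ)) := Real.rpow_le_rpow_of_nonpos hμ (by linarith) (by norm_num)
    have hη1 : η ≤ 1 := by linarith
    have hηθ : η ≤ th (3 * μ) (4 * μ) t :=
      Real.rpow_le_rpow_of_nonpos (by linarith) (by linarith) (by norm_num)
    have h7 : 1 / (2 * μ) = 2 * η ^ 7 := by
      rw [hη, beta_pow7 h4μ]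
      field_simp
      norm_num
    have key : K * (1 / (2 * μ)) * ‖ζ‖ ≤ th (3 * μ) (4 * μ) t ^ 4 := by
      refine le_trans ?_ (pow_le_pow_left₀ hη0.le hηθ 4)
      have p3 : η ^ 3 ≤ μ ^ (-(1 / 7 : ℝ)) := (pow_le_of_le_one hη0.le hη1 (by norm_num)).trans hηε
      have q : 2 * (K * ‖ζ‖) * η ^ 3 ≤ 1 :=
        (mul_le_mul_of_nonneg_left p3 (by positivity)).trans e2
      calc K * (1 / (2 * μ)) * ‖ζ‖ = η ^ 4 * (2 * (K * ‖ζ‖) * η ^ 3) := by rw [h7]; ring
        _ ≤ η ^ 4 := mul_le_of_le_one_right (by positivity) q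
    have hi0 : 0 ≤ 1 / (2 * μ) := by positivity
    have hi1 : 1 / (2 * μ) ≤ 1 := (div_le_one h2μ).2 (by linarith)
    constructor
    · refine le_trans ?_ key
      rw [norm_smul, Real.norm_eq_abs, abs_of_nonneg (mul_nonneg (beta_chi'_nonneg _) hi0)]
      exact mul_le_mul_of_nonneg_right (mul_le_mul_of_nonneg_right (hK1 _ hs0) hi0) (norm_nonneg _)
    · refine le_trans ?_ key
      rw [norm_smul, Real.norm_eq_abs, abs_mul, abs_mul, abs_of_nonneg hi0]
      refine mul_le_mul_of_nonneg_right ?_ (norm_nonneg _)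
      exact (mul_le_of_le_one_right (by positivity) hi1).trans
        (mul_le_mul_of_nonneg_right (hK2 _ ⟨hs0, hs1⟩) hi0)

end Crest.Agent.R202
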