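import Crest.Agent.R202.FHDefs
import Crest.Agent.R202.Band

/-!
# Building the moving frame: tools
-/

set_option autoImplicit false

noncomputable section

open scoped InnerProductSpace ContDiff
open Set Filter Topology

namespace Crest.Agent.R202

theorem bd_chi : ∃ (χ χ₁ χ₂ : ℝ → ℝ) (c : ℝ), (∀ s, HasDerivAt χ (χ₁ s) s) ∧
    (∀ s, HasDerivAt χ₁ (χ₂ s) s) ∧ (∀ s, χ s ∈ Icc (0 : ℝ) 1) ∧ (∀ s, |χ₁ s| ≤ c ∧ |χ₂ s| ≤ c) ∧
    (∀ s, s ≤ 0 → χ s = 0 ∧ χ₁ s = 0 ∧ χ₂ s = 0) ∧ ∀ s, 1 ≤ s → χ s = 1 ∧ χ₁ s = 0 ∧ χ₂ s = 0 := by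
  set χ : ℝ → ℝ := fun s => Real.smoothTransition (3 * s - 1) with hχ
  have h0 : ContDiff ℝ ∞ χ := Real.smoothTransition.contDiff.comp (by fun_prop)
  have h1 := (contDiff_infty_iff_deriv.1 h0)
  have h2 := (contDiff_infty_iff_deriv.1 h1.2)
  have key : ∀ (v s : ℝ), χ =ᶠ[𝓝 s] (fun _ => v) → χ s = v ∧ deriv χ s = 0 ∧ deriv (deriv χ) s = 0 :=
    fun v s h => ⟨h.self_of_nhds, by rw [h.deriv_eq, deriv_const], by
      rw [h.deriv.deriv_eq, deriv_const', deriv_const]⟩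
  have hl : ∀ s, s ≤ 0 → χ s = 0 ∧ deriv χ s = 0 ∧ deriv (deriv χ) s = 0 := fun s hs =>
    key 0 s ((gt_mem_nhds (show s < 1 / 3 by linarith)).mono fun u hu =>
      Real.smoothTransition.zero_of_nonpos (by linarith))
  have hr : ∀ s, 1 ≤ s → χ s = 1 ∧ deriv χ s = 0 ∧ deriv (deriv χ) s = 0 := fun s hs =>
    key 1 s ((lt_mem_nhds (show 2 / 3 < s by linarith)).mono fun u hu =>
      Real.smoothTransition.one_of_one_le (by linarith))
  obtain ⟨c₁, hc₁⟩ := (isCompact_Icc (a := (0 : ℝ)) (b := 1)).exists_bound_of_continuousOn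
    h1.2.continuous.continuousOn
  obtain ⟨c₂, hc₂⟩ := (isCompact_Icc (a := (0 : ℝ)) (b := 1)).exists_bound_of_continuousOn
    h2.2.continuous.continuousOn
  refine ⟨χ, deriv χ, deriv (deriv χ), |c₁| + |c₂|, fun s => (h1.1 s).hasDerivAt,
    fun s => (h2.1 s).hasDerivAt, fun s => ⟨Real.smoothTransition.nonneg _,
      Real.smoothTransition.le_one _⟩, fun s => ?_, hl, hr⟩
  have := abs_nonneg c₁
  have := abs_nonneg c₂
  rcases le_total s 0 with hs | hs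
  · rw [(hl s hs).2.1, (hl s hs).2.2, abs_zero]; constructor <;> positivity
  rcases le_total 1 s with hs' | hs'
  · rw [(hr s hs').2.1, (hr s hs').2.2, abs_zero]; constructor <;> positivity
  have h3 := hc₁ s ⟨hs, hs'⟩
  have h4 := hc₂ s ⟨hs, hs'⟩
  rw [Real.norm_eq_abs] at h3 h4
  constructor <;> linarith [le_abs_self c₁, le_abs_self c₂]

theorem bd_interp : ∃ (χ : ℝ → ℝ) (c : ℝ), 0 ≤ c ∧ χ 0 = 0 ∧ (∀ s, χ s ∈ Icc (0 : ℝ) 1) ∧
    ∀ (E : Type) [NormedAddCommGroup E] [NormedSpace ℝ E] (f : ℕ → E) (t₀ Th : ℕ),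
      ∃ F F₁ F₂ : ℝ → E, (∀ t, HasDerivAt F (F₁ t) t) ∧ (∀ t, HasDerivAt F₁ (F₂ t) t) ∧
        ∀ m : ℕ, t₀ ≤ m → m ≤ Th → ∀ t ∈ Icc (m : ℝ) (m + 1),
          F t = f m + χ (t - m) • (f (m + 1) - f m) ∧ ‖F₁ t‖ ≤ c * ‖f (m + 1) - f m‖ ∧
            ‖F₂ t‖ ≤ c * ‖f (m + 1) - f m‖ := by
  obtain ⟨χ, χ₁, χ₂, c, h1, h2, h3, h4, hl, hr⟩ := bd_chi
  refine ⟨χ, c, (abs_nonneg _).trans (h4 0).1, (hl 0 le_rfl).1, h3, fun E _ _ f t₀ Th => ?_⟩
  have hd : ∀ φ φ₁ : ℝ → ℝ, (∀ s, HasDerivAt φ (φ₁ s) s) → ∀ t,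
      HasDerivAt (fun t => ∑ j ∈ Finset.Ico t₀ (Th + 1), φ (t - j) • (f (j + 1) - f j))
        (∑ j ∈ Finset.Ico t₀ (Th + 1), φ₁ (t - j) • (f (j + 1) - f j)) t := fun φ φ₁ h t =>
    HasDerivAt.fun_sum fun j _ => ((h _).comp_sub_const t j).smul_const _
  refine ⟨fun t => f t₀ + ∑ j ∈ Finset.Ico t₀ (Th + 1), χ (t - j) • (f (j + 1) - f j), _, _,
    fun t => (hd χ χ₁ h1 t).const_add _, hd χ₁ χ₂ h2, fun m hm hm' t ht => ?_⟩
  have hlt : ∀ j : ℕ, j < m → 1 ≤ t - j := fun j hj => by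
    have : (j : ℝ) + 1 ≤ m := by exact_mod_cast hj
    linarith [ht.1]
  have hgt : ∀ j : ℕ, m < j → t - j ≤ 0 := fun j hj => by
    have : (m : ℝ) + 1 ≤ j := by exact_mod_cast hj
    linarith [ht.2]
  have hs : ∀ φ : ℝ → ℝ, (∀ s, s ≤ 0 → φ s = 0) → (∀ s, 1 ≤ s → φ s = 0) → |φ (t - m)| ≤ c →
      ‖∑ j ∈ Finset.Ico t₀ (Th + 1), φ (t - j) • (f (j + 1) - f j)‖ ≤ c * ‖f (m + 1) - f m‖ :=
    fun φ h5 h6 h7 => by
      rw [Finset.sum_eq_single_of_mem m (Finset.mem_Ico.2 ⟨hm, by omega⟩) fun j _ hj => ?_,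
        norm_smul]
      · exact mul_le_mul_of_nonneg_right h7 (norm_nonneg _)
      · rcases hj.lt_or_gt with h | h
        · rw [h6 _ (hlt j h), zero_smul]
        · rw [h5 _ (hgt j h), zero_smul]
  refine ⟨?_, hs χ₁ (fun s h => (hl s h).2.1) (fun s h => (hr s h).2.1) (h4 _).1,
    hs χ₂ (fun s h => (hl s h).2.2) (fun s h => (hr s h).2.2) (h4 _).2⟩
  beta_reduce
  rw [← Finset.sum_Ico_consecutive _ hm (show m ≤ Th + 1 by omega),
    Finset.sum_eq_sum_Ico_succ_bot (show m < Th + 1 by omega),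
    Finset.sum_eq_zero (s := Finset.Ico (m + 1) _) fun j hj => by
      rw [(hl _ (hgt j (Finset.mem_Ico.1 hj).1)).1, zero_smul],
    Finset.sum_congr rfl fun j hj => by
      rw [(hr _ (hlt j (Finset.mem_Ico.1 hj).2)).1, one_smul],
    Finset.sum_Ico_sub _ hm]
  abel

theorem bd_sqrt {u u' η χ : ℝ} (hu : 1 ≤ u) (hu' : 1 ≤ u') (h : |u' - u| ≤ η)
    (hχ : χ ∈ Icc (0 : ℝ) 1) : |√u' - √u| ≤ η ∧ |(√u + χ * (√u' - √u)) ^ 2 - u| ≤ η := by
  have h1 : 1 ≤ √u := Real.one_le_sqrt.2 hu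
  have h2 : 1 ≤ √u' := Real.one_le_sqrt.2 hu'
  have h3 := Real.sq_sqrt (show 0 ≤ u by linarith)
  have h4 := Real.sq_sqrt (show 0 ≤ u' by linarith)
  obtain ⟨h5, h6⟩ := hχ
  generalize √u = x at *
  generalize √u' = y at *
  subst h3 h4
  rw [abs_le] at h
  rcases le_total x y with hxy | hxy
  · have h7 : 0 ≤ χ * (y - x) := mul_nonneg h5 (by linarith)
    have h8 : χ * (y - x) ≤ y - x := mul_le_of_le_one_left (by linarith) h6
    constructor <;> rw [abs_le] <;> constructor <;> nlinarith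
  · have h7 : 0 ≤ χ * (x - y) := mul_nonneg h5 (by linarith)
    have h8 : χ * (x - y) ≤ x - y := mul_le_of_le_one_left (by linarith) h6
    constructor <;> rw [abs_le] <;> constructor <;> nlinarith

theorem bd_th_pos {t₀ T t : ℝ} (hT : 1 ≤ T) (ht : t₀ ≤ t) : 0 < th t₀ T t :=
  Real.rpow_pos_of_pos (by linarith) _

theorem bd_th_anti {t₀ T s t : ℝ} (hT : 1 ≤ T) (hs : t₀ ≤ s) (hst : s ≤ t) :
    th t₀ T t ≤ th t₀ T s :=
  Real.rpow_le_rpow_of_nonpos (by linarith) (by linarith) (by norm_num)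

theorem bd_th_slow {t₀ T s t : ℝ} (hT : 1 ≤ T) (hs : t₀ ≤ s) (hst : s ≤ t) (k : ℕ) :
    th t₀ T s ^ k ≤ th t₀ T t ^ k * Real.exp (k * ((t - s) / 7)) := by
  rw [Real.exp_nat_mul, ← mul_pow]
  refine pow_le_pow_left₀ (bd_th_pos hT hs).le ?_ k
  have h1 : t - t₀ + T ≤ (s - t₀ + T) * Real.exp (t - s) := by
    nlinarith [Real.add_one_le_exp (t - s), mul_nonneg (show 0 ≤ s - t₀ + T - 1 by linarith)
      (show 0 ≤ t - s by linarith)]
  have h2 := Real.rpow_le_rpow_of_nonpos (by linarith) h1 (show -(1 / 7 : ℝ) ≤ 0 by norm_num)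
  rw [Real.mul_rpow (by linarith) (Real.exp_pos _).le, ← Real.exp_mul] at h2
  have h3 := mul_le_mul_of_nonneg_right h2 (Real.exp_pos ((t - s) / 7)).le
  rwa [mul_assoc, ← Real.exp_add, show (t - s) * -(1 / 7) + (t - s) / 7 = 0 by ring, Real.exp_zero,
    mul_one] at h3

theorem bd_th_three {t₀ T s t : ℝ} (hT : 1 ≤ T) (hs : t₀ ≤ s) (ht : t ∈ Icc s (s + 1)) {k : ℕ}
    (hk : k ≤ 7) : th t₀ T s ^ k ≤ 3 * th t₀ T t ^ k := by
  refine (bd_th_slow hT hs ht.1 k).trans ?_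
  rw [mul_comm]
  refine mul_le_mul_of_nonneg_right ?_ (pow_pos (bd_th_pos hT (hs.trans ht.1)) k).le
  refine (Real.exp_le_exp.2 ?_).trans Real.exp_one_lt_three.le
  have : (k : ℝ) ≤ 7 := by exact_mod_cast hk
  nlinarith [ht.1, ht.2]

theorem bd_th_small {η : ℝ} (hη : 0 < η) : ∃ T₀ : ℝ, 1 ≤ T₀ ∧ ∀ t₀ T t : ℝ, T₀ ≤ T → t₀ ≤ t →
    th t₀ T t ≤ η := by
  obtain ⟨T₀, h⟩ := eventually_atTop.1 ((tendsto_rpow_neg_atTop (y := 1 / 7) (by norm_num)).eventually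
    (ge_mem_nhds hη))
  exact ⟨max 1 T₀, le_max_left _ _, fun t₀ T t hT ht => h _ (by linarith [le_max_right 1 T₀])⟩

variable {n : ℕ} {J : Type} (b : Base n J)

theorem Base.bd_sqrt_pos (k : J) : 0 < √(b.lam k) := Real.sqrt_pos.2 (by linarith [b.two_le_lam k])

theorem Base.bd_mul_self (k : J) : √(b.lam k) * √(b.lam k) = b.lam k :=
  Real.mul_self_sqrt (by linarith [b.two_le_lam k])

/-- `D⁻¹` followed by the restriction to `S` -/
def Base.tr (S : Finset J) : H J →ₗ[ℝ] EuclideanSpace ℝ S where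
  toFun y := WithLp.toLp 2 fun k => y k / √(b.lam k)
  map_add' x y := by ext k; simp [add_div]
  map_smul' c x := by ext k; simp [mul_div_assoc]

theorem Base.tr_apply (S : Finset J) (y : H J) (k : S) : b.tr S y k = y k / √(b.lam k) := rfl

open Classical in
/-- extension by zero followed by `D` -/
def Base.ex (S : Finset J) (h : EuclideanSpace ℝ S) : H J :=
  ∑ k : S, (√(b.lam k) * h k) • lp.single 2 (k : J) (1 : ℝ)

variable {S : Finset J}

theorem Base.inner_ex (y : H J) (h : EuclideanSpace ℝ S) :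
    ⟪y, b.ex S h⟫_ℝ = ∑ k : S, y k * (√(b.lam k) * h k) := by
  simp only [Base.ex, inner_sum, real_inner_smul_right, lp.inner_single_right]
  exact Finset.sum_congr rfl fun k _ => by simp [mul_comm]

theorem Base.map_ex (B : H J →L[ℝ] H J) (h : EuclideanSpace ℝ S) (k : J) :
    B (b.ex S h) k = ∑ k₁ : S, √(b.lam k₁) * h k₁ * ent B k k₁ := by
  simp only [Base.ex, map_sum, map_smul, lp.coeFn_sum, Finset.sum_apply, lp.coeFn_smul,
    Pi.smul_apply, smul_eq_mul, ent]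

theorem Base.ex_apply (h : EuclideanSpace ℝ S) (k : S) : b.ex S h k = √(b.lam k) * h k := by
  classical
  simp only [Base.ex, lp.coeFn_sum, Finset.sum_apply, lp.coeFn_smul, Pi.smul_apply, smul_eq_mul]
  rw [Finset.sum_eq_single k (fun k₁ _ hk => by
    rw [lp.single_apply_ne _ _ _ (fun h => hk (Subtype.ext h).symm), mul_zero]) (by simp),
    lp.single_apply_self, mul_one]

theorem Base.ex_apply_of_notMem (h : EuclideanSpace ℝ S) {k : J} (hk : k ∉ S) : b.ex S h k = 0 := by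
  classical
  simp only [Base.ex, lp.coeFn_sum, Finset.sum_apply, lp.coeFn_smul, Pi.smul_apply, smul_eq_mul]
  exact Finset.sum_eq_zero fun k₁ _ => by
    rw [lp.single_apply_ne _ _ _ (fun h : k = k₁ => hk (h ▸ k₁.2)), mul_zero]

theorem Base.mass_ex (y : H J) (h : EuclideanSpace ℝ S) :
    b.mass y (b.ex S h) = ⟪b.tr S y, h⟫_ℝ := by
  rw [Base.mass, b.inner_ex, PiLp.inner_apply]
  refine Finset.sum_congr rfl fun k _ => ?_
  have := b.bd_sqrt_pos k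
  rw [b.K_apply, b.tr_apply, ← b.bd_mul_self k, Real.sqrt_mul_self this.le]
  simp only [RCLike.inner_apply, conj_trivial]
  field_simp

theorem Base.tr_ex (h : EuclideanSpace ℝ S) : b.tr S (b.ex S h) = h := by
  ext k
  rw [b.tr_apply, b.ex_apply, mul_div_cancel_left₀ _ (b.bd_sqrt_pos k).ne']

theorem Base.mass_ex_ex (h h' : EuclideanSpace ℝ S) : b.mass (b.ex S h) (b.ex S h') = ⟪h, h'⟫_ℝ := by
  rw [b.mass_ex, b.tr_ex]

theorem Base.ex_tr_apply (y : H J) {k : J} (hk : k ∈ S) : b.ex S (b.tr S y) k = y k := by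
  rw [b.ex_apply _ ⟨k, hk⟩, b.tr_apply, mul_div_cancel₀ _ (b.bd_sqrt_pos k).ne']

theorem Base.norm_ex_tr_le (y : H J) : ‖b.ex S (b.tr S y)‖ ≤ ‖y‖ :=
  lp.norm_mono (by norm_num) fun k => by
    by_cases hk : k ∈ S
    · rw [b.ex_tr_apply y hk]
    · rw [b.ex_apply_of_notMem _ hk, norm_zero]; exact norm_nonneg _

theorem Base.ex_tr_add (x y : H J) :
    b.ex S (b.tr S (x + y)) = b.ex S (b.tr S x) + b.ex S (b.tr S y) := by
  ext k
  by_cases hk : k ∈ S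
  · simp only [lp.coeFn_add, Pi.add_apply, b.ex_tr_apply _ hk]
  · simp only [lp.coeFn_add, Pi.add_apply, b.ex_apply_of_notMem _ hk, add_zero]

theorem Base.norm_tr_le (y : H J) : ‖b.tr S y‖ ≤ ‖y‖ := by
  have h1 := b.mass_le (b.ex S (b.tr S y))
  rw [b.mass_ex_ex, real_inner_self_eq_norm_sq] at h1
  have h2 := pow_le_pow_left₀ (norm_nonneg _) (b.norm_ex_tr_le (S := S) y) 2
  exact (abs_le_of_sq_le_sq' (by nlinarith [sq_nonneg ‖b.tr S y‖]) (norm_nonneg _)).2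

theorem Base.norm_K_le : ‖b.K‖ ≤ 2 :=
  ContinuousLinearMap.opNorm_le_bound _ zero_le_two fun x => by
    refine le_trans (lp.norm_mono (by norm_num) fun k => ?_)
      (show ‖x‖ ≤ 2 * ‖x‖ by linarith [norm_nonneg x])
    have := b.two_le_lam k
    rw [b.K_apply, norm_mul, Real.norm_of_nonneg (by positivity)]
    exact mul_le_of_le_one_left (norm_nonneg _) (inv_le_one_of_one_le₀ (by linarith))

/-- `‖D y‖ ≤ R` -/
def Base.Wt (y : H J) (R : ℝ) : Prop := ∀ s : Finset J, ∑ k ∈ s, b.lam k * y k ^ 2 ≤ R ^ 2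

theorem Base.Wt.norm_le {b : Base n J} {y : H J} {R : ℝ} (h : b.Wt y R) (hR : 0 ≤ R) : ‖y‖ ≤ R :=
  lp.norm_le_of_forall_sum_le (by norm_num) hR fun s => by
    simp only [ENNReal.toReal_ofNat, Real.rpow_ofNat, Real.norm_eq_abs, sq_abs]
    exact le_trans (Finset.sum_le_sum fun k _ =>
      le_mul_of_one_le_left (sq_nonneg _) (by linarith [b.two_le_lam k])) (h s)

theorem Base.Wt.mono {b : Base n J} {y : H J} {R R' : ℝ} (h : b.Wt y R) (hR : 0 ≤ R)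
    (hR' : R ≤ R') : b.Wt y R' := fun s => (h s).trans (pow_le_pow_left₀ hR hR' 2)

theorem Base.bd_mem_low {N : ℕ} {k : J} : k ∈ b.low N ↔ b.deg k ≤ N := by simp [Base.low]

theorem Base.bd_weight {d N : ℕ} {A : H J →L[ℝ] H J} (hA : b.Banded d A) {y : H J} {R : ℝ}
    (hR : 0 ≤ R) (hy : b.Wt y R) (h : EuclideanSpace ℝ (b.low N)) :
    |⟪A y, b.ex _ h⟫_ℝ| ≤ (2 * d + 1) * (d + 1) * ‖A‖ * R * ‖h‖ := by
  have h1 := b.band_mul_le hA
    (fun p p₁ => √((p : ℝ) * (p + n - 2)) / √((p₁ : ℝ) * (p₁ + n - 2))) (R := d + 1) (by positivity)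
    (fun p p₁ h1 _ => by
      have h3 : (3 : ℝ) ≤ n := by exact_mod_cast b.hn
      rcases p₁.eq_zero_or_pos with rfl | hp
      · simp; positivity
      have h4 : (1 : ℝ) ≤ p₁ := by exact_mod_cast hp
      have h5 : (p : ℝ) ≤ p₁ + d := by exact_mod_cast h1
      have h6 : (0 : ℝ) ≤ d := d.cast_nonneg
      have h7 : (0 : ℝ) ≤ p := p.cast_nonneg
      rw [abs_of_nonneg (by positivity), ← Real.sqrt_div (by nlinarith), Real.sqrt_le_left (by
        positivity), div_le_iff₀ (by nlinarith)]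
      calc (p : ℝ) * (p + n - 2) ≤ ((d + 1) * p₁) * ((d + 1) * (p₁ + n - 2)) :=
            mul_le_mul (by nlinarith) (by nlinarith) (by linarith) (by positivity)
        _ = _ := by ring)
    (b.low N) (b.low (N + d)) (fun k => √(b.lam k) * y k) fun k => b.ex _ h k / √(b.lam k)
  have h2 : ∑ k ∈ b.low N, (b.ex _ h k / √(b.lam k)) ^ 2 = ‖h‖ ^ 2 := by
    rw [EuclideanSpace.real_norm_sq_eq, ← Finset.sum_coe_sort]
    exact Finset.sum_congr rfl fun k _ => by rw [← b.tr_apply, b.tr_ex]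
  have h3 : √(∑ k ∈ b.low (N + d), (√(b.lam k) * y k) ^ 2) ≤ R := by
    rw [Real.sqrt_le_left hR]
    refine le_of_eq_of_le (Finset.sum_congr rfl fun k _ => ?_) (hy (b.low (N + d)))
    rw [mul_pow, sq, b.bd_mul_self]
  rw [h2, Real.sqrt_sq (norm_nonneg _), ← Finset.sum_coe_sort] at h1
  rw [b.inner_ex, mul_right_comm _ R]
  refine le_of_eq_of_le (congrArg _ (Finset.sum_congr rfl fun k _ => ?_))
    (h1.trans (mul_le_mul_of_nonneg_left h3 (by positivity)))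
  rw [(ent_hasSum A y k).unique (hasSum_sum_of_ne_finset_zero (s := b.low (N + d)) fun k₁ hk₁ => by
    have := b.bd_mem_low.1 k.2
    rw [b.bd_mem_low] at hk₁
    rw [hA k k₁ (Or.inl (by omega)), zero_mul]), Finset.sum_mul]
  refine Finset.sum_congr rfl fun k₁ _ => ?_
  have := b.bd_sqrt_pos k
  have := b.bd_sqrt_pos k₁
  change _ = _ * (√(b.lam k) / √(b.lam k₁) * _) * _
  rw [b.ex_apply]
  field_simp

theorem bd_pert {A : H J →L[ℝ] H J} (hA : ‖A‖ ≤ 2) {x y x' y' : H J} {R η : ℝ} (hx : ‖x‖ ≤ R)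
    (hy : ‖y'‖ ≤ R) (h1 : ‖x' - x‖ ≤ η) (h2 : ‖y' - y‖ ≤ η) :
    |⟪A x', y'⟫_ℝ - ⟪A x, y⟫_ℝ| ≤ 4 * R * η := by
  have e : ⟪A x', y'⟫_ℝ - ⟪A x, y⟫_ℝ = ⟪A (x' - x), y'⟫_ℝ + ⟪A x, y' - y⟫_ℝ := by
    rw [map_sub, inner_sub_left, inner_sub_right]; ring
  have h3 : ∀ {u v : H J} {r s : ℝ}, ‖u‖ ≤ r → ‖v‖ ≤ s → |⟪A u, v⟫_ℝ| ≤ 2 * r * s :=
    fun {u v r s} hu hv => (abs_real_inner_le_norm _ _).trans (mul_le_mul
      (A.le_of_opNorm_le_of_le hA hu) hv (norm_nonneg _)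
        (mul_nonneg zero_le_two ((norm_nonneg _).trans hu)))
  rw [e]
  linarith [abs_add_le ⟪A (x' - x), y'⟫_ℝ ⟪A x, y' - y⟫_ℝ, h3 h1 hy, h3 hx h2]

theorem Base.bd_high {M : ℕ} {B : H J →L[ℝ] H J} (hB : Adm B) {Y : Fin M → H J} {l : Fin M → ℝ}
    (hY : b.EigFam B Y l) {μ : ℝ}
    (hh : ∀ y, (∀ a, b.mass (Y a) y = 0) → μ * b.mass y y ≤ ⟪B y, y⟫_ℝ) (y : H J) :
    μ * (b.mass y y - ∑ a, b.mass (Y a) y ^ 2) ≤ ⟪B y, y⟫_ℝ := by
  set z := ∑ a, b.mass (Y a) y • Y a with hz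
  have h1 : ∀ a, b.mass (Y a) (y - z) = 0 := fun a => by
    have := hY.orth a
    simp only [Base.mass] at this ⊢
    simp only [hz, Base.mass, inner_sub_right, inner_sum, real_inner_smul_right, this]
    simp
  have h2 : b.mass z (y - z) = 0 := by
    simp only [Base.mass] at h1 ⊢
    conv_lhs => congr; rw [hz]
    simp only [map_sum, map_smul, sum_inner, real_inner_smul_left, h1, mul_zero,
      Finset.sum_const_zero]
  have h3 : ⟪B z, y - z⟫_ℝ = 0 := by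
    simp only [Base.mass] at h1
    conv_lhs => congr; rw [hz]
    simp only [map_sum, map_smul, sum_inner, real_inner_smul_left, hY.eig, h1, mul_zero,
      Finset.sum_const_zero]
  have h4 : b.mass z y = ∑ a, b.mass (Y a) y ^ 2 := by
    simp only [hz, Base.mass, map_sum, map_smul, sum_inner, real_inner_smul_left, sq]
  have h5 := hh _ h1
  have h6 : b.mass (y - z) (y - z) = b.mass y y - b.mass z y := by
    rw [← b.mass_symm y z]
    simp only [Base.mass] at h2 ⊢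
    rw [map_sub, inner_sub_left, h2, inner_sub_right, sub_zero]
  have h7 : ⟪B y, y⟫_ℝ = ⟪B (y - z), y - z⟫_ℝ + ⟪B z, z⟫_ℝ := by
    conv_lhs => rw [← sub_add_cancel y z, map_add, inner_add_left, inner_add_right, inner_add_right,
      h3, hB.1 (y - z) z, real_inner_comm (B z), h3]
    ring
  rw [h6, h4] at h5
  linarith [(hB.2 z).1, sq_nonneg ‖z‖]

end Crest.Agent.R202
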