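import Crest.Agent.R202.EvExists

/-!
# Consequences of the spectral decomposition (task A3)
-/

set_option autoImplicit false

noncomputable section

open scoped InnerProductSpace ContDiff
open Set Filter Topology

namespace Crest.Agent.R202


variable {n : ℕ} {J : Type} (b : Base n J)

theorem Base.spec_inf (b : Base n J) : (univ : Set J).Infinite := by
  have := b.inf
  exact Set.infinite_univ

theorem spec_supp (x : H J) : Supp univ x := fun k hk => absurd (mem_univ k) hk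

theorem spec_inv (B : H J →L[ℝ] H J) : Inv univ B := fun _ _ => spec_supp _

theorem Base.spec_nonneg (x : H J) : 0 ≤ b.mass x x := by
  by_cases hx : x = 0
  · simp [hx, Base.mass]
  · exact (b.mass_pos hx).le

theorem Base.spec_eig {B : H J →L[ℝ] H J} {x : H J} {l : ℝ} (hx : B x = l • b.K x) (y : H J) :
    ⟪B x, y⟫_ℝ = l * b.mass x y := by
  rw [hx, real_inner_smul_left, Base.mass]

theorem Base.spec_K (x : H J) : ‖b.K x‖ ≤ ‖x‖ := by
  refine lp.norm_mono (by norm_num) fun k => ?_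
  have := b.two_le_lam k
  rw [Base.K_apply, norm_mul]
  refine mul_le_of_le_one_left (norm_nonneg _) ?_
  rw [Real.norm_eq_abs, abs_of_pos (by positivity)]
  exact inv_le_one_of_one_le₀ (by linarith)

/-- the quadratic form of a diagonal family -/
theorem spec_form {I : Type} [Fintype I] [DecidableEq I] (A : H J →L[ℝ] H J) {V : I → H J} {l : I → ℝ}
    (h : ∀ i k, ⟪A (V i), V k⟫_ℝ = if i = k then l i else 0) (c : I → ℝ) :
    ⟪A (∑ i, c i • V i), ∑ i, c i • V i⟫_ℝ = ∑ i, l i * c i ^ 2 := by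
  rw [map_sum, sum_inner]
  refine Finset.sum_congr rfl fun i _ => ?_
  rw [map_smul, real_inner_smul_left, inner_sum]
  simp only [real_inner_smul_right, h, mul_ite, mul_zero, Finset.sum_ite_eq, Finset.mem_univ, if_true]
  ring

theorem Base.spec_ev_le {B : H J →L[ℝ] H J} (hB : Adm B) {I : Type} [Fintype I] [DecidableEq I]
    {V : I → H J} {l : I → ℝ} (hm : ∀ i k, b.mass (V i) (V k) = if i = k then 1 else 0)
    (hb : ∀ i k, ⟪B (V i), V k⟫_ℝ = if i = k then l i else 0) {j : ℕ} (hj : j + 1 ≤ Fintype.card I) {t : ℝ}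
    (ht : ∀ i, l i ≤ t) : b.ev B univ j ≤ t := by
  have hli : LinearIndependent ℝ V := by
    rw [Fintype.linearIndependent_iff]
    intro c hc i
    have h1 := spec_form b.K (l := fun _ => 1) hm c
    rw [hc, inner_zero_right] at h1
    have h2 := (Finset.sum_eq_zero_iff_of_nonneg fun i _ => by positivity).1 h1.symm i (Finset.mem_univ i)
    simpa using h2
  refine b.ev_le hB (Submodule.span ℝ (range V)) (by rw [finrank_span_eq_card hli]; exact hj) fun y hy => ?_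
  obtain ⟨c, rfl⟩ := (Submodule.mem_span_range_iff_exists_fun ℝ).1 hy
  refine ⟨spec_supp _, ?_⟩
  rw [spec_form B hb, Base.mass, spec_form b.K (l := fun _ => 1) hm, Finset.mul_sum]
  refine Finset.sum_le_sum fun i _ => ?_
  rw [one_mul]
  exact mul_le_mul_of_nonneg_right (ht i) (sq_nonneg _)

theorem Base.EigFam.spec_form {B : H J →L[ℝ] H J} {I : Type} [DecidableEq I] {V : I → H J} {l : I → ℝ}
    (hV : b.EigFam B V l) (i k : I) : ⟪B (V i), V k⟫_ℝ = if i = k then l i else 0 := by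
  rw [b.spec_eig (hV.eig i), hV.orth]; simp

/-- expansion of a vector along an eigenfamily -/
theorem Base.spec_decomp {B : H J →L[ℝ] H J} (hB : Adm B) {I : Type} [Fintype I] [DecidableEq I]
    {V : I → H J} {l : I → ℝ} (hV : b.EigFam B V l) (y : H J) :
    ∃ r : H J, (∀ i, b.mass (V i) r = 0) ∧ b.mass y y = ∑ i, b.mass (V i) y ^ 2 + b.mass r r ∧
      ⟪B y, y⟫_ℝ = ∑ i, l i * b.mass (V i) y ^ 2 + ⟪B r, r⟫_ℝ ∧ b.mass y r = b.mass r r ∧
      ⟪B y, r⟫_ℝ = ⟪B r, r⟫_ℝ := by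
  set u := ∑ i, b.mass (V i) y • V i with hu
  have h0 : ∀ i, b.mass (V i) (y - u) = 0 := by
    intro i
    have : b.mass (V i) u = b.mass (V i) y := by
      rw [hu, Base.mass, inner_sum]
      simp only [real_inner_smul_right]
      have e : ∀ k, ⟪b.K (V i), V k⟫_ℝ = if i = k then 1 else 0 := hV.orth i
      simp [e]
    rw [Base.mass, inner_sub_right]
    exact sub_eq_zero.2 this.symm
  have h1 : b.mass u (y - u) = 0 := by
    rw [hu, Base.mass, map_sum, sum_inner]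
    refine Finset.sum_eq_zero fun i _ => ?_
    rw [map_smul, real_inner_smul_left, ← hu]
    exact mul_eq_zero_of_right _ (h0 i)
  have h2 : ⟪B u, y - u⟫_ℝ = 0 := by
    conv_lhs => rw [hu, map_sum, sum_inner]
    refine Finset.sum_eq_zero fun i _ => ?_
    rw [map_smul, real_inner_smul_left, ← hu, b.spec_eig (hV.eig i), h0 i, mul_zero, mul_zero]
  have h3 := spec_form b.K (l := fun _ => 1) hV.orth fun i => b.mass (V i) y
  have h4 := spec_form B (hV.spec_form b) fun i => b.mass (V i) y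
  rw [← hu] at h3 h4
  simp only [one_mul] at h3
  generalize hr : y - u = r at h0 h1 h2
  have hy : y = u + r := by rw [← hr]; abel
  have h1' : ⟪b.K r, u⟫_ℝ = 0 := (b.mass_symm r u).trans h1
  have h2' : ⟪B r, u⟫_ℝ = 0 := by rw [hB.1, real_inner_comm]; exact h2
  rw [Base.mass] at h1
  refine ⟨r, h0, ?_, ?_, ?_, ?_⟩
  · rw [← h3]
    conv_lhs => rw [hy]
    simp only [Base.mass, map_add, inner_add_left, inner_add_right, h1, h1']
    ring
  · rw [← h4]
    conv_lhs => rw [hy]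
    simp only [map_add, inner_add_left, inner_add_right, h2, h2']
    ring
  · conv_lhs => rw [hy]
    simp only [Base.mass, map_add, inner_add_left, h1, zero_add]
  · conv_lhs => rw [hy]
    simp only [map_add, inner_add_left, h2, zero_add]

/-- eigenvectors for different eigenvalues are orthogonal -/
theorem Base.mass_eq_zero {B : H J →L[ℝ] H J} (hB : Adm B) {x y : H J} {l l₁ : ℝ}
    (hx : B x = l • b.K x) (hy : B y = l₁ • b.K y) (h : l ≠ l₁) : b.mass x y = 0 := by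
  have h1 := b.spec_eig hx y
  rw [hB.1, real_inner_comm, b.spec_eig hy, b.mass_symm y x] at h1
  have h2 : (l - l₁) * b.mass x y = 0 := by linarith
  exact (mul_eq_zero.1 h2).resolve_left (sub_ne_zero.2 h)

theorem Base.eig_dichotomy {B : H J →L[ℝ] H J} (hB : Adm B) {x : H J} {l : ℝ} (hx0 : x ≠ 0)
    (hx : B x = l • b.K x) (j : ℕ) : l ≤ b.ev B univ j ∨ b.ev B univ (j + 1) ≤ l := by
  by_cases hl : l ≤ b.ev B univ j
  · exact Or.inl hl
  right
  obtain ⟨V, hV, -, hc⟩ := b.exists_eig hB b.spec_inf (spec_inv B) (j + 1)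
  have h1 := hc x (spec_supp _) fun i => b.mass_eq_zero hB (hV.eig i) hx (by
    have := b.ev_mono hB b.spec_inf (Nat.le_of_lt_succ i.2)
    intro h
    exact hl (h ▸ this))
  rw [b.spec_eig hx] at h1
  exact le_of_mul_le_mul_right h1 (b.mass_pos hx0)

/-- `m` orthonormal eigenvectors below the `m`-th eigenvalue span the low space -/
theorem Base.eigFam_gap {B : H J →L[ℝ] H J} (hB : Adm B) {I : Type} [Fintype I] [DecidableEq I]
    {V : I → H J} {l : I → ℝ} (hV : b.EigFam B V l)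
    (hl : ∀ i, l i < b.ev B univ (Fintype.card I)) (y : H J) (hy : ∀ i, b.mass (V i) y = 0) :
    b.ev B univ (Fintype.card I) * b.mass y y ≤ ⟪B y, y⟫_ℝ := by
  by_cases hy0 : y = 0
  · simp [hy0, Base.mass]
  have hm := b.mass_pos hy0
  by_contra hc
  set a := (√(b.mass y y))⁻¹ with ha
  have ha2 : a * a * b.mass y y = 1 := by
    rw [ha, ← mul_inv, Real.mul_self_sqrt hm.le, inv_mul_cancel₀ hm.ne']
  let W : Option I → H J := fun o => o.elim (a • y) V
  let l' : Option I → ℝ := fun o => o.elim (a * a * ⟪B y, y⟫_ℝ) l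
  have hl' : ∀ o, l' o < b.ev B univ (Fintype.card I) := by
    rintro (_ | i)
    · change a * a * ⟪B y, y⟫_ℝ < _
      have h1 := mul_lt_mul_of_pos_left (lt_of_not_ge hc) (by
        have : 0 < a := by positivity
        positivity : 0 < a * a)
      calc a * a * ⟪B y, y⟫_ℝ < a * a * (b.ev B univ (Fintype.card I) * b.mass y y) := h1
        _ = b.ev B univ (Fintype.card I) * (a * a * b.mass y y) := by ring
        _ = _ := by rw [ha2, mul_one]
    · exact hl i
  obtain ⟨o, ho⟩ := Finite.exists_max l'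
  refine absurd (b.spec_ev_le hB (V := W) (l := l') ?_ ?_ (by simp) ho) (not_le.2 (hl' o))
  · rintro (_ | i) (_ | k)
    · simp only [W, Option.elim, Base.mass, map_smul, real_inner_smul_left, real_inner_smul_right, if_true]
      rw [← mul_assoc]; exact ha2
    · have := (b.mass_symm y (V k)).trans (hy k)
      simp only [Base.mass] at this
      simp [W, Base.mass, real_inner_smul_left, this]
    · have := hy i
      simp only [Base.mass] at this
      simp [W, Base.mass, real_inner_smul_right, this]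
    · simpa [W] using hV.orth i k
  · rintro (_ | i) (_ | k)
    · simp only [W, l', Option.elim, map_smul, real_inner_smul_left, real_inner_smul_right, if_true]
      ring
    · have : ⟪B y, V k⟫_ℝ = 0 := by rw [hB.1, real_inner_comm, b.spec_eig (hV.eig k), hy k, mul_zero]
      simp [W, real_inner_smul_left, this]
    · have : ⟪B (V i), y⟫_ℝ = 0 := by rw [b.spec_eig (hV.eig i), hy i, mul_zero]
      simp [W, real_inner_smul_right, this]
    · simpa [W, l'] using hV.spec_form b i k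

/-- a monotone eigenfamily whose complement lies above it lists the min-max values -/
theorem Base.eigFam_ev {B : H J →L[ℝ] H J} (hB : Adm B) {m : ℕ} {V : Fin m → H J} {l : Fin m → ℝ}
    (hV : b.EigFam B V l) (hl : Monotone l) {t : ℝ} (ht : ∀ i, l i ≤ t)
    (h : ∀ y, (∀ i, b.mass (V i) y = 0) → t * b.mass y y ≤ ⟪B y, y⟫_ℝ) :
    (∀ i : Fin m, b.ev B univ i = l i) ∧ t ≤ b.ev B univ m := by
  refine ⟨fun i => le_antisymm ?_ ?_,
    b.le_ev hB b.spec_inf (I := Fin m) (by simp) V fun y _ hy => h y hy⟩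
  · have hi : (i : ℕ) + 1 ≤ m := i.2
    refine b.spec_ev_le hB (V := fun k : Fin (i + 1) => V (Fin.castLE hi k))
      (l := fun k => l (Fin.castLE hi k)) (fun a c => ?_) (fun a c => ?_) (by simp) fun k => hl ?_
    · simp [hV.orth]
    · simp [hV.spec_form b]
    · exact Nat.le_of_lt_succ k.2
  · refine b.le_ev hB b.spec_inf (I := Fin i) (by simp) (fun k => V (Fin.castLE i.2.le k)) fun y _ hy => ?_
    obtain ⟨r, r0, r1, r2, -, -⟩ := b.spec_decomp hB hV y
    rw [r1, r2, mul_add, Finset.mul_sum]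
    refine add_le_add (Finset.sum_le_sum fun k _ => ?_)
      ((mul_le_mul_of_nonneg_right (ht i) (b.spec_nonneg r)).trans (h r r0))
    rcases lt_or_ge k i with hk | hk
    · have : b.mass (V k) y = 0 := hy ⟨k, hk⟩
      simp [this]
    · exact mul_le_mul_of_nonneg_right (hl hk) (sq_nonneg _)

/-- at most `j` orthonormal eigenvectors lie strictly below `ev j` -/
theorem Base.eigFam_card_le {B : H J →L[ℝ] H J} (hB : Adm B) {I : Type} [Fintype I]
    [DecidableEq I] {V : I → H J} {l : I → ℝ} (hV : b.EigFam B V l) {j : ℕ}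
    (hl : ∀ i, l i < b.ev B univ j) : Fintype.card I ≤ j := by
  by_contra hc
  have hc' : j + 1 ≤ Fintype.card I := by omega
  have : Nonempty I := Fintype.card_pos_iff.1 (by omega)
  obtain ⟨o, ho⟩ := Finite.exists_max l
  exact absurd (b.spec_ev_le hB hV.orth (hV.spec_form b) hc' ho) (not_le.2 (hl o))

theorem Base.spec_norm {B : H J →L[ℝ] H J} (hB : Adm B) {x : H J} {l : ℝ} (hx : B x = l • b.K x)
    (h1 : b.mass x x = 1) : ‖x‖ ^ 2 ≤ 2 * l := by
  have := (hB.2 x).1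
  rw [b.spec_eig hx, h1] at this
  linarith

theorem Base.spec_two {B : H J →L[ℝ] H J} (hB : Adm B) (j : ℕ) : b.ev B univ j ≤ 2 * b.ev 1 univ j :=
  b.ev_le_mul adm_one hB b.spec_inf two_pos (fun y _ => by
    rw [one_apply_eq_self, real_inner_self_eq_norm_sq]; exact (hB.2 y).2) j

theorem Base.spec_sign {x y : H J} (hx : b.mass x x = 1) (hy : b.mass y y = 1) {t : ℝ}
    (h0 : b.mass x y ^ 2 ≤ 1) (h : 2 * (1 - b.mass x y ^ 2) ≤ t ^ 2) : b.Near x y t := by
  have e : ∀ s : ℝ, b.mass (y - s • x) (y - s • x) = 1 - 2 * s * b.mass x y + s ^ 2 := by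
    intro s
    have h1 := b.mass_symm y x
    simp only [Base.mass] at hx hy h1 ⊢
    simp only [map_sub, map_smul, inner_sub_left, inner_sub_right, real_inner_smul_left,
      real_inner_smul_right, hx, hy, h1]
    ring
  obtain ⟨h1, h2⟩ := abs_le.1 ((sq_le_one_iff_abs_le_one _).1 h0)
  rcases le_total 0 (b.mass x y) with ha | ha
  · exact ⟨1, Or.inl rfl, by rw [e]; nlinarith⟩
  · exact ⟨-1, Or.inr rfl, by rw [e]; nlinarith⟩

/-- eigenvectors of simple eigenvalues of close operators are close up to sign -/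
theorem Base.near_of_gap (j : ℕ) {γ : ℝ} (hγ : 0 < γ) : ∃ C : ℝ, 0 < C ∧
    ∀ (B B₁ : H J →L[ℝ] H J), Adm B → Adm B₁ →
      (∀ i, i < j → b.ev B univ i + γ ≤ b.ev B univ j) →
      b.ev B univ j + γ ≤ b.ev B univ (j + 1) →
      ∀ x y : H J, B x = b.ev B univ j • b.K x → b.mass x x = 1 →
        B₁ y = b.ev B₁ univ j • b.K y → b.mass y y = 1 → b.Near x y (C * ‖B - B₁‖) := by
  have hΛ1 : 1 ≤ b.ev 1 univ j := b.one_le_ev adm_one b.spec_inf j
  obtain ⟨Λ, hΛ⟩ : ∃ Λ, b.ev 1 univ j = Λ := ⟨_, rfl⟩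
  rw [hΛ] at hΛ1
  obtain ⟨D, hD⟩ : ∃ D : ℝ, D = 2 * (j * (4 * Λ / γ ^ 2) + 2 * (1 + 2 * Λ / γ) / γ) := ⟨_, rfl⟩
  obtain ⟨E, hE⟩ : ∃ E : ℝ, E = (1 + 4 * Λ) ^ 2 * (4 * Λ) := ⟨_, rfl⟩
  have hD0 : 0 ≤ D := by rw [hD]; positivity
  have hE0 : 0 ≤ E := by rw [hE]; positivity
  refine ⟨D * E + 1, by positivity, fun B B₁ hB hB₁ hlo hhi x y hx hx1 hy hy1 => ?_⟩
  have hlip := b.ev_lip hB₁ hB b.spec_inf j
  have hl2 := b.spec_two hB j
  have hμ2 := b.spec_two hB₁ j
  rw [hΛ] at hlip hl2 hμ2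
  rw [norm_sub_rev] at hlip
  have hy2 := b.spec_norm hB₁ hy hy1
  obtain ⟨g, hg⟩ : ∃ g, g = B y - b.ev B univ j • b.K y := ⟨_, rfl⟩
  have hG : ‖g‖ ^ 2 ≤ E * ‖B - B₁‖ ^ 2 := by
    have e : g = (B - B₁) y + (b.ev B₁ univ j - b.ev B univ j) • b.K y := by
      rw [hg, sub_apply, hy, sub_smul]; abel
    have h1 : ‖g‖ ≤ (1 + 4 * Λ) * ‖B - B₁‖ * ‖y‖ := by
      rw [e]
      refine (norm_add_le _ _).trans ?_
      have h2 := (B - B₁).le_opNorm y
      have h3 : ‖(b.ev B₁ univ j - b.ev B univ j) • b.K y‖ ≤ 4 * Λ * ‖B - B₁‖ * ‖y‖ := by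
        rw [norm_smul]
        exact mul_le_mul hlip (b.spec_K y) (norm_nonneg _) (by positivity)
      linarith
    calc ‖g‖ ^ 2 ≤ ((1 + 4 * Λ) * ‖B - B₁‖ * ‖y‖) ^ 2 := pow_le_pow_left₀ (norm_nonneg _) h1 2
      _ = ((1 + 4 * Λ) * ‖B - B₁‖) ^ 2 * ‖y‖ ^ 2 := by ring
      _ ≤ ((1 + 4 * Λ) * ‖B - B₁‖) ^ 2 * (4 * Λ) := mul_le_mul_of_nonneg_left (by linarith) (sq_nonneg _)
      _ = _ := by rw [hE]; ring
  have hgv : ∀ v, ⟪g, v⟫_ℝ = ⟪B y, v⟫_ℝ - b.ev B univ j * b.mass y v := fun v => by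
    rw [hg, inner_sub_left, real_inner_smul_left, Base.mass]
  have hcs : ∀ v, ⟪g, v⟫_ℝ ^ 2 ≤ ‖g‖ ^ 2 * ‖v‖ ^ 2 := fun v => by
    rw [← mul_pow, ← sq_abs]
    exact pow_le_pow_left₀ (abs_nonneg _) (abs_real_inner_le_norm _ _) 2
  obtain ⟨V, hV, -, -⟩ := b.exists_eig hB b.spec_inf (spec_inv B) j
  have hxV : ∀ i, b.mass x (V i) = 0 := fun i => b.mass_eq_zero hB hx (hV.eig i) (by
    have := hlo i i.2
    intro h
    linarith)
  let W : Option (Fin j) → H J := fun o => o.elim x V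
  let l' : Option (Fin j) → ℝ := fun o => o.elim (b.ev B univ j) fun i => b.ev B univ i
  have hW : b.EigFam B W l' := by
    refine ⟨?_, ?_⟩
    · rintro (_ | i)
      · exact hx
      · exact hV.eig i
    · rintro (_ | i) (_ | k)
      · simpa [W] using hx1
      · simpa [W] using hxV k
      · simpa [W] using (b.mass_symm _ _).trans (hxV i)
      · simpa [W] using hV.orth i k
  obtain ⟨r, r0, r1, -, r3, r4⟩ := b.spec_decomp hB hW y
  have hcard : Fintype.card (Option (Fin j)) = j + 1 := by simp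
  have hgap := b.eigFam_gap hB hW (by
    rw [hcard]
    rintro (_ | i)
    · change b.ev B univ j < _
      linarith
    · change b.ev B univ i < _
      have := hlo i i.2
      linarith) r r0
  rw [hcard] at hgap
  have hm := b.spec_nonneg r
  have hq := hgv r
  rw [r3, r4] at hq
  have hq1 : γ * b.mass r r ≤ ⟪g, r⟫_ℝ := by nlinarith
  have hq0 : 0 ≤ ⟪g, r⟫_ℝ := le_trans (by positivity) hq1
  have hq2 : b.mass r r ≤ ⟪g, r⟫_ℝ / γ := by rw [le_div_iff₀ hγ]; linarith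
  have hr : ‖r‖ ^ 2 ≤ 2 * (1 + 2 * Λ / γ) * ⟪g, r⟫_ℝ := by
    have h1 := (hB.2 r).1
    have h2 : b.ev B univ j * b.mass r r ≤ 2 * Λ * (⟪g, r⟫_ℝ / γ) :=
      mul_le_mul hl2 hq2 hm (by positivity)
    have h3 : 2 * (1 + 2 * Λ / γ) * ⟪g, r⟫_ℝ = 2 * (⟪g, r⟫_ℝ + 2 * Λ * (⟪g, r⟫_ℝ / γ)) := by ring
    linarith
  have hq3 : ⟪g, r⟫_ℝ ≤ ‖g‖ ^ 2 * (2 * (1 + 2 * Λ / γ)) := by
    rcases hq0.eq_or_lt with h | h
    · rw [← h]; positivity
    · refine le_of_mul_le_mul_right ?_ h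
      have := (hcs r).trans (mul_le_mul_of_nonneg_left hr (sq_nonneg _))
      linarith
  have hc : ∀ i, b.mass (V i) y ^ 2 ≤ ‖g‖ ^ 2 * (4 * Λ / γ ^ 2) := by
    intro i
    have h1 := hgv (V i)
    rw [hB.1, real_inner_comm (B (V i)) y, b.spec_eig (hV.eig i), b.mass_symm y, ← sub_mul] at h1
    have h2 := hlo i i.2
    have h3 := b.spec_norm hB (hV.eig i) (by simpa using hV.orth i i)
    have h4 : γ ^ 2 ≤ (b.ev B univ i - b.ev B univ j) ^ 2 := by nlinarith
    have h5 := hcs (V i)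
    rw [h1, mul_pow] at h5
    rw [← mul_div_assoc, le_div_iff₀ (by positivity)]
    calc b.mass (V i) y ^ 2 * γ ^ 2 ≤ b.mass (V i) y ^ 2 * (b.ev B univ i - b.ev B univ j) ^ 2 :=
          mul_le_mul_of_nonneg_left h4 (sq_nonneg _)
      _ ≤ ‖g‖ ^ 2 * ‖V i‖ ^ 2 := by linarith
      _ ≤ _ := mul_le_mul_of_nonneg_left (by linarith) (sq_nonneg _)
  rw [Fintype.sum_option, hy1] at r1
  change 1 = b.mass x y ^ 2 + ∑ i, b.mass (V i) y ^ 2 + b.mass r r at r1
  have hs0 : 0 ≤ ∑ i, b.mass (V i) y ^ 2 := Finset.sum_nonneg fun i _ => sq_nonneg _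
  have hs : ∑ i, b.mass (V i) y ^ 2 ≤ j * (‖g‖ ^ 2 * (4 * Λ / γ ^ 2)) := by
    simpa using Finset.sum_le_card_nsmul Finset.univ _ _ fun i _ => hc i
  refine b.spec_sign hx1 hy1 (by linarith) ?_
  have h6 : b.mass r r ≤ ‖g‖ ^ 2 * (2 * (1 + 2 * Λ / γ)) / γ :=
    hq2.trans (div_le_div_of_nonneg_right hq3 hγ.le)
  calc 2 * (1 - b.mass x y ^ 2) ≤ 2 * (j * (‖g‖ ^ 2 * (4 * Λ / γ ^ 2)) + ‖g‖ ^ 2 * (2 * (1 + 2 * Λ / γ)) / γ) := by
        linarith
    _ = D * ‖g‖ ^ 2 := by rw [hD]; ring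
    _ ≤ D * (E * ‖B - B₁‖ ^ 2) := mul_le_mul_of_nonneg_left hG hD0
    _ = D * E * ‖B - B₁‖ ^ 2 := by ring
    _ ≤ (D * E + 1) ^ 2 * ‖B - B₁‖ ^ 2 :=
        mul_le_mul_of_nonneg_right (by nlinarith [mul_nonneg hD0 hE0]) (sq_nonneg _)
    _ = _ := by ring

theorem Base.spec_cont (B : ℝ → H J →L[ℝ] H J) (hc : Continuous B) (hB : ∀ s ∈ Icc (0 : ℝ) 1, Adm (B s))
    {S : Set J} (hS : S.Infinite) (i : ℕ) : ContinuousOn (fun s => b.ev (B s) S i) (Icc 0 1) := by
  have h : LipschitzOnWith (Real.toNNReal (4 * b.ev 1 S i)) (fun A => b.ev A S i) {A | Adm A} :=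
    LipschitzOnWith.of_dist_le' fun A hA A' hA' => by
      rw [Real.dist_eq, dist_eq_norm]; exact b.ev_lip hA hA' hS i
  exact h.continuousOn.comp hc.continuousOn hB

theorem Base.spec_side {B : H J →L[ℝ] H J} (hB : Adm B) {S : Set J} (hS : S.Infinite) (hI : Inv S B)
    (i j : ℕ) : b.ev B S i ≤ b.ev B univ j ∨ b.ev B univ (j + 1) ≤ b.ev B S i := by
  obtain ⟨V, hV, -, -⟩ := b.exists_eig hB hS hI (i + 1)
  refine b.eig_dichotomy hB (x := V (Fin.last i)) (fun h0 => ?_) (hV.eig (Fin.last i)) j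
  have := hV.orth (Fin.last i) (Fin.last i)
  rw [h0] at this
  simp [Base.mass] at this

/-- two sector eigenvalues that change order force a double eigenvalue at rank `j` -/
theorem Base.exists_cross (B : ℝ → H J →L[ℝ] H J) (hc : Continuous B)
    (hB : ∀ s ∈ Icc (0 : ℝ) 1, Adm (B s)) {S₁ S₂ : Set J} (h₁ : S₁.Infinite) (h₂ : S₂.Infinite)
    (hI₁ : ∀ s ∈ Icc (0 : ℝ) 1, Inv S₁ (B s)) (hI₂ : ∀ s ∈ Icc (0 : ℝ) 1, Inv S₂ (B s))
    (j i₁ i₂ : ℕ) (ha : b.ev (B 0) S₁ i₁ ≤ b.ev (B 0) univ j)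
    (hb : b.ev (B 0) univ (j + 1) ≤ b.ev (B 0) S₂ i₂)
    (hc₁ : b.ev (B 1) S₂ i₂ ≤ b.ev (B 1) S₁ i₁) :
    ∃ s ∈ Icc (0 : ℝ) 1, b.ev (B s) univ j = b.ev (B s) univ (j + 1) := by
  by_contra hne
  have hlt : ∀ s ∈ Icc (0 : ℝ) 1, b.ev (B s) univ j < b.ev (B s) univ (j + 1) := fun s hs =>
    lt_of_le_of_ne (b.ev_mono (hB s hs) b.spec_inf (Nat.le_succ j)) fun h => hne ⟨s, hs, h⟩
  have h0 : (0 : ℝ) ∈ Icc (0 : ℝ) 1 := ⟨le_rfl, zero_le_one⟩
  have cj := b.spec_cont B hc hB b.spec_inf j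
  have cj' := b.spec_cont B hc hB b.spec_inf (j + 1)
  have c1 := ((b.spec_cont B hc hB h₁ i₁).const_smul (2 : ℝ)).sub (cj.add cj')
  have c2 := ((b.spec_cont B hc hB h₂ i₂).const_smul (2 : ℝ)).sub (cj.add cj')
  have e0 := hlt 0 h0
  have k1 : 2 * b.ev (B 1) S₁ i₁ < b.ev (B 1) univ j + b.ev (B 1) univ (j + 1) := by
    by_contra hk
    obtain ⟨s, hs, hs0⟩ := intermediate_value_Icc zero_le_one c1 (show (0 : ℝ) ∈ _ from
      ⟨by simp only [Pi.sub_apply, Pi.smul_apply, Pi.add_apply, smul_eq_mul]; linarith,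
        by simp only [Pi.sub_apply, Pi.smul_apply, Pi.add_apply, smul_eq_mul]; linarith⟩)
    simp only [Pi.sub_apply, Pi.smul_apply, Pi.add_apply, smul_eq_mul] at hs0
    have := hlt s hs
    rcases b.spec_side (hB s hs) h₁ (hI₁ s hs) i₁ j with h | h <;> linarith
  have k2 : b.ev (B 1) univ j + b.ev (B 1) univ (j + 1) < 2 * b.ev (B 1) S₂ i₂ := by
    by_contra hk
    obtain ⟨s, hs, hs0⟩ := intermediate_value_Icc' zero_le_one c2 (show (0 : ℝ) ∈ _ from
      ⟨by simp only [Pi.sub_apply, Pi.smul_apply, Pi.add_apply, smul_eq_mul]; linarith,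
        by simp only [Pi.sub_apply, Pi.smul_apply, Pi.add_apply, smul_eq_mul]; linarith⟩)
    simp only [Pi.sub_apply, Pi.smul_apply, Pi.add_apply, smul_eq_mul] at hs0
    have := hlt s hs
    rcases b.spec_side (hB s hs) h₂ (hI₂ s hs) i₂ j with h | h <;> linarith
  linarith

end Crest.Agent.R202
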