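import Crest.Agent.R202.Feedback_A

/-!
# Feedback, part B: the equation of the growing coordinates; one step
-/

set_option autoImplicit false

noncomputable section

open scoped InnerProductSpace ContDiff
open Set Filter Topology

namespace Crest.Agent.R202

section
variable {V : Type} [NormedAddCommGroup V] [InnerProductSpace ℝ V] {M : ℕ} {P : Frame V M}
  {Q : ℝ → V →L[ℝ] V} {C γ t₀ T : ℝ} {e : ℝ → ℝ} {w w₁ : ℝ → V}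

theorem fbb_deriv (h : DynHyp P Q C γ t₀ T e) (hw : IsSol Q w w₁) (i : Fin M) (t : ℝ) :
    HasDerivAt (P.GG w w₁ i) (⟪Q t (P.X i t), w t⟫_ℝ - ⟪P.X₂ i t, w t⟫_ℝ +
      (P.a₁ i t * P.cc w i t + P.a i t * (P.pp w w₁ i t + 2 * ⟪P.X₁ i t, w t⟫_ℝ))) t := by
  have h1 := (h.dX i t).inner ℝ (hw.1 t)
  have h2 := (h.dX i t).inner ℝ (hw.2 t)
  have h3 := (h.dX₁ i t).inner ℝ (hw.1 t)
  refine ((h2.sub h3).add ((h.da i t).mul h1)).congr_deriv ?_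
  rw [h.symm]
  simp only [Frame.cc, Frame.pp]
  ring

theorem fbb_X_le (h : DynHyp P Q C γ t₀ T e) {t : ℝ} (ht : t ∈ Icc t₀ T) (he : C * e t ^ 2 ≤ 1)
    (i : Fin M) : ‖P.X i t‖ ≤ 2 := by
  have h1 := (abs_le.1 (h.gram i i t ht)).2
  rw [if_pos rfl, real_inner_self_eq_norm_sq] at h1
  nlinarith [norm_nonneg (P.X i t)]

theorem fbb_cc_le (h : DynHyp P Q C γ t₀ T e) {t : ℝ} (ht : t ∈ Icc t₀ T) (he : C * e t ^ 2 ≤ 1)
    (w : ℝ → V) (i : Fin M) : |P.cc w i t| ≤ 2 * ‖w t‖ :=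
  (abs_real_inner_le_norm _ _).trans
    (mul_le_mul_of_nonneg_right (fbb_X_le h ht he i) (norm_nonneg _))

theorem fbb_a (h : DynHyp P Q C γ t₀ T e) (hγ : 0 < γ) {t : ℝ} (ht : t ∈ Icc t₀ T) (i : Fin M) :
    1 ≤ P.a i t ∧ P.a i t ≤ C :=
  ⟨h.a_ge i t ht, by linarith [h.a_le i t ht, h.g_le t ht]⟩

theorem fbb_a_close (h : DynHyp P Q C γ t₀ T e) (hC : 0 ≤ C) {τ : ℝ} (h0 : t₀ ≤ τ)
    (h1 : τ + 1 ≤ T) (i : Fin M) {t : ℝ} (ht : t ∈ Icc τ (τ + 1)) :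
    |P.a i t - P.a i τ| ≤ C * e τ ^ 2 := by
  refine fba_mvt (fun s _ => h.da i s) (fun s hs => ?_) ht
  have hs' : s ∈ Icc t₀ T := ⟨h0.trans hs.1, hs.2.trans h1⟩
  refine (h.a₁_le i s hs').trans (mul_le_mul_of_nonneg_left ?_ hC)
  exact pow_le_pow_left₀ (h.e_pos s hs').le (h.e_anti ⟨h0, by linarith⟩ hs' hs.1) 2

theorem fbb_sum_le {c d : Fin M → ℝ} {A B : ℝ} (hc : ∀ k, |c k| ≤ A) (hd : ∀ k, |d k| ≤ B)
    (hA : 0 ≤ A) (hB : 0 ≤ B) : |∑ k, c k * d k| ≤ M * A * B := by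
  simpa using fba_sum_le (p := 1) hc hd hA hB ⟨zero_le_one, le_rfl⟩

/-- the constant of the remainder -/
def fbC2 (M : ℕ) (C C₁ : ℝ) : ℝ := 2 * C * C₁ + 2 * M * C ^ 3 + 2 * M * C + 3 * C + 2 * C ^ 2

theorem fbb_rem (h : DynHyp P Q C γ t₀ T e) (hγ : 0 < γ) (hC : 1 ≤ C) {t : ℝ} (ht : t ∈ Icc t₀ T)
    {ε C₁ α p : ℝ} (hε : e t ≤ ε) (hCε : C * ε ≤ 1) (hC₁ : 0 ≤ C₁) (i : Fin M) {κ : Fin M → ℝ}
    (hα : |P.a i t - α| ≤ C * ε ^ 2) (hh : ‖P.hh w t‖ ≤ C₁ * e t * ‖w t‖)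
    (hG : |P.GG w w₁ i t| ≤ C₁ * ‖w t‖)
    (hQ : ∀ k, |⟪Q t (P.X i t), P.X k t⟫_ℝ - (if i = k then P.a i t ^ 2 else 0) - p * κ k| ≤
      C * ε ^ 2) :
    |⟪Q t (P.X i t), w t⟫_ℝ - ⟪P.X₂ i t, w t⟫_ℝ +
      (P.a₁ i t * P.cc w i t + P.a i t * (P.pp w w₁ i t + 2 * ⟪P.X₁ i t, w t⟫_ℝ)) -
      (α * P.GG w w₁ i t + p * ∑ k, κ k * P.cc w k t)| ≤ fbC2 M C C₁ * ε ^ 2 * ‖w t‖ := by
  have he0 := h.e_pos t ht
  have hε0 : 0 < ε := he0.trans_le hε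
  have hε1 : ε ≤ 1 := by nlinarith
  have he2 : C * e t ^ 2 ≤ C * ε ^ 2 :=
    mul_le_mul_of_nonneg_left (pow_le_pow_left₀ he0.le hε 2) (by linarith)
  have he3 : C * e t ^ 2 ≤ 1 := by nlinarith
  have hN := norm_nonneg (w t)
  have hc := fbb_cc_le h ht he3 w
  obtain ⟨a1, a2⟩ := fbb_a h hγ ht i
  have hw : w t = P.hh w t + ∑ k, P.cc w k t • P.X k t := by simp [Frame.hh]
  have e1 : ⟪Q t (P.X i t), w t⟫_ℝ = ⟪Q t (P.X i t) - P.a i t ^ 2 • P.X i t, P.hh w t⟫_ℝ +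
      P.a i t ^ 2 * ⟪P.X i t, P.hh w t⟫_ℝ +
      ∑ k, P.cc w k t * ⟪Q t (P.X i t), P.X k t⟫_ℝ := by
    conv_lhs => rw [hw]
    rw [inner_add_right, inner_sum, inner_sub_left, real_inner_smul_left]
    simp only [real_inner_smul_right]
    ring
  have e2 : ⟪P.X i t, P.hh w t⟫_ℝ =
      -∑ k, P.cc w k t * (⟪P.X i t, P.X k t⟫_ℝ - if i = k then 1 else 0) := by
    rw [Frame.hh, inner_sub_right, inner_sum]
    simp only [real_inner_smul_right, mul_sub, Finset.sum_sub_distrib, mul_ite, mul_one, mul_zero,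
      Finset.sum_ite_eq, Finset.mem_univ, if_true]
    rw [Frame.cc]
    ring
  have e3 : ∑ k, P.cc w k t * ⟪Q t (P.X i t), P.X k t⟫_ℝ = ∑ k, P.cc w k t *
      (⟪Q t (P.X i t), P.X k t⟫_ℝ - (if i = k then P.a i t ^ 2 else 0) - p * κ k) +
      P.a i t ^ 2 * P.cc w i t + p * ∑ k, κ k * P.cc w k t := by
    simp only [mul_sub, Finset.sum_sub_distrib, mul_ite, mul_zero,
      Finset.sum_ite_eq, Finset.mem_univ, if_true, Finset.mul_sum]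
    have : ∑ k, P.cc w k t * (p * κ k) = ∑ k, p * (κ k * P.cc w k t) :=
      Finset.sum_congr rfl fun k _ => by ring
    rw [this]
    ring
  have b1 : |(P.a i t - α) * P.GG w w₁ i t| ≤ C * ε ^ 2 * (C₁ * ‖w t‖) := by
    rw [abs_mul]
    exact mul_le_mul hα hG (abs_nonneg _) (by positivity)
  have b2 : |⟪Q t (P.X i t) - P.a i t ^ 2 • P.X i t, P.hh w t⟫_ℝ| ≤ C * ε * (C₁ * ε * ‖w t‖) := by
    refine (abs_real_inner_le_norm _ _).trans (mul_le_mul ((h.eig i t ht).trans ?_) (hh.trans ?_)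
      (norm_nonneg _) (by positivity))
    · exact mul_le_mul_of_nonneg_left hε (by linarith)
    · exact mul_le_mul_of_nonneg_right (mul_le_mul_of_nonneg_left hε hC₁) hN
  have b3 : |P.a i t ^ 2 * ⟪P.X i t, P.hh w t⟫_ℝ| ≤ C ^ 2 * (M * (2 * ‖w t‖) * (C * ε ^ 2)) := by
    rw [abs_mul, e2, abs_neg, abs_of_nonneg (sq_nonneg _)]
    exact mul_le_mul (pow_le_pow_left₀ (by linarith) a2 2)
      (fbb_sum_le hc (fun k => (h.gram i k t ht).trans he2) (by positivity) (by positivity))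
      (abs_nonneg _) (by positivity)
  have b4 := fbb_sum_le hc hQ (by positivity) (by positivity)
  have b5 : |⟪P.X₂ i t, w t⟫_ℝ| ≤ C * ε ^ 2 * ‖w t‖ := (abs_real_inner_le_norm _ _).trans
    (mul_le_mul_of_nonneg_right ((h.X₂_le i t ht).trans he2) hN)
  have b6 : |P.a₁ i t * P.cc w i t| ≤ C * ε ^ 2 * (2 * ‖w t‖) := by
    rw [abs_mul]
    exact mul_le_mul ((h.a₁_le i t ht).trans he2) (hc i) (abs_nonneg _) (by positivity)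
  have b7 : |P.a i t * ⟪P.X₁ i t, w t⟫_ℝ| ≤ C * (C * ε ^ 2 * ‖w t‖) := by
    rw [abs_mul, abs_of_nonneg (by linarith)]
    exact mul_le_mul a2 ((abs_real_inner_le_norm _ _).trans
      (mul_le_mul_of_nonneg_right ((h.X₁_le i t ht).trans he2) hN)) (abs_nonneg _) (by linarith)
  rw [e1, e3]
  rw [abs_le] at b1 b2 b3 b4 b5 b6 b7 ⊢
  simp only [Frame.GG, fbC2] at b1 ⊢
  constructor <;> nlinarith [b1.1, b1.2, b2.1, b2.2, b3.1, b3.2, b4.1, b4.2, b5.1, b5.2, b6.1, b6.2,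
    b7.1, b7.2]

theorem fbb_cc_close {t ε C₁ α N : ℝ} (i : Fin M) (ha : 1 ≤ P.a i t) (hα1 : 1 ≤ α)
    (hε : 0 ≤ ε) (hCε : C * ε ≤ 1) (hC₁ : 0 ≤ C₁) (hN : 0 ≤ N)
    (hα : |P.a i t - α| ≤ C * ε ^ 2) (hb : |P.bb w w₁ i t| ≤ C₁ * ε * N)
    (hG : |P.GG w w₁ i t| ≤ C₁ * N) :
    |P.cc w i t - P.GG w w₁ i t / (2 * α)| ≤ C₁ * ε * N := by
  have e1 : P.cc w i t - P.GG w w₁ i t / (2 * α) =
      P.GG w w₁ i t * (α - P.a i t) / (2 * (P.a i t * α)) - P.bb w w₁ i t / (2 * P.a i t) := by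
    simp only [Frame.GG, Frame.bb]
    field_simp
    ring
  have a1 : |P.GG w w₁ i t * (α - P.a i t) / (2 * (P.a i t * α))| ≤ C₁ * N * ε / 2 := by
    rw [abs_div, abs_mul, abs_sub_comm, abs_of_pos (show 0 < 2 * (P.a i t * α) by positivity)]
    refine div_le_div₀ (by positivity) (mul_le_mul hG (hα.trans (by nlinarith)) (abs_nonneg _)
      (by positivity)) two_pos (by nlinarith)
  have a2 : |P.bb w w₁ i t / (2 * P.a i t)| ≤ C₁ * ε * N / 2 := by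
    rw [abs_div, abs_of_pos (show 0 < 2 * P.a i t by positivity)]
    exact div_le_div₀ (by positivity) hb two_pos (by linarith)
  rw [e1]
  linarith [abs_sub (P.GG w w₁ i t * (α - P.a i t) / (2 * (P.a i t * α)))
    (P.bb w w₁ i t / (2 * P.a i t))]

end

/-- One step of the closed loop, for one solution. -/
theorem fbb_step (M : ℕ) (C γ C₁ : ℝ) (hC : 1 ≤ C) (hγ : 0 < γ) (hC₁ : 1 ≤ C₁) :
    ∃ C₃ : ℝ, 0 < C₃ ∧ ∀ K K₁ : ℝ, 0 < K → 0 < K₁ → ∃ ε : ℝ, 0 < ε ∧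
    ∀ (V : Type) [NormedAddCommGroup V] [InnerProductSpace ℝ V] (P : Frame V M)
      (Q : ℝ → V →L[ℝ] V) (t₀ T : ℝ) (e : ℝ → ℝ) (τ ϑ : ℝ) (κ : Fin M → Fin M → ℝ)
      (w w₁ : ℝ → V) (j : Fin M), DynHyp P Q C γ t₀ T e → t₀ ≤ τ → τ + 1 ≤ T → 0 < ϑ → ϑ ≤ ε →
      e τ = ϑ ^ 3 → IsSol Q w w₁ → (∀ i k, |κ i k| ≤ K * ϑ ^ 4) → κ j j = 0 →
      (∀ t ∈ Icc τ (τ + 1), ∀ i k,
        |⟪Q t (P.X i t), P.X k t⟫_ℝ - (if i = k then P.a i t ^ 2 else 0) - pulse (t - τ) * κ i k| ≤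
          C * ϑ ^ 6) →
      (∀ t ∈ Icc τ (τ + 1), ‖P.hh w t‖ ≤ C₁ * e t * ‖w t‖ ∧
        (∀ i, |P.bb w w₁ i t| ≤ C₁ * e t * ‖w t‖) ∧ (∀ i, |P.GG w w₁ i t| ≤ C₁ * ‖w t‖) ∧
        ‖w t‖ ≤ C₁ * ‖w τ‖) →
      ‖w τ‖ ≤ C₁ * ∑ i, |P.GG w w₁ i τ| → 1 ≤ P.GG w w₁ j τ →
      (∀ i, i ≠ j → |P.GG w w₁ i τ / P.GG w w₁ j τ| ≤ K₁ * ϑ ^ 3) →
      1 ≤ P.GG w w₁ j (τ + 1) ∧
      P.GG w w₁ j (τ + 1) ≤ P.GG w w₁ j τ * Real.exp (P.a j τ + ϑ ^ 3) ∧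
      ∀ i, |P.GG w w₁ i (τ + 1) / P.GG w w₁ j (τ + 1) -
        Real.exp (P.a i τ - P.a j τ) * (P.GG w w₁ i τ / P.GG w w₁ j τ) -
        κ i j * gain (P.a i τ) (P.a j τ)| ≤ C₃ * ϑ ^ 6 := by
  have hE := Real.exp_pos C
  have hC2 : 0 ≤ fbC2 M C C₁ := by unfold fbC2; positivity
  obtain ⟨C₆, hC₆⟩ : ∃ C₆ : ℝ, C₆ = C₁ * C₁ * M := ⟨_, rfl⟩
  have hC6 : 0 ≤ C₆ := by rw [hC₆]; positivity
  obtain ⟨C₇, hC₇⟩ : ∃ C₇ : ℝ, C₇ = 1 + fbC2 M C C₁ * C₆ := ⟨_, rfl⟩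
  have hC7 : 1 ≤ C₇ := by rw [hC₇]; nlinarith [mul_nonneg hC2 hC6]
  refine ⟨6 * Real.exp C * C₇, by positivity, fun K K₁ hK hK₁ => ?_⟩
  obtain ⟨B, hB⟩ : ∃ B : ℝ, B = M * K * (C₁ * C₆ + Real.exp C *
    (K₁ + (M * K * (2 * C₆) + fbC2 M C C₁ * C₆))) := ⟨_, rfl⟩
  have hB0 : 0 ≤ B := by rw [hB]; positivity
  obtain ⟨A, hA⟩ : ∃ A : ℝ, A = B + C + K₁ + 2 * C₇ + K * Real.exp C ^ 2 := ⟨_, rfl⟩
  have hKE : 0 < K * Real.exp C ^ 2 := by positivity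
  have hA0 : 0 < A := by rw [hA]; positivity
  refine ⟨1 / A, by positivity, ?_⟩
  intro V _ _ P Q t₀ T e τ ϑ κ w w₁ j h h0 h1 hϑ hϑε heτ hw hκ hκj hQ hcone hN hg hx
  have hϑA : A * ϑ ≤ 1 := by rwa [le_div_iff₀ hA0, mul_comm] at hϑε
  have hsm : ∀ x, x ≤ A → x * ϑ ≤ 1 := fun x hx =>
    (mul_le_mul_of_nonneg_right hx hϑ.le).trans hϑA
  have hϑ1 : ϑ ≤ 1 := by simpa using hsm 1 (by rw [hA]; linarith)
  have hpow : ∀ m n : ℕ, m ≤ n → ϑ ^ n ≤ ϑ ^ m := fun m n hmn =>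
    pow_le_pow_of_le_one hϑ.le hϑ1 hmn
  have hsm' : ∀ (x : ℝ) (n : ℕ), 0 ≤ x → x ≤ A → 1 ≤ n → x * ϑ ^ n ≤ 1 := fun x n hx0 hx hn =>
    (mul_le_mul_of_nonneg_left (by simpa using hpow 1 n hn) hx0).trans (hsm x hx)
  set g₀ := P.GG w w₁ j τ with hg₀
  have hg0 : 0 < g₀ := by linarith
  have hI : ∀ t ∈ Icc τ (τ + 1), t ∈ Icc t₀ T := fun t ht => ⟨h0.trans ht.1, ht.2.trans h1⟩
  have hτ : τ ∈ Icc τ (τ + 1) := ⟨le_rfl, by linarith⟩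
  have het : ∀ t ∈ Icc τ (τ + 1), e t ≤ ϑ ^ 3 := fun t ht =>
    heτ ▸ h.e_anti (hI τ hτ) (hI t ht) ht.1
  have hC3 : C * ϑ ^ 3 ≤ 1 := hsm' C 3 (by linarith) (by rw [hA]; linarith) (by norm_num)
  have hξ : ∀ i, i ≠ j → |P.GG w w₁ i τ| ≤ K₁ * ϑ ^ 3 * g₀ := fun i hi => by
    have := hx i hi
    rwa [abs_div, abs_of_pos hg0, div_le_iff₀ hg0] at this
  have hξ' : ∀ i, |P.GG w w₁ i τ| ≤ g₀ := fun i => by
    by_cases hi : i = j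
    · rw [hi, ← hg₀, abs_of_pos hg0]
    · refine (hξ i hi).trans (mul_le_of_le_one_left hg0.le ?_)
      exact hsm' K₁ 3 hK₁.le (by rw [hA]; linarith) (by norm_num)
  have hNt : ∀ t ∈ Icc τ (τ + 1), ‖w t‖ ≤ C₆ * g₀ := fun t ht => by
    have a1 : ∑ i, |P.GG w w₁ i τ| ≤ M * g₀ :=
      (Finset.sum_le_sum fun i _ => hξ' i).trans (by simp)
    have a2 := hN.trans (mul_le_mul_of_nonneg_left a1 (by linarith))
    refine ((hcone t ht).2.2.2.trans (mul_le_mul_of_nonneg_left a2 (by linarith))).trans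
      (le_of_eq ?_)
    rw [hC₆]; ring
  have hα : ∀ i, 1 ≤ P.a i τ ∧ P.a i τ ≤ C := fun i => fbb_a h hγ (hI τ hτ) i
  have hcl : ∀ i, ∀ t ∈ Icc τ (τ + 1), |P.a i t - P.a i τ| ≤ C * (ϑ ^ 3) ^ 2 := fun i t ht =>
    heτ ▸ fbb_a_close h (by linarith) h0 h1 i ht
  have duh := fba_duhamel (C := C) (τ := τ) (k := K * ϑ ^ 4)
    (R := fbC2 M C C₁ * (ϑ ^ 3) ^ 2 * (C₆ * g₀)) (S := C₁ * ϑ ^ 3 * (C₆ * g₀)) (D := 2 * (C₆ * g₀))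
    (ξ := K₁ * ϑ ^ 3 * g₀) (g₀ := g₀) (α := fun i => P.a i τ) (κ := κ) (G := P.GG w w₁)
    (c := P.cc w) (r := fun i t => ⟪Q t (P.X i t), w t⟫_ℝ - ⟪P.X₂ i t, w t⟫_ℝ +
      (P.a₁ i t * P.cc w i t + P.a i t * (P.pp w w₁ i t + 2 * ⟪P.X₁ i t, w t⟫_ℝ)) -
      (P.a i τ * P.GG w w₁ i t + pulse (t - τ) * ∑ k, κ i k * P.cc w k t)) (j := j) hα
    (fun i t _ => (fbb_deriv h hw i t).congr_deriv (by ring))
    (fun i t ht => (fbb_rem h hγ hC (hI t ht) (het t ht) hC3 (by linarith) i (hcl i t ht)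
      (hcone t ht).1 ((hcone t ht).2.2.1 i) fun k => (hQ t ht i k).trans (le_of_eq (by ring))).trans
      (mul_le_mul_of_nonneg_left (hNt t ht) (by positivity)))
    (fun i t ht => fbb_cc_close (C := C) i (h.a_ge i t (hI t ht)) (hα i).1 (by positivity) hC3
      (by linarith) (by positivity) (hcl i t ht)
      (((hcone t ht).2.1 i).trans (mul_le_mul (mul_le_mul_of_nonneg_left (het t ht) (by linarith))
        (hNt t ht) (norm_nonneg _) (by positivity)))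
      (((hcone t ht).2.2.1 i).trans (mul_le_mul_of_nonneg_left (hNt t ht) (by linarith))))
    (fun i t ht => (fbb_cc_le h (hI t ht) (by
      have a1 := h.e_pos t (hI t ht)
      have a2 := het t ht
      have a3 := hpow 0 3 (by norm_num)
      have a4 : C * e t ≤ 1 := (mul_le_mul_of_nonneg_left a2 (by linarith)).trans hC3
      nlinarith) w i).trans (mul_le_mul_of_nonneg_left (hNt t ht) two_pos.le))
    hκ rfl hξ (by positivity)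
  have herr : (M : ℝ) * (K * ϑ ^ 4) * (C₁ * ϑ ^ 3 * (C₆ * g₀) + Real.exp C * (K₁ * ϑ ^ 3 * g₀ +
      (M * (K * ϑ ^ 4) * (2 * (C₆ * g₀)) + fbC2 M C C₁ * (ϑ ^ 3) ^ 2 * (C₆ * g₀)))) +
      fbC2 M C C₁ * (ϑ ^ 3) ^ 2 * (C₆ * g₀) ≤ C₇ * ϑ ^ 6 * g₀ := by
    have a1 : (M : ℝ) * (K * ϑ ^ 4) * (2 * (C₆ * g₀)) ≤ M * K * (2 * C₆) * ϑ ^ 3 * g₀ := by
      have := mul_le_mul_of_nonneg_left (hpow 3 4 (by norm_num))
        (show 0 ≤ (M : ℝ) * K * (2 * C₆) * g₀ by positivity)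
      linarith
    have a2 : fbC2 M C C₁ * (ϑ ^ 3) ^ 2 * (C₆ * g₀) ≤ fbC2 M C C₁ * C₆ * ϑ ^ 3 * g₀ := by
      have := mul_le_mul_of_nonneg_left (hpow 3 6 (by norm_num))
        (show 0 ≤ fbC2 M C C₁ * C₆ * g₀ by positivity)
      linarith
    have a3 : (M : ℝ) * (K * ϑ ^ 4) * (C₁ * ϑ ^ 3 * (C₆ * g₀) + Real.exp C * (K₁ * ϑ ^ 3 * g₀ +
        (M * (K * ϑ ^ 4) * (2 * (C₆ * g₀)) + fbC2 M C C₁ * (ϑ ^ 3) ^ 2 * (C₆ * g₀)))) ≤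
        M * (K * ϑ ^ 4) * (C₁ * ϑ ^ 3 * (C₆ * g₀) + Real.exp C * (K₁ * ϑ ^ 3 * g₀ +
        (M * K * (2 * C₆) * ϑ ^ 3 * g₀ + fbC2 M C C₁ * C₆ * ϑ ^ 3 * g₀))) := by
      gcongr
    have a4 : (M : ℝ) * (K * ϑ ^ 4) * (C₁ * ϑ ^ 3 * (C₆ * g₀) + Real.exp C * (K₁ * ϑ ^ 3 * g₀ +
        (M * K * (2 * C₆) * ϑ ^ 3 * g₀ + fbC2 M C C₁ * C₆ * ϑ ^ 3 * g₀))) =
        B * ϑ * (ϑ ^ 6 * g₀) := by rw [hB]; ring
    have a5 : B * ϑ * (ϑ ^ 6 * g₀) ≤ ϑ ^ 6 * g₀ :=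
      mul_le_of_le_one_left (by positivity) (hsm B (by rw [hA]; linarith))
    rw [hC₇]
    linarith
  have hduh := fun i => (duh i).trans herr
  have hη : C₇ * ϑ ^ 6 ≤ 1 / 2 := by
    have := hsm' (2 * C₇) 6 (by linarith) (by rw [hA]; linarith) (by norm_num)
    linarith
  have hη3 : C₇ * ϑ ^ 6 ≤ ϑ ^ 3 := by
    have := hsm' C₇ 3 (by linarith) (by rw [hA]; linarith) (by norm_num)
    have a := mul_le_mul_of_nonneg_right this (show 0 ≤ ϑ ^ 3 by positivity)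
    linarith
  have hj := hduh j
  rw [hκj, zero_mul, zero_mul, zero_mul, sub_zero] at hj
  have hexp : Real.exp (P.a j τ) * Real.exp (-P.a j τ) = 1 := by rw [← Real.exp_add]; simp
  have hGe : P.GG w w₁ j (τ + 1) =
      Real.exp (P.a j τ) * (Real.exp (-P.a j τ) * P.GG w w₁ j (τ + 1)) := by
    rw [← mul_assoc, hexp, one_mul]
  refine ⟨?_, ?_, fun i => ?_⟩
  · have a1 := (abs_le.1 hj).1
    have a2 := Real.add_one_le_exp (P.a j τ)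
    have a3 : 1 / 2 ≤ Real.exp (-P.a j τ) * P.GG w w₁ j (τ + 1) := by nlinarith
    rw [hGe]
    nlinarith [(hα j).1]
  · have a1 := (abs_le.1 hj).2
    have a2 := Real.add_one_le_exp (ϑ ^ 3)
    have a3 : Real.exp (-P.a j τ) * P.GG w w₁ j (τ + 1) ≤ g₀ * Real.exp (ϑ ^ 3) := by nlinarith
    rw [hGe, Real.exp_add]
    have := mul_le_mul_of_nonneg_left a3 (Real.exp_pos (P.a j τ)).le
    linarith
  · have := fba_ratio (hα i) (hα j) hg0 hη hj (hduh i) (hξ' i) (by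
      have a1 := hsm' (K * Real.exp C ^ 2) 4 hKE.le (by rw [hA]; linarith) (by norm_num)
      have a2 := mul_le_mul_of_nonneg_right (hκ i j) (show 0 ≤ Real.exp C ^ 2 by positivity)
      linarith)
    linarith

end Crest.Agent.R202
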