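import Crest.Agent.R202.Cone
import Crest.Agent.R202.Scalar
import Crest.Agent.R202.Feedback_B

/-!
# The closed loop stays diagonal (task C3)

On `[n, n+1]`: `G_i' = α_i G_i + χ ∑_k κ_{ik} c_k + O(δ N)`, `α_i = a i n`.  If `G_j(n) = g₀ ≥ 1` and the ratios `x_i = G_i/G_j` are
`≤ ξ`, then `x_i(n+1) = e^{α_i-α_j} x_i(n) + κ_{ij} gain(α_i,α_j) + O(k(ξ+e)+δ)` and
`G_j(n+1) = e^{α_j} g₀ (1 + O(k(ξ+e)+δ))`.  For a pair let `A` be the controlled ratio, `B` the other one,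
`g = |α_i-α_j|`: `A' ≤ e^{-g}A + Cδ`, `B' ≤ e^{-g}B + C g A + Cδ`; `B + C'A` is dominated by the solution `φ` of the scalar recursion
(`scalar_rec`, factor `μ n = C'` at an orientation switch), so `ξ ≤ K ϑ³`, `|fb| ≤ K ϑ⁴` and the clamp is inactive (induction on `n`).
-/

set_option autoImplicit false

noncomputable section

open scoped InnerProductSpace ContDiff
open Set Filter Topology

namespace Crest.Agent.R202

theorem pulse_nonneg (s : ℝ) : 0 ≤ pulse s ∧ pulse s ≤ 1 := fba_pulse_nonneg s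

theorem contDiff_pulse : ContDiff ℝ ∞ pulse := fba_contDiff_pulse

theorem pulse_eq_zero {s : ℝ} (h : s ≤ 0 ∨ 1 ≤ s) : pulse s = 0 := by
  unfold pulse
  rcases h with h | h
  · rw [Real.smoothTransition.zero_of_nonpos (by linarith), zero_mul]
  · rw [Real.smoothTransition.zero_of_nonpos (x := 4 - 4 * s) (by linarith), mul_zero]

theorem fb_th_small {ε : ℝ} (hε : 0 < ε) : ∃ T₀ : ℝ, ∀ t₀ T t : ℝ, T₀ ≤ T → t₀ ≤ t →
    0 < t - t₀ + T ∧ th t₀ T t ≤ ε := by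
  refine ⟨ε⁻¹ ^ 7, fun t₀ T t hT ht => ?_⟩
  have h0 : 0 < ε⁻¹ ^ 7 := by positivity
  refine ⟨by linarith, (Real.rpow_le_rpow_of_nonpos h0 (by linarith) (by norm_num)).trans
    (le_of_eq ?_)⟩
  rw [Real.rpow_neg h0.le, show (1 / 7 : ℝ) = ((7 : ℕ) : ℝ)⁻¹ by norm_num,
    Real.pow_rpow_inv_natCast (by positivity) (by norm_num), inv_inv]

theorem fb_exp_le {t₀ T t : ℝ} (hT : 1 ≤ T) (ht : t₀ + T ≤ t) :
    Real.exp (-(t - t₀)) ≤ th t₀ T t ^ 3 := by
  have h0 : 0 < t - t₀ + T := by linarith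
  have h1 : th t₀ T t ≤ 1 := Real.rpow_le_one_of_one_le_of_nonpos (by linarith) (by norm_num)
  have h2 : th t₀ T t ^ 7 = (t - t₀ + T)⁻¹ := by
    rw [th, ← Real.rpow_natCast, ← Real.rpow_mul h0.le, ← Real.rpow_neg_one]
    norm_num
  refine le_trans ?_ (pow_le_pow_of_le_one (th_pos h0).le h1 (show 3 ≤ 7 by norm_num))
  rw [h2, Real.exp_neg]
  refine inv_anti₀ h0 (le_trans ?_ (Real.quadratic_le_exp_of_nonneg (by linarith)))
  nlinarith [sq_nonneg (t - t₀ - 1)]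

/-- the solution of the scalar recursion -/
def fbPhi (n₁ : ℕ) (F : ℕ → ℝ → ℝ) : ℕ → ℝ
  | 0 => 0
  | n + 1 => if n < n₁ then 0 else |F n (fbPhi n₁ F n)|

theorem fbPhi_start (n₁ : ℕ) (F : ℕ → ℝ → ℝ) : fbPhi n₁ F n₁ = 0 := by
  cases n₁ with
  | zero => rfl
  | succ n => rw [fbPhi, if_pos (Nat.lt_succ_self n)]

theorem fbPhi_nonneg (n₁ : ℕ) (F : ℕ → ℝ → ℝ) (n : ℕ) : 0 ≤ fbPhi n₁ F n := by
  cases n with
  | zero => exact le_rfl
  | succ n =>
    rw [fbPhi]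
    split_ifs
    · exact le_rfl
    · exact abs_nonneg _

theorem fbPhi_succ {n₁ n : ℕ} (F : ℕ → ℝ → ℝ) (h : n₁ ≤ n) :
    fbPhi n₁ F (n + 1) = |F n (fbPhi n₁ F n)| := by
  rw [fbPhi, if_neg (not_lt.2 h)]

section
variable {V : Type} {M : ℕ} {P : Frame V M} {n : ℕ} {i j : Fin M}

theorem fb_ctl_le (h : P.ctl n i j) : P.a j n ≤ P.a i n := h.elim le_of_lt fun h => h.1.le

theorem fb_ctl_swap (hij : i ≠ j) (h : ¬P.ctl n i j) : P.ctl n j i := by
  unfold Frame.ctl at h ⊢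
  rw [not_or, not_lt, not_and, not_lt] at h
  rcases h.1.lt_or_eq with h1 | h1
  · exact Or.inl h1
  · exact Or.inr ⟨h1, lt_of_le_of_ne (h.2 h1.symm) hij.symm⟩

theorem fb_switch (hij : i ≠ j) {m : ℕ} (h : ¬(P.ctl n i j ↔ P.ctl m i j)) :
    (P.a i n - P.a j n) * (P.a i m - P.a j m) ≤ 0 := by
  by_cases h1 : P.ctl n i j
  · have h2 : ¬P.ctl m i j := fun h2 => h (iff_of_true h1 h2)
    exact mul_nonpos_of_nonneg_of_nonpos (sub_nonneg.2 (fb_ctl_le h1))
      (sub_nonpos.2 (fb_ctl_le (fb_ctl_swap hij h2)))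
  · have h2 : P.ctl m i j := by_contra fun h2 => h (iff_of_false h1 h2)
    exact mul_nonpos_of_nonpos_of_nonneg (sub_nonpos.2 (fb_ctl_le (fb_ctl_swap hij h1)))
      (sub_nonneg.2 (fb_ctl_le h2))

end

/-- independence of the solutions at the initial time -/
theorem fb_indep {V : Type} [NormedAddCommGroup V] [InnerProductSpace ℝ V] {M : ℕ} {P : Frame V M}
    {w w₁ : Fin M → ℝ → V} {t C β : ℝ} (hC : 0 ≤ C) (ha : ∀ i, 1 ≤ P.a i t ∧ P.a i t ≤ C)
    (hX : ∀ i, ‖P.X i t‖ ≤ 2) (hG : ∀ i j, P.GG (w j) (w₁ j) i t = if i = j then 1 else 0)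
    (hb : ∀ i j, |P.bb (w j) (w₁ j) i t| ≤ β) (hβ : M * β ≤ 1 / 2) (v : Fin M → ℝ) :
    ∑ j, v j ^ 2 ≤ 64 * C ^ 2 * M ^ 2 * ‖∑ j, v j • w j t‖ ^ 2 := by
  set W := ∑ j, v j • w j t with hW
  have h1 : ∀ i, |v i| ≤ 4 * C * ‖W‖ + β * ∑ j, |v j| := by
    intro i
    have e1 : ∀ j, 2 * P.a i t * ⟪P.X i t, w j t⟫_ℝ =
        (if i = j then 1 else 0) - P.bb (w j) (w₁ j) i t := fun j => by
      rw [← hG i j]
      simp only [Frame.GG, Frame.bb, Frame.cc]
      ring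
    have e2 : v i = 2 * P.a i t * ⟪P.X i t, W⟫_ℝ + ∑ j, P.bb (w j) (w₁ j) i t * v j := by
      rw [hW, inner_sum, Finset.mul_sum, ← Finset.sum_add_distrib]
      have : ∀ j, 2 * P.a i t * ⟪P.X i t, v j • w j t⟫_ℝ + P.bb (w j) (w₁ j) i t * v j =
          if i = j then v j else 0 := fun j => by
        rw [real_inner_smul_right, mul_left_comm, e1 j]
        split_ifs <;> ring
      simp [this]
    have a1 : |2 * P.a i t * ⟪P.X i t, W⟫_ℝ| ≤ 4 * C * ‖W‖ := by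
      rw [abs_mul, abs_of_nonneg (by linarith [(ha i).1])]
      have := mul_le_mul (show 2 * P.a i t ≤ 2 * C by linarith [(ha i).2])
        ((abs_real_inner_le_norm _ W).trans (mul_le_mul_of_nonneg_right (hX i) (norm_nonneg _)))
        (abs_nonneg _) (by linarith)
      linarith
    have a2 : |∑ j, P.bb (w j) (w₁ j) i t * v j| ≤ β * ∑ j, |v j| := by
      rw [Finset.mul_sum]
      refine (Finset.abs_sum_le_sum_abs _ _).trans (Finset.sum_le_sum fun j _ => ?_)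
      rw [abs_mul]
      exact mul_le_mul_of_nonneg_right (hb i j) (abs_nonneg _)
    conv_lhs => rw [e2]
    exact (abs_add_le _ _).trans (add_le_add a1 a2)
  have h0 : 0 ≤ ∑ j, |v j| := Finset.sum_nonneg fun j _ => abs_nonneg _
  have h2 : ∑ j, |v j| ≤ M * (4 * C * ‖W‖ + β * ∑ j, |v j|) :=
    (Finset.sum_le_sum fun i _ => h1 i).trans (by simp [mul_add])
  have h3 : ∑ j, |v j| ≤ 8 * C * M * ‖W‖ := by nlinarith
  have h4 : ∑ j, v j ^ 2 ≤ (∑ j, |v j|) ^ 2 := by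
    have := Finset.sum_sq_le_sq_sum_of_nonneg (s := Finset.univ) (f := fun j => |v j|)
      fun j _ => abs_nonneg _
    simpa using this
  refine h4.trans ((pow_le_pow_left₀ h0 h3 2).trans (le_of_eq (by ring)))

set_option maxHeartbeats 1600000 in
theorem feedback (M : ℕ) (C γ c : ℝ) (hC : 1 ≤ C) (hγ : 0 < γ) (hc : 0 < c) :
    ∃ K₀ : ℝ, 0 < K₀ ∧ ∀ K, K₀ ≤ K → ∃ T₀ C' : ℝ, 0 < C' ∧
    ∀ (V : Type) [NormedAddCommGroup V] [InnerProductSpace ℝ V] (P : Frame V M)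
      (Q : ℝ → V →L[ℝ] V) (t₀ T Th : ℕ), T₀ ≤ T → t₀ + T ≤ Th →
      DynHyp P Q C γ t₀ Th (fun t => th t₀ T t ^ 3) →
      ∀ κ : ℕ → Fin M → Fin M → ℝ, (∀ n i j, κ n i j = κ n j i) → (∀ n i, κ n i i = 0) →
      (∀ n : ℕ, t₀ + T ≤ n → n < Th → ∀ t ∈ Icc (n : ℝ) (n + 1), ∀ i k,
        |⟪Q t (P.X i t), P.X k t⟫_ℝ - (if i = k then P.a i t ^ 2 else 0) - pulse (t - n) * κ n i k| ≤
          C * th t₀ T t ^ 6) →
      (∀ n : ℕ, t₀ + T ≤ n → n ≤ Th → ∀ i j, i ≠ j →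
        c * hdist (sg t₀ T n) ≤ |P.a i n - P.a j n|) →
      (∀ n : ℕ, t₀ + T ≤ n → n < Th → ∀ i j, i ≠ j →
        (P.a i n - P.a j n) * (P.a i (n + 1 : ℕ) - P.a j (n + 1 : ℕ)) ≤ 0 →
        ∃ p : ℤ, sg t₀ T n ≤ p + 1 / 2 ∧ (p : ℝ) + 1 / 2 ≤ sg t₀ T (n + 1 : ℕ)) →
      ∀ w w₁ : Fin M → ℝ → V, (∀ j, Reg P Q Th (w j) (w₁ j)) →
      (∀ i j, P.GG (w j) (w₁ j) i (t₀ + T : ℕ) = if i = j then 1 else 0) →
      (∀ n : ℕ, t₀ + T ≤ n → n < Th → ∀ i j, P.ctl n i j →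
        κ n i j = clamp (K * th t₀ T n ^ 4) (P.fb w w₁ n i j)) →
      (∀ j (n : ℕ), t₀ + T ≤ n → n ≤ Th → ∀ t ∈ Icc (0 : ℝ) (min (n + 1) Th),
        ‖w j t‖ ≤ C' * Real.exp (∑ m ∈ Finset.Ico (t₀ + T) n, (P.a j m + th t₀ T m ^ 3))) ∧
      ∀ v : Fin M → ℝ, ∑ j, v j ^ 2 ≤ C' * ‖∑ j, v j • w j (t₀ + T : ℕ)‖ ^ 2 := by
  classical
  obtain ⟨e₀, C₁, he₀, hC₁, hcone⟩ := cone M C γ hC hγ
  obtain ⟨C₃, hC₃, hstep⟩ := fbb_step M C γ C₁ hC hγ hC₁
  have hE := Real.exp_pos C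
  have hE1 : 1 ≤ Real.exp C := Real.one_le_exp (by linarith)
  have hC₄ : 1 ≤ 4 * Real.exp C := by linarith
  obtain ⟨K₁, T₁, hK₁, hrec⟩ := scalar_rec (Real.exp (-C) / 2) c (2 * C) (4 * Real.exp C)
    ((1 + 4 * Real.exp C) * C₃) (by positivity) hc (by linarith) hC₄ (by positivity)
  have hI := fbI_pos 0
  have hK₀ : 0 < 4 * C * Real.exp C / fbI 0 * K₁ := by positivity
  refine ⟨_, hK₀, fun K hK => ?_⟩
  have hK0 : 0 < K := hK₀.trans_le hK
  obtain ⟨ε, hε, hstep⟩ := hstep K K₁ hK0 hK₁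
  obtain ⟨A, hA⟩ : ∃ A : ℝ, A = e₀⁻¹ + C + K₁ + 2 * (M * (C₁ * C₁)) := ⟨_, rfl⟩
  have hA1 : 0 < e₀⁻¹ := by positivity
  have hA2 : (0 : ℝ) ≤ M * (C₁ * C₁) := by positivity
  have hA0 : 0 < A := by rw [hA]; positivity
  obtain ⟨T₂, hT₂⟩ := fb_th_small (lt_min hε (one_div_pos.2 hA0))
  refine ⟨max (max T₁ T₂) 2, M * (C₁ * C₁) + 64 * C ^ 2 * M ^ 2 + 1, by positivity, ?_⟩
  intro V _ _ P Q t₀ T Th hT hTh h κ hκs hκ0 hQ hsep hcross w w₁ hreg hinit hfb
  have hT1 : T₁ ≤ T := le_of_max_le_left (le_of_max_le_left hT)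
  have hT2 : T₂ ≤ T := le_of_max_le_right (le_of_max_le_left hT)
  have hT3 : (2 : ℝ) ≤ T := le_of_max_le_right hT
  have hth : ∀ t : ℝ, (t₀ : ℝ) ≤ t → 0 < th t₀ T t ∧ th t₀ T t ≤ ε ∧
      ∀ (x : ℝ) (k : ℕ), 0 ≤ x → x ≤ A → 1 ≤ k → x * th t₀ T t ^ k ≤ 1 := fun t ht => by
    obtain ⟨a1, a2⟩ := hT₂ t₀ T t hT2 ht
    have a3 := th_pos a1
    have a4 : th t₀ T t * A ≤ 1 := (le_div_iff₀ hA0).1 (a2.trans (min_le_right _ _))
    have a5 : th t₀ T t ≤ 1 := by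
      have : 1 ≤ A := by rw [hA]; linarith
      nlinarith
    refine ⟨a3, a2.trans (min_le_left _ _), fun x k hx0 hx hk => ?_⟩
    have a6 : th t₀ T t ^ k ≤ th t₀ T t := by simpa using pow_le_pow_of_le_one a3.le a5 hk
    nlinarith [mul_le_mul hx a6 (by positivity) hA0.le]
  have hcast : ((t₀ + T : ℕ) : ℝ) = t₀ + T := Nat.cast_add _ _
  have hlo : ∀ n : ℕ, t₀ + T ≤ n → ((t₀ + T : ℕ) : ℝ) ≤ n ∧ (t₀ : ℝ) ≤ n := fun n hn =>
    ⟨by exact_mod_cast hn, by exact_mod_cast (Nat.le_add_right _ _).trans hn⟩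
  have hmem : ∀ n : ℕ, t₀ + T ≤ n → n ≤ Th → (n : ℝ) ∈ Icc (t₀ : ℝ) Th := fun n h1 h2 =>
    ⟨(hlo n h1).2, by exact_mod_cast h2⟩
  have hcn := fun j => hcone V P Q t₀ (t₀ + T : ℕ) Th _ h (by rw [hcast]; linarith)
    (by exact_mod_cast hTh) (by
      have := (hth t₀ le_rfl).2.2 e₀⁻¹ 3 hA1.le (by rw [hA]; linarith) (by norm_num)
      rwa [inv_mul_le_iff₀ he₀, mul_one] at this)
    (fun t ht => fb_exp_le (by linarith) (hcast ▸ ht.1)) (w j) (w₁ j) (hreg j)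
  have ha : ∀ n : ℕ, t₀ + T ≤ n → n ≤ Th → ∀ i, 1 ≤ P.a i n ∧ P.a i n ≤ C := fun n h1 h2 i =>
    fbb_a h hγ (hmem n h1 h2) i
  have hsucc : ∀ n : ℕ, n < Th → (n : ℝ) + 1 ≤ Th := fun n hn => by exact_mod_cast hn
  have hcl : ∀ n : ℕ, t₀ + T ≤ n → n < Th → ∀ i,
      |P.a i (n + 1 : ℕ) - P.a i n| ≤ C * th t₀ T n ^ 6 := fun n h1 h2 i => by
    have := fbb_a_close h (by linarith) (hlo n h1).2 (hsucc n h2) i (t := n + 1)
      ⟨by linarith, le_rfl⟩
    rw [Nat.cast_succ]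
    exact this.trans (le_of_eq (by ring))
  -- the scalar recursion
  let μ : Fin M → Fin M → ℕ → ℝ := fun i j n =>
    if (P.ctl n i j ↔ P.ctl (n + 1) i j) then 1 else 4 * Real.exp C
  have hμ : ∀ i j n, 1 ≤ μ i j n ∧ μ i j n ≤ 4 * Real.exp C := fun i j n => by
    simp only [μ]
    split_ifs
    · exact ⟨le_rfl, hC₄⟩
    · exact ⟨hC₄, le_rfl⟩
  let φ : Fin M → Fin M → ℕ → ℝ := fun i j => fbPhi (t₀ + T) fun n y =>
    μ i j n * ((1 - Real.exp (-C) / 2 * |P.a i n - P.a j n|) * y +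
      (1 + 4 * Real.exp C) * C₃ * th t₀ T n ^ 6)
  have hW : ∀ n : ℕ, t₀ + T ≤ n → n ≤ Th → ∀ i j,
      Real.exp (-C) / 2 * |P.a i n - P.a j n| ≤ 1 := fun n h1 h2 i j => by
    have a1 : |P.a i n - P.a j n| ≤ C := by
      have := ha n h1 h2 i
      have := ha n h1 h2 j
      rw [abs_le]
      constructor <;> linarith
    have a2 : Real.exp (-C) * C ≤ 1 := by
      rw [Real.exp_neg, inv_mul_le_iff₀ hE]
      linarith [Real.add_one_le_exp C]
    nlinarith [Real.exp_pos (-C), abs_nonneg (P.a i n - P.a j n)]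
  have hφs : ∀ n : ℕ, t₀ + T ≤ n → n ≤ Th → ∀ i j, φ i j (n + 1) =
      μ i j n * ((1 - Real.exp (-C) / 2 * |P.a i n - P.a j n|) * φ i j n +
        (1 + 4 * Real.exp C) * C₃ * th t₀ T n ^ 6) := fun n h1 h2 i j => by
    refine (fbPhi_succ _ h1).trans (abs_of_nonneg (mul_nonneg (by linarith [(hμ i j n).1])
      (add_nonneg (mul_nonneg (sub_nonneg.2 (hW n h1 h2 i j)) (fbPhi_nonneg _ _ _)) ?_)))
    positivity
  have hφ : ∀ i j, i ≠ j → ∀ n : ℕ, t₀ + T ≤ n → n ≤ Th → φ i j n ≤ K₁ * th t₀ T n ^ 3 ∧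
      |P.a i n - P.a j n| * φ i j n ≤ K₁ * th t₀ T n ^ 4 := fun i j hij => by
    refine hrec t₀ T (t₀ + T) Th hT1 (Nat.le_add_right _ _) (φ i j)
      (fun n => |P.a i n - P.a j n|) (μ i j) (fbPhi_start _ _) (fbPhi_nonneg _ _)
      (fun n h1 h2 => ⟨abs_nonneg _, hW n h1 h2 i j, hsep n h1 h2 i j hij⟩) fun n h1 h2 => ?_
    have a1 := abs_le.1 (hcl n h1 h2 i)
    have a2 := abs_le.1 (hcl n h1 h2 j)
    have a3 : |P.a i (n + 1 : ℕ) - P.a j (n + 1 : ℕ) - (P.a i n - P.a j n)| ≤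
        2 * C * th t₀ T n ^ 6 := by
      rw [abs_le]
      constructor <;> linarith
    refine ⟨(abs_abs_sub_abs_le_abs_sub _ _).trans a3, (hμ i j n).1, (hμ i j n).2, fun hne => ?_,
      (hφs n h1 h2.le i j).le⟩
    have a4 := fb_switch (P := P) (n := n) (m := n + 1) hij fun hh => hne (if_pos hh)
    refine ⟨le_trans ?_ a3, hcross n h1 h2 i j hij a4⟩
    rw [← sq_le_sq]
    nlinarith [sq_nonneg (P.a i (n + 1 : ℕ) - P.a j (n + 1 : ℕ))]
  -- the invariant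
  let x : ℕ → Fin M → Fin M → ℝ := fun n i j => P.GG (w j) (w₁ j) i n / P.GG (w j) (w₁ j) j n
  have inv : ∀ n : ℕ, t₀ + T ≤ n → n ≤ Th →
      (∀ j, 1 ≤ P.GG (w j) (w₁ j) j n ∧ P.GG (w j) (w₁ j) j n ≤
        Real.exp (∑ m ∈ Finset.Ico (t₀ + T) n, (P.a j m + th t₀ T m ^ 3))) ∧
      ∀ i j, i ≠ j → (if P.ctl n i j then |x n j i| + 4 * Real.exp C * |x n i j|
        else |x n i j| + 4 * Real.exp C * |x n j i|) ≤ φ i j n := by
    intro n h1
    induction n, h1 using Nat.le_induction with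
    | base =>
      intro _
      refine ⟨fun j => by rw [hinit, if_pos rfl]; simp, fun i j hij => ?_⟩
      have e1 : x (t₀ + T) i j = 0 := by simp only [x]; rw [hinit i j, if_neg hij, zero_div]
      have e2 : x (t₀ + T) j i = 0 := by simp only [x]; rw [hinit j i, if_neg hij.symm, zero_div]
      rw [e1, e2]
      simpa using fbPhi_nonneg _ _ _
    | succ n h1 ih =>
      intro h2
      have h2' : n < Th := h2
      obtain ⟨ih1, ih2⟩ := ih h2'.le
      obtain ⟨hϑ, hϑε, -⟩ := hth n (hlo n h1).2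
      have hx : ∀ i j, i ≠ j → |x n i j| ≤ φ i j n := fun i j hij => by
        have := ih2 i j hij
        split_ifs at this <;> nlinarith [abs_nonneg (x n i j), abs_nonneg (x n j i)]
      have hκ : ∀ i k, |κ n i k| ≤ K * th t₀ T n ^ 4 := fun i k => by
        by_cases hik : i = k
        · rw [hik, hκ0, abs_zero]; positivity
        by_cases hc' : P.ctl n i k
        · rw [hfb n h1 h2' i k hc']; exact fba_clamp_le (by positivity) _
        · rw [hκs, hfb n h1 h2' k i (fb_ctl_swap hik hc')]; exact fba_clamp_le (by positivity) _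
      have hI2 : ∀ t ∈ Icc (n : ℝ) (n + 1), t ∈ Icc ((t₀ + T : ℕ) : ℝ) Th := fun t ht =>
        ⟨(hlo n h1).1.trans ht.1, ht.2.trans (hsucc n h2')⟩
      have hn0 : (n : ℝ) ∈ Icc (n : ℝ) (n + 1) := ⟨le_rfl, by linarith⟩
      have st := fun j => hstep V P Q t₀ Th _ n (th t₀ T n) (κ n) (w j) (w₁ j) j h (hlo n h1).2
        (hsucc n h2') hϑ hϑε rfl (hreg j).sol hκ (hκ0 n j)
        (fun t ht i k => (hQ n h1 h2' t ht i k).trans (mul_le_mul_of_nonneg_left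
          (pow_le_pow_left₀ (hth t ((hlo n h1).2.trans ht.1)).1.le
            (th_anti (by linarith [(hlo n h1).2]) ht.1) 6) (by linarith)))
        (fun t ht => ⟨(hcn j t (hI2 t ht)).1, (hcn j t (hI2 t ht)).2.1,
          (hcn j t (hI2 t ht)).2.2.2.1,
          (hcn j n (hI2 n hn0)).2.2.2.2 t ⟨ht.1, le_min ht.2 (hI2 t ht).2⟩⟩)
        (hcn j n (hI2 n hn0)).2.2.1 (ih1 j).1
        (fun i hi => (hx i j hi).trans (hφ i j hi n h1 h2'.le).1)
      simp only [← Nat.cast_succ] at st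
      refine ⟨fun j => ⟨(st j).1, (st j).2.1.trans ?_⟩, fun i j hij => ?_⟩
      · rw [Finset.sum_Ico_succ_top h1, Real.exp_add (∑ m ∈ Finset.Ico (t₀ + T) n, _)]
        exact mul_le_mul_of_nonneg_right (ih1 j).2 (Real.exp_pos _).le
      have key : ∀ i j, P.ctl n i j → ∀ f, |x n j i| + 4 * Real.exp C * |x n i j| ≤ f →
          |P.a i n - P.a j n| * f ≤ K₁ * th t₀ T n ^ 4 →
          |x (n + 1) j i| + 4 * Real.exp C * |x (n + 1) i j| ≤
            (1 - Real.exp (-C) / 2 * |P.a i n - P.a j n|) * f +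
              (1 + 4 * Real.exp C) * C₃ * th t₀ T n ^ 6 := by
        intro i j hc' f hf1 hf2
        have a1 := ha n h1 h2'.le i
        have a2 := ha n h1 h2'.le j
        have a3 : P.fb w w₁ n i j = -(Real.exp (P.a i n - P.a j n) - Real.exp (P.a j n - P.a i n)) *
            x n i j / gain (P.a i n) (P.a j n) := by
          rw [Frame.fb, max_eq_left (by linarith [(ih1 j).1])]
        have a4 : |x n i j| ≤ f := by nlinarith [abs_nonneg (x n i j), abs_nonneg (x n j i)]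
        have a5 : |P.fb w w₁ n i j| ≤ K * th t₀ T n ^ 4 := by
          rw [a3]
          refine (fba_fb_le a2.1 (fb_ctl_le hc') a1.2).trans (le_trans
            (mul_le_mul_of_nonneg_left ((mul_le_mul_of_nonneg_left a4 (abs_nonneg _)).trans hf2)
              (by positivity)) ?_)
          rw [← mul_assoc]
          exact mul_le_mul_of_nonneg_right hK (by positivity)
        have a6 := fba_pair (C := C) (x := x n i j) (y := x n j i) (x' := x (n + 1) i j)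
          (y' := x (n + 1) j i) (κ := κ n i j) (E := C₃ * th t₀ T n ^ 6) a2.1 (fb_ctl_le hc') a1.2
          (by rw [hfb n h1 h2' i j hc', fba_clamp_eq a5, a3]) ((st j).2.2 i)
          (by rw [hκs]; exact (st i).2.2 j)
        have a7 := mul_le_mul_of_nonneg_left hf1 (sub_nonneg.2 (hW n h1 h2'.le i j))
        linarith
      rw [hφs n h1 h2'.le]
      have b1 := abs_nonneg (x (n + 1) i j)
      have b2 := abs_nonneg (x (n + 1) j i)
      have b3 := ih2 i j hij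
      by_cases hc' : P.ctl n i j
      · rw [if_pos hc'] at b3
        have b4 := key i j hc' _ b3 (hφ i j hij n h1 h2'.le).2
        by_cases hc2 : P.ctl (n + 1) i j
        · rw [if_pos hc2, show μ i j n = 1 from if_pos (iff_of_true hc' hc2), one_mul]
          exact b4
        · rw [if_neg hc2, show μ i j n = 4 * Real.exp C from if_neg fun hh => hc2 (hh.1 hc')]
          refine le_trans ?_ (mul_le_mul_of_nonneg_left b4 (by positivity))
          nlinarith [mul_le_mul hC₄ hC₄ zero_le_one (by positivity)]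
      · rw [if_neg hc'] at b3
        have b4 := key j i (fb_ctl_swap hij hc') _ b3
          (by rw [abs_sub_comm]; exact (hφ i j hij n h1 h2'.le).2)
        rw [abs_sub_comm] at b4
        by_cases hc2 : P.ctl (n + 1) i j
        · rw [if_pos hc2, show μ i j n = 4 * Real.exp C from if_neg fun hh => hc' (hh.2 hc2)]
          refine le_trans ?_ (mul_le_mul_of_nonneg_left b4 (by positivity))
          nlinarith [mul_le_mul hC₄ hC₄ zero_le_one (by positivity)]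
        · rw [if_neg hc2, show μ i j n = 1 from if_pos (iff_of_false hc' hc2), one_mul]
          exact b4
  refine ⟨fun j n h1 h2 t ht => ?_, fun v => ?_⟩
  · obtain ⟨i1, i2⟩ := inv n h1 h2
    have hn : (n : ℝ) ∈ Icc ((t₀ + T : ℕ) : ℝ) Th := ⟨(hlo n h1).1, (hmem n h1 h2).2⟩
    have hg0 : 0 < P.GG (w j) (w₁ j) j n := by linarith [(i1 j).1]
    have a1 : ∀ i, |P.GG (w j) (w₁ j) i n| ≤ P.GG (w j) (w₁ j) j n := fun i => by
      by_cases hi : i = j
      · rw [hi, abs_of_pos hg0]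
      · have b1 : |x n i j| ≤ φ i j n := by
          have := i2 i j hi
          split_ifs at this <;> nlinarith [abs_nonneg (x n i j), abs_nonneg (x n j i)]
        have b2 := (b1.trans (hφ i j hi n h1 h2).1).trans
          ((hth n (hlo n h1).2).2.2 K₁ 3 hK₁.le (by rw [hA]; linarith) (by norm_num))
        simp only [x] at b2
        rwa [abs_div, abs_of_pos hg0, div_le_one hg0] at b2
    have a2 : ∑ i, |P.GG (w j) (w₁ j) i n| ≤ M * P.GG (w j) (w₁ j) j n :=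
      (Finset.sum_le_sum fun i _ => a1 i).trans (by simp)
    have a3 := (hcn j n hn).2.2.1.trans (mul_le_mul_of_nonneg_left a2 (by linarith))
    have a4 : ‖w j t‖ ≤ C₁ * ‖w j n‖ := by
      rcases le_total t n with h3 | h3
      · exact (norm_mono_of_sol (hreg j).sol h.pos (hreg j).left ht.1 (ht.1.trans h3) h3).trans
          (le_mul_of_one_le_left (norm_nonneg _) hC₁)
      · exact (hcn j n hn).2.2.2.2 t ⟨h3, ht.2⟩
    have a5 := a4.trans (mul_le_mul_of_nonneg_left a3 (by linarith))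
    have a6 := mul_le_mul_of_nonneg_left (i1 j).2 hA2
    have a7 := mul_nonneg (show (0 : ℝ) ≤ 64 * C ^ 2 * M ^ 2 + 1 by positivity)
      (Real.exp_pos (∑ m ∈ Finset.Ico (t₀ + T) n, (P.a j m + th t₀ T m ^ 3))).le
    linarith
  · have hn : ((t₀ + T : ℕ) : ℝ) ∈ Icc ((t₀ + T : ℕ) : ℝ) Th := ⟨le_rfl, (hmem _ le_rfl hTh).2⟩
    obtain ⟨hϑ, -, hs⟩ := hth _ (hlo _ le_rfl).2
    have a1 := fb_indep (P := P) (w := w) (w₁ := w₁) (β := C₁ * th t₀ T (t₀ + T : ℕ) ^ 3 * C₁)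
      (by linarith : 0 ≤ C) (ha _ le_rfl hTh) (fbb_X_le h (hmem _ le_rfl hTh) (by
        have := hs C 6 (by linarith) (by rw [hA]; linarith) (by norm_num)
        linarith)) hinit (fun i j => by
        refine ((hcn j _ hn).2.1 i).trans (mul_le_mul_of_nonneg_left ?_ (by positivity))
        have := (hcn j _ hn).2.2.1
        simp only [hinit, apply_ite abs, abs_one, abs_zero, Finset.sum_ite_eq', Finset.mem_univ,
          if_true, mul_one] at this
        exact this) (by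
        have := hs (2 * (M * (C₁ * C₁))) 3 (by linarith) (by rw [hA]; linarith) (by norm_num)
        linarith) v
    refine a1.trans (mul_le_mul_of_nonneg_right (by linarith) (sq_nonneg _))

end Crest.Agent.R202
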