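import Crest.Agent.R202.FHDefs
import Crest.Agent.R202.Band
import Crest.Agent.R202.EvSpec
import Crest.Agent.R202.Feedback
import Crest.Agent.R202.Build_a

/-!
# Building the moving frame from discrete data (task C8b)

`X^{(m)}_a = (Y a m k / √(lam k))_{k ∈ low N}`; with `χ = Real.smoothTransition` every discrete quantity `f` is interpolated by
`f t₀ + ∑_{t₀ ≤ m < Th} χ(t-m) (f (m+1) - f m)` (on `[m,m+1]` this is `(1-χ) f m + χ f (m+1)`); `a = interp √(l+q m)`,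
`g = interp √(μ m + q m - γ/2)`.  Truncation errors are `≤ ϑ(Th)⁶` for `N ≥ N₀` by `eig_decay`.
`eig`: each `X^{(m)}`, `X^{(m+1)}` is an approximate eigenvector, `‖D (B t - B₀ m) Y‖ ≤ C ‖B t - B₀ m‖ ‖D Y‖` (`band_mul_le` with
`r = √lam/√lam`).  `coer`: for `h` supported in `low N`, `y = D h` has `mass (Y a m) y = ⟪X^{(m)}_a, h⟫`, so
`⟪B₀ y, y⟫ ≥ μ (‖h‖² - ∑ ⟪X^{(m)}_a, h⟫²)`, and `B t ≥ (1 - 2C₀ϑ³) B₀ m`.  Note `l a m ≥ 1` (`Adm`, `mass_le`).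
-/

set_option autoImplicit false

noncomputable section

open scoped InnerProductSpace ContDiff
open Set Filter Topology

namespace Crest.Agent.R202

variable {n : ℕ} {J : Type} (b : Base n J)

theorem Base.mem_low {N : ℕ} {k : J} : k ∈ b.low N ↔ b.deg k ≤ N := b.bd_mem_low

theorem Base.Qop_apply (S : Finset J) (B : H J →L[ℝ] H J) (q : ℝ) (x : EuclideanSpace ℝ S) (k : S) :
    b.Qop S B q x k = ∑ k₁ : S, b.qe B k k₁ * x k₁ + q * x k := by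
  simp [Base.Qop, Matrix.toLpLin_apply, Matrix.mulVec, dotProduct, add_mul, Finset.sum_add_distrib]

theorem Base.continuous_Qop (S : Finset J) :
    Continuous fun p : (H J →L[ℝ] H J) × ℝ => b.Qop S p.1 p.2 := by
  refine continuous_clm_apply.2 fun x => ?_
  refine (PiLp.continuous_toLp 2 _).comp (continuous_pi fun k => ?_)
  refine Continuous.congr ?_ fun p => (b.Qop_apply S p.1 p.2 x k).symm
  refine (continuous_finsetSum _ fun k₁ _ => (continuous_const.mul ?_).mul continuous_const).add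
    (continuous_snd.mul continuous_const)
  exact (continuous_apply (k : J)).comp (lp.uniformContinuous_coe.continuous.comp
    (continuous_fst.clm_apply continuous_const))

theorem Base.inner_Qop {S : Finset J} (B : H J →L[ℝ] H J) (q : ℝ) (x y : EuclideanSpace ℝ S) :
    ⟪b.Qop S B q x, y⟫_ℝ = ⟪B (b.ex S x), b.ex S y⟫_ℝ + q * ⟪x, y⟫_ℝ := by
  rw [b.inner_ex, PiLp.inner_apply, PiLp.inner_apply, Finset.mul_sum, ← Finset.sum_add_distrib]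
  refine Finset.sum_congr rfl fun k _ => ?_
  rw [b.Qop_apply, b.map_ex]
  simp only [RCLike.inner_apply, conj_trivial, Base.qe, mul_add, Finset.mul_sum, Finset.sum_mul]
  congr 1
  · exact Finset.sum_congr rfl fun k₁ _ => by ring
  · ring

theorem Base.bd_eig {d N : ℕ} {B B₀ : H J →L[ℝ] H J} (hB : b.Banded d B) (hB₀ : b.Banded d B₀)
    (hB2 : ‖B‖ ≤ 2) {y : H J} {l R τ : ℝ} (hy : B₀ y = l • b.K y) (hR : 0 ≤ R) (hτ : 0 ≤ τ)
    (h1 : b.Wt y R) (h2 : b.Wt (y - b.ex _ (b.tr (b.low N) y)) τ) (q s : ℝ) :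
    ‖b.Qop (b.low N) B q (b.tr _ y) - s • b.tr _ y‖ ≤
      (2 * d + 1) * (d + 1) * (‖B - B₀‖ * R + 2 * τ) + |l + q - s| * R := by
  have hb : b.Banded d (B - B₀) := fun k k' h => by
    have h3 := hB k k' h
    have h4 := hB₀ k k' h
    simp only [ent] at h3 h4
    simp [ent, h3, h4]
  have key : ∀ h, ⟪b.Qop (b.low N) B q (b.tr _ y) - s • b.tr _ y, h⟫_ℝ ≤
      ((2 * d + 1) * (d + 1) * (‖B - B₀‖ * R + 2 * τ) + |l + q - s| * R) * ‖h‖ := fun h => by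
    have h3 := (abs_le.1 (b.bd_weight hb hR h1 h)).2
    have h4 := (abs_le.1 (b.bd_weight hB hτ h2 h)).1
    have h5 : (l + q - s) * ⟪b.tr _ y, h⟫_ℝ ≤ |l + q - s| * (R * ‖h‖) := by
      refine (le_abs_self _).trans ?_
      rw [abs_mul]
      exact mul_le_mul_of_nonneg_left ((abs_real_inner_le_norm _ _).trans
        (mul_le_mul_of_nonneg_right ((b.norm_tr_le y).trans (h1.norm_le hR)) (norm_nonneg _)))
        (abs_nonneg _)
    have h6 : (2 * d + 1) * (d + 1) * ‖B‖ * τ * ‖h‖ ≤ (2 * d + 1) * (d + 1) * 2 * τ * ‖h‖ := by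
      gcongr
    rw [sub_apply, inner_sub_left, hy, real_inner_smul_left, ← Base.mass,
      b.mass_ex] at h3
    rw [map_sub, inner_sub_left] at h4
    rw [inner_sub_left, b.inner_Qop, real_inner_smul_left]
    linarith
  have h3 := key (b.Qop (b.low N) B q (b.tr _ y) - s • b.tr _ y)
  rw [real_inner_self_eq_norm_sq, sq] at h3
  rcases (norm_nonneg (b.Qop (b.low N) B q (b.tr _ y) - s • b.tr _ y)).eq_or_lt with h4 | h4
  · rw [← h4]; positivity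
  · exact le_of_mul_le_mul_right h3 h4

theorem Base.bd_unif {ε : ℝ} (hε : 0 < ε) (C : ℝ) : ∃ R : ℝ, 0 ≤ R ∧
    (∀ y : H J, (∀ k, |y k| ≤ C * Real.exp (-(ε * b.deg k))) → b.Wt y R) ∧
    ∀ τ : ℝ, 0 < τ → ∃ N₀ : ℕ, ∀ N, N₀ ≤ N → ∀ y : H J,
      (∀ k, |y k| ≤ C * Real.exp (-(ε * b.deg k))) → b.Wt (y - b.ex _ (b.tr (b.low N) y)) τ := by
  classical
  have hs := (b.summable_poly_exp 2 (show 0 < 2 * ε by positivity)).mul_left (n * C ^ 2)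
  set w : J → ℝ := fun k => n * C ^ 2 * (((b.deg k : ℝ) + 1) ^ 2 * Real.exp (-(2 * ε * b.deg k)))
  have hw0 : ∀ k, 0 ≤ w k := fun k => by positivity
  have hw : ∀ y : H J, (∀ k, |y k| ≤ C * Real.exp (-(ε * b.deg k))) → ∀ k,
      b.lam k * y k ^ 2 ≤ w k := fun y hy k => by
    have h1 := pow_le_pow_left₀ (abs_nonneg _) (hy k) 2
    rw [sq_abs, mul_pow, ← Real.exp_nat_mul] at h1
    have h2 : b.lam k ≤ n * ((b.deg k : ℝ) + 1) ^ 2 := by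
      have h3 : (3 : ℝ) ≤ n := by exact_mod_cast b.hn
      have h4 : (0 : ℝ) ≤ b.deg k := Nat.cast_nonneg _
      unfold Base.lam
      nlinarith [mul_nonneg h4 h4, mul_nonneg (show (0 : ℝ) ≤ n - 1 by linarith) (mul_nonneg h4 h4),
        mul_nonneg (show (0 : ℝ) ≤ n by linarith) h4]
    refine (mul_le_mul h2 h1 (sq_nonneg _) (by positivity)).trans_eq ?_
    simp only [w]
    rw [show ((2 : ℕ) : ℝ) * -(ε * b.deg k) = -(2 * ε * b.deg k) by push_cast; ring]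
    ring
  refine ⟨√(∑' k, w k), Real.sqrt_nonneg _, fun y hy s => ?_, fun τ hτ => ?_⟩
  · rw [Real.sq_sqrt (tsum_nonneg hw0)]
    exact (Finset.sum_le_sum fun k _ => hw y hy k).trans (hs.sum_le_tsum s fun k _ => hw0 k)
  obtain ⟨s₀, h0⟩ := summable_iff_vanishing_norm.1 hs (τ ^ 2) (by positivity)
  refine ⟨s₀.sup b.deg, fun N hN y hy s => ?_⟩
  have h1 := h0 (s \ b.low N) (Finset.disjoint_left.2 fun k hk hk' => (Finset.mem_sdiff.1 hk).2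
    (b.mem_low.2 ((Finset.le_sup hk').trans hN)))
  refine le_trans ?_ ((le_abs_self _).trans h1.le)
  rw [← Finset.sum_subset (Finset.sdiff_subset (s := s) (t := b.low N)) fun k hk hk' => by
    have : k ∈ b.low N := by simpa [hk] using hk'
    rw [lp.coeFn_sub, Pi.sub_apply, b.ex_tr_apply y this, sub_self]
    simp]
  refine Finset.sum_le_sum fun k hk => ?_
  rw [lp.coeFn_sub, Pi.sub_apply, b.ex_apply_of_notMem _ (Finset.mem_sdiff.1 hk).2, sub_zero]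
  exact hw y hy k

theorem Base.bd_loc {d N M : ℕ} {C₀ R θ χ q μ : ℝ} {B B₀ B₁ : H J →L[ℝ] H J}
    {Y Y' : Fin M → H J} {l l' A : Fin M → ℝ} {X : Fin M → EuclideanSpace ℝ (b.low N)}
    (hC₀ : 0 < C₀) (hθ : 0 < θ) (hθ1 : θ ≤ 1) (hθ2 : 2 * C₀ * θ ^ 3 ≤ 1) (hχ : χ ∈ Icc (0 : ℝ) 1)
    (hR : 0 ≤ R) (hq : 0 ≤ q) (hq' : q ≤ C₀) (hμ : 0 ≤ μ) (hμ' : μ ≤ C₀)
    (hB : Adm B) (hB₀ : Adm B₀) (bB : b.Banded d B) (bB₀ : b.Banded d B₀) (bB₁ : b.Banded d B₁)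
    (hY : b.EigFam B₀ Y l) (hY' : b.EigFam B₁ Y' l')
    (hh : ∀ y, (∀ a, b.mass (Y a) y = 0) → μ * b.mass y y ≤ ⟪B₀ y, y⟫_ℝ)
    (wY : ∀ a, b.Wt (Y a) R ∧ b.Wt (Y a - b.ex _ (b.tr (b.low N) (Y a))) (θ ^ 6))
    (wY' : ∀ a, b.Wt (Y' a) R ∧ b.Wt (Y' a - b.ex _ (b.tr (b.low N) (Y' a))) (θ ^ 6))
    (dY : ∀ a, ‖Y' a - Y a‖ ≤ C₀ * θ ^ 6) (dl : ∀ a, |l' a - l a| ≤ C₀ * θ ^ 6)
    (dB : ‖B - B₀‖ ≤ C₀ * θ ^ 3) (dB₁ : ‖B₁ - B₀‖ ≤ C₀ * θ ^ 6)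
    (hX : ∀ a, X a = b.tr _ (Y a) + χ • (b.tr _ (Y' a) - b.tr _ (Y a)))
    (hA : ∀ a, |A a ^ 2 - (l a + q)| ≤ 3 * C₀ * θ ^ 6) :
    (∀ a c, |⟪X a, X c⟫_ℝ - if a = c then 1 else 0| ≤ 4 * R * (C₀ + 1) * θ ^ 6) ∧
    (∀ a, ‖b.Qop _ B q (X a) - A a ^ 2 • X a‖ ≤
      ((2 * d + 1) * (d + 1) * (2 * C₀ * R + 2) + 4 * C₀ * R) * θ ^ 3) ∧
    (∀ a c, |⟪b.Qop _ B q (X a), X c⟫_ℝ - (if a = c then A a ^ 2 else 0) -
      ⟪(B - B₀) (Y a), Y c⟫_ℝ| ≤ (4 * R * (C₀ + 1) * (C₀ + 1) + 3 * C₀) * θ ^ 6) ∧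
    ∀ h, (μ + q - (2 * C₀ ^ 2 + 2 * M * C₀ ^ 3) * θ ^ 3) * ‖h‖ ^ 2 -
      2 * C₀ * ∑ a, ⟪X a, h⟫_ℝ ^ 2 ≤ ⟪b.Qop _ B q h, h⟫_ℝ := by
  have h63 : θ ^ 6 ≤ θ ^ 3 := pow_le_pow_of_le_one hθ.le hθ1 (by norm_num)
  have h6 : 0 < θ ^ 6 := by positivity
  have hΔ : ∀ a, ‖χ • (Y' a - Y a)‖ ≤ C₀ * θ ^ 6 := fun a => by
    rw [norm_smul, Real.norm_of_nonneg hχ.1]
    exact (mul_le_of_le_one_left (norm_nonneg _) hχ.2).trans (dY a)
  have hX' : ∀ a, X a = b.tr _ (Y a + χ • (Y' a - Y a)) := fun a => by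
    rw [hX, map_add, map_smul, map_sub]
  have hn : ∀ a, ‖Y a‖ ≤ R := fun a => (wY a).1.norm_le hR
  have h1 : ∀ a, ‖b.ex _ (X a)‖ ≤ R := fun a => by
    rw [hX']
    refine (b.norm_ex_tr_le _).trans ?_
    rw [show Y a + χ • (Y' a - Y a) = (1 - χ) • Y a + χ • Y' a by module]
    refine (norm_add_le _ _).trans ?_
    rw [norm_smul, norm_smul, Real.norm_of_nonneg hχ.1, Real.norm_of_nonneg (sub_nonneg.2 hχ.2)]
    nlinarith [hn a, (wY' a).1.norm_le hR, hχ.1, hχ.2]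
  have h2 : ∀ a, ‖b.ex _ (X a) - Y a‖ ≤ (C₀ + 1) * θ ^ 6 := fun a => by
    rw [hX', b.ex_tr_add, add_sub_right_comm]
    have h3 := (wY a).2.norm_le h6.le
    rw [norm_sub_rev] at h3
    linarith [norm_add_le (b.ex _ (b.tr (b.low N) (Y a)) - Y a)
      (b.ex _ (b.tr (b.low N) (χ • (Y' a - Y a)))), (b.norm_ex_tr_le (S := b.low N) _).trans (hΔ a)]
  have hg : ∀ a c, |⟪X a, X c⟫_ℝ - if a = c then 1 else 0| ≤ 4 * R * (C₀ + 1) * θ ^ 6 :=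
    fun a c => by
      rw [← hY.orth, ← b.mass_ex_ex, mul_assoc]
      exact bd_pert b.norm_K_le (hn a) (h1 c) (h2 a) (h2 c)
  refine ⟨hg, fun a => ?_, fun a c => ?_, fun h => ?_⟩
  · have key : ∀ {B' : H J →L[ℝ] H J} {y : H J} {s : ℝ}, b.Banded d B' → B' y = s • b.K y →
        b.Wt y R ∧ b.Wt (y - b.ex _ (b.tr (b.low N) y)) (θ ^ 6) → ‖B - B'‖ ≤ 2 * C₀ * θ ^ 3 →
        |s + q - A a ^ 2| ≤ 4 * C₀ * θ ^ 3 →
        ‖b.Qop (b.low N) B q (b.tr _ y) - A a ^ 2 • b.tr _ y‖ ≤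
          ((2 * d + 1) * (d + 1) * (2 * C₀ * R + 2) + 4 * C₀ * R) * θ ^ 3 :=
      fun {B' y s} h3 h4 h5 h7 h8 => by
        refine (b.bd_eig bB h3 (adm_norm_le hB) h4 hR h6.le h5.1 h5.2 q _).trans ?_
        calc _ ≤ (2 * d + 1) * (d + 1) * (2 * C₀ * θ ^ 3 * R + 2 * θ ^ 3) + 4 * C₀ * θ ^ 3 * R := by
              gcongr
          _ = _ := by ring
    have h7 := mul_le_mul_of_nonneg_left h63 hC₀.le
    have h8 := abs_le.1 (hA a)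
    have h9 := abs_le.1 (dl a)
    have h10 := mul_pos hC₀ h6
    have k1 := key bB₀ (hY.eig a) (wY a) (by linarith) (abs_le.2 ⟨by linarith, by linarith⟩)
    have k2 := key bB₁ (hY'.eig a) (wY' a) (by
      rw [norm_sub_rev] at dB₁
      linarith [norm_sub_le_norm_sub_add_norm_sub B B₀ B₁]) (abs_le.2 ⟨by linarith, by linarith⟩)
    have e : b.Qop _ B q (X a) - A a ^ 2 • X a =
        (1 - χ) • (b.Qop (b.low N) B q (b.tr _ (Y a)) - A a ^ 2 • b.tr _ (Y a)) +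
          χ • (b.Qop (b.low N) B q (b.tr _ (Y' a)) - A a ^ 2 • b.tr _ (Y' a)) := by
      rw [hX, map_add, map_smul, map_sub]; module
    rw [e]
    refine (norm_add_le _ _).trans ?_
    rw [norm_smul, norm_smul, Real.norm_of_nonneg hχ.1, Real.norm_of_nonneg (sub_nonneg.2 hχ.2)]
    linarith [mul_le_mul_of_nonneg_left k1 (sub_nonneg.2 hχ.2), mul_le_mul_of_nonneg_left k2 hχ.1]
  · have h3 := abs_le.1 (bd_pert (adm_norm_le hB) (hn a) (h1 c) (h2 a) (h2 c))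
    have h4 : |q * (⟪X a, X c⟫_ℝ - if a = c then 1 else 0)| ≤ C₀ * (4 * R * (C₀ + 1) * θ ^ 6) := by
      rw [abs_mul, abs_of_nonneg hq]
      exact mul_le_mul hq' (hg a c) (abs_nonneg _) hC₀.le
    have h5 := abs_le.1 h4
    have h8 := abs_le.1 (hA a)
    have h10 := mul_pos hC₀ h6
    rw [b.inner_Qop, sub_apply, inner_sub_left, hY.eig, real_inner_smul_left, ← Base.mass, hY.orth,
      abs_le]
    split_ifs at h5 ⊢ <;> constructor <;> linarith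
  · have h3 := b.bd_high hB₀ hY hh (b.ex _ h)
    rw [b.mass_ex_ex, real_inner_self_eq_norm_sq] at h3
    have h4 : ∑ a, b.mass (Y a) (b.ex _ h) ^ 2 ≤
        2 * ∑ a, ⟪X a, h⟫_ℝ ^ 2 + 2 * M * C₀ ^ 2 * θ ^ 3 * ‖h‖ ^ 2 := by
      have h5 : ∀ a, b.mass (Y a) (b.ex _ h) ^ 2 ≤
          2 * ⟪X a, h⟫_ℝ ^ 2 + 2 * C₀ ^ 2 * θ ^ 3 * ‖h‖ ^ 2 := fun a => by
        have h7 : |⟪b.tr _ (χ • (Y' a - Y a)), h⟫_ℝ| ≤ C₀ * θ ^ 3 * ‖h‖ :=
          (abs_real_inner_le_norm _ _).trans (mul_le_mul_of_nonneg_right (((b.norm_tr_le _).trans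
            (hΔ a)).trans (mul_le_mul_of_nonneg_left h63 hC₀.le)) (norm_nonneg _))
        have h8 := pow_le_pow_left₀ (abs_nonneg _) h7 2
        have h9 : (C₀ * θ ^ 3 * ‖h‖) ^ 2 ≤ C₀ ^ 2 * θ ^ 3 * ‖h‖ ^ 2 := by
          rw [mul_pow, mul_pow, ← pow_mul]; gcongr
        rw [sq_abs] at h8
        rw [b.mass_ex, hX', map_add, inner_add_left]
        nlinarith [sq_nonneg (⟪b.tr _ (Y a), h⟫_ℝ + 2 * ⟪b.tr _ (χ • (Y' a - Y a)), h⟫_ℝ)]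
      refine (Finset.sum_le_sum fun a _ => h5 a).trans_eq ?_
      rw [Finset.sum_add_distrib, Finset.mul_sum, Finset.sum_const, Finset.card_univ,
        Fintype.card_fin, nsmul_eq_mul]
      ring
    have h5 : |⟪(B - B₀) (b.ex _ h), b.ex _ h⟫_ℝ| ≤ C₀ * θ ^ 3 * ‖b.ex _ h‖ * ‖b.ex _ h‖ :=
      (abs_real_inner_le_norm _ _).trans (mul_le_mul_of_nonneg_right
        ((B - B₀).le_of_opNorm_le dB _) (norm_nonneg _))
    rw [sub_apply, inner_sub_left] at h5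
    have h7 := mul_le_mul_of_nonneg_left (hB₀.2 (b.ex _ h)).1 (show 0 ≤ 2 * C₀ * θ ^ 3 by positivity)
    have h8 := mul_le_mul_of_nonneg_left h3 (sub_nonneg.2 hθ2)
    have h9 : 0 ≤ ∑ a, b.mass (Y a) (b.ex _ h) ^ 2 := Finset.sum_nonneg fun a _ => sq_nonneg _
    have h10 := mul_le_mul hμ' h4 h9 hC₀.le
    have h11 := mul_le_mul_of_nonneg_left hμ' (show 0 ≤ 2 * C₀ * θ ^ 3 * ‖h‖ ^ 2 by positivity)
    have h12 := mul_nonneg (mul_nonneg (show 0 ≤ 2 * C₀ * θ ^ 3 by positivity) hμ) h9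
    rw [b.inner_Qop, real_inner_self_eq_norm_sq]
    linarith [(abs_le.1 h5).1]

theorem Base.exists_frame (d M : ℕ) (C₀ γ : ℝ) (hC₀ : 0 < C₀) (hγ : 0 < γ) :
    ∃ C γ' ε T₀ : ℝ, 1 ≤ C ∧ 0 < γ' ∧ 0 < ε ∧ ∀ t₀ T Th : ℕ, T₀ ≤ T → t₀ ≤ Th →
      ∀ (B₀ : ℕ → H J →L[ℝ] H J) (Y : Fin M → ℕ → H J) (l : Fin M → ℕ → ℝ) (μ : ℕ → ℝ) (q : ℝ → ℝ),
      b.Disc d M C₀ γ t₀ T Th B₀ Y l μ q → ∃ N₀ : ℕ, ∀ N, N₀ ≤ N →
      ∃ P : Frame (EuclideanSpace ℝ (b.low N)) M,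
        (∀ a (m : ℕ), t₀ ≤ m → m ≤ Th → P.a a m = √(l a m + q m)) ∧
        (∀ a k, |P.X a Th k| ≤ C * Real.exp (-(ε * b.deg k))) ∧
        ∀ (B : ℝ → H J →L[ℝ] H J) (κ : ℕ → Fin M → Fin M → ℝ),
          (∀ t x y, ⟪B t x, y⟫_ℝ = ⟪x, B t y⟫_ℝ) → (∀ t, 0 ≤ t → Adm (B t)) →
          (∀ t, b.Banded d (B t)) →
          (∀ m : ℕ, t₀ ≤ m → ∀ t ∈ Icc (m : ℝ) (m + 1), ‖B t - B₀ m‖ ≤ C₀ * th t₀ T m ^ 3 ∧
            ∀ a c, |⟪(B t - B₀ m) (Y a m), Y c m⟫_ℝ - pulse (t - m) * κ m a c| ≤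
              C₀ * th t₀ T m ^ 6) →
          DynHyp P (fun t => b.Qop (b.low N) (B t) (q t)) C γ' t₀ Th (fun t => th t₀ T t ^ 3) ∧
          ∀ m : ℕ, t₀ ≤ m → m < Th → ∀ t ∈ Icc (m : ℝ) (m + 1), ∀ a c,
            |⟪b.Qop (b.low N) (B t) (q t) (P.X a t), P.X c t⟫_ℝ - (if a = c then P.a a t ^ 2 else 0) -
              pulse (t - m) * κ m a c| ≤ C * th t₀ T t ^ 6 := by
  obtain ⟨χ, c, hc, hχ0, hχ, hint⟩ := bd_interp
  obtain ⟨ε, hε, hdec⟩ := b.eig_decay d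
  obtain ⟨Cd, hdec⟩ := hdec C₀
  obtain ⟨R, hR, hW, hτ⟩ := b.bd_unif hε Cd
  obtain ⟨K, ⟨⟨⟨⟨⟨k1, k2⟩, k3⟩, k4⟩, k5⟩, k6⟩⟩ := ((((((eventually_ge_atTop (C₀ + 1)).and
    (eventually_ge_atTop Cd)).and (eventually_ge_atTop (c * (2 * C₀)))).and
    (eventually_ge_atTop (4 * R * (C₀ + 1)))).and
    (eventually_ge_atTop ((2 * d + 1) * (d + 1) * (2 * C₀ * R + 2) + 4 * C₀ * R))).and
    (eventually_ge_atTop (4 * R * (C₀ + 1) * (C₀ + 1) + 3 * C₀ + C₀))).exists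
  obtain ⟨γ', hγ', hγ1⟩ : ∃ γ' : ℝ, 0 < γ' ∧ 2 * (C₀ + 1) * γ' + γ' ^ 2 ≤ γ / 4 := by
    refine ⟨min 1 (γ / 4 / (2 * (C₀ + 1) + 1)), by positivity, ?_⟩
    have h1 := min_le_left 1 (γ / 4 / (2 * (C₀ + 1) + 1))
    have h2 := (le_div_iff₀ (by positivity)).1 (min_le_right 1 (γ / 4 / (2 * (C₀ + 1) + 1)))
    have h3 : 0 < min 1 (γ / 4 / (2 * (C₀ + 1) + 1)) := by positivity
    nlinarith
  set K₀ : ℝ := 2 * C₀ ^ 2 + 2 * M * C₀ ^ 3 with hK₀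
  have hK₀' : 0 < K₀ + 3 * C₀ := by positivity
  obtain ⟨T₀, hT₀, hth⟩ := bd_th_small
    (show 0 < min 1 (min (1 / (2 * C₀)) (γ / 4 / (K₀ + 3 * C₀))) by positivity)
  refine ⟨3 * K, γ', ε, T₀, by linarith, hγ', hε, fun t₀ T Th hT hTh B₀ Y l μ q D => ?_⟩
  have hT1 : (1 : ℝ) ≤ T := hT₀.trans hT
  have hcast : ∀ {m : ℕ}, t₀ ≤ m → (t₀ : ℝ) ≤ m := fun h => by exact_mod_cast h
  have hl : ∀ a m, t₀ ≤ m → 1 ≤ l a m ∧ l a m ≤ C₀ ∧
      ∀ k, |Y a m k| ≤ Cd * Real.exp (-(ε * b.deg k)) := fun a m hm => by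
    have h1 : b.mass (Y a m) (Y a m) = 1 := by simpa using (D.eig m hm).orth a a
    have h2 := ((D.adm m hm).2 (Y a m)).1
    rw [(D.eig m hm).eig a, real_inner_smul_left, ← Base.mass, h1] at h2
    have h3 : l a m ≤ C₀ := by linarith [D.gap a m hm, D.μ_le m hm]
    exact ⟨by linarith [b.mass_le (Y a m)], h3,
      hdec _ (D.adm m hm) (D.band m) _ _ ((D.eig m hm).eig a) h3 h1⟩
  have hτ0 := pow_pos (bd_th_pos hT1 (hcast hTh)) 6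
  obtain ⟨N₀, hN₀⟩ := hτ _ hτ0
  refine ⟨N₀, fun N hN => ?_⟩
  choose X X₁ X₂ dX dX₁ hX using fun a => hint _ (fun m => b.tr (b.low N) (Y a m)) t₀ Th
  choose A A₁ A₂ dA _ hA using fun a => hint _ (fun m : ℕ => √(l a m + q m)) t₀ Th
  obtain ⟨g, g₁, g₂, dg, -, hg⟩ := hint _ (fun m : ℕ => √(μ m + q m - γ / 2)) t₀ Th
  have hq0 : ∀ {m : ℕ}, t₀ ≤ m → 0 ≤ q m := fun h => D.q_nonneg _ (hcast h)
  have hsq : ∀ u : ℝ, u ≤ 2 * C₀ → √u ≤ C₀ + 1 := fun u hu => by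
    rw [Real.sqrt_le_left (by positivity)]; nlinarith
  have hag : ∀ a m, t₀ ≤ m → √(l a m + q m) + γ' ≤ √(μ m + q m - γ / 2) := fun a m hm => by
    refine Real.le_sqrt_of_sq_le ?_
    have h1 := hsq (l a m + q m) (by linarith [(hl a m hm).2.1, D.q_le m])
    rw [add_sq, Real.sq_sqrt (by linarith [(hl a m hm).1, hq0 hm])]
    nlinarith [D.gap a m hm]
  have hsc : ∀ m : ℕ, t₀ ≤ m → m ≤ Th → ∀ t ∈ Icc (m : ℝ) (m + 1),
      (∀ a, 1 ≤ A a t ∧ A a t + γ' ≤ g t ∧ |A₁ a t| ≤ K * th t₀ T m ^ 6 ∧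
        |A a t ^ 2 - (l a m + q t)| ≤ 3 * C₀ * th t₀ T m ^ 6 ∧
        ‖X₁ a t‖ ≤ K * th t₀ T m ^ 6 ∧ ‖X₂ a t‖ ≤ K * th t₀ T m ^ 6) ∧
      1 ≤ g t ∧ g t ≤ C₀ + 1 ∧ |g₁ t| ≤ K * th t₀ T m ^ 6 ∧
        g t ^ 2 ≤ μ m + q t - γ / 2 + 3 * C₀ * th t₀ T m ^ 6 := fun m hm hm' t ht => by
    have hm1 : t₀ ≤ m + 1 := by omega
    have h6 := pow_pos (bd_th_pos hT1 (hcast hm)) 6
    have hδ : c * (2 * C₀ * th t₀ T m ^ 6) ≤ K * th t₀ T m ^ 6 := by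
      rw [← mul_assoc]; gcongr
    have q1 := abs_le.1 (D.dq m hm (m + 1 : ℕ) ⟨by simp, by simp⟩)
    have q2 := abs_le.1 (D.dq m hm t ht)
    obtain ⟨c0, c1⟩ := hχ (t - m)
    obtain ⟨e1, e2, -⟩ := hg m hm hm' t ht
    have u0 : 1 ≤ μ m + q m - γ / 2 := by linarith [D.μ_ge m hm, hq0 hm]
    have u1 : 1 ≤ μ (m + 1) + q (m + 1 : ℕ) - γ / 2 := by linarith [D.μ_ge _ hm1, hq0 hm1]
    have d1 := abs_le.1 (D.dμ m hm)
    obtain ⟨s1, s2⟩ := bd_sqrt u0 u1 (η := 2 * C₀ * th t₀ T m ^ 6)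
      (abs_le.2 ⟨by linarith, by linarith⟩) ⟨c0, c1⟩
    rw [smul_eq_mul] at e1
    have c2 := sub_nonneg.2 c1
    refine ⟨fun a => ?_, ?_, ?_, (e2.trans (mul_le_mul_of_nonneg_left s1 hc)).trans hδ, ?_⟩
    · obtain ⟨f1, f2, -⟩ := hA a m hm hm' t ht
      obtain ⟨-, f3, f4⟩ := hX a m hm hm' t ht
      have v0 : 1 ≤ l a m + q m := by linarith [(hl a m hm).1, hq0 hm]
      have v1 : 1 ≤ l a (m + 1) + q (m + 1 : ℕ) := by linarith [(hl a _ hm1).1, hq0 hm1]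
      have d2 := abs_le.1 (D.dl a m hm)
      obtain ⟨s3, s4⟩ := bd_sqrt v0 v1 (η := 2 * C₀ * th t₀ T m ^ 6)
        (abs_le.2 ⟨by linarith, by linarith⟩) ⟨c0, c1⟩
      rw [smul_eq_mul] at f1
      have f5 : c * ‖b.tr (b.low N) (Y a (m + 1)) - b.tr (b.low N) (Y a m)‖ ≤ K * th t₀ T m ^ 6 := by
        rw [← map_sub]
        refine le_trans (mul_le_mul_of_nonneg_left (((b.norm_tr_le _).trans (D.dY a m hm)).trans
          ?_) hc) hδ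
        linarith only [mul_pos hC₀ h6]
      rw [← f1] at s4
      refine ⟨?_, ?_, (f2.trans (mul_le_mul_of_nonneg_left s3 hc)).trans hδ,
        abs_le.2 ⟨by linarith only [(abs_le.1 s4).1, q2.2], by linarith only [(abs_le.1 s4).2, q2.1]⟩,
        f3.trans f5, f4.trans f5⟩
      · rw [f1]
        linarith only [mul_le_mul_of_nonneg_left (Real.one_le_sqrt.2 v0) c2,
          mul_le_mul_of_nonneg_left (Real.one_le_sqrt.2 v1) c0]
      · rw [f1, e1]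
        linarith only [mul_le_mul_of_nonneg_left (hag a m hm) c2,
          mul_le_mul_of_nonneg_left (hag a _ hm1) c0]
    · rw [e1]
      linarith only [mul_le_mul_of_nonneg_left (Real.one_le_sqrt.2 u0) c2,
        mul_le_mul_of_nonneg_left (Real.one_le_sqrt.2 u1) c0]
    · rw [e1]
      linarith only [mul_le_mul_of_nonneg_left
        (hsq (μ m + q m - γ / 2) (by linarith [D.μ_le m hm, D.q_le m])) c2,
        mul_le_mul_of_nonneg_left (hsq (μ (m + 1) + q (m + 1 : ℕ) - γ / 2)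
          (by linarith [D.μ_le _ hm1, D.q_le (m + 1 : ℕ)])) c0]
    · rw [← e1] at s2
      linarith only [(abs_le.1 s2).2, q2.1]
  have hend : ∀ m : ℕ, (m : ℝ) ∈ Icc (m : ℝ) (m + 1) := fun m => ⟨le_rfl, by linarith⟩
  refine ⟨⟨X, X₁, X₂, A, A₁, g, g₁⟩, fun a m hm hm' => ?_, fun a k => ?_,
    fun B κ hBs hBa hBb hB => ?_⟩
  · simpa [hχ0] using (hA a m hm hm' m (hend m)).1
  · have h1 : X a Th = b.tr (b.low N) (Y a Th) := by
      simpa [hχ0] using (hX a Th hTh le_rfl Th (hend Th)).1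
    change |X a Th k| ≤ _
    rw [h1, b.tr_apply, abs_div, abs_of_pos (b.bd_sqrt_pos k)]
    refine (div_le_self (abs_nonneg _) (Real.one_le_sqrt.2 (by linarith [b.two_le_lam k]))).trans
      (((hl a Th hTh).2.2 k).trans (mul_le_mul_of_nonneg_right (by linarith) (Real.exp_pos _).le))
  have hsm : ∀ m : ℕ, t₀ ≤ m → th t₀ T m ≤ 1 ∧ 2 * C₀ * th t₀ T m ^ 3 ≤ 1 ∧
      (K₀ + 3 * C₀) * th t₀ T m ^ 3 ≤ γ / 4 := fun m hm => by
    have h1 := hth t₀ T m hT (hcast hm)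
    have h2 := h1.trans (min_le_left _ _)
    have h3 := ((pow_le_of_le_one (bd_th_pos hT1 (hcast hm)).le h2 three_ne_zero).trans h1).trans
      (min_le_right _ _)
    exact ⟨h2, (le_div_iff₀' (by positivity)).1 (h3.trans (min_le_left _ _)),
      (le_div_iff₀' hK₀').1 (h3.trans (min_le_right _ _))⟩
  have hloc := fun (m : ℕ) (hm : t₀ ≤ m) (hm' : m ≤ Th) t (ht : t ∈ Icc (m : ℝ) (m + 1)) =>
    have hw : ∀ a m', t₀ ≤ m' → b.Wt (Y a m') R ∧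
        b.Wt (Y a m' - b.ex _ (b.tr (b.low N) (Y a m'))) (th t₀ T m ^ 6) := fun a m' h =>
      ⟨hW _ (hl a m' h).2.2, (hN₀ N hN _ (hl a m' h).2.2).mono hτ0.le (pow_le_pow_left₀
        (bd_th_pos hT1 (hcast hTh)).le (bd_th_anti hT1 (hcast hm) (by exact_mod_cast hm')) 6)⟩
    b.bd_loc (A := fun a => A a t) (X := fun a => X a t) hC₀ (bd_th_pos hT1 (hcast hm)) (hsm m hm).1
      (hsm m hm).2.1 (hχ (t - m)) hR (D.q_nonneg t ((hcast hm).trans ht.1)) (D.q_le t)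
      (by linarith [D.μ_ge m hm]) (D.μ_le m hm) (hBa t ((Nat.cast_nonneg m).trans ht.1))
      (D.adm m hm) (hBb t) (D.band m) (D.band (m + 1)) (D.eig m hm) (D.eig (m + 1) (by omega))
      (D.high m hm) (fun a => hw a m hm) (fun a => hw a (m + 1) (by omega)) (fun a => D.dY a m hm)
      (fun a => D.dl a m hm) (hB m hm t ht).1 (D.dB m hm) (fun a => (hX a m hm hm' t ht).1)
      (fun a => ((hsc m hm hm' t ht).1 a).2.2.2.1)
  have hup : ∀ (m : ℕ), t₀ ≤ m → ∀ t ∈ Icc (m : ℝ) (m + 1), ∀ (k : ℕ) (x K' : ℝ), k ≤ 7 →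
      x ≤ K' * th t₀ T m ^ k → K' ≤ K → x ≤ 3 * K * th t₀ T t ^ k :=
    fun m hm t ht k x K' hk h1 h2 => by
      have h3 := mul_le_mul_of_nonneg_right h2 (pow_pos (bd_th_pos hT1 (hcast hm)) k).le
      have h4 := mul_le_mul_of_nonneg_left (bd_th_three hT1 (hcast hm) ht hk)
        (show 0 ≤ K by linarith)
      linarith only [h1, h3, h4]
  have hcov : ∀ t ∈ Icc (t₀ : ℝ) Th, ∃ m : ℕ, t₀ ≤ m ∧ m ≤ Th ∧ t ∈ Icc (m : ℝ) (m + 1) :=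
    fun t ht => ⟨⌊t⌋₊, Nat.le_floor ht.1, Nat.floor_le_of_le ht.2,
      Nat.floor_le ((Nat.cast_nonneg _).trans ht.1), (Nat.lt_floor_add_one t).le⟩
  have h36 : ∀ x : ℝ, (x ^ 3) ^ 2 = x ^ 6 := fun x => by ring
  refine ⟨⟨Nat.cast_nonneg _, fun t x y => ?_, fun t ht x => ?_, dX, dX₁, dA, dg,
    fun t ht => pow_pos (bd_th_pos hT1 ht.1) 3,
    fun s hs t ht hst => pow_le_pow_left₀ (bd_th_pos hT1 ht.1).le (bd_th_anti hT1 hs.1 hst) 3,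
    fun s hs t ht hst => (bd_th_slow hT1 hs.1 hst 3).trans (mul_le_mul_of_nonneg_left
      (Real.exp_le_exp.2 (by push_cast; linarith only [hst])) (pow_pos (bd_th_pos hT1 ht.1) 3).le),
    fun a t ht => ?_, fun a t ht => ?_, fun a a' t ht => ?_, fun a t ht => ?_, fun a t ht => ?_,
    fun t ht => ?_, fun a t ht => ?_, fun a t ht => ?_, fun t ht => ?_, fun t ht => ?_,
    fun t ht h => ?_⟩, fun m hm hm' t ht a a' => ?_⟩
  · rw [← real_inner_comm x, b.inner_Qop, b.inner_Qop, hBs, real_inner_comm (b.ex _ x),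
      real_inner_comm x]
  · have h1 := b.mass_le (b.ex _ x)
    rw [b.mass_ex_ex] at h1
    rw [b.inner_Qop]
    linarith only [h1, ((hBa t ht).2 (b.ex _ x)).1,
      mul_le_mul_of_nonneg_right (D.q_ge t) (real_inner_self_nonneg (x := x))]
  rotate_right
  · have h1 := abs_le.1 ((hloc m hm hm'.le t ht).2.2.1 a a')
    have h2 := abs_le.1 ((hB m hm t ht).2 a a')
    exact hup m hm t ht 6 _ _ (by norm_num)
      (abs_le.2 ⟨by linarith only [h1.1, h2.1], by linarith only [h1.2, h2.2]⟩) k6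
  all_goals obtain ⟨m, hm, hm', ht'⟩ := hcov t ht
  all_goals obtain ⟨s1, s2, s3, s4, s5⟩ := hsc m hm hm' t ht'
  · rw [h36]; exact hup m hm t ht' 6 _ _ (by norm_num) (s1 a).2.2.2.2.1 le_rfl
  · rw [h36]; exact hup m hm t ht' 6 _ _ (by norm_num) (s1 a).2.2.2.2.2 le_rfl
  · rw [h36]; exact hup m hm t ht' 6 _ _ (by norm_num) ((hloc m hm hm' t ht').1 a a') k4
  · exact hup m hm t ht' 3 _ _ (by norm_num) ((hloc m hm hm' t ht').2.1 a) k5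
  · rw [h36]; exact hup m hm t ht' 6 _ _ (by norm_num) (s1 a).2.2.1 le_rfl
  · rw [h36]; exact hup m hm t ht' 6 _ _ (by norm_num) s4 le_rfl
  · exact (s1 a).1
  · exact (s1 a).2.1
  · exact s2
  · exact s3.trans (by linarith only [k1, hC₀])
  · refine le_trans (sub_le_sub (mul_le_mul_of_nonneg_right ?_ (sq_nonneg _))
      (mul_le_mul_of_nonneg_right (by linarith only [k1, hC₀])
        (Finset.sum_nonneg fun a _ => sq_nonneg _))) ((hloc m hm hm' t ht').2.2.2 h)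
    have h1 := mul_le_mul_of_nonneg_left (pow_le_pow_of_le_one (bd_th_pos hT1 (hcast hm)).le
      (hsm m hm).1 (show 3 ≤ 6 by norm_num)) hC₀.le
    change (g t + γ') ^ 2 ≤ _
    linarith only [h1, (hsm m hm).2.2, s5, hγ1, mul_le_mul_of_nonneg_right s3 hγ'.le]

end Crest.Agent.R202
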