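import Crest.Agent.R202.Cone

/-!
# The boundary value problem and its continuity in a parameter (task C2)

Global solutions of the linear equation, depending linearly on the initial value and continuously on the parameter
(Gronwall); the square linear system `(w₀, v) ↦ (w T - ∑ v_i X_i T, GG(t₁))` is injective by `cone` and
`norm_mono_of_sol` (and the Gram bound), hence invertible; inversion is continuous.
-/

set_option autoImplicit false

noncomputable section

open scoped InnerProductSpace ContDiff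
open Set Filter Topology

namespace Crest.Agent.R202

section Dyson

variable {𝔸 : Type} [NormedRing 𝔸] [NormedAlgebra ℝ 𝔸] {Z : Type}

/-- the terms of the Dyson series -/
def bvpD (A : Z → ℝ → 𝔸) : ℕ → Z → ℝ → 𝔸
  | 0 => fun _ _ => 1
  | n + 1 => fun z t => ∫ s in (0 : ℝ)..t, A z s * bvpD A n z s

/-- their derivatives -/
def bvpD' (A : Z → ℝ → 𝔸) : ℕ → Z → ℝ → 𝔸
  | 0 => fun _ _ => 0
  | n + 1 => fun z t => A z t * bvpD A n z t

theorem bvpD_norm_le {A : Z → ℝ → 𝔸} {z : Z} {K R : ℝ} (hK : 0 ≤ K)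
    (h : ∀ s, |s| ≤ R → ‖A z s‖ ≤ K) (n : ℕ) :
    ∀ t, |t| ≤ R → ‖bvpD A n z t‖ ≤ ‖(1 : 𝔸)‖ * ((K * |t|) ^ n / n.factorial) := by
  induction n with
  | zero => intro t _; simp [bvpD]
  | succ n ih =>
    intro t ht
    have h1 : ‖∫ s in (0 : ℝ)..t, A z s * bvpD A n z s‖ ≤
        ∫ s in uIoc 0 t, (‖(1 : 𝔸)‖ * K ^ (n + 1) / n.factorial) * |s - 0| ^ n := by
      rw [intervalIntegral.norm_intervalIntegral_eq]
      refine MeasureTheory.norm_integral_le_of_norm_le ?_ ?_
      · exact (Continuous.intervalIntegrable (by fun_prop) 0 t).def'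
      · refine (MeasureTheory.ae_restrict_iff' measurableSet_uIoc).2
          (Eventually.of_forall fun s hs => ?_)
        have h2 : |s| ≤ R := by
          refine le_trans ?_ ht
          have := abs_sub_left_of_mem_uIcc (uIoc_subset_uIcc hs)
          simpa using this
        refine (norm_mul_le _ _).trans ((mul_le_mul (h s h2) (ih s h2) (norm_nonneg _) hK).trans_eq ?_)
        rw [sub_zero]
        ring
    refine h1.trans_eq ?_
    rw [MeasureTheory.integral_const_mul, integral_pow_abs_sub_uIoc, sub_zero, Nat.factorial_succ]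
    push_cast
    rw [mul_pow]
    field_simp

variable [TopologicalSpace Z]

theorem bvpD_continuous {A : Z → ℝ → 𝔸} (hA : Continuous fun p : Z × ℝ => A p.1 p.2) (n : ℕ) :
    Continuous fun p : Z × ℝ => bvpD A n p.1 p.2 := by
  induction n with
  | zero => exact continuous_const
  | succ n ih =>
    exact intervalIntegral.continuous_parametric_primitive_of_continuous
      (f := fun z s => A z s * bvpD A n z s) (hA.mul ih)

omit [NormedAlgebra ℝ 𝔸] in
theorem bvp_bound {A : Z → ℝ → 𝔸} (hA : Continuous fun p : Z × ℝ => A p.1 p.2) (z₀ : Z) (R : ℝ) :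
    ∃ K : ℝ, 0 ≤ K ∧ ∀ᶠ z in 𝓝 z₀, ∀ s, |s| ≤ R → ‖A z s‖ ≤ K := by
  obtain ⟨K, hK⟩ := (isCompact_Icc (a := -R) (b := R)).exists_bound_of_continuousOn
    (f := fun s => A z₀ s) (hA.comp (continuous_const.prodMk continuous_id)).continuousOn
  refine ⟨max K 0 + 1, by positivity, ?_⟩
  have := (isCompact_Icc (a := -R) (b := R)).eventually_forall_of_forall_eventually
    (x₀ := z₀) (P := fun z s => ‖A z s‖ < max K 0 + 1) fun s hs =>
      hA.norm.continuousAt.eventually_lt continuousAt_const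
        (lt_of_le_of_lt ((hK s hs).trans (le_max_left _ _)) (lt_add_one _))
  exact this.mono fun z hz s hs => (hz s (abs_le.1 hs)).le

variable [CompleteSpace 𝔸]

theorem bvpD_hasDerivAt {A : Z → ℝ → 𝔸} (hA : Continuous fun p : Z × ℝ => A p.1 p.2) (n : ℕ)
    (z : Z) (t : ℝ) : HasDerivAt (bvpD A n z) (bvpD' A n z t) t := by
  cases n with
  | zero => exact hasDerivAt_const _ _
  | succ n =>
    have : Continuous fun s => A z s * bvpD A n z s :=
      (hA.mul (bvpD_continuous hA n)).comp (continuous_const.prodMk continuous_id)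
    exact (this.integral_hasStrictDerivAt 0 t).hasDerivAt

theorem exists_dyson {A : Z → ℝ → 𝔸} (hA : Continuous fun p : Z × ℝ => A p.1 p.2) :
    ∃ Y : Z → ℝ → 𝔸, (∀ z t, HasDerivAt (Y z) (A z t * Y z t) t) ∧ (∀ z, Y z 0 = 1) ∧
      ∀ t, Continuous fun z => Y z t := by
  have hs : ∀ K R : ℝ, Summable fun n : ℕ => ‖(1 : 𝔸)‖ * ((K * R) ^ n / n.factorial) :=
    fun K R => (Real.summable_pow_div_factorial _).mul_left _
  have hb : ∀ {z : Z} {K R : ℝ}, 0 ≤ K → (∀ s, |s| ≤ R → ‖A z s‖ ≤ K) → ∀ n t, |t| ≤ R →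
      ‖bvpD A n z t‖ ≤ ‖(1 : 𝔸)‖ * ((K * R) ^ n / n.factorial) := by
    intro z K R hK h n t ht
    refine (bvpD_norm_le hK h n t ht).trans ?_
    gcongr
  refine ⟨fun z t => ∑' n, bvpD A n z t, fun z t => ?_, fun z => ?_, fun t => ?_⟩
  · obtain ⟨K, hK, h⟩ := bvp_bound hA z (|t| + 1)
    have h := h.self_of_nhds
    set R := |t| + 1 with hR
    let u : ℕ → ℝ := fun n => Nat.casesOn n 0 fun n =>
      K * (‖(1 : 𝔸)‖ * ((K * R) ^ n / n.factorial))
    have hu : Summable u := (summable_nat_add_iff 1).1 ((hs K R).mul_left K)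
    have hle : ∀ n s, s ∈ Ioo (-R) R → ‖bvpD' A n z s‖ ≤ u n := by
      intro n s hs'
      have h1 : |s| ≤ R := (abs_lt.2 hs').le
      cases n with
      | zero => simp [bvpD', u]
      | succ n =>
        exact (norm_mul_le _ _).trans (mul_le_mul (h s h1) (hb hK h n s h1) (norm_nonneg _) hK)
    have ht : t ∈ Ioo (-R) R := abs_lt.1 (lt_add_one _)
    have hsum : Summable fun n => bvpD A n z t :=
      .of_norm_bounded (hs K R) fun n => hb hK h n t (lt_add_one _).le
    have := hasDerivAt_tsum_of_isPreconnected hu isOpen_Ioo isPreconnected_Ioo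
      (fun n s _ => bvpD_hasDerivAt hA n z s) hle ht hsum ht
    refine this.congr_deriv ?_
    rw [(Summable.of_norm_bounded hu fun n => hle n t ht).tsum_eq_zero_add, ← hsum.tsum_mul_left]
    simp [bvpD']
  · change ∑' n, bvpD A n z 0 = 1
    rw [tsum_eq_single 0]
    · rfl
    · intro n hn
      obtain ⟨n, rfl⟩ := Nat.exists_eq_succ_of_ne_zero hn
      simp [bvpD]
  · refine continuous_iff_continuousAt.2 fun z₀ => ?_
    obtain ⟨K, hK, h⟩ := bvp_bound hA z₀ |t|
    exact (continuousOn_tsum (s := {z | ∀ s, |s| ≤ |t| → ‖A z s‖ ≤ K})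
      (fun n => ((bvpD_continuous hA n).comp (continuous_id.prodMk continuous_const)).continuousOn)
      (hs K |t|) fun n z hz => hb hK hz n t le_rfl).continuousAt h

end Dyson

/-- the first order system -/
def bvpA {V : Type} [NormedAddCommGroup V] [NormedSpace ℝ V] (B : V →L[ℝ] V) :
    (V × V) →L[ℝ] (V × V) :=
  (ContinuousLinearMap.inl ℝ V V).comp (ContinuousLinearMap.snd ℝ V V) +
    (ContinuousLinearMap.inr ℝ V V).comp (B.comp (ContinuousLinearMap.fst ℝ V V))

theorem bvpA_apply {V : Type} [NormedAddCommGroup V] [NormedSpace ℝ V] (B : V →L[ℝ] V)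
    (x : V × V) : bvpA B x = (x.2, B x.1) := by
  simp [bvpA]

theorem bvpA_continuous {V : Type} [NormedAddCommGroup V] [NormedSpace ℝ V] :
    Continuous (bvpA : (V →L[ℝ] V) → _) :=
  continuous_const.add (continuous_const.clm_comp (continuous_id.clm_comp continuous_const))

theorem bvp_gram {V : Type} [NormedAddCommGroup V] [InnerProductSpace ℝ V] {M : ℕ}
    {X : Fin M → V} {η : ℝ} (hη : M * η < 1)
    (h : ∀ i k, |⟪X i, X k⟫_ℝ - if i = k then 1 else 0| ≤ η) {v : Fin M → ℝ}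
    (hv : ∑ i, v i • X i = 0) : v = 0 := by
  have h1 : ∀ i, |v i| ≤ η * ∑ k, |v k| := by
    intro i
    have h2 : ∑ k, v k * (⟪X i, X k⟫_ℝ - if i = k then 1 else 0) = -v i := by
      have := congrArg (fun y => ⟪X i, y⟫_ℝ) hv
      simp only [inner_sum, real_inner_smul_right, inner_zero_right] at this
      simp [mul_sub, Finset.sum_sub_distrib, this]
    rw [← abs_neg, ← h2, Finset.mul_sum]
    refine (Finset.abs_sum_le_sum_abs _ _).trans (Finset.sum_le_sum fun k _ => ?_)
    rw [abs_mul, mul_comm]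
    exact mul_le_mul_of_nonneg_right (h i k) (abs_nonneg _)
  have h3 : ∑ i, |v i| ≤ M * η * ∑ k, |v k| := by
    refine (Finset.sum_le_sum fun i _ => h1 i).trans_eq ?_
    simp [mul_assoc]
  have h4 : 0 ≤ ∑ k, |v k| := Finset.sum_nonneg fun _ _ => abs_nonneg _
  have h5 : ∑ k, |v k| = 0 := by nlinarith
  funext i
  exact abs_eq_zero.1 ((Finset.sum_eq_zero_iff_of_nonneg fun _ _ => abs_nonneg _).1 h5 i
    (Finset.mem_univ _))

theorem exists_linsol {V : Type} [NormedAddCommGroup V] [InnerProductSpace ℝ V]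
    [FiniteDimensional ℝ V] {Z : Type} [TopologicalSpace Z] (Q : Z → ℝ → V →L[ℝ] V)
    (hQ : Continuous fun p : Z × ℝ => Q p.1 p.2) :
    ∃ Φ Φ₁ : Z → ℝ → (V × V) →L[ℝ] V, (∀ z x, IsSol (Q z) (fun t => Φ z t x) (fun t => Φ₁ z t x)) ∧
      (∀ z x, Φ z 0 x = x.1 ∧ Φ₁ z 0 x = x.2) ∧
      ∀ t, Continuous (fun z => Φ z t) ∧ Continuous (fun z => Φ₁ z t) := by
  have : CompleteSpace V := FiniteDimensional.complete ℝ V
  obtain ⟨Y, h1, h2, h3⟩ := exists_dyson (𝔸 := (V × V) →L[ℝ] (V × V))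
    (A := fun z t => bvpA (Q z t)) (by exact bvpA_continuous.comp hQ)
  have h4 : ∀ z x t, HasDerivAt (fun t => Y z t x) ((Y z t x).2, Q z t (Y z t x).1) t := by
    intro z x t
    have := (h1 z t).clm_apply (hasDerivAt_const t x)
    simpa [bvpA_apply] using this
  refine ⟨fun z t => (ContinuousLinearMap.fst ℝ V V).comp (Y z t),
    fun z t => (ContinuousLinearMap.snd ℝ V V).comp (Y z t), fun z x => ⟨fun t => ?_, fun t => ?_⟩,
    fun z x => by simp [h2], fun t => ⟨continuous_const.clm_comp (h3 t),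
      continuous_const.clm_comp (h3 t)⟩⟩
  · exact (ContinuousLinearMap.fst ℝ V V).hasFDerivAt.comp_hasDerivAt t (h4 z x t)
  · exact (ContinuousLinearMap.snd ℝ V V).hasFDerivAt.comp_hasDerivAt t (h4 z x t)

theorem sol_unique {V : Type} [NormedAddCommGroup V] [InnerProductSpace ℝ V]
    {Q : ℝ → V →L[ℝ] V} (hQ : Continuous Q) {w w₁ u u₁ : ℝ → V} {s : Set ℝ} (hs : s.OrdConnected)
    (h0 : (0 : ℝ) ∈ s) (hw : IsSol Q w w₁)
    (hu : ∀ t ∈ s, HasDerivAt u (u₁ t) t ∧ HasDerivAt u₁ (Q t (u t)) t)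
    (e0 : w 0 = u 0) (e1 : w₁ 0 = u₁ 0) : ∀ t ∈ s, w t = u t := by
  intro t ht
  have hsub : uIcc 0 t ⊆ s := hs.uIcc_subset h0 ht
  obtain ⟨K, hK⟩ := (isCompact_uIcc (a := 0) (b := t)).exists_bound_of_continuousOn
    (f := fun τ => bvpA (Q τ)) (by exact (bvpA_continuous.comp hQ).continuousOn)
  have hL : ∀ τ ∈ uIcc 0 t, LipschitzOnWith K.toNNReal (fun x => bvpA (Q τ) x) univ := fun τ hτ =>
    ((bvpA (Q τ)).lipschitz.weaken (by
      rw [← NNReal.coe_le_coe]
      exact (hK τ hτ).trans (Real.le_coe_toNNReal K))).lipschitzOnWith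
  have hf : ∀ τ, HasDerivAt (fun τ => (w τ, w₁ τ)) (bvpA (Q τ) (w τ, w₁ τ)) τ := fun τ => by
    rw [bvpA_apply]
    exact (hw.1 τ).prodMk (hw.2 τ)
  have hg : ∀ τ ∈ uIcc 0 t, HasDerivAt (fun τ => (u τ, u₁ τ)) (bvpA (Q τ) (u τ, u₁ τ)) τ :=
    fun τ hτ => by
      rw [bvpA_apply]
      exact (hu τ (hsub hτ)).1.prodMk (hu τ (hsub hτ)).2
  have e : (w 0, w₁ 0) = (u 0, u₁ 0) := by rw [e0, e1]
  rcases le_total 0 t with h | h
  · rw [uIcc_of_le h] at hL hg
    exact congrArg Prod.fst (ODE_solution_unique_of_mem_Icc_right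
      (v := fun τ x => bvpA (Q τ) x) (s := fun _ => univ)
      (fun τ hτ => hL τ (Ico_subset_Icc_self hτ))
      (fun τ _ => (hf τ).continuousAt.continuousWithinAt) (fun τ _ => (hf τ).hasDerivWithinAt)
      (fun _ _ => mem_univ _) (fun τ hτ => (hg τ hτ).continuousAt.continuousWithinAt)
      (fun τ hτ => (hg τ (Ico_subset_Icc_self hτ)).hasDerivWithinAt) (fun _ _ => mem_univ _) e
      ⟨h, le_rfl⟩)
  · rw [uIcc_of_ge h] at hL hg
    exact congrArg Prod.fst (ODE_solution_unique_of_mem_Icc_left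
      (v := fun τ x => bvpA (Q τ) x) (s := fun _ => univ)
      (fun τ hτ => hL τ (Ioc_subset_Icc_self hτ))
      (fun τ _ => (hf τ).continuousAt.continuousWithinAt) (fun τ _ => (hf τ).hasDerivWithinAt)
      (fun _ _ => mem_univ _) (fun τ hτ => (hg τ hτ).continuousAt.continuousWithinAt)
      (fun τ hτ => (hg τ (Ioc_subset_Icc_self hτ)).hasDerivWithinAt) (fun _ _ => mem_univ _) e
      ⟨le_rfl, h⟩)

theorem exists_bvp (M : ℕ) (C γ : ℝ) (hC : 1 ≤ C) (hγ : 0 < γ) : ∃ e₀ : ℝ, 0 < e₀ ∧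
    ∀ (V : Type) [NormedAddCommGroup V] [InnerProductSpace ℝ V] [FiniteDimensional ℝ V]
      (P : Frame V M) (Z : Type) [TopologicalSpace Z] (Q : Z → ℝ → V →L[ℝ] V) (Λ₀ : V →L[ℝ] V)
      (t₀ t₁ T : ℝ) (e : ℝ → ℝ), (Continuous fun p : Z × ℝ => Q p.1 p.2) →
      (∀ x, 0 ≤ ⟪Λ₀ x, x⟫_ℝ) → (∀ z, DynHyp P (Q z) C γ t₀ T e) → t₀ + 2 ≤ t₁ → t₁ ≤ T →
      e t₀ ≤ e₀ → (∀ t ∈ Icc t₁ T, Real.exp (-(t - t₀)) ≤ e t) →
      ∃ w w₁ : Z → Fin M → ℝ → V,
        (∀ z j, Reg P (Q z) T (w z j) (w₁ z j) ∧ w₁ z j 0 = Λ₀ (w z j 0) ∧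
          ∀ i, P.GG (w z j) (w₁ z j) i t₁ = if i = j then 1 else 0) ∧
        ∀ j t, Continuous (fun z => w z j t) ∧ Continuous (fun z => w₁ z j t) := by
  obtain ⟨e₀, C', he₀, -, hcone⟩ := cone M C γ hC hγ
  have hC0 : 0 < C := lt_of_lt_of_le one_pos hC
  refine ⟨min e₀ (1 / ((M + 1) * C)), lt_min he₀ (by positivity), ?_⟩
  intro V _ _ _ P Z _ Q Λ₀ t₀ t₁ T e hQ hΛ hD ht₁ hT he hexp
  have : CompleteSpace V := FiniteDimensional.complete ℝ V
  obtain ⟨Φ, Φ₁, hsol, hini, hcont⟩ := exists_linsol Q hQ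
  let L₀ : Z → (V × (Fin M → ℝ)) →ₗ[ℝ] (V × (Fin M → ℝ)) := fun z =>
    { toFun := fun y => (Φ z T (y.1, Λ₀ y.1) - ∑ i, y.2 i • P.X i T,
        fun i => P.GG (fun t => Φ z t (y.1, Λ₀ y.1)) (fun t => Φ₁ z t (y.1, Λ₀ y.1)) i t₁)
      map_add' := fun y y' => by
        have : ((y + y').1, Λ₀ (y + y').1) = (y.1, Λ₀ y.1) + (y'.1, Λ₀ y'.1) := by simp
        rw [this]
        simp only [map_add (f := Φ z _), map_add (f := Φ₁ z _)]
        ext i
        · simp only [Prod.snd_add, Pi.add_apply, add_smul, Finset.sum_add_distrib,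
            Prod.mk_add_mk]
          abel
        · simp only [Frame.GG, Frame.pp, Frame.cc, inner_add_right, Prod.mk_add_mk,
            Pi.add_apply]
          ring
      map_smul' := fun c y => by
        have : ((c • y).1, Λ₀ (c • y).1) = c • (y.1, Λ₀ y.1) := by simp
        rw [this]
        simp only [map_smul (f := Φ z _), map_smul (f := Φ₁ z _)]
        ext i
        · simp only [Prod.smul_snd, Pi.smul_apply, smul_eq_mul, mul_smul,
            ← Finset.smul_sum, RingHom.id_apply, Prod.smul_mk, smul_sub]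
        · simp only [Frame.GG, Frame.pp, Frame.cc, real_inner_smul_right,
            RingHom.id_apply, Prod.smul_mk, Pi.smul_apply, smul_eq_mul]
          ring }
  let L : Z → (V × (Fin M → ℝ)) →L[ℝ] (V × (Fin M → ℝ)) := fun z =>
    LinearMap.toContinuousLinearMap (L₀ z)
  have hL : ∀ z y, L z y = (Φ z T (y.1, Λ₀ y.1) - ∑ i, y.2 i • P.X i T,
      fun i => P.GG (fun t => Φ z t (y.1, Λ₀ y.1)) (fun t => Φ₁ z t (y.1, Λ₀ y.1)) i t₁) :=
    fun _ _ => rfl
  have hLc : Continuous L := by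
    refine continuous_clm_apply.2 fun y => ?_
    simp only [hL, Frame.GG, Frame.pp, Frame.cc]
    have i1 := fun t => (hcont t).1.clm_apply (continuous_const (y := (y.1, Λ₀ y.1)))
    have i2 := fun t => (hcont t).2.clm_apply (continuous_const (y := (y.1, Λ₀ y.1)))
    exact ((i1 T).sub continuous_const).prodMk (continuous_pi fun i =>
      ((continuous_const.inner (i2 t₁)).sub (continuous_const.inner (i1 t₁))).add
        (continuous_const.mul (continuous_const.inner (i1 t₁))))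
  have hreg : ∀ z y, (L z y).1 = 0 →
      Reg P (Q z) T (fun t => Φ z t (y.1, Λ₀ y.1)) (fun t => Φ₁ z t (y.1, Λ₀ y.1)) := by
    intro z y hy
    refine ⟨hsol z _, ?_, y.2, sub_eq_zero.1 hy⟩
    rw [(hini z _).1, (hini z _).2]
    exact hΛ _
  have hU : ∀ z, IsUnit (L z) := by
    intro z
    have hinj : Function.Injective (L₀ z) := by
      rw [injective_iff_map_eq_zero]
      intro y hy
      have hy' : L z y = 0 := hy
      have hr := hreg z y (by rw [hy']; rfl)
      have h1 := (hcone V P (Q z) t₀ t₁ T e (hD z) ht₁ hT (he.trans (min_le_left _ _)) hexp _ _ hr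
        t₁ ⟨le_rfl, hT⟩).2.2.1
      have h2 : ∀ i, P.GG (fun t => Φ z t (y.1, Λ₀ y.1)) (fun t => Φ₁ z t (y.1, Λ₀ y.1)) i t₁ = 0 :=
        fun i => congrFun (congrArg Prod.snd hy') i
      simp only [h2, abs_zero, Finset.sum_const_zero, mul_zero] at h1
      have h0 := (hD z).t₀_nonneg
      have h3 := norm_mono_of_sol hr.sol (hD z).pos hr.left (mem_Ici.2 le_rfl)
        (mem_Ici.2 (by linarith : 0 ≤ t₁)) (by linarith : 0 ≤ t₁)
      simp only [(hini z _).1] at h3
      have h4 : y.1 = 0 := norm_le_zero_iff.1 (h3.trans h1)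
      have h5 : ∑ i, y.2 i • P.X i T = 0 := by
        have := congrArg Prod.fst hy'
        rw [hL, h4, map_zero, Prod.mk_zero_zero, map_zero] at this
        simpa using this
      have hT' : T ∈ Icc t₀ T := ⟨by linarith, le_rfl⟩
      have h6 : e T ≤ 1 / ((M + 1) * C) :=
        ((hD z).e_anti ⟨le_rfl, hT'.1⟩ hT' hT'.1).trans (he.trans (min_le_right _ _))
      have h7 := (hD z).e_pos T hT'
      refine Prod.ext h4 (bvp_gram (η := C * e T ^ 2) ?_ (fun i k => (hD z).gram i k T hT') h5)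
      rw [le_div_iff₀ (by positivity)] at h6
      have h8 : (0 : ℝ) ≤ M := Nat.cast_nonneg M
      have h9 : 0 < e T * C := by positivity
      have h10 : e T ≤ 1 := by nlinarith [mul_nonneg h8 h9.le]
      nlinarith [mul_nonneg h8 h9.le]
    exact ContinuousLinearMap.isUnit_iff_bijective.2
      ⟨hinj, LinearMap.injective_iff_surjective.1 hinj⟩
  let u : Z → Fin M → V × (Fin M → ℝ) := fun z j => Ring.inverse (L z) (0, Pi.single j 1)
  have hu : ∀ z j, L z (u z j) = (0, Pi.single j 1) := by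
    intro z j
    have := Ring.mul_inverse_cancel _ (hU z)
    change (L z * Ring.inverse (L z)) _ = _
    rw [this]
    rfl
  have huc : ∀ j, Continuous fun z => u z j := by
    intro j
    refine Continuous.clm_apply (continuous_iff_continuousAt.2 fun z => ?_) continuous_const
    obtain ⟨a, ha⟩ := hU z
    refine ContinuousAt.comp (g := Ring.inverse) ?_ hLc.continuousAt
    rw [← ha]
    exact NormedRing.inverse_continuousAt (R := (V × (Fin M → ℝ)) →L[ℝ] (V × (Fin M → ℝ))) a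
  refine ⟨fun z j t => Φ z t ((u z j).1, Λ₀ (u z j).1),
    fun z j t => Φ₁ z t ((u z j).1, Λ₀ (u z j).1),
    fun z j => ⟨hreg z _ (by rw [hu]), ?_, fun i => ?_⟩, fun j t => ?_⟩
  · simp only [(hini z _).1, (hini z _).2]
  · have := congrFun (congrArg Prod.snd (hu z j)) i
    rw [hL] at this
    simp only [Pi.single_apply] at this
    exact this
  · have i1 : Continuous fun z => ((u z j).1, Λ₀ (u z j).1) :=
      (huc j).fst.prodMk (Λ₀.continuous.comp (huc j).fst)
    exact ⟨(hcont t).1.clm_apply i1, (hcont t).2.clm_apply i1⟩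

end Crest.Agent.R202
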