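import Crest.Agent.R202.GDefs

/-!
# The concrete layer: symmetry classes on the sphere

A point of `S^{n-1}` is `(sin θ cos φ, sin θ sin φ, cos θ ξ)`; `τ = cos^r θ` with `r = 1` (`n = 3`, `θ ∈ [0,π]`) or `r = 2`
(`θ ∈ [0,π/2]`).  The class `j` consists of the functions `Y(ξ) cos^j θ g(x₀,x₁,τ)`, `Y` a fixed harmonic polynomial of degree `j` in the last
`n-2` variables, `g ∈ P3`.  `Φ = ∂_φ`, `Z = -ϖ sin θ ∂_θ` (`ϖ = 1` or `cos θ`), `S = sin² θ`, `v = ϖ²`, `u = v S`.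
A triple `(α,β,γ)` encodes the inverse metric `1 + α ZZ + β (ZΦ + ΦZ) + vγ ΦΦ`, i.e. in the frame `(∂_θ, ∂_φ/sin θ)` the matrix
`[[1+uα, -ϖSβ], [-ϖSβ, 1+uγ]]`.
-/

set_option autoImplicit false

noncomputable section

open scoped InnerProductSpace ContDiff
open Set Filter Topology
open MvPolynomial Real

namespace Crest.Agent.R202

abbrev P3 : Type := MvPolynomial (Fin 3) ℝ
abbrev T3 : Type := P3 × P3 × P3

structure Cl (r n : ℕ) where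
  j : ℕ
  ok : (r = 1 ∧ n = 3 ∧ j = 0) ∨ (r = 2 ∧ 4 ≤ n ∧ 1 ≤ j)

section generic
variable {R : Type} [CommRing R]

def up (S u P : R) (t : R × R × R) : R × R × R :=
  (t.1, t.2.1 + P * (1 + u * t.1), t.2.2 + 2 * S * P * t.2.1 + S * P ^ 2 * (1 + u * t.1))

def lo (S u P : R) (t : R × R × R) : R × R × R :=
  (t.1 + 2 * S * P * t.2.1 + S * P ^ 2 * (1 + u * t.2.2), t.2.1 + P * (1 + u * t.2.2), t.2.2)

def trip (S u c P₁ P₂ : R) : R × R × R :=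
  up S u c (lo S u (-2 * c) (up S u P₁ (lo S u 1 (up S u P₂ (lo S u (-1) (0, 0, 0))))))

end generic

def sS (r : ℕ) : P3 := if r = 1 then 1 - X 2 ^ 2 else 1 - X 2
def vV (r : ℕ) : P3 := if r = 1 then 1 else X 2
def uU (r : ℕ) : P3 := vV r * sS r
def Phi (g : P3) : P3 := -X 1 * pderiv 0 g + X 0 * pderiv 1 g
def Zd (r : ℕ) (g : P3) : P3 :=
  -X 2 * X 0 * pderiv 0 g - X 2 * X 1 * pderiv 1 g + C (r : ℝ) * uU r * pderiv 2 g

def pt (r : ℕ) (θ φ : ℝ) : Fin 3 → ℝ := ![sin θ * cos φ, sin θ * sin φ, cos θ ^ r]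
def vp (r : ℕ) (θ : ℝ) : ℝ := if r = 1 then 1 else cos θ
/-- `σ = ϖ S` -/
def sgm (r : ℕ) (θ : ℝ) : ℝ := vp r θ * sin θ ^ 2
def w0 (n : ℕ) (θ : ℝ) : ℝ := sin θ * cos θ ^ (n - 3)
def sint (r n : ℕ) (f : ℝ → ℝ → ℝ) : ℝ := ∫ θ in (0 : ℝ)..π / r, (∫ φ in (0 : ℝ)..2 * π, f θ φ) * w0 n θ

/-- real and imaginary part of `(X₀ + i X₁)^m` -/
def zeta : ℕ → P3 × P3
  | 0 => (1, 0)
  | m + 1 => (X 0 * (zeta m).1 - X 1 * (zeta m).2, X 1 * (zeta m).1 + X 0 * (zeta m).2)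
def zt (μ : ℤ) : P3 := if 0 ≤ μ then (zeta μ.natAbs).1 else (zeta μ.natAbs).2
def trig (μ : ℤ) (φ : ℝ) : ℝ := if 0 ≤ μ then cos (μ.natAbs * φ) else sin (μ.natAbs * φ)

/-- filtration by the weighted degree with weights `(1, 1, r)` -/
def Fil (r D : ℕ) (g : P3) : Prop := ∀ s ∈ g.support, s 0 + s 1 + r * s 2 ≤ D

/-- the bilinear form `m - 1` of a triple at a point -/
def mq (r : ℕ) (t : T3) (θ φ a b a' b' : ℝ) : ℝ :=
  eval (pt r θ φ) (uU r * t.1) * (a * a') - sgm r θ * eval (pt r θ φ) t.2.1 * (a * b' + b * a') +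
    eval (pt r θ φ) (uU r * t.2.2) * (b * b')

namespace Cl
variable {r n : ℕ} (c : Cl r n)

def Zj (g : P3) : P3 := Zd r g + C (c.j : ℝ) * sS r * g
def Zs (g : P3) : P3 :=
  -Zd r g + (2 * X 2 - C (((r : ℝ) - 1) * ((c.j : ℝ) + n - 2)) * sS r) * g
def Apol (t : T3) (g : P3) : P3 :=
  c.Zs (t.1 * c.Zj g + t.2.1 * Phi g) - Phi (t.2.1 * c.Zj g + vV r * t.2.2 * Phi g)
def kap : ℝ := (c.j : ℝ) * ((c.j : ℝ) + n - 4)

def fn (g : P3) (θ φ : ℝ) : ℝ := cos θ ^ c.j * eval (pt r θ φ) g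
def Dθ (g : P3) (θ φ : ℝ) : ℝ := deriv (fun s => c.fn g s φ) θ
def Dφ (g : P3) (θ φ : ℝ) : ℝ := cos θ ^ c.j *
  (-sin φ * eval (pt r θ φ) (pderiv 0 g) + cos φ * eval (pt r θ φ) (pderiv 1 g))
def ip (g h : P3) : ℝ := sint r n fun θ φ => c.fn g θ φ * c.fn h θ φ
def form (t : T3) (g h : P3) : ℝ :=
  sint r n fun θ φ => mq r t θ φ (c.Dθ g θ φ) (c.Dφ g θ φ) (c.Dθ h θ φ) (c.Dφ h θ φ)

abbrev J : Type := {p : ℤ × ℕ // 1 ≤ c.j + p.1.natAbs + r * p.2}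
def deg (k : c.J) : ℕ := c.j + k.1.1.natAbs + r * k.1.2

def gam (m b : ℕ) : ℕ → ℝ
  | 0 => 1
  | i + 1 => -gam m b i * (((r * b : ℕ) : ℝ) - 2 * i) *
      (((r * b : ℕ) : ℝ) - 2 * i + (2 * c.j + n - 3) - 1) /
      (2 * (i + 1) * (2 * ((c.j + m + r * b : ℕ) : ℝ) - 2 * i - 2 + n - 2))
def rad (m b : ℕ) : P3 := ∑ i ∈ Finset.range (b + 1), C (c.gam m b i) * X 2 ^ (b - (3 - r) * i)
def gk (k : c.J) : P3 := zt k.1.1 * c.rad k.1.1.natAbs k.1.2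
def nrm (k : c.J) : ℝ := (√(c.ip (c.gk k) (c.gk k)))⁻¹
def ek (k : c.J) : P3 := C (c.nrm k) * c.gk k
/-- `fn (ek k) θ φ = prof k θ * trig μ φ` -/
def prof (k : c.J) (θ : ℝ) : ℝ :=
  c.nrm k * (cos θ ^ c.j * sin θ ^ k.1.1.natAbs * eval (pt r θ 0) (c.rad k.1.1.natAbs k.1.2))

include c in
theorem r_pos : 1 ≤ r := by rcases c.ok with h | h <;> omega

theorem deg_sub (d : ℕ) : (fun k : c.J => k.1) '' {k | c.deg k ≤ d} ⊆
    ↑(Finset.Icc (-(d : ℤ)) d ×ˢ Finset.range (d + 1)) := by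
  rintro _ ⟨k, hk, rfl⟩
  have h1 := c.r_pos
  have h2 : k.1.2 ≤ r * k.1.2 := Nat.le_mul_of_pos_left _ h1
  simp only [deg, mem_setOf_eq] at hk
  simp only [Finset.coe_product, Finset.coe_Icc, Finset.coe_range, mem_prod, mem_Icc, mem_Iio]
  omega

def base : Base n c.J where
  deg := c.deg
  hn := by rcases c.ok with h | h <;> omega
  deg_pos k := k.2
  fin d := Set.Finite.of_finite_image ((Finset.finite_toSet _).subset (c.deg_sub d))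
    Subtype.val_injective.injOn
  card d := by
    rw [← Set.ncard_image_of_injective _ Subtype.val_injective]
    refine (Set.ncard_le_ncard (c.deg_sub d) (Finset.finite_toSet _)).trans ?_
    rw [Set.ncard_coe_finset, Finset.card_product, Finset.card_range, Int.card_Icc]
    have : ((d : ℤ) + 1 - -(d : ℤ)).toNat = 2 * d + 1 := by omega
    rw [this]
  inf := Infinite.of_injective (fun m : ℕ => (⟨((m + 1 : ℕ), 0), by simp; omega⟩ : c.J))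
    (fun a b h => by simpa using congrArg (fun k : c.J => k.1.1) h)

open Classical in
/-- the bounded operator of the form of a triple -/
def Aop (t : T3) : H c.J →L[ℝ] H c.J :=
  if h : ∃ A : H c.J →L[ℝ] H c.J, ∀ k k₁, ent A k k₁ =
      c.form t (c.ek k₁) (c.ek k) / (√(c.base.lam k) * √(c.base.lam k₁)) then h.choose else 0

/-- the polynomial with `D`-coordinates `V` on the finite set `s` -/
def pol (s : Finset c.J) (V : c.J → ℝ) : P3 := ∑ k ∈ s, C (V k / √(c.base.lam k)) * c.ek k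

end Cl

/-- parameters: `ζ₀, ζ₁` and the coefficients of `P₁, P₂` -/
abbrev Par (N : ℕ) : Type := Fin 2 ⊕ Fin N ⊕ Fin N → ℝ

def cpol {N : ℕ} (om : Polynomial ℝ) (ζ : Par N) : P3 :=
  C (ζ (.inl 0)) * Polynomial.aeval (X 2 : P3) om + C (ζ (.inl 1))
def ppol₁ {N : ℕ} (pi : Fin N → P3) (ζ : Par N) : P3 := ∑ m, C (ζ (.inr (.inl m))) * pi m
def ppol₂ {N : ℕ} (pi : Fin N → P3) (ζ : Par N) : P3 := ∑ m, C (ζ (.inr (.inr m))) * pi m
def tripζ (r : ℕ) {N : ℕ} (om : Polynomial ℝ) (pi : Fin N → P3) (ζ : Par N) : T3 :=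
  trip (sS r) (uU r) (cpol om ζ) (ppol₁ pi ζ) (ppol₂ pi ζ)
/-- the point `(θ₀, s, 0, 0)` -/
def bpt (N : ℕ) (θ₀ s : ℝ) : Par N := Sum.elim ![θ₀, s] 0
/-- the box of parameters -/
def box (N : ℕ) (ε ρ : ℝ) : Set (Par N) :=
  {ζ | (∀ a, |ζ (.inl a)| ≤ ε) ∧ ∀ a, |ζ (.inr a)| ≤ ρ}
/-- the rotation invariant triple of a polynomial `c(τ)` -/
def trip₀ (r : ℕ) (cp : Polynomial ℝ) : T3 :=
  trip (sS r) (uU r) (Polynomial.aeval (X 2 : P3) cp) 0 0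
/-- derivative of the triple in the directions `P₁, P₂` at `P = 0` (the part linear in `P`) -/
def dtrip (r : ℕ) (cp : Polynomial ℝ) (P₁ P₂ : P3) : T3 :=
  let t := trip (Polynomial.C (sS r)) (Polynomial.C (uU r))
    (Polynomial.C (Polynomial.aeval (X 2 : P3) cp)) (Polynomial.C P₁ * Polynomial.X)
    (Polynomial.C P₂ * Polynomial.X)
  (t.1.coeff 1, t.2.1.coeff 1, t.2.2.coeff 1)

/-- admissible profiles `ω` -/
def OmOk (om : Polynomial ℝ) : Prop := ∀ x ∈ Icc (-1 : ℝ) 1, 1 / 2 ≤ om.eval x ∧ om.eval x ≤ 2 ∧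
  |om.derivative.eval x| ≤ 2 ∧ |om.derivative.derivative.eval x| ≤ 2

def mult (r a : ℕ) : ℕ := if r = 1 then 2 * a + 1 else a + 1
/-- number of indices with `deg ≤ j + a` -/
def cnt (r a : ℕ) : ℕ := if r = 1 then (a + 1) ^ 2 - 1 else (a + 1) * (a + 2) / 2

section geom
variable {N : ℕ}

def uvec (r : ℕ) (y : Vec (N + 3)) (i : Fin (N + 3)) : ℝ :=
  if i.val < 2 then 0 else if r = 1 then 1 else y i
def tau (r : ℕ) (y : Vec (N + 3)) : ℝ := ∑ i, uvec r y i * y i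
def prj (r : ℕ) (y : Vec (N + 3)) : Fin 3 → ℝ := ![y 0, y 1, tau r y]
def Zv (r : ℕ) (y : Vec (N + 3)) (i : Fin (N + 3)) : ℝ :=
  if i.val < 2 then -tau r y * y i else (y 0 ^ 2 + y 1 ^ 2) * uvec r y i
def Wv (y : Vec (N + 3)) (i : Fin (N + 3)) : ℝ :=
  if i = 0 then -y 1 else if i = 1 then y 0 else 0
/-- `1 + a ZZ + b (ZW + WZ) + e WW` -/
def rk2 (r : ℕ) (a b e : ℝ) (y : Vec (N + 3)) : Matrix (Fin (N + 3)) (Fin (N + 3)) ℝ :=
  1 + Matrix.of fun i l => a * (Zv r y i * Zv r y l) + b * (Zv r y i * Wv y l + Wv y i * Zv r y l) +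
    e * (Wv y i * Wv y l)
def Gm (r : ℕ) (t : T3) : Crest.GeometryTopology.CoordMetric.MetricField (N + 3) := fun y =>
  rk2 r (eval (prj r y) t.2.2) (-eval (prj r y) t.2.1) (eval (prj r y) (vV r * t.1)) y
def Ginv (r : ℕ) (t : T3) : Crest.GeometryTopology.CoordMetric.MetricField (N + 3) := fun y =>
  rk2 r (eval (prj r y) t.1) (eval (prj r y) t.2.1) (eval (prj r y) (vV r * t.2.2)) y

def tauP (r N : ℕ) : MvPolynomial (Fin (N + 3)) ℝ :=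
  ∑ i : Fin (N + 3), if i.val < 2 then 0 else X i ^ r
/-- the homogeneous harmonic polynomial of the mode `k` -/
def Cl.hpol {r : ℕ} (c : Cl r (N + 3)) (Y : MvPolynomial (Fin (N + 3)) ℝ) (k : c.J) :
    MvPolynomial (Fin (N + 3)) ℝ :=
  Y * C (c.nrm k) * aeval ![X 0, X 1, 0] (zt k.1.1) *
    ∑ i ∈ Finset.range (k.1.2 + 1), if (3 - r) * i ≤ k.1.2 then
      C (c.gam k.1.1.natAbs k.1.2 i) * tauP r N ^ (k.1.2 - (3 - r) * i) * (∑ l, X l ^ 2) ^ i else 0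

/-- harmonic homogeneous of degree `j` in the last variables -/
structure YOk (j : ℕ) (Y : MvPolynomial (Fin (N + 3)) ℝ) : Prop where
  hom : Y.IsHomogeneous j
  d0 : pderiv 0 Y = 0
  d1 : pderiv 1 Y = 0
  harm : ∑ i, pderiv i (pderiv i Y) = 0

/-- independence on the fibres of `prj` -/
def YInd (r : ℕ) {I : Type} [Fintype I] (Y : I → MvPolynomial (Fin (N + 3)) ℝ) : Prop :=
  ∀ θ ∈ Ioo 0 (π / r), ∀ (φ : ℝ) (v : I → ℝ),
    (∀ y : Vec (N + 3), ‖y‖ = 1 → prj r y = pt r θ φ → ∑ i, v i * evp (Y i) y = 0) → v = 0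

end geom

end Crest.Agent.R202
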