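import Crest.Agent.R202.Chart_A

/-!
# The low block as an analytic function of the parameter: the implicit function theorem
-/

set_option autoImplicit false

noncomputable section

open scoped InnerProductSpace ContDiff
open Set Filter Topology

namespace Crest.Agent.R202

variable {G : Type} [NormedAddCommGroup G] [InnerProductSpace ℝ G] {m : ℕ}
variable {E : Type} [NormedAddCommGroup E] [NormedSpace ℝ E]

/-- the equations for the low block -/
def chF (K : G →L[ℝ] G) (B : E → G →L[ℝ] G) (V₀ : Fin m → G)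
    (p : E × ((Fin m → G) × (Fin m → Fin m → ℝ))) : (Fin m → G) × (Fin m → Fin m → ℝ) :=
  (fun i => B p.1 (p.2.1 i) - ∑ k, p.2.2 i k • K (p.2.1 k),
    fun i k => if i ≤ k then ⟪K (p.2.1 i), p.2.1 k⟫_ℝ
      else ⟪K (V₀ i), p.2.1 k⟫_ℝ - ⟪K (V₀ k), p.2.1 i⟫_ℝ)

theorem chF_contDiff (K : G →L[ℝ] G) {B : E → G →L[ℝ] G} (hB : ContDiff ℝ ω B) (V₀ : Fin m → G) :
    ContDiff ℝ ω (chF K B V₀) := by
  have hW : ∀ i, ContDiff ℝ ω fun p : E × ((Fin m → G) × (Fin m → Fin m → ℝ)) => p.2.1 i :=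
    fun i => (contDiff_apply ℝ G i).comp (contDiff_fst.comp contDiff_snd)
  have hA : ∀ i k, ContDiff ℝ ω fun p : E × ((Fin m → G) × (Fin m → Fin m → ℝ)) => p.2.2 i k :=
    fun i k => (contDiff_apply_apply ℝ ℝ i k).comp (contDiff_snd.comp contDiff_snd)
  have hK : ∀ i, ContDiff ℝ ω fun p : E × ((Fin m → G) × (Fin m → Fin m → ℝ)) => K (p.2.1 i) :=
    fun i => K.contDiff.comp (hW i)
  refine ContDiff.prodMk (contDiff_pi.2 fun i => ?_) (contDiff_pi.2 fun i => contDiff_pi.2 fun k => ?_)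
  · exact ((hB.comp contDiff_fst).clm_apply (hW i)).sub
      (ContDiff.sum fun k _ => (hA i k).smul (hK k))
  · by_cases h : i ≤ k
    · simp only [if_pos h]
      exact (hK i).inner ℝ (hW k)
    · simp only [if_neg h]
      exact (contDiff_const.inner ℝ (hW k)).sub (contDiff_const.inner ℝ (hW i))

theorem chF_fderiv {K : G →L[ℝ] G} (Ks : ∀ x y, ⟪K x, y⟫_ℝ = ⟪K y, x⟫_ℝ) {B : E → G →L[ℝ] G}
    (hB : ContDiff ℝ ω B) (V₀ : Fin m → G) (l : Fin m → ℝ) (ζ₀ e : E) (w : Fin m → G)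
    (a : Fin m → Fin m → ℝ) :
    fderiv ℝ (chF K B V₀) (ζ₀, (V₀, fun i k => if i = k then l i else 0)) (e, (w, a)) =
      (fun i => fderiv ℝ B ζ₀ e (V₀ i) + (B ζ₀ (w i) - l i • K (w i) - ∑ k, a i k • K (V₀ k)),
        fun i k => if i ≤ k then ⟪K (V₀ k), w i⟫_ℝ + ⟪K (V₀ i), w k⟫_ℝ
          else ⟪K (V₀ i), w k⟫_ℝ - ⟪K (V₀ k), w i⟫_ℝ) := by
  set D : Fin m → Fin m → ℝ := fun i k => if i = k then l i else 0 with hD
  have hline : HasDerivAt (fun t : ℝ => ((ζ₀, (V₀, D)) : E × ((Fin m → G) × (Fin m → Fin m → ℝ))) +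
      t • (e, (w, a))) (e, (w, a)) 0 := by
    simpa using ((hasDerivAt_id (0 : ℝ)).smul_const
      ((e, (w, a)) : E × ((Fin m → G) × (Fin m → Fin m → ℝ)))).const_add (ζ₀, (V₀, D))
  have h1 : HasDerivAt (fun t : ℝ => chF K B V₀ ((ζ₀, (V₀, D)) + t • (e, (w, a))))
      (fderiv ℝ (chF K B V₀) (ζ₀, (V₀, D)) (e, (w, a))) 0 := by
    have hd := ((chF_contDiff K hB V₀).differentiable (by simp) (ζ₀, (V₀, D))).hasFDerivAt
    exact hd.comp_hasDerivAt_of_eq 0 hline (by simp)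
  refine h1.unique ?_
  have hW : ∀ i, HasDerivAt (fun t : ℝ => V₀ i + t • w i) (w i) 0 := fun i => by
    simpa using ((hasDerivAt_id (0 : ℝ)).smul_const (w i)).const_add (V₀ i)
  have hA : ∀ i k, HasDerivAt (fun t : ℝ => D i k + t * a i k) (a i k) 0 := fun i k => by
    simpa using ((hasDerivAt_id (0 : ℝ)).mul_const (a i k)).const_add (D i k)
  have hK : ∀ i, HasDerivAt (fun t : ℝ => K (V₀ i + t • w i)) (K (w i)) 0 := fun i =>
    K.hasFDerivAt.comp_hasDerivAt 0 (hW i)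
  have hBl : HasDerivAt (fun t : ℝ => B (ζ₀ + t • e)) (fderiv ℝ B ζ₀ e) 0 := by
    have hd := (hB.differentiable (by simp) ζ₀).hasFDerivAt
    have hl : HasDerivAt (fun t : ℝ => ζ₀ + t • e) e 0 := by
      simpa using ((hasDerivAt_id (0 : ℝ)).smul_const e).const_add ζ₀
    exact hd.comp_hasDerivAt_of_eq 0 hl (by simp)
  refine HasDerivAt.prodMk (hasDerivAt_pi.2 fun i => ?_)
    (hasDerivAt_pi.2 fun i => hasDerivAt_pi.2 fun k => ?_)
  · have := ((hBl.clm_apply (hW i)).sub (HasDerivAt.sum (u := Finset.univ)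
      fun k _ => (hA i k).smul (hK k)))
    convert this using 1
    · funext t
      simp [Finset.sum_apply]
    · simp only [zero_smul, add_zero, zero_mul, Finset.sum_add_distrib, hD, ite_smul,
        Finset.sum_ite_eq, Finset.mem_univ, if_true]
      abel
  · by_cases h : i ≤ k
    · simp only [if_pos h]
      refine ((hK i).inner ℝ (hW k)).congr_deriv ?_
      simp only [zero_smul, add_zero]
      rw [Ks (w i), add_comm]
    · simp only [if_neg h]
      refine (((hasDerivAt_const (0 : ℝ) (K (V₀ i))).inner ℝ (hW k)).sub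
        ((hasDerivAt_const (0 : ℝ) (K (V₀ k))).inner ℝ (hW i))).congr_deriv ?_
      simp

variable [CompleteSpace G] [CompleteSpace E]

theorem ChData.exists_implicit {K : G →L[ℝ] G} {B : E → G →L[ℝ] G} (hB : ContDiff ℝ ω B) {ζ₀ : E}
    {V₀ : Fin m → G} {l : Fin m → ℝ} {μ : ℝ} (h : ChData K (B ζ₀) V₀ l μ) :
    ∃ (V : E → Fin m → G) (Λ : E → Fin m → Fin m → ℝ),
      AnalyticAt ℝ V ζ₀ ∧ AnalyticAt ℝ Λ ζ₀ ∧ V ζ₀ = V₀ ∧
      (∀ i k, Λ ζ₀ i k = if i = k then l i else 0) ∧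
      (∀ e i k, fderiv ℝ Λ ζ₀ e i k = ⟪fderiv ℝ B ζ₀ e (V₀ i), V₀ k⟫_ℝ) ∧
      ∀ᶠ ζ in 𝓝 ζ₀, (∀ i, B ζ (V ζ i) = ∑ k, Λ ζ i k • K (V ζ k)) ∧
        (∀ i k, ⟪K (V ζ i), V ζ k⟫_ℝ = if i = k then 1 else 0) := by
  set D : Fin m → Fin m → ℝ := fun i k => if i = k then l i else 0 with hD
  set u : E × ((Fin m → G) × (Fin m → Fin m → ℝ)) := (ζ₀, (V₀, D)) with hu
  have cdf : ContDiffAt ℝ ω (chF K B V₀) u := (chF_contDiff K hB V₀).contDiffAt
  have hder := chF_fderiv h.Ks hB V₀ l ζ₀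
  have hbij : Function.Bijective (fderiv ℝ (chF K B V₀) u ∘L .inr ℝ E _) := by
    constructor
    · rw [injective_iff_map_eq_zero]
      rintro ⟨w, a⟩ e
      have e' := (hder 0 w a).symm.trans e
      have e1 := congrArg Prod.fst e'
      have e2 := congrArg Prod.snd e'
      have hc := ch_gauge_zero (c := fun i k => ⟪K (V₀ k), w i⟫_ℝ) fun i k =>
        congrFun (congrFun e2 i) k
      have hu : ∀ i, w i = 0 ∧ a i = 0 := fun i =>
        h.uniq (h.l_nonneg i) (h.lt i) (hc i) (by simpa using congrFun e1 i)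
      exact Prod.ext (funext fun i => (hu i).1) (funext fun i => (hu i).2)
    · rintro ⟨f, N⟩
      obtain ⟨c, hc⟩ := ch_gauge_solve N
      choose w a hw ha using fun i => h.solve (h.l_nonneg i) (h.lt i) (f i) (c i)
      refine ⟨(w, a), (hder 0 w a).trans (Prod.ext (funext fun i => ?_)
        (funext fun i => funext fun k => ?_))⟩
      · simpa using ha i
      · simp only [hw]
        exact hc i k
  have if₂ : (fderiv ℝ (chF K B V₀) u ∘L .inr ℝ E _).IsInvertible :=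
    ⟨ContinuousLinearEquiv.ofBijective _ (LinearMap.ker_eq_bot.2 hbij.1)
      (LinearMap.range_eq_top.2 hbij.2), rfl⟩
  have pn : (ω : WithTop ℕ∞) ≠ 0 := by simp
  set ψ := cdf.implicitFunction pn if₂ with hψ
  have ψ0 : ψ ζ₀ = (V₀, D) := cdf.implicitFunction_apply_self pn if₂
  have ψev : ∀ᶠ ζ in 𝓝 ζ₀, chF K B V₀ (ζ, ψ ζ) = chF K B V₀ u :=
    cdf.eventually_apply_implicitFunction pn if₂
  have ψan : AnalyticAt ℝ ψ ζ₀ := (cdf.contDiffAt_implicitFunction pn if₂).analyticAt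
  have ψd : HasFDerivAt ψ (fderiv ℝ ψ ζ₀) ζ₀ := ψan.differentiableAt.hasFDerivAt
  refine ⟨fun ζ => (ψ ζ).1, fun ζ => (ψ ζ).2, analyticAt_fst.comp ψan, analyticAt_snd.comp ψan,
    by simp only [ψ0], fun i k => by simp only [ψ0, hD], fun e i k => ?_, ?_⟩
  · have h1 : HasFDerivAt (fun ζ => chF K B V₀ (ζ, ψ ζ))
        ((fderiv ℝ (chF K B V₀) u).comp ((ContinuousLinearMap.id ℝ E).prod (fderiv ℝ ψ ζ₀))) ζ₀ := by
      have hd : HasFDerivAt (chF K B V₀) (fderiv ℝ (chF K B V₀) u) (ζ₀, ψ ζ₀) := by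
        rw [ψ0]; exact (cdf.differentiableAt pn).hasFDerivAt
      exact hd.comp ζ₀ ((hasFDerivAt_id ζ₀).prodMk ψd)
    have h2 : HasFDerivAt (fun ζ => chF K B V₀ (ζ, ψ ζ)) (0 : E →L[ℝ] _) ζ₀ :=
      (hasFDerivAt_const (chF K B V₀ u) ζ₀).congr_of_eventuallyEq ψev
    have h3 : fderiv ℝ (chF K B V₀) u (e, fderiv ℝ ψ ζ₀ e) = 0 :=
      congrArg (fun T : E →L[ℝ] _ => T e) (h1.unique h2)
    rw [ψd.snd.fderiv]
    show (fderiv ℝ ψ ζ₀ e).2 i k = _
    generalize fderiv ℝ ψ ζ₀ e = q at h3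
    obtain ⟨w, a⟩ := q
    have e' := (hder e w a).symm.trans h3
    have e1 := congrFun (congrArg Prod.fst e') i
    have e2 := congrArg Prod.snd e'
    have hc := ch_gauge_zero (c := fun i k => ⟪K (V₀ k), w i⟫_ℝ) fun i k =>
      congrFun (congrFun e2 i) k
    have e3 := congrArg (fun z => ⟪z, V₀ k⟫_ℝ) e1
    simp only [inner_add_left, inner_sub_left, real_inner_smul_left, h.sum_K, h.B_V, h.Ks (w i),
      hc, Prod.fst_zero, Pi.zero_apply, inner_zero_left] at e3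
    show a i k = _
    linarith
  · filter_upwards [ψev] with ζ hζ
    have e1 := congrArg Prod.fst hζ
    have e2 := congrArg Prod.snd hζ
    have hle : ∀ i k, i ≤ k → ⟪K ((ψ ζ).1 i), (ψ ζ).1 k⟫_ℝ = if i = k then 1 else 0 := by
      intro i k hik
      have := congrFun (congrFun e2 i) k
      simpa only [chF, hu, if_pos hik, h.orth] using this
    refine ⟨fun i => ?_, fun i k => ?_⟩
    · have := congrFun e1 i
      simp only [chF, hu, hD, ite_smul, zero_smul, Finset.sum_ite_eq, Finset.mem_univ, if_true,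
        h.eig, sub_self] at this
      exact sub_eq_zero.1 this
    · rcases le_total i k with hik | hik
      · exact hle i k hik
      · rw [h.Ks, hle k i hik]
        simp only [eq_comm]

end Crest.Agent.R202
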