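import Crest.Agent.R202.EvSpec
import Crest.Agent.R202.Chart_B

/-!
# The low block as an analytic function of the parameter (task A5)

Inverse function theorem (`ContDiffAt.toOpenPartialHomeomorph`, `ContDiffAt.to_localInverse`, `n = ω`) for
`(ζ, W, A) ↦ (ζ, (B ζ W_i - ∑_k A_{ki} K W_k)_i, N)` on `E × (Fin m → H) × Matrix`, where the matrix `N` has
entries `mass W_i W_k` for `i ≤ k` and `mass V₀_i W_k - mass V₀_k W_i` for `i > k`.  The derivative at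
`(ζ₀, V₀, diag l)` is bijective: on the mass-orthogonal complement of the `V₀_i` the form
`⟪B y, y⟫ - l_i mass y y` is coercive (Lax-Milgram).
-/

set_option autoImplicit false

noncomputable section

open scoped InnerProductSpace ContDiff
open Set Filter Topology

namespace Crest.Agent.R202


theorem ch_quad_le {m : ℕ} {A : Fin m → Fin m → ℝ} {l : Fin m → ℝ} {t : ℝ}
    (h : ∀ i, l i + ∑ j, ∑ k, |A j k - if j = k then l j else 0| ≤ t) (u : Fin m → ℝ) :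
    ∑ i, ∑ k, A i k * u i * u k ≤ t * ∑ i, u i ^ 2 := by
  set S := ∑ i, u i ^ 2 with hS
  set ε := ∑ j, ∑ k, |A j k - if j = k then l j else 0| with hε
  have hu : ∀ i, u i ^ 2 ≤ S := fun i =>
    Finset.single_le_sum (f := fun i => u i ^ 2) (fun _ _ => sq_nonneg _) (Finset.mem_univ i)
  have h1 : ∀ i k, A i k * u i * u k ≤
      (if i = k then l i else 0) * u i * u k + |A i k - if i = k then l i else 0| * S := by
    intro i k
    have e1 : |u i * u k| ≤ S := by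
      have := hu i
      have := hu k
      rw [abs_le]
      constructor <;> nlinarith [sq_nonneg (u i + u k), sq_nonneg (u i - u k)]
    have e2 : (A i k - if i = k then l i else 0) * (u i * u k) ≤
        |A i k - if i = k then l i else 0| * S :=
      (le_abs_self _).trans (by rw [abs_mul]; exact mul_le_mul_of_nonneg_left e1 (abs_nonneg _))
    nlinarith
  calc ∑ i, ∑ k, A i k * u i * u k
      ≤ ∑ i, ∑ k, ((if i = k then l i else 0) * u i * u k +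
          |A i k - if i = k then l i else 0| * S) :=
        Finset.sum_le_sum fun i _ => Finset.sum_le_sum fun k _ => h1 i k
    _ = ∑ i, l i * u i ^ 2 + ε * S := by
        simp only [Finset.sum_add_distrib, ite_mul, zero_mul, Finset.sum_ite_eq, Finset.mem_univ,
          if_true, hε, Finset.sum_mul, sq, mul_assoc]
    _ = ∑ i, (l i + ε) * u i ^ 2 := by
        simp only [add_mul, Finset.sum_add_distrib, hS, Finset.mul_sum]
    _ ≤ ∑ i, t * u i ^ 2 := Finset.sum_le_sum fun i _ =>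
        mul_le_mul_of_nonneg_right (h i) (sq_nonneg _)
    _ = t * S := by rw [hS, Finset.mul_sum]

theorem ChData.gap_near {G : Type} [NormedAddCommGroup G] [InnerProductSpace ℝ G] {m : ℕ}
    {K B : G →L[ℝ] G} {V : Fin m → G} {l : Fin m → ℝ} {μ : ℝ} (h : ChData K B V l μ)
    {B₁ : G →L[ℝ] G} (hB₁ : ∀ x, 0 ≤ ⟪B₁ x, x⟫_ℝ) {W : Fin m → G} {t : ℝ}
    (ht : t * (1 + 2 * μ * ∑ k, ‖K (V k) - K (W k)‖ ^ 2) ≤ μ * (1 - 2 * ‖B₁ - B‖))
    (y : G) (hy : ∀ i, ⟪K (W i), y⟫_ℝ = 0) : t * ⟪K y, y⟫_ℝ ≤ ⟪B₁ y, y⟫_ℝ := by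
  rcases le_or_gt t 0 with h0 | h0
  · exact (mul_nonpos_of_nonpos_of_nonneg h0 (h.Kn y)).trans (hB₁ y)
  have hμ := h.pos
  set Q := ⟪B y, y⟫_ℝ with hQ
  set δ := ∑ k, ‖K (V k) - K (W k)‖ ^ 2 with hδ
  have hQ0 : 0 ≤ Q := h.Bn y
  have hδ0 : 0 ≤ δ := Finset.sum_nonneg fun _ _ => sq_nonneg _
  have hn : ‖y‖ ^ 2 ≤ 2 * Q := by have := h.Bc y; linarith
  have h1 : ∑ k, ⟪K (V k), y⟫_ℝ ^ 2 ≤ δ * ‖y‖ ^ 2 := by
    rw [hδ, Finset.sum_mul]
    refine Finset.sum_le_sum fun k _ => ?_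
    have e : ⟪K (V k), y⟫_ℝ = ⟪K (V k) - K (W k), y⟫_ℝ := by rw [inner_sub_left, hy, sub_zero]
    rw [e, ← mul_pow, ← sq_abs]
    exact pow_le_pow_left₀ (abs_nonneg _) (abs_real_inner_le_norm _ _) 2
  have h2 : μ * ⟪K y, y⟫_ℝ ≤ Q * (1 + 2 * μ * δ) := by
    have := h.low y
    have h3 : μ * ∑ k, ⟪K (V k), y⟫_ℝ ^ 2 ≤ μ * (δ * (2 * Q)) :=
      mul_le_mul_of_nonneg_left (h1.trans (mul_le_mul_of_nonneg_left hn hδ0)) hμ.le
    nlinarith
  have h3 : Q * (1 - 2 * ‖B₁ - B‖) ≤ ⟪B₁ y, y⟫_ℝ := by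
    have e : ⟪B₁ y, y⟫_ℝ = Q + ⟪(B₁ - B) y, y⟫_ℝ := by
      rw [sub_apply, inner_sub_left]; ring
    have e1 : |⟪(B₁ - B) y, y⟫_ℝ| ≤ ‖B₁ - B‖ * ‖y‖ ^ 2 :=
      (abs_real_inner_le_norm _ _).trans (by
        rw [sq, ← mul_assoc]
        exact mul_le_mul_of_nonneg_right ((B₁ - B).le_opNorm y) (norm_nonneg _))
    have e2 := mul_le_mul_of_nonneg_left hn (norm_nonneg (B₁ - B))
    have e3 := neg_abs_le ⟪(B₁ - B) y, y⟫_ℝ
    rw [e]
    nlinarith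
  refine le_of_mul_le_mul_left ?_ hμ
  calc μ * (t * ⟪K y, y⟫_ℝ) = t * (μ * ⟪K y, y⟫_ℝ) := by ring
    _ ≤ t * (Q * (1 + 2 * μ * δ)) := mul_le_mul_of_nonneg_left h2 h0.le
    _ = Q * (t * (1 + 2 * μ * δ)) := by ring
    _ ≤ Q * (μ * (1 - 2 * ‖B₁ - B‖)) := mul_le_mul_of_nonneg_left ht hQ0
    _ = μ * (Q * (1 - 2 * ‖B₁ - B‖)) := by ring
    _ ≤ μ * ⟪B₁ y, y⟫_ℝ := mul_le_mul_of_nonneg_left h3 hμ.le

variable {n : ℕ} {J : Type} (b : Base n J)
variable {E : Type} [NormedAddCommGroup E] [NormedSpace ℝ E] [FiniteDimensional ℝ E]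

theorem Base.exists_chart (B : E → H J →L[ℝ] H J) (hB : ContDiff ℝ ω B) (ζ₀ : E)
    (hadm : ∀ᶠ ζ in 𝓝 ζ₀, Adm (B ζ)) {m : ℕ} (V₀ : Fin m → H J)
    (hV : b.EigFam (B ζ₀) V₀ (fun i => b.ev (B ζ₀) univ i)) {t₁ t₂ : ℝ}
    (ht₁ : ∀ i : Fin m, b.ev (B ζ₀) univ i < t₁) (ht : t₁ < t₂) (ht₂ : t₂ < b.ev (B ζ₀) univ m) :
    ∃ (V : E → Fin m → H J) (Λ : E → Fin m → Fin m → ℝ),
      AnalyticAt ℝ V ζ₀ ∧ AnalyticAt ℝ Λ ζ₀ ∧ V ζ₀ = V₀ ∧
      (∀ i k, Λ ζ₀ i k = if i = k then b.ev (B ζ₀) univ i else 0) ∧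
      (∀ e i k, fderiv ℝ Λ ζ₀ e i k = ⟪fderiv ℝ B ζ₀ e (V₀ i), V₀ k⟫_ℝ) ∧
      ∀ᶠ ζ in 𝓝 ζ₀,
        (∀ i, B ζ (V ζ i) = ∑ k, Λ ζ k i • b.K (V ζ k)) ∧
        (∀ i k, b.mass (V ζ i) (V ζ k) = if i = k then 1 else 0) ∧
        (∀ i k, Λ ζ i k = Λ ζ k i) ∧
        (∀ u : Fin m → ℝ, ∑ i, ∑ k, Λ ζ i k * u i * u k ≤ t₁ * ∑ i, u i ^ 2) ∧
        ∀ y, (∀ i, b.mass (V ζ i) y = 0) → t₂ * b.mass y y ≤ ⟪B ζ y, y⟫_ℝ := by
  have : CompleteSpace E := FiniteDimensional.complete ℝ E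
  have hA : Adm (B ζ₀) := hadm.self_of_nhds
  have hinf : (univ : Set J).Infinite := Set.infinite_univ_iff.2 b.inf
  set μ := b.ev (B ζ₀) univ m with hμ
  have hlt : ∀ i : Fin m, b.ev (B ζ₀) univ i < μ := fun i => ((ht₁ i).trans ht).trans ht₂
  have hd : ChData b.K (B ζ₀) V₀ (fun i => b.ev (B ζ₀) univ i) μ :=
    { Ks := b.mass_symm
      Kn := fun x => by
        by_cases hx : x = 0
        · simp [hx]
        · exact (b.mass_pos hx).le
      Bs := hA.1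
      Bc := fun x => (hA.2 x).1
      eig := hV.eig
      orth := hV.orth
      gap := fun y hy => by
        have := b.eigFam_gap hA hV (by simpa using hlt) y hy
        rwa [Fintype.card_fin] at this
      lt := hlt
      pos := lt_of_lt_of_le one_pos (b.one_le_ev hA hinf m) }
  obtain ⟨V, Λ, hVa, hΛa, hV0, hΛ0, hder, hev⟩ := hd.exists_implicit hB
  refine ⟨V, Λ, hVa, hΛa, hV0, hΛ0, hder, ?_⟩
  have hVc : ∀ k, ContinuousAt (fun ζ => V ζ k) ζ₀ := fun k =>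
    (continuous_apply k).continuousAt.comp hVa.continuousAt
  have hΛc : ∀ i k, ContinuousAt (fun ζ => Λ ζ i k) ζ₀ := fun i k =>
    (continuous_apply_apply i k).continuousAt.comp hΛa.continuousAt
  have hBc : ContinuousAt B ζ₀ := hB.continuous.continuousAt
  have e1 : ∀ᶠ ζ in 𝓝 ζ₀, ∀ i : Fin m, b.ev (B ζ₀) univ i +
      ∑ j, ∑ k, |Λ ζ j k - if j = k then b.ev (B ζ₀) univ j else 0| ≤ t₁ := by
    refine eventually_all.2 fun i => ?_
    have hc : ContinuousAt (fun ζ => b.ev (B ζ₀) univ i +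
        ∑ j, ∑ k, |Λ ζ j k - if j = k then b.ev (B ζ₀) univ j else 0|) ζ₀ :=
      continuousAt_const.add (tendsto_finsetSum _ fun j _ => tendsto_finsetSum _ fun k _ =>
        ((hΛc j k).sub continuousAt_const).abs)
    refine (hc.eventually_lt continuousAt_const ?_).mono fun _ h => h.le
    simpa [hΛ0] using ht₁ i
  have e2 : ∀ᶠ ζ in 𝓝 ζ₀, t₂ * (1 + 2 * μ * ∑ k, ‖b.K (V₀ k) - b.K (V ζ k)‖ ^ 2) ≤
      μ * (1 - 2 * ‖B ζ - B ζ₀‖) := by
    have hc1 : ContinuousAt (fun ζ => t₂ * (1 + 2 * μ * ∑ k, ‖b.K (V₀ k) - b.K (V ζ k)‖ ^ 2)) ζ₀ :=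
      continuousAt_const.mul (continuousAt_const.add (continuousAt_const.mul
        (tendsto_finsetSum _ fun k _ =>
          ((continuousAt_const.sub (b.K.continuous.continuousAt.comp (hVc k))).norm.pow 2))))
    have hc2 : ContinuousAt (fun ζ => μ * (1 - 2 * ‖B ζ - B ζ₀‖)) ζ₀ :=
      continuousAt_const.mul (continuousAt_const.sub (continuousAt_const.mul
        (hBc.sub continuousAt_const).norm))
    refine (hc1.eventually_lt hc2 ?_).mono fun _ h => h.le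
    simpa [hV0] using ht₂
  filter_upwards [hev, hadm, e1, e2] with ζ hζ hζa h1 h2
  have hΛ : ∀ i k, Λ ζ i k = ⟪B ζ (V ζ i), V ζ k⟫_ℝ := fun i k => by
    rw [hζ.1]
    simp [sum_inner, real_inner_smul_left, hζ.2]
  have hs : ∀ i k, Λ ζ i k = Λ ζ k i := fun i k => by rw [hΛ, hΛ, hζa.1, real_inner_comm]
  refine ⟨fun i => ?_, hζ.2, hs, ch_quad_le h1, fun y hy => ?_⟩
  · rw [hζ.1]
    exact Finset.sum_congr rfl fun k _ => by rw [hs i k]
  · exact hd.gap_near (fun x => le_trans (by positivity) (hζa.2 x).1) h2 y hy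

end Crest.Agent.R202
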