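import Mathlib

/-!
# The low block as an analytic function of the parameter: linear algebra in an abstract Hilbert space
-/

set_option autoImplicit false

noncomputable section

open scoped InnerProductSpace ContDiff
open Set Filter Topology

namespace Crest.Agent.R202

variable {G : Type} [NormedAddCommGroup G] [InnerProductSpace ℝ G] {m : ℕ}

/-- an orthonormal eigenfamily of the pencil `(B, K)` with a gap above it -/
structure ChData (K B : G →L[ℝ] G) (V : Fin m → G) (l : Fin m → ℝ) (μ : ℝ) : Prop where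
  Ks : ∀ x y, ⟪K x, y⟫_ℝ = ⟪K y, x⟫_ℝ
  Kn : ∀ x, 0 ≤ ⟪K x, x⟫_ℝ
  Bs : ∀ x y, ⟪B x, y⟫_ℝ = ⟪x, B y⟫_ℝ
  Bc : ∀ x, ‖x‖ ^ 2 / 2 ≤ ⟪B x, x⟫_ℝ
  eig : ∀ i, B (V i) = l i • K (V i)
  orth : ∀ i k, ⟪K (V i), V k⟫_ℝ = if i = k then 1 else 0
  gap : ∀ y, (∀ i, ⟪K (V i), y⟫_ℝ = 0) → μ * ⟪K y, y⟫_ℝ ≤ ⟪B y, y⟫_ℝ
  lt : ∀ i, l i < μ
  pos : 0 < μ

namespace ChData

variable {K B : G →L[ℝ] G} {V : Fin m → G} {l : Fin m → ℝ} {μ : ℝ} (h : ChData K B V l μ)
include h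

theorem Bn (x : G) : 0 ≤ ⟪B x, x⟫_ℝ := le_trans (by positivity) (h.Bc x)

theorem l_nonneg (i : Fin m) : 0 ≤ l i := by
  have := h.Bn (V i)
  rwa [h.eig, real_inner_smul_left, h.orth, if_pos rfl, mul_one] at this

theorem K_sum (c : Fin m → ℝ) (i : Fin m) : ⟪K (V i), ∑ k, c k • V k⟫_ℝ = c i := by
  simp [inner_sum, real_inner_smul_right, h.orth]

theorem sum_K (c : Fin m → ℝ) (i : Fin m) : ⟪∑ k, c k • K (V k), V i⟫_ℝ = c i := by
  simp [sum_inner, real_inner_smul_left, h.orth]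

theorem B_V (x : G) (k : Fin m) : ⟪B x, V k⟫_ℝ = l k * ⟪K (V k), x⟫_ℝ := by
  rw [h.Bs, h.eig, real_inner_smul_right, real_inner_comm]

theorem low (x : G) : μ * (⟪K x, x⟫_ℝ - ∑ k, ⟪K (V k), x⟫_ℝ ^ 2) ≤ ⟪B x, x⟫_ℝ := by
  set c : Fin m → ℝ := fun k => ⟪K (V k), x⟫_ℝ with hc
  set s : G := ∑ k, c k • V k with hs
  set y : G := x - s with hy
  have hx : x = y + s := by rw [hy, sub_add_cancel]
  have h0 : ∀ i, ⟪K (V i), y⟫_ℝ = 0 := fun i => by
    rw [hy, inner_sub_right, hs, h.K_sum]; simp [hc]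
  have h1 : ⟪K s, y⟫_ℝ = 0 := by
    rw [hs, map_sum, sum_inner]
    exact Finset.sum_eq_zero fun k _ => by rw [map_smul, real_inner_smul_left, h0, mul_zero]
  have h2 : ⟪K s, s⟫_ℝ = ∑ k, c k ^ 2 := by
    conv_lhs => rw [hs, map_sum, sum_inner]
    refine Finset.sum_congr rfl fun k _ => ?_
    rw [map_smul, real_inner_smul_left, h.K_sum, sq]
  have h3 : ⟪B y, s⟫_ℝ = 0 := by
    rw [hs, inner_sum]
    exact Finset.sum_eq_zero fun k _ => by rw [real_inner_smul_right, h.B_V, h0, mul_zero, mul_zero]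
  have h4 : ⟪B s, y⟫_ℝ = 0 := by rw [h.Bs, real_inner_comm, h3]
  have h5 : ⟪K y, s⟫_ℝ = 0 := by rw [h.Ks, h1]
  have e1 : ⟪K x, x⟫_ℝ = ⟪K y, y⟫_ℝ + ∑ k, c k ^ 2 := by
    conv_lhs => rw [hx]
    rw [map_add, inner_add_left, inner_add_right, inner_add_right, h1, h2, h5]; ring
  have e2 : ⟪B x, x⟫_ℝ = ⟪B y, y⟫_ℝ + ⟪B s, s⟫_ℝ := by
    conv_lhs => rw [hx]
    rw [map_add, inner_add_left, inner_add_right, inner_add_right, h3, h4]; ring
  have := h.gap y h0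
  have := h.Bn s
  rw [e1, e2]
  linarith

theorem coer {t : ℝ} (h0 : 0 ≤ t) (h1 : t < μ) (x : G) :
    ‖x‖ ^ 2 * ((1 - t / μ) / 2) ≤
      ⟪B x, x⟫_ℝ - t * (⟪K x, x⟫_ℝ - ∑ k, ⟪K (V k), x⟫_ℝ ^ 2) := by
  have hμ := h.pos
  have h2 : 0 ≤ 1 - t / μ := by rw [sub_nonneg, div_le_one hμ]; exact h1.le
  have h3 : t * (⟪K x, x⟫_ℝ - ∑ k, ⟪K (V k), x⟫_ℝ ^ 2) ≤ t / μ * ⟪B x, x⟫_ℝ := by
    have := mul_le_mul_of_nonneg_left (h.low x) (div_nonneg h0 hμ.le)
    rwa [← mul_assoc, div_mul_cancel₀ _ hμ.ne'] at this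
  have h4 := mul_le_mul_of_nonneg_left (h.Bc x) h2
  nlinarith

theorem uniq {t : ℝ} (h0 : 0 ≤ t) (h1 : t < μ) {x : G} {a : Fin m → ℝ}
    (hx : ∀ k, ⟪K (V k), x⟫_ℝ = 0) (e : B x - t • K x - ∑ k, a k • K (V k) = 0) :
    x = 0 ∧ a = 0 := by
  have hμ := h.pos
  have h2 : 0 < 1 - t / μ := by rw [sub_pos, div_lt_one hμ]; exact h1
  have h3 := h.coer h0 h1 x
  have h4 : ⟪B x, x⟫_ℝ - t * ⟪K x, x⟫_ℝ = 0 := by
    have := congrArg (fun z => ⟪z, x⟫_ℝ) e
    simpa [inner_sub_left, real_inner_smul_left, sum_inner, hx] using this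
  simp only [hx, ne_eq, OfNat.ofNat_ne_zero, not_false_eq_true, zero_pow, Finset.sum_const_zero,
    sub_zero, h4] at h3
  have h5 : x = 0 := by
    have : ‖x‖ ^ 2 ≤ 0 := by nlinarith
    have : ‖x‖ = 0 := by nlinarith [norm_nonneg x]
    exact norm_eq_zero.1 this
  refine ⟨h5, funext fun i => ?_⟩
  subst h5
  have := congrArg (fun z => ⟪z, V i⟫_ℝ) e
  simp only [map_zero, smul_zero, sub_zero, zero_sub, inner_neg_left, h.sum_K, inner_zero_left,
    neg_eq_zero] at this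
  exact this

theorem solve [CompleteSpace G] {t : ℝ} (h0 : 0 ≤ t) (h1 : t < μ) (f : G) (c : Fin m → ℝ) :
    ∃ (x : G) (a : Fin m → ℝ), (∀ k, ⟪K (V k), x⟫_ℝ = c k) ∧
      B x - t • K x - ∑ k, a k • K (V k) = f := by
  have hμ := h.pos
  have h2 : 0 < (1 - t / μ) / 2 := by
    have : 0 < 1 - t / μ := by rw [sub_pos, div_lt_one hμ]; exact h1
    positivity
  let T : G →L[ℝ] G := B - t • K + t • ∑ k, (innerSL ℝ (K (V k))).smulRight (K (V k))
  have hT : ∀ x, T x = B x - t • K x + t • ∑ k, ⟪K (V k), x⟫_ℝ • K (V k) := fun x => by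
    simp [T]
  have hu : IsUnit T := by
    refine ContinuousLinearMap.isUnit_of_forall_le_norm_inner_map T (c := ⟨_, h2.le⟩) h2 fun x => ?_
    refine le_trans ?_ (le_abs_self _)
    have := h.coer h0 h1 x
    rw [hT, inner_add_left, inner_sub_left, real_inner_smul_left, real_inner_smul_left, sum_inner]
    simp only [real_inner_smul_left, ← sq]
    show ‖x‖ ^ 2 * ((1 - t / μ) / 2) ≤ _
    linarith
  obtain ⟨x₀, hx₀⟩ := (ContinuousLinearMap.isUnit_iff_bijective.1 hu).2 f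
  rw [hT] at hx₀
  refine ⟨x₀ + ∑ k, (c k - ⟪K (V k), x₀⟫_ℝ) • V k,
    fun k => (c k - ⟪K (V k), x₀⟫_ℝ) * (l k - t) - t * ⟪K (V k), x₀⟫_ℝ, fun k => ?_, ?_⟩
  · rw [inner_add_right, h.K_sum]; ring
  · rw [← hx₀]
    simp only [map_add, map_sum, map_smul, h.eig, smul_add, Finset.smul_sum, smul_smul]
    have : ∑ k, ((c k - ⟪K (V k), x₀⟫_ℝ) * (l k - t) - t * ⟪K (V k), x₀⟫_ℝ) • K (V k) =
        ∑ k, ((c k - ⟪K (V k), x₀⟫_ℝ) * l k) • K (V k) -
          ∑ k, (t * (c k - ⟪K (V k), x₀⟫_ℝ)) • K (V k) -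
          ∑ k, (t * ⟪K (V k), x₀⟫_ℝ) • K (V k) := by
      rw [← Finset.sum_sub_distrib, ← Finset.sum_sub_distrib]
      refine Finset.sum_congr rfl fun k _ => ?_
      rw [← sub_smul, ← sub_smul]; congr 1; ring
    rw [this]; abel

end ChData

/-- the linearised gauge conditions determine all products -/
theorem ch_gauge_zero {c : Fin m → Fin m → ℝ}
    (h : ∀ i k, (if i ≤ k then c i k + c k i else c k i - c i k) = 0) (i k : Fin m) : c i k = 0 := by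
  rcases lt_trichotomy i k with h1 | h1 | h1
  · have e1 := h i k
    have e2 := h k i
    rw [if_pos h1.le] at e1
    rw [if_neg (not_le.2 h1)] at e2
    linarith
  · subst h1
    have e1 := h i i
    rw [if_pos le_rfl] at e1
    linarith
  · have e1 := h i k
    have e2 := h k i
    rw [if_neg (not_le.2 h1)] at e1
    rw [if_pos h1.le] at e2
    linarith

theorem ch_gauge_solve (N : Fin m → Fin m → ℝ) : ∃ c : Fin m → Fin m → ℝ,
    ∀ i k, (if i ≤ k then c i k + c k i else c k i - c i k) = N i k := by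
  refine ⟨fun i k => if i < k then (N i k + N k i) / 2 else if i = k then N i i / 2
    else (N k i - N i k) / 2, fun i k => ?_⟩
  rcases lt_trichotomy i k with h1 | h1 | h1
  · simp only [if_pos h1.le, if_pos h1, if_neg (not_lt.2 h1.le), if_neg h1.ne']; ring
  · subst h1
    simp
  · simp only [if_neg (not_le.2 h1), if_pos h1, if_neg (not_lt.2 h1.le), if_neg h1.ne']; ring

end Crest.Agent.R202
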