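import Crest.Agent.R202.FHDefs
import Crest.Agent.R202.Band

/-!
# Regularity of the coefficient functions (task E1)

Induction on `p` for the statement "all `c k` are `C^p` and `|c^{(p')} k t| ≤ C e^{-ε' deg k}` on compacts for `p' ≤ p` and every
`ε' < ε`".  The sum in the equation is finite (`deg k₁ ≤ deg k + d`, at most `(2(deg+d)+1)(deg+d+1)` terms), the `t`-derivatives of the entries
are entries of `iteratedDeriv p B` (bounded on compacts), and polynomial factors are absorbed by the exponential.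
The first derivative is bounded by the mean value theorem (Landau).  For `t ≤ 0` the bound follows from `Coef.left`.
-/

set_option autoImplicit false

noncomputable section

open scoped InnerProductSpace ContDiff
open Set Filter Topology

namespace Crest.Agent.R202

section
variable {n : ℕ} {J : Type} {b : Base n J} {ε : ℝ} {d : ℕ} {f g : J → ℝ → ℝ}

/-- locally bounded with exponential decay in the degree -/
def Base.crBd (b : Base n J) (ε : ℝ) (f : J → ℝ → ℝ) : Prop :=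
  ∀ ε', 0 < ε' → ε' < ε → ∀ R : ℝ, ∃ C : ℝ, ∀ k, ∀ t ∈ Icc (-R) R,
    |f k t| ≤ C * Real.exp (-(ε' * b.deg k))

/-- the same for all derivatives up to order `p` -/
def Base.crTm (b : Base n J) (ε : ℝ) : ℕ → (J → ℝ → ℝ) → Prop
  | 0, f => b.crBd ε f
  | p + 1, f => b.crBd ε f ∧ (∀ k, Differentiable ℝ (f k)) ∧ b.crTm ε p fun k => deriv (f k)

/-- the banded operator -/
def Base.crOp (b : Base n J) (d : ℕ) (B : ℝ → H J →L[ℝ] H J) (f : J → ℝ → ℝ) (k : J) (t : ℝ) : ℝ :=
  ∑ k₁ ∈ b.low (b.deg k + d), b.qe (B t) k k₁ * f k₁ t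

theorem Base.crBd.add (hf : b.crBd ε f) (hg : b.crBd ε g) : b.crBd ε (f + g) := by
  intro ε' h1 h2 R
  obtain ⟨C, hC⟩ := hf ε' h1 h2 R
  obtain ⟨D, hD⟩ := hg ε' h1 h2 R
  refine ⟨C + D, fun k t ht => (abs_add_le _ _).trans ?_⟩
  linarith [hC k t ht, hD k t ht]

theorem Base.crTm.add {p : ℕ} (hf : b.crTm ε p f) (hg : b.crTm ε p g) : b.crTm ε p (f + g) := by
  induction p generalizing f g with
  | zero => exact Base.crBd.add hf hg
  | succ p ih =>
    refine ⟨hf.1.add hg.1, fun k => (hf.2.1 k).add (hg.2.1 k), ?_⟩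
    convert ih hf.2.2 hg.2.2 using 2 with k
    exact funext fun t => deriv_add (hf.2.1 k t) (hg.2.1 k t)

theorem Base.crTm.pred {p : ℕ} (hf : b.crTm ε (p + 1) f) : b.crTm ε p f := by
  induction p generalizing f with
  | zero => exact hf.1
  | succ p ih => exact ⟨hf.1, hf.2.1, ih hf.2.2⟩

theorem Base.crTm.iter {p : ℕ} (hf : b.crTm ε (p + 1) f) :
    (∀ k, Differentiable ℝ (iteratedDeriv p (f k))) ∧ b.crBd ε fun k => iteratedDeriv p (f k) := by
  induction p generalizing f with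
  | zero => exact ⟨hf.2.1, hf.1⟩
  | succ p ih => simpa only [iteratedDeriv_succ'] using ih hf.2.2

theorem Base.cr_sqrt_le (b : Base n J) (k : J) : √(b.lam k) ≤ n * (b.deg k + 1) := by
  have h1 : (0 : ℝ) ≤ b.deg k := Nat.cast_nonneg _
  have h2 : (3 : ℝ) ≤ n := by exact_mod_cast b.hn
  refine Real.sqrt_le_iff.2 ⟨by positivity, ?_⟩
  rw [Base.lam, sq]
  exact mul_le_mul (by nlinarith) (by nlinarith) (by linarith) (by positivity)

theorem Base.crBd.op {B : ℝ → H J →L[ℝ] H J} (hf : b.crBd ε f) (hB : Continuous B)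
    (hband : ∀ t, b.Banded d (B t)) : b.crBd ε (b.crOp d B f) := by
  intro ε' h1 h2 R
  obtain ⟨C, hC⟩ := hf ((ε' + ε) / 2) (by linarith) (by linarith) R
  obtain ⟨M, hM⟩ := (isCompact_Icc (a := -R) (b := R)).exists_bound_of_continuousOn hB.continuousOn
  have hs := b.summable_poly_exp 2 (show 0 < (ε - ε') / 2 by linarith)
  set c := n * (d + 1) * n * M * |C| * Real.exp (ε' * d)
  refine ⟨c * ∑' k, ((b.deg k : ℝ) + 1) ^ 2 * Real.exp (-((ε - ε') / 2 * b.deg k)),
    fun k t ht => (Finset.abs_sum_le_sum_abs _ _).trans ?_⟩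
  have hM0 : 0 ≤ M := (norm_nonneg _).trans (hM t ht)
  have key : ∀ k₁, |b.qe (B t) k k₁ * f k₁ t| ≤ c * Real.exp (-(ε' * b.deg k)) *
      (((b.deg k₁ : ℝ) + 1) ^ 2 * Real.exp (-((ε - ε') / 2 * b.deg k₁))) := fun k₁ => by
    by_cases hk : b.deg k₁ + d < b.deg k
    · rw [Base.qe, hband t k k₁ (Or.inr hk), mul_zero, zero_mul, abs_zero]
      positivity
    have h3 : (b.deg k : ℝ) ≤ b.deg k₁ + d := by exact_mod_cast not_lt.1 hk
    have h4 : √(b.lam k) ≤ n * ((d + 1) * (b.deg k₁ + 1)) :=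
      (b.cr_sqrt_le k).trans (mul_le_mul_of_nonneg_left
        (by nlinarith [show (0 : ℝ) ≤ d * b.deg k₁ by positivity]) (Nat.cast_nonneg _))
    have h5 : |f k₁ t| ≤ |C| * (Real.exp (ε' * d) * Real.exp (-(ε' * b.deg k)) *
        Real.exp (-((ε - ε') / 2 * b.deg k₁))) := by
      refine (hC k₁ t ht).trans (mul_le_mul (le_abs_self _) ?_ (by positivity) (abs_nonneg _))
      rw [← Real.exp_add, ← Real.exp_add]
      exact Real.exp_le_exp.2 (by nlinarith)
    rw [Base.qe, abs_mul, abs_mul, abs_mul, abs_of_nonneg (Real.sqrt_nonneg _),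
      abs_of_nonneg (Real.sqrt_nonneg _)]
    calc _ ≤ n * ((d + 1) * (b.deg k₁ + 1)) * (n * (b.deg k₁ + 1)) * M * (|C| * (Real.exp (ε' * d) *
          Real.exp (-(ε' * b.deg k)) * Real.exp (-((ε - ε') / 2 * b.deg k₁)))) := by
          gcongr
          · exact b.cr_sqrt_le k₁
          · exact (abs_ent_le _ _ _).trans (hM t ht)
      _ = _ := by simp only [c]; ring
  refine (Finset.sum_le_sum fun k₁ _ => key k₁).trans ?_
  rw [← Finset.mul_sum, mul_right_comm]
  gcongr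
  exact hs.sum_le_tsum _ fun _ _ => by positivity

theorem cr_ent_deriv {B : ℝ → H J →L[ℝ] H J} {B' : H J →L[ℝ] H J} {t : ℝ} (hB : HasDerivAt B B' t)
    (k k₁ : J) : HasDerivAt (fun t => ent (B t) k k₁) (ent B' k k₁) t := by
  classical
  exact ((lp.evalCLM ℝ (fun _ : J => ℝ) 2 k).comp
    (ContinuousLinearMap.apply ℝ (H J) (lp.single 2 k₁ (1 : ℝ)))).hasFDerivAt.comp_hasDerivAt t hB

theorem Base.crTm.op {p : ℕ} {B : ℝ → H J →L[ℝ] H J} (hf : b.crTm ε p f) (hB : ContDiff ℝ ∞ B)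
    (hband : ∀ t, b.Banded d (B t)) : b.crTm ε p (b.crOp d B f) := by
  induction p generalizing f B with
  | zero => exact Base.crBd.op hf hB.continuous hband
  | succ p ih =>
    obtain ⟨h1, h2⟩ := contDiff_infty_iff_deriv.1 hB
    have h3 : ∀ t, b.Banded d (deriv B t) := fun t k k₁ hk =>
      (cr_ent_deriv (h1 t).hasDerivAt k k₁).unique
        (by simpa only [hband _ k k₁ hk] using hasDerivAt_const t (0 : ℝ))
    have h4 : ∀ k t, HasDerivAt (b.crOp d B f k)
        ((b.crOp d (deriv B) f + b.crOp d B fun k => deriv (f k)) k t) t := fun k t => by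
      simp only [Pi.add_apply, Base.crOp, ← Finset.sum_add_distrib]
      exact HasDerivAt.fun_sum fun k₁ _ =>
        ((cr_ent_deriv (h1 t).hasDerivAt k k₁).const_mul _).mul (hf.2.1 k₁ t).hasDerivAt
    refine ⟨hf.1.op hB.continuous hband, fun k t => (h4 k t).differentiableAt, ?_⟩
    convert (ih hf.pred h2 h3).add (ih hf.2.2 hB hband) using 2 with k
    exact funext fun t => (h4 k t).deriv

/-- Landau -/
theorem Base.crBd.landau {f₁ f₂ : J → ℝ → ℝ} (hf : b.crBd ε f) (hf₂ : b.crBd ε f₂)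
    (d₁ : ∀ k t, HasDerivAt (f k) (f₁ k t) t) (d₂ : ∀ k t, HasDerivAt (f₁ k) (f₂ k t) t) :
    b.crBd ε f₁ := by
  intro ε' h1 h2 R
  obtain ⟨C, hC⟩ := hf ε' h1 h2 (R + 1)
  obtain ⟨D, hD⟩ := hf₂ ε' h1 h2 (R + 1)
  refine ⟨2 * C + |D|, fun k t ht => ?_⟩
  obtain ⟨ξ, h3, h4⟩ := exists_hasDerivAt_eq_slope (f k) (f₁ k) (lt_add_one t)
    (fun s _ => (d₁ k s).continuousAt.continuousWithinAt) fun s _ => d₁ k s
  obtain ⟨η, h5, h6⟩ := exists_hasDerivAt_eq_slope (f₁ k) (f₂ k) h3.1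
    (fun s _ => (d₂ k s).continuousAt.continuousWithinAt) fun s _ => d₂ k s
  have a1 := abs_le.1 (hC k t ⟨by linarith [ht.1], by linarith [ht.2]⟩)
  have a2 := abs_le.1 (hC k (t + 1) ⟨by linarith [ht.1], by linarith [ht.2]⟩)
  have a3 := (hD k η ⟨by linarith [ht.1, h5.1], by linarith [ht.2, h5.2, h3.2]⟩).trans
    (mul_le_mul_of_nonneg_right (le_abs_self D) (Real.exp_pos _).le)
  have a4 : |f₂ k η * (ξ - t)| ≤ |D| * Real.exp (-(ε' * b.deg k)) := by
    rw [abs_mul]
    refine (mul_le_of_le_one_right (abs_nonneg _) (abs_le.2 ⟨?_, ?_⟩)).trans a3 <;>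
      linarith [h3.1, h3.2]
  rw [h6, div_mul_cancel₀ _ (sub_ne_zero.2 h3.1.ne'), h4, add_sub_cancel_left, div_one,
    abs_le] at a4
  rw [abs_le]
  constructor <;> linarith [a1.1, a1.2, a2.1, a2.2, a4.1, a4.2]

end

theorem Base.Coef.reg {n : ℕ} {J : Type} {b : Base n J} {B : ℝ → H J →L[ℝ] H J} {q : ℝ → ℝ}
    {c c₁ : J → ℝ → ℝ} (h : b.Coef B q c c₁) {d : ℕ} (hB : ContDiff ℝ ∞ B)
    (hband : ∀ t, b.Banded d (B t)) (hq : ContDiff ℝ ∞ q) {C a ε : ℝ} (hε : 0 < ε)
    (hc : ∀ k t, 0 ≤ t → |c k t| ≤ C * Real.exp (a * t - ε * b.deg k)) :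
    (∀ k, ContDiff ℝ ∞ (c k)) ∧ ∀ (p : ℕ) (R : ℝ), ∃ C' : ℝ, ∀ k, ∀ t ∈ Icc (-R) R,
      |iteratedDeriv p (c k) t| ≤ C' * Real.exp (-(ε / 2 * b.deg k)) := by
  classical
  have e : ∀ t k k₁, ent (B t + q t • b.K) k k₁ =
      ent (B t) k k₁ + if k = k₁ then q t * (b.lam k)⁻¹ else 0 := fun t k k₁ => by
    simp only [ent, add_apply, smul_apply, lp.coeFn_add,
      Pi.add_apply, lp.coeFn_smul, Pi.smul_apply, Base.K_apply, lp.single_apply, Pi.single_apply,
      smul_eq_mul]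
    split_ifs <;> simp
  have hB' : ContDiff ℝ ∞ fun t => B t + q t • b.K := hB.add (hq.smul contDiff_const)
  have hband' : ∀ t, b.Banded d (B t + q t • b.K) := fun t k k₁ hk => by
    rw [e, hband t k k₁ hk, if_neg (by rintro rfl; omega), add_zero]
  have hlow : ∀ k N, k ∈ b.low N ↔ b.deg k ≤ N := fun k N => by simp [Base.low]
  have d₂ : ∀ k t, HasDerivAt (c₁ k) (b.crOp d (fun t => B t + q t • b.K) c k t) t := fun k t => by
    convert h.d₂ k t
    rw [tsum_eq_sum (s := b.low (b.deg k + d)) fun k₁ hk => by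
      rw [Base.qe, hband t k k₁ (Or.inl (not_le.1 (mt (hlow _ _).2 hk))), mul_zero, zero_mul]]
    have := (b.evb_lam_pos k).ne'
    simp only [Base.crOp, Base.qe, e, mul_add, add_mul, Finset.sum_add_distrib, mul_ite, ite_mul,
      mul_zero, zero_mul, Finset.sum_ite_eq, hlow, le_self_add, if_true,
      Real.mul_self_sqrt (b.evb_lam_pos k).le]
    field_simp
  have h0 : b.crBd ε c := fun ε' _ h2 R => ⟨|C| * Real.exp (|a| * |R|), fun k t ht => by
    have key : ∀ s, 0 ≤ s → s ≤ |R| →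
        |c k s| ≤ |C| * Real.exp (|a| * |R|) * Real.exp (-(ε' * b.deg k)) := fun s h3 h4 => by
      refine (hc k s h3).trans ?_
      rw [mul_assoc, ← Real.exp_add]
      refine mul_le_mul (le_abs_self _) (Real.exp_le_exp.2 ?_) (by positivity) (abs_nonneg _)
      have h5 : a * s ≤ |a| * |R| := mul_le_mul (le_abs_self _) h4 h3 (abs_nonneg _)
      nlinarith [Nat.cast_nonneg (α := ℝ) (b.deg k)]
    rcases le_total 0 t with h3 | h3
    · exact key t h3 (ht.2.trans (le_abs_self _))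
    · refine le_trans ?_ (key 0 le_rfl (abs_nonneg _))
      rw [h.left k t h3, abs_mul, Real.abs_exp]
      refine mul_le_of_le_one_right (abs_nonneg _) (Real.exp_le_one_iff.2 ?_)
      have h2 : (3 : ℝ) ≤ n := by exact_mod_cast b.hn
      refine mul_nonpos_of_nonneg_of_nonpos ?_ h3
      rw [Base.rate]
      linarith [Nat.cast_nonneg (α := ℝ) (b.deg k)]⟩
  have h1 : b.crBd ε c₁ := h0.landau (h0.op hB'.continuous hband') h.d₁ d₂
  have hp : ∀ p, b.crTm ε p c ∧ b.crTm ε p c₁ := fun p => by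
    induction p with
    | zero => exact ⟨h0, h1⟩
    | succ p ih =>
      refine ⟨⟨h0, fun k t => (h.d₁ k t).differentiableAt, ?_⟩,
        h1, fun k t => (d₂ k t).differentiableAt, ?_⟩
      · convert ih.2 using 2 with k
        exact funext fun t => (h.d₁ k t).deriv
      · convert ih.1.op hB' hband' using 2 with k
        exact funext fun t => (d₂ k t).deriv
  exact ⟨fun k => contDiff_of_differentiable_iteratedDeriv fun m _ => (hp (m + 1)).1.iter.1 k,
    fun p R => (hp (p + 1)).1.iter.2 (ε / 2) (by linarith) (by linarith) R⟩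

end Crest.Agent.R202
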