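import Crest.Agent.R202.Cone_C

/-!
# The maximum principle with the barrier `cosh (∫_t^s g)`
-/

set_option autoImplicit false

noncomputable section

open scoped InnerProductSpace ContDiff
open Set Filter Topology

namespace Crest.Agent.R202.Cone

variable {V : Type} [NormedAddCommGroup V] [InnerProductSpace ℝ V] {M : ℕ}
variable {P : Frame V M} {Q : ℝ → V →L[ℝ] V} {C γ t₀ T : ℝ} {e : ℝ → ℝ} {w w₁ : ℝ → V}

theorem exists_max {f ψ : ℝ → ℝ} {a b : ℝ} (hab : a ≤ b) (hf : Continuous f) (hψ : Continuous ψ)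
    (h0 : ∀ s, 0 ≤ f s) (hp : ∀ s, 0 < ψ s) :
    ∃ m, 0 ≤ m ∧ (∀ s ∈ Icc a b, f s ≤ m * ψ s) ∧ ∃ s ∈ Icc a b, f s = m * ψ s := by
  obtain ⟨s, hs, hmax⟩ := isCompact_Icc.exists_isMaxOn (nonempty_Icc.2 hab)
    (hf.div hψ fun s => (hp s).ne').continuousOn
  refine ⟨f s / ψ s, div_nonneg (h0 s) (hp s).le, fun x hx => ?_, s, hs,
    (div_mul_cancel₀ _ (hp s).ne').symm⟩
  exact (div_le_iff₀ (hp x)).1 (hmax hx)

theorem Sm.stepA (H : Sm P Q C γ t₀ T e) (hA : 2 * (M * C * (12 / γ + 33)) * e t₀ ≤ 1)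
    (hw : Reg P Q T w w₁) {t : ℝ} (ht : t ∈ Icc (t₀ + 1) T)
    (hexp : ∀ s ∈ Icc t T, Real.exp (-(s - t₀)) ≤ e s) {Γ : ℝ → ℝ}
    (hΓ : ∀ s, HasDerivAt Γ (P.g s) s) (hΓ0 : Γ t = 0) {m : ℝ}
    (hm : ∀ s ∈ Icc t T, ‖P.hh w s‖ ≤ m * Real.cosh (Γ s)) :
    ∀ s ∈ Icc t T, ‖w s‖ ≤ (2 * m + 68 * M * C * ‖w t‖) * Real.cosh (Γ s) := by
  have hC := H.hC
  have hγ := H.hγ
  have ht' : t ∈ Icc t₀ T := ⟨by linarith [ht.1], ht.2⟩
  have het := H.e_pos t ht'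
  have hΓc : Continuous Γ := continuous_iff_continuousAt.2 fun s => (hΓ s).continuousAt
  have hwc : Continuous w := continuous_iff_continuousAt.2 fun s => (hw.sol.1 s).continuousAt
  obtain ⟨A, hA0, hA1, σ, hσ, hA2⟩ := exists_max ht.2 hwc.norm (Real.continuous_cosh.comp hΓc)
    (fun s => norm_nonneg _) fun s => Real.cosh_pos _
  simp only [Function.comp_apply] at hA1 hA2
  have hsub : ∀ s ∈ Icc t T, s ∈ Icc t₀ T := fun s hs => ⟨ht'.1.trans hs.1, hs.2⟩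
  have hsub' : ∀ s ∈ Icc t T, s ∈ Icc (t₀ + 1) T := fun s hs => ⟨ht.1.trans hs.1, hs.2⟩
  have hr : ∀ s ∈ Icc t T, e s * ‖w s‖ ≤ e t * A * Real.cosh (Γ s) := fun s hs => by
    rw [mul_assoc]
    exact mul_le_mul (H.e_anti ht' (hsub s hs) hs.1) (hA1 s hs) (norm_nonneg _) het.le
  have hΓp : ∀ s ∈ Icc t T, 0 ≤ Γ s := fun s hs => by
    have := (slope_bounds hΓ H.g_ge H.g_le ht'.1 hs.1 hs.2).1
    linarith [hs.1]
  have hψ := Real.cosh_pos (Γ σ)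
  have h1 : ∀ i, 2 * |P.cc w i σ| ≤
      (34 * C * ‖w t‖ + C * (12 / γ + 33) * (e t * A)) * Real.cosh (Γ σ) := by
    intro i
    have h2 := growth (y := P.GG w w₁ i) (a := P.a i) (ρ := fun s => rr P Q w i s + ss P w i s)
      (K := 6 * C * (e t * A)) hγ (by positivity) (d_GG H.toDynHyp hw.sol i) hΓ hΓ0
      (fun s hs => H.a_le i s (hsub s hs)) (fun s hs => by
        refine ((abs_add_le _ _).trans (H.err_le (hsub s hs) w i)).trans ?_
        rw [mul_assoc (6 * C)]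
        refine mul_le_mul_of_nonneg_left ((hr s hs).trans ?_) (by linarith)
        exact mul_le_mul_of_nonneg_left (cosh_le_exp (hΓp s hs)) (by positivity)) σ hσ
    have h3 : (|P.GG w w₁ i t| + 6 * C * (e t * A) / γ) * Real.exp (Γ σ) ≤
        (17 * C * ‖w t‖ + 6 * C * (e t * A) / γ) * (2 * Real.cosh (Γ σ)) :=
      mul_le_mul (add_le_add (H.GG_le hw i ht) le_rfl) (exp_le_cosh _) (Real.exp_pos _).le
        (by positivity)
    have h4 := H.bb_small hw i (hsub' σ hσ) (hexp σ hσ)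
    have h5 := mul_le_mul_of_nonneg_left (hr σ hσ) (by positivity : 0 ≤ 33 * C)
    have h6 := H.cc_le_GG w w₁ i (hsub σ hσ)
    have h7 : (34 * C * ‖w t‖ + C * (12 / γ + 33) * (e t * A)) * Real.cosh (Γ σ) =
        (17 * C * ‖w t‖ + 6 * C * (e t * A) / γ) * (2 * Real.cosh (Γ σ)) +
          33 * C * (e t * A * Real.cosh (Γ σ)) := by ring
    linarith
  have h2 : ∑ i, 2 * |P.cc w i σ| ≤
      M * ((34 * C * ‖w t‖ + C * (12 / γ + 33) * (e t * A)) * Real.cosh (Γ σ)) := by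
    simpa using Finset.sum_le_card_nsmul Finset.univ _ _ fun i _ => h1 i
  have h3 := H.norm_le (hsub σ hσ) w
  rw [Finset.mul_sum, hA2] at h3
  have h4 : A ≤ m + M * (34 * C * ‖w t‖ + C * (12 / γ + 33) * (e t * A)) := by
    refine le_of_mul_le_mul_right ?_ hψ
    have := hm σ hσ
    linarith
  have h5 : 2 * (M * C * (12 / γ + 33)) * e t * A ≤ 1 * A :=
    mul_le_mul_of_nonneg_right
      ((mul_le_mul_of_nonneg_left (H.e_le₀ ht') (by positivity)).trans hA) hA0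
  have h6 : A ≤ 2 * m + 68 * M * C * ‖w t‖ := by linarith
  intro s hs
  exact (hA1 s hs).trans (mul_le_mul_of_nonneg_right h6 (Real.cosh_pos _).le)

theorem Sm.at_max (H : Sm P Q C γ t₀ T e) (heγ : e t₀ ≤ γ) (hw : Reg P Q T w w₁) {Γ : ℝ → ℝ}
    (hΓ : ∀ s, HasDerivAt Γ (P.g s) s) {m : ℝ} (hm0 : 0 ≤ m)
    (hm : ∀ s ∈ Icc (t₀ + 1) T, ‖P.hh w s‖ ≤ m * Real.cosh (Γ s)) {σ : ℝ}
    (hσ : σ ∈ Ioo (t₀ + 1) T) (hσm : ‖P.hh w σ‖ = m * Real.cosh (Γ σ)) :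
    ‖P.hh w σ‖ ≤ k3 M C γ * (e σ * ‖w σ‖) := by
  have hσ' : σ ∈ Icc t₀ T := ⟨by linarith [hσ.1], hσ.2.le⟩
  have d0 := d_hh H.toDynHyp hw.sol
  have d1 := d_h1 H.toDynHyp hw.sol
  have p0 : ∀ s, HasDerivAt (fun s => Real.cosh (Γ s)) (Real.sinh (Γ s) * P.g s) s :=
    fun s => (hΓ s).cosh
  have p1 : HasDerivAt (fun s => Real.sinh (Γ s) * P.g s)
      (Real.cosh (Γ σ) * P.g σ * P.g σ + Real.sinh (Γ σ) * P.g₁ σ) σ :=
    (hΓ σ).sinh.mul (H.dg σ)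
  have f0 : ∀ s, HasDerivAt
      (fun s => ⟪P.hh w s, P.hh w s⟫_ℝ - m ^ 2 * (Real.cosh (Γ s) * Real.cosh (Γ s)))
      (2 * (⟪h1 P w w₁ s, P.hh w s⟫_ℝ -
        m ^ 2 * (Real.cosh (Γ s) * (Real.sinh (Γ s) * P.g s)))) s := fun s => by
    refine (((d0 s).inner ℝ (d0 s)).sub (((p0 s).mul (p0 s)).const_mul (m ^ 2))).congr_deriv ?_
    rw [real_inner_comm (h1 P w w₁ s)]
    ring
  have f1 := (((d1 σ).inner ℝ (d0 σ)).sub (((p0 σ).mul p1).const_mul (m ^ 2))).const_mul 2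
  have hmax : IsLocalMax
      (fun s => ⟪P.hh w s, P.hh w s⟫_ℝ - m ^ 2 * (Real.cosh (Γ s) * Real.cosh (Γ s))) σ := by
    filter_upwards [Icc_mem_nhds hσ.1 hσ.2] with s hs
    have h1 := pow_le_pow_left₀ (norm_nonneg _) (hm s hs) 2
    rw [real_inner_self_eq_norm_sq, real_inner_self_eq_norm_sq, hσm]
    nlinarith
  obtain ⟨g1, g2⟩ := second_deriv_nonpos f0 f1 hmax
  rw [real_inner_self_eq_norm_sq] at g2
  have hg := H.g_ge σ hσ'
  have hs := abs_sinh_le (Γ σ)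
  refine H.interior heγ hw (Ioo_subset_Icc_self hσ) (ψ₁ := Real.sinh (Γ σ) * P.g σ)
    (ψ₂ := Real.cosh (Γ σ) * P.g σ * P.g σ + Real.sinh (Γ σ) * P.g₁ σ) hm0 (Real.cosh_pos _) hσm
    (by linarith) (by linarith) ?_ ?_
  · rw [abs_mul, abs_of_pos (by linarith : 0 < P.g σ), mul_comm]
    exact mul_le_mul_of_nonneg_left hs (by linarith)
  · have h1 := (abs_le.1 (abs_mul_le hs (le_refl |P.g₁ σ|))).2
    linarith

/-- the constant of the maximum principle -/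
def k5 (M : ℕ) (C γ : ℝ) : ℝ := k3 M C γ + 3 * (1 + 4 * M)

theorem Sm.stepB (H : Sm P Q C γ t₀ T e) (heγ : e t₀ ≤ γ)
    (hA : 2 * (M * C * (12 / γ + 33)) * e t₀ ≤ 1) (hB : 8 * k5 M C γ * e t₀ ≤ 1)
    (hw : Reg P Q T w w₁) {t : ℝ} (ht : t ∈ Icc (t₀ + 1) T)
    (hexp : ∀ s ∈ Icc t T, Real.exp (-(s - t₀)) ≤ e s) {Γ : ℝ → ℝ}
    (hΓ : ∀ s, HasDerivAt Γ (P.g s) s) (hΓ0 : Γ t = 0) :
    ∃ m, m ≤ 4 * k5 M C γ * (68 * M * C + 1) * (e t * ‖w t‖) ∧
      ∀ s ∈ Icc (t₀ + 1) T, ‖P.hh w s‖ ≤ m * Real.cosh (Γ s) := by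
  have hC := H.hC
  have hγ := H.hγ
  have hk3 := one_le_k3 M hC hγ
  have hM : (0 : ℝ) ≤ M := Nat.cast_nonneg M
  have ht' : t ∈ Icc t₀ T := ⟨by linarith [ht.1], ht.2⟩
  have het := H.e_pos t ht'
  have hΓc : Continuous Γ := continuous_iff_continuousAt.2 fun s => (hΓ s).continuousAt
  have hhc : Continuous (P.hh w) :=
    continuous_iff_continuousAt.2 fun s => (d_hh H.toDynHyp hw.sol s).continuousAt
  obtain ⟨m, hm0, hm, σ, hσ, hσm⟩ := exists_max (ht.1.trans ht.2) hhc.norm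
    (Real.continuous_cosh.comp hΓc) (fun s => norm_nonneg _) fun s => Real.cosh_pos _
  simp only [Function.comp_apply] at hm hσm
  refine ⟨m, ?_, hm⟩
  have hA' := H.stepA hA hw ht hexp hΓ hΓ0 fun s hs => hm s ⟨ht.1.trans hs.1, hs.2⟩
  have hN := norm_nonneg (w t)
  have hMCN : 0 ≤ 68 * M * C * ‖w t‖ := by positivity
  obtain ⟨A, hAd⟩ : ∃ A, A = 2 * m + (68 * M * C + 1) * ‖w t‖ := ⟨_, rfl⟩
  have hNA : ‖w t‖ ≤ A := by linarith
  have hσ' : σ ∈ Icc t₀ T := ⟨by linarith [hσ.1], hσ.2⟩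
  have hψ := Real.cosh_pos (Γ σ)
  have hr : e σ * ‖w σ‖ ≤ 2 * e t * A * Real.cosh (Γ σ) := by
    rcases le_total σ t with h | h
    · have h1 := (slope_bounds hΓ H.g_ge H.g_le hσ'.1 h ht.2).1
      have h2 : Real.exp ((t - σ) / 2) ≤ 2 * Real.cosh (Γ σ) :=
        (Real.exp_le_exp.2 (by linarith)).trans (exp_neg_le_cosh _)
      have h3 : e σ ≤ e t * (2 * Real.cosh (Γ σ)) :=
        (H.e_slow σ hσ' t ht' h).trans (mul_le_mul_of_nonneg_left h2 het.le)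
      have h4 := mul_le_mul h3 ((H.mono hw hσ'.1 h).trans hNA) (norm_nonneg _) (by positivity)
      linarith
    · have h1 : ‖w σ‖ ≤ A * Real.cosh (Γ σ) :=
        (hA' σ ⟨h, hσ.2⟩).trans (mul_le_mul_of_nonneg_right (by linarith) hψ.le)
      have h2 := mul_le_mul (H.e_anti ht' hσ' h) h1 (norm_nonneg _) het.le
      have h3 : 0 ≤ e t * (A * Real.cosh (Γ σ)) := by
        have : 0 ≤ A := hN.trans hNA
        positivity
      linarith
  have hS : 0 ≤ 2 * e t * A * Real.cosh (Γ σ) := by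
    have : 0 ≤ A := hN.trans hNA
    positivity
  have key : ‖P.hh w σ‖ ≤ k5 M C γ * (2 * e t * A * Real.cosh (Γ σ)) := by
    unfold k5
    rcases hσ.2.eq_or_lt with h | h
    · obtain ⟨v, hv⟩ := hw.right
      rw [← h] at hv
      refine (H.hh_span hσ' hv).trans (mul_le_mul (by linarith) hr ?_ (by linarith))
      exact mul_nonneg (H.e_pos σ hσ').le (norm_nonneg _)
    rcases hσ.1.eq_or_lt with h' | h'
    · have h0 : σ ≤ t := h' ▸ ht.1
      have h1 := (slope_bounds hΓ H.g_ge H.g_le hσ'.1 h0 ht.2).1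
      have h2 : Real.exp (t - t₀ - 1) ≤ 2 * Real.cosh (Γ σ) :=
        (Real.exp_le_exp.2 (by linarith)).trans (exp_neg_le_cosh _)
      have h3 : 1 ≤ 3 * (e t * (2 * Real.cosh (Γ σ))) := by
        have h4 := mul_le_mul (hexp t ⟨le_rfl, ht.2⟩) h2 (Real.exp_pos _).le het.le
        have h5 := mul_le_mul (Real.exp_one_lt_d9.le.trans (by norm_num : _ ≤ (3 : ℝ))) h4
          (by positivity) (by norm_num)
        rw [← Real.exp_add, ← Real.exp_add, show 1 + (-(t - t₀) + (t - t₀ - 1)) = 0 by ring,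
          Real.exp_zero] at h5
        exact h5
      have h4 : ‖w σ‖ ≤ A * (3 * (e t * (2 * Real.cosh (Γ σ)))) :=
        ((H.mono hw hσ'.1 h0).trans hNA).trans (le_mul_of_one_le_right (hN.trans hNA) h3)
      have h5 := mul_le_mul_of_nonneg_left h4 (by positivity : (0 : ℝ) ≤ 1 + 4 * M)
      have h6 := mul_nonneg (by linarith : 0 ≤ k3 M C γ) hS
      have h7 := H.hh_le hσ' w
      linarith
    · refine (H.at_max heγ hw hΓ hm0 hm ⟨h', h⟩ hσm).trans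
        (mul_le_mul (by linarith) hr ?_ (by linarith))
      exact mul_nonneg (H.e_pos σ hσ').le (norm_nonneg _)
  have h1 : m ≤ k5 M C γ * (2 * e t * A) := by
    refine le_of_mul_le_mul_right ?_ hψ
    rw [hσm] at key
    linarith
  have hk5 : 0 ≤ k5 M C γ := by unfold k5; linarith
  have h2 : 8 * k5 M C γ * e t * m ≤ 1 * m :=
    mul_le_mul_of_nonneg_right
      ((mul_le_mul_of_nonneg_left (H.e_le₀ ht') (by positivity)).trans hB) hm0
  rw [hAd] at h1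
  linarith

end Crest.Agent.R202.Cone
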