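import Crest.Agent.R202.DynDefs
import Crest.Agent.R202.Cone_D

/-!
# The cone estimates (task C1)

`N = ‖w‖` is monotone on `[0,∞)` (`‖w‖²` is convex with nonnegative initial slope).  `c' = π + 2⟪X₁,w⟫`,
`π' = ⟪Q X, w⟫ - ⟪X₂, w⟫ = a² c + O(e N)`.  Fix `t ∈ [t₁,T]`, `ψ s = cosh (∫_t^s g)`.  With `E = ∑ π² + a² c²`:
`E' ≤ 2(g-γ)E + C e N √E`, so `sup_{s ≥ t} √E/ψ ≤ 2√E(t) + C e sup ‖h‖/ψ`; for `s ≤ t`, `|π s| ≤ C N(t)` (mean value theorem on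
a unit interval).  At a maximum of `‖h‖²/ψ²` on `[t₀,T]` (interior: first and second derivative test with
`⟪h'',h⟫ ≥ (g+γ)²‖h‖² - η‖h'‖² - C(e(√E+N)‖h‖ + e²(√E+N)²)`; `s = T`: `‖h‖ ≤ C e² N`; `s = t₀`: `ψ ≥ exp(t-t₀)/2`)
one gets `‖h t‖ ≤ C' e(t) N(t)`.  `b' = -a b + O(e N)` gives the bound for `b`.
-/

set_option autoImplicit false

noncomputable section

open scoped InnerProductSpace ContDiff
open Set Filter Topology

namespace Crest.Agent.R202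

theorem norm_mono_of_sol {V : Type} [NormedAddCommGroup V] [InnerProductSpace ℝ V]
    {Q : ℝ → V →L[ℝ] V} {w w₁ : ℝ → V} (h : IsSol Q w w₁)
    (hQ : ∀ t, 0 ≤ t → ∀ x, 0 ≤ ⟪Q t x, x⟫_ℝ) (h0 : 0 ≤ ⟪w₁ 0, w 0⟫_ℝ) :
    MonotoneOn (fun t => ‖w t‖) (Ici 0) := by
  exact Cone.norm_mono h hQ h0

theorem cone (M : ℕ) (C γ : ℝ) (hC : 1 ≤ C) (hγ : 0 < γ) : ∃ e₀ C' : ℝ, 0 < e₀ ∧ 1 ≤ C' ∧
    ∀ (V : Type) [NormedAddCommGroup V] [InnerProductSpace ℝ V] (P : Frame V M)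
      (Q : ℝ → V →L[ℝ] V) (t₀ t₁ T : ℝ) (e : ℝ → ℝ), DynHyp P Q C γ t₀ T e → t₀ + 2 ≤ t₁ → t₁ ≤ T →
      e t₀ ≤ e₀ → (∀ t ∈ Icc t₁ T, Real.exp (-(t - t₀)) ≤ e t) →
      ∀ w w₁ : ℝ → V, Reg P Q T w w₁ → ∀ t ∈ Icc t₁ T,
        ‖P.hh w t‖ ≤ C' * e t * ‖w t‖ ∧ (∀ i, |P.bb w w₁ i t| ≤ C' * e t * ‖w t‖) ∧
        ‖w t‖ ≤ C' * ∑ i, |P.GG w w₁ i t| ∧ (∀ i, |P.GG w w₁ i t| ≤ C' * ‖w t‖) ∧
        ∀ s ∈ Icc t (min (t + 1) T), ‖w s‖ ≤ C' * ‖w t‖ := by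
  have hM : (0 : ℝ) ≤ M := Nat.cast_nonneg M
  have hk3 := Cone.one_le_k3 M hC hγ
  have hk5 : 0 ≤ Cone.k5 M C γ := by unfold Cone.k5; linarith
  obtain ⟨K, hK⟩ : ∃ K, K = 4 * Cone.k5 M C γ * (68 * M * C + 1) := ⟨_, rfl⟩
  have hK0 : 0 ≤ K := by rw [hK]; positivity
  have b1 : 0 < (2 * M + 2) * C := by positivity
  have b2 : 0 ≤ 2 * (M * C * (12 / γ + 33)) := by positivity
  have b3 : 0 ≤ M * (33 * C) := by positivity
  have b4 : 0 ≤ 68 * M * C * Real.exp C := by positivity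
  have b5 : 1 ≤ Real.exp C := Real.one_le_exp (by linarith)
  obtain ⟨B, hB⟩ : ∃ B, B = (2 * M + 2) * C + 2 * (M * C * (12 / γ + 33)) + 8 * Cone.k5 M C γ +
    2 * (K + M * (33 * C)) := ⟨_, rfl⟩
  have hB0 : 0 < B := by linarith
  refine ⟨min γ (1 / B), K + 33 * C + 2 + (1 + 68 * M * C) * Real.exp C,
    lt_min hγ (by positivity), by linarith, ?_⟩
  intro V _ _ P Q t₀ t₁ T e H ht₁ hT he hexp w w₁ hw t ht
  have he0 : 0 < e t₀ := H.e_pos t₀ ⟨le_rfl, by linarith⟩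
  have hsm : ∀ c, c ≤ B → c * e t₀ ≤ 1 := fun c hc => by
    have h1 : B * e t₀ ≤ B * (1 / B) :=
      mul_le_mul_of_nonneg_left (he.trans (min_le_right _ _)) hB0.le
    rw [mul_one_div_cancel hB0.ne'] at h1
    exact (mul_le_mul_of_nonneg_right hc he0.le).trans h1
  have S : Cone.Sm P Q C γ t₀ T e := ⟨H, hC, hγ, hsm _ (by linarith)⟩
  have ht1 : t ∈ Icc (t₀ + 1) T := ⟨by linarith [ht.1], ht.2⟩
  have ht' : t ∈ Icc t₀ T := ⟨by linarith [ht.1], ht.2⟩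
  have het := H.e_pos t ht'
  have hgc : Continuous P.g := continuous_iff_continuousAt.2 fun s => (H.dg s).continuousAt
  have hΓ : ∀ s, HasDerivAt (fun s => ∫ x in t..s, P.g x) (P.g s) s := fun s =>
    (hgc.integral_hasStrictDerivAt t s).hasDerivAt
  have hexp' : ∀ s ∈ Icc t T, Real.exp (-(s - t₀)) ≤ e s := fun s hs =>
    hexp s ⟨ht.1.trans hs.1, hs.2⟩
  have hΓ0 : (fun s => ∫ x in t..s, P.g x) t = 0 := intervalIntegral.integral_same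
  generalize (fun s => ∫ x in t..s, P.g x) = Γ at hΓ hΓ0
  obtain ⟨m, hm1, hm2⟩ := S.stepB (he.trans (min_le_left _ _)) (hsm _ (by linarith))
    (hsm _ (by linarith)) hw ht1 hexp' hΓ hΓ0
  have hA := S.stepA (hsm _ (by linarith)) hw ht1 hexp' hΓ hΓ0 fun s hs =>
    hm2 s ⟨ht1.1.trans hs.1, hs.2⟩
  rw [← hK] at hm1
  have hN := norm_nonneg (w t)
  have hr : 0 ≤ e t * ‖w t‖ := by positivity
  have h1 : ‖P.hh w t‖ ≤ K * (e t * ‖w t‖) := by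
    have := hm2 t ht1
    rw [hΓ0, Real.cosh_zero, mul_one] at this
    exact this.trans hm1
  have h2 : ∀ i, |P.bb w w₁ i t| ≤ 33 * C * (e t * ‖w t‖) := fun i =>
    S.bb_small hw i ht1 (hexp t ht)
  have h3 : 2 * (K + M * (33 * C)) * e t * ‖w t‖ ≤ 1 * ‖w t‖ :=
    mul_le_mul_of_nonneg_right ((mul_le_mul_of_nonneg_left (S.e_le₀ ht') (by linarith)).trans
      (hsm _ (by linarith))) hN
  refine ⟨?_, fun i => ?_, ?_, fun i => ?_, fun s hs => ?_⟩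
  · rw [mul_assoc]
    exact h1.trans (mul_le_mul_of_nonneg_right (by linarith) hr)
  · rw [mul_assoc]
    exact (h2 i).trans (mul_le_mul_of_nonneg_right (by linarith) hr)
  · have h4 := S.norm_le ht' w
    have h5 : ∑ i, 2 * |P.cc w i t| ≤ ∑ i, (|P.GG w w₁ i t| + 33 * C * (e t * ‖w t‖)) :=
      Finset.sum_le_sum fun i _ => (S.cc_le_GG w w₁ i ht').trans (add_le_add le_rfl (h2 i))
    rw [Finset.mul_sum] at h4
    simp only [Finset.sum_add_distrib, Finset.sum_const, Finset.card_univ, Fintype.card_fin,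
      nsmul_eq_mul] at h5
    have h6 : 0 ≤ ∑ i, |P.GG w w₁ i t| := Finset.sum_nonneg fun _ _ => abs_nonneg _
    have h7 : ‖w t‖ ≤ 2 * ∑ i, |P.GG w w₁ i t| := by linarith
    exact h7.trans (mul_le_mul_of_nonneg_right (by linarith) h6)
  · exact (S.GG_le hw i ht1).trans (mul_le_mul_of_nonneg_right (by linarith) hN)
  · have hs' : s ∈ Icc t T := ⟨hs.1, hs.2.trans (min_le_right _ _)⟩
    have h4 := Cone.slope_bounds hΓ H.g_ge H.g_le ht'.1 hs'.1 hs'.2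
    have h5 : s - t ≤ 1 := by linarith [hs.2.trans (min_le_left _ _)]
    have h6 : C * (s - t) ≤ C := mul_le_of_le_one_right (by linarith) h5
    have h7 : Real.cosh (Γ s) ≤ Real.exp C :=
      (Cone.cosh_le_exp (by linarith [h4.1, hs.1])).trans (Real.exp_le_exp.2 (by linarith [h4.2]))
    have h8 : 0 ≤ M * (33 * C) * (e t * ‖w t‖) := by positivity
    have h9 : 2 * m + 68 * M * C * ‖w t‖ ≤ (1 + 68 * M * C) * ‖w t‖ := by linarith
    have h10 := (hA s hs').trans (mul_le_mul h9 h7 (Real.cosh_pos _).le (by positivity))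
    have h11 : 0 ≤ (K + 33 * C + 2) * ‖w t‖ := by positivity
    linarith

end Crest.Agent.R202
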