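import Crest.Agent.R202.Radial_A

/-!
# Jets of `coneG` (task G3a)

Chain rule for `x ↦ 𝒢 (z (log ‖x‖)) (hat x)`; at `‖x‖ = R` rescale to `y ↦ 𝒢 (z (log R + log ‖y‖)) (hat y)` at a unit vector.  Terms without
`z', z''` are bounded by a dimensional constant times `ε` (`GSmall`, derivatives of `hat` on the unit sphere are bounded), the others
by `C k` (compactness of `𝒞 × sphere`).  `rdot (coneG 𝒢 z) x = D_ζ 𝒢 (z t) (hat x) (z' t)`.
-/

set_option autoImplicit false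

noncomputable section

open scoped InnerProductSpace ContDiff
open Set Filter Topology
open Crest.GeometryTopology.CoordMetric Crest.GeometryTopology.ChartCurvature Matrix

namespace Crest.Agent.R202

section aux

variable {n : ℕ} {E : Type} [NormedAddCommGroup E] [NormedSpace ℝ E]

/-- entries of a product -/
theorem cj_mul_le {A B : Matrix (Fin n) (Fin n) ℝ} {a b : ℝ} (hA : ∀ i j, |A i j| ≤ a)
    (hB : ∀ i j, |B i j| ≤ b) (i j : Fin n) : |(A * B) i j| ≤ n * (a * b) := by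
  rw [Matrix.mul_apply]
  refine (Finset.abs_sum_le_sum_abs _ _).trans ((Finset.sum_le_card_nsmul _ _ (a * b) fun l _ => ?_).trans
    (by simp))
  rw [abs_mul]
  exact mul_le_mul (hA i l) (hB l j) (abs_nonneg _) ((abs_nonneg _).trans (hA i l))

theorem cj_coord_le (w : Vec n) (i : Fin n) : |w i| ≤ ‖w‖ := PiLp.norm_apply_le w i

theorem Rad.cj_inv_le {G : MetricField n} (hG : Rad G) (x : Vec n) (i j : Fin n) :
    |(G x)⁻¹ i j| ≤ 2 := by
  obtain ⟨u, hu⟩ : ∃ u : Vec n, ∀ i, u i = (G x)⁻¹ i j := ⟨WithLp.toLp 2 fun i => (G x)⁻¹ i j, fun _ => rfl⟩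
  have h1 : quadForm G x u = u j := by
    have h2 : ∀ k, ∑ l, G x k l * u l = if k = j then 1 else 0 := fun k => by
      simp only [hu]
      rw [← Matrix.mul_apply, Matrix.mul_nonsing_inv _ (hG.rd_unit x), Matrix.one_apply]
    have h3 : quadForm G x u = ∑ k, u k * ∑ l, G x k l * u l := by
      simp only [quadForm, Finset.mul_sum]
      exact Finset.sum_congr rfl fun k _ => Finset.sum_congr rfl fun l _ => by ring
    simp [h3, h2]
  have h2 := (hG.bnd x u).1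
  have h3 := (le_abs_self _).trans (cj_coord_le u j)
  have h4 : ‖u‖ ≤ 2 := by nlinarith [norm_nonneg u]
  rw [← hu]
  exact (cj_coord_le u i).trans h4

/-- quadratic forms with small entries -/
theorem cj_bil_le {M : Fin n → Fin n → ℝ} {a : ℝ} (hM : ∀ i j, |M i j| ≤ a) (u v : Vec n) :
    |∑ i, ∑ j, M i j * u i * v j| ≤ n ^ 2 * a * (‖u‖ * ‖v‖) := by
  refine (Finset.abs_sum_le_sum_abs _ _).trans ((Finset.sum_le_card_nsmul _ _
    (n * (a * (‖u‖ * ‖v‖))) fun i _ => ?_).trans (le_of_eq (by simp; ring)))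
  refine (Finset.abs_sum_le_sum_abs _ _).trans ((Finset.sum_le_card_nsmul _ _
    (a * (‖u‖ * ‖v‖)) fun j _ => ?_).trans (by simp))
  have := (abs_nonneg _).trans (hM i j)
  rw [abs_mul, abs_mul, mul_assoc]
  exact mul_le_mul (hM i j) (mul_le_mul (cj_coord_le u i) (cj_coord_le v j) (abs_nonneg _)
    (norm_nonneg _)) (by positivity) this

/-- polar coordinates -/
def cjP (z : ℝ → E) (x : Vec n) : E × Vec n := (z (Real.log ‖x‖), hat x)

/-- tangential projection -/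
def cjT (y v : Vec n) : Vec n := v - (∑ i, y i * v i) • y

def cjΨ (z : ℝ → E) (x v : Vec n) : E × Vec n :=
  ((∑ i, hat x i * v i) • deriv z (Real.log ‖x‖), cjT (hat x) v)

theorem cj_sum_hat (x v : Vec n) : ∑ i, hat x i * v i = ‖x‖⁻¹ * ∑ i, x i * v i := by
  simp only [hat, PiLp.smul_apply, smul_eq_mul, Finset.mul_sum, mul_assoc]

theorem cj_dlog {x : Vec n} (hx : x ≠ 0) (v : Vec n) :
    HasDerivAt (fun s : ℝ => Real.log ‖x + s • v‖) (‖x‖⁻¹ * ∑ i, hat x i * v i) 0 := by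
  refine (rdL_log hx v).congr ?_
  rw [cj_sum_hat]
  field_simp

theorem cj_dinv {x : Vec n} (hx : x ≠ 0) (v : Vec n) :
    HasDerivAt (fun s : ℝ => ‖x + s • v‖⁻¹) (-(‖x‖⁻¹ ^ 2 * ∑ i, hat x i * v i)) 0 := by
  have hn := norm_pos_iff.2 hx
  have h1 := (cj_dlog hx v).neg.exp
  simp only [Pi.neg_apply, zero_smul, add_zero, Real.exp_neg, Real.exp_log hn] at h1
  refine (h1.congr_of_eventuallyEq ?_).congr_deriv (by ring)
  have hc : ContinuousAt (fun s : ℝ => x + s • v) 0 := by fun_prop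
  filter_upwards [hc.eventually_ne (y := 0) (by simpa using hx)] with s hs
  rw [Real.exp_log (norm_pos_iff.2 hs)]

theorem cj_dline (x v : Vec n) : HasDerivAt (fun s : ℝ => x + s • v) v 0 := by
  simpa using ((hasDerivAt_id (0 : ℝ)).smul_const v).const_add x

theorem cj_dhat {x : Vec n} (hx : x ≠ 0) (v : Vec n) :
    HasDerivAt (fun s : ℝ => hat (x + s • v)) (‖x‖⁻¹ • cjT (hat x) v) 0 := by
  refine ((cj_dinv hx v).smul (cj_dline x v)).congr_deriv ?_
  simp only [zero_smul, add_zero, cjT]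
  generalize ∑ i, hat x i * v i = c
  rw [hat]
  module

theorem cj_dcomp {w : ℝ → E} (hw : Differentiable ℝ w) {x : Vec n} (hx : x ≠ 0) (v : Vec n) :
    HasDerivAt (fun s : ℝ => w (Real.log ‖x + s • v‖))
      ((‖x‖⁻¹ * ∑ i, hat x i * v i) • deriv w (Real.log ‖x‖)) 0 :=
  HasDerivAt.scomp (0 : ℝ) (g₁ := w) (by simpa using (hw _).hasDerivAt) (cj_dlog hx v)

theorem cj_dP {z : ℝ → E} (hz : ContDiff ℝ ∞ z) {x : Vec n} (hx : x ≠ 0) (v : Vec n) :
    HasDerivAt (fun s : ℝ => cjP z (x + s • v)) (‖x‖⁻¹ • cjΨ z x v) 0 := by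
  refine ((cj_dcomp (hz.differentiable (by simp)) hx v).prodMk (cj_dhat hx v)).congr_deriv ?_
  rw [cjΨ, Prod.smul_mk, smul_smul]

theorem cj_dF {W : Type} [NormedAddCommGroup W] [NormedSpace ℝ W] {F : E × Vec n → W}
    (hF : ContDiff ℝ ∞ F) {z : ℝ → E} (hz : ContDiff ℝ ∞ z) {x : Vec n} (hx : x ≠ 0) (v : Vec n) :
    HasDerivAt (fun s : ℝ => F (cjP z (x + s • v))) (‖x‖⁻¹ • fderiv ℝ F (cjP z x) (cjΨ z x v)) 0 := by
  rw [← map_smul]
  exact HasFDerivAt.comp_hasDerivAt (0 : ℝ)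
    (by simpa using (hF.differentiable (by simp) _).hasFDerivAt) (cj_dP hz hx v)

theorem cj_smooth {F : E × Vec n → ℝ} (hF : ContDiff ℝ ∞ F) {z : ℝ → E} (hz : ContDiff ℝ ∞ z)
    {x : Vec n} (hx : x ≠ 0) : ContDiffAt ℝ ∞ (fun y => F (cjP z y)) x :=
  hF.contDiffAt.comp x ((hz.contDiffAt.comp x ((contDiffAt_norm ℝ hx).log
    (norm_ne_zero_iff.2 hx))).prodMk (contDiffAt_hat hx))

theorem cj_fderiv {F : E × Vec n → ℝ} (hF : ContDiff ℝ ∞ F) {z : ℝ → E} (hz : ContDiff ℝ ∞ z)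
    {x : Vec n} (hx : x ≠ 0) (v : Vec n) :
    fderiv ℝ (fun y => F (cjP z y)) x v = ‖x‖⁻¹ * fderiv ℝ F (cjP z x) (cjΨ z x v) :=
  HasDerivAt.unique (rdL.of_diff ((cj_smooth hF hz hx).differentiableAt (by simp)) v)
    (cj_dF hF hz hx v)

theorem cjΨ_single (z : ℝ → E) (x : Vec n) (l : Fin n) : cjΨ z x (EuclideanSpace.single l 1) =
    (hat x l • deriv z (Real.log ‖x‖), EuclideanSpace.single l 1 - hat x l • hat x) := by
  rw [cjΨ, cjT, rd_single_sum]

theorem cjΨ_self (z : ℝ → E) {x : Vec n} (hx : x ≠ 0) :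
    ‖x‖⁻¹ • cjΨ z x x = (deriv z (Real.log ‖x‖), 0) := by
  have hn := norm_ne_zero_iff.2 hx
  have h1 : ∑ i, hat x i * x i = ‖x‖ := by rw [cj_sum_hat, rd_normsq]; field_simp
  rw [cjΨ, cjT, h1, hat, smul_smul, mul_inv_cancel₀ hn, one_smul, sub_self, Prod.smul_mk, smul_smul,
    inv_mul_cancel₀ hn, one_smul, smul_zero]

theorem cj_slice₁ {F : E × Vec n → ℝ} (hF : ContDiff ℝ ∞ F) (ζ : E) (c : ℝ) (y a : Vec n) :
    fderiv ℝ (fun y => F (ζ, y) - c) y a = fderiv ℝ F (ζ, y) (0, a) := by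
  have h := ((hF.differentiable (by simp) (ζ, y)).hasFDerivAt.comp y
    (hasFDerivAt_prodMk_right ζ y)).sub_const c
  exact congrArg (fun L : Vec n →L[ℝ] ℝ => L a) h.fderiv

theorem cj_slice₂ {F : E × Vec n → ℝ} (hF : ContDiff ℝ ∞ F) (ζ : E) (c : ℝ) (y a b : Vec n) :
    fderiv ℝ (fderiv ℝ fun y => F (ζ, y) - c) y a b = fderiv ℝ (fderiv ℝ F) (ζ, y) (0, a) (0, b) := by
  have h0 : ContDiff ℝ ∞ fun y : Vec n => F (ζ, y) - c :=
    (hF.comp (contDiff_const.prodMk contDiff_id)).sub contDiff_const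
  have h1 := (HasFDerivAt.comp_hasDerivAt (0 : ℝ) (l := fderiv ℝ fun y => F (ζ, y) - c)
    (by simpa using ((h0.fderiv_right (m := ∞) (by simp)).differentiable (by simp) y).hasFDerivAt)
    (cj_dline y a)).clm_apply (hasDerivAt_const 0 b)
  have h2 := (HasFDerivAt.comp_hasDerivAt (0 : ℝ) (l := fderiv ℝ F)
    (by simpa using
      ((hF.fderiv_right (m := ∞) (by simp)).differentiable (by simp) (ζ, y)).hasFDerivAt)
    ((hasDerivAt_const 0 ζ).prodMk (cj_dline y a))).clm_apply (hasDerivAt_const 0 ((0 : E), b))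
  simp only [Function.comp_apply, cj_slice₁ hF, Prod.mk_zero_zero, map_zero, add_zero] at h1 h2
  exact h1.unique h2

theorem cj_lin {A : E × Vec n →L[ℝ] ℝ} {M ε : ℝ} (hM : ‖A‖ ≤ M) (hε : ∀ a, |A (0, a)| ≤ ε * ‖a‖)
    (u : E × Vec n) : |A u| ≤ M * ‖u.1‖ + ε * ‖u.2‖ := by
  have e : u = (u.1, 0) + (0, u.2) := by simp
  rw [e, map_add]
  refine (abs_add_le _ _).trans (add_le_add ?_ (by simpa using hε u.2))
  simpa using A.le_of_opNorm_le hM (u.1, 0)

theorem cj_bilin {A : E × Vec n →L[ℝ] E × Vec n →L[ℝ] ℝ} {M ε : ℝ} (hM : ‖A‖ ≤ M)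
    (hε : ∀ a b, |A (0, a) (0, b)| ≤ ε * ‖a‖ * ‖b‖) (u v : E × Vec n) :
    |A u v| ≤ M * ‖u.1‖ * ‖v‖ + (M * ‖u.2‖ * ‖v.1‖ + ε * ‖u.2‖ * ‖v.2‖) := by
  have e : u = (u.1, 0) + (0, u.2) := by simp
  have h1 : ∀ w : E × Vec n, ‖A w‖ ≤ M * ‖w‖ := A.le_of_opNorm_le hM
  rw [e, map_add, _root_.add_apply]
  refine (abs_add_le _ _).trans (add_le_add ?_ ?_)
  · simpa using (A (u.1, 0)).le_of_opNorm_le (h1 _) v
  · simpa using cj_lin (h1 (0, u.2)) (hε u.2) v

theorem cj_main {F : E × Vec n → ℝ} (hF : ContDiff ℝ ∞ F) {z : ℝ → E} (hz : ContDiff ℝ ∞ z)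
    {x : Vec n} (hx : x ≠ 0) {M ε k c : ℝ} (hM₁ : ‖fderiv ℝ F (cjP z x)‖ ≤ M)
    (hM₂ : ‖fderiv ℝ (fderiv ℝ F) (cjP z x)‖ ≤ M)
    (hε : ∀ p ≤ 2, ‖iteratedFDeriv ℝ p (fun y => F (z (Real.log ‖x‖), y) - c) (hat x)‖ ≤ ε)
    (hk₁ : ‖deriv z (Real.log ‖x‖)‖ ≤ k) (hk₂ : ‖deriv (deriv z) (Real.log ‖x‖)‖ ≤ k) (hk : k ≤ 1) :
    (∀ m, ‖x‖ * |pderiv m (fun y => F (cjP z y)) x| ≤ 10 * ε + 8 * M * k) ∧
    (∀ m l, ‖x‖ ^ 2 * |pderiv m (fun y => pderiv l (fun y => F (cjP z y)) y) x| ≤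
      10 * ε + 8 * M * k) ∧
    |fderiv ℝ (fun y => F (cjP z y)) x x| ≤ 8 * M * k ∧
    ∀ m, ‖x‖ * |pderiv m (fun y => fderiv ℝ (fun y => F (cjP z y)) y y) x| ≤ 8 * M * k := by
  have hn := norm_pos_iff.2 hx
  have hM : 0 ≤ M := (norm_nonneg _).trans hM₁
  have hk0 : 0 ≤ k := (norm_nonneg _).trans hk₁
  have hε0 : 0 ≤ ε := (norm_nonneg _).trans (hε 0 (by norm_num))
  have hMk := mul_nonneg hM hk0
  have hF' : ContDiff ℝ ∞ (fderiv ℝ F) := hF.fderiv_right (by simp)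
  have hz' : Differentiable ℝ (deriv z) := (contDiff_infty_iff_deriv.1 hz).2.differentiable (by simp)
  have hu' : DifferentiableAt ℝ (fderiv ℝ fun y => F (cjP z y)) x :=
    ((cj_smooth hF hz hx).fderiv_right (m := ∞) (by simp)).differentiableAt (by simp)
  have e₁ : ∀ a, |fderiv ℝ F (cjP z x) (0, a)| ≤ ε * ‖a‖ := fun a => by
    have := hε 1 (by norm_num)
    rw [norm_iteratedFDeriv_one] at this
    rw [cjP, ← cj_slice₁ hF _ c]
    exact ContinuousLinearMap.le_of_opNorm_le _ this a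
  have e₂ : ∀ a b, |fderiv ℝ (fderiv ℝ F) (cjP z x) (0, a) (0, b)| ≤ ε * ‖a‖ * ‖b‖ := fun a b => by
    have := hε 2 le_rfl
    rw [← norm_iteratedFDeriv_fderiv, norm_iteratedFDeriv_one] at this
    rw [cjP, ← cj_slice₂ hF _ c]
    exact ContinuousLinearMap.le_of_opNorm_le _ (ContinuousLinearMap.le_of_opNorm_le _ this a) b
  have hy : ∀ l, |hat x l| ≤ 1 := fun l => (cj_coord_le _ l).trans (norm_hat hx).le
  have hs : ∀ {V : Type} [NormedAddCommGroup V] [NormedSpace ℝ V] {a A B : ℝ} {v : V},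
      |a| ≤ A → ‖v‖ ≤ B → ‖a • v‖ ≤ A * B := fun ha hv => by
    rw [norm_smul]
    exact mul_le_mul ha hv (norm_nonneg _) ((abs_nonneg _).trans ha)
  have hT : ∀ l, ‖EuclideanSpace.single l (1 : ℝ) - hat x l • hat x‖ ≤ 2 := fun l => by
    have := hs (hy l) (norm_hat hx).le
    refine (norm_sub_le _ _).trans ?_
    rw [PiLp.norm_single, norm_one]
    linarith
  have hZ : ∀ l, ‖hat x l • deriv z (Real.log ‖x‖)‖ ≤ k := fun l => by simpa using hs (hy l) hk₁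
  have hΨ : ∀ l, ‖cjΨ z x (EuclideanSpace.single l 1)‖ ≤ 2 := fun l => by
    rw [cjΨ_single]
    exact norm_prod_le_iff.2 ⟨(hZ l).trans (by linarith), hT l⟩
  have r₁ : ∀ y, y ≠ 0 → fderiv ℝ (fun y => F (cjP z y)) y y =
      fderiv ℝ F (cjP z y) (deriv z (Real.log ‖y‖), 0) := fun y hy => by
    rw [cj_fderiv hF hz hy, ← smul_eq_mul, ← map_smul, cjΨ_self z hy]
  refine ⟨fun m => ?_, fun m l => ?_, ?_, fun m => ?_⟩
  · rw [pderiv, cj_fderiv hF hz hx, abs_mul, abs_inv, abs_norm, mul_inv_cancel_left₀ hn.ne',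
      cjΨ_single]
    refine (cj_lin hM₁ e₁ _).trans ?_
    have := mul_le_mul_of_nonneg_left (hZ m) hM
    have := mul_le_mul_of_nonneg_left (hT m) hε0
    linarith
  · have d₁ := cj_dhat hx (EuclideanSpace.single m 1)
    have d₂ : HasDerivAt (fun s : ℝ => hat (x + s • EuclideanSpace.single m 1) l)
        ((‖x‖⁻¹ • cjT (hat x) (EuclideanSpace.single m 1)) l) 0 :=
      (EuclideanSpace.proj (𝕜 := ℝ) l).hasFDerivAt.comp_hasDerivAt 0 d₁
    have d₃ := (cj_dinv hx (EuclideanSpace.single m 1)).mul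
      ((cj_dF hF' hz hx (EuclideanSpace.single m 1)).clm_apply
        ((d₂.smul (cj_dcomp hz' hx (EuclideanSpace.single m 1))).prodMk
          ((d₂.smul d₁).const_sub (EuclideanSpace.single l 1))))
    have d₄ := rdL.unique_ne (g := fun y => ‖y‖⁻¹ * fderiv ℝ F (cjP z y)
      (hat y l • deriv z (Real.log ‖y‖), EuclideanSpace.single l 1 - hat y l • hat y)) hx
      (rdL.of_diff (hu'.clm_apply (differentiableAt_const (EuclideanSpace.single l 1)))
        (EuclideanSpace.single m 1)) d₃ fun y hy => by rw [cj_fderiv hF hz hy, cjΨ_single]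
    simp only [zero_smul, add_zero, rd_single_sum, cjT, Pi.smul_apply'] at d₄
    generalize hTm : EuclideanSpace.single m (1 : ℝ) - hat x m • hat x = Tm at d₄
    have d₅ : ‖x‖ ^ 2 * pderiv m (fun y => pderiv l (fun y => F (cjP z y)) y) x =
        fderiv ℝ (fderiv ℝ F) (cjP z x) (cjΨ z x (EuclideanSpace.single m 1))
          (cjΨ z x (EuclideanSpace.single l 1)) +
        fderiv ℝ F (cjP z x) ((hat x l * hat x m) • deriv (deriv z) (Real.log ‖x‖) +
          Tm l • deriv z (Real.log ‖x‖) - hat x m • hat x l • deriv z (Real.log ‖x‖),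
          -(hat x l • Tm + Tm l • hat x) - hat x m • (EuclideanSpace.single l 1 - hat x l • hat x)) := by
      have e : ∀ (a b c : E) (u v w : Vec n), (hat x l • (‖x‖⁻¹ * hat x m) • a + (‖x‖⁻¹ • Tm) l • b,
          -(hat x l • ‖x‖⁻¹ • Tm + (‖x‖⁻¹ • Tm) l • u)) = ‖x‖⁻¹ • (((hat x l * hat x m) • a +
            Tm l • b - hat x m • c, -(hat x l • Tm + Tm l • u) - hat x m • v) + hat x m • (c, v)) :=
        fun a b c u v w => by
          refine Prod.ext ?_ ?_ <;> simp only [Prod.smul_mk, Prod.mk_add_mk, PiLp.smul_apply, smul_eq_mul] <;>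
            module
      unfold pderiv
      rw [d₄, e _ _ (hat x l • deriv z (Real.log ‖x‖)) _ (EuclideanSpace.single l 1 - hat x l • hat x) 0,
        cjΨ_single z x l]
      simp only [map_smul, map_add, _root_.smul_apply, smul_eq_mul]
      field_simp
      ring
    have hT' : ‖Tm‖ ≤ 2 := hTm ▸ hT m
    have hT'' : |Tm l| ≤ 2 := (cj_coord_le _ l).trans hT'
    rw [← abs_of_nonneg (sq_nonneg ‖x‖), ← abs_mul, d₅]
    refine (abs_add_le _ _).trans ((add_le_add (cj_bilin hM₂ e₂ _ _) (cj_lin hM₁ e₁ _)).trans ?_)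
    have b₁ : ‖(hat x l * hat x m) • deriv (deriv z) (Real.log ‖x‖) +
        Tm l • deriv z (Real.log ‖x‖) - hat x m • hat x l • deriv z (Real.log ‖x‖)‖ ≤ 4 * k := by
      have a1 := hs (a := hat x l * hat x m) (A := 1)
        (by rw [abs_mul]; exact mul_le_one₀ (hy l) (abs_nonneg _) (hy m)) hk₂
      have a2 := hs hT'' hk₁
      have a3 := hs (hy m) (hZ l)
      refine (norm_sub_le _ _).trans ((add_le_add (norm_add_le _ _) le_rfl).trans ?_)
      linarith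
    have b₂ : ‖-(hat x l • Tm + Tm l • hat x) -
        hat x m • (EuclideanSpace.single l 1 - hat x l • hat x)‖ ≤ 6 := by
      have a1 := hs (hy l) hT'
      have a2 := hs hT'' (norm_hat hx).le
      have a3 := hs (hy m) (hT l)
      refine (norm_sub_le _ _).trans ?_
      rw [norm_neg]
      refine (add_le_add (norm_add_le _ _) le_rfl).trans ?_
      linarith
    have b₃ := hΨ l
    have b₄ := hZ m
    have b₅ := hZ l
    have b₆ := hT m
    have b₇ := hT l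
    simp only [cjΨ_single] at b₃ ⊢
    calc _ ≤ M * k * 2 + (M * 2 * k + ε * 2 * 2) + (M * (4 * k) + ε * 6) := by gcongr
      _ = _ := by ring
  · rw [r₁ x hx]
    refine (cj_lin hM₁ e₁ _).trans ?_
    have := mul_le_mul_of_nonneg_left hk₁ hM
    simp only [norm_zero]
    linarith
  · have d₃ := (cj_dF hF' hz hx (EuclideanSpace.single m 1)).clm_apply
      ((cj_dcomp hz' hx (EuclideanSpace.single m 1)).prodMk (hasDerivAt_const 0 (0 : Vec n)))
    have d₄ := rdL.unique_ne (g := fun y => fderiv ℝ F (cjP z y) (deriv z (Real.log ‖y‖), 0)) hx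
      (rdL.of_diff (hu'.clm_apply differentiableAt_fun_id) (EuclideanSpace.single m 1)) d₃ r₁
    simp only [zero_smul, add_zero, rd_single_sum] at d₄
    have d₅ : ‖x‖ * pderiv m (fun y => fderiv ℝ (fun y => F (cjP z y)) y y) x =
        fderiv ℝ (fderiv ℝ F) (cjP z x) (cjΨ z x (EuclideanSpace.single m 1))
          (deriv z (Real.log ‖x‖), 0) +
        fderiv ℝ F (cjP z x) (hat x m • deriv (deriv z) (Real.log ‖x‖), 0) := by
      have e : ∀ a : E, ((‖x‖⁻¹ * hat x m) • a, (0 : Vec n)) = ‖x‖⁻¹ • (hat x m • a, 0) := fun a => by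
        rw [Prod.smul_mk, smul_smul, smul_zero]
      rw [pderiv, d₄, e]
      simp only [map_smul, _root_.smul_apply, smul_eq_mul]
      field_simp
    rw [← abs_norm x, ← abs_mul, d₅]
    have b₁ := ContinuousLinearMap.le_of_opNorm_le _
      (ContinuousLinearMap.le_of_opNorm_le _ hM₂ (cjΨ z x (EuclideanSpace.single m 1)))
      (deriv z (Real.log ‖x‖), 0)
    have b₂ := ContinuousLinearMap.le_of_opNorm_le _ hM₁ (hat x m • deriv (deriv z) (Real.log ‖x‖), 0)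
    have b₃ := hs (hy m) hk₂
    have b₄ := hΨ m
    simp only [Prod.norm_mk, norm_zero, norm_nonneg, sup_of_le_left] at b₁ b₂
    refine (abs_add_le _ _).trans ((add_le_add b₁ b₂).trans ?_)
    calc _ ≤ M * 2 * k + M * (1 * k) := by gcongr
      _ ≤ _ := by linarith

end aux

theorem coneG_jets (n : ℕ) : ∃ C₀ : ℝ, 0 < C₀ ∧
    ∀ (E : Type) [NormedAddCommGroup E] [NormedSpace ℝ E] (𝒢 : E → MetricField n) (𝒞 : Set E),
      GFam 𝒢 → IsCompact 𝒞 → ∃ C : ℝ, 0 < C ∧ ∀ (z : ℝ → E) (ε k : ℝ) (x : Vec n),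
      ContDiff ℝ ∞ z → x ≠ 0 → z (Real.log ‖x‖) ∈ 𝒞 → GSmall (𝒢 (z (Real.log ‖x‖))) ε →
      ‖deriv z (Real.log ‖x‖)‖ ≤ k → ‖deriv (deriv z) (Real.log ‖x‖)‖ ≤ k → k ≤ 1 →
      (∀ m i j, ‖x‖ * |jet₁ (coneG 𝒢 z) x m i j| ≤ C₀ * ε + C * k) ∧
      (∀ m l i j, ‖x‖ ^ 2 * |jet₂ (coneG 𝒢 z) x m l i j| ≤ C₀ * ε + C * k) ∧
      (∀ i j, |rdot (coneG 𝒢 z) x i j| ≤ C * k) ∧
      ∀ m i j, ‖x‖ * |jet₁ (rdot (coneG 𝒢 z)) x m i j| ≤ C * k := by
  refine ⟨10, by norm_num, fun E _ _ 𝒢 𝒞 h𝒢 h𝒞 => ?_⟩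
  have hd : ∀ i j, ContDiff ℝ ∞ (fderiv ℝ fun p : E × Vec n => 𝒢 p.1 p.2 i j) := fun i j =>
    (h𝒢.smooth i j).fderiv_right (by simp)
  obtain ⟨M, hM⟩ := (h𝒞.prod (isCompact_sphere (0 : Vec n) 1)).exists_bound_of_continuousOn
    (f := fun q i j => (fderiv ℝ (fun p : E × Vec n => 𝒢 p.1 p.2 i j) q,
      fderiv ℝ (fderiv ℝ fun p : E × Vec n => 𝒢 p.1 p.2 i j) q))
    (continuous_pi fun i => continuous_pi fun j => (hd i j).continuous.prodMk
      ((hd i j).continuous_fderiv (by simp))).continuousOn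
  refine ⟨8 * (|M| + 1), by positivity, fun z ε k x hz hx hζ hs hk₁ hk₂ hk => ?_⟩
  have key := fun i j => by
    have h1 := norm_prod_le_iff.1 ((norm_le_pi_norm _ j).trans ((norm_le_pi_norm _ i).trans
      ((hM (cjP z x) ⟨hζ, mem_sphere_zero_iff_norm.2 (norm_hat hx)⟩).trans
        ((le_abs_self M).trans (le_add_of_nonneg_right zero_le_one)))))
    exact cj_main (h𝒢.smooth i j) hz hx h1.1 h1.2 (hs _ (norm_hat hx) i j) hk₁ hk₂ hk
  exact ⟨fun m i j => (key i j).1 m, fun m l i j => (key i j).2.1 m l, fun i j => (key i j).2.2.1,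
    fun m i j => (key i j).2.2.2 m⟩

end Crest.Agent.R202
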