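import Crest.Agent.R202.DynDefs

/-!
# Scalar lemmas for the cone estimates
-/

set_option autoImplicit false

noncomputable section

open scoped InnerProductSpace ContDiff
open Set Filter Topology

namespace Crest.Agent.R202.Cone

theorem mono_of_deriv {f f₁ : ℝ → ℝ} (hf : ∀ t, HasDerivAt f (f₁ t) t)
    (h : ∀ t, 0 ≤ t → 0 ≤ f₁ t) : MonotoneOn f (Ici 0) :=
  monotoneOn_of_hasDerivWithinAt_nonneg (convex_Ici 0)
    (fun t _ => (hf t).continuousAt.continuousWithinAt) (fun t _ => (hf t).hasDerivWithinAt)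
    fun t ht => h t (interior_subset ht)

theorem norm_mono {V : Type} [NormedAddCommGroup V] [InnerProductSpace ℝ V]
    {Q : ℝ → V →L[ℝ] V} {w w₁ : ℝ → V} (h : IsSol Q w w₁)
    (hQ : ∀ t, 0 ≤ t → ∀ x, 0 ≤ ⟪Q t x, x⟫_ℝ) (h0 : 0 ≤ ⟪w₁ 0, w 0⟫_ℝ) :
    MonotoneOn (fun t => ‖w t‖) (Ici 0) := by
  have h1 : MonotoneOn (fun t => ⟪w₁ t, w t⟫_ℝ) (Ici 0) :=
    mono_of_deriv (fun t => (h.2 t).inner ℝ (h.1 t)) fun t ht =>
      add_nonneg real_inner_self_nonneg (hQ t ht _)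
  have h2 : MonotoneOn (fun t => ⟪w t, w t⟫_ℝ) (Ici 0) :=
    mono_of_deriv (fun t => (h.1 t).inner ℝ (h.1 t)) fun t ht => by
      have := h1 (mem_Ici.2 le_rfl) (mem_Ici.2 ht) ht
      rw [real_inner_comm]
      simp only at this
      linarith
  intro s hs t ht hst
  have := h2 hs ht hst
  simp only [real_inner_self_eq_norm_sq] at this
  exact abs_le_of_sq_le_sq' this (norm_nonneg _) |>.2

theorem second_deriv_nonpos {φ φ₁ : ℝ → ℝ} {φ₂ s : ℝ} (h : ∀ x, HasDerivAt φ (φ₁ x) x)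
    (h₂ : HasDerivAt φ₁ φ₂ s) (hm : IsLocalMax φ s) : φ₁ s = 0 ∧ φ₂ ≤ 0 := by
  have h0 : φ₁ s = 0 := hm.hasDerivAt_eq_zero (h s)
  refine ⟨h0, ?_⟩
  by_contra hneg
  rw [not_le] at hneg
  have hd : deriv φ = φ₁ := funext fun x => (h x).deriv
  have hmin : IsLocalMin φ s := isLocalMin_of_deriv_deriv_pos (by rw [hd, h₂.deriv]; exact hneg)
    (by rw [hd]; exact h0) (h s).continuousAt
  have hc : φ =ᶠ[𝓝 s] fun _ => φ s := (hm.and hmin).mono fun x hx => le_antisymm hx.1 hx.2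
  have hc1 : φ₁ =ᶠ[𝓝 s] fun _ => 0 := by
    have := hc.deriv
    rw [hd] at this
    exact this.trans (Eventually.of_forall fun x => by simp)
  have h3 := hc1.deriv_eq
  rw [h₂.deriv] at h3
  simp only [deriv_const] at h3
  linarith

theorem decay_one {y y₁ : ℝ → ℝ} {s₀ t K : ℝ} (hst : s₀ ≤ t) (hK : 0 ≤ K)
    (hy : ∀ s, HasDerivAt y (y₁ s) s)
    (h : ∀ s ∈ Icc s₀ t, 0 ≤ y s → y₁ s ≤ -y s + K * Real.exp ((t - s) / 2)) :
    y t ≤ |y s₀| * Real.exp (-(t - s₀)) + 2 * K := by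
  refine le_of_forall_pos_le_add fun ε hε => ?_
  have hB : ∀ s, HasDerivAt
      (fun s => |y s₀| * Real.exp (-(s - s₀)) + (2 * K + ε) * Real.exp ((t - s) / 2))
      (|y s₀| * (Real.exp (-(s - s₀)) * (-1)) +
        (2 * K + ε) * (Real.exp ((t - s) / 2) * (-1 / 2))) s := fun s =>
    ((((hasDerivAt_id s).sub_const s₀).neg.exp).const_mul _).add
      (((((hasDerivAt_id s).const_sub t).div_const 2).exp).const_mul _)
  have := image_le_of_deriv_right_lt_deriv_boundary (f := y) (f' := y₁) (a := s₀) (b := t)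
    (fun s _ => (hy s).continuousAt.continuousWithinAt) (fun s _ => (hy s).hasDerivWithinAt)
    (by
      have h1 := le_abs_self (y s₀)
      have h2 : 0 ≤ (2 * K + ε) * Real.exp ((t - s₀) / 2) := by positivity
      simp only [sub_self, neg_zero, Real.exp_zero, mul_one]
      linarith) hB (fun s hs hyB => by
      have h1 : 0 ≤ |y s₀| * Real.exp (-(s - s₀)) := by positivity
      have h2 : 0 < Real.exp ((t - s) / 2) := Real.exp_pos _
      have h3 := h s (Ico_subset_Icc_self hs) (by rw [hyB]; positivity)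
      rw [hyB] at h3
      nlinarith [mul_pos hε h2]) ⟨hst, le_rfl⟩
  simp only [sub_self, zero_div, Real.exp_zero, mul_one] at this
  linarith

theorem decay {y a ρ : ℝ → ℝ} {s₀ t K : ℝ} (hst : s₀ ≤ t) (hK : 0 ≤ K)
    (hy : ∀ s, HasDerivAt y (-(a s * y s) + ρ s) s) (ha : ∀ s ∈ Icc s₀ t, 1 ≤ a s)
    (h : ∀ s ∈ Icc s₀ t, |ρ s| ≤ K * Real.exp ((t - s) / 2)) :
    |y t| ≤ |y s₀| * Real.exp (-(t - s₀)) + 2 * K := by
  refine abs_le.2 ⟨?_, decay_one hst hK hy fun s hs h0 => ?_⟩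
  · have := decay_one (y := fun s => -y s) hst hK (fun s => (hy s).neg) fun s hs h0 => by
      have h1 := (abs_le.1 (h s hs)).1
      have h2 := ha s hs
      nlinarith
    simp only [abs_neg] at this
    linarith
  · have h1 := (abs_le.1 (h s hs)).2
    have h2 := ha s hs
    nlinarith

theorem growth_one {y y₁ Γ g : ℝ → ℝ} {t T K γ : ℝ} (hγ : 0 < γ) (hK : 0 ≤ K)
    (hy : ∀ s, HasDerivAt y (y₁ s) s) (hΓ : ∀ s, HasDerivAt Γ (g s) s) (h0 : Γ t = 0)
    (h : ∀ s ∈ Icc t T, 0 ≤ y s → y₁ s ≤ (g s - γ) * y s + K * Real.exp (Γ s)) :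
    ∀ s ∈ Icc t T, y s ≤ (|y t| + K / γ) * Real.exp (Γ s) := by
  intro s hs
  refine le_of_forall_pos_le_add fun ε' hε' => ?_
  obtain ⟨ε, hε, he⟩ : ∃ ε, 0 < ε ∧ ε * Real.exp (Γ s) = ε' :=
    ⟨ε' / Real.exp (Γ s), by positivity, div_mul_cancel₀ _ (Real.exp_pos _).ne'⟩
  have hB : ∀ s, HasDerivAt (fun s => (|y t| + K / γ + ε) * Real.exp (Γ s))
      ((|y t| + K / γ + ε) * (Real.exp (Γ s) * g s)) s := fun s => (hΓ s).exp.const_mul _
  have := image_le_of_deriv_right_lt_deriv_boundary (f := y) (f' := y₁) (a := t) (b := T)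
    (fun s _ => (hy s).continuousAt.continuousWithinAt) (fun s _ => (hy s).hasDerivWithinAt)
    (by
      have h1 := le_abs_self (y t)
      have h2 : 0 ≤ K / γ := by positivity
      simp only [h0, Real.exp_zero, mul_one]
      linarith) hB (fun s hs hyB => by
      have h2 : 0 < Real.exp (Γ s) := Real.exp_pos _
      have h3 := h s (Ico_subset_Icc_self hs) (by rw [hyB]; positivity)
      rw [hyB] at h3
      have h4 : γ * (K / γ) = K := mul_div_cancel₀ _ hγ.ne'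
      have h5 : 0 ≤ γ * |y t| * Real.exp (Γ s) := by positivity
      have h6 : 0 < γ * ε * Real.exp (Γ s) := by positivity
      have h7 : (g s - γ) * ((|y t| + K / γ + ε) * Real.exp (Γ s)) + K * Real.exp (Γ s) =
          (|y t| + K / γ + ε) * (Real.exp (Γ s) * g s) - γ * |y t| * Real.exp (Γ s) -
            γ * ε * Real.exp (Γ s) + (K - γ * (K / γ)) * Real.exp (Γ s) := by ring
      rw [h7, h4, sub_self, zero_mul] at h3
      linarith) hs
  rw [add_mul, he] at this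
  exact this

theorem growth {y a ρ Γ g : ℝ → ℝ} {t T K γ : ℝ} (hγ : 0 < γ) (hK : 0 ≤ K)
    (hy : ∀ s, HasDerivAt y (a s * y s + ρ s) s) (hΓ : ∀ s, HasDerivAt Γ (g s) s) (h0 : Γ t = 0)
    (ha : ∀ s ∈ Icc t T, a s + γ ≤ g s) (h : ∀ s ∈ Icc t T, |ρ s| ≤ K * Real.exp (Γ s)) :
    ∀ s ∈ Icc t T, |y s| ≤ (|y t| + K / γ) * Real.exp (Γ s) := by
  intro s hs
  refine abs_le.2 ⟨?_, growth_one hγ hK hy hΓ h0 (fun s hs h0 => ?_) s hs⟩
  · have := growth_one (y := fun s => -y s) hγ hK (fun s => (hy s).neg) hΓ h0 (fun s hs h0 => by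
      have h1 := (abs_le.1 (h s hs)).1
      have h2 := ha s hs
      nlinarith) s hs
    simp only [abs_neg] at this
    linarith
  · have h1 := (abs_le.1 (h s hs)).2
    have h2 := ha s hs
    nlinarith

theorem slope_bounds {Γ g : ℝ → ℝ} {t₀ T C : ℝ} (hΓ : ∀ s, HasDerivAt Γ (g s) s)
    (h1 : ∀ s ∈ Icc t₀ T, 1 ≤ g s) (h2 : ∀ s ∈ Icc t₀ T, g s ≤ C) {x y : ℝ} (hx : t₀ ≤ x)
    (hxy : x ≤ y) (hy : y ≤ T) : y - x ≤ Γ y - Γ x ∧ Γ y - Γ x ≤ C * (y - x) := by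
  rcases hxy.eq_or_lt with rfl | hlt
  · simp
  obtain ⟨c, hc, hc'⟩ := exists_hasDerivAt_eq_slope Γ g hlt
    (fun s _ => (hΓ s).continuousAt.continuousWithinAt) fun s _ => hΓ s
  have hcm : c ∈ Icc t₀ T := ⟨hx.trans hc.1.le, hc.2.le.trans hy⟩
  have h3 : Γ y - Γ x = g c * (y - x) := by
    rw [hc', div_mul_cancel₀ _ (sub_pos.2 hlt).ne']
  have h4 := h1 c hcm
  have h5 := h2 c hcm
  have h6 := sub_pos.2 hlt
  rw [h3]
  constructor <;> nlinarith

theorem exp_le_cosh (x : ℝ) : Real.exp x ≤ 2 * Real.cosh x := by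
  rw [Real.cosh_eq]
  linarith [Real.exp_pos (-x)]

theorem exp_neg_le_cosh (x : ℝ) : Real.exp (-x) ≤ 2 * Real.cosh x := by
  rw [Real.cosh_eq]
  linarith [Real.exp_pos x]

theorem cosh_le_exp {x : ℝ} (hx : 0 ≤ x) : Real.cosh x ≤ Real.exp x := by
  rw [Real.cosh_eq]
  have : Real.exp (-x) ≤ Real.exp x := Real.exp_le_exp.2 (by linarith)
  linarith

theorem abs_sinh_le (x : ℝ) : |Real.sinh x| ≤ Real.cosh x := by
  rw [Real.abs_sinh, ← Real.cosh_abs]
  exact (Real.sinh_lt_cosh _).le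

/-- `γ x² ≤ K (r x + r²)` forces `x ≤ (1 + 2 K / γ) r` -/
theorem le_of_quad {x r K γ : ℝ} (hγ : 0 < γ) (hK : 0 ≤ K) (hr : 0 ≤ r)
    (h : γ * x ^ 2 ≤ K * (r * x + r ^ 2)) : x ≤ (1 + 2 * K / γ) * r := by
  by_contra hx
  rw [not_le] at hx
  have h1 : 0 ≤ 2 * K / γ * r := by positivity
  have h2 : r < x := by nlinarith
  have h3 : γ * (2 * K / γ) = 2 * K := mul_div_cancel₀ _ hγ.ne'
  have h4 : 2 * K * r ≤ γ * x - γ * r := by
    have := mul_le_mul_of_nonneg_left hx.le hγ.le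
    have h5 : γ * ((1 + 2 * K / γ) * r) = γ * r + γ * (2 * K / γ) * r := by ring
    rw [h5, h3] at this
    linarith
  have hx0 : 0 < x := hr.trans_lt h2
  have h6 : K * r ^ 2 ≤ K * (r * x) := mul_le_mul_of_nonneg_left (by nlinarith) hK
  have h7 : 2 * K * r * x ≤ (γ * x - γ * r) * x := mul_le_mul_of_nonneg_right h4 hx0.le
  rcases hr.eq_or_lt with rfl | hr'
  · have : 0 < γ * x ^ 2 := by positivity
    simp at h
    linarith
  · have : 0 < γ * r * x := by positivity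
    nlinarith

end Crest.Agent.R202.Cone
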