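import Crest.Agent.R202.Cone_A

/-!
# Pointwise bounds and derivatives for the cone estimates
-/

set_option autoImplicit false

noncomputable section

open scoped InnerProductSpace ContDiff
open Set Filter Topology

namespace Crest.Agent.R202.Cone

variable {V : Type} [NormedAddCommGroup V] [InnerProductSpace ℝ V] {M : ℕ}

/-- the standing hypotheses with smallness -/
structure Sm (P : Frame V M) (Q : ℝ → V →L[ℝ] V) (C γ t₀ T : ℝ) (e : ℝ → ℝ) : Prop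
    extends DynHyp P Q C γ t₀ T e where
  hC : 1 ≤ C
  hγ : 0 < γ
  sm : (2 * M + 2) * C * e t₀ ≤ 1

/-- first derivative of `cc` -/
def c1 (P : Frame V M) (w w₁ : ℝ → V) (i : Fin M) (s : ℝ) : ℝ :=
  ⟪P.X i s, w₁ s⟫_ℝ + ⟪P.X₁ i s, w s⟫_ℝ

/-- second derivative of `cc` -/
def c2 (P : Frame V M) (Q : ℝ → V →L[ℝ] V) (w w₁ : ℝ → V) (i : Fin M) (s : ℝ) : ℝ :=
  ⟪P.X i s, Q s (w s)⟫_ℝ + 2 * ⟪P.X₁ i s, w₁ s⟫_ℝ + ⟪P.X₂ i s, w s⟫_ℝ

/-- first derivative of `hh` -/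
def h1 (P : Frame V M) (w w₁ : ℝ → V) (s : ℝ) : V :=
  w₁ s - ∑ i, (P.cc w i s • P.X₁ i s + c1 P w w₁ i s • P.X i s)

/-- second derivative of `hh` -/
def h2 (P : Frame V M) (Q : ℝ → V →L[ℝ] V) (w w₁ : ℝ → V) (s : ℝ) : V :=
  Q s (w s) - ∑ i, (P.cc w i s • P.X₂ i s + (2 * c1 P w w₁ i s) • P.X₁ i s +
    c2 P Q w w₁ i s • P.X i s)

/-- the error in the equation of `pp` -/
def rr (P : Frame V M) (Q : ℝ → V →L[ℝ] V) (w : ℝ → V) (i : Fin M) (s : ℝ) : ℝ :=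
  ⟪Q s (P.X i s) - P.a i s ^ 2 • P.X i s, w s⟫_ℝ - ⟪P.X₂ i s, w s⟫_ℝ

/-- the error coming from the motion of the frame -/
def ss (P : Frame V M) (w : ℝ → V) (i : Fin M) (s : ℝ) : ℝ :=
  P.a₁ i s * P.cc w i s + 2 * P.a i s * ⟪P.X₁ i s, w s⟫_ℝ

variable {P : Frame V M} {Q : ℝ → V →L[ℝ] V} {C γ t₀ T : ℝ} {e : ℝ → ℝ} {w w₁ : ℝ → V}

section Deriv
variable (H : DynHyp P Q C γ t₀ T e) (hw : IsSol Q w w₁)
include H hw

theorem d_cc (i : Fin M) (s : ℝ) : HasDerivAt (P.cc w i) (c1 P w w₁ i s) s :=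
  (H.dX i s).inner ℝ (hw.1 s)

theorem d_c1 (i : Fin M) (s : ℝ) : HasDerivAt (c1 P w w₁ i) (c2 P Q w w₁ i s) s := by
  refine (((H.dX i s).inner ℝ (hw.2 s)).add ((H.dX₁ i s).inner ℝ (hw.1 s))).congr_deriv ?_
  unfold c2
  ring

theorem d_hh (s : ℝ) : HasDerivAt (P.hh w) (h1 P w w₁ s) s :=
  (hw.1 s).sub (HasDerivAt.fun_sum fun i _ => (d_cc H hw i s).smul (H.dX i s))

theorem d_h1 (s : ℝ) : HasDerivAt (h1 P w w₁) (h2 P Q w w₁ s) s := by
  refine ((hw.2 s).sub (HasDerivAt.fun_sum fun i _ => ((d_cc H hw i s).smul (H.dX₁ i s)).add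
    ((d_c1 H hw i s).smul (H.dX i s)))).congr_deriv ?_
  unfold h2
  congr 1
  refine Finset.sum_congr rfl fun i _ => ?_
  rw [two_mul, add_smul]
  abel

theorem d_pp (i : Fin M) (s : ℝ) :
    HasDerivAt (P.pp w w₁ i) (P.a i s ^ 2 * P.cc w i s + rr P Q w i s) s := by
  refine (((H.dX i s).inner ℝ (hw.2 s)).sub ((H.dX₁ i s).inner ℝ (hw.1 s))).congr_deriv ?_
  unfold rr Frame.cc
  rw [inner_sub_left, real_inner_smul_left, H.symm]
  ring

theorem d_bb (i : Fin M) (s : ℝ) : HasDerivAt (P.bb w w₁ i)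
    (-(P.a i s * P.bb w w₁ i s) + (rr P Q w i s - ss P w i s)) s := by
  refine ((d_pp H hw i s).sub ((H.da i s).mul (d_cc H hw i s))).congr_deriv ?_
  unfold ss c1 Frame.bb Frame.pp
  ring

theorem d_GG (i : Fin M) (s : ℝ) : HasDerivAt (P.GG w w₁ i)
    (P.a i s * P.GG w w₁ i s + (rr P Q w i s + ss P w i s)) s := by
  refine ((d_pp H hw i s).add ((H.da i s).mul (d_cc H hw i s))).congr_deriv ?_
  unfold ss c1 Frame.GG Frame.pp
  ring

end Deriv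

section Point
variable (H : Sm P Q C γ t₀ T e) {s : ℝ} (hs : s ∈ Icc t₀ T)
include H hs

theorem Sm.e_le₀ : e s ≤ e t₀ := H.e_anti ⟨le_rfl, hs.1.trans hs.2⟩ hs hs.1

theorem Sm.sm' : (2 * M + 2) * C * e s ≤ 1 := by
  have := H.hC
  exact (mul_le_mul_of_nonneg_left (H.e_le₀ hs) (by positivity)).trans H.sm

theorem Sm.Ce : C * e s ≤ 1 / 2 := by
  have h1 := H.sm' hs
  have h2 : 0 ≤ (M : ℝ) * (C * e s) := by
    have := H.hC
    have := H.e_pos s hs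
    positivity
  nlinarith

theorem Sm.MCe : 2 * M * C * e s ≤ 1 := by
  have h1 := H.sm' hs
  have h2 : 0 ≤ C * e s := by
    have := H.hC
    have := H.e_pos s hs
    positivity
  nlinarith

theorem Sm.e_half : e s ≤ 1 / 2 := by
  have h1 := H.Ce hs
  have h2 := H.hC
  have h3 := H.e_pos s hs
  nlinarith

theorem Sm.Ce2 : C * e s ^ 2 ≤ e s := by
  have h1 := H.Ce hs
  have h3 := H.e_pos s hs
  nlinarith

theorem Sm.X_le (i : Fin M) : ‖P.X i s‖ ≤ 2 := by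
  have h1 := (abs_le.1 (H.gram i i s hs)).2
  rw [if_pos rfl, real_inner_self_eq_norm_sq] at h1
  have h2 := H.Ce2 hs
  have h3 := H.e_half hs
  nlinarith [norm_nonneg (P.X i s)]

theorem Sm.inner_X (i : Fin M) (x : V) : |⟪P.X i s, x⟫_ℝ| ≤ 2 * ‖x‖ :=
  (abs_real_inner_le_norm _ _).trans (mul_le_mul_of_nonneg_right (H.X_le hs i) (norm_nonneg _))

theorem Sm.inner_X₁ (i : Fin M) (x : V) : |⟪P.X₁ i s, x⟫_ℝ| ≤ e s * ‖x‖ :=
  (abs_real_inner_le_norm _ _).trans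
    (mul_le_mul_of_nonneg_right ((H.X₁_le i s hs).trans (H.Ce2 hs)) (norm_nonneg _))

theorem Sm.inner_X₂ (i : Fin M) (x : V) : |⟪P.X₂ i s, x⟫_ℝ| ≤ e s * ‖x‖ :=
  (abs_real_inner_le_norm _ _).trans
    (mul_le_mul_of_nonneg_right ((H.X₂_le i s hs).trans (H.Ce2 hs)) (norm_nonneg _))

theorem Sm.inner_eig (i : Fin M) (x : V) :
    |⟪Q s (P.X i s) - P.a i s ^ 2 • P.X i s, x⟫_ℝ| ≤ C * e s * ‖x‖ :=
  (abs_real_inner_le_norm _ _).trans
    (mul_le_mul_of_nonneg_right (H.eig i s hs) (norm_nonneg _))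

theorem Sm.a_le_C (i : Fin M) : P.a i s ≤ C := by
  have h1 := H.a_le i s hs
  have h2 := H.g_le s hs
  have h3 := H.hγ
  linarith

theorem Sm.cc_le (w : ℝ → V) (i : Fin M) : |P.cc w i s| ≤ 2 * ‖w s‖ := H.inner_X hs i _

theorem Sm.acc_le (w : ℝ → V) (i : Fin M) : |P.a i s * P.cc w i s| ≤ 2 * C * ‖w s‖ := by
  have h1 := H.a_ge i s hs
  rw [abs_mul, abs_of_pos (by linarith : 0 < P.a i s)]
  calc P.a i s * |P.cc w i s| ≤ C * (2 * ‖w s‖) :=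
        mul_le_mul (H.a_le_C hs i) (H.cc_le hs w i) (abs_nonneg _) (by linarith [H.hC])
    _ = 2 * C * ‖w s‖ := by ring

theorem Sm.err_le (w : ℝ → V) (i : Fin M) :
    |rr P Q w i s| + |ss P w i s| ≤ 6 * C * (e s * ‖w s‖) := by
  have h0 : 0 ≤ e s * ‖w s‖ := mul_nonneg (H.e_pos s hs).le (norm_nonneg _)
  have h1 : |rr P Q w i s| ≤ C * e s * ‖w s‖ + e s * ‖w s‖ :=
    (abs_sub _ _).trans (add_le_add (H.inner_eig hs i _) (H.inner_X₂ hs i _))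
  have h2 : |P.a₁ i s * P.cc w i s| ≤ e s * (2 * ‖w s‖) := by
    rw [abs_mul]
    exact mul_le_mul ((H.a₁_le i s hs).trans (H.Ce2 hs)) (H.cc_le hs w i) (abs_nonneg _)
      (H.e_pos s hs).le
  have h3 : |2 * P.a i s * ⟪P.X₁ i s, w s⟫_ℝ| ≤ 2 * C * (e s * ‖w s‖) := by
    have h4 := H.a_ge i s hs
    rw [abs_mul, abs_of_pos (by linarith : 0 < 2 * P.a i s)]
    exact mul_le_mul (by linarith [H.a_le_C hs i]) (H.inner_X₁ hs i _) (abs_nonneg _)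
      (by linarith [H.hC])
  have h4 : |ss P w i s| ≤ _ := (abs_add_le _ _).trans (add_le_add h2 h3)
  nlinarith [H.hC]

theorem Sm.norm_comb (v : Fin M → ℝ) : ‖∑ i, v i • P.X i s‖ ≤ 2 * ∑ i, |v i| := by
  rw [Finset.mul_sum]
  refine (norm_sum_le _ _).trans (Finset.sum_le_sum fun i _ => ?_)
  rw [norm_smul, Real.norm_eq_abs, mul_comm]
  exact mul_le_mul_of_nonneg_right (H.X_le hs i) (abs_nonneg _)

theorem Sm.inner_comb (v : Fin M → ℝ) (i : Fin M) :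
    |v i - ⟪P.X i s, ∑ k, v k • P.X k s⟫_ℝ| ≤ C * e s ^ 2 * ∑ k, |v k| := by
  have h1 : v i - ⟪P.X i s, ∑ k, v k • P.X k s⟫_ℝ =
      ∑ k, -(v k * (⟪P.X i s, P.X k s⟫_ℝ - if i = k then 1 else 0)) := by
    simp only [inner_sum, real_inner_smul_right, mul_sub, mul_ite, mul_one, mul_zero, neg_sub,
      Finset.sum_sub_distrib, Finset.sum_ite_eq, Finset.mem_univ, if_true]
  rw [h1, Finset.mul_sum]
  refine (Finset.abs_sum_le_sum_abs _ _).trans (Finset.sum_le_sum fun k _ => ?_)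
  rw [abs_neg, abs_mul, mul_comm]
  exact mul_le_mul_of_nonneg_right (H.gram i k s hs) (abs_nonneg _)

theorem Sm.sum_cc_le (w : ℝ → V) : ∑ i, |P.cc w i s| ≤ M * (2 * ‖w s‖) := by
  have := Finset.sum_le_card_nsmul Finset.univ (fun i => |P.cc w i s|) (2 * ‖w s‖)
    fun i _ => H.cc_le hs w i
  simpa using this

theorem Sm.norm_le (w : ℝ → V) : ‖w s‖ ≤ ‖P.hh w s‖ + 2 * ∑ i, |P.cc w i s| := by
  have h1 : w s = P.hh w s + ∑ i, P.cc w i s • P.X i s := by simp [Frame.hh]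
  calc ‖w s‖ = ‖P.hh w s + ∑ i, P.cc w i s • P.X i s‖ := by rw [← h1]
    _ ≤ _ := (norm_add_le _ _).trans (add_le_add le_rfl (H.norm_comb hs _))

theorem Sm.hh_le (w : ℝ → V) : ‖P.hh w s‖ ≤ (1 + 4 * M) * ‖w s‖ := by
  have h1 := H.norm_comb hs fun i => P.cc w i s
  have h2 := H.sum_cc_le hs w
  have h3 : ‖P.hh w s‖ ≤ ‖w s‖ + ‖∑ i, P.cc w i s • P.X i s‖ := norm_sub_le _ _
  nlinarith

theorem Sm.xi_le (w : ℝ → V) (i : Fin M) :
    |⟪P.X i s, P.hh w s⟫_ℝ| ≤ 2 * M * C * e s * (e s * ‖w s‖) := by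
  have h1 := H.inner_comb hs (fun i => P.cc w i s) i
  have h2 := H.sum_cc_le hs w
  have h3 : 0 ≤ C * e s ^ 2 := by have := H.hC; positivity
  unfold Frame.hh
  rw [inner_sub_right]
  refine h1.trans ((mul_le_mul_of_nonneg_left h2 h3).trans (le_of_eq ?_))
  ring

/-- at a point where `w` lies in the span of the frame -/
theorem Sm.hh_span {w : ℝ → V} {v : Fin M → ℝ} (hv : w s = ∑ i, v i • P.X i s) :
    ‖P.hh w s‖ ≤ 4 * M * (e s * ‖w s‖) := by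
  have h0 := H.e_pos s hs
  have h1 : ∀ i, |v i - P.cc w i s| ≤ C * e s ^ 2 * ∑ k, |v k| := fun i => by
    have := H.inner_comb hs v i
    rwa [← hv] at this
  have h2 : ∑ i, |v i - P.cc w i s| ≤ M * (C * e s ^ 2 * ∑ k, |v k|) := by
    simpa using Finset.sum_le_card_nsmul Finset.univ _ _ fun i _ => h1 i
  have h3 : ∑ i, |v i| ≤ ∑ i, |v i - P.cc w i s| + ∑ i, |P.cc w i s| := by
    rw [← Finset.sum_add_distrib]
    refine Finset.sum_le_sum fun i _ => ?_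
    simpa using abs_add_le (v i - P.cc w i s) (P.cc w i s)
  have h4 := H.sum_cc_le hs w
  have h5 : 0 ≤ ∑ k, |v k| := Finset.sum_nonneg fun _ _ => abs_nonneg _
  have h6 : M * (C * e s ^ 2 * ∑ k, |v k|) ≤ e s / 2 * ∑ k, |v k| := by
    rw [← mul_assoc]
    refine mul_le_mul_of_nonneg_right ?_ h5
    nlinarith [H.MCe hs]
  have h7 : e s / 2 * ∑ k, |v k| ≤ 1 / 2 * ∑ k, |v k| :=
    mul_le_mul_of_nonneg_right (by linarith [H.e_half hs]) h5
  have h8 : ∑ k, |v k| ≤ 4 * M * ‖w s‖ := by linarith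
  have h9 : P.hh w s = ∑ i, (v i - P.cc w i s) • P.X i s := by
    unfold Frame.hh
    rw [hv, ← Finset.sum_sub_distrib]
    simp only [sub_smul]
  rw [h9]
  refine (H.norm_comb hs _).trans ?_
  nlinarith [mul_le_mul_of_nonneg_left h8 h0.le]

end Point

end Crest.Agent.R202.Cone
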