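import Crest.Agent.R202.Cone_B

/-!
# The decaying coordinates, and the second derivative test for the high part
-/

set_option autoImplicit false

noncomputable section

open scoped InnerProductSpace ContDiff
open Set Filter Topology

namespace Crest.Agent.R202.Cone

variable {V : Type} [NormedAddCommGroup V] [InnerProductSpace ℝ V] {M : ℕ}
variable {P : Frame V M} {Q : ℝ → V →L[ℝ] V} {C γ t₀ T : ℝ} {e : ℝ → ℝ} {w w₁ : ℝ → V}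

theorem Sm.mono (H : Sm P Q C γ t₀ T e) (hw : Reg P Q T w w₁) {x y : ℝ} (hx : t₀ ≤ x)
    (hxy : x ≤ y) : ‖w x‖ ≤ ‖w y‖ :=
  norm_mono hw.sol H.pos hw.left (H.t₀_nonneg.trans hx) (H.t₀_nonneg.trans (hx.trans hxy)) hxy

theorem Sm.bb_le (H : Sm P Q C γ t₀ T e) (hw : Reg P Q T w w₁) (i : Fin M) {s : ℝ}
    (hs : s ∈ Icc (t₀ + 1) T) :
    |P.bb w w₁ i s| ≤ 7 * C * ‖w s‖ * Real.exp (-(s - t₀ - 1)) + 12 * C * (e s * ‖w s‖) := by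
  have hC := H.hC
  have hs' : s ∈ Icc t₀ T := ⟨by linarith [hs.1], hs.2⟩
  obtain ⟨σ, hσ, hσ'⟩ := exists_hasDerivAt_eq_slope (P.cc w i) (c1 P w w₁ i)
    (by linarith : t₀ < t₀ + 1)
    (fun s _ => (d_cc H.toDynHyp hw.sol i s).continuousAt.continuousWithinAt)
    fun s _ => d_cc H.toDynHyp hw.sol i s
  rw [add_sub_cancel_left, div_one] at hσ'
  have hσs : σ ≤ s := hσ.2.le.trans hs.1
  have hσm : σ ∈ Icc t₀ T := ⟨hσ.1.le, hσs.trans hs.2⟩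
  have hN := norm_nonneg (w s)
  have h1 : |c1 P w w₁ i σ| ≤ 4 * ‖w s‖ := by
    have h2 := H.cc_le (s := t₀ + 1) ⟨by linarith, hs.1.trans hs.2⟩ w i
    have h3 := H.cc_le (s := t₀) ⟨le_rfl, hs'.1.trans hs.2⟩ w i
    have h4 := H.mono hw (by linarith : t₀ ≤ t₀ + 1) hs.1
    have h5 := H.mono hw le_rfl hs'.1
    rw [hσ']
    exact (abs_sub _ _).trans (by linarith)
  have h2 : |P.bb w w₁ i σ| ≤ 7 * C * ‖w s‖ := by
    have h3 : P.bb w w₁ i σ =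
        c1 P w w₁ i σ - 2 * ⟪P.X₁ i σ, w σ⟫_ℝ - P.a i σ * P.cc w i σ := by
      unfold Frame.bb Frame.pp c1
      ring
    have h4 := H.inner_X₁ hσm i (w σ)
    have h5 := H.acc_le hσm w i
    have h6 := H.mono hw hσ.1.le hσs
    have h7 : e σ * ‖w σ‖ ≤ 1 / 2 * ‖w s‖ :=
      mul_le_mul (H.e_half hσm) h6 (norm_nonneg _) (by norm_num)
    have h8 : 2 * C * ‖w σ‖ ≤ 2 * C * ‖w s‖ := mul_le_mul_of_nonneg_left h6 (by linarith)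
    have h9 : ‖w s‖ ≤ C * ‖w s‖ := le_mul_of_one_le_left hN hC
    rw [h3, abs_le] at *
    constructor <;> linarith [h1.1, h1.2, h4.1, h4.2, h5.1, h5.2]
  have h3 := decay (y := P.bb w w₁ i) (a := P.a i) (ρ := fun s => rr P Q w i s - ss P w i s)
    (K := 6 * C * (e s * ‖w s‖)) hσs (by have := H.e_pos s hs'; positivity)
    (d_bb H.toDynHyp hw.sol i) (fun x hx => H.a_ge i x ⟨hσm.1.trans hx.1, hx.2.trans hs.2⟩)
    fun x hx => by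
      have hxm : x ∈ Icc t₀ T := ⟨hσm.1.trans hx.1, hx.2.trans hs.2⟩
      refine ((abs_sub _ _).trans (H.err_le hxm w i)).trans ?_
      rw [mul_assoc (6 * C)]
      refine mul_le_mul_of_nonneg_left ?_ (by linarith)
      rw [mul_right_comm]
      exact mul_le_mul (H.e_slow x hxm s hs' hx.2) (H.mono hw hxm.1 hx.2) (norm_nonneg _)
        (by have := H.e_pos s hs'; positivity)
  have h4 : |P.bb w w₁ i σ| * Real.exp (-(s - σ)) ≤ 7 * C * ‖w s‖ * Real.exp (-(s - t₀ - 1)) :=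
    mul_le_mul h2 (Real.exp_le_exp.2 (by linarith [hσ.2])) (Real.exp_pos _).le (by positivity)
  linarith

theorem Sm.bb_le' (H : Sm P Q C γ t₀ T e) (hw : Reg P Q T w w₁) (i : Fin M) {s : ℝ}
    (hs : s ∈ Icc (t₀ + 1) T) : |P.bb w w₁ i s| ≤ 13 * C * ‖w s‖ := by
  have hC := H.hC
  have hs' : s ∈ Icc t₀ T := ⟨by linarith [hs.1], hs.2⟩
  have h1 := H.bb_le hw i hs
  have h2 : Real.exp (-(s - t₀ - 1)) ≤ 1 := Real.exp_le_one_iff.2 (by linarith [hs.1])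
  have h3 : 0 ≤ C * ‖w s‖ := by positivity
  nlinarith [H.e_half hs']

theorem Sm.bb_small (H : Sm P Q C γ t₀ T e) (hw : Reg P Q T w w₁) (i : Fin M) {s : ℝ}
    (hs : s ∈ Icc (t₀ + 1) T) (he : Real.exp (-(s - t₀)) ≤ e s) :
    |P.bb w w₁ i s| ≤ 33 * C * (e s * ‖w s‖) := by
  have hC := H.hC
  have h1 := H.bb_le hw i hs
  have h2 : Real.exp (-(s - t₀ - 1)) ≤ 3 * e s := by
    rw [show -(s - t₀ - 1) = 1 + -(s - t₀) by ring, Real.exp_add]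
    exact mul_le_mul (Real.exp_one_lt_d9.le.trans (by norm_num)) he (Real.exp_pos _).le
      (by norm_num)
  have h3 : 0 ≤ C * ‖w s‖ := by positivity
  nlinarith

theorem Sm.GG_le (H : Sm P Q C γ t₀ T e) (hw : Reg P Q T w w₁) (i : Fin M) {s : ℝ}
    (hs : s ∈ Icc (t₀ + 1) T) : |P.GG w w₁ i s| ≤ 17 * C * ‖w s‖ := by
  have hs' : s ∈ Icc t₀ T := ⟨by linarith [hs.1], hs.2⟩
  have h1 := H.bb_le' hw i hs
  have h2 := H.acc_le hs' w i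
  have h3 : P.GG w w₁ i s = P.bb w w₁ i s + 2 * (P.a i s * P.cc w i s) := by
    unfold Frame.GG Frame.bb
    ring
  rw [h3, abs_le] at *
  constructor <;> linarith [h1.1, h1.2, h2.1, h2.2]

theorem Sm.c1_le (H : Sm P Q C γ t₀ T e) (hw : Reg P Q T w w₁) (i : Fin M) {s : ℝ}
    (hs : s ∈ Icc (t₀ + 1) T) : |c1 P w w₁ i s| ≤ 16 * C * ‖w s‖ := by
  have hs' : s ∈ Icc t₀ T := ⟨by linarith [hs.1], hs.2⟩
  have h1 := H.bb_le' hw i hs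
  have h2 := H.acc_le hs' w i
  have h3 : c1 P w w₁ i s =
      P.bb w w₁ i s + P.a i s * P.cc w i s + 2 * ⟪P.X₁ i s, w s⟫_ℝ := by
    unfold c1 Frame.bb Frame.pp
    ring
  have h4 := H.inner_X₁ hs' i (w s)
  have h5 : e s * ‖w s‖ ≤ 1 / 2 * ‖w s‖ :=
    mul_le_mul_of_nonneg_right (H.e_half hs') (norm_nonneg _)
  have h6 : ‖w s‖ ≤ C * ‖w s‖ := le_mul_of_one_le_left (norm_nonneg _) H.hC
  rw [h3, abs_le] at *
  constructor <;> linarith [h1.1, h1.2, h2.1, h2.2, h4.1, h4.2]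

theorem Sm.cc_le_GG (H : Sm P Q C γ t₀ T e) (w w₁ : ℝ → V) (i : Fin M) {s : ℝ}
    (hs : s ∈ Icc t₀ T) : 2 * |P.cc w i s| ≤ |P.GG w w₁ i s| + |P.bb w w₁ i s| := by
  have h1 := H.a_ge i s hs
  have h2 : P.GG w w₁ i s - P.bb w w₁ i s = 2 * P.a i s * P.cc w i s := by
    unfold Frame.GG Frame.bb
    ring
  have h3 := abs_sub (P.GG w w₁ i s) (P.bb w w₁ i s)
  rw [h2, abs_mul, abs_of_pos (by linarith : 0 < 2 * P.a i s)] at h3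
  nlinarith [abs_nonneg (P.cc w i s)]

theorem Sm.w₁_le (H : Sm P Q C γ t₀ T e) (hw : Reg P Q T w w₁) {s : ℝ}
    (hs : s ∈ Icc (t₀ + 1) T) : ‖w₁ s‖ ≤ ‖h1 P w w₁ s‖ + M * (33 * C * ‖w s‖) := by
  have hs' : s ∈ Icc t₀ T := ⟨by linarith [hs.1], hs.2⟩
  have h1' : w₁ s = h1 P w w₁ s + ∑ i, (P.cc w i s • P.X₁ i s + c1 P w w₁ i s • P.X i s) := by
    simp [h1]
  have h2 : ∀ i, ‖P.cc w i s • P.X₁ i s + c1 P w w₁ i s • P.X i s‖ ≤ 33 * C * ‖w s‖ := by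
    intro i
    refine (norm_add_le _ _).trans ?_
    rw [norm_smul, norm_smul, Real.norm_eq_abs, Real.norm_eq_abs]
    have h3 : |P.cc w i s| * ‖P.X₁ i s‖ ≤ 2 * ‖w s‖ * (1 / 2) :=
      mul_le_mul (H.cc_le hs' w i) (((H.X₁_le i s hs').trans (H.Ce2 hs')).trans (H.e_half hs'))
        (norm_nonneg _) (by positivity)
    have h4 : |c1 P w w₁ i s| * ‖P.X i s‖ ≤ 16 * C * ‖w s‖ * 2 :=
      mul_le_mul (H.c1_le hw i hs) (H.X_le hs' i) (norm_nonneg _)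
        (by have := H.hC; positivity)
    have h6 : ‖w s‖ ≤ C * ‖w s‖ := le_mul_of_one_le_left (norm_nonneg _) H.hC
    linarith
  have h3 : ∑ i, ‖P.cc w i s • P.X₁ i s + c1 P w w₁ i s • P.X i s‖ ≤ M * (33 * C * ‖w s‖) := by
    simpa using Finset.sum_le_card_nsmul Finset.univ _ _ fun i _ => h2 i
  calc ‖w₁ s‖ = ‖h1 P w w₁ s + ∑ i, (P.cc w i s • P.X₁ i s + c1 P w w₁ i s • P.X i s)‖ := by
        rw [← h1']
    _ ≤ _ := (norm_add_le _ _).trans (add_le_add le_rfl ((norm_sum_le _ _).trans h3))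

theorem Sm.c2_le (H : Sm P Q C γ t₀ T e) (hw : Reg P Q T w w₁) (i : Fin M) {s : ℝ}
    (hs : s ∈ Icc (t₀ + 1) T) :
    |c2 P Q w w₁ i s| ≤ ‖h1 P w w₁ s‖ + (4 * C ^ 2 + 33 * M * C) * ‖w s‖ := by
  have hs' : s ∈ Icc t₀ T := ⟨by linarith [hs.1], hs.2⟩
  have hC := H.hC
  have hN := norm_nonneg (w s)
  have h1' : c2 P Q w w₁ i s = P.a i s * (P.a i s * P.cc w i s) +
      ⟪Q s (P.X i s) - P.a i s ^ 2 • P.X i s, w s⟫_ℝ + 2 * ⟪P.X₁ i s, w₁ s⟫_ℝ +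
      ⟪P.X₂ i s, w s⟫_ℝ := by
    unfold c2 Frame.cc
    rw [inner_sub_left, real_inner_smul_left, H.symm]
    ring
  have h2 : |P.a i s * (P.a i s * P.cc w i s)| ≤ C * (2 * C * ‖w s‖) := by
    have h3 := H.a_ge i s hs'
    rw [abs_mul, abs_of_pos (by linarith : 0 < P.a i s)]
    exact mul_le_mul (H.a_le_C hs' i) (H.acc_le hs' w i) (abs_nonneg _) (by linarith)
  have h3 := H.inner_eig hs' i (w s)
  have h4 := H.inner_X₁ hs' i (w₁ s)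
  have h5 := H.inner_X₂ hs' i (w s)
  have h6 := H.w₁_le hw hs
  have h7 : e s * ‖w₁ s‖ ≤ 1 / 2 * ‖w₁ s‖ :=
    mul_le_mul_of_nonneg_right (H.e_half hs') (norm_nonneg _)
  have h8 : C * e s * ‖w s‖ ≤ C ^ 2 * ‖w s‖ :=
    mul_le_mul_of_nonneg_right (by nlinarith [H.Ce hs']) hN
  have h9 : e s * ‖w s‖ ≤ C ^ 2 * ‖w s‖ :=
    mul_le_mul_of_nonneg_right (by nlinarith [H.e_half hs']) hN
  rw [h1', abs_le] at *
  constructor <;> nlinarith [h2.1, h2.2, h3.1, h3.2, h4.1, h4.2, h5.1, h5.2]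

/-- the constant of one term -/
def k0 (M : ℕ) (C : ℝ) : ℝ := (6 * C ^ 2 + 33 * M * C) * (2 * M * C) + 37 * C

theorem abs_mul_le {a b A B : ℝ} (ha : |a| ≤ A) (hb : |b| ≤ B) : |a * b| ≤ A * B := by
  rw [abs_mul]
  exact mul_le_mul ha hb (abs_nonneg _) ((abs_nonneg _).trans ha)

theorem Sm.term_le (H : Sm P Q C γ t₀ T e) (hw : Reg P Q T w w₁) (i : Fin M) {s : ℝ}
    (hs : s ∈ Icc (t₀ + 1) T) :
    C * ⟪P.X i s, P.hh w s⟫_ℝ ^ 2 - (P.cc w i s * ⟪Q s (P.X i s), P.hh w s⟫_ℝ -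
      (P.cc w i s * ⟪P.X₂ i s, P.hh w s⟫_ℝ + 2 * c1 P w w₁ i s * ⟪P.X₁ i s, P.hh w s⟫_ℝ +
        c2 P Q w w₁ i s * ⟪P.X i s, P.hh w s⟫_ℝ)) ≤
      k0 M C * (e s * ‖w s‖ * ‖P.hh w s‖ + (e s * ‖w s‖) ^ 2 + e s * ‖w s‖ * ‖h1 P w w₁ s‖) := by
  have hs' : s ∈ Icc t₀ T := ⟨by linarith [hs.1], hs.2⟩
  have hC := H.hC
  have he := H.e_pos s hs'
  have hx0 := H.xi_le hs' w i
  have hx1 : |⟪P.X i s, P.hh w s⟫_ℝ| ≤ e s * ‖w s‖ :=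
    hx0.trans (mul_le_of_le_one_left (by positivity) (H.MCe hs'))
  have e1 : ⟪Q s (P.X i s), P.hh w s⟫_ℝ = P.a i s ^ 2 * ⟪P.X i s, P.hh w s⟫_ℝ +
      ⟪Q s (P.X i s) - P.a i s ^ 2 • P.X i s, P.hh w s⟫_ℝ := by
    rw [inner_sub_left, real_inner_smul_left]
    ring
  have ha : |P.a i s| ≤ C := by
    rw [abs_of_pos (by linarith [H.a_ge i s hs'])]
    exact H.a_le_C hs' i
  have t0 : ⟪P.X i s, P.hh w s⟫_ℝ ^ 2 ≤ (e s * ‖w s‖) ^ 2 := sq_le_sq' (abs_le.1 hx1).1 (abs_le.1 hx1).2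
  have t0' := mul_le_mul_of_nonneg_left t0 (by linarith : 0 ≤ C)
  have t1 := (abs_le.1 (abs_mul_le (abs_mul_le ha (H.acc_le hs' w i)) hx0)).1
  have t2 := (abs_le.1 (abs_mul_le (H.cc_le hs' w i) (H.inner_eig hs' i (P.hh w s)))).1
  have t3 := (abs_le.1 (abs_mul_le (H.cc_le hs' w i) (H.inner_X₂ hs' i (P.hh w s)))).2
  have t4 := (abs_le.1 (abs_mul_le (H.c1_le hw i hs) (H.inner_X₁ hs' i (P.hh w s)))).2
  have t5 := (abs_le.1 (abs_mul_le (H.c2_le hw i hs) hx0)).2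
  have t6 : ‖h1 P w w₁ s‖ * (2 * M * C * e s * (e s * ‖w s‖)) ≤
      ‖h1 P w w₁ s‖ * (e s * ‖w s‖) :=
    mul_le_mul_of_nonneg_left (mul_le_of_le_one_left (by positivity) (H.MCe hs')) (norm_nonneg _)
  rw [e1]
  generalize ⟪P.X i s, P.hh w s⟫_ℝ = ξ at *
  generalize ⟪Q s (P.X i s) - P.a i s ^ 2 • P.X i s, P.hh w s⟫_ℝ = η at *
  generalize ⟪P.X₁ i s, P.hh w s⟫_ℝ = ξ₁ at *
  generalize ⟪P.X₂ i s, P.hh w s⟫_ℝ = ξ₂ at *
  have hx := norm_nonneg (P.hh w s)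
  have hy := norm_nonneg (h1 P w w₁ s)
  have hN := norm_nonneg (w s)
  generalize ‖P.hh w s‖ = x at *
  generalize ‖h1 P w w₁ s‖ = y at *
  generalize ‖w s‖ = N at *
  generalize e s = ε at *
  have hM : (0 : ℝ) ≤ M := Nat.cast_nonneg M
  have p0 : 0 ≤ (6 * C ^ 2 + 33 * M * C) * (2 * M * C) := by positivity
  have p1 : 0 ≤ ε * N * x := by positivity
  have p2 : 0 ≤ (ε * N) ^ 2 := by positivity
  have p3 : 0 ≤ ε * N * y := by positivity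
  have q1 : ε * N * x ≤ C * (ε * N * x) := le_mul_of_one_le_left p1 hC
  have q3 : ε * N * y ≤ C * (ε * N * y) := le_mul_of_one_le_left p3 hC
  have q4 := mul_nonneg p0 p1
  have q5 := mul_nonneg p0 p3
  have q6 : 0 ≤ C * (ε * N) ^ 2 := by positivity
  unfold k0
  nlinarith

theorem Sm.inner_h2 (H : Sm P Q C γ t₀ T e) (hw : Reg P Q T w w₁) {s : ℝ}
    (hs : s ∈ Icc (t₀ + 1) T) :
    (P.g s + γ) ^ 2 * ‖P.hh w s‖ ^ 2 - M * (k0 M C *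
      (e s * ‖w s‖ * ‖P.hh w s‖ + (e s * ‖w s‖) ^ 2 + e s * ‖w s‖ * ‖h1 P w w₁ s‖)) ≤
      ⟪h2 P Q w w₁ s, P.hh w s⟫_ℝ := by
  have hs' : s ∈ Icc t₀ T := ⟨by linarith [hs.1], hs.2⟩
  have h1' : w s = P.hh w s + ∑ i, P.cc w i s • P.X i s := by simp [Frame.hh]
  have h2' : Q s (w s) = Q s (P.hh w s) + ∑ i, P.cc w i s • Q s (P.X i s) := by
    conv_lhs => rw [h1']
    simp only [map_add, map_sum, map_smul]
  have h3 := H.coer s hs' (P.hh w s)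
  have h4 := Finset.sum_le_card_nsmul Finset.univ _ _ fun i _ => H.term_le hw i hs
  simp only [Finset.card_univ, Fintype.card_fin, nsmul_eq_mul, Finset.sum_sub_distrib] at h4
  rw [Finset.mul_sum] at h3
  unfold h2
  rw [h2']
  simp only [inner_sub_left, inner_add_left, sum_inner, real_inner_smul_left]
  linarith

/-- the constant of the interior estimate -/
def k3 (M : ℕ) (C γ : ℝ) : ℝ :=
  1 + 2 * (M * k0 M C * (1 + C) + M * k0 M C + (M * k0 M C) ^ 2) / γ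

theorem k0_nonneg (M : ℕ) {C : ℝ} (hC : 1 ≤ C) : 0 ≤ k0 M C := by
  unfold k0
  positivity

theorem one_le_k3 (M : ℕ) {C γ : ℝ} (hC : 1 ≤ C) (hγ : 0 < γ) : 1 ≤ k3 M C γ := by
  have := k0_nonneg M hC
  unfold k3
  have : 0 ≤ 2 * (M * k0 M C * (1 + C) + M * k0 M C + (M * k0 M C) ^ 2) / γ := by positivity
  linarith

theorem interior_alg {K C x y y₀ r g γ D Z : ℝ} (hK : 0 ≤ K) (hC : 1 ≤ C) (hx : 0 ≤ x)
    (hr : 0 ≤ r) (hγ : 0 < γ) (hg : 1 ≤ g) (h0 : 0 ≤ y₀) (hy : y₀ ≤ y) (hy₀ : y₀ ≤ C * x)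
    (h3 : (g + γ) ^ 2 * x ^ 2 - K * (r * x + r ^ 2 + r * y) ≤ D) (hd : y ^ 2 + D ≤ y₀ ^ 2 + Z)
    (h5 : Z ≤ (g ^ 2 + γ) * x ^ 2) :
    γ * x ^ 2 ≤ (K * (1 + C) + K + K ^ 2) * (r * x + r ^ 2) := by
  have a1 : y₀ ^ 2 - K * r * y₀ - (K * r) ^ 2 / 4 ≤ y ^ 2 - K * r * y := by
    nlinarith [sq_nonneg (y - y₀ - K * r / 2), mul_nonneg (sub_nonneg.2 hy) h0]
  have a2 : K * r * y₀ ≤ K * r * (C * x) := mul_le_mul_of_nonneg_left hy₀ (by positivity)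
  have a3 : 2 * γ * x ^ 2 ≤ ((g + γ) ^ 2 - g ^ 2) * x ^ 2 :=
    mul_le_mul_of_nonneg_right (by nlinarith) (sq_nonneg x)
  have b1 : 0 ≤ K * (r * x) := by positivity
  have b2 : 0 ≤ K ^ 2 * (r * x) := by positivity
  have b3 : 0 ≤ K * C * r ^ 2 := by positivity
  have b4 : 0 ≤ K * r ^ 2 := by positivity
  have b5 : 0 ≤ K ^ 2 * r ^ 2 := by positivity
  linarith

theorem interior_alg₂ {m ψ ψ₁ ψ₂ g g₁ γ C y : ℝ} (hm : 0 < m) (hψ : 0 < ψ)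
    (h3 : |m ^ 2 * (ψ * ψ₁)| ≤ y * (m * ψ)) (hψ₁ : |ψ₁| ≤ g * ψ) (hψ₂ : ψ₂ ≤ (g ^ 2 + |g₁|) * ψ)
    (hgC : g ≤ C) (hg₁ : |g₁| ≤ γ) :
    m * |ψ₁| ≤ y ∧ m * |ψ₁| ≤ C * (m * ψ) ∧ m ^ 2 * (ψ * ψ₂) ≤ (g ^ 2 + γ) * (m * ψ) ^ 2 := by
  refine ⟨?_, ?_, ?_⟩
  · rw [abs_mul, abs_mul, abs_of_pos hψ, abs_of_nonneg (sq_nonneg m)] at h3
    have h4 : 0 < m * ψ := by positivity
    refine le_of_mul_le_mul_right ?_ h4
    linarith
  · have h4 : |ψ₁| ≤ C * ψ := hψ₁.trans (mul_le_mul_of_nonneg_right hgC hψ.le)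
    have := mul_le_mul_of_nonneg_left h4 hm.le
    linarith
  · have h6 : ψ₂ ≤ (g ^ 2 + γ) * ψ := hψ₂.trans (mul_le_mul_of_nonneg_right (by linarith) hψ.le)
    have h7 := mul_le_mul_of_nonneg_left h6 (by positivity : 0 ≤ m ^ 2 * ψ)
    linarith

theorem Sm.interior (H : Sm P Q C γ t₀ T e) (heγ : e t₀ ≤ γ) (hw : Reg P Q T w w₁) {s : ℝ}
    (hs : s ∈ Icc (t₀ + 1) T) {m ψ ψ₁ ψ₂ : ℝ} (hm : 0 ≤ m) (hψ : 0 < ψ)
    (h0 : ‖P.hh w s‖ = m * ψ) (hd1 : ⟪h1 P w w₁ s, P.hh w s⟫_ℝ = m ^ 2 * (ψ * ψ₁))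
    (hd2 : ‖h1 P w w₁ s‖ ^ 2 + ⟪h2 P Q w w₁ s, P.hh w s⟫_ℝ ≤ m ^ 2 * (ψ₁ ^ 2 + ψ * ψ₂))
    (hψ₁ : |ψ₁| ≤ P.g s * ψ) (hψ₂ : ψ₂ ≤ (P.g s ^ 2 + |P.g₁ s|) * ψ) :
    ‖P.hh w s‖ ≤ k3 M C γ * (e s * ‖w s‖) := by
  have hs' : s ∈ Icc t₀ T := ⟨by linarith [hs.1], hs.2⟩
  have hC := H.hC
  have hγ := H.hγ
  have he := H.e_pos s hs'
  have hk := k0_nonneg M hC
  have hr : 0 ≤ e s * ‖w s‖ := by positivity
  rcases hm.eq_or_lt with rfl | hm'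
  · rw [h0, zero_mul]
    exact mul_nonneg (by linarith [one_le_k3 M hC hγ]) hr
  have hg₁ : |P.g₁ s| ≤ γ := (((H.g₁_le s hs').trans (H.Ce2 hs')).trans (H.e_le₀ hs')).trans heγ
  have h3 := abs_real_inner_le_norm (h1 P w w₁ s) (P.hh w s)
  rw [hd1, h0] at h3
  obtain ⟨hy, hy₀, h5⟩ := interior_alg₂ hm' hψ h3 hψ₁ hψ₂ (H.g_le s hs') hg₁
  rw [← h0] at hy₀ h5
  have h4 := H.inner_h2 hw hs
  have h6 : m ^ 2 * ψ₁ ^ 2 = (m * |ψ₁|) ^ 2 := by rw [mul_pow, sq_abs]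
  rw [mul_add, h6] at hd2
  rw [← mul_assoc (M : ℝ)] at h4
  exact le_of_quad hγ (by positivity) hr (interior_alg (by positivity) hC (norm_nonneg _) hr hγ
    (H.g_ge s hs') (by positivity) hy hy₀ h4 hd2 h5)

end Crest.Agent.R202.Cone
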