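import Crest.Agent.R202.Tube

/-!
# The simple-spectrum set is polygonally connected (task B2)

By `exists_flat` the non-simple set is locally contained in `Γ (ℓ⁻¹ Σ)`, where `Σ` = families with some block having a
two-dimensional eigenspace.  Such a block is, for some pair of coordinates `P` (complement `Q`),
`[[l - Tᵀ(l - C)T, (lT - CT)ᵀ], [lT - CT, C]]` (eigenspace = graph of `T : ℝ^P → ℝ^Q`, `C` symmetric): a polynomial image of a
space of dimension `dim Sym - 2`.  So the non-simple part of a tube is a countable union of locally Lipschitz images of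
subsets of spaces of dimension `≤ dim E - 2`; cones over it have `dimH ≤ dim E - 1` and cannot cover an open set
(`dimH_image_le_of_locally_lipschitzOn`, `Real.dimH_of_mem_nhds`, `dimH_iUnion`).
-/

set_option autoImplicit false

noncomputable section

open scoped InnerProductSpace ContDiff
open Set Filter Topology

namespace Crest.Agent.R202

variable {n : ℕ} {E : Type} [NormedAddCommGroup E] [NormedSpace ℝ E] [FiniteDimensional ℝ E]
  {ι : Type} [Fintype ι] [DecidableEq ι] {J : ι → Type} (F : Fam n E ι J) (M : ι → ℕ)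

/-- the transfer matrix -/
def cnT {m : ℕ} (p q : Fin m) (S : Fin m → Fin m → ℝ) (k a : Fin m) : ℝ :=
  if k = p ∨ k = q then 0 else if a = p ∨ a = q then S a k else if k = a then 1 else 0

/-- polynomial parametrisation of the symmetric matrices with a double eigenvalue -/
def cnG {m : ℕ} (p q : Fin m) (S : Fin m → Fin m → ℝ) (a c : Fin m) : ℝ :=
  (if a = c then S p p else 0) +
    ∑ k, ∑ k', cnT p q S k a * (S k k' - if k = k' then S p p else 0) * cnT p q S k' c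

theorem cnT_smooth {m : ℕ} (p q k a : Fin m) : ContDiff ℝ 1 fun S => cnT p q S k a := by
  unfold cnT
  split_ifs <;> fun_prop

theorem cnG_smooth {m : ℕ} (p q : Fin m) : ContDiff ℝ 1 (cnG p q) := by
  refine contDiff_pi.2 fun a => contDiff_pi.2 fun c => ?_
  unfold cnG
  refine ContDiff.add (by split_ifs <;> fun_prop) (ContDiff.sum fun k _ => ContDiff.sum fun k' _ =>
    ((cnT_smooth p q k a).mul ?_).mul (cnT_smooth p q k' c))
  split_ifs <;> fun_prop

theorem cn_param {m : ℕ} {p q : Fin m} (hpq : p ≠ q) {S : Fin m → Fin m → ℝ}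
    (hS : ∀ a c, S a c = S c a) {l : ℝ} {u v : Fin m → ℝ} (hu : ∀ a, ∑ c, S a c * u c = l * u a)
    (hv : ∀ a, ∑ c, S a c * v c = l * v a) (hup : u p = 1) (huq : u q = 0) (hvp : v p = 0)
    (hvq : v q = 1) :
    ∃ S' : Fin m → Fin m → ℝ, (∀ a c, S' a c = S' c a) ∧ S' p q = 0 ∧ S' q q = 0 ∧
      cnG p q S' = S := by
  set w : Fin m → Fin m → ℝ := fun a => if a = p then u else if a = q then v else 0 with hw
  have hwl : ∀ a k, ∑ c, S k c * w a c = l * w a k := fun a k => by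
    simp only [hw]
    split_ifs
    · exact hu k
    · exact hv k
    · simp
  set S' : Fin m → Fin m → ℝ := fun a c =>
    if a = p ∨ a = q then (if c = p ∨ c = q then (if a = p ∧ c = p then l else 0) else -w a c)
    else if c = p ∨ c = q then -w c a else S a c with hS'
  have hT : ∀ k a, cnT p q S' k a = (if k = a then 1 else 0) - w a k := fun k a => by
    simp only [cnT, hS', hw]
    by_cases hk : k = p ∨ k = q
    · rw [if_pos hk]
      rcases hk with rfl | rfl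
      · by_cases h1 : a = k
        · simp [h1, hup]
        · by_cases h2 : a = q <;> simp [h1, h2, hvp, hpq, hpq.symm, Ne.symm h1]
      · by_cases h1 : a = p
        · simp [h1, huq, hpq.symm]
        · by_cases h2 : a = k
          · simp [h2, hvq, hpq.symm]
          · simp [h1, h2, Ne.symm h2]
    · rw [if_neg hk]
      by_cases ha : a = p ∨ a = q
      · have : k ≠ a := fun h => hk (h ▸ ha)
        simp [ha, hk, this]
      · rw [if_neg ha]
        push Not at ha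
        simp [ha.1, ha.2]
  have hpp : S' p p = l := by simp [hS']
  have hA : ∀ k c, ∑ k', (S k k' - if k = k' then l else 0) * cnT p q S' k' c =
      S k c - if k = c then l else 0 := fun k c => by
    simp only [hT, mul_sub, sub_mul, Finset.sum_sub_distrib, hwl, mul_ite, ite_mul, mul_one,
      mul_zero, zero_mul, Finset.sum_ite_eq, Finset.sum_ite_eq', Finset.mem_univ, if_true]
    ring
  refine ⟨S', fun a c => ?_, by simp [hS', hpq.symm], by simp [hS', hpq.symm], ?_⟩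
  · simp only [hS', and_comm (a := a = p), hS a c]
    split_ifs <;> rfl
  · funext a c
    have h1 : ∀ k k', cnT p q S' k a * (S' k k' - if k = k' then l else 0) * cnT p q S' k' c =
        cnT p q S' k a * ((S k k' - if k = k' then l else 0) * cnT p q S' k' c) := fun k k' => by
      by_cases hk : k = p ∨ k = q
      · simp [cnT, hk]
      · by_cases hk' : k' = p ∨ k' = q
        · simp [cnT, hk']
        · simp only [hS', if_neg hk, if_neg hk', mul_assoc]
    simp only [cnG, hpp, h1, ← Finset.mul_sum, hA]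
    have h2 : ∀ k, cnT p q S' k a * (S k c - if k = c then l else 0) =
        (S c k - if c = k then l else 0) * cnT p q S' k a := fun k => by
      rw [mul_comm, hS k c]
      simp only [eq_comm (a := k)]
    simp only [h2, hA]
    rw [hS c a]
    simp only [eq_comm (a := c)]
    ring

omit [Fintype ι] [DecidableEq ι] in
theorem cn_cover {m : ℕ} (L : E →ₗ[ℝ] (Fin m → Fin m → ℝ))
    (hL : ∀ S : Fin m → Fin m → ℝ, (∀ a c, S a c = S c a) → ∃ η, L η = S)
    (hs : ∀ η a c, L η a c = L η c a) {p q : Fin m} (hpq : p ≠ q) :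
    ∃ (E' : Submodule ℝ E) (Φ : E → E), Module.finrank ℝ E' + 2 ≤ Module.finrank ℝ E ∧
      ContDiff ℝ 1 Φ ∧ ∀ (η : E) (l : ℝ) (u v : Fin m → ℝ), (∀ a, ∑ c, L η a c * u c = l * u a) →
        (∀ a, ∑ c, L η a c * v c = l * v a) → u p = 1 → u q = 0 → v p = 0 → v q = 1 →
        ∃ η' ∈ E', Φ η' = η := by
  obtain ⟨R0, hR0⟩ := L.rangeRestrict.exists_rightInverse_of_surjective L.range_rangeRestrict
  obtain ⟨R, hR⟩ := R0.exists_extend
  have hLR : ∀ S : Fin m → Fin m → ℝ, (∀ a c, S a c = S c a) → L (R S) = S := fun S hS => by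
    have h1 : R S = R0 ⟨S, hL S hS⟩ := LinearMap.congr_fun hR ⟨S, hL S hS⟩
    rw [h1]
    exact congrArg Subtype.val (LinearMap.congr_fun hR0 ⟨S, hL S hS⟩)
  let φ : E →ₗ[ℝ] ℝ × ℝ :=
    LinearMap.prod (LinearMap.proj q ∘ₗ LinearMap.proj p ∘ₗ L)
      (LinearMap.proj q ∘ₗ LinearMap.proj q ∘ₗ L)
  have hφ : ∀ η, φ η = (L η p q, L η q q) := fun η => rfl
  have hsurj : LinearMap.range φ = ⊤ := by
    refine LinearMap.range_eq_top.2 fun x => ?_
    obtain ⟨η, hη⟩ := hL (fun a c => if a = q ∧ c = q then x.2 else x.1) fun a c => by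
      simp only [and_comm]
    exact ⟨η, by simp [hφ, hη, hpq]⟩
  refine ⟨LinearMap.ker φ, fun η => η + R (cnG p q (L η) - L η), ?_, ?_, ?_⟩
  · have := φ.finrank_range_add_finrank_ker
    rw [hsurj, finrank_top, Module.finrank_prod, Module.finrank_self] at this
    omega
  · have h1 : ContDiff ℝ 1 L := L.toContinuousLinearMap.contDiff
    have h2 : ContDiff ℝ 1 R := R.toContinuousLinearMap.contDiff
    exact contDiff_id.add (h2.comp (((cnG_smooth p q).comp h1).sub h1))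
  · intro η l u v hu hv hup huq hvp hvq
    obtain ⟨S', h1, h2, h3, h4⟩ := cn_param hpq (hs η) hu hv hup huq hvp hvq
    have h5 : L (η + R (S' - L η)) = S' := by
      rw [map_add, hLR _ fun a c => by simp only [Pi.sub_apply, h1 a c, hs η a c]]
      simp
    refine ⟨η + R (S' - L η), ?_, ?_⟩
    · rw [LinearMap.mem_ker, hφ, h5, h2, h3]; rfl
    · simp only [h5, h4]
      rw [map_sub, map_sub]
      abel

/-- the union of the lines through `p` and the points of `N` -/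
def cnCone (p : E) (N : Set E) : Set E := {x | ∃ t : ℝ, ∃ y ∈ N, x = p + t • (y - p)}

theorem cn_dim (E' : Submodule ℝ E) (h : Module.finrank ℝ E' + 2 ≤ Module.finrank ℝ E) (f : E → E)
    (p : E) : dimH (cnCone p (f '' {x | x ∈ E' ∧ ContDiffAt ℝ 1 f x})) < Module.finrank ℝ E := by
  let g : ℝ × E' → E := fun z => p + z.1 • (f z.2 - p)
  have h1 : cnCone p (f '' {x | x ∈ E' ∧ ContDiffAt ℝ 1 f x}) ⊆
      g '' {z | ContDiffAt ℝ 1 f z.2} := by
    rintro _ ⟨t, _, ⟨x, hx, rfl⟩, rfl⟩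
    exact ⟨(t, ⟨x, hx.1⟩), hx.2, rfl⟩
  have h2 : dimH (g '' {z | ContDiffAt ℝ 1 f z.2}) ≤ dimH {z : ℝ × E' | ContDiffAt ℝ 1 f z.2} := by
    refine dimH_image_le_of_locally_lipschitzOn fun z hz => ?_
    have h3 : ContDiffAt ℝ 1 (fun z : ℝ × E' => f z.2) z :=
      ContDiffAt.comp z hz (E'.subtypeL.contDiff.comp contDiff_snd).contDiffAt
    have h4 : ContDiffAt ℝ 1 g z :=
      contDiffAt_const.add (contDiffAt_fst.smul (h3.sub contDiffAt_const))
    obtain ⟨K, t, ht, hK⟩ := h4.exists_lipschitzOnWith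
    exact ⟨K, t, mem_nhdsWithin_of_mem_nhds ht, hK⟩
  refine ((dimH_mono h1).trans (h2.trans (dimH_mono (subset_univ _)))).trans_lt ?_
  rw [Real.dimH_univ_eq_finrank, Module.finrank_prod, Module.finrank_self]
  exact_mod_cast (by omega : 1 + Module.finrank ℝ E' < Module.finrank ℝ E)

theorem cn_minor {m : ℕ} {x y : Fin m → ℝ}
    (h : ∀ α β : ℝ, (∀ a, α * x a + β * y a = 0) → α = 0 ∧ β = 0) :
    ∃ p q, x p * y q - x q * y p ≠ 0 := by
  by_contra hc
  push Not at hc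
  have h1 : ∀ p, x p = 0 := fun p => (h (-y p) (x p) fun a => by linarith [hc p a]).2
  exact one_ne_zero (h 1 0 fun a => by simp [h1 a]).1

section Spec
variable {J : Type} (b : Base n J)

theorem Base.cn_mass_sum {m : ℕ} (W : Fin m → H J) (u : Fin m → ℝ) (y : H J) :
    b.mass (∑ a, u a • W a) y = ∑ a, u a * b.mass (W a) y := by
  simp only [Base.mass, map_sum, map_smul, sum_inner, real_inner_smul_left]

theorem Base.cn_ev_le {B : H J →L[ℝ] H J} (hB : Adm B) {m : ℕ} {W : Fin m → H J}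
    {S : Fin m → Fin m → ℝ} {t₁ : ℝ} (h1 : ∀ a, B (W a) = ∑ c, S c a • b.K (W c))
    (h2 : ∀ a c, b.mass (W a) (W c) = if a = c then 1 else 0)
    (h3 : ∀ u : Fin m → ℝ, ∑ a, ∑ c, S a c * u a * u c ≤ t₁ * ∑ a, u a ^ 2) {j : ℕ} (hj : j < m) :
    b.ev B univ j ≤ t₁ := by
  have hm : ∀ (u : Fin m → ℝ) c, b.mass (W c) (∑ a, u a • W a) = u c := fun u c => by
    rw [b.mass_symm, b.cn_mass_sum]
    simp [h2]
  have hinj : Function.Injective (Fintype.linearCombination ℝ W) := by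
    refine (injective_iff_map_eq_zero _).2 fun u hu => funext fun c => ?_
    rw [← hm u c, ← Fintype.linearCombination_apply, hu]
    simp [Base.mass]
  refine b.ev_le hB (LinearMap.range (Fintype.linearCombination ℝ W)) ?_ ?_
  · rw [LinearMap.finrank_range_of_inj hinj, Module.finrank_fin_fun]
    omega
  · rintro _ ⟨u, rfl⟩
    refine ⟨fun k hk => absurd (mem_univ k) hk, ?_⟩
    rw [Fintype.linearCombination_apply]
    have h4 : b.mass (∑ a, u a • W a) (∑ a, u a • W a) = ∑ a, u a ^ 2 := by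
      rw [b.cn_mass_sum]
      simp only [hm, sq]
    have h5 : ⟪B (∑ a, u a • W a), ∑ a, u a • W a⟫_ℝ = ∑ a, ∑ c, S a c * u a * u c := by
      rw [map_sum, sum_inner, Finset.sum_comm]
      refine Finset.sum_congr rfl fun a _ => ?_
      rw [map_smul, real_inner_smul_left, h1, sum_inner, Finset.mul_sum]
      refine Finset.sum_congr rfl fun c _ => ?_
      rw [real_inner_smul_left, ← Base.mass, hm]
      ring
    rw [h4, h5]
    exact h3 u

/-- a double eigenvalue of the pencil gives a double eigenvalue of the low block -/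
theorem Base.cn_double {B : H J →L[ℝ] H J} (hB : Adm B) {m : ℕ} {W : Fin m → H J}
    {S : Fin m → Fin m → ℝ} {t₁ t₂ : ℝ} (ht : t₁ < t₂) (hS : ∀ a c, S a c = S c a)
    (h1 : ∀ a, B (W a) = ∑ c, S c a • b.K (W c))
    (h2 : ∀ a c, b.mass (W a) (W c) = if a = c then 1 else 0)
    (h3 : ∀ u : Fin m → ℝ, ∑ a, ∑ c, S a c * u a * u c ≤ t₁ * ∑ a, u a ^ 2)
    (h4 : ∀ y, (∀ a, b.mass (W a) y = 0) → t₂ * b.mass y y ≤ ⟪B y, y⟫_ℝ) {j : ℕ} (hj : j + 1 < m)
    (hd : b.ev B univ (j + 1) ≤ b.ev B univ j) :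
    ∃ (p q : Fin m) (l : ℝ) (u v : Fin m → ℝ), p ≠ q ∧ (∀ a, ∑ c, S a c * u c = l * u a) ∧
      (∀ a, ∑ c, S a c * v c = l * v a) ∧ u p = 1 ∧ u q = 0 ∧ v p = 0 ∧ v q = 1 := by
  have := b.inf
  have hinf : (univ : Set J).Infinite := infinite_univ
  obtain ⟨V, hV, -, -⟩ := b.exists_eig hB hinf (fun x _ k hk => absurd (mem_univ k) hk) (j + 2)
  set l := b.ev B univ (j + 1) with hl
  have hl' : b.ev B univ j = l := le_antisymm (b.ev_mono hB hinf (Nat.le_succ j)) hd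
  have hlt : l < t₂ := (b.cn_ev_le hB h1 h2 h3 hj).trans_lt ht
  set X := V ⟨j, by omega⟩ with hX
  set Y := V ⟨j + 1, by omega⟩ with hY
  have eX : B X = l • b.K X := hl' ▸ hV.eig _
  have eY : B Y = l • b.K Y := hV.eig _
  have hXX : b.mass X X = 1 := by simp [hX, hV.orth]
  have hYY : b.mass Y Y = 1 := by simp [hY, hV.orth]
  have hXY : b.mass X Y = 0 := by simp [hX, hY, hV.orth]
  have hYX : b.mass Y X = 0 := by rw [b.mass_symm, hXY]
  have key : ∀ Z, B Z = l • b.K Z → ∀ a, ∑ c, S a c * b.mass (W c) Z = l * b.mass (W a) Z :=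
    fun Z hZ a => by
      have h5 := hB.1 (W a) Z
      rw [h1, hZ, sum_inner, real_inner_smul_right, real_inner_comm, ← Base.mass,
        b.mass_symm Z] at h5
      rw [← h5]
      refine Finset.sum_congr rfl fun c _ => ?_
      rw [real_inner_smul_left, hS a c, Base.mass]
  obtain ⟨p, q, hpq⟩ := cn_minor (x := fun a => b.mass (W a) X) (y := fun a => b.mass (W a) Y)
    fun α β h => by
      have h5 := h4 (α • X + β • Y) fun a => by
        rw [← h a]
        simp only [Base.mass, inner_add_right, real_inner_smul_right]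
      have h6 : ⟪B (α • X + β • Y), α • X + β • Y⟫_ℝ = l * b.mass (α • X + β • Y) (α • X + β • Y) := by
        rw [Base.mass, ← real_inner_smul_left, map_add, map_add, map_smul, map_smul, map_smul,
          map_smul, eX, eY, smul_add, smul_comm α, smul_comm β]
      have h7 : b.mass (α • X + β • Y) (α • X + β • Y) = α ^ 2 + β ^ 2 := by
        simp only [Base.mass] at hXX hYY hXY hYX ⊢
        simp only [map_add, map_smul, inner_add_left, inner_add_right, real_inner_smul_left,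
          real_inner_smul_right, hXX, hYY, hXY, hYX]
        ring
      rw [h6, h7] at h5
      have h8 : α ^ 2 + β ^ 2 ≤ 0 := by nlinarith
      constructor <;> nlinarith
  have kX := key X eX
  have kY := key Y eY
  set x : Fin m → ℝ := fun a => b.mass (W a) X with hx
  set y : Fin m → ℝ := fun a => b.mass (W a) Y with hy
  have comb : ∀ α β a, ∑ c, S a c * (α * x c + β * y c) = l * (α * x a + β * y a) := fun α β a => by
    have h5 : ∀ c, S a c * (α * x c + β * y c) = α * (S a c * x c) + β * (S a c * y c) :=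
      fun c => by ring
    simp only [h5, Finset.sum_add_distrib, ← Finset.mul_sum]
    rw [kX a, kY a]
    ring
  change x p * y q - x q * y p ≠ 0 at hpq
  have hD := mul_inv_cancel₀ hpq
  set D := (x p * y q - x q * y p)⁻¹
  refine ⟨p, q, l, fun a => y q * D * x a + -x q * D * y a, fun a => -y p * D * x a + x p * D * y a,
    fun h => hpq (by rw [h]; ring), comb _ _, comb _ _, ?_, ?_, ?_, ?_⟩
  · linear_combination hD
  · ring
  · ring
  · linear_combination hD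

end Spec

open MeasureTheory in
/-- near a controllable point the cones over the non-simple set are null -/
theorem Fam.cn_local [MeasurableSpace E] [BorelSpace E] (ζ₀ : E)
    (hadm : ∀ i, ∀ᶠ ζ in 𝓝 ζ₀, Adm (F.B i ζ))
    (hc : F.CtrlAt ζ₀ (fun i => 2 * (F.b i).ev 1 univ (M i))) :
    ∃ U : Set E, IsOpen U ∧ ζ₀ ∈ U ∧
      ∀ p, μH[Module.finrank ℝ E] (cnCone p {ζ | ζ ∈ U ∧ ¬ F.Simple M ζ}) = 0 := by
  obtain ⟨m, ℓ, Γ, Ψ, η₀, W, t₁, t₂, hm, ht, hsurj, hsymm, hΓ, -, hΨ, hΨ0, hΓΨ, -, -, -, hev⟩ :=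
    F.exists_flat M ζ₀ hadm hc
  have hT : Tendsto Ψ (𝓝 ζ₀) (𝓝 η₀) := hΨ0 ▸ hΨ
  obtain ⟨U, hU, hUo, hU0⟩ := eventually_nhds_iff.1 ((hT.eventually (hev.and hΓ.eventually_analyticAt)).and
    (hΓΨ.and (eventually_all.2 hadm)))
  refine ⟨U, hUo, hU0, fun p => ?_⟩
  have hcov := fun (x : Σ i, {z : Fin (m i) × Fin (m i) // z.1 ≠ z.2}) =>
    cn_cover (LinearMap.proj x.1 ∘ₗ ℓ) (fun S hS => by
      obtain ⟨η, hη⟩ := hsurj (Pi.single x.1 S) fun i a c => by
        by_cases h : i = x.1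
        · subst h; simp [hS a c]
        · simp [Pi.single_eq_of_ne h]
      exact ⟨η, by simp [hη]⟩) (fun η a c => hsymm η x.1 a c) x.2.2
  choose E' Φ hE' hΦ hcov using hcov
  refine measure_mono_null (t := ⋃ x, cnCone p ((Γ ∘ Φ x) ''
    {η | η ∈ E' x ∧ ContDiffAt ℝ 1 (Γ ∘ Φ x) η})) ?_ (measure_iUnion_null fun x => ?_)
  · rintro _ ⟨t, ζ, ⟨hζ, hn⟩, rfl⟩
    obtain ⟨⟨h1, h2⟩, h3, h4⟩ := hU ζ hζ
    simp only [Fam.Simple, not_forall, not_lt] at hn
    obtain ⟨i, j, hj, hd⟩ := hn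
    obtain ⟨k1, k2, k3, k4⟩ := h1 i
    rw [h3] at k1 k4
    obtain ⟨a, c, l, u, v, hac, huv⟩ := (F.b i).cn_double (h4 i) (ht i) (hsymm _ i) k1 k2 k3 k4
      (by have := hm i; omega) hd
    obtain ⟨η', hη', hΦη⟩ := hcov ⟨i, (a, c), hac⟩ (Ψ ζ) l u v huv.1 huv.2.1 huv.2.2.1 huv.2.2.2.1
      huv.2.2.2.2.1 huv.2.2.2.2.2
    refine mem_iUnion.2 ⟨⟨i, (a, c), hac⟩, t, ζ, ⟨η', ⟨hη', ?_⟩, ?_⟩, rfl⟩
    · exact ContDiffAt.comp η' (hΦη ▸ h2.contDiffAt) (hΦ _).contDiffAt
    · rw [Function.comp_apply, hΦη, h3]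
  · have := hausdorffMeasure_of_dimH_lt (d := Module.finrank ℝ E) (s := cnCone p ((Γ ∘ Φ x) ''
      {η | η ∈ E' x ∧ ContDiffAt ℝ 1 (Γ ∘ Φ x) η})) (by exact_mod_cast cn_dim _ (hE' x) _ p)
    exact_mod_cast this

open MeasureTheory in
theorem Fam.simple_conn (a b : E) {ρ₀ : ℝ} (hρ₀ : 0 < ρ₀)
    (hadm : ∀ i, ∀ ζ ∈ tube a b ρ₀, Adm (F.B i ζ))
    (hc : ∀ s ∈ Icc (0 : ℝ) 1, F.CtrlAt (a + s • b) (fun i => 2 * (F.b i).ev 1 univ (M i))) :
    ∃ ρ₁ : ℝ, 0 < ρ₁ ∧ ∀ ρ, 0 < ρ → ρ ≤ ρ₁ → (∃ z₀ ∈ tube a b ρ, F.Simple M z₀) ∧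
      ∀ ζ₁ ∈ tube a b ρ, ∀ ζ₂ ∈ tube a b ρ, F.Simple M ζ₁ → F.Simple M ζ₂ →
        ∃ ζ₃ ∈ tube a b ρ, (∀ ζ ∈ segment ℝ ζ₁ ζ₃, F.Simple M ζ) ∧
          ∀ ζ ∈ segment ℝ ζ₃ ζ₂, F.Simple M ζ := by
  borelize E
  have hloc := fun s : Icc (0 : ℝ) 1 => F.cn_local M (a + s.1 • b) (fun i =>
    eventually_of_mem ((isOpen_tube a b ρ₀).mem_nhds ⟨s, s.2, by simpa using hρ₀⟩) (hadm i))
    (hc s s.2)
  choose U hUo hU0 hU using hloc
  obtain ⟨T, hT, hTU⟩ := TopologicalSpace.isOpen_iUnion_countable U hUo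
  obtain ⟨ρ₁, hρ₁, h1⟩ := exists_tube a b (P := fun ζ => ζ ∈ ⋃ s, U s) fun s hs =>
    (isOpen_iUnion hUo).mem_nhds (mem_iUnion.2 ⟨⟨s, hs⟩, hU0 _⟩)
  refine ⟨ρ₁, hρ₁, fun ρ hρ hle => ?_⟩
  set N := {ζ | ζ ∈ tube a b ρ ∧ ¬ F.Simple M ζ} with hN
  have hnull : ∀ p, μH[Module.finrank ℝ E] (cnCone p N) = 0 := fun p => by
    refine measure_mono_null (t := ⋃ s ∈ T, cnCone p {ζ | ζ ∈ U s ∧ ¬ F.Simple M ζ}) ?_
      ((measure_biUnion_null_iff hT).2 fun s _ => hU s p)
    rintro _ ⟨t, ζ, ⟨⟨s, hs, hζ⟩, hn⟩, rfl⟩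
    have h2 := h1 ζ ⟨s, hs, hζ.trans_le hle⟩
    rw [← hTU] at h2
    obtain ⟨s', hs', h3⟩ := mem_iUnion₂.1 h2
    exact mem_iUnion₂.2 ⟨s', hs', t, ζ, ⟨h3, hn⟩, rfl⟩
  have hex : ∀ p p', ∃ ζ ∈ tube a b ρ, ζ ∉ cnCone p N ∧ ζ ∉ cnCone p' N := fun p p' => by
    have h2 : ∀ᵐ ζ ∂(μH[Module.finrank ℝ E] : Measure E), ζ ∉ cnCone p N ∧ ζ ∉ cnCone p' N :=
      (measure_eq_zero_iff_ae_notMem.1 (hnull p)).and (measure_eq_zero_iff_ae_notMem.1 (hnull p'))
    obtain ⟨ζ, h3, h4⟩ := (Measure.dense_of_ae h2).inter_open_nonempty _ (isOpen_tube a b ρ)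
      ⟨a, 0, by simp, by simpa using hρ⟩
    exact ⟨ζ, h3, h4⟩
  have hseg : ∀ p ∈ tube a b ρ, F.Simple M p → ∀ x ∈ tube a b ρ, x ∉ cnCone p N →
      ∀ ζ ∈ segment ℝ p x, F.Simple M ζ := fun p hp hs x hx hn ζ hζ => by
    by_contra hc
    have h2 := (convex_tube a b ρ).segment_subset hp hx hζ
    rw [segment_eq_image'] at hζ
    obtain ⟨t, -, rfl⟩ := hζ
    have ht : t ≠ 0 := by
      rintro rfl
      exact hc (by simpa using hs)
    refine hn ⟨t⁻¹, _, ⟨h2, hc⟩, ?_⟩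
    simp [smul_smul, ht]
  refine ⟨?_, fun ζ₁ h₁ ζ₂ h₂ hs₁ hs₂ => ?_⟩
  · obtain ⟨ζ, h2, h3, -⟩ := hex 0 0
    refine ⟨ζ, h2, ?_⟩
    by_contra hc
    exact h3 ⟨1, ζ, ⟨h2, hc⟩, by simp⟩
  · obtain ⟨ζ, h2, h3, h4⟩ := hex ζ₁ ζ₂
    exact ⟨ζ, h2, hseg _ h₁ hs₁ _ h2 h3, segment_symm ℝ ζ₂ ζ ▸ hseg _ h₂ hs₂ _ h2 h4⟩

end Crest.Agent.R202
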