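import Crest.Agent.R202.Defs

/-!
# Min-max eigenvalues: elementary facts (task A1)
-/

set_option autoImplicit false

noncomputable section

open scoped InnerProductSpace ContDiff
open Set Filter Topology

namespace Crest.Agent.R202


variable {n : ℕ} {J : Type} (b : Base n J)

theorem evb_hasSum_inner (x y : H J) : HasSum (fun k => x k * y k) ⟪x, y⟫_ℝ := by
  simpa [mul_comm] using lp.hasSum_inner (𝕜 := ℝ) x y

theorem evb_hasSum_sq (x : H J) : HasSum (fun k => x k * x k) (‖x‖ ^ 2) := by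
  rw [← real_inner_self_eq_norm_sq]
  exact evb_hasSum_inner x x

theorem Base.evb_mass (x y : H J) : HasSum (fun k => (b.lam k)⁻¹ * x k * y k) (b.mass x y) :=
  evb_hasSum_inner (b.K x) y

theorem Base.evb_lam_pos (k : J) : 0 < b.lam k := by linarith [b.two_le_lam k]

theorem Base.mass_symm (x y : H J) : b.mass x y = b.mass y x := by
  refine (b.evb_mass x y).unique ?_
  simpa only [mul_right_comm] using b.evb_mass y x

theorem Base.mass_hasSum (x y : H J) : HasSum (fun k => (b.lam k)⁻¹ * x k * y k) (b.mass x y) := by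
  exact b.evb_mass x y

theorem Base.mass_pos {x : H J} (hx : x ≠ 0) : 0 < b.mass x x := by
  obtain ⟨k, hk⟩ : ∃ k, x k ≠ 0 := by
    by_contra h
    push Not at h
    exact hx (lp.ext (funext h))
  have h0 : ∀ i, 0 < (b.lam i)⁻¹ := fun i => inv_pos.2 (b.evb_lam_pos i)
  refine lt_of_lt_of_le ?_ (le_hasSum (b.mass_hasSum x x) k fun i _ => ?_)
  · rw [mul_assoc]
    exact mul_pos (h0 k) (mul_self_pos.2 hk)
  · rw [mul_assoc]
    exact mul_nonneg (h0 i).le (mul_self_nonneg _)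

theorem Base.mass_le (x : H J) : 2 * b.mass x x ≤ ‖x‖ ^ 2 := by
  refine hasSum_le (fun k => ?_) ((b.mass_hasSum x x).mul_left 2) (evb_hasSum_sq x)
  have h1 := b.evb_lam_pos k
  have h2 : 2 * (b.lam k)⁻¹ ≤ 1 := by rw [← div_eq_mul_inv, div_le_one h1]; exact b.two_le_lam k
  nlinarith [mul_self_nonneg (x k)]

theorem Base.finite_lam_le (t : ℝ) : {k | b.lam k ≤ t}.Finite := by
  refine (b.fin ⌈t⌉₊).subset fun k (hk : b.lam k ≤ t) => ?_
  have h1 : (1 : ℝ) ≤ b.deg k := by exact_mod_cast b.deg_pos k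
  have h2 : (3 : ℝ) ≤ n := by exact_mod_cast b.hn
  have h3 : (b.deg k : ℝ) ≤ ⌈t⌉₊ := by
    refine le_trans ?_ (hk.trans (Nat.le_ceil t))
    unfold Base.lam
    nlinarith
  exact_mod_cast h3

theorem adm_one : Adm (1 : H J →L[ℝ] H J) := by
  refine ⟨fun x y => rfl, fun x => ?_⟩
  rw [one_apply_eq_self, real_inner_self_eq_norm_sq]
  constructor <;> nlinarith [sq_nonneg ‖x‖]

theorem Base.evb_one_le {B : H J →L[ℝ] H J} (hB : Adm B) {S : Set J} {j : ℕ} {t : ℝ}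
    (ht : t ∈ {t | ∃ W : Submodule ℝ (H J), Module.finrank ℝ W = j + 1 ∧
      ∀ y ∈ W, Supp S y ∧ ⟪B y, y⟫_ℝ ≤ t * b.mass y y}) : 1 ≤ t := by
  obtain ⟨W, hW, h⟩ := ht
  have h0 : W ≠ ⊥ := by
    rintro rfl
    simp at hW
  obtain ⟨y, hy, hy0⟩ := (Submodule.ne_bot_iff W).1 h0
  have h1 := b.mass_pos hy0
  have h2 := b.mass_le y
  have h3 := (hB.2 y).1
  have h4 := (h y hy).2
  exact le_of_mul_le_mul_right (by linarith) h1

/-- coordinate subspaces -/
theorem evb_coord (F : Finset J) :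
    ∃ W : Submodule ℝ (H J), Module.finrank ℝ W = F.card ∧ ∀ y ∈ W, Supp (F : Set J) y := by
  classical
  have h1 : Orthonormal ℝ fun k : F => (lp.single 2 (k : J) (1 : ℝ) : H J) := by
    rw [orthonormal_iff_ite]
    intro i j
    rw [lp.inner_single_left]
    by_cases h : i = j
    · simp [h]
    · have : (i : J) ≠ j := fun e => h (Subtype.ext e)
      simp [h, this]
  refine ⟨_, (finrank_span_eq_card h1.linearIndependent).trans (Fintype.card_coe F), ?_⟩
  intro y hy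
  induction hy using Submodule.span_induction with
  | mem x hx =>
    obtain ⟨i, rfl⟩ := hx
    intro k hk
    have : k ≠ i := fun e => hk (e ▸ i.2)
    simp [this]
  | zero => exact fun k _ => rfl
  | add x y _ _ hx hy => intro k hk; simp [hx k hk, hy k hk]
  | smul c x _ hx => intro k hk; simp [hx k hk]

theorem Base.evb_norm_le {F : Set J} {t : ℝ} (h : ∀ k ∈ F, b.lam k ≤ t) {y : H J}
    (hy : Supp F y) : ‖y‖ ^ 2 ≤ t * b.mass y y := by
  refine hasSum_le (fun k => ?_) (evb_hasSum_sq y) ((b.mass_hasSum y y).mul_left t)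
  by_cases hk : k ∈ F
  · have h1 := b.evb_lam_pos k
    have h2 : 1 ≤ t * (b.lam k)⁻¹ := by rw [← div_eq_mul_inv, one_le_div h1]; exact h k hk
    nlinarith [mul_self_nonneg (y k)]
  · simp [hy k hk]

theorem Base.evb_nonempty {B : H J →L[ℝ] H J} (hB : Adm B) {S : Set J} (hS : S.Infinite) (j : ℕ) :
    {t | ∃ W : Submodule ℝ (H J), Module.finrank ℝ W = j + 1 ∧
      ∀ y ∈ W, Supp S y ∧ ⟪B y, y⟫_ℝ ≤ t * b.mass y y}.Nonempty := by
  obtain ⟨F, hF, hc⟩ := hS.exists_subset_card_eq (j + 1)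
  obtain ⟨W, hW, h⟩ := evb_coord F
  refine ⟨2 * ∑ k ∈ F, b.lam k, W, hW.trans hc, fun y hy =>
    ⟨fun k hk => h y hy k fun h' => hk (hF h'), ?_⟩⟩
  have h1 := b.evb_norm_le (F := F) (t := ∑ k ∈ F, b.lam k)
    (fun k hk => Finset.single_le_sum (fun i _ => (b.evb_lam_pos i).le) hk) (h y hy)
  have h2 := (hB.2 y).2
  linarith

theorem Base.ev_le {B : H J →L[ℝ] H J} (hB : Adm B) {S : Set J} {j : ℕ} {t : ℝ}
    (W : Submodule ℝ (H J)) (hW : j + 1 ≤ Module.finrank ℝ W)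
    (h : ∀ y ∈ W, Supp S y ∧ ⟪B y, y⟫_ℝ ≤ t * b.mass y y) : b.ev B S j ≤ t := by
  obtain ⟨f, hf⟩ := exists_linearIndependent_of_le_finrank hW
  have h1 := hf.map' W.subtype W.ker_subtype
  refine csInf_le ⟨1, fun s hs => b.evb_one_le hB hs⟩
    ⟨_, (finrank_span_eq_card h1).trans (Fintype.card_fin _), fun y hy => h y ?_⟩
  refine Submodule.span_le.2 ?_ hy
  rintro _ ⟨i, rfl⟩
  exact (f i).2

/-- every `(j+1)`-dimensional space contains a vector killed by `j` functionals -/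
theorem Base.le_ev {B : H J →L[ℝ] H J} (hB : Adm B) {S : Set J} (hS : S.Infinite) {j : ℕ} {t : ℝ}
    {I : Type} [Fintype I] (hI : Fintype.card I ≤ j) (V : I → H J)
    (h : ∀ y, Supp S y → (∀ i, b.mass (V i) y = 0) → t * b.mass y y ≤ ⟪B y, y⟫_ℝ) :
    t ≤ b.ev B S j := by
  refine le_csInf (b.evb_nonempty hB hS j) ?_
  rintro s ⟨W, hW, hs⟩
  have : Module.Finite ℝ W := Module.finite_of_finrank_eq_succ hW
  have h1 := LinearMap.ker_ne_bot_of_finrank_lt
    (f := (LinearMap.pi fun i => (innerSL ℝ (b.K (V i))).toLinearMap).comp W.subtype)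
    (by rw [hW, Module.finrank_fintype_fun_eq_card]; omega)
  obtain ⟨y, hy, hy0⟩ := (Submodule.ne_bot_iff _).1 h1
  have h2 := h y (hs y y.2).1 fun i => congrFun (LinearMap.mem_ker.1 hy) i
  exact le_of_mul_le_mul_right (h2.trans (hs y y.2).2)
    (b.mass_pos fun e => hy0 (Subtype.ext e))

theorem Base.one_le_ev {B : H J →L[ℝ] H J} (hB : Adm B) {S : Set J} (hS : S.Infinite) (j : ℕ) :
    1 ≤ b.ev B S j := by
  exact le_csInf (b.evb_nonempty hB hS j) fun s hs => b.evb_one_le hB hs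

theorem Base.ev_mono {B : H J →L[ℝ] H J} (hB : Adm B) {S : Set J} (hS : S.Infinite) :
    Monotone (b.ev B S) := by
  intro j j' hj
  refine le_csInf (b.evb_nonempty hB hS j') ?_
  rintro s ⟨W, hW, hs⟩
  exact b.ev_le hB W (by omega) hs

theorem Base.ev_le_mul {B B₁ : H J →L[ℝ] H J} (hB : Adm B) (hB₁ : Adm B₁) {S : Set J}
    (hS : S.Infinite) {t : ℝ} (ht : 0 < t)
    (h : ∀ y, Supp S y → ⟪B₁ y, y⟫_ℝ ≤ t * ⟪B y, y⟫_ℝ) (j : ℕ) :
    b.ev B₁ S j ≤ t * b.ev B S j := by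
  rw [← div_le_iff₀' ht]
  refine le_csInf (b.evb_nonempty hB hS j) ?_
  rintro s ⟨W, hW, hs⟩
  rw [div_le_iff₀' ht]
  refine b.ev_le hB₁ W hW.ge fun y hy => ⟨(hs y hy).1, (h y (hs y hy).1).trans ?_⟩
  rw [mul_assoc]
  exact mul_le_mul_of_nonneg_left (hs y hy).2 ht.le

theorem Base.evb_lip {B B₁ : H J →L[ℝ] H J} (hB : Adm B) (hB₁ : Adm B₁) {S : Set J}
    (hS : S.Infinite) (j : ℕ) :
    b.ev B₁ S j - b.ev B S j ≤ 4 * b.ev 1 S j * ‖B₁ - B‖ := by
  have h0 := norm_nonneg (B₁ - B)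
  have h1 := b.ev_le_mul hB hB₁ hS (t := 1 + 2 * ‖B₁ - B‖) (by positivity) (fun y _ => by
    have h2 : ⟪(B₁ - B) y, y⟫_ℝ ≤ ‖B₁ - B‖ * ‖y‖ * ‖y‖ := (real_inner_le_norm _ _).trans
      (mul_le_mul_of_nonneg_right ((B₁ - B).le_opNorm y) (norm_nonneg _))
    rw [sub_apply, inner_sub_left] at h2
    have h3 := mul_le_mul_of_nonneg_left (hB.2 y).1 h0
    linarith) j
  have h2 := b.ev_le_mul adm_one hB hS (t := 2) two_pos (fun y _ => by
    rw [one_apply_eq_self, real_inner_self_eq_norm_sq]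
    exact (hB.2 y).2) j
  have h3 := mul_le_mul_of_nonneg_left h2 h0
  linarith

theorem Base.ev_lip {B B₁ : H J →L[ℝ] H J} (hB : Adm B) (hB₁ : Adm B₁) {S : Set J}
    (hS : S.Infinite) (j : ℕ) :
    |b.ev B S j - b.ev B₁ S j| ≤ 4 * b.ev 1 S j * ‖B - B₁‖ := by
  have h1 := b.evb_lip hB hB₁ hS j
  have h2 := b.evb_lip hB₁ hB hS j
  rw [norm_sub_rev] at h1
  exact abs_sub_le_iff.2 ⟨h2, h1⟩

theorem Base.ev_one_le {S : Set J} {j : ℕ} {t : ℝ}
    (h : j + 1 ≤ {k | k ∈ S ∧ b.lam k ≤ t}.ncard) : b.ev 1 S j ≤ t := by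
  have hf : {k | k ∈ S ∧ b.lam k ≤ t}.Finite := (b.finite_lam_le t).subset fun k hk => hk.2
  obtain ⟨W, hW, hs⟩ := evb_coord hf.toFinset
  rw [Set.ncard_eq_toFinset_card _ hf, ← hW] at h
  rw [hf.coe_toFinset] at hs
  refine b.ev_le adm_one W h fun y hy => ⟨fun k hk => hs y hy k fun h' => hk h'.1, ?_⟩
  rw [one_apply_eq_self, real_inner_self_eq_norm_sq]
  exact b.evb_norm_le (fun k hk => hk.2) (hs y hy)

theorem Base.le_ev_one {S : Set J} (hS : S.Infinite) {j : ℕ} {t : ℝ}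
    (h : {k | k ∈ S ∧ b.lam k < t}.ncard ≤ j) : t ≤ b.ev 1 S j := by
  classical
  have hf : {k | k ∈ S ∧ b.lam k < t}.Finite := (b.finite_lam_le t).subset fun k hk => hk.2.le
  rw [Set.ncard_eq_toFinset_card _ hf, ← Fintype.card_coe] at h
  refine b.le_ev adm_one hS h (fun k => lp.single 2 (k : J) (1 : ℝ)) fun y hy h0 => ?_
  rw [one_apply_eq_self, real_inner_self_eq_norm_sq]
  refine hasSum_le (fun k => ?_) ((b.mass_hasSum y y).mul_left t) (evb_hasSum_sq y)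
  have h1 := b.evb_lam_pos k
  by_cases hk : y k = 0
  · simp [hk]
  have h2 : t ≤ b.lam k := by
    refine not_lt.1 fun h2 => hk ?_
    have h3 := h0 ⟨k, hf.mem_toFinset.2 ⟨by_contra fun h' => hk (hy k h'), h2⟩⟩
    rw [b.mass_symm, Base.mass, real_inner_comm, lp.inner_single_left] at h3
    simpa [h1.ne'] using h3
  have h3 : t * (b.lam k)⁻¹ ≤ 1 := by rw [← div_eq_mul_inv, div_le_one h1]; exact h2
  nlinarith [mul_self_nonneg (y k)]

theorem Base.ev_zero_le {B : H J →L[ℝ] H J} (hB : Adm B) {S : Set J} {y : H J} (hy : y ≠ 0)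
    (hS : Supp S y) : b.ev B S 0 * b.mass y y ≤ ⟪B y, y⟫_ℝ := by
  have h0 := b.mass_pos hy
  rw [← le_div_iff₀ h0]
  refine b.ev_le hB (ℝ ∙ y) (finrank_span_singleton hy).ge fun z hz => ?_
  obtain ⟨c, rfl⟩ := Submodule.mem_span_singleton.1 hz
  refine ⟨fun k hk => by simp [hS k hk], le_of_eq ?_⟩
  have h1 : b.mass (c • y) (c • y) = c * (c * b.mass y y) := by
    simp only [Base.mass, map_smul, real_inner_smul_left, real_inner_smul_right]
  rw [h1, map_smul, real_inner_smul_left, real_inner_smul_right]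
  field_simp

theorem Base.ev_tendsto {B : H J →L[ℝ] H J} (hB : Adm B) {S : Set J} (hS : S.Infinite) :
    Tendsto (b.ev B S) atTop atTop := by
  refine tendsto_atTop_atTop.2 fun t => ⟨{k | k ∈ S ∧ b.lam k < 2 * t}.ncard, fun j hj => ?_⟩
  have h1 := b.le_ev_one hS hj
  have h2 := b.ev_le_mul hB adm_one hS (t := 2) two_pos (fun y _ => by
    rw [one_apply_eq_self, real_inner_self_eq_norm_sq]
    linarith [(hB.2 y).1]) j
  linarith

end Crest.Agent.R202
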