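import Crest.Agent.R202.CDefs
import Crest.Agent.R202.EvBasic

/-!
# Counting degrees; round eigenvalues (task F9)
-/

set_option autoImplicit false

noncomputable section

open scoped InnerProductSpace ContDiff
open Set Filter Topology
open MvPolynomial Real

namespace Crest.Agent.R202

variable {r n : ℕ} (c : Cl r n)

/-- the round eigenvalue of degree `d` -/
def lamd (n d : ℕ) : ℝ := (d : ℝ) * ((d : ℝ) + n - 2)

def Cl.sec (m : ℕ) : Set c.J := {k | k.1.1.natAbs = m}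

theorem Cl.infinite_sec (m : ℕ) : (c.sec m).Infinite := by
  have hr := c.r_pos
  refine Set.infinite_of_injective_forall_mem
    (f := fun b : ℕ => (⟨((m : ℤ), b + 1), by
      have : 0 < r * (b + 1) := by positivity
      simp only
      omega⟩ : c.J)) (fun a b h => ?_) fun b => ?_
  · simpa using congrArg (fun k : c.J => k.1.2) h
  · simp [Cl.sec]

/-- the pairs `(μ, b)` with `|μ| + r b ≤ a` -/
def cntF (r a : ℕ) : Finset (ℤ × ℕ) :=
  (Finset.Icc (-(a : ℤ)) a ×ˢ Finset.range (a + 1)).filter fun p => p.1.natAbs + r * p.2 ≤ a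

theorem mem_cntF (hr : 1 ≤ r) {a : ℕ} {p : ℤ × ℕ} : p ∈ cntF r a ↔ p.1.natAbs + r * p.2 ≤ a := by
  have h2 : p.2 ≤ r * p.2 := Nat.le_mul_of_pos_left _ hr
  simp only [cntF, Finset.mem_filter, Finset.mem_product, Finset.mem_Icc, Finset.mem_range]
  omega

theorem card_cntF_add (hr : 1 ≤ r) (a : ℕ) :
    (cntF r (a + r)).card = 2 * (a + r) + 1 + (cntF r a).card := by
  have h1 : cntF r (a + r) = (Finset.Icc (-((a + r : ℕ) : ℤ)) (a + r : ℕ) ×ˢ {0}) ∪
      (cntF r a).image fun p => (p.1, p.2 + 1) := by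
    ext ⟨μ, b⟩
    simp only [mem_cntF hr, Finset.mem_union, Finset.mem_product, Finset.mem_Icc,
      Finset.mem_singleton, Finset.mem_image, Prod.mk.injEq, Prod.exists]
    constructor
    · intro h
      rcases b with _ | b
      · left; omega
      · rw [mul_add, mul_one] at h
        exact Or.inr ⟨μ, b, by omega, rfl, rfl⟩
    · rintro (⟨h, rfl⟩ | ⟨μ, b, h, rfl, rfl⟩)
      · omega
      · rw [mul_add, mul_one]; omega
  rw [h1, Finset.card_union_of_disjoint, Finset.card_image_of_injective, Finset.card_product,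
    Int.card_Icc, Finset.card_singleton]
  · omega
  · intro p q h
    simp only [Prod.mk.injEq, add_left_inj] at h
    exact Prod.ext h.1 h.2
  · rw [Finset.disjoint_left]
    intro p hp hq
    obtain ⟨q, -, rfl⟩ := Finset.mem_image.1 hq
    simp at hp

theorem card_cntF_one (a : ℕ) : (cntF 1 a).card = (a + 1) ^ 2 := by
  induction a with
  | zero => rfl
  | succ a ih => rw [card_cntF_add le_rfl, ih]; ring

theorem card_cntF_two (a : ℕ) : 2 * (cntF 2 a).card = (a + 1) * (a + 2) := by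
  induction a using Nat.twoStepInduction with
  | zero => rfl
  | one => rfl
  | more a ih _ => rw [card_cntF_add one_le_two, mul_add _ _ (cntF 2 a).card, ih]; ring

theorem Cl.ncard_deg_le (a : ℕ) : {k : c.J | c.deg k ≤ c.j + a}.ncard = cnt r a := by
  rw [← Set.ncard_image_of_injective _ Subtype.val_injective]
  have h1 : ∀ p : ℤ × ℕ, p ∈ (fun k : c.J => k.1) '' {k : c.J | c.deg k ≤ c.j + a} ↔
      1 ≤ c.j + p.1.natAbs + r * p.2 ∧ p ∈ cntF r a := fun p => by
    rw [mem_cntF c.r_pos]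
    constructor
    · rintro ⟨k, hk, rfl⟩
      simp only [Cl.deg, mem_ofPred_eq] at hk
      exact ⟨k.2, by simp only; omega⟩
    · rintro ⟨h1, h2⟩
      exact ⟨⟨p, h1⟩, by simp only [Cl.deg, mem_ofPred_eq]; omega, rfl⟩
  rcases c.ok with ⟨rfl, -, hj⟩ | ⟨rfl, -, hj⟩
  · have h2 : (fun k : c.J => k.1) '' {k : c.J | c.deg k ≤ c.j + a} = ↑((cntF 1 a).erase (0, 0)) := by
      ext ⟨μ, b⟩
      rw [h1, Finset.mem_coe, Finset.mem_erase, Ne, Prod.mk.injEq]
      refine and_congr_left fun _ => ?_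
      simp only
      omega
    rw [h2, Set.ncard_coe_finset, Finset.card_erase_of_mem ((mem_cntF le_rfl).2 (by simp)),
      card_cntF_one, cnt, if_pos rfl]
  · have h2 : (fun k : c.J => k.1) '' {k : c.J | c.deg k ≤ c.j + a} = ↑(cntF 2 a) := by
      ext p
      rw [h1, Finset.mem_coe]
      exact and_iff_right (by omega)
    rw [h2, Set.ncard_coe_finset, cnt, if_neg (by norm_num), ← card_cntF_two]
    omega

theorem cnt_succ (r a : ℕ) : cnt r (a + 1) = cnt r a + mult r (a + 1) := by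
  unfold cnt mult
  split_ifs
  · have h1 : (a + 1 + 1) ^ 2 = (a + 1) ^ 2 + (2 * (a + 1) + 1) := by ring
    have h2 : 0 < (a + 1) ^ 2 := by positivity
    omega
  · have h1 : (a + 1 + 1) * (a + 1 + 2) = (a + 1) * (a + 2) + 2 * (a + 1 + 1) := by ring
    omega

theorem cnt_sub (r : ℕ) {a₀ a₁ : ℕ} (h : a₀ ≤ a₁) :
    cnt r a₁ = cnt r a₀ + ∑ a ∈ Finset.Ioc a₀ a₁, mult r a := by
  induction a₁, h using Nat.le_induction with
  | base => simp
  | succ a h ih => rw [cnt_succ, Finset.sum_Ioc_succ_top h, ih, add_assoc]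

theorem cnt_lamd_mono (hn : 3 ≤ n) : StrictMono (lamd n) := by
  refine strictMono_nat_of_lt_succ fun d => ?_
  have h1 : (3 : ℝ) ≤ n := by exact_mod_cast hn
  have h2 : (0 : ℝ) ≤ d := Nat.cast_nonneg d
  unfold lamd
  push_cast
  linarith

theorem Cl.cnt_ev {S : Set c.J} (hS : S.Infinite) {q d : ℕ}
    (h₁ : {k | k ∈ S ∧ c.deg k < d}.ncard ≤ q) (h₂ : q + 1 ≤ {k | k ∈ S ∧ c.deg k ≤ d}.ncard) :
    c.base.ev 1 S q = lamd n d := by
  have h := cnt_lamd_mono c.base.hn
  have e : ∀ k, c.base.lam k = lamd n (c.deg k) := fun _ => rfl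
  refine le_antisymm (c.base.ev_one_le ?_) (c.base.le_ev_one hS ?_)
  · simpa only [e, h.le_iff_le] using h₂
  · simpa only [e, h.lt_iff_lt] using h₁

theorem Cl.ev_one_eq {a q : ℕ} (h₁ : cnt r a ≤ q) (h₂ : q < cnt r (a + 1)) :
    c.base.ev 1 univ q = lamd n (c.j + a + 1) := by
  refine c.cnt_ev ((c.infinite_sec 0).mono (subset_univ _)) ?_ ?_
  · simpa only [mem_univ, true_and, Nat.lt_succ_iff, c.ncard_deg_le] using h₁
  · simpa only [mem_univ, true_and, add_assoc, c.ncard_deg_le] using Nat.succ_le_of_lt h₂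

theorem Cl.sum_sqrt_ev {a₀ a₁ : ℕ} (h : a₀ ≤ a₁) :
    ∑ q ∈ Finset.Ico (cnt r a₀) (cnt r a₁), √(c.base.ev 1 univ q) ≤
      ∑ a ∈ Finset.Ioc a₀ a₁, (mult r a : ℝ) * ((c.j : ℝ) + a + ((n : ℝ) - 2) / 2) := by
  induction a₁, h using Nat.le_induction with
  | base => simp
  | succ a h ih =>
    have h1 := cnt_sub r h
    have h2 := cnt_succ r a
    rw [← Finset.sum_Ico_consecutive _ (m := cnt r a₀) (n := cnt r a) (by omega) (by omega),
      Finset.sum_Ioc_succ_top h]
    refine add_le_add ih ((Finset.sum_le_card_nsmul _ _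
      ((c.j : ℝ) + (a + 1 : ℕ) + ((n : ℝ) - 2) / 2) fun q hq => ?_).trans (le_of_eq ?_))
    · have h3 : (3 : ℝ) ≤ n := by exact_mod_cast c.base.hn
      have h4 : 0 ≤ ((n : ℝ) - 2) / 2 := by linarith
      rw [c.ev_one_eq (Finset.mem_Ico.1 hq).1 (Finset.mem_Ico.1 hq).2]
      refine Real.sqrt_le_iff.2 ⟨by positivity, ?_⟩
      unfold lamd
      push_cast
      linarith [sq_nonneg (((n : ℝ) - 2) / 2)]
    · rw [Nat.card_Ico, h2, Nat.add_sub_cancel_left, nsmul_eq_mul]

theorem Cl.cnt_sec_zero (t : ℕ) :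
    {k : c.J | k ∈ c.sec 0 ∧ k.1.2 < t + if c.j = 0 then 1 else 0}.ncard = t := by
  have hr := c.r_pos
  rw [← Set.ncard_image_of_injective _ Subtype.val_injective]
  obtain ⟨e, he, he'⟩ : ∃ e, e = (if c.j = 0 then 1 else 0) ∧ ∀ b, 1 ≤ c.j + r * b ↔ e ≤ b := by
    refine ⟨_, rfl, fun b => ?_⟩
    have h2 : b ≤ r * b := Nat.le_mul_of_pos_left _ hr
    split_ifs with h
    · rcases b with _ | b <;> omega
    · omega
  rw [← he]
  have h1 : (fun k : c.J => k.1) '' {k : c.J | k ∈ c.sec 0 ∧ k.1.2 < t + e} =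
      ↑(({0} : Finset ℤ) ×ˢ Finset.Ico e (t + e)) := by
    ext ⟨μ, b⟩
    simp only [Finset.mem_coe, Finset.mem_product, Finset.mem_singleton, Finset.mem_Ico, Cl.sec,
      mem_ofPred_eq, Int.natAbs_eq_zero]
    constructor
    · rintro ⟨⟨p, hp⟩, ⟨h1, h2⟩, h3⟩
      obtain rfl : p = (μ, b) := h3
      simp only at h1 h2 hp
      exact ⟨h1, (he' b).1 (by simpa [h1] using hp), h2⟩
    · rintro ⟨rfl, h1, h2⟩
      exact ⟨⟨(0, b), by simpa using (he' b).2 h1⟩, ⟨rfl, h2⟩, rfl⟩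
  rw [h1, Set.ncard_coe_finset, Finset.card_product, Nat.card_Ico]
  simp

theorem Cl.ev_one_sec_zero (i : ℕ) :
    c.base.ev 1 (c.sec 0) i = lamd n (c.j + r * (i + if c.j = 0 then 1 else 0)) := by
  have hr : 0 < r := c.r_pos
  have h1 := c.cnt_sec_zero i
  have h2 := c.cnt_sec_zero (i + 1)
  generalize (if c.j = 0 then 1 else 0) = e at h1 h2 ⊢
  refine c.cnt_ev (c.infinite_sec 0) (le_of_eq (Eq.trans ?_ h1)) (le_of_eq (h2.symm.trans ?_))
  · congr 1
    ext k
    refine and_congr_right fun hk : k.1.1.natAbs = 0 => ?_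
    rw [Cl.deg, hk, add_zero, add_lt_add_iff_left, Nat.mul_lt_mul_left hr]
  · congr 1
    ext k
    refine and_congr_right fun hk : k.1.1.natAbs = 0 => ?_
    rw [Cl.deg, hk, add_zero, add_le_add_iff_left, Nat.mul_le_mul_left_iff hr]
    omega

theorem Cl.ev_one_sec {m : ℕ} (hm : 1 ≤ m) : c.base.ev 1 (c.sec m) 0 = lamd n (c.j + m) := by
  refine c.cnt_ev (c.infinite_sec m) (le_of_eq ?_) ?_
  · rw [Set.eq_empty_of_forall_notMem (s := {k | k ∈ c.sec m ∧ c.deg k < c.j + m}), Set.ncard_empty]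
    rintro k ⟨h1 : k.1.1.natAbs = m, h2⟩
    unfold Cl.deg at h2
    omega
  · refine (Set.ncard_pos ((c.base.fin (c.j + m)).subset fun k hk => hk.2)).2
      ⟨⟨((m : ℤ), 0), by simp only [Int.natAbs_natCast]; omega⟩, ?_, ?_⟩
    · simp [Cl.sec]
    · simp [Cl.deg]

end Crest.Agent.R202
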