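import Crest.Agent.R202.Rayleigh
import Crest.Agent.R202.EvSpec

/-!
# Every pair of neighbouring ranks crosses along the segment (task F4b)

Rank `q` has round degree `j + a`, rank `q+1` at most `j+a+1`.  `exists_cross` with `S₁ = sec 0` at the index of degree `j + r ⌊(a-1)/r⌋ ∈
[j+a-2, j+a-1]` and `S₂ = sec (a+2)` at index `0`.  At `s = 0` the operator is within `4θ₀` of the identity (`mqLe_trip₀`, `ev_le_mul`); at `s = 1` use
`rayleigh` and `inner_sec_zero`.  Continuity in `s`: `contDiff_Aop` (with `N = 0`) and `tripζ_bpt`.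
-/

set_option autoImplicit false

noncomputable section

open scoped InnerProductSpace ContDiff
open Set Filter Topology
open MvPolynomial Real

namespace Crest.Agent.R202

theorem cross_lamd_mono {n d d' : ℕ} (hn : 3 ≤ n) (h : d ≤ d') : lamd n d ≤ lamd n d' := by
  have h1 : (3 : ℝ) ≤ n := by exact_mod_cast hn
  have h2 : (d : ℝ) ≤ d' := by exact_mod_cast h
  have h3 : (0 : ℝ) ≤ d := Nat.cast_nonneg d
  unfold lamd
  nlinarith

theorem cross_lamd_succ {n : ℕ} (hn : 3 ≤ n) (d : ℕ) : lamd n d + 1 ≤ lamd n (d + 1) := by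
  have h1 : (3 : ℝ) ≤ n := by exact_mod_cast hn
  have h3 : (0 : ℝ) ≤ d := Nat.cast_nonneg d
  unfold lamd
  push_cast
  nlinarith

theorem cross_near {r n : ℕ} (c : Cl r n) {t : T3} {η : ℝ} (h0 : 0 ≤ η) (hη : η ≤ 1 / 2)
    (h : MqLe r t η) {S : Set c.J} (hS : S.Infinite) (i : ℕ) :
    (1 - η) * c.base.ev 1 S i ≤ c.base.ev (1 + c.Aop t) S i ∧
      c.base.ev (1 + c.Aop t) S i ≤ (1 + η) * c.base.ev 1 S i := by
  have hA := c.adm_Aop h hη
  have key : ∀ y : H c.J, (1 - η) * ⟪(1 : H c.J →L[ℝ] H c.J) y, y⟫_ℝ ≤ ⟪(1 + c.Aop t) y, y⟫_ℝ ∧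
      ⟪(1 + c.Aop t) y, y⟫_ℝ ≤ (1 + η) * ⟪(1 : H c.J →L[ℝ] H c.J) y, y⟫_ℝ := fun y => by
    have h1 := abs_le.1 (c.abs_inner_Aop_le h y)
    rw [_root_.add_apply, one_apply_eq_self, inner_add_left, real_inner_self_eq_norm_sq]
    constructor <;> linarith [h1.1, h1.2]
  have hp : 0 < 1 - η := by linarith
  refine ⟨?_, c.base.ev_le_mul adm_one hA hS (by linarith) (fun y _ => (key y).2) i⟩
  rw [← le_inv_mul_iff₀ hp]
  exact c.base.ev_le_mul hA adm_one hS (inv_pos.2 hp)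
    (fun y _ => (le_inv_mul_iff₀ hp).2 (key y).1) i

theorem cross_cont {r n : ℕ} (c : Cl r n) (om : Polynomial ℝ) (θ₀ c₁ : ℝ) :
    Continuous fun s : ℝ =>
      1 + c.Aop (trip₀ r (Polynomial.C θ₀ * om + Polynomial.C (s * c₁))) := by
  have h1 : Continuous fun s : ℝ => bpt 0 θ₀ (s * c₁) := by
    refine continuous_pi fun a => ?_
    rcases a with a | a
    · fin_cases a
      · exact continuous_const
      · exact continuous_id.mul continuous_const
    · exact continuous_const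
  have h2 := (c.contDiff_Aop om (Fin.elim0 : Fin 0 → P3)).continuous.comp h1
  refine h2.congr fun s => ?_
  simp only [Function.comp_apply, tripζ_bpt]

theorem cross (r n : ℕ) {c₁ ϵ : ℝ} (hc : 0 < c₁) (hc' : c₁ ≤ 1 / 10) (hϵ : 0 < ϵ) : ∃ D₀ : ℕ,
    ∀ (c : Cl r n) (a₁ : ℕ), ∃ θ₁ : ℝ, 0 < θ₁ ∧ ∀ θ₀, 0 < θ₀ → θ₀ ≤ θ₁ → ∀ om, OmOk om →
      ∀ a q : ℕ, D₀ ≤ a → a + 1 ≤ a₁ →
      (r = 2 → ϵ * ((c.j : ℝ) + a + 1) ≤ c.j ∧ ϵ * ((c.j : ℝ) + a + 1) ≤ a) →
      cnt r a ≤ q → q < cnt r (a + 1) → ∃ s ∈ Icc (0 : ℝ) 1,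
        c.base.ev (1 + c.Aop (trip₀ r (Polynomial.C θ₀ * om + Polynomial.C (s * c₁)))) univ q =
        c.base.ev (1 + c.Aop (trip₀ r (Polynomial.C θ₀ * om + Polynomial.C (s * c₁)))) univ (q + 1) := by
  obtain ⟨D₀, hD₀⟩ := rayleigh r n hc hc' hϵ
  refine ⟨D₀ + 1, fun c a₁ => ?_⟩
  have hn : 3 ≤ n := c.base.hn
  have hr : r = 1 ∨ r = 2 := by rcases c.ok with h | h <;> omega
  set Λ := lamd n (c.j + a₁ + 2) with hΛ
  have hΛ1 : 1 ≤ Λ := by
    have h1 := cross_lamd_succ hn 0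
    have h2 := cross_lamd_mono hn (show 0 + 1 ≤ c.j + a₁ + 2 by omega)
    have h3 : lamd n 0 = 0 := by simp [lamd]
    linarith
  refine ⟨min (c₁ / 2) (1 / (8 * Λ)), by positivity, ?_⟩
  intro θ₀ hθ hθ₁ om hom a q ha ha₁ hϵ' hq hq'
  have hθa : θ₀ ≤ c₁ / 2 := hθ₁.trans (min_le_left _ _)
  have hθb : θ₀ * (8 * Λ) ≤ 1 := (le_div_iff₀ (by positivity)).1 (hθ₁.trans (min_le_right _ _))
  have hev : ∀ s x : ℝ, (Polynomial.C θ₀ * om + Polynomial.C (s * c₁)).eval x =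
      θ₀ * om.eval x + s * c₁ := fun s x => by simp
  have hom' : ∀ x ∈ Icc (-1 : ℝ) 1, 0 ≤ θ₀ * om.eval x ∧ θ₀ * om.eval x ≤ 2 * θ₀ := fun x hx => by
    obtain ⟨h1, h2, -⟩ := hom x hx
    constructor <;> nlinarith
  have hadm : ∀ s ∈ Icc (0 : ℝ) 1,
      Adm (1 + c.Aop (trip₀ r (Polynomial.C θ₀ * om + Polynomial.C (s * c₁)))) := by
    intro s hs
    refine c.adm_Aop (mqLe_trip₀ r hr (ε := 1 / 4) le_rfl fun x hx => ?_) (by norm_num)
    rw [hev, abs_le]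
    obtain ⟨h1, h2⟩ := hom' x hx
    constructor <;> nlinarith [hs.1, hs.2]
  have hmq : MqLe r (trip₀ r (Polynomial.C θ₀ * om + Polynomial.C (0 * c₁))) (2 * (2 * θ₀)) := by
    refine mqLe_trip₀ r hr (by linarith) fun x hx => ?_
    rw [hev, abs_le]
    obtain ⟨h1, h2⟩ := hom' x hx
    constructor <;> linarith
  have hnear := fun (S : Set c.J) (hS : S.Infinite) (i : ℕ) =>
    cross_near c (by linarith) (by linarith) hmq hS i
  have hgap : ∀ d, d + 1 ≤ c.j + a₁ + 2 →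
      (1 + 2 * (2 * θ₀)) * lamd n d ≤ (1 - 2 * (2 * θ₀)) * lamd n (d + 1) := fun d hd => by
    have h1 := cross_lamd_succ hn d
    have h2 := cross_lamd_mono hn hd
    nlinarith
  obtain ⟨i₁, hi₁, hi₁'⟩ : ∃ i₁, c.j + a - 1 ≤ c.j + r * (i₁ + if c.j = 0 then 1 else 0) ∧
      c.j + r * (i₁ + if c.j = 0 then 1 else 0) ≤ c.j + a := by
    rcases c.ok with ⟨rfl, -, h⟩ | ⟨rfl, -, h⟩
    · refine ⟨a - 1, ?_⟩
      rw [if_pos h]
      omega
    · refine ⟨a / 2, ?_⟩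
      rw [if_neg (by omega)]
      omega
  have hη : 0 ≤ 1 + 2 * (2 * θ₀) := by linarith
  refine c.base.exists_cross _ (cross_cont c om θ₀ c₁) hadm (c.infinite_sec 0)
    (c.infinite_sec (a + 1 + 2)) (fun s _ => c.inv_sec _ _) (fun s _ => c.inv_sec _ _) q i₁ 0
    ?_ ?_ ?_
  · refine (hnear _ (c.infinite_sec 0) i₁).2.trans
      (le_trans ?_ (hnear _ c.base.spec_inf q).1)
    rw [c.ev_one_sec_zero, c.ev_one_eq hq hq']
    exact (mul_le_mul_of_nonneg_left (cross_lamd_mono hn hi₁') hη).trans (hgap _ (by omega))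
  · refine (hnear _ c.base.spec_inf (q + 1)).2.trans
      (le_trans ?_ (hnear _ (c.infinite_sec (a + 1 + 2)) 0).1)
    have h1 : cnt r (a + 1) < cnt r (a + 1 + 1) := by
      rw [cnt_succ r (a + 1)]
      unfold mult
      split_ifs <;> omega
    have h2 := c.base.ev_mono adm_one c.base.spec_inf (show q + 1 ≤ cnt r (a + 1) from hq')
    rw [c.ev_one_eq le_rfl h1] at h2
    rw [c.ev_one_sec (by omega)]
    exact (mul_le_mul_of_nonneg_left h2 hη).trans (hgap _ (by omega))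
  · refine (hD₀ c (a + 1) _ (by omega) (fun h2 => ?_) fun x hx => ?_).trans ?_
    · obtain ⟨h3, h4⟩ := hϵ' h2
      push_cast
      constructor <;> linarith [add_assoc (c.j : ℝ) a 1]
    · rw [hev]
      obtain ⟨h1, h2⟩ := hom' x hx
      constructor <;> linarith
    · have h1 := c.base.ev_le_mul (hadm 1 ⟨zero_le_one, le_rfl⟩) adm_one (c.infinite_sec 0) one_pos
        (fun y hy => by
          have := c.inner_sec_zero (Polynomial.C θ₀ * om + Polynomial.C (1 * c₁)) hy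
          rw [one_mul, _root_.add_apply, inner_add_left]
          linarith) i₁
      rw [one_mul, c.ev_one_sec_zero] at h1
      exact (cross_lamd_mono hn (by omega)).trans h1

end Crest.Agent.R202
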