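import Crest.Agent.R202.SecDefs

/-!
# A nowhere smooth limit of admissible polynomial profiles (task F8)

`h x = ∑ 2^{-i} |x - qᵢ|` (`qᵢ` an enumeration of `ℚ ∩ [-1,1]`, or of `ℚ` with bounded weights) is continuous and not differentiable at any `qᵢ` (a sum of convex functions, one with
a kink).  Let `ω₀ = 1 + η ∬ h` (`ω₀'' = η h`), approximate `η h` uniformly by polynomials (Weierstrass) and integrate twice.  If `rr (σ (θ₀ ω₀(τ) + s))` were smooth on an
interval then so would be `x²`, `x > 0`, `ω₀ ∘ cos^r` and `ω₀` (compose with the smooth inverse `arccos (·^{1/r})`).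
-/

set_option autoImplicit false

noncomputable section

open scoped InnerProductSpace ContDiff
open Set Filter Topology
open MvPolynomial Real

namespace Crest.Agent.R202

theorem Rough_kink : ∃ h : ℝ → ℝ, Continuous h ∧ (∀ x, |h x| ≤ 1 / 4) ∧
    ∀ a b, -1 ≤ a → a < b → b ≤ 1 → ∃ x ∈ Ioo a b, ¬DifferentiableAt ℝ h x := by
  obtain ⟨e, he⟩ := exists_surjective_nat ℚ
  set q : ℕ → ℝ := fun i => max (-1) (min 1 (e i)) with hq
  have hq1 : ∀ i, -1 ≤ q i ∧ q i ≤ 1 := fun i =>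
    ⟨le_max_left _ _, max_le (by norm_num) (min_le_left _ _)⟩
  set f : ℕ → ℝ → ℝ := fun i x => (1 / 2 : ℝ) ^ i / 16 * min 2 |x - q i| with hf
  have hb : ∀ i x, ‖f i x‖ ≤ (1 / 2 : ℝ) ^ i / 8 := fun i x => by
    have h0 : 0 ≤ min 2 |x - q i| := le_min (by norm_num) (abs_nonneg _)
    have h1 : min 2 |x - q i| ≤ 2 := min_le_left _ _
    have h2 : 0 < (1 / 2 : ℝ) ^ i := by positivity
    rw [Real.norm_eq_abs, abs_of_nonneg (by positivity)]
    simp only [hf]
    nlinarith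
  have hs : HasSum (fun i : ℕ => (1 / 2 : ℝ) ^ i / 8) (2 / 8) := hasSum_geometric_two.div_const 8
  have hsum : ∀ x, HasSum (fun i => f i x) (∑' i, f i x) := fun x =>
    (Summable.of_norm_bounded hs.summable fun i => hb i x).hasSum
  refine ⟨fun x => ∑' i, f i x, continuous_tsum (fun i => by fun_prop) hs.summable hb,
    fun x => ?_, fun a b ha hab hb' => ?_⟩
  · exact (tsum_of_norm_bounded hs fun i => hb i x).trans (by norm_num)
  obtain ⟨r, hr1, hr2⟩ := exists_rat_btwn hab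
  obtain ⟨j, rfl⟩ := he r
  have hj : q j = e j := by
    simp only [hq]
    rw [min_eq_right (by linarith), max_eq_right (by linarith)]
  rw [← hj] at hr1 hr2
  refine ⟨q j, ⟨hr1, hr2⟩, fun hd => ?_⟩
  have d1 : HasDerivAt (fun t => ∑' i, f i (q j + t)) (deriv (fun x => ∑' i, f i x) (q j)) 0 := by
    have := hd.hasDerivAt
    rw [← add_zero (q j)] at this
    simpa only [add_zero] using this.comp_const_add (q j) 0
  have d2 : HasDerivAt (fun t => ∑' i, f i (q j - t)) (-deriv (fun x => ∑' i, f i x) (q j)) 0 := by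
    have := hd.hasDerivAt
    rw [← sub_zero (q j)] at this
    simpa only [sub_zero] using this.comp_const_sub (q j) 0
  have d3 := (d1.fun_add d2).tendsto_slope_zero_right
  rw [add_neg_cancel] at d3
  have hc : 0 < (1 / 2 : ℝ) ^ j / 8 := by positivity
  refine absurd (ge_of_tendsto d3 ?_) (not_le.2 hc)
  have hδ : 0 < min (q j + 1) (1 - q j) := lt_min (by linarith) (by linarith)
  filter_upwards [Ioo_mem_nhdsGT hδ] with t ht
  obtain ⟨ht0, ht1⟩ := ht
  rw [lt_min_iff] at ht1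
  have hm : ∀ i x, -1 ≤ x → x ≤ 1 → f i x = (1 / 2 : ℝ) ^ i / 16 * |x - q i| := fun i x h1 h2 => by
    simp only [hf]
    rw [min_eq_right (abs_le.2 ⟨by linarith [hq1 i], by linarith [hq1 i]⟩)]
  have key := le_hasSum (((hsum (q j + t)).add (hsum (q j - t))).sub
    ((hsum (q j)).add (hsum (q j)))) j fun i _ => by
      rw [hm i _ (by linarith) (by linarith), hm i _ (by linarith) (by linarith),
        hm i _ (by linarith) (by linarith)]
      have h2 : 0 < (1 / 2 : ℝ) ^ i / 16 := by positivity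
      have h3 := abs_add_le (q j + t - q i) (q j - t - q i)
      rw [show q j + t - q i + (q j - t - q i) = 2 * (q j - q i) by ring, abs_mul, abs_two] at h3
      nlinarith
  rw [hm j _ (by linarith) (by linarith), hm j _ (by linarith) (by linarith),
    hm j _ (by linarith) (by linarith), sub_self, abs_zero, add_sub_cancel_left,
    sub_sub_cancel_left, abs_neg, abs_of_pos ht0] at key
  simp only [zero_add, add_zero, sub_zero, smul_eq_mul]
  rw [← div_eq_inv_mul, le_div_iff₀ ht0]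
  linarith

theorem Rough_anti (p : Polynomial ℝ) : ∃ P : Polynomial ℝ, P.derivative = p ∧ P.eval 0 = 0 := by
  induction p using Polynomial.induction_on' with
  | add p q hp hq =>
    obtain ⟨P, h1, h2⟩ := hp
    obtain ⟨Q, h3, h4⟩ := hq
    exact ⟨P + Q, by rw [map_add, h1, h3], by rw [Polynomial.eval_add, h2, h4, add_zero]⟩
  | monomial n a =>
    refine ⟨Polynomial.monomial (n + 1) (a / (n + 1)), ?_, by simp⟩
    rw [Polynomial.derivative_monomial_succ, div_mul_cancel₀ _ (by positivity)]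

theorem Rough_mvt {f f' : ℝ → ℝ} (hd : ∀ x, HasDerivAt f (f' x) x) (h0 : f 0 = 0) {C : ℝ}
    (hC : ∀ x ∈ Icc (-1 : ℝ) 1, |f' x| ≤ C) : ∀ x ∈ Icc (-1 : ℝ) 1, |f x| ≤ C := by
  intro x hx
  have h1 := (convex_Icc (-1 : ℝ) 1).norm_image_sub_le_of_norm_hasDerivWithin_le
    (fun y _ => (hd y).hasDerivWithinAt) hC (x := 0) ⟨by norm_num, by norm_num⟩ hx
  rw [h0, sub_zero, sub_zero, Real.norm_eq_abs, Real.norm_eq_abs] at h1
  exact h1.trans (mul_le_of_le_one_right ((abs_nonneg _).trans (hC x hx)) (abs_le.2 hx))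

theorem exists_rough : ∃ (om : ℕ → Polynomial ℝ) (ω₀ : ℝ → ℝ), (∀ p, OmOk (om p)) ∧
    TendstoUniformlyOn (fun p x => (om p).eval x) ω₀ atTop (Icc (-1) 1) ∧
    ∀ a b, -1 ≤ a → a < b → b ≤ 1 → ¬ContDiffOn ℝ ∞ ω₀ (Ioo a b) := by
  obtain ⟨h, hc, hb, hn⟩ := Rough_kink
  set G : ℝ → ℝ := fun x => ∫ t in (0 : ℝ)..x, h t with hG
  have dG : ∀ x, HasDerivAt G (h x) x := fun x => (hc.integral_hasStrictDerivAt 0 x).hasDerivAt
  have cG : Continuous G := continuous_iff_continuousAt.2 fun x => (dG x).continuousAt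
  set F : ℝ → ℝ := fun x => ∫ t in (0 : ℝ)..x, G t with hF
  have dF : ∀ x, HasDerivAt F (G x) x := fun x => (cG.integral_hasStrictDerivAt 0 x).hasDerivAt
  have G0 : G 0 = 0 := intervalIntegral.integral_same
  have F0 : F 0 = 0 := intervalIntegral.integral_same
  choose p hp using fun k : ℕ => exists_polynomial_near_of_continuousOn (-1) 1 h hc.continuousOn
    (1 / ((k : ℝ) + 1) / 4) (by positivity)
  choose P hP P0 using fun k => Rough_anti (p k)
  choose Q hQ Q0 using fun k => Rough_anti (P k)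
  have dP : ∀ k x, HasDerivAt (fun x => (P k).eval x) ((p k).eval x) x := fun k x => by
    rw [← hP]; exact (P k).hasDerivAt x
  have dQ : ∀ k x, HasDerivAt (fun x => (Q k).eval x) ((P k).eval x) x := fun k x => by
    rw [← hQ]; exact (Q k).hasDerivAt x
  refine ⟨fun k => 1 + Q k, fun x => 1 + F x, fun k => ?_, ?_, fun a b ha hab hb' hs => ?_⟩
  · have b1 : ∀ x ∈ Icc (-1 : ℝ) 1, |(p k).eval x| ≤ 1 / 2 := fun x hx => by
      have h1 := abs_lt.1 (hp k x hx)
      have h2 := abs_le.1 (hb x)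
      have h3 : 1 / ((k : ℝ) + 1) ≤ 1 := by
        rw [div_le_one (by positivity)]
        linarith [Nat.cast_nonneg (α := ℝ) k]
      exact abs_le.2 ⟨by linarith, by linarith⟩
    have b2 := Rough_mvt (dP k) (P0 k) b1
    have b3 := Rough_mvt (dQ k) (Q0 k) b2
    intro x hx
    have h3 := abs_le.1 (b3 x hx)
    simp only [map_add, Polynomial.derivative_one, zero_add, hQ, hP, Polynomial.eval_add,
      Polynomial.eval_one]
    exact ⟨by linarith, by linarith, by linarith [b2 x hx], by linarith [b1 x hx]⟩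
  · refine Metric.tendstoUniformlyOn_iff.2 fun ε hε => ?_
    obtain ⟨N, hN⟩ := exists_nat_one_div_lt hε
    filter_upwards [eventually_ge_atTop N] with k hk x hx
    have b2 := Rough_mvt (fun x => (dP k x).fun_sub (dG x)) (by rw [P0, G0, sub_zero])
      fun x hx => (hp k x hx).le
    have b3 := Rough_mvt (fun x => (dQ k x).fun_sub (dF x)) (by rw [Q0, F0, sub_zero]) b2 x hx
    have h1 : 1 / ((k : ℝ) + 1) ≤ 1 / ((N : ℝ) + 1) := Nat.one_div_le_one_div hk
    have h2 : 0 < 1 / ((k : ℝ) + 1) := by positivity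
    rw [Real.dist_eq, Polynomial.eval_add, Polynomial.eval_one, add_sub_add_left_eq_sub,
      abs_sub_comm]
    linarith
  · obtain ⟨x, hx, hx'⟩ := hn a b ha hab hb'
    have e1 : deriv (fun x => 1 + F x) = G := funext fun x => ((dF x).const_add 1).deriv
    have e2 : deriv G = h := funext fun x => (dG x).deriv
    have h1 := hs.deriv_of_isOpen (m := ∞) isOpen_Ioo le_rfl
    rw [e1] at h1
    have h2 := h1.deriv_of_isOpen (m := ∞) isOpen_Ioo le_rfl
    rw [e2] at h2
    exact hx' ((h2.contDiffAt (isOpen_Ioo.mem_nhds hx)).differentiableAt (by simp))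

theorem rough_rr {r : ℕ} (hr : r = 1 ∨ r = 2) {ω₀ : ℝ → ℝ} (hpos : ∀ x ∈ Icc (-1 : ℝ) 1, 0 < ω₀ x)
    (h : ∀ a b, -1 ≤ a → a < b → b ≤ 1 → ¬ContDiffOn ℝ ∞ ω₀ (Ioo a b)) {θ₀ s : ℝ} (hθ : 0 < θ₀)
    (hs : 0 ≤ s) {a b : ℝ} (ha : 0 < a) (hab : a < b) (hb : b < π / 2) :
    ¬ContDiffOn ℝ ∞ (fun θ => rr (sgm r θ * (θ₀ * ω₀ (cos θ ^ r) + s))) (Ioo a b) := by
  intro hf
  have hπ := Real.pi_pos
  have hcos : ∀ θ, 0 < θ → θ < π / 2 → 0 < cos θ := fun θ h1 h2 =>
    Real.cos_pos_of_mem_Ioo ⟨by linarith, h2⟩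
  have hmem : ∀ θ, 0 < θ → θ < π / 2 → cos θ ^ r ∈ Icc (-1 : ℝ) 1 := fun θ h1 h2 =>
    ⟨by linarith [pow_pos (hcos θ h1 h2) r], pow_le_one₀ (hcos θ h1 h2).le (Real.cos_le_one θ)⟩
  have hsg : ∀ θ ∈ Ioo a b, 0 < sgm r θ := fun θ hθ => by
    have h1 : 0 < sin θ := Real.sin_pos_of_pos_of_lt_pi (by linarith [hθ.1]) (by linarith [hθ.2])
    have h2 := hcos θ (by linarith [hθ.1]) (by linarith [hθ.2])
    unfold sgm vp
    split_ifs <;> positivity
  have hsc : ContDiff ℝ ∞ (sgm r) := by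
    unfold sgm vp
    split_ifs
    · exact contDiff_const.mul (Real.contDiff_sin.pow 2)
    · exact Real.contDiff_cos.mul (Real.contDiff_sin.pow 2)
  have hx : ∀ θ ∈ Ioo a b, 0 < sgm r θ * (θ₀ * ω₀ (cos θ ^ r) + s) := fun θ hθ' => by
    have h1 := hsg θ hθ'
    have h2 := hpos _ (hmem θ (by linarith [hθ'.1]) (by linarith [hθ'.2]))
    positivity
  have h1 : ContDiffOn ℝ ∞ (fun θ => (sgm r θ * (θ₀ * ω₀ (cos θ ^ r) + s)) ^ 2) (Ioo a b) := by
    refine (((hf.inv fun θ _ => ?_).sub (contDiffOn_const (c := 1))).div_const 4).congr fun θ _ => ?_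
    · unfold rr; positivity
    · simp only [rr, Pi.inv_apply, inv_inv]; ring
  have h2 : ContDiffOn ℝ ∞ (fun θ => sgm r θ * (θ₀ * ω₀ (cos θ ^ r) + s)) (Ioo a b) :=
    (h1.sqrt fun θ hθ => (pow_pos (hx θ hθ) 2).ne').congr fun θ hθ =>
      (Real.sqrt_sq (hx θ hθ).le).symm
  have h3 : ContDiffOn ℝ ∞ (fun θ => ω₀ (cos θ ^ r)) (Ioo a b) := by
    refine (((h2.div hsc.contDiffOn fun θ hθ => (hsg θ hθ).ne').sub
      (contDiffOn_const (c := s))).div_const θ₀).congr fun θ hθ' => ?_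
    have := (hsg θ hθ').ne'
    simp only [Pi.div_apply]
    field_simp
    ring
  have ca := hcos a ha (by linarith)
  have cb := hcos b (by linarith) hb
  have hlt : cos b < cos a := Real.cos_lt_cos_of_nonneg_of_le_pi ha.le (by linarith) hab
  obtain ⟨ρ, hρ⟩ : ∃ ρ : ℝ → ℝ, ∀ τ ∈ Ioo (cos b ^ r) (cos a ^ r),
      ContDiffAt ℝ ∞ ρ τ ∧ ρ τ ∈ Ioo (cos b) (cos a) ∧ ρ τ ^ r = τ := by
    rcases hr with rfl | rfl
    · exact ⟨id, fun τ hτ => ⟨contDiffAt_id, by simpa using hτ, pow_one _⟩⟩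
    · refine ⟨fun τ => √τ, fun τ hτ => ?_⟩
      have h0 : 0 < τ := (pow_pos cb 2).trans hτ.1
      exact ⟨Real.contDiffAt_sqrt h0.ne', ⟨Real.lt_sqrt_of_sq_lt hτ.1, (Real.sqrt_lt' ca).2 hτ.2⟩,
        Real.sq_sqrt h0.le⟩
  have hr0 : r ≠ 0 := by rcases hr with rfl | rfl <;> norm_num
  refine h (cos b ^ r) (cos a ^ r) (hmem b (by linarith) hb).1 (pow_lt_pow_left₀ hlt cb.le hr0)
    (hmem a ha (by linarith)).2 ?_
  have c1 := Real.cos_le_one a
  refine (h3.comp (f := fun τ => arccos (ρ τ)) (fun τ hτ => ?_) fun τ hτ => ?_).congr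
    fun τ hτ => ?_
  · obtain ⟨k1, k2, -⟩ := hρ τ hτ
    exact ((Real.contDiffAt_arccos (by linarith [k2.1]) (by linarith [k2.2])).comp τ
      k1).contDiffWithinAt
  · obtain ⟨-, k2, -⟩ := hρ τ hτ
    constructor
    · have := Real.arccos_lt_arccos (by linarith [k2.1]) k2.2 c1
      rwa [Real.arccos_cos ha.le (by linarith)] at this
    · have := Real.arccos_lt_arccos (by linarith) k2.1 (by linarith [k2.2])
      rwa [Real.arccos_cos (by linarith) (by linarith)] at this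
  · obtain ⟨-, k2, k3⟩ := hρ τ hτ
    simp only [Function.comp_apply]
    rw [Real.cos_arccos (by linarith [k2.1]) (by linarith [k2.2]), k3]

end Crest.Agent.R202
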