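import Crest.Agent.R202.SecOde

/-!
# Assembling the sector data (task F5c)

`wronskian_le`: with `μ₁ = ±μ`, `W = cos^{n-3} (Y P₁ - P Y₁)` satisfies `W' = i(μ+μ₁) g W + (l - l₁) w0 Y Y₁`; multiply by the unimodular factor
`exp(-i(μ+μ₁)∫g)` (or differentiate `‖W‖²+ε`), and `W → 0` at `0⁺`.  Decay: `eig_decay`, `banded_Aop`, `exists_fil`.  Vanishing for `|μ| > m₀`: the part of `V` in `sec m` is an
eigenvector (`inv_sec` + symmetry) and `l mass = ⟪B y,y⟫ ≥ ‖y‖²/2 ≥ m² mass / 2`.  `‖V‖² ≤ 2 l`.  `‖Ucx x a b‖² ≤ 2(a²+b²)` for `|x| ≤ 1/4`.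
-/

set_option autoImplicit false

noncomputable section

open scoped InnerProductSpace ContDiff
open Set Filter Topology
open MvPolynomial Real

namespace Crest.Agent.R202

variable {r n : ℕ}

/-- `W' = i a g W + f` does not let `‖W‖` grow faster than `‖f‖` -/
theorem secex_rot {L a : ℝ} {g F : ℝ → ℝ} (hg : ContinuousOn g (Ioo 0 L)) {W f : ℝ → ℂ}
    (hW : Continuous W) (h0 : W 0 = 0) (hF : Continuous F) (hF0 : ∀ s ∈ Icc 0 L, 0 ≤ F s)
    (hf : ∀ s ∈ Ioo 0 L, ‖f s‖ ≤ F s)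
    (hd : ∀ s ∈ Ioo 0 L, HasDerivAt W (Complex.I * a * g s * W s + f s) s) {θ : ℝ}
    (hθ : θ ∈ Ioo 0 L) : ‖W θ‖ ≤ ∫ s in (0 : ℝ)..L, F s := by
  set G : ℝ → ℝ := fun u => ∫ s in θ..u, g s with hG
  have hGd : ∀ s ∈ Ioo 0 L, HasDerivAt G (g s) s := fun s hs =>
    intervalIntegral.integral_hasDerivAt_right
      ((hg.mono (ordConnected_Ioo.uIcc_subset hθ hs)).intervalIntegrable)
      (hg.stronglyMeasurableAtFilter isOpen_Ioo s hs) (hg.continuousAt (isOpen_Ioo.mem_nhds hs))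
  set Ee : ℝ → ℂ := fun u => Complex.exp ((-(a * G u) : ℝ) * Complex.I) with hE
  have hEn : ∀ u, ‖Ee u‖ = 1 := fun u => Complex.norm_exp_ofReal_mul_I _
  have hEd : ∀ s ∈ Ioo 0 L, HasDerivAt (fun u => Ee u * W u) (Ee s * f s) s := fun s hs => by
    have h1 := ((((hGd s hs).const_mul a).neg.ofReal_comp).mul_const Complex.I).cexp
    refine (h1.mul (hd s hs)).congr_deriv ?_
    simp only [hE, Pi.neg_apply]
    push_cast
    ring
  have hB : ∀ x, HasDerivAt (fun u => ∫ s in (0 : ℝ)..u, F s) (F x) x := fun x =>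
    (hF.integral_hasStrictDerivAt 0 x).hasDerivAt
  have hmono : ∫ s in (0 : ℝ)..θ, F s ≤ ∫ s in (0 : ℝ)..L, F s :=
    intervalIntegral.integral_mono_interval le_rfl hθ.1.le hθ.2.le
      ((MeasureTheory.ae_restrict_iff' measurableSet_Ioc).2 (Eventually.of_forall fun s hs =>
        hF0 s ⟨hs.1.le, hs.2⟩)) (hF.intervalIntegrable _ _)
  have key : ∀ b ∈ Ioo 0 θ, ‖W θ‖ ≤ ‖W b‖ + ∫ s in (0 : ℝ)..L, F s := fun b hb => by
    have hsub : Icc b θ ⊆ Ioo 0 L := fun s hs => ⟨hb.1.trans_le hs.1, hs.2.trans_lt hθ.2⟩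
    have h1 := image_norm_le_of_norm_deriv_right_le_deriv_boundary (a := b) (b := θ)
      (f := fun u => Ee u * W u) (f' := fun s => Ee s * f s)
      (fun s hs => (hEd s (hsub hs)).continuousAt.continuousWithinAt)
      (fun s hs => (hEd s (hsub (Ico_subset_Icc_self hs))).hasDerivWithinAt)
      (B := fun u => ‖W b‖ + ∫ s in (0 : ℝ)..u, F s) (B' := F) (by
        rw [norm_mul, hEn, one_mul]
        exact le_add_of_nonneg_right (intervalIntegral.integral_nonneg hb.1.le fun s hs =>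
          hF0 s ⟨hs.1, hs.2.trans (hb.2.trans hθ.2).le⟩))
      (fun x => (hB x).const_add _) (fun s hs => by
        rw [norm_mul, hEn, one_mul]
        exact hf s (hsub (Ico_subset_Icc_self hs))) (x := θ) ⟨hb.2.le, le_rfl⟩
    rw [norm_mul, hEn, one_mul] at h1
    linarith
  have hlim : Tendsto (fun b => ‖W b‖ + ∫ s in (0 : ℝ)..L, F s) (𝓝[>] 0)
      (𝓝 (‖W 0‖ + ∫ s in (0 : ℝ)..L, F s)) :=
    ((hW.norm.add continuous_const).tendsto 0).mono_left nhdsWithin_le_nhds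
  rw [h0, norm_zero, zero_add] at hlim
  exact ge_of_tendsto hlim (mem_of_superset (Ioo_mem_nhdsGT hθ.1) key)

theorem wronskian_le {L : ℝ} (n : ℕ) (hn : 3 ≤ n) (hL : n ≠ 3 → L ≤ π / 2) (hL' : L ≤ π) {κ l l₁ : ℝ}
    {μ μ₁ : ℤ} (hμ : μ ^ 2 = μ₁ ^ 2) {ϱ g : ℝ → ℝ} (hg : ContinuousOn g (Ioo 0 L)) {Y P Y₁ P₁ : ℝ → ℂ}
    (hY : Continuous Y) (hY₁ : Continuous Y₁) (hP : Continuous P) (hP₁ : Continuous P₁)
    (h0 : P 0 = 0) (h0₁ : P₁ 0 = 0) (h : ∀ θ ∈ Ioo 0 L, SecODE n κ l μ ϱ g Y P θ)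
    (h₁ : ∀ θ ∈ Ioo 0 L, SecODE n κ l₁ μ₁ ϱ g Y₁ P₁ θ) {θ : ℝ} (hθ : θ ∈ Ioo 0 L) :
    cos θ ^ (n - 3) * ‖Y θ * P₁ θ - P θ * Y₁ θ‖ ≤
      |l - l₁| * ∫ s in (0 : ℝ)..L, ‖Y s‖ * ‖Y₁ s‖ * w0 n s := by
  have hcos : ∀ s ∈ Icc 0 L, 0 ≤ cos s ^ (n - 3) := fun s hs => by
    by_cases h3 : n = 3
    · simp [h3]
    · exact pow_nonneg (cos_nonneg_of_mem_Icc ⟨by linarith [hs.1, pi_pos], hs.2.trans (hL h3)⟩) _
  have hw : ∀ s ∈ Icc 0 L, 0 ≤ w0 n s := fun s hs =>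
    mul_nonneg (sin_nonneg_of_nonneg_of_le_pi hs.1 (hs.2.trans hL')) (hcos s hs)
  have hcd : ∀ s ∈ Ioo 0 L, HasDerivAt (fun u => cos u ^ (n - 3))
      (-(((n : ℝ) - 3) * tan s) * cos s ^ (n - 3)) s := fun s hs => by
    refine ((hasDerivAt_cos s).pow (n - 3)).congr_deriv ?_
    by_cases h3 : n = 3
    · simp [h3]
    · have hc : 0 < cos s := cos_pos_of_mem_Ioo ⟨by linarith [hs.1, pi_pos], hs.2.trans_le (hL h3)⟩
      obtain ⟨q, rfl⟩ : ∃ q, n = q + 4 := ⟨n - 4, by omega⟩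
      rw [show q + 4 - 3 = q + 1 by omega, tan_eq_sin_div_cos, Nat.add_sub_cancel]
      push_cast
      field_simp
      ring
  have hμ' : (μ : ℝ) ^ 2 = (μ₁ : ℝ) ^ 2 := by exact_mod_cast hμ
  have key := secex_rot (L := L) (a := (μ : ℝ) + μ₁) (g := g)
    (F := fun s => |l - l₁| * (‖Y s‖ * ‖Y₁ s‖ * w0 n s)) hg
    (W := fun s => ((cos s ^ (n - 3) : ℝ) : ℂ) * (Y s * P₁ s - P s * Y₁ s))
    (f := fun s => ((l - l₁ : ℝ) : ℂ) * (Y s * Y₁ s * (w0 n s : ℝ))) (by fun_prop) (by simp [h0, h0₁])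
    (continuous_const.mul ((hY.norm.mul hY₁.norm).mul surf_cont_w0))
    (fun s hs => mul_nonneg (abs_nonneg _) (mul_nonneg (by positivity) (hw s hs)))
    (fun s hs => by
      rw [norm_mul, norm_mul, norm_mul, Complex.norm_real, Complex.norm_real, Real.norm_eq_abs,
        Real.norm_eq_abs, abs_of_nonneg (hw s (Ioo_subset_Icc_self hs))])
    (fun s hs => by
      obtain ⟨a1, a2⟩ := h s hs
      obtain ⟨b1, b2⟩ := h₁ s hs
      rw [hμ'] at a2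
      refine ((hcd s hs).ofReal_comp.mul ((a1.mul b2).sub (a2.mul b1))).congr_deriv ?_
      simp only [w0, Pi.mul_apply, Pi.sub_apply]
      push_cast
      ring) hθ
  rw [norm_mul, Complex.norm_real, Real.norm_eq_abs,
    abs_of_nonneg (hcos θ (Ioo_subset_Icc_self hθ)), intervalIntegral.integral_const_mul] at key
  exact key

theorem Cl.eig_decay' (c : Cl r n) {t : T3} (hA : Adm (1 + c.Aop t)) {V : H c.J} {l : ℝ}
    (he : (1 + c.Aop t) V = l • c.base.K V) (hm : c.base.mass V V = 1) : c.Decay V := by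
  obtain ⟨a₁, h₁⟩ := exists_fil (r := r) t.1
  obtain ⟨a₂, h₂⟩ := exists_fil (r := r) t.2.1
  obtain ⟨a₃, h₃⟩ := exists_fil (r := r) t.2.2
  have hb := c.banded_Aop (a := a₁ + a₂ + a₃) (h₁.mono (by omega)) (h₂.mono (by omega))
    (h₃.mono (by omega))
  obtain ⟨ε, hε, h⟩ := c.base.eig_decay (a₁ + a₂ + a₃ + 4)
  obtain ⟨C, hC⟩ := h l
  exact ⟨C, ε, hε, hC _ hA hb V l he le_rfl hm⟩

/-- an eigenvector has no component in an invariant set of large round eigenvalues -/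
theorem secex_vanish {J : Type} (b : Base n J) {B : H J →L[ℝ] H J} (hA : Adm B) {S : Set J}
    (hS : Inv S B) {V : H J} {l t : ℝ} (he : B V = l • b.K V) (ht : ∀ k ∈ S, t ≤ b.lam k)
    (hl : 2 * l < t) {k : J} (hk : k ∈ S) : V k = 0 := by
  classical
  set y : H J := diagOp (fun k => if k ∈ S then 1 else 0) 1
    (fun k => by split_ifs <;> simp) V with hy
  have hyk : ∀ k, y k = if k ∈ S then V k else 0 := fun k => by
    rw [hy, diagOp_apply]; split_ifs <;> simp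
  have hyS : Supp S y := fun k hk => by rw [hyk, if_neg hk]
  have h1 : ⟪B y, y⟫_ℝ = ⟪B y, V⟫_ℝ := by
    refine (evb_hasSum_inner _ _).unique ?_
    convert evb_hasSum_inner (B y) V using 2 with k
    by_cases hk : k ∈ S
    · rw [hyk, if_pos hk]
    · rw [hS y hyS k hk, zero_mul, zero_mul]
  have h2 : ⟪y, b.K V⟫_ℝ = b.mass y y := by
    refine (evb_hasSum_inner _ _).unique ?_
    convert b.mass_hasSum y y using 2 with k
    rw [Base.K_apply, hyk]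
    split_ifs <;> ring
  have h3 : ⟪B y, y⟫_ℝ = l * b.mass y y := by
    rw [h1, hA.1, he, inner_smul_right, h2]
  have h4 : t * b.mass y y ≤ ‖y‖ ^ 2 := by
    refine hasSum_le (fun k => ?_) ((b.mass_hasSum y y).mul_left t) (evb_hasSum_sq y)
    by_cases hk : k ∈ S
    · have h1 := b.evb_lam_pos k
      have h2 : t * (b.lam k)⁻¹ ≤ 1 := by rw [← div_eq_mul_inv, div_le_one h1]; exact ht k hk
      nlinarith [mul_self_nonneg (y k)]
    · simp [hyS k hk]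
  have h5 := (hA.2 y).1
  have h6 : y = 0 := by
    by_contra h
    have := b.mass_pos h
    nlinarith
  have h7 := hyk k
  rw [if_pos hk, h6] at h7
  exact h7.symm

theorem secex_mass_sum {J : Type} (b : Base n J) {M : ℕ} {V : Fin M → H J}
    (h : ∀ i k, b.mass (V i) (V k) = if i = k then 1 else 0) (v : Fin M → ℝ) :
    b.mass (∑ a, v a • V a) (∑ a, v a • V a) = ∑ a, v a ^ 2 := by
  unfold Base.mass at *
  simp only [map_sum, map_smul, sum_inner, inner_sum, inner_smul_left, inner_smul_right, h,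
    conj_trivial, mul_ite, mul_one, mul_zero, Finset.sum_ite_eq',
    Finset.mem_univ, if_true]
  exact Finset.sum_congr rfl fun a _ => by ring

theorem secex_sum_apply {J : Type} {M : ℕ} (V : Fin M → H J) (v : Fin M → ℝ) (k : J) :
    (∑ a, v a • V a : H J) k = ∑ a, v a * V a k := by
  rw [lp.coeFn_sum, Finset.sum_apply]
  rfl

theorem Cl.secex_decay_sum (c : Cl r n) {M : ℕ} {V : Fin M → H c.J} (h : ∀ a, c.Decay (V a))
    (v : Fin M → ℝ) : c.Decay (∑ a, v a • V a : H c.J) := by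
  choose C ε hε hC using h
  obtain ⟨δ, hδ, hδε⟩ : ∃ δ : ℝ, 0 < δ ∧ ∀ a, δ ≤ ε a := by
    rcases isEmpty_or_nonempty (Fin M) with hM | hM
    · exact ⟨1, one_pos, fun a => hM.elim a⟩
    · obtain ⟨a, ha⟩ := Finite.exists_min ε
      exact ⟨ε a, hε a, ha⟩
  refine ⟨∑ a, |v a| * |C a|, δ, hδ, fun k => ?_⟩
  rw [secex_sum_apply, Finset.sum_mul]
  refine (Finset.abs_sum_le_sum_abs _ _).trans (Finset.sum_le_sum fun a _ => ?_)
  rw [abs_mul, mul_assoc]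
  refine mul_le_mul_of_nonneg_left ((hC a k).trans ?_) (abs_nonneg _)
  refine mul_le_mul (le_abs_self _) (Real.exp_le_exp.2 ?_) (Real.exp_pos _).le (abs_nonneg _)
  exact neg_le_neg (mul_le_mul_of_nonneg_right (hδε a) (Nat.cast_nonneg _))

theorem Cl.secex_comp_sum (c : Cl r n) {M : ℕ} {V : Fin M → H c.J} (h : ∀ a, c.Decay (V a))
    (v : Fin M → ℝ) (μ : ℤ) (θ : ℝ) :
    c.comp (∑ a, v a • V a : H c.J) μ θ = ∑ a, v a * c.comp (V a) μ θ := by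
  refine HasSum.tsum_eq ?_
  have h1 := hasSum_sum (s := Finset.univ) fun a _ =>
    (c.hasSum_deriv_comp (h a) μ θ).1.mul_left (v a)
  refine (HasSum.congr_fun h1 fun k => ?_ :)
  split_ifs
  · rw [secex_sum_apply, Finset.sum_div, Finset.sum_mul]
    exact Finset.sum_congr rfl fun a _ => by ring
  · simp

theorem Cl.secex_Ys_sum (c : Cl r n) {M : ℕ} {V : Fin M → H c.J} (h : ∀ a, c.Decay (V a))
    (v : Fin M → ℝ) (μ : ℤ) (θ : ℝ) :
    c.Ys (∑ a, v a • V a : H c.J) μ θ = ∑ a, (v a : ℂ) * c.Ys (V a) μ θ := by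
  unfold Cl.Ys
  simp only [c.secex_comp_sum h]
  push_cast
  split_ifs
  · rfl
  · rw [Finset.mul_sum, ← Finset.sum_sub_distrib, Finset.sum_div]
    exact Finset.sum_congr rfl fun a _ => by ring

theorem Cl.secex_Ys_zero (c : Cl r n) {V : c.J → ℝ} {m₀ : ℕ}
    (h0 : ∀ k : c.J, m₀ < k.1.1.natAbs → V k = 0) {μ : ℤ} (hμ : m₀ < μ.natAbs) (θ : ℝ) :
    c.Ys V μ θ = 0 := by
  have h1 : ∀ ν : ℤ, ν.natAbs = μ.natAbs → c.comp V ν θ = 0 := fun ν hν => by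
    unfold Cl.comp
    refine (tsum_congr fun k => ?_).trans tsum_zero
    split_ifs with hk
    · rw [h0 k (by rw [hk, hν]; exact hμ)]; simp
    · rfl
  unfold Cl.Ys
  rw [if_neg (by rintro rfl; simp at hμ), h1 _ (Int.natAbs_abs μ),
    h1 _ (by rw [Int.natAbs_neg, Int.natAbs_abs])]
  simp

theorem Cl.secex_Ys_neg (c : Cl r n) (V : c.J → ℝ) (μ : ℤ) (θ : ℝ) :
    c.Ys V (-μ) θ = starRingEnd ℂ (c.Ys V μ θ) := by
  unfold Cl.Ys
  by_cases h : μ = 0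
  · simp [h]
  · rw [if_neg (neg_ne_zero.2 h), if_neg h, abs_neg, Int.sign_neg]
    simp only [map_div₀, map_sub, map_mul, Complex.conj_ofReal, Complex.conj_I, map_intCast,
      map_ofNat, Int.cast_neg]
    ring

theorem Cl.secex_Ps_neg (c : Cl r n) (cp : Polynomial ℝ) (V : c.J → ℝ) (μ : ℤ) (θ : ℝ) :
    c.Ps cp V (-μ) θ = starRingEnd ℂ (c.Ps cp V μ θ) := by
  have h1 : c.Ys V (-μ) = fun s => star (c.Ys V μ s) := funext fun s => c.secex_Ys_neg V μ s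
  have h2 : deriv (c.Ys V (-μ)) θ = starRingEnd ℂ (deriv (c.Ys V μ) θ) := by
    rw [h1, deriv.star]; rfl
  unfold Cl.Ps
  rw [h2, c.secex_Ys_neg]
  simp only [map_add, map_mul, Complex.conj_ofReal, Complex.conj_I, map_intCast, Int.cast_neg]
  ring

theorem secex_cont_xx (cp : Polynomial ℝ) : Continuous (xx r cp) :=
  surf_cont_sgm.mul (cp.continuous.comp (continuous_cos.pow r))

theorem secex_xx_le {cp : Polynomial ℝ} (hcp : ∀ x ∈ Icc (-1 : ℝ) 1, |cp.eval x| ≤ 1 / 4) (θ : ℝ) :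
    |xx r cp θ| ≤ 1 / 4 := by
  have h1 : |sgm r θ| ≤ 1 := by
    unfold sgm vp
    rw [abs_mul, abs_pow]
    refine mul_le_one₀ ?_ (by positivity) (pow_le_one₀ (abs_nonneg _) (abs_sin_le_one θ))
    split_ifs
    · simp
    · exact abs_cos_le_one θ
  have h2 : |cos θ ^ r| ≤ 1 := by
    rw [abs_pow]; exact pow_le_one₀ (abs_nonneg _) (abs_cos_le_one θ)
  unfold xx
  rw [abs_mul]
  calc _ ≤ 1 * (1 / 4) := mul_le_mul h1 (hcp _ (abs_le.1 h2)) (abs_nonneg _) zero_le_one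
    _ = 1 / 4 := one_mul _

theorem secex_Ucx_le {x : ℝ} (hx : |x| ≤ 1 / 4) (a b : ℝ) :
    ‖Ucx x a b‖ ^ 2 ≤ 2 * (a ^ 2 + b ^ 2) := by
  have h1 : Ucx x a b = ((a - x * b : ℝ) : ℂ) + ((2 * x * a + (1 - 2 * x ^ 2) * b : ℝ) : ℂ) *
      Complex.I := by
    unfold Ucx; push_cast; ring
  rw [h1, Complex.sq_norm, Complex.normSq_add_mul_I]
  obtain ⟨x1, x2⟩ := abs_le.1 hx
  have hx2 : x ^ 2 ≤ 1 / 16 := by nlinarith
  have hx0 := sq_nonneg x
  have e1 : x - 4 * x ^ 3 ≤ 1 / 2 := by nlinarith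
  have e2 : -(1 / 2) ≤ x - 4 * x ^ 3 := by nlinarith
  have e3 : 2 * (a * b) * (x - 4 * x ^ 3) ≤ (a ^ 2 + b ^ 2) / 2 := by
    nlinarith [mul_nonneg (sub_nonneg.2 e1) (sq_nonneg (a + b)),
      mul_nonneg (sub_nonneg.2 e2) (sq_nonneg (a - b))]
  have e4 : (a - x * b) ^ 2 + (2 * x * a + (1 - 2 * x ^ 2) * b) ^ 2 =
      a ^ 2 * (1 + 4 * x ^ 2) + 2 * (a * b) * (x - 4 * x ^ 3) +
        b ^ 2 * (1 - x ^ 2 * (3 - 4 * x ^ 2)) := by ring
  have e5 : a ^ 2 * (1 + 4 * x ^ 2) ≤ a ^ 2 * (3 / 2) :=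
    mul_le_mul_of_nonneg_left (by linarith) (sq_nonneg a)
  have e6 : b ^ 2 * (1 - x ^ 2 * (3 - 4 * x ^ 2)) ≤ b ^ 2 * (3 / 2) :=
    mul_le_mul_of_nonneg_left (by nlinarith) (sq_nonneg b)
  linarith

theorem Cl.secData (c : Cl r n) (cp : Polynomial ℝ) (hcp : ∀ x ∈ Icc (-1 : ℝ) 1, |cp.eval x| ≤ 1 / 4)
    {lp : ℝ} {m₀ : ℕ} (hm₀ : 2 * lp < ((m₀ : ℝ) + 1) ^ 2) {M : ℕ} {V : Fin M → H c.J} {l : Fin M → ℝ}
    (hV : c.base.EigFam (1 + c.Aop (trip₀ r cp)) V l) (hl : ∀ a, l a ≤ lp) :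
    SecData r n c.kap (xx r cp) m₀ lp l (fun a => c.Ys (V a)) (fun a => c.Ps cp (V a))
      (fun a => c.Uf cp (V a)) ∧
    ∀ (P₁ P₂ : P3) a a₁, ⟪c.Aop (dtrip r cp P₁ P₂) (V a), V a₁⟫_ℝ = sint r n fun θ φ =>
      dens (sgm r θ) (eval (pt r θ φ) P₁) (eval (pt r θ φ) P₂)
        (c.Uf cp (V a) θ φ * c.Uf cp (V a₁) θ φ) := by
  have hr : r = 1 ∨ r = 2 := by rcases c.ok with h | h <;> omega
  have hA : Adm (1 + c.Aop (trip₀ r cp)) := c.adm_Aop (mqLe_trip₀ r hr le_rfl hcp) (by norm_num)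
  have hmass : ∀ a, c.base.mass (V a) (V a) = 1 := fun a => by rw [hV.orth, if_pos rfl]
  have hD : ∀ a, c.Decay (V a) := fun a => c.eig_decay' hA (hV.eig a) (hmass a)
  have hn2 : ∀ a, ‖V a‖ ^ 2 ≤ 2 * l a := fun a => by
    have h1 := (hA.2 (V a)).1
    rw [hV.eig a, inner_smul_left] at h1
    have h2 : ⟪c.base.K (V a), V a⟫_ℝ = 1 := hmass a
    rw [h2] at h1
    simp only [conj_trivial, mul_one] at h1
    linarith
  have hl1 : ∀ a, 1 ≤ l a := fun a => by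
    have := c.base.mass_le (V a)
    rw [hmass] at this
    linarith [hn2 a]
  have hz : ∀ a, ∀ k : c.J, m₀ < k.1.1.natAbs → V a k = 0 := fun a k hk => by
    refine secex_vanish c.base hA (c.inv_sec cp k.1.1.natAbs) (hV.eig a)
      (t := ((m₀ : ℝ) + 1) ^ 2) (fun k₁ hk₁ => ?_) (by linarith [hl a]) rfl
    have h1 : k₁.1.1.natAbs = k.1.1.natAbs := hk₁
    have h2 : m₀ + 1 ≤ c.base.deg k₁ := by
      show m₀ + 1 ≤ c.j + k₁.1.1.natAbs + r * k₁.1.2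
      omega
    have h3 : (m₀ : ℝ) + 1 ≤ c.base.deg k₁ := by exact_mod_cast h2
    have h4 : (3 : ℝ) ≤ n := by exact_mod_cast c.base.hn
    have h5 : (0 : ℝ) ≤ m₀ := Nat.cast_nonneg _
    unfold Base.lam
    nlinarith
  have hL0 : (0 : ℝ) ≤ π / r := by positivity
  have hYc : ∀ a μ, Continuous (c.Ys (V a) μ) := fun a μ => (c.contDiff_Ys (hD a) μ).continuous
  have hYd : ∀ a μ, Continuous (deriv (c.Ys (V a) μ)) := fun a μ =>
    (c.contDiff_Ys (hD a) μ).continuous_deriv (by norm_num)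
  have hx := secex_cont_xx (r := r) cp
  have hPc : ∀ a μ, Continuous (c.Ps cp (V a) μ) := fun a μ => by
    have h1 := hYc a μ
    have h2 := hYd a μ
    unfold Cl.Ps
    fun_prop
  have hP0 : ∀ a μ, c.Ps cp (V a) μ 0 = 0 := fun a μ => by simp [Cl.Ps, xx, sgm]
  have hint : ∀ a μ, ∫ θ in (0 : ℝ)..π / r, ‖c.Ys (V a) μ θ‖ ^ 2 * w0 n θ ≤ 1 := fun a μ => by
    by_cases hμ : m₀ < μ.natAbs
    · simp [c.secex_Ys_zero (hz a) hμ]
    · have h1 := c.mass_eq (hD a) (hz a)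
      rw [hmass] at h1
      have h0 : ∀ ν ∈ Finset.Icc (-(m₀ : ℤ)) m₀,
          0 ≤ ∫ θ in (0 : ℝ)..π / r, ‖c.Ys (V a) ν θ‖ ^ 2 * w0 n θ := fun ν _ =>
        intervalIntegral.integral_nonneg hL0 fun θ hθ => mul_nonneg (sq_nonneg _) (c.w0_nonneg hθ)
      have h2 := Finset.single_le_sum h0 (show μ ∈ Finset.Icc (-(m₀ : ℤ)) m₀ from
        Finset.mem_Icc.2 (by omega))
      have h3 := Finset.sum_nonneg h0
      nlinarith [pi_gt_three]
  have hUc : ∀ a, Continuous fun p : ℝ × ℝ => c.Uf cp (V a) p.1 p.2 := fun a => by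
    obtain ⟨h1, h2⟩ := c.continuous_DV (hD a)
    have h3 : Continuous fun p : ℝ × ℝ => xx r cp p.1 := hx.comp continuous_fst
    unfold Cl.Uf Ucx
    fun_prop
  refine ⟨⟨fun a => ⟨hl1 a, hl a⟩, fun a μ => (c.contDiff_Ys (hD a) μ).of_le (by norm_num),
    fun a μ θ hθ => c.sec_ode cp (hD a) (hV.eig a) μ hθ,
    fun a μ θ => ⟨c.secex_Ys_neg _ μ θ, c.secex_Ps_neg cp _ μ θ⟩, fun a a₁ μ μ₁ hμ θ hθ => ?_,
    fun v => ?_, fun a => ?_, hUc, fun a θ φ => ?_, fun a => ?_⟩, fun P₁ P₂ a a₁ => ?_⟩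
  · have hLπ : π / r ≤ π := div_le_self pi_pos.le (by exact_mod_cast c.r_pos)
    have hL2 : n ≠ 3 → π / r ≤ π / 2 := fun h3 => by
      rcases c.ok with h | h
      · exact absurd h.2.1 h3
      · rw [h.1]; norm_num
    have hg : ContinuousOn (fun s => gs (xx r cp s) / sin s) (Ioo 0 (π / r)) := by
      refine ContinuousOn.div (Continuous.continuousOn ?_) continuous_sin.continuousOn
        fun s hs => (sin_pos_of_pos_of_lt_pi hs.1 (hs.2.trans_le hLπ)).ne'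
      unfold gs rr
      exact (hx.sub (continuous_const.mul (hx.pow 3))).neg.mul
        ((continuous_const.add (continuous_const.mul (hx.pow 2))).inv₀ fun s =>
          (show (0 : ℝ) < 1 + 4 * xx r cp s ^ 2 by positivity).ne')
    refine (wronskian_le n c.base.hn hL2 hLπ hμ hg (hYc a μ) (hYc a₁ μ₁) (hPc a μ) (hPc a₁ μ₁)
      (hP0 a μ) (hP0 a₁ μ₁) (fun s hs => c.sec_ode cp (hD a) (hV.eig a) μ hs)
      (fun s hs => c.sec_ode cp (hD a₁) (hV.eig a₁) μ₁ hs) hθ).trans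
      (mul_le_of_le_one_right (abs_nonneg _) ?_)
    have i1 : Continuous fun s => ‖c.Ys (V a) μ s‖ ^ 2 * w0 n s :=
      ((hYc a μ).norm.pow 2).mul (surf_cont_w0 (n := n))
    have i2 : Continuous fun s => ‖c.Ys (V a₁) μ₁ s‖ ^ 2 * w0 n s :=
      ((hYc a₁ μ₁).norm.pow 2).mul (surf_cont_w0 (n := n))
    have h1 : ∫ s in (0 : ℝ)..π / r, ‖c.Ys (V a) μ s‖ * ‖c.Ys (V a₁) μ₁ s‖ * w0 n s ≤
        ∫ s in (0 : ℝ)..π / r, (‖c.Ys (V a) μ s‖ ^ 2 * w0 n s +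
          ‖c.Ys (V a₁) μ₁ s‖ ^ 2 * w0 n s) / 2 := by
      refine intervalIntegral.integral_mono_on hL0
        ((((hYc a μ).norm.mul (hYc a₁ μ₁).norm).mul surf_cont_w0).intervalIntegrable _ _)
        (((i1.add i2).div_const 2).intervalIntegrable _ _) fun s hs => ?_
      nlinarith [mul_nonneg (sq_nonneg (‖c.Ys (V a) μ s‖ - ‖c.Ys (V a₁) μ₁ s‖)) (c.w0_nonneg hs)]
    rw [intervalIntegral.integral_div, intervalIntegral.integral_add (i1.intervalIntegrable _ _)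
      (i2.intervalIntegrable _ _)] at h1
    linarith [hint a μ, hint a₁ μ₁]
  · have h1 := c.mass_eq (c.secex_decay_sum hD v) (m₀ := m₀) fun k hk => by
      rw [secex_sum_apply]
      exact Finset.sum_eq_zero fun a _ => by rw [hz a k hk, mul_zero]
    rw [secex_mass_sum c.base hV.orth] at h1
    simpa only [c.secex_Ys_sum hD] using h1
  · have h1 := c.energy_Ys (hD a) (hz a)
    have h0 : 0 ≤ ∑ μ ∈ Finset.Icc (-(m₀ : ℤ)) m₀,
        ∫ θ in (0 : ℝ)..π / r, ‖deriv (c.Ys (V a) μ) θ‖ ^ 2 * w0 n θ :=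
      Finset.sum_nonneg fun ν _ =>
        intervalIntegral.integral_nonneg hL0 fun θ hθ => mul_nonneg (sq_nonneg _) (c.w0_nonneg hθ)
    nlinarith [pi_gt_three, hn2 a, hl a]
  · obtain ⟨h1, h2⟩ := c.DV_eq (hD a) (hz a) θ φ
    have h3 : (1 - 2 * Complex.I * xx r cp θ) * sin θ * c.Uf cp (V a) θ φ =
        (sin θ * (1 + 4 * xx r cp θ ^ 2) : ℝ) * (c.DθV (V a) θ φ : ℂ) +
          ((xx r cp θ - 4 * xx r cp θ ^ 3 : ℝ) + Complex.I) *
            ((sin θ * c.DφV (V a) θ φ : ℝ) : ℂ) := by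
      unfold Cl.Uf Ucx
      push_cast
      linear_combination (-(4 * (xx r cp θ : ℂ) ^ 2 * Complex.sin θ * c.DθV (V a) θ φ) -
        2 * xx r cp θ * (1 - 2 * (xx r cp θ : ℂ) ^ 2) * Complex.sin θ * c.DφV (V a) θ φ) *
        Complex.I_sq
    show (1 - 2 * Complex.I * xx r cp θ) * sin θ * c.Uf cp (V a) θ φ = _
    rw [h3, h1, h2, Finset.mul_sum, Finset.mul_sum, ← Finset.sum_add_distrib]
    refine Finset.sum_congr rfl fun μ _ => ?_
    unfold Cl.Ps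
    linear_combination ((μ : ℂ) * c.Ys (V a) μ θ * Complex.exp (Complex.I * μ * φ)) * Complex.I_sq
  · obtain ⟨h1, h2⟩ := c.continuous_DV (hD a)
    have h3 := c.sint_mono (f := fun θ φ => ‖c.Uf cp (V a) θ φ‖ ^ 2)
      (g := fun θ φ => (c.DθV (V a) θ φ ^ 2 + c.DφV (V a) θ φ ^ 2) +
        (c.DθV (V a) θ φ ^ 2 + c.DφV (V a) θ φ ^ 2)) ((hUc a).norm.pow 2)
      (((h1.pow 2).add (h2.pow 2)).add ((h1.pow 2).add (h2.pow 2))) fun θ _ φ => by
        have := secex_Ucx_le (secex_xx_le (r := r) hcp θ) (c.DθV (V a) θ φ) (c.DφV (V a) θ φ)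
        unfold Cl.Uf
        linarith
    rw [surf_sint_add (f := fun θ φ => c.DθV (V a) θ φ ^ 2 + c.DφV (V a) θ φ ^ 2)
      (g := fun θ φ => c.DθV (V a) θ φ ^ 2 + c.DφV (V a) θ φ ^ 2) ((h1.pow 2).add (h2.pow 2))
      ((h1.pow 2).add (h2.pow 2))] at h3
    linarith [c.energy_DV (hD a), hn2 a, hl a]
  · rw [c.inner_Aop_eq (hD a) (hD a₁)]
    simp only [c.mq_dtrip, Cl.Uf]

end Crest.Agent.R202
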