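import Crest.Agent.R202.NoDeg
import Crest.Agent.R202.Rough
import Crest.Agent.R202.SecEx
import Crest.Agent.R202.EvSpec

/-!
# Controllability along the whole segment (task F7e)

By contradiction with `om p` from `exists_rough`, `N = p`, `pi` = the first `p` monomials of an enumeration of `Fin 3 →₀ ℕ`.  A failure at `s p` gives eigenfamilies and, by linear
algebra (a proper subspace of the symmetric families has a non-zero symmetric annihilator for the trace pairing), a normalised symmetric `S p` killing all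
`⟪dB e V, V⟫`; for `e` with `e (inl _) = 0` use `fderiv_Aop`, `tripζ_bpt`, `secData`; every pair of polynomials is eventually `(ppol₁ e, ppol₂ e)`.  The sizes are bounded
(`eigFam_card_le`, `ev_le_mul`, `ev_tendsto`), so constant along a subsequence on which also `s p` converges; `no_degenerate`, `rough_rr`.
-/

set_option autoImplicit false

noncomputable section

open scoped InnerProductSpace ContDiff
open Set Filter Topology
open MvPolynomial Real

namespace Crest.Agent.R202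

theorem ctrl_span {f : ℕ → Fin 3 →₀ ℕ} (hf : Function.Surjective f) (P : P3) :
    ∀ᶠ p in atTop, ∃ a : Fin p → ℝ, ∑ m : Fin p, C (a m) * monomial (f m) (1 : ℝ) = P := by
  induction P using MvPolynomial.induction_on' with
  | monomial u c =>
    obtain ⟨k, rfl⟩ := hf u
    filter_upwards [eventually_gt_atTop k] with p hp
    refine ⟨Pi.single ⟨k, hp⟩ c, ?_⟩
    rw [Finset.sum_eq_single ⟨k, hp⟩ (fun m _ hm => by simp [Pi.single_eq_of_ne hm]) (by simp),
      Pi.single_eq_same, C_mul_monomial, mul_one]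
  | add P Q hP hQ =>
    filter_upwards [hP, hQ] with p ⟨a, ha⟩ ⟨b, hb⟩
    exact ⟨a + b, by simp only [Pi.add_apply, C_add, add_mul, Finset.sum_add_distrib, ha, hb]⟩

theorem ctrl_orth {F : Type} [NormedAddCommGroup F] [InnerProductSpace ℝ F] [FiniteDimensional ℝ F]
    {W Sy : Submodule ℝ F} (h : W ≤ Sy) {x : F} (hx : x ∈ Sy) (hx' : x ∉ W) :
    ∃ y ∈ Sy, ‖y‖ = 1 ∧ ∀ w ∈ W, ⟪w, y⟫_ℝ = 0 := by
  obtain ⟨w, hw, z, hz, rfl⟩ := W.exists_add_mem_mem_orthogonal x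
  have hz0 : z ≠ 0 := fun e => hx' (by rwa [e, add_zero])
  exact ⟨‖z‖⁻¹ • z, Sy.smul_mem _ ((Sy.add_mem_iff_right (h hw)).1 hx),
    norm_smul_inv_norm (𝕜 := ℝ) hz0, fun v hv => by rw [inner_smul_right, hz v hv, mul_zero]⟩

/-- a symmetric annihilator -/
theorem ctrl_ann {ι E : Type} [Fintype ι] [AddCommGroup E] [Module ℝ E] {m : ι → ℕ}
    (T : ∀ i, Fin (m i) → Fin (m i) → E →ₗ[ℝ] ℝ) (hT : ∀ e i a c, T i a c e = T i c a e)
    {S₀ : ∀ i, Matrix (Fin (m i)) (Fin (m i)) ℝ} (hS : ∀ i, (S₀ i).IsSymm)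
    (h : ¬∃ e, ∀ i a c, T i a c e = S₀ i a c) :
    ∃ S : ∀ i, Matrix (Fin (m i)) (Fin (m i)) ℝ, (∀ i, (S i).IsSymm) ∧
      ∑ i, ∑ a, ∑ c, S i a c ^ 2 = 1 ∧ ∀ e, ∑ i, ∑ a, ∑ c, S i a c * T i a c e = 0 := by
  let K := Σ i, Fin (m i) × Fin (m i)
  let W : Submodule ℝ (EuclideanSpace ℝ K) :=
    { carrier := {X | ∃ e, ∀ i a c, T i a c e = X ⟨i, a, c⟩}
      add_mem' := fun ⟨e, he⟩ ⟨e', he'⟩ => ⟨e + e', fun i a c => by simp [he, he']⟩
      zero_mem' := ⟨0, fun i a c => by simp⟩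
      smul_mem' := fun t _ ⟨e, he⟩ => ⟨t • e, fun i a c => by simp [he]⟩ }
  let Sy : Submodule ℝ (EuclideanSpace ℝ K) :=
    { carrier := {X | ∀ i a c, X ⟨i, a, c⟩ = X ⟨i, c, a⟩}
      add_mem' := fun {X Y} hX hY i a c => by simp [hX i a c, hY i a c]
      zero_mem' := fun i a c => by simp
      smul_mem' := fun t X hX i a c => by simp [hX i a c] }
  obtain ⟨y, hy, h1, h2⟩ := ctrl_orth (W := W) (Sy := Sy)
    (fun X ⟨e, he⟩ i a c => by rw [← he, ← he, hT])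
    (x := WithLp.toLp 2 fun k : K => S₀ k.1 k.2.1 k.2.2) (fun i a c => (hS i).apply c a) h
  refine ⟨fun i => Matrix.of fun a c => y ⟨i, a, c⟩, fun i => Matrix.IsSymm.ext fun a c => hy i c a,
    ?_, fun e => ?_⟩
  · have := EuclideanSpace.real_norm_sq_eq y
    rw [h1, one_pow, Fintype.sum_sigma] at this
    simpa only [Fintype.sum_prod_type, Matrix.of_apply] using this.symm
  · have := h2 (WithLp.toLp 2 fun k : K => T k.1 k.2.1 k.2.2 e) ⟨e, fun _ _ _ => rfl⟩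
    rw [PiLp.inner_apply, Fintype.sum_sigma] at this
    simpa [Fintype.sum_prod_type] using this

/-- the degenerate situation -/
def CtrlBad {r n : ℕ} {ι : Type} [Fintype ι] (cl : ι → Cl r n) (lp : ι → ℝ) (cp : Polynomial ℝ)
    {N : ℕ} (pi : Fin N → P3) (m : ι → ℕ) : Prop :=
  ∃ (V : ∀ i, Fin (m i) → H (cl i).J) (l : ∀ i, Fin (m i) → ℝ)
    (S : ∀ i, Matrix (Fin (m i)) (Fin (m i)) ℝ),
    (∀ i, (cl i).base.EigFam (1 + (cl i).Aop (trip₀ r cp)) (V i) (l i)) ∧ (∀ i a, l i a ≤ lp i) ∧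
      (∀ i, (S i).IsSymm) ∧ ∑ i, ∑ a, ∑ c, S i a c ^ 2 = 1 ∧ ∀ a₁ a₂ : Fin N → ℝ,
        ∑ i, ∑ a, ∑ c, S i a c * ⟪(cl i).Aop (dtrip r cp (∑ k, C (a₁ k) * pi k)
          (∑ k, C (a₂ k) * pi k)) (V i a), V i c⟫_ℝ = 0

theorem ctrl_bad {r n : ℕ} {ι : Type} [Fintype ι] (cl : ι → Cl r n) (lp : ι → ℝ)
    (om : Polynomial ℝ) {N : ℕ} (pi : Fin N → P3) (θ₀ s : ℝ)
    (h : ¬(fam cl om pi).CtrlAt (bpt N θ₀ s) lp) :
    ∃ m, CtrlBad cl lp (Polynomial.C θ₀ * om + Polynomial.C s) pi m := by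
  simp only [Fam.CtrlAt, not_forall] at h
  obtain ⟨m, V, l, hV, hl, S₀, hS, h⟩ := h
  let j : (Fin N ⊕ Fin N → ℝ) →ₗ[ℝ] Par N :=
    { toFun := fun e => Sum.elim 0 e
      map_add' := fun e e' => funext fun k => by cases k <;> simp
      map_smul' := fun t e => funext fun k => by cases k <;> simp }
  let T : ∀ i, Fin (m i) → Fin (m i) → (Fin N ⊕ Fin N → ℝ) →ₗ[ℝ] ℝ := fun i a c =>
    { toFun := fun e => ⟪fderiv ℝ ((fam cl om pi).B i) (bpt N θ₀ s) (j e) (V i a), V i c⟫_ℝ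
      map_add' := fun e e' => by rw [map_add, map_add, add_apply, inner_add_left]
      map_smul' := fun t e => by
        rw [map_smul, map_smul, smul_apply, real_inner_smul_left]
        rfl }
  have hT : ∀ i a c e, T i a c e = ⟪(cl i).Aop (dtrip r (Polynomial.C θ₀ * om + Polynomial.C s)
      (ppol₁ pi (j e)) (ppol₂ pi (j e))) (V i a), V i c⟫_ℝ := fun i a c e => by
    rw [← (cl i).fderiv_Aop om pi θ₀ s (j e) fun _ => rfl]
    rfl
  obtain ⟨S, h1, h2, h3⟩ := ctrl_ann T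
    (fun e i a c => by rw [hT, hT, Cl.Aop_symm, real_inner_comm]) hS fun ⟨e, he⟩ => h ⟨j e, he⟩
  refine ⟨m, V, l, S, fun i => ?_, hl, h1, h2, fun a₁ a₂ => ?_⟩
  · rw [← tripζ_bpt om pi]
    exact hV i
  · have := h3 (Sum.elim a₁ a₂)
    simp only [hT] at this
    exact this

theorem ctrl_abs_sgm (r : ℕ) (θ : ℝ) : |sgm r θ| ≤ 1 := by
  rw [sgm, abs_mul, abs_pow]
  refine mul_le_one₀ ?_ (by positivity) (pow_le_one₀ (abs_nonneg _) (abs_sin_le_one θ))
  unfold vp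
  split_ifs
  · simp
  · exact abs_cos_le_one θ

theorem ctrl_cos_pow (r : ℕ) (θ : ℝ) : cos θ ^ r ∈ Icc (-1 : ℝ) 1 :=
  abs_le.1 ((abs_pow _ _).trans_le (pow_le_one₀ (abs_nonneg _) (abs_cos_le_one θ)))

theorem ctrl_continuous (r : ℕ) (cp : Polynomial ℝ) : Continuous (xx r cp) := by
  have h1 : Continuous (vp r) := by
    unfold vp
    split_ifs <;> fun_prop
  have h2 := cp.continuous
  unfold xx sgm
  fun_prop

theorem exists_ctrl {r n : ℕ} {ι : Type} [Fintype ι] [DecidableEq ι] (cl : ι → Cl r n)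
    (hinj : Function.Injective fun i => (cl i).j) {θ₀ c₁ : ℝ} (hθ : 0 < θ₀) (hc : 0 < c₁)
    (h : 2 * θ₀ + c₁ ≤ 1 / 4) (lp : ι → ℝ) : ∃ (om : Polynomial ℝ) (N : ℕ) (pi : Fin N → P3),
      OmOk om ∧ ∀ s ∈ Icc (0 : ℝ) 1, (fam cl om pi).CtrlAt (bpt N θ₀ (s * c₁)) lp := by
  obtain ⟨om, ω₀, hom, hlim, hrough⟩ := exists_rough
  rcases isEmpty_or_nonempty ι with hι | ⟨⟨i₀⟩⟩
  · exact ⟨om 0, 0, Fin.elim0, hom 0, fun s _ m V l _ _ S _ => ⟨0, fun i => hι.elim i⟩⟩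
  have hr : r = 1 ∨ r = 2 := (cl i₀).ok.imp And.left And.left
  obtain ⟨f, hf⟩ := exists_surjective_nat (Fin 3 →₀ ℕ)
  by_contra hcon
  have key : ∀ p : ℕ, ∃ s ∈ Icc (0 : ℝ) 1, ∃ m, CtrlBad cl lp
      (Polynomial.C θ₀ * om p + Polynomial.C (s * c₁))
      (fun k : Fin p => monomial (f k) (1 : ℝ)) m := fun p => by
    by_contra h1
    exact hcon ⟨om p, p, _, hom p, fun s hs => by_contra fun h2 =>
      h1 ⟨s, hs, ctrl_bad cl lp _ _ _ _ h2⟩⟩
  choose s hs m hm using key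
  have hcp : ∀ p, ∀ x ∈ Icc (-1 : ℝ) 1,
      |(Polynomial.C θ₀ * om p + Polynomial.C (s p * c₁)).eval x| ≤ 1 / 4 := fun p x hx => by
    obtain ⟨h1, h2, -⟩ := hom p x hx
    have h3 := mul_nonneg (hs p).1 hc.le
    have h4 := mul_le_of_le_one_left hc.le (hs p).2
    simp only [Polynomial.eval_add, Polynomial.eval_mul, Polynomial.eval_C]
    rw [abs_le]
    constructor <;> nlinarith
  have hj : ∀ i, ∃ j, 2 * lp i < (cl i).base.ev 1 univ j := fun i =>
    (((cl i).base.ev_tendsto adm_one (cl i).base.spec_inf).eventually_gt_atTop _).exists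
  choose j hj using hj
  have hmj : ∀ p, m p ∈ Icc 0 j := fun p => ⟨zero_le, fun i => by
    obtain ⟨V, l, S, h1, h2, -⟩ := hm p
    have hA := (cl i).adm_Aop (mqLe_trip₀ r hr le_rfl (hcp p)) (by norm_num)
    have h3 := (cl i).base.ev_le_mul hA adm_one (cl i).base.spec_inf two_pos (fun y _ => by
      rw [one_apply_eq_self, real_inner_self_eq_norm_sq]
      linarith [(hA.2 y).1]) (j i)
    simpa using (cl i).base.eigFam_card_le hA (h1 i) (j := j i) fun a => by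
      linarith [h2 i a, hj i]⟩
  obtain ⟨⟨s₀, M⟩, ⟨hs₀, -⟩, φ, hφ, ht⟩ :=
    (isCompact_Icc.prod (Set.finite_Icc 0 j).isCompact).tendsto_subseq
      (x := fun p => (s p, m p)) fun p => ⟨hs p, hmj p⟩
  obtain ⟨k, hk⟩ := eventually_atTop.1 (tendsto_pure.1
    (nhds_discrete (ι → ℕ) ▸ (continuous_snd.tendsto _).comp ht))
  have hψ : Tendsto (fun p => φ (p + k)) atTop atTop :=
    hφ.tendsto_atTop.comp (tendsto_add_atTop_nat k)
  have hsψ : Tendsto (fun p => s (φ (p + k))) atTop (𝓝 s₀) :=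
    ((continuous_fst.tendsto _).comp ht).comp (tendsto_add_atTop_nat k)
  have hM : ∀ p, m (φ (p + k)) = M := fun p => hk _ (Nat.le_add_left k p)
  choose V l S h1 h2 h3 h4 h5 using fun p => hM p ▸ hm (φ (p + k))
  obtain ⟨L, hL⟩ := Finite.exists_le lp
  have hm₀ : 2 * L < ((⌈2 * L⌉₊ : ℝ) + 1) ^ 2 := by
    nlinarith [Nat.le_ceil (2 * L), Nat.cast_nonneg (α := ℝ) ⌈2 * L⌉₊]
  have hD := fun p i => (cl i).secData _ (hcp (φ (p + k))) hm₀ (h1 p i)
    fun a => (h2 p i a).trans (hL i)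
  have hπ : (1 : ℝ) < π / 2 := by linarith [pi_gt_three]
  refine no_degenerate cl hinj _ L M _
    (fun θ => sgm r θ * (θ₀ * ω₀ (cos θ ^ r) + s₀ * c₁)) (fun p => ctrl_continuous r _) ?_
    one_half_pos one_half_lt_one hπ (fun a' b' ha' hab hb' => rough_rr hr (fun x hx => ?_) hrough hθ
      (mul_nonneg hs₀.1 hc.le) (one_half_pos.trans_le ha') hab (hb'.trans_lt hπ))
    l _ _ _ (fun p i => (hD p i).1) S h3 h4 fun P₁ P₂ => ?_
  · rw [Metric.tendstoUniformlyOn_iff] at hlim ⊢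
    intro ε hε
    filter_upwards [hψ.eventually (hlim ε hε), Metric.tendsto_nhds.1 hsψ ε hε] with p e1 e2 θ _
    have e3 := e1 _ (ctrl_cos_pow r θ)
    rw [Real.dist_eq, abs_lt] at e2 e3
    rw [Real.dist_eq, xx, ← mul_sub, abs_mul]
    refine (mul_le_of_le_one_left (abs_nonneg _) (ctrl_abs_sgm r θ)).trans_lt ?_
    simp only [Polynomial.eval_add, Polynomial.eval_mul, Polynomial.eval_C]
    rw [abs_lt]
    constructor <;> nlinarith [e2.1, e2.2, e3.1, e3.2]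
  · exact one_half_pos.trans_le (ge_of_tendsto' (hlim.tendsto_at hx) fun p => (hom p x hx).1)
  · filter_upwards [hψ.eventually (ctrl_span hf P₁), hψ.eventually (ctrl_span hf P₂)]
      with p ⟨a₁, e1⟩ ⟨a₂, e2⟩
    have := h5 p a₁ a₂
    simpa only [e1, e2, (hD p _).2] using this

end Crest.Agent.R202
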