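import Mathlib

/-!
# Row 202, abstract layer: pencils `(B, K)` on `ℓ²(J)`

`J` indexes an orthonormal basis `e_k` of eigenfunctions of the round Laplacian with eigenvalues
`lam k = deg k (deg k + n - 2)`.  A function `X = ∑ X_k e_k` is recorded by `V = D X`,
`V_k = √(lam k) X_k ∈ ℓ²`; then the round energy is `‖V‖²`, the `L²` mass is `⟪K V, V⟫` with
`K = diag (1 / lam k)`, and the energy of a deformed metric is `⟪B V, V⟫`.
-/

set_option autoImplicit false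

noncomputable section

open scoped InnerProductSpace ContDiff
open Set

namespace Crest.Agent.R202

abbrev H (J : Type) : Type := lp (fun _ : J => ℝ) 2

structure Base (n : ℕ) (J : Type) where
  deg : J → ℕ
  hn : 3 ≤ n
  deg_pos : ∀ k, 1 ≤ deg k
  fin : ∀ d, {k | deg k ≤ d}.Finite
  card : ∀ d, {k | deg k ≤ d}.ncard ≤ (2 * d + 1) * (d + 1)
  inf : Infinite J

section
variable {n : ℕ} {J : Type}

def Base.lam (b : Base n J) (k : J) : ℝ := (b.deg k : ℝ) * ((b.deg k : ℝ) + n - 2)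

theorem Base.two_le_lam (b : Base n J) (k : J) : 2 ≤ b.lam k := by
  have h1 : (1 : ℝ) ≤ b.deg k := by exact_mod_cast b.deg_pos k
  have h2 : (3 : ℝ) ≤ n := by exact_mod_cast b.hn
  unfold Base.lam; nlinarith

theorem diag_mem (f : J → ℝ) (C : ℝ) (h : ∀ k, |f k| ≤ C) (x : H J) :
    Memℓp (fun k => f k * x k) 2 := by
  have hx : Memℓp (fun k => C * x k) 2 := (lp.memℓp x).const_smul C
  refine hx.mono' fun k => ?_
  simp only [norm_mul, Real.norm_eq_abs]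
  exact mul_le_mul_of_nonneg_right ((h k).trans (le_abs_self C)) (abs_nonneg _)

/-- the diagonal operator with bounded entries `f` -/
def diagOp (f : J → ℝ) (C : ℝ) (h : ∀ k, |f k| ≤ C) : H J →L[ℝ] H J :=
  LinearMap.mkContinuous
    { toFun := fun x => ⟨fun k => f k * x k, diag_mem f C h x⟩
      map_add' := fun x y => by
        ext k
        show f k * (x + y) k = f k * x k + f k * y k
        simp [mul_add]
      map_smul' := fun c x => by ext k; simp; ring } |C| (fun x => by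
      have h1 : ‖(|C| • x : H J)‖ = |C| * ‖x‖ := by rw [norm_smul, Real.norm_eq_abs, abs_abs]
      rw [← h1]
      refine lp.norm_mono (by norm_num) fun k => ?_
      simp only [LinearMap.coe_mk, AddHom.coe_mk, lp.coeFn_smul, Pi.smul_apply, smul_eq_mul,
        norm_mul, Real.norm_eq_abs, abs_abs]
      exact mul_le_mul_of_nonneg_right ((h k).trans (le_abs_self C)) (abs_nonneg _))

@[simp] theorem diagOp_apply (f : J → ℝ) (C : ℝ) (h : ∀ k, |f k| ≤ C) (x : H J) (k : J) :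
    diagOp f C h x k = f k * x k := rfl

/-- `K = diag (1 / lam k)` -/
def Base.K (b : Base n J) : H J →L[ℝ] H J :=
  diagOp (fun k => (b.lam k)⁻¹) 1 (fun k => by
    have := b.two_le_lam k
    rw [abs_of_pos (by positivity)]
    exact inv_le_one_of_one_le₀ (by linarith))

@[simp] theorem Base.K_apply (b : Base n J) (x : H J) (k : J) : b.K x k = (b.lam k)⁻¹ * x k := rfl

/-- the `L²` inner product in the coordinates `V = D X` -/
def Base.mass (b : Base n J) (x y : H J) : ℝ := ⟪b.K x, y⟫_ℝ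

open Classical in
/-- matrix entry `(k, k')` -/
def ent (B : H J →L[ℝ] H J) (k k' : J) : ℝ := B (lp.single 2 k' (1 : ℝ)) k

def Base.Banded (b : Base n J) (d : ℕ) (B : H J →L[ℝ] H J) : Prop :=
  ∀ k k', (b.deg k + d < b.deg k' ∨ b.deg k' + d < b.deg k) → ent B k k' = 0

/-- entries of `Q = D B D` -/
def Base.qe (b : Base n J) (B : H J →L[ℝ] H J) (k k' : J) : ℝ :=
  √(b.lam k) * √(b.lam k') * ent B k k'

def Supp (S : Set J) (x : H J) : Prop := ∀ k, k ∉ S → x k = 0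

def Inv (S : Set J) (B : H J →L[ℝ] H J) : Prop := ∀ x, Supp S x → Supp S (B x)

/-- admissible energy: symmetric and comparable to the round one -/
def Adm (B : H J →L[ℝ] H J) : Prop :=
  (∀ x y, ⟪B x, y⟫_ℝ = ⟪x, B y⟫_ℝ) ∧ ∀ x, ‖x‖ ^ 2 / 2 ≤ ⟪B x, x⟫_ℝ ∧ ⟪B x, x⟫_ℝ ≤ 2 * ‖x‖ ^ 2

/-- the `j`-th (from `0`) min-max eigenvalue of the pencil among vectors supported in `S` -/
def Base.ev (b : Base n J) (B : H J →L[ℝ] H J) (S : Set J) (j : ℕ) : ℝ :=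
  sInf {t | ∃ W : Submodule ℝ (H J), Module.finrank ℝ W = j + 1 ∧
    ∀ y ∈ W, Supp S y ∧ ⟪B y, y⟫_ℝ ≤ t * b.mass y y}

/-- a mass-orthonormal family of eigenvectors -/
structure Base.EigFam (b : Base n J) (B : H J →L[ℝ] H J) {I : Type} [DecidableEq I]
    (V : I → H J) (l : I → ℝ) : Prop where
  eig : ∀ i, B (V i) = l i • b.K (V i)
  orth : ∀ i k, b.mass (V i) (V k) = if i = k then 1 else 0

end

/-- a finite family (indexed by `ι`, the symmetry classes) of analytic families of energies -/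
structure Fam (n : ℕ) (E : Type) [NormedAddCommGroup E] [NormedSpace ℝ E] (ι : Type)
    (J : ι → Type) where
  b : ∀ i, Base n (J i)
  B : ∀ i, E → H (J i) →L[ℝ] H (J i)
  smooth : ∀ i, ContDiff ℝ ω (B i)
  symm : ∀ i ζ x y, ⟪B i ζ x, y⟫_ℝ = ⟪x, B i ζ y⟫_ℝ
  d : ℕ
  band : ∀ i ζ, (b i).Banded d (B i ζ)
  zero : ∀ i, B i 0 = 1

section
variable {n : ℕ} {E : Type} [NormedAddCommGroup E] [NormedSpace ℝ E] {ι : Type} {J : ι → Type}

def Fam.evu (F : Fam n E ι J) (i : ι) (ζ : E) (j : ℕ) : ℝ := (F.b i).ev (F.B i ζ) univ j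

def tube (a b : E) (ρ : ℝ) : Set E := {ζ | ∃ s ∈ Icc (0 : ℝ) 1, ‖ζ - (a + s • b)‖ < ρ}

/-- static controllability at `ζ` of all eigenvectors with eigenvalue `≤ lp` -/
def Fam.CtrlAt (F : Fam n E ι J) (ζ : E) (lp : ι → ℝ) : Prop :=
  ∀ (m : ι → ℕ) (V : ∀ i, Fin (m i) → H (J i)) (l : ∀ i, Fin (m i) → ℝ),
    (∀ i, (F.b i).EigFam (F.B i ζ) (V i) (l i)) → (∀ i a, l i a ≤ lp i) →
    ∀ S : ∀ i, Matrix (Fin (m i)) (Fin (m i)) ℝ, (∀ i, (S i).IsSymm) →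
      ∃ e : E, ∀ i a c, ⟪fderiv ℝ (F.B i) ζ e (V i a), V i c⟫_ℝ = S i a c

/-- quantitative controllability of the families of size `M` below the `M`-th eigenvalue -/
def Fam.CtrlQ (F : Fam n E ι J) (M : ι → ℕ) (ζ : E) (C : ℝ) : Prop :=
  ∀ (V : ∀ i, Fin (M i) → H (J i)) (l : ∀ i, Fin (M i) → ℝ),
    (∀ i, (F.b i).EigFam (F.B i ζ) (V i) (l i)) → (∀ i a, l i a ≤ F.evu i ζ (M i)) →
    ∀ (S : ∀ i, Matrix (Fin (M i)) (Fin (M i)) ℝ) (s : ℝ), (∀ i, (S i).IsSymm) → 0 ≤ s →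
      (∀ i a c, |S i a c| ≤ s) →
      ∃ e : E, ‖e‖ ≤ C * s ∧ ∀ i a c, ⟪fderiv ℝ (F.B i) ζ e (V i a), V i c⟫_ℝ = S i a c

/-- the first `M + 1` eigenvalues of every class are simple -/
def Fam.Simple (F : Fam n E ι J) (M : ι → ℕ) (ζ : E) : Prop :=
  ∀ i j, j < M i → F.evu i ζ j < F.evu i ζ (j + 1)

/-- `x` and `y` agree up to sign within `t` in the mass norm -/
def Base.Near {J : Type} (b : Base n J) (x y : H J) (t : ℝ) : Prop :=
  ∃ s : ℝ, (s = 1 ∨ s = -1) ∧ b.mass (y - s • x) (y - s • x) ≤ t ^ 2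

/-- distance to the half-integers `ℤ + 1/2` -/
def hdist (σ : ℝ) : ℝ := |σ - 1 / 2 - round (σ - 1 / 2)|

/-- A path of parameters along which the low eigenbranches get permuted. -/
structure Loop (F : Fam n E ι J) (M : ι → ℕ) (U : Set E) (good : ∀ i, Finset (Fin (M i)))
    (abar : ι → ℝ) where
  z : ℝ → E
  l : ∀ i, Fin (M i) → ℝ → ℝ
  V : ∀ i, Fin (M i) → ℝ → H (J i)
  L : ℝ
  γ : ℝ
  c : ℝ
  L_pos : 0 < L
  γ_pos : 0 < γ
  c_pos : 0 < c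
  smooth : ContDiff ℝ ∞ z
  mem : ∀ σ, z σ ∈ U
  d1 : ∀ σ, ‖deriv z σ‖ ≤ L
  d2 : ∀ σ, ‖deriv (deriv z) σ‖ ≤ L
  start : ∀ σ, σ ≤ 1 / 10 → z σ = z 0
  eig : ∀ i σ, (F.b i).EigFam (F.B i (z σ)) (fun a => V i a σ) (fun a => l i a σ)
  gap : ∀ i a σ, l i a σ + γ ≤ F.evu i (z σ) (M i)
  lip : ∀ i a σ σ', |l i a σ - l i a σ'| ≤ L * |σ - σ'|
  near : ∀ i a σ σ', |σ - σ'| ≤ 1 / 20 → (F.b i).Near (V i a σ) (V i a σ') (L * |σ - σ'|)
  sep : ∀ i a a' σ, a ≠ a' → c * hdist σ ≤ |l i a σ - l i a' σ|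
  ctrl : ∀ σ, F.CtrlQ M (z σ) L
  avg : ∀ i, ∀ a ∈ good i, ∀ σ₁ σ₂, 0 ≤ σ₁ → σ₁ ≤ σ₂ →
    ∫ σ in σ₁..σ₂, √(l i a σ) ≤ abar i * (σ₂ - σ₁) + L
  clus : ∃ i ζ₁ ζ₂, F.B i ζ₁ ≠ F.B i ζ₂ ∧ (∀ σ₀, ∃ σ, σ₀ ≤ σ ∧ z σ = ζ₁) ∧
    ∀ σ₀, ∃ σ, σ₀ ≤ σ ∧ z σ = ζ₂

/-- An elementary loop based at `z₀`: ranks `j, j+1` of class `i₀` are exchanged at `σ = 1/2`. -/
structure Elem [DecidableEq ι] (F : Fam n E ι J) (M : ι → ℕ) (U : Set E) (z₀ : E) (i₀ : ι)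
    (j : ℕ) where
  z : ℝ → E
  l : ∀ i, Fin (M i) → ℝ → ℝ
  V : ∀ i, Fin (M i) → ℝ → H (J i)
  L : ℝ
  γ : ℝ
  c : ℝ
  L_pos : 0 < L
  γ_pos : 0 < γ
  c_pos : 0 < c
  smooth : ContDiff ℝ ∞ z
  mem : ∀ σ, z σ ∈ U
  rest : ∀ σ, (σ ≤ 1 / 10 ∨ 9 / 10 ≤ σ) → z σ = z₀
  eig : ∀ i σ, (F.b i).EigFam (F.B i (z σ)) (fun a => V i a σ) (fun a => l i a σ)
  val : ∀ i a σ, l i a σ = F.evu i (z σ)
    (if i = i₀ ∧ 1 / 2 < σ then Equiv.swap j (j + 1) (a : ℕ) else a)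
  gap : ∀ i a σ, l i a σ + γ ≤ F.evu i (z σ) (M i)
  lip : ∀ i a σ σ', |l i a σ - l i a σ'| ≤ L * |σ - σ'|
  near : ∀ i a σ σ', |σ - σ'| ≤ 1 / 20 → (F.b i).Near (V i a σ) (V i a σ') (L * |σ - σ'|)
  sep : ∀ i a a' σ, a ≠ a' → c * min |σ - 1 / 2| (1 / 2) ≤ |l i a σ - l i a' σ|
  dbl : F.evu i₀ (z (1 / 2)) j = F.evu i₀ (z (1 / 2)) (j + 1)

end

/-- the small parameter `ϑ(t) = (t - t₀ + T)^(-1/7)` -/
def th (t₀ T t : ℝ) : ℝ := (t - t₀ + T) ^ (-(1 / 7 : ℝ))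

/-- the loop parameter, `σ' = ϑ⁶`, `σ t₀ = 0` -/
def sg (t₀ T t : ℝ) : ℝ := 7 * (t - t₀ + T) ^ (1 / 7 : ℝ) - 7 * T ^ (1 / 7 : ℝ)

/-- the control pulse: smooth, supported in `[0,1]`, equal to `1` on `[1/4,3/4]` -/
def pulse (s : ℝ) : ℝ := Real.smoothTransition (4 * s) * Real.smoothTransition (4 - 4 * s)

end Crest.Agent.R202
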