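import Crest.Agent.R202.GBasic

/-!
# Distance from the origin and completeness (task G4)

`le_riemDist`: fundamental theorem of calculus along an admissible curve.  Test functions `ρ(√(‖x‖²+ε²))` (use `G(v,v) ≥ ⟨x̂,v⟩²`
by Cauchy-Schwarz for `G`, `confR` antitone) give `|ρ‖x‖ - ρ‖y‖| ≤ d(x,y)`; straight segments give the upper bounds.  For completeness a
Cauchy sequence is bounded (`ρ → ∞` by `FF_ge`, `FF_le_rho`); test with `c χ(x') ⟨e, x'-x⟩`, `χ` a bump function.
-/

set_option autoImplicit false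

noncomputable section

open scoped InnerProductSpace ContDiff
open Set Filter Topology
open Crest.GeometryTopology.CoordMetric Crest.GeometryTopology.ChartCurvature Matrix

namespace Crest.Agent.R202

variable {n : ℕ} {β : ℝ → ℝ} {b : ℝ} {G : MetricField n}

/-- the straight segment -/
def dist_seg (x y : Vec n) : AdmissiblePath univ x y :=
  ⟨fun t => x + t • (y - x), by fun_prop, by simp, by simp, fun _ _ => mem_univ _⟩

theorem dist_seg_deriv (x y : Vec n) (t : ℝ) : deriv (dist_seg x y).1 t = y - x := by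
  simpa [dist_seg] using (((hasDerivAt_id t).smul_const (y - x)).const_add x).deriv

theorem dist_len_nonneg (g : MetricField n) (γ : ℝ → Vec n) : 0 ≤ curveLength g γ :=
  intervalIntegral.integral_nonneg zero_le_one fun _ _ => Real.sqrt_nonneg _

theorem dist_le_seg (g : MetricField n) (x y : Vec n) : riemDist g univ x y ≤
    ∫ t in (0 : ℝ)..1, √(quadForm g (x + t • (y - x)) (y - x)) := by
  refine (ciInf_le ⟨0, ?_⟩ (dist_seg x y)).trans_eq ?_
  · rintro _ ⟨γ, rfl⟩
    exact dist_len_nonneg _ _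
  · simp only [curveLength, dist_seg_deriv]
    rfl

theorem dist_nonneg' (g : MetricField n) (x y : Vec n) : 0 ≤ riemDist g univ x y :=
  Real.iInf_nonneg fun _ => dist_len_nonneg _ _

theorem dist_quad (g : MetricField n) (x v : Vec n) :
    quadForm g x v = v.ofLp ⬝ᵥ (g x *ᵥ v.ofLp) := by
  simp only [quadForm, dotProduct, mulVec, Finset.mul_sum]
  exact Finset.sum_congr rfl fun i _ => Finset.sum_congr rfl fun j _ => by ring

theorem dist_conf_pos (β : ℝ → ℝ) (R : ℝ) : 0 < confR β R := Real.exp_pos _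

theorem dist_sqrt_met (β : ℝ → ℝ) (G : MetricField n) (x v : Vec n) :
    √(quadForm (met β G) x v) = confR β ‖x‖ * √(quadForm G x v) := by
  rw [dist_quad, dist_quad, met, conf, smul_mulVec, dotProduct_smul, smul_eq_mul,
    Real.sqrt_mul (sq_nonneg _), Real.sqrt_sq (dist_conf_pos β ‖x‖).le]

theorem dist_dot (x v : Vec n) : x.ofLp ⬝ᵥ v.ofLp = ⟪x, v⟫_ℝ := by
  rw [real_inner_comm, EuclideanSpace.inner_eq_star_dotProduct, star_trivial]

theorem dist_cs (hG : Rad G) (z v : Vec n) : ⟪z, v⟫_ℝ ≤ ‖z‖ * √(quadForm G z v) := by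
  have h1 : z.ofLp ⬝ᵥ (G z *ᵥ v.ofLp) = ⟪z, v⟫_ℝ := by
    rw [dotProduct_mulVec, ← mulVec_transpose, hG.symm z, hG.rad, dist_dot]
  have h2 := discrim_le_zero (a := ‖z‖ ^ 2) (b := 2 * ⟪z, v⟫_ℝ) (c := quadForm G z v) fun t => by
    refine (le_trans (by positivity) (hG.bnd z (v + t • z)).1).trans_eq ?_
    simp only [dist_quad, WithLp.ofLp_add, WithLp.ofLp_smul, mulVec_add, mulVec_smul, hG.rad,
      add_dotProduct, dotProduct_add, smul_dotProduct, dotProduct_smul, h1, dist_dot, smul_eq_mul,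
      real_inner_self_eq_norm_sq, real_inner_comm z v]
    ring
  rw [discrim] at h2
  rw [← Real.sqrt_sq (norm_nonneg z), ← Real.sqrt_mul (sq_nonneg _)]
  exact Real.le_sqrt_of_sq_le (by linarith)

theorem dist_rho_deriv (h : Prof β b) (R : ℝ) : HasDerivAt (rho β) (confR β R) R :=
  (h.continuous_confR.integral_hasStrictDerivAt 0 R).hasDerivAt

theorem dist_rho_contDiff (h : Prof β b) : ContDiff ℝ 1 (rho β) :=
  contDiff_one_iff_deriv.2 ⟨fun R => (dist_rho_deriv h R).differentiableAt, by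
    rw [funext fun R => (dist_rho_deriv h R).deriv]
    exact h.continuous_confR⟩

theorem le_riemDist {g : MetricField n} (hg : IsRiemannianOn g univ) {f : Vec n → ℝ}
    (hf : ContDiff ℝ 1 f) (h : ∀ x v, fderiv ℝ f x v ≤ √(quadForm g x v)) (x y : Vec n) :
    f y - f x ≤ riemDist g univ x y := by
  have : Nonempty (AdmissiblePath univ x y) := ⟨dist_seg x y⟩
  refine le_ciInf fun ⟨γ, h1, h2, h3, _⟩ => ?_
  have c1 := h1.continuous
  have c2 := h1.continuous_deriv le_rfl
  have c3 : ∀ i j, Continuous fun x => g x i j := fun i j =>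
    (contDiffOn_univ.1 (hg.contDiffOn i j)).continuous
  have c4 := hf.continuous_fderiv one_ne_zero
  change _ ≤ curveLength g γ
  rw [← h2, ← h3, ← intervalIntegral.integral_eq_sub_of_hasDerivAt (f := fun t => f (γ t))
    (f' := fun t => fderiv ℝ f (γ t) (deriv γ t))
    (fun t _ => (hf.differentiable one_ne_zero _).hasFDerivAt.comp_hasDerivAt t
      (h1.differentiable one_ne_zero t).hasDerivAt) (Continuous.intervalIntegrable (by fun_prop) _ _)]
  refine intervalIntegral.integral_mono zero_le_one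
    (Continuous.intervalIntegrable (by fun_prop) _ _) (Continuous.intervalIntegrable ?_ _ _)
    fun t => h _ _
  unfold quadForm
  exact Real.continuous_sqrt.comp (continuous_finsetSum _ fun i _ => continuous_finsetSum _
    fun j _ => (((c3 i j).comp c1).mul (by fun_prop)).mul (by fun_prop))

theorem dist_rho_le (h : Prof β b) (hG : Rad G) (x y : Vec n) :
    rho β ‖y‖ - rho β ‖x‖ ≤ riemDist (met β G) univ x y := by
  have hc := (dist_rho_contDiff h).continuous
  have h1 : Continuous fun ε : ℝ => rho β √(‖y‖ ^ 2 + ε) - rho β √(‖x‖ ^ 2 + ε) := by fun_prop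
  have h2 := (h1.tendsto 0).mono_left (nhdsWithin_le_nhds (s := Ioi 0))
  simp only [add_zero, Real.sqrt_sq (norm_nonneg _)] at h2
  refine le_of_tendsto h2 (eventually_nhdsWithin_of_forall fun ε (hε : 0 < ε) => ?_)
  have hp : ∀ z : Vec n, 0 < ‖z‖ ^ 2 + ε := fun z => by positivity
  refine le_riemDist (isRiemannian_met h hG) (f := fun z => rho β √(‖z‖ ^ 2 + ε))
    ((dist_rho_contDiff h).comp (((contDiff_norm_sq ℝ).add contDiff_const).sqrt
      fun z => (hp z).ne')) (fun z v => ?_) x y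
  have h3 := (dist_rho_deriv h _).comp_hasFDerivAt z
    (((hasStrictFDerivAt_norm_sq z).hasFDerivAt.add_const ε).sqrt (hp z).ne')
  have h4 : ‖z‖ ≤ √(‖z‖ ^ 2 + ε) := Real.le_sqrt_of_sq_le (by linarith)
  have h5 := Real.sqrt_pos.2 (hp z)
  rw [show (fun z : Vec n => rho β √(‖z‖ ^ 2 + ε)) = rho β ∘ fun z : Vec n => √(‖z‖ ^ 2 + ε) from rfl,
    h3.fderiv, dist_sqrt_met]
  simp only [_root_.smul_apply, innerSL_apply_apply, smul_eq_mul, nsmul_eq_mul,
    Nat.cast_ofNat]
  refine (mul_le_mul_of_nonneg_left (c := √(quadForm G z v)) ?_ (dist_conf_pos _ _).le).trans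
    (mul_le_mul_of_nonneg_right (h.confR_anti (norm_nonneg z) h5.le h4) (Real.sqrt_nonneg _))
  rw [one_div, inv_mul_le_iff₀ (by positivity), mul_assoc]
  exact mul_le_mul_of_nonneg_left ((dist_cs hG z v).trans
    (mul_le_mul_of_nonneg_right h4 (Real.sqrt_nonneg _))) zero_le_two

theorem riemDist_zero (h : Prof β b) (hG : Rad G) (x : Vec n) :
    riemDist (met β G) univ 0 x = rho β ‖x‖ := by
  refine le_antisymm ((dist_le_seg _ _ _).trans_eq ?_) ?_
  · have e := intervalIntegral.smul_integral_comp_mul_right (a := 0) (b := 1) (confR β) ‖x‖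
    rw [zero_mul, one_mul, ← intervalIntegral.integral_smul] at e
    rw [rho, ← e]
    refine intervalIntegral.integral_congr fun t ht => ?_
    rw [uIcc_of_le zero_le_one] at ht
    have h1 : G (t • x) *ᵥ x.ofLp = x.ofLp := by
      rcases ht.1.eq_or_lt with rfl | h0
      · rw [hG.left _ (by simp), one_mulVec]
      · have := hG.rad (t • x)
        rw [WithLp.ofLp_smul, mulVec_smul] at this
        exact smul_right_injective _ h0.ne' this
    simp only [dist_sqrt_met]
    simp only [zero_add, sub_zero, dist_quad, h1, dist_dot,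
      real_inner_self_eq_norm_sq, Real.sqrt_sq (norm_nonneg _), norm_smul,
      Real.norm_of_nonneg ht.1, smul_eq_mul, mul_comm]
  · simpa [rho] using dist_rho_le h hG 0 x

theorem dist_conf_ge (h : Prof β b) {R : ℝ} (hR : 0 ≤ R) : (1 + R ^ 2)⁻¹ ≤ confR β R := by
  rcases le_total R 1 with h1 | h1
  · rw [h.confR_eq_one (by rwa [abs_of_nonneg hR])]
    exact inv_le_one_of_one_le₀ (by nlinarith)
  · have h2 := Real.log_nonneg h1
    rw [confR_eq h.smooth.continuous (by linarith), inv_eq_one_div]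
    exact div_le_div₀ (Real.exp_pos _).le ((Real.one_le_exp (mul_nonneg h.b_pos.le h2)).trans
      (h.FF_ge h2)) (by linarith) (by nlinarith)

theorem dist_test (h : Prof β b) (hG : Rad G) (L : Vec n →L[ℝ] ℝ) (hL : ‖L‖ ≤ 1) {c : ℝ}
    (hc : |c| ≤ 1) (x y : Vec n) : (L y + c) * (1 + ‖y‖ ^ 2)⁻¹ - (L x + c) * (1 + ‖x‖ ^ 2)⁻¹ ≤
      10 * riemDist (met β G) univ x y := by
  have hp : ∀ z : Vec n, 0 < 1 + ‖z‖ ^ 2 := fun z => by positivity
  have h1 := le_riemDist (isRiemannian_met h hG)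
    (f := fun z => 10⁻¹ * ((L z + c) * (1 + ‖z‖ ^ 2)⁻¹))
    (contDiff_const.mul ((L.contDiff.add contDiff_const).mul
      ((contDiff_const.add (contDiff_norm_sq ℝ)).inv fun z => (hp z).ne'))) (fun z v => ?_) x y
  · linarith
  have h3 := ((L.hasFDerivAt.add_const c).fun_mul ((hasDerivAt_inv (hp z).ne').comp_hasFDerivAt z
    ((hasStrictFDerivAt_norm_sq z).hasFDerivAt.const_add 1))).const_mul (10⁻¹ : ℝ)
  have h4 : ∀ w, |L w| ≤ ‖w‖ := fun w =>
    (L.le_opNorm w).trans (mul_le_of_le_one_left (norm_nonneg _) hL)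
  erw [h3.fderiv]
  rw [dist_sqrt_met]
  simp only [_root_.smul_apply, _root_.add_apply, innerSL_apply_apply,
    smul_eq_mul, nsmul_eq_mul, Nat.cast_ofNat, Function.comp_apply]
  have h5 : ‖v‖ ≤ 2 * √(quadForm G z v) := by
    rw [← div_le_iff₀' two_pos]
    exact Real.le_sqrt_of_sq_le (by nlinarith [(hG.bnd z v).1])
  have h6 : -((L z + c) * ⟪z, v⟫_ℝ) ≤ 2 * (1 + ‖z‖ ^ 2) * ‖v‖ := by
    refine (neg_le_abs _).trans ?_
    rw [abs_mul]
    refine (mul_le_mul ((abs_add_le _ _).trans (add_le_add (h4 z) hc))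
      (abs_real_inner_le_norm z v) (abs_nonneg _) (by positivity)).trans ?_
    rw [← mul_assoc]
    exact mul_le_mul_of_nonneg_right (by nlinarith [sq_nonneg (‖z‖ - 1)]) (norm_nonneg _)
  have h7 := hp z
  refine le_trans ?_ (mul_le_mul_of_nonneg_right (dist_conf_ge h (norm_nonneg z))
    (Real.sqrt_nonneg _))
  have h8 := mul_le_mul_of_nonneg_left h6 (by positivity : 0 ≤ ((1 + ‖z‖ ^ 2) ^ 2)⁻¹)
  have h9 : ((1 + ‖z‖ ^ 2) ^ 2)⁻¹ * (2 * (1 + ‖z‖ ^ 2) * ‖v‖) = 2 * ((1 + ‖z‖ ^ 2)⁻¹ * ‖v‖) := by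
    field_simp
  have h10 := mul_le_mul_of_nonneg_left ((le_abs_self _).trans (h4 v)) (inv_pos.2 h7).le
  have h11 := mul_le_mul_of_nonneg_left h5 (inv_pos.2 h7).le
  linarith

theorem dist_le_norm (h : Prof β b) (hG : Rad G) (x y : Vec n) :
    riemDist (met β G) univ x y ≤ 2 * ‖y - x‖ := by
  refine (dist_le_seg _ _ _).trans ((Real.le_norm_self _).trans
    ((intervalIntegral.norm_integral_le_of_norm_le_const (C := 2 * ‖y - x‖) (a := 0) (b := 1)
      fun t _ => ?_).trans_eq (by rw [sub_zero, abs_one, mul_one])))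
  rw [Real.norm_of_nonneg (Real.sqrt_nonneg _), dist_sqrt_met]
  refine (mul_le_of_le_one_left (Real.sqrt_nonneg _) ((h.confR_anti self_mem_Ici (norm_nonneg _)
    (norm_nonneg _)).trans_eq (h.confR_eq_one (by simp)))).trans (Real.sqrt_le_iff.2
      ⟨by positivity, ((hG.bnd _ _).2).trans (by nlinarith [sq_nonneg ‖y - x‖])⟩)

theorem complete_met (h : Prof β b) (hG : Rad G) : IsCompleteOn (met β G) univ := by
  intro x _ hx
  have hp : ∀ z : Vec n, 0 < 1 + ‖z‖ ^ 2 := fun z => by positivity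
  have c1 : CauchySeq fun k => (1 + ‖x k‖ ^ 2)⁻¹ • x k := Metric.cauchySeq_iff.2 fun ε hε => by
    obtain ⟨N, hN⟩ := hx (ε / 10) (by positivity)
    refine ⟨N, fun k hk l hl => ?_⟩
    obtain ⟨L, h1, h2⟩ := exists_dual_vector'' ℝ
      ((1 + ‖x k‖ ^ 2)⁻¹ • x k - (1 + ‖x l‖ ^ 2)⁻¹ • x l)
    have h3 := dist_test h hG L h1 (c := 0) (by simp) (x l) (x k)
    have h4 := hN l hl k hk
    simp only [map_sub, map_smul, smul_eq_mul, RCLike.ofReal_real_eq_id, id] at h2
    rw [dist_eq_norm, ← h2]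
    linarith
  have c2 : CauchySeq fun k => (1 + ‖x k‖ ^ 2)⁻¹ := Metric.cauchySeq_iff.2 fun ε hε => by
    obtain ⟨N, hN⟩ := hx (ε / 10) (by positivity)
    refine ⟨N, fun k hk l hl => ?_⟩
    have h3 := dist_test h hG 0 (by simp) (c := 1) (by simp) (x l) (x k)
    have h4 := dist_test h hG 0 (by simp) (c := 1) (by simp) (x k) (x l)
    simp only [_root_.zero_apply, zero_add, one_mul] at h3 h4
    rw [Real.dist_eq, abs_lt]
    constructor <;> linarith [hN l hl k hk, hN k hk l hl]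
  obtain ⟨a, ha⟩ := cauchySeq_tendsto_of_complete c1
  obtain ⟨s, hs⟩ := cauchySeq_tendsto_of_complete c2
  obtain ⟨N, hN⟩ := hx 1 one_pos
  set R := max 1 (Real.exp ((rho β ‖x N‖ + 1) / b)) with hR
  have hb : ∀ k ≥ N, ‖x k‖ ≤ R := fun k hk => by
    rcases le_total ‖x k‖ 1 with h1 | h1
    · exact le_max_of_le_left h1
    · have h2 : 0 < ‖x k‖ := by linarith
      refine le_max_of_le_right ((Real.log_le_iff_le_exp h2).1 ((le_div_iff₀' h.b_pos).2 ?_))
      linarith [Real.add_one_le_exp (b * Real.log ‖x k‖), h.FF_ge (Real.log_nonneg h1),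
        h.FF_le_rho h2, dist_rho_le h hG (x N) (x k), hN N le_rfl k hk]
  have hs0 : 0 < s := lt_of_lt_of_le (inv_pos.2 (by positivity : 0 < 1 + R ^ 2))
    (ge_of_tendsto hs (eventually_atTop.2 ⟨N, fun k hk => inv_anti₀ (hp _)
      (by linarith [pow_le_pow_left₀ (norm_nonneg _) (hb k hk) 2])⟩))
  have hl := (hs.inv₀ hs0.ne').smul ha
  simp only [inv_inv, smul_inv_smul₀ (hp _).ne'] at hl
  refine ⟨_, mem_univ _, squeeze_zero (fun k => dist_nonneg' _ _ _)
    (fun k => dist_le_norm h hG (x k) (s⁻¹ • a)) ?_⟩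
  simpa using ((tendsto_const_nhds (x := s⁻¹ • a)).sub hl).norm.const_mul 2

end Crest.Agent.R202
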