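import Crest.Agent.R202.Defs

/-!
# Finite-dimensional dynamics `w'' = Q(t) w` with a slowly moving approximate eigenframe: definitions
-/

set_option autoImplicit false

noncomputable section

open scoped InnerProductSpace ContDiff
open Set Filter Topology

namespace Crest.Agent.R202

variable {V : Type} [NormedAddCommGroup V] [InnerProductSpace ℝ V]

def IsSol (Q : ℝ → V →L[ℝ] V) (w w₁ : ℝ → V) : Prop :=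
  (∀ t, HasDerivAt w (w₁ t) t) ∧ ∀ t, HasDerivAt w₁ (Q t (w t)) t

/-- frame `X` (derivatives `X₁, X₂`), rates `a`, separating rate `g` -/
structure Frame (V : Type) (M : ℕ) where
  X : Fin M → ℝ → V
  X₁ : Fin M → ℝ → V
  X₂ : Fin M → ℝ → V
  a : Fin M → ℝ → ℝ
  a₁ : Fin M → ℝ → ℝ
  g : ℝ → ℝ
  g₁ : ℝ → ℝ

variable {M : ℕ}

def Frame.cc (P : Frame V M) (w : ℝ → V) (i : Fin M) (t : ℝ) : ℝ := ⟪P.X i t, w t⟫_ℝ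

def Frame.pp (P : Frame V M) (w w₁ : ℝ → V) (i : Fin M) (t : ℝ) : ℝ :=
  ⟪P.X i t, w₁ t⟫_ℝ - ⟪P.X₁ i t, w t⟫_ℝ

/-- growing coordinate -/
def Frame.GG (P : Frame V M) (w w₁ : ℝ → V) (i : Fin M) (t : ℝ) : ℝ :=
  P.pp w w₁ i t + P.a i t * P.cc w i t

/-- decaying coordinate -/
def Frame.bb (P : Frame V M) (w w₁ : ℝ → V) (i : Fin M) (t : ℝ) : ℝ :=
  P.pp w w₁ i t - P.a i t * P.cc w i t

/-- high part -/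
def Frame.hh (P : Frame V M) (w : ℝ → V) (t : ℝ) : V := w t - ∑ i, P.cc w i t • P.X i t

/-- the standing hypotheses on `[t₀, T]`; `e` is the small function (`e² = δ`) -/
structure DynHyp (P : Frame V M) (Q : ℝ → V →L[ℝ] V) (C γ : ℝ) (t₀ T : ℝ) (e : ℝ → ℝ) : Prop where
  t₀_nonneg : 0 ≤ t₀
  symm : ∀ t x y, ⟪Q t x, y⟫_ℝ = ⟪x, Q t y⟫_ℝ
  pos : ∀ t, 0 ≤ t → ∀ x, 0 ≤ ⟪Q t x, x⟫_ℝ
  dX : ∀ i t, HasDerivAt (P.X i) (P.X₁ i t) t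
  dX₁ : ∀ i t, HasDerivAt (P.X₁ i) (P.X₂ i t) t
  da : ∀ i t, HasDerivAt (P.a i) (P.a₁ i t) t
  dg : ∀ t, HasDerivAt P.g (P.g₁ t) t
  e_pos : ∀ t ∈ Icc t₀ T, 0 < e t
  e_anti : AntitoneOn e (Icc t₀ T)
  e_slow : ∀ s ∈ Icc t₀ T, ∀ t ∈ Icc t₀ T, s ≤ t → e s ≤ e t * Real.exp ((t - s) / 2)
  X₁_le : ∀ i, ∀ t ∈ Icc t₀ T, ‖P.X₁ i t‖ ≤ C * e t ^ 2
  X₂_le : ∀ i, ∀ t ∈ Icc t₀ T, ‖P.X₂ i t‖ ≤ C * e t ^ 2
  gram : ∀ i k, ∀ t ∈ Icc t₀ T, |⟪P.X i t, P.X k t⟫_ℝ - if i = k then 1 else 0| ≤ C * e t ^ 2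
  eig : ∀ i, ∀ t ∈ Icc t₀ T, ‖Q t (P.X i t) - P.a i t ^ 2 • P.X i t‖ ≤ C * e t
  a₁_le : ∀ i, ∀ t ∈ Icc t₀ T, |P.a₁ i t| ≤ C * e t ^ 2
  g₁_le : ∀ t ∈ Icc t₀ T, |P.g₁ t| ≤ C * e t ^ 2
  a_ge : ∀ i, ∀ t ∈ Icc t₀ T, 1 ≤ P.a i t
  a_le : ∀ i, ∀ t ∈ Icc t₀ T, P.a i t + γ ≤ P.g t
  g_ge : ∀ t ∈ Icc t₀ T, 1 ≤ P.g t
  g_le : ∀ t ∈ Icc t₀ T, P.g t ≤ C
  coer : ∀ t ∈ Icc t₀ T, ∀ h : V,
    (P.g t + γ) ^ 2 * ‖h‖ ^ 2 - C * ∑ i, ⟪P.X i t, h⟫_ℝ ^ 2 ≤ ⟪Q t h, h⟫_ℝ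

/-- regular at the left end, in the span of the frame at the right end -/
structure Reg (P : Frame V M) (Q : ℝ → V →L[ℝ] V) (T : ℝ) (w w₁ : ℝ → V) : Prop where
  sol : IsSol Q w w₁
  left : 0 ≤ ⟪w₁ 0, w 0⟫_ℝ
  right : ∃ v : Fin M → ℝ, w T = ∑ i, v i • P.X i T

def clamp (k x : ℝ) : ℝ := max (-k) (min k x)

/-- the gain of one control pulse on the ratio `G_i / G_j` -/
def gain (αi αj : ℝ) : ℝ := (∫ s in (0 : ℝ)..1, Real.exp ((αi - αj) * (1 - s)) * pulse s) / (2 * αj)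

/-- `(i, j)` is the unstable entry of the pair at time `n` -/
def Frame.ctl (P : Frame V M) (n : ℕ) (i j : Fin M) : Prop :=
  P.a j n < P.a i n ∨ (P.a j n = P.a i n ∧ i < j)

/-- the feedback for the unstable entry `(i, j)`: component `i` of solution `j` -/
def Frame.fb (P : Frame V M) (w w₁ : Fin M → ℝ → V) (n : ℕ) (i j : Fin M) : ℝ :=
  -(Real.exp (P.a i n - P.a j n) - Real.exp (P.a j n - P.a i n)) *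
    (P.GG (w j) (w₁ j) i n / max (P.GG (w j) (w₁ j) j n) (1 / 2)) / gain (P.a i n) (P.a j n)

end Crest.Agent.R202
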