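import Crest.Agent.R202.Flat

/-!
# A transversal crossing (task B3)

In the flat chart at a point with `ev j = ev (j+1)` (class `i₀`) take the diagonal families
`d_a + τ ε_a`, `d_a = ev a + κ ν_a` (`ν_a = a`, except `ν_a = a - 1` for `a > j` in class `i₀`), `ε_j = 1`, `ε_{j+1} = -1`,
`τ = (κ/4) ϑ(σ)`, `ϑ x = x + χ(2x-1)(1-x) - χ(-2x-1)(1+x)`, `χ = Real.smoothTransition`; `z σ = Γ (η₀ + κ η₁ + τ η₂)`
with `ℓ η₁ = diag ν`, `ℓ η₂ = diag ε`; the frames are the `W i (…) a`; eigenvalues are identified by `eigFam_ev`.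
-/

set_option autoImplicit false

noncomputable section

open scoped InnerProductSpace ContDiff
open Set Filter Topology

namespace Crest.Agent.R202

/-- the profile `ϑ` -/
def gadTh (x : ℝ) : ℝ :=
  x + Real.smoothTransition (2 * x - 1) * (1 - x) - Real.smoothTransition (-2 * x - 1) * (1 + x)

theorem gadTh_smooth : ContDiff ℝ ∞ gadTh := by
  unfold gadTh
  have h : ContDiff ℝ ∞ Real.smoothTransition := Real.smoothTransition.contDiff
  fun_prop

theorem gadTh_one {x : ℝ} (h : 1 ≤ x) : gadTh x = 1 := by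
  rw [gadTh, Real.smoothTransition.one_of_one_le (by linarith),
    Real.smoothTransition.zero_of_nonpos (by linarith)]
  ring

theorem gadTh_neg (x : ℝ) : gadTh (-x) = -gadTh x := by
  unfold gadTh
  rw [show 2 * -x - 1 = -2 * x - 1 by ring, show -2 * -x - 1 = 2 * x - 1 by ring]
  ring

theorem gadTh_neg_one {x : ℝ} (h : x ≤ -1) : gadTh x = -1 := by
  rw [← neg_neg x, gadTh_neg, gadTh_one (by linarith)]

theorem gadTh_of_nonneg {x : ℝ} (h : 0 ≤ x) : min x 1 ≤ gadTh x ∧ gadTh x ≤ 1 := by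
  rcases le_total 1 x with h1 | h1
  · rw [gadTh_one h1]
    exact ⟨min_le_right _ _, le_rfl⟩
  · have h2 := Real.smoothTransition.nonneg (2 * x - 1)
    have h3 := Real.smoothTransition.le_one (2 * x - 1)
    rw [gadTh, Real.smoothTransition.zero_of_nonpos (x := -2 * x - 1) (by linarith),
      min_eq_left h1]
    constructor <;> nlinarith

theorem gadTh_nonneg {x : ℝ} (h : 0 ≤ x) : 0 ≤ gadTh x :=
  (le_min h zero_le_one).trans (gadTh_of_nonneg h).1

theorem gadTh_nonpos {x : ℝ} (h : x ≤ 0) : gadTh x ≤ 0 := by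
  have := gadTh_nonneg (neg_nonneg.2 h)
  rw [gadTh_neg] at this
  linarith

theorem gadTh_abs (x : ℝ) : min |x| 1 ≤ |gadTh x| ∧ |gadTh x| ≤ 1 := by
  rcases le_total 0 x with h | h
  · rw [abs_of_nonneg h, abs_of_nonneg (gadTh_nonneg h)]
    exact gadTh_of_nonneg h
  · rw [abs_of_nonpos h, abs_of_nonpos (gadTh_nonpos h), ← gadTh_neg]
    exact gadTh_of_nonneg (neg_nonneg.2 h)

theorem gadTh_lip : ∃ L : ℝ, 0 < L ∧ ∀ x y, |gadTh x - gadTh y| ≤ L * |x - y| := by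
  obtain ⟨K, hK⟩ := (gadTh_smooth.contDiffOn (s := Icc (-1 : ℝ) 1)).exists_lipschitzOnWith
    (by simp) (convex_Icc _ _) isCompact_Icc
  have h1 : ∀ x : ℝ, gadTh x = gadTh (max (-1) (min 1 x)) := by
    intro x
    rcases le_total 1 x with h | h
    · rw [min_eq_left h, max_eq_right (by norm_num), gadTh_one h, gadTh_one le_rfl]
    · rw [min_eq_right h]
      rcases le_total x (-1) with h' | h'
      · rw [max_eq_left h', gadTh_neg_one h', gadTh_neg_one le_rfl]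
      · rw [max_eq_right h']
  have h2 : ∀ x : ℝ, max (-1) (min 1 x) ∈ Icc (-1 : ℝ) 1 := fun x =>
    ⟨le_max_left _ _, max_le (by norm_num) (min_le_left _ _)⟩
  refine ⟨K + 1, by positivity, fun x y => ?_⟩
  have h3 := hK.dist_le_mul _ (h2 x) _ (h2 y)
  rw [← h1, ← h1, Real.dist_eq, Real.dist_eq] at h3
  have h4 : |max (-1) (min 1 x) - max (-1) (min 1 y)| ≤ |x - y| := by
    refine (abs_max_sub_max_le_max _ _ _ _).trans (max_le (by simp) ?_)
    exact (abs_min_sub_min_le_max _ _ _ _).trans (max_le (by simp) le_rfl)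
  have h5 := mul_le_mul_of_nonneg_left h4 K.coe_nonneg
  linarith [abs_nonneg (x - y)]

section num
variable (p : Prop) [Decidable p] (j : ℕ)

/-- the splitting pattern -/
def gadNu (a : ℕ) : ℝ := if p ∧ j < a then (a : ℝ) - 1 else a

/-- the crossing pattern -/
def gadEps (a : ℕ) : ℝ := if p ∧ a = j then 1 else if p ∧ a = j + 1 then -1 else 0

/-- the diagonal entries -/
def gadD (ev : ℕ → ℝ) (κ τ : ℝ) (a : ℕ) : ℝ := ev a + κ * gadNu p j a + τ * gadEps p j a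

/-- the sorting permutation -/
def gadP (a : ℕ) : ℕ := if p then Equiv.swap j (j + 1) a else a

theorem gadEps_abs (a : ℕ) : |gadEps p j a| ≤ 1 := by
  unfold gadEps
  split_ifs <;> simp

theorem gadP_gadP (a : ℕ) : gadP p j (gadP p j a) = a := by
  unfold gadP
  split_ifs <;> simp

theorem gadP_lt {m a : ℕ} (hm : p → j + 1 < m) (ha : a < m) : gadP p j a < m := by
  unfold gadP
  split_ifs with h
  · have := hm h
    rw [Equiv.swap_apply_def]
    split_ifs <;> omega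
  · exact ha

theorem gadP_eq {a : ℕ} (hm : p → j + 1 < a) : gadP p j a = a := by
  unfold gadP
  split_ifs with h
  · have := hm h
    rw [Equiv.swap_apply_def]
    split_ifs <;> omega
  · rfl

variable {p j} {ev : ℕ → ℝ} {κ τ : ℝ}

theorem gadD_lt (hev : Monotone ev) (hτ : |τ| ≤ κ / 4) {a a' : ℕ} (h : a < a')
    (h' : ¬(p ∧ a = j ∧ a' = j + 1)) : gadD p j ev κ τ a + κ / 2 ≤ gadD p j ev κ τ a' := by
  have hκ : 0 ≤ κ := by linarith [abs_nonneg τ]
  have h1 : gadNu p j a + 1 ≤ gadNu p j a' := by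
    have h2 : (a : ℝ) + 1 ≤ a' := by exact_mod_cast h
    unfold gadNu
    split_ifs with h3 h4 h4
    · linarith
    · linarith
    · have h5 : a + 2 ≤ a' := by
        by_contra h6
        exact h' ⟨h4.1, by have := mt (And.intro h4.1) h3; omega,
          by have := mt (And.intro h4.1) h3; omega⟩
      have h6 : (a : ℝ) + 2 ≤ a' := by exact_mod_cast h5
      linarith
    · linarith
  have h2 : ∀ b, |τ * gadEps p j b| ≤ κ / 4 := fun b => by
    rw [abs_mul]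
    exact (mul_le_of_le_one_right (abs_nonneg _) (gadEps_abs p j b)).trans hτ
  have h3 := abs_le.1 (h2 a)
  have h4 := abs_le.1 (h2 a')
  have h5 := hev h.le
  have h6 := mul_le_mul_of_nonneg_left h1 hκ
  unfold gadD
  linarith [h3.2, h4.1]

theorem gadD_cross (hp : p) (hd : ev j = ev (j + 1)) :
    gadD p j ev κ τ j = gadD p j ev κ τ (j + 1) + 2 * τ := by
  simp [gadD, gadNu, gadEps, hp, hd]
  ring

theorem gadD_sorted (hev : Monotone ev) (hτ : |τ| ≤ κ / 4) (hd : p → ev j = ev (j + 1))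
    {q : Prop} [Decidable (p ∧ q)] (hq : q → 0 ≤ τ) (hq' : ¬q → τ ≤ 0) {a a' : ℕ} (h : a < a') :
    gadD p j ev κ τ (gadP (p ∧ q) j a) + 2 * |τ| ≤ gadD p j ev κ τ (gadP (p ∧ q) j a') := by
  by_cases h1 : p ∧ a = j ∧ a' = j + 1
  · obtain ⟨hp, rfl, rfl⟩ := h1
    have h2 := gadD_cross (κ := κ) (τ := τ) hp (hd hp)
    by_cases h3 : q
    · simp only [gadP, if_pos (And.intro hp h3), Equiv.swap_apply_left, Equiv.swap_apply_right]
      rw [abs_of_nonneg (hq h3), h2]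
    · simp only [gadP, if_neg (fun h4 : p ∧ q => h3 h4.2)]
      rw [abs_of_nonpos (hq' h3), h2]
      linarith
  · refine le_trans (by linarith) (gadD_lt hev hτ (a := gadP (p ∧ q) j a) ?_ ?_)
    · unfold gadP
      split_ifs with h2
      · have h3 : ¬(a = j ∧ a' = j + 1) := fun h3 => h1 ⟨h2.1, h3⟩
        rw [Equiv.swap_apply_def, Equiv.swap_apply_def]
        split_ifs <;> omega
      · exact h
    · unfold gadP
      split_ifs with h2
      · rw [Equiv.swap_apply_def, Equiv.swap_apply_def]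
        rintro ⟨-, h3⟩
        split_ifs at h3 <;> omega
      · exact h1

end num

theorem gad_comp {n : ℕ} {J : Type} {b : Base n J} {B : H J →L[ℝ] H J} {I I' : Type}
    [DecidableEq I] [DecidableEq I'] {V : I → H J} {l : I → ℝ} (h : b.EigFam B V l) {f : I' → I}
    (hf : Function.Injective f) : b.EigFam B (fun a => V (f a)) (fun a => l (f a)) :=
  ⟨fun a => h.eig _, fun a c => by rw [h.orth]; simp only [hf.eq_iff]⟩

/-- a diagonal chart lists the eigenvalues -/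
theorem gad_chart {n : ℕ} {J : Type} {b : Base n J} {B : H J →L[ℝ] H J} (hB : Adm B) {m : ℕ}
    {W : Fin m → H J} {d : ℕ → ℝ} {t : ℝ} (hW : b.EigFam B W fun a => d a)
    (ht : ∀ a : Fin m, d a ≤ t)
    (hc : ∀ y, (∀ a, b.mass (W a) y = 0) → t * b.mass y y ≤ ⟪B y, y⟫_ℝ)
    {π : ℕ → ℕ} (hπ : ∀ a, π (π a) = a) (hm : ∀ a, a < m → π a < m)
    (hmono : ∀ a a', a < a' → d (π a) ≤ d (π a')) {a : ℕ} (ha : a < m) :
    b.ev B univ a = d (π a) := by
  let f : Fin m → Fin m := fun a => ⟨π a, hm a a.2⟩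
  have hf : ∀ a, f (f a) = a := fun a => Fin.ext (hπ a)
  have h1 := b.eigFam_ev hB (gad_comp hW (Function.Involutive.injective hf))
    (monotone_iff_forall_lt.2 fun a a' h => hmono a a' h) (t := t) (fun a => ht (f a))
    fun y hy => hc y fun a => by simpa only [hf] using hy (f a)
  exact h1.1 ⟨a, ha⟩

variable {n : ℕ} {E : Type} [NormedAddCommGroup E] [NormedSpace ℝ E] [FiniteDimensional ℝ E]
  {ι : Type} [Fintype ι] [DecidableEq ι] {J : ι → Type} (F : Fam n E ι J) (M : ι → ℕ)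

theorem Fam.exists_gadget (ζ₀ : E) (hadm : ∀ i, ∀ᶠ ζ in 𝓝 ζ₀, Adm (F.B i ζ))
    (hc : F.CtrlAt ζ₀ (fun i => 2 * (F.b i).ev 1 univ (M i))) (i₀ : ι) (j : ℕ)
    (hj : j + 1 < M i₀) (hd : F.evu i₀ ζ₀ j = F.evu i₀ ζ₀ (j + 1)) {U : Set E} (hU : U ∈ 𝓝 ζ₀) :
    ∃ (z : ℝ → E) (l : ∀ i, Fin (M i) → ℝ → ℝ) (V : ∀ i, Fin (M i) → ℝ → H (J i)) (L γ c : ℝ),
      0 < L ∧ 0 < γ ∧ 0 < c ∧ ContDiff ℝ ∞ z ∧ (∀ σ, z σ ∈ U) ∧
      (∀ σ, σ ≤ -1 → z σ = z (-1)) ∧ (∀ σ, 1 ≤ σ → z σ = z 1) ∧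
      (∀ σ, σ ≠ 0 → F.Simple M (z σ)) ∧
      (∀ i σ, (F.b i).EigFam (F.B i (z σ)) (fun a => V i a σ) (fun a => l i a σ)) ∧
      (∀ i a σ, l i a σ = F.evu i (z σ)
        (if i = i₀ ∧ 0 < σ then Equiv.swap j (j + 1) (a : ℕ) else a)) ∧
      (∀ i a σ, l i a σ + γ ≤ F.evu i (z σ) (M i)) ∧
      (∀ i a σ σ', |l i a σ - l i a σ'| ≤ L * |σ - σ'|) ∧
      (∀ i a σ σ', (F.b i).Near (V i a σ) (V i a σ') (L * |σ - σ'|)) ∧
      (∀ i a a' σ, a ≠ a' → c * min |σ| 1 ≤ |l i a σ - l i a' σ|) ∧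
      F.evu i₀ (z 0) j = F.evu i₀ (z 0) (j + 1) := by
  have : CompleteSpace E := FiniteDimensional.complete ℝ E
  obtain ⟨m, ℓ, Γ, -, η₀, W, t₁, t₂, hM, ht, hsurj, -, hΓ, hΓ0, -, -, -, hW, hℓ0, -, hev⟩ :=
    F.exists_flat M ζ₀ hadm hc
  have hinf : ∀ i, (univ : Set (J i)).Infinite := fun i =>
    haveI := (F.b i).inf
    infinite_univ
  have hmono : ∀ i, Monotone (F.evu i ζ₀) := fun i =>
    (F.b i).ev_mono (hadm i).self_of_nhds (hinf i)
  obtain ⟨η₁, hη₁⟩ := hsurj (fun i a c => if a = c then gadNu (i = i₀) j a else 0)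
    fun i a c => by by_cases h : a = c <;> simp [h, eq_comm]
  obtain ⟨η₂, hη₂⟩ := hsurj (fun i a c => if a = c then gadEps (i = i₀) j a else 0)
    fun i a c => by by_cases h : a = c <;> simp [h, eq_comm]
  have hT : Tendsto Γ (𝓝 η₀) (𝓝 ζ₀) := hΓ0 ▸ hΓ.continuousAt
  have hWa : AnalyticAt ℝ (fun η i => W i η) η₀ := analyticAt_pi_iff.2 hW
  obtain ⟨K, S, hS, hK⟩ := (hWa.contDiffAt (n := 1)).exists_lipschitzOnWith
  obtain ⟨r, hr, hball⟩ := Metric.eventually_nhds_iff.1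
    ((hev.and (hT.eventually (eventually_all.2 hadm))).and
      ((hT.eventually hU).and (hΓ.eventually_analyticAt.and hS)))
  obtain ⟨Lθ, hLθ, hθ⟩ := gadTh_lip
  obtain ⟨κ, hκ, hκr⟩ : ∃ κ : ℝ, 0 < κ ∧ κ * (‖η₁‖ + ‖η₂‖) < r := by
    refine ⟨r / (‖η₁‖ + ‖η₂‖ + 1), by positivity, ?_⟩
    rw [div_mul_eq_mul_div, div_lt_iff₀ (by positivity)]
    linarith
  set τ : ℝ → ℝ := fun σ => κ / 4 * gadTh σ with hτ
  set η : ℝ → E := fun σ => η₀ + κ • η₁ + τ σ • η₂ with hη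
  have hτa : ∀ σ, |τ σ| = κ / 4 * |gadTh σ| := fun σ => by
    rw [hτ, abs_mul, abs_of_pos (by positivity)]
  have hτb : ∀ σ, |τ σ| ≤ κ / 4 := fun σ => by
    rw [hτa]
    exact mul_le_of_le_one_right (by positivity) (gadTh_abs σ).2
  have hτl : ∀ σ σ', |τ σ - τ σ'| ≤ κ / 4 * Lθ * |σ - σ'| := fun σ σ' => by
    rw [hτ, ← mul_sub, abs_mul, abs_of_pos (by positivity), mul_assoc]
    exact mul_le_mul_of_nonneg_left (hθ σ σ') (by positivity)
  have hηr : ∀ σ, dist (η σ) η₀ < r := fun σ => by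
    rw [dist_eq_norm, hη]
    simp only [add_assoc, add_sub_cancel_left]
    refine (norm_add_le _ _).trans_lt (lt_of_le_of_lt ?_ hκr)
    rw [norm_smul, norm_smul, Real.norm_eq_abs, Real.norm_eq_abs, abs_of_pos hκ, mul_add]
    gcongr
    linarith [hτb σ]
  set d : ι → ℝ → ℕ → ℝ := fun i σ => gadD (i = i₀) j (F.evu i ζ₀) κ (τ σ) with hdd
  have hℓ : ∀ σ i a c, ℓ (η σ) i a c = if a = c then d i σ a else 0 := by
    intro σ i a c
    simp only [hη, map_add, map_smul, Pi.add_apply, Pi.smul_apply, hη₁, hη₂, hℓ0, smul_eq_mul, hdd,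
      gadD]
    split_ifs <;> simp
  have hE : ∀ σ i, (F.b i).EigFam (F.B i (Γ (η σ))) (W i (η σ)) fun a => d i σ a := by
    intro σ i
    obtain ⟨h1, h2, -, -⟩ := (hball (hηr σ)).1.1 i
    refine ⟨fun a => ?_, h2⟩
    rw [h1]
    simp [hℓ]
  have hsort : ∀ σ i a a', a < a' → d i σ (gadP (i = i₀ ∧ 0 < σ) j a) + 2 * |τ σ| ≤
      d i σ (gadP (i = i₀ ∧ 0 < σ) j a') := fun σ i a a' h =>
    gadD_sorted (hmono i) (hτb σ) (fun hi => hi ▸ hd)
      (fun h => mul_nonneg (by positivity) (gadTh_nonneg h.le))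
      (fun h => mul_nonpos_of_nonneg_of_nonpos (by positivity) (gadTh_nonpos (not_lt.1 h))) h
  have hjM : ∀ (σ : ℝ) i, i = i₀ ∧ 0 < σ → j + 1 < M i := fun σ i h => h.1 ▸ hj
  have hval : ∀ σ i a, a < m i → F.evu i (Γ (η σ)) a = d i σ (gadP (i = i₀ ∧ 0 < σ) j a) := by
    intro σ i a ha
    obtain ⟨-, -, h3, h4⟩ := (hball (hηr σ)).1.1 i
    refine gad_chart ((hball (hηr σ)).1.2 i) (hE σ i) (fun a => ?_) h4 (gadP_gadP _ j)
      (fun a ha => gadP_lt _ j (fun h => (hjM σ i h).trans (hM i)) ha)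
      (fun a a' h => le_trans (by linarith [abs_nonneg (τ σ)]) (hsort σ i a a' h)) ha
    have h5 := h3 (Pi.single a 1)
    simp [hℓ, Pi.single_apply] at h5
    linarith [ht i]
  refine ⟨fun σ => Γ (η σ), fun i a σ => d i σ a, fun i a σ => W i (η σ) (Fin.castLE (hM i).le a),
    κ / 4 * Lθ * (1 + K * ‖η₂‖), κ / 2, κ / 2, by positivity, by positivity, by positivity, ?_,
    fun σ => (hball (hηr σ)).2.1, fun σ h => ?_, fun σ h => ?_, fun σ h i a ha => ?_,
    fun i σ => ?_, fun i a σ => ?_, fun i a σ => ?_, fun i a σ σ' => ?_, fun i a σ σ' => ?_,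
    fun i a a' σ h => ?_, ?_⟩
  · have h1 : ContDiff ℝ ∞ η := by
      have := gadTh_smooth
      simp only [hη, hτ]
      fun_prop
    exact contDiff_iff_contDiffAt.2 fun σ =>
      ((hball (hηr σ)).2.2.1.contDiffAt (n := ∞)).comp σ h1.contDiffAt
  · simp only [hη, hτ, gadTh_neg_one h, gadTh_neg_one le_rfl]
  · simp only [hη, hτ, gadTh_one h, gadTh_one le_rfl]
  · have h1 := hM i
    rw [hval σ i a (by omega), hval σ i (a + 1) (by omega)]
    refine lt_of_lt_of_le ?_ (hsort σ i a (a + 1) (Nat.lt_succ_self a))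
    have h2 : 0 < |gadTh σ| := (lt_min (abs_pos.2 h) one_pos).trans_le (gadTh_abs σ).1
    rw [hτa]
    have : 0 < κ / 4 * |gadTh σ| := by positivity
    linarith
  · exact gad_comp (hE σ i) (Fin.castLE_injective (hM i).le)
  · have h1 := hval σ i (gadP (i = i₀ ∧ 0 < σ) j a)
      ((gadP_lt _ j (hjM σ i) a.2).trans (hM i))
    rw [gadP_gadP] at h1
    exact h1.symm
  · rw [hval σ i _ (hM i), gadP_eq _ j (hjM σ i)]
    refine gadD_lt (hmono i) (hτb σ) a.2 ?_
    rintro ⟨rfl, -, h⟩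
    omega
  · have h1 : d i σ a - d i σ' a = (τ σ - τ σ') * gadEps (i = i₀) j a := by
      simp only [hdd, gadD]
      ring
    rw [h1, abs_mul]
    refine (mul_le_of_le_one_right (abs_nonneg _) (gadEps_abs _ j a)).trans ((hτl σ σ').trans ?_)
    have h2 : 0 ≤ κ / 4 * Lθ * (K * ‖η₂‖) * |σ - σ'| := by positivity
    linarith
  · refine ⟨1, Or.inl rfl, ?_⟩
    rw [one_smul]
    have h1 := (F.b i).mass_le
      (W i (η σ') (Fin.castLE (hM i).le a) - W i (η σ) (Fin.castLE (hM i).le a))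
    have h2 := hK.norm_sub_le (hball (hηr σ')).2.2.2 (hball (hηr σ)).2.2.2
    have h3 : ‖W i (η σ') (Fin.castLE (hM i).le a) - W i (η σ) (Fin.castLE (hM i).le a)‖ ≤
        ‖(fun i => W i (η σ')) - fun i => W i (η σ)‖ :=
      (norm_le_pi_norm (W i (η σ') - W i (η σ)) (Fin.castLE (hM i).le a)).trans
        (norm_le_pi_norm ((fun i => W i (η σ')) - fun i => W i (η σ)) i)
    have h4 : η σ' - η σ = (τ σ' - τ σ) • η₂ := by
      simp only [hη]
      rw [add_sub_add_left_eq_sub, sub_smul]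
    rw [h4, norm_smul, Real.norm_eq_abs, abs_sub_comm] at h2
    have h5 : K * (|τ σ - τ σ'| * ‖η₂‖) ≤ κ / 4 * Lθ * (1 + K * ‖η₂‖) * |σ - σ'| := by
      calc K * (|τ σ - τ σ'| * ‖η₂‖) ≤ K * (κ / 4 * Lθ * |σ - σ'| * ‖η₂‖) := by
            gcongr
            exact hτl σ σ'
        _ = κ / 4 * Lθ * (K * ‖η₂‖) * |σ - σ'| := by ring
        _ ≤ _ := by
            gcongr
            linarith
    have h6 := pow_le_pow_left₀ (norm_nonneg _) (h3.trans (h2.trans h5)) 2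
    linarith [sq_nonneg (κ / 4 * Lθ * (1 + K * ‖η₂‖) * |σ - σ'|)]
  · have h1 : κ / 2 * min |σ| 1 ≤ 2 * |τ σ| := by
      rw [hτa]
      nlinarith [(gadTh_abs σ).1]
    have h2 : gadP (i = i₀ ∧ 0 < σ) j a ≠ gadP (i = i₀ ∧ 0 < σ) j a' := fun h2 =>
      h (Fin.ext (Function.Involutive.injective (gadP_gadP (i = i₀ ∧ 0 < σ) j) h2))
    refine h1.trans ?_
    rcases lt_or_gt_of_ne h2 with h3 | h3
    · have h4 := hsort σ i _ _ h3
      rw [gadP_gadP, gadP_gadP] at h4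
      exact le_abs.2 (Or.inr (by linarith))
    · have h4 := hsort σ i _ _ h3
      rw [gadP_gadP, gadP_gadP] at h4
      exact le_abs.2 (Or.inl (by linarith))
  · have h1 := hM i₀
    have h2 : τ 0 = 0 := by
      rw [hτ]
      exact mul_eq_zero_of_right _ (le_antisymm (gadTh_nonpos le_rfl) (gadTh_nonneg le_rfl))
    rw [hval 0 i₀ j (by omega), hval 0 i₀ (j + 1) (by omega)]
    simp only [gadP, lt_irrefl, and_false, if_false, hdd]
    rw [gadD_cross trivial hd, h2, mul_zero, add_zero]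

end Crest.Agent.R202
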