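import Crest.Agent.R202.Conn
import Crest.Agent.R202.Gadget
import Crest.Agent.R202.Band

/-!
# Elementary loops (task B4)

With `χ = Real.smoothTransition`, `g` the gadget path, `C, C'` the corners given by `simple_conn`:
`z σ = z₀ + χ(10σ-1)(C-z₀) + χ(10σ-2)(g(-1)-C) + (g(10σ-5) - g(-1)) + χ(10σ-7)(C'-g 1) + χ(10σ-8)(z₀-C')`.
For `σ ∈ [7/20, 13/20]` use the gadget frames, otherwise eigenvectors of the prescribed rank (`exists_eig`).
Outside `(2/5, 3/5)` the path stays in a compact set of simple points (uniform gaps, `near_of_gap`, `ev_lip`,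
`B` is Lipschitz along the path); on `[3/10, 7/10]` every frame is `±` the gadget frame (`near_of_gap` with `B = B₁`).
-/

set_option autoImplicit false

noncomputable section

open scoped InnerProductSpace ContDiff
open Set Filter Topology

namespace Crest.Agent.R202

variable {n : ℕ} {E : Type} [NormedAddCommGroup E] [NormedSpace ℝ E] [FiniteDimensional ℝ E]
  {ι : Type} [Fintype ι] [DecidableEq ι] {J : ι → Type} (F : Fam n E ι J) (M : ι → ℕ)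

theorem elem_lower {α : Type*} [Finite α] (f : α → ℝ) (hf : ∀ x, 0 < f x) :
    ∃ γ, 0 < γ ∧ ∀ x, γ ≤ f x :=
  let ⟨γ, h1, h2⟩ := (Set.finite_range f).isCompact.exists_forall_le' (f := id) continuousOn_id
    (a := 0) (by rintro _ ⟨x, rfl⟩; exact hf x)
  ⟨γ, h1, fun x => h2 _ ⟨x, rfl⟩⟩

theorem elem_upper {α : Type*} [Finite α] (f : α → ℝ) : ∃ L, 0 < L ∧ ∀ x, f x ≤ L :=
  let ⟨L, hL⟩ := (Set.finite_range f).bddAbove
  ⟨max L 1, lt_max_of_lt_right one_pos, fun x => (hL ⟨x, rfl⟩).trans (le_max_left _ _)⟩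

theorem Base.Near.mono {J : Type} {b : Base n J} {x y : H J} {t t' : ℝ} (h : b.Near x y t)
    (h0 : 0 ≤ t) (ht : t ≤ t') : b.Near x y t' :=
  let ⟨s, h1, h2⟩ := h
  ⟨s, h1, h2.trans (pow_le_pow_left₀ h0 ht 2)⟩

omit [FiniteDimensional ℝ E] in
/-- a smooth path along two segments -/
theorem elem_path {P : E → Prop} {ζ₁ ζ₂ ζ₃ : E} (h₁ : ∀ ζ ∈ segment ℝ ζ₁ ζ₃, P ζ)
    (h₂ : ∀ ζ ∈ segment ℝ ζ₃ ζ₂, P ζ) : ∃ p : ℝ → E, ContDiff ℝ ∞ p ∧ (∀ σ, P (p σ)) ∧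
      (∀ σ, σ ≤ 0 → p σ = ζ₁) ∧ ∀ σ, 2 ≤ σ → p σ = ζ₂ := by
  refine ⟨fun σ => ζ₁ + Real.smoothTransition σ • (ζ₃ - ζ₁) +
    Real.smoothTransition (σ - 1) • (ζ₂ - ζ₃), ?_, fun σ => ?_, fun σ hσ => ?_, fun σ hσ => ?_⟩
  · exact (contDiff_const.add (Real.smoothTransition.contDiff.smul contDiff_const)).add
      ((Real.smoothTransition.contDiff.comp (contDiff_id.sub contDiff_const)).smul contDiff_const)
  · rcases le_total σ 1 with h | h
    · apply h₁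
      rw [segment_eq_image']
      refine ⟨_, ⟨Real.smoothTransition.nonneg σ, Real.smoothTransition.le_one σ⟩, ?_⟩
      simp [Real.smoothTransition.zero_of_nonpos (sub_nonpos.2 h)]
    · apply h₂
      rw [segment_eq_image']
      refine ⟨_, ⟨Real.smoothTransition.nonneg (σ - 1), Real.smoothTransition.le_one _⟩, ?_⟩
      simp [Real.smoothTransition.one_of_one_le h]
  · simp [Real.smoothTransition.zero_of_nonpos hσ,
      Real.smoothTransition.zero_of_nonpos (show σ - 1 ≤ 0 by linarith)]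
  · simp [Real.smoothTransition.one_of_one_le (show 1 ≤ σ by linarith),
      Real.smoothTransition.one_of_one_le (show 1 ≤ σ - 1 by linarith)]

omit [FiniteDimensional ℝ E] [DecidableEq ι] in
/-- the energies are Lipschitz along a loop -/
theorem elem_lip {z : ℝ → E} (hz : ContDiff ℝ ∞ z) {z₀ : E}
    (h0 : ∀ σ, (σ ≤ 1 / 10 ∨ 9 / 10 ≤ σ) → z σ = z₀) :
    ∃ L, 0 < L ∧ ∀ i σ σ', ‖F.B i (z σ) - F.B i (z σ')‖ ≤ L * |σ - σ'| := by
  have key : ∀ i, ∃ C, LipschitzWith C fun σ => F.B i (z σ) - F.B i z₀ := by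
    intro i
    refine ContDiff.lipschitzWith_of_hasCompactSupport (𝕂 := ℝ) (n := 1) ?_ ?_ one_ne_zero
    · refine HasCompactSupport.intro (isCompact_Icc (a := 0) (b := 1)) fun σ hσ => ?_
      rw [h0 σ, sub_self]
      by_contra hc
      push Not at hc
      exact hσ ⟨by linarith, by linarith⟩
    · exact (((F.smooth i).of_le le_top).comp (hz.of_le (by simp))).sub contDiff_const
  choose C hC using key
  obtain ⟨L, hL, hL'⟩ := elem_upper fun i => (C i : ℝ)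
  refine ⟨L, hL, fun i σ σ' => ?_⟩
  have := (hC i).dist_le_mul σ σ'
  rw [dist_eq_norm, sub_sub_sub_cancel_right, Real.dist_eq] at this
  exact this.trans (mul_le_mul_of_nonneg_right (hL' i) (abs_nonneg _))

theorem elem_swap_lt {m j a : ℕ} (hj : j + 1 < m) (ha : a < m) : Equiv.swap j (j + 1) a < m := by
  rw [Equiv.swap_apply_def]
  split_ifs <;> omega

omit [FiniteDimensional ℝ E] in
theorem elem_glue {U : Set E} (hadm : ∀ i, ∀ ζ ∈ U, Adm (F.B i ζ)) {z₀ : E} {i₀ : ι} {j : ℕ}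
    (hj : j + 1 < M i₀) (z : ℝ → E) (hz : ContDiff ℝ ∞ z) (hU : ∀ σ, z σ ∈ U)
    (h0 : ∀ σ, (σ ≤ 1 / 10 ∨ 9 / 10 ≤ σ) → z σ = z₀)
    (hS : ∀ σ, (σ ≤ 2 / 5 ∨ 3 / 5 ≤ σ) → F.Simple M (z σ))
    (hd : F.evu i₀ (z (1 / 2)) j = F.evu i₀ (z (1 / 2)) (j + 1))
    (V : ∀ i, Fin (M i) → ℝ → H (J i)) (L γ c : ℝ) (hL : 0 < L) (hγ : 0 < γ) (hc : 0 < c)
    (l : ∀ i, Fin (M i) → ℝ → ℝ) (hl : ∀ i a σ, l i a σ = F.evu i (z σ)
      (if i = i₀ ∧ 1 / 2 < σ then Equiv.swap j (j + 1) (a : ℕ) else a))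
    (heig : ∀ i, ∀ σ ∈ Icc (3 / 10 : ℝ) (7 / 10),
      (F.b i).EigFam (F.B i (z σ)) (fun a => V i a σ) (fun a => l i a σ))
    (hgap : ∀ i a, ∀ σ ∈ Icc (3 / 10 : ℝ) (7 / 10), l i a σ + γ ≤ F.evu i (z σ) (M i))
    (hnear : ∀ i a, ∀ σ ∈ Icc (3 / 10 : ℝ) (7 / 10), ∀ σ' ∈ Icc (3 / 10 : ℝ) (7 / 10),
      (F.b i).Near (V i a σ) (V i a σ') (L * |σ - σ'|))
    (hsep : ∀ i a a', ∀ σ ∈ Icc (3 / 10 : ℝ) (7 / 10), a ≠ a' →
      c * min |σ - 1 / 2| (1 / 2) ≤ |l i a σ - l i a' σ|) :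
    Nonempty (Elem F M U z₀ i₀ j) := by
  classical
  have hinf : ∀ i, (univ : Set (J i)).Infinite := fun i => haveI := (F.b i).inf; infinite_univ
  have hA : ∀ i σ, Adm (F.B i (z σ)) := fun i σ => hadm i _ (hU σ)
  have hmono : ∀ i σ, Monotone (F.evu i (z σ)) := fun i σ => (F.b i).ev_mono (hA i σ) (hinf i)
  -- ranks
  obtain ⟨rk, hrk⟩ : ∃ rk : ∀ i, ℝ → Fin (M i) → Fin (M i), ∀ i σ a, (rk i σ a : ℕ) =
      if i = i₀ ∧ 1 / 2 < σ then Equiv.swap j (j + 1) (a : ℕ) else a := by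
    refine ⟨fun i σ a => ⟨if i = i₀ ∧ 1 / 2 < σ then Equiv.swap j (j + 1) (a : ℕ) else a, ?_⟩,
      fun _ _ _ => rfl⟩
    split_ifs with h
    · obtain ⟨rfl, -⟩ := h
      exact elem_swap_lt hj a.2
    · exact a.2
  have hrki : ∀ i σ, Function.Injective (rk i σ) := by
    intro i σ a a' h
    have h1 := congrArg Fin.val h
    rw [hrk, hrk] at h1
    split_ifs at h1
    · exact Fin.ext ((Equiv.swap j (j + 1)).injective h1)
    · exact Fin.ext h1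
  have hl' : ∀ i a σ, l i a σ = F.evu i (z σ) (rk i σ a) := fun i a σ => by rw [hl, hrk]
  -- Lipschitz bounds
  obtain ⟨LB, hLB, hB⟩ := elem_lip F hz h0
  obtain ⟨A, hA0, hA1⟩ := elem_upper fun i => (F.b i).ev 1 univ (M i)
  have hev : ∀ i k, k ≤ M i → ∀ σ σ',
      |F.evu i (z σ) k - F.evu i (z σ') k| ≤ 4 * A * LB * |σ - σ'| := by
    intro i k hk σ σ'
    refine ((F.b i).ev_lip (hA i σ) (hA i σ') (hinf i) k).trans ?_
    have h1 : (F.b i).ev 1 univ k ≤ A := ((F.b i).ev_mono adm_one (hinf i) hk).trans (hA1 i)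
    rw [mul_assoc (4 * A)]
    exact mul_le_mul (by linarith) (hB i σ σ') (norm_nonneg _) (by positivity)
  have hcont : ∀ i k, k ≤ M i → Continuous fun σ => F.evu i (z σ) k := fun i k hk =>
    (LipschitzWith.of_dist_le' (K := 4 * A * LB) fun σ σ' => hev i k hk σ σ').continuous
  -- uniform gaps
  obtain ⟨γ₁, hγ₁, hg⟩ : ∃ γ₁, 0 < γ₁ ∧ ∀ σ, (σ ≤ 2 / 5 ∨ 3 / 5 ≤ σ) → ∀ i k, k < M i →
      F.evu i (z σ) k + γ₁ ≤ F.evu i (z σ) (k + 1) := by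
    have key : ∀ x : Σ i, Fin (M i), ∃ γ', 0 < γ' ∧ ∀ σ ∈ Icc (0 : ℝ) (2 / 5) ∪ Icc (3 / 5) 1,
        γ' ≤ F.evu x.1 (z σ) (x.2 + 1) - F.evu x.1 (z σ) x.2 := by
      rintro ⟨i, k⟩
      refine (isCompact_Icc.union isCompact_Icc).exists_forall_le'
        ((hcont i _ k.2).sub (hcont i _ k.2.le)).continuousOn fun σ hσ => ?_
      exact sub_pos.2 (hS σ (hσ.imp (fun h => h.2) fun h => h.1) i k k.2)
    choose γ' h1 h2 using key
    obtain ⟨γ₁, h3, h4⟩ := elem_lower γ' h1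
    refine ⟨γ₁, h3, fun σ hσ i k hk => ?_⟩
    obtain ⟨σ', h5, h6⟩ : ∃ σ' ∈ Icc (0 : ℝ) (2 / 5) ∪ Icc (3 / 5) 1, z σ = z σ' := by
      by_cases h7 : σ ≤ 1 / 10 ∨ 9 / 10 ≤ σ
      · exact ⟨0, Or.inl ⟨le_rfl, by norm_num⟩, by rw [h0 σ h7, h0 0 (by norm_num)]⟩
      · push Not at h7
        exact ⟨σ, hσ.imp (fun h => ⟨by linarith, h⟩) fun h => ⟨h, by linarith⟩, rfl⟩
    have h8 := (h4 ⟨i, ⟨k, hk⟩⟩).trans (h2 ⟨i, ⟨k, hk⟩⟩ σ' h5)
    rw [h6]
    simp only at h8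
    linarith
  have hg' : ∀ σ, (σ ≤ 2 / 5 ∨ 3 / 5 ≤ σ) → ∀ i k k', k < k' → k' ≤ M i →
      F.evu i (z σ) k + γ₁ ≤ F.evu i (z σ) k' := fun σ hσ i k k' h1 h2 =>
    (hg σ hσ i k (by omega)).trans (hmono i σ h1)
  have hout : ∀ σ : ℝ, σ ∉ Icc (3 / 10 : ℝ) (7 / 10) → σ ≤ 2 / 5 ∨ 3 / 5 ≤ σ := by
    intro σ hσ
    by_contra h
    push Not at h
    exact hσ ⟨by linarith, by linarith⟩
  -- frames
  have hW : ∀ i σ, ∃ W : Fin (M i) → H (J i),
      (F.b i).EigFam (F.B i (z σ)) W (fun a => l i a σ) ∧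
        (σ ∈ Icc (3 / 10 : ℝ) (7 / 10) → W = fun a => V i a σ) := by
    intro i σ
    by_cases hσ : σ ∈ Icc (3 / 10 : ℝ) (7 / 10)
    · exact ⟨_, heig i σ hσ, fun _ => rfl⟩
    · obtain ⟨W, hW, -⟩ := (F.b i).exists_eig (hA i σ) (hinf i) (fun _ _ _ h => absurd trivial h)
        (M i)
      refine ⟨fun a => W (rk i σ a), ⟨fun a => ?_, fun a a' => ?_⟩, fun h => absurd h hσ⟩
      · rw [hl']
        exact hW.eig _
      · rw [hW.orth]
        simp only [(hrki i σ).eq_iff]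
  choose W hW1 hW2 using hW
  choose C hC0 hC using fun x : Σ i, Fin (M i) => (F.b x.1).near_of_gap x.2 hγ₁
  obtain ⟨C', hC'0, hC'⟩ := elem_upper C
  have hnear' : ∀ i a σ σ', ((σ ≤ 2 / 5 ∧ σ' ≤ 2 / 5) ∨ (3 / 5 ≤ σ ∧ 3 / 5 ≤ σ')) →
      (F.b i).Near (W i σ a) (W i σ' a) (C' * LB * |σ - σ'|) := by
    intro i a σ σ' h
    have hσ : σ ≤ 2 / 5 ∨ 3 / 5 ≤ σ := h.imp And.left And.left
    have hr : rk i σ' a = rk i σ a := by
      apply Fin.ext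
      rw [hrk, hrk]
      refine if_congr (and_congr_right fun _ => ?_) rfl rfl
      rcases h with h | h <;> constructor <;> intro <;> linarith
    have e1 := (hW1 i σ).eig a
    have e2 := (hW1 i σ').eig a
    simp only [hl', hr] at e1 e2
    refine (hC ⟨i, rk i σ a⟩ _ _ (hA i σ) (hA i σ')
      (fun k hk => hg' σ hσ i k _ hk (rk i σ a).2.le) (hg σ hσ i _ (rk i σ a).2) _ _ e1
      (by simpa using (hW1 i σ).orth a a) e2 (by simpa using (hW1 i σ').orth a a)).mono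
      (mul_nonneg (hC0 _).le (norm_nonneg _)) ?_
    rw [mul_assoc]
    exact mul_le_mul (hC' _) (hB i σ σ') (norm_nonneg _) hC'0.le
  have hlip : ∀ i a σ σ', σ ≤ σ' → |l i a σ - l i a σ'| ≤ 4 * A * LB * |σ - σ'| := by
    intro i a σ σ' hσ
    by_cases hr : rk i σ' a = rk i σ a
    · rw [hl', hl', hr]
      exact hev i _ (rk i σ a).2.le σ σ'
    · have h1 : i = i₀ ∧ σ ≤ 1 / 2 ∧ 1 / 2 < σ' := by
        by_contra h
        apply hr
        apply Fin.ext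
        rw [hrk, hrk]
        refine if_congr (and_congr_right fun hi => ⟨fun h2 => ?_, fun h2 => h2.trans_le hσ⟩) rfl rfl
        by_contra h3
        exact h ⟨hi, not_lt.1 h3, h2⟩
      obtain ⟨rfl, h2, h3⟩ := h1
      have h4 : F.evu i (z (1 / 2)) (rk i σ a) = F.evu i (z (1 / 2)) (rk i σ' a) := by
        rw [hrk, hrk, if_neg (fun h => absurd h.2 (not_lt.2 h2)), if_pos ⟨rfl, h3⟩,
          Equiv.swap_apply_def]
        split_ifs with h5 h6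
        · rw [h5, hd]
        · rw [h6, hd]
        · rfl
      have h5 := hev i _ (rk i σ a).2.le σ (1 / 2)
      have h6 := hev i _ (rk i σ' a).2.le (1 / 2) σ'
      rw [abs_of_nonpos (show σ - 1 / 2 ≤ 0 by linarith)] at h5
      rw [abs_of_nonpos (show 1 / 2 - σ' ≤ 0 by linarith), ← h4] at h6
      rw [hl', hl', abs_of_nonpos (show σ - σ' ≤ 0 by linarith)]
      refine (abs_sub_le _ _ _).trans ((add_le_add h5 h6).trans (le_of_eq (by ring)))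
  have hp1 : 0 < 4 * A * LB := by positivity
  have hp2 : 0 < C' * LB := by positivity
  refine ⟨⟨z, l, fun i a σ => W i σ a, 4 * A * LB + C' * LB + L, min γ γ₁, min c γ₁,
    by positivity, lt_min hγ hγ₁, lt_min hc hγ₁, hz, hU, h0, hW1, hl, fun i a σ => ?_,
    fun i a σ σ' => ?_, fun i a σ σ' hσ => ?_, fun i a a' σ ha => ?_, hd⟩⟩
  · by_cases hσ : σ ∈ Icc (3 / 10 : ℝ) (7 / 10)
    · exact le_trans (by linarith [min_le_left γ γ₁]) (hgap i a σ hσ)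
    · rw [hl']
      exact le_trans (by linarith [min_le_right γ γ₁])
        (hg' σ (hout σ hσ) i _ _ (rk i σ a).2 le_rfl)
  · have h1 : |l i a σ - l i a σ'| ≤ 4 * A * LB * |σ - σ'| := by
      rcases le_total σ σ' with h | h
      · exact hlip i a σ σ' h
      · rw [abs_sub_comm, abs_sub_comm σ]
        exact hlip i a σ' σ h
    exact h1.trans (mul_le_mul_of_nonneg_right (by linarith) (abs_nonneg _))
  · by_cases h : σ ∈ Icc (3 / 10 : ℝ) (7 / 10) ∧ σ' ∈ Icc (3 / 10 : ℝ) (7 / 10)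
    · rw [hW2 i σ h.1, hW2 i σ' h.2]
      exact (hnear i a σ h.1 σ' h.2).mono (by positivity)
        (mul_le_mul_of_nonneg_right (by linarith) (abs_nonneg _))
    · refine (hnear' i a σ σ' ?_).mono (by positivity)
        (mul_le_mul_of_nonneg_right (by linarith) (abs_nonneg _))
      obtain ⟨h1, h2⟩ := abs_le.1 hσ
      by_cases h3 : σ ≤ 7 / 20
      · exact Or.inl ⟨by linarith, by linarith⟩
      by_cases h4 : 13 / 20 ≤ σ
      · exact Or.inr ⟨by linarith, by linarith⟩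
      exact absurd ⟨⟨by linarith, by linarith⟩, ⟨by linarith, by linarith⟩⟩ h
  · have hm : 0 ≤ min |σ - 1 / 2| (1 / 2) := le_min (abs_nonneg _) (by norm_num)
    by_cases hσ : σ ∈ Icc (3 / 10 : ℝ) (7 / 10)
    · exact (mul_le_mul_of_nonneg_right (min_le_left _ _) hm).trans (hsep i a a' σ hσ ha)
    · have h1 : min c γ₁ * min |σ - 1 / 2| (1 / 2) ≤ γ₁ :=
        (mul_le_mul (min_le_right _ _) ((min_le_right _ _).trans (by norm_num)) hm hγ₁.le).trans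
          (mul_one γ₁).le
      refine h1.trans ?_
      rw [hl', hl']
      rcases lt_or_gt_of_ne ((hrki i σ).ne ha) with h | h
      · have := hg' σ (hout σ hσ) i _ _ h (rk i σ a').2.le
        rw [abs_sub_comm]
        exact le_trans (by linarith) (le_abs_self _)
      · have := hg' σ (hout σ hσ) i _ _ h (rk i σ a).2.le
        exact le_trans (by linarith) (le_abs_self _)


theorem Fam.exists_elem (a b : E) {ρ₀ : ℝ} (hρ₀ : 0 < ρ₀)
    (hadm : ∀ i, ∀ ζ ∈ tube a b ρ₀, Adm (F.B i ζ))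
    (hc : ∀ s ∈ Icc (0 : ℝ) 1, F.CtrlAt (a + s • b) (fun i => 2 * (F.b i).ev 1 univ (M i))) :
    ∃ ρ₁ : ℝ, 0 < ρ₁ ∧ ∀ ρ, 0 < ρ → ρ ≤ ρ₁ → ∃ z₀ ∈ tube a b ρ, F.Simple M z₀ ∧
      ∀ (i₀ : ι) (j : ℕ), j + 1 < M i₀ →
        (∃ s ∈ Icc (0 : ℝ) 1, F.evu i₀ (a + s • b) j = F.evu i₀ (a + s • b) (j + 1)) →
        Nonempty (Elem F M (tube a b ρ) z₀ i₀ j) := by
  obtain ⟨ρ₁, hρ₁, hconn⟩ := F.simple_conn M a b hρ₀ hadm hc
  refine ⟨min ρ₀ ρ₁, lt_min hρ₀ hρ₁, fun ρ hρ hρ' => ?_⟩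
  obtain ⟨⟨z₀, hz₀, hS₀⟩, hconn⟩ := hconn ρ hρ (hρ'.trans (min_le_right _ _))
  refine ⟨z₀, hz₀, hS₀, ?_⟩
  rintro i₀ j hj ⟨s, hs, hd⟩
  have hadm' : ∀ i, ∀ ζ ∈ tube a b ρ, Adm (F.B i ζ) := by
    rintro i ζ ⟨t, ht, h⟩
    exact hadm i ζ ⟨t, ht, h.trans_le (hρ'.trans (min_le_left _ _))⟩
  have hU : tube a b ρ ∈ 𝓝 (a + s • b) :=
    (isOpen_tube a b ρ).mem_nhds ⟨s, hs, by simpa using hρ⟩
  obtain ⟨g, l, V, L, γ, c, hL, hγ, hc', g1, g2, g3, g4, g5, g6, g7, g8, -, g9, g10, g11⟩ :=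
    F.exists_gadget M (a + s • b) (fun i => Filter.mem_of_superset hU (hadm' i)) (hc s hs) i₀ j hj
      hd hU
  have hpath : ∀ ζ₁ ∈ tube a b ρ, ∀ ζ₂ ∈ tube a b ρ, F.Simple M ζ₁ → F.Simple M ζ₂ →
      ∃ p : ℝ → E, ContDiff ℝ ∞ p ∧ (∀ σ, p σ ∈ tube a b ρ ∧ F.Simple M (p σ)) ∧
        (∀ σ, σ ≤ 0 → p σ = ζ₁) ∧ ∀ σ, 2 ≤ σ → p σ = ζ₂ := by
    intro ζ₁ h₁ ζ₂ h₂ s₁ s₂
    obtain ⟨ζ₃, h₃, a1, a2⟩ := hconn ζ₁ h₁ ζ₂ h₂ s₁ s₂
    exact elem_path (P := fun ζ => ζ ∈ tube a b ρ ∧ F.Simple M ζ)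
      (fun ζ hζ => ⟨(convex_tube a b ρ).segment_subset h₁ h₃ hζ, a1 ζ hζ⟩)
      fun ζ hζ => ⟨(convex_tube a b ρ).segment_subset h₃ h₂ hζ, a2 ζ hζ⟩
  obtain ⟨p, p1, p2, p3, p4⟩ := hpath z₀ hz₀ (g (-1)) (g2 _) hS₀ (g5 _ (by norm_num))
  obtain ⟨q, q1, q2, q3, q4⟩ := hpath (g 1) (g2 _) z₀ hz₀ (g5 _ (by norm_num)) hS₀
  obtain ⟨z, hz⟩ : ∃ z : ℝ → E, z = fun σ =>
      p (10 * σ - 1) + (g (10 * σ - 5) - g (-1)) + (q (10 * σ - 7) - g 1) := ⟨_, rfl⟩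
  have z1 : ∀ σ, σ ≤ 2 / 5 → z σ = p (10 * σ - 1) := fun σ h => by
    simp only [hz]
    rw [g3 _ (by linarith), q3 _ (by linarith)]
    simp
  have z2 : ∀ σ ∈ Icc (3 / 10 : ℝ) (7 / 10), z σ = g (10 * σ - 5) := fun σ h => by
    simp only [hz]
    rw [p4 _ (by linarith [h.1]), q3 _ (by linarith [h.2])]
    simp
  have z3 : ∀ σ, 3 / 5 ≤ σ → z σ = q (10 * σ - 7) := fun σ h => by
    simp only [hz]
    rw [g4 _ (by linarith), p4 _ (by linarith)]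
    simp
  have haff : ∀ t : ℝ, ContDiff ℝ ∞ fun σ : ℝ => 10 * σ - t := fun t =>
    (contDiff_const.mul contDiff_id).sub contDiff_const
  have hl : ∀ i (a' : Fin (M i)), ∀ σ ∈ Icc (3 / 10 : ℝ) (7 / 10), F.evu i (z σ)
      (if i = i₀ ∧ 1 / 2 < σ then Equiv.swap j (j + 1) (a' : ℕ) else a') = l i a' (10 * σ - 5) := by
    intro i a' σ hσ
    rw [g7, z2 σ hσ]
    congr 1
    refine if_congr (and_congr_right fun _ => ?_) rfl rfl
    constructor <;> intro <;> linarith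
  refine elem_glue F M hadm' hj z ?_ (fun σ => ?_) (fun σ hσ => ?_) (fun σ hσ => ?_) ?_
    (fun i a' σ => V i a' (10 * σ - 5)) (10 * L) γ c (by positivity) hγ hc' _ (fun _ _ _ => rfl)
    (fun i σ hσ => ?_) (fun i a' σ hσ => ?_) (fun i a' σ hσ σ' hσ' => ?_)
    (fun i a' a'' σ hσ ha => ?_)
  · rw [hz]
    exact ((p1.comp (haff 1)).add ((g1.comp (haff 5)).sub contDiff_const)).add
      ((q1.comp (haff 7)).sub contDiff_const)
  · by_cases h1 : σ ≤ 2 / 5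
    · rw [z1 σ h1]
      exact (p2 _).1
    by_cases h2 : 3 / 5 ≤ σ
    · rw [z3 σ h2]
      exact (q2 _).1
    rw [z2 σ ⟨by linarith, by linarith⟩]
    exact g2 _
  · rcases hσ with h | h
    · rw [z1 σ (by linarith), p3 _ (by linarith)]
    · rw [z3 σ (by linarith), q4 _ (by linarith)]
  · rcases hσ with h | h
    · rw [z1 σ h]
      exact (p2 _).2
    · rw [z3 σ h]
      exact (q2 _).2
  · rw [z2 _ ⟨by norm_num, by norm_num⟩, show (10 : ℝ) * (1 / 2) - 5 = 0 by norm_num]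
    exact g11
  · simp only [hl _ _ σ hσ]
    rw [z2 σ hσ]
    exact g6 i _
  · rw [hl _ _ σ hσ, z2 σ hσ]
    exact g8 i a' _
  · have := g9 i a' (10 * σ - 5) (10 * σ' - 5)
    rwa [show 10 * σ - 5 - (10 * σ' - 5) = 10 * (σ - σ') by ring, abs_mul,
      abs_of_pos (show (0 : ℝ) < 10 by norm_num), ← mul_assoc, mul_comm L] at this
  · rw [hl _ _ σ hσ, hl _ _ σ hσ]
    refine le_trans (mul_le_mul_of_nonneg_left (min_le_min ?_ (by norm_num)) hc'.le)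
      (g10 i a' a'' _ ha)
    rw [show 10 * σ - 5 = 10 * (σ - 1 / 2) by ring, abs_mul,
      abs_of_pos (show (0 : ℝ) < 10 by norm_num)]
    linarith [abs_nonneg (σ - 1 / 2)]

end Crest.Agent.R202
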