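import Crest.Agent.R202.EvBasic

/-!
# Existence of eigenvectors (task A2)

Induction on `m`.  Minimise `⟪B y, y⟫` over `{Supp S y, mass y y = 1, y ⊥ V_i}`; with `l` the infimum the form
`q y = ⟪B y, y⟫ - l * mass y y` is `≥ 0` on that closed subspace; a minimising sequence is bounded, a subsequence is
Cauchy for `mass` (the `lam k → ∞`, finitely many coordinates converge), and the parallelogram law for `q` makes it
Cauchy in norm.  The minimiser is an eigenvector (first variation; `B`, `K` preserve `Supp S` and the span of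
the `K V_i`), and `l = ev B S m` by `ev_le` / `le_ev`.
-/

set_option autoImplicit false

noncomputable section

open scoped InnerProductSpace ContDiff
open Set Filter Topology

namespace Crest.Agent.R202


variable {n : ℕ} {J : Type} (b : Base n J)

namespace EvEx

section Abstract
variable {E : Type*} [NormedAddCommGroup E] [InnerProductSpace ℝ E]

theorem parall (T : E →L[ℝ] E) (x y : E) :
    ⟪T (x - y), x - y⟫_ℝ + ⟪T (x + y), x + y⟫_ℝ = 2 * ⟪T x, x⟫_ℝ + 2 * ⟪T y, y⟫_ℝ := by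
  simp only [map_sub, map_add, inner_sub_left, inner_sub_right, inner_add_left, inner_add_right]
  ring

theorem first_var {T : E →L[ℝ] E} (hT : ∀ x y, ⟪T x, y⟫_ℝ = ⟪x, T y⟫_ℝ) {W : Submodule ℝ E}
    (h : ∀ y ∈ W, 0 ≤ ⟪T y, y⟫_ℝ) {v : E} (hv : v ∈ W) (h0 : ⟪T v, v⟫_ℝ = 0) {y : E}
    (hy : y ∈ W) : ⟪T v, y⟫_ℝ = 0 := by
  have h1 : ∀ t : ℝ, 0 ≤ ⟪T y, y⟫_ℝ * (t * t) + 2 * ⟪T v, y⟫_ℝ * t + 0 := fun t => by
    have h2 := h (v + t • y) (W.add_mem hv (W.smul_mem t hy))
    have h3 : ⟪T y, v⟫_ℝ = ⟪T v, y⟫_ℝ := by rw [hT y v, real_inner_comm]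
    simp only [map_add, map_smul, inner_add_left, inner_add_right, real_inner_smul_left,
      real_inner_smul_right, h0, h3] at h2
    linarith
  have h2 := discrim_le_zero h1
  rw [discrim] at h2
  nlinarith [sq_nonneg ⟪T v, y⟫_ℝ]

theorem exists_min [CompleteSpace E] {B K : E →L[ℝ] E} (hB : ∀ x, ‖x‖ ^ 2 / 2 ≤ ⟪B x, x⟫_ℝ)
    (hK : ∀ x, x ≠ 0 → 0 < ⟪K x, x⟫_ℝ) (hc : IsCompactOperator K)
    {W : Submodule ℝ E} (hW : IsClosed (W : Set E)) (h0 : ∃ y ∈ W, y ≠ 0) :
    ∃ v ∈ W, ⟪K v, v⟫_ℝ = 1 ∧ ∀ y ∈ W, ⟪B v, v⟫_ℝ * ⟪K y, y⟫_ℝ ≤ ⟪B y, y⟫_ℝ := by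
  set A : Set ℝ := {t | ∃ y ∈ W, ⟪K y, y⟫_ℝ = 1 ∧ ⟪B y, y⟫_ℝ = t} with hA
  have hnorm : ∀ y ∈ W, y ≠ 0 → ∃ c : ℝ, c ^ 2 * ⟪K y, y⟫_ℝ = 1 ∧ c ^ 2 * ⟪B y, y⟫_ℝ ∈ A := by
    intro y hy hy0
    have h1 := hK y hy0
    have h2 : (√⟪K y, y⟫_ℝ)⁻¹ ^ 2 * ⟪K y, y⟫_ℝ = 1 := by
      rw [inv_pow, Real.sq_sqrt h1.le, inv_mul_cancel₀ h1.ne']
    refine ⟨_, h2, (√⟪K y, y⟫_ℝ)⁻¹ • y, W.smul_mem _ hy, ?_, ?_⟩
    · rw [map_smul, real_inner_smul_left, real_inner_smul_right, ← mul_assoc, ← sq, h2]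
    · rw [map_smul, real_inner_smul_left, real_inner_smul_right, ← mul_assoc, ← sq]
  have hA0 : ∀ t ∈ A, 0 ≤ t := by
    rintro _ ⟨y, -, -, rfl⟩
    exact le_trans (by positivity) (hB y)
  have hne : A.Nonempty := by
    obtain ⟨y, hy, hy0⟩ := h0
    obtain ⟨c, -, h⟩ := hnorm y hy hy0
    exact ⟨_, h⟩
  have hbd : BddBelow A := ⟨0, hA0⟩
  set l := sInf A with hl
  have hl0 : 0 ≤ l := le_csInf hne hA0
  have hq : ∀ y ∈ W, l * ⟪K y, y⟫_ℝ ≤ ⟪B y, y⟫_ℝ := fun y hy => by
    by_cases hy0 : y = 0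
    · simp [hy0]
    obtain ⟨c, h1, h2⟩ := hnorm y hy hy0
    calc l * ⟪K y, y⟫_ℝ ≤ c ^ 2 * ⟪B y, y⟫_ℝ * ⟪K y, y⟫_ℝ :=
          mul_le_mul_of_nonneg_right (csInf_le hbd h2) (hK y hy0).le
      _ = c ^ 2 * ⟪K y, y⟫_ℝ * ⟪B y, y⟫_ℝ := by ring
      _ = _ := by rw [h1, one_mul]
  obtain ⟨u, hu, hul, huA⟩ := exists_seq_tendsto_sInf hne hbd
  choose y hyW hyK hyB using huA
  set R := √(2 * u 0) with hR
  have hyR : ∀ n, ‖y n‖ ≤ R := fun n => by
    refine Real.le_sqrt_of_sq_le ?_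
    have h1 := hB (y n)
    have h2 := hu (Nat.zero_le n)
    rw [hyB] at h1
    linarith
  obtain ⟨C, hC, hCK⟩ :=
    IsCompactOperator.image_closedBall_subset_compact (f := (K : E →ₗ[ℝ] E)) hc R
  obtain ⟨a, -, φ, hφ, ha⟩ := hC.tendsto_subseq (x := fun n => K (y n)) fun n =>
    hCK ⟨y n, mem_closedBall_zero_iff.2 (hyR n), rfl⟩
  set g : ℕ → ℝ := fun n => 4 * (u (φ n) - l) + 4 * l * R * ‖K (y (φ n)) - a‖ with hg
  have hg0 : Tendsto g atTop (𝓝 0) := by
    have h1 : Tendsto (fun n => u (φ n) - l) atTop (𝓝 0) := by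
      have h := (hul.comp hφ.tendsto_atTop).sub_const l
      rwa [← hl, sub_self] at h
    have h2 : Tendsto (fun n => ‖K (y (φ n)) - a‖) atTop (𝓝 0) :=
      tendsto_iff_norm_sub_tendsto_zero.1 ha
    simpa using (h1.const_mul 4).add (h2.const_mul (4 * l * R))
  have hest : ∀ i j, ‖y (φ i) - y (φ j)‖ ^ 2 ≤ g i + g j := fun i j => by
    have h1 := hB (y (φ i) - y (φ j))
    have h2 := parall B (y (φ i)) (y (φ j))
    have h3 := parall K (y (φ i)) (y (φ j))
    have h4 := hq _ (W.add_mem (hyW (φ i)) (hyW (φ j)))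
    rw [hyB, hyB] at h2
    rw [hyK, hyK] at h3
    have h5 : ⟪K (y (φ i) - y (φ j)), y (φ i) - y (φ j)⟫_ℝ ≤
        (‖K (y (φ i)) - a‖ + ‖K (y (φ j)) - a‖) * (2 * R) := by
      refine (real_inner_le_norm _ _).trans (mul_le_mul ?_ ?_ (norm_nonneg _) (by positivity))
      · rw [map_sub]
        have := norm_sub_le (K (y (φ i)) - a) (K (y (φ j)) - a)
        rwa [sub_sub_sub_cancel_right] at this
      · have := norm_sub_le (y (φ i)) (y (φ j))
        linarith [hyR (φ i), hyR (φ j)]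
    have h6 := mul_le_mul_of_nonneg_left h5 hl0
    have h7 : l * ⟪K (y (φ i) + y (φ j)), y (φ i) + y (φ j)⟫_ℝ =
        4 * l - l * ⟪K (y (φ i) - y (φ j)), y (φ i) - y (φ j)⟫_ℝ := by
      linear_combination l * h3
    simp only [hg]
    linarith
  have hcau : CauchySeq fun n => y (φ n) := by
    refine Metric.cauchySeq_iff.2 fun ε hε => ?_
    obtain ⟨N, hN⟩ := eventually_atTop.1 (hg0.eventually (gt_mem_nhds (show 0 < ε ^ 2 / 2 by
      positivity)))
    refine ⟨N, fun i hi j hj => ?_⟩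
    rw [dist_eq_norm]
    refine lt_of_pow_lt_pow_left₀ 2 hε.le ?_
    linarith [hest i j, hN i hi, hN j hj]
  obtain ⟨v, hv⟩ := cauchySeq_tendsto_of_complete hcau
  have hvK : Tendsto (fun n => ⟪K (y (φ n)), y (φ n)⟫_ℝ) atTop (𝓝 ⟪K v, v⟫_ℝ) :=
    ((K.continuous.tendsto v).comp hv).inner hv
  have hvB : Tendsto (fun n => ⟪B (y (φ n)), y (φ n)⟫_ℝ) atTop (𝓝 ⟪B v, v⟫_ℝ) :=
    ((B.continuous.tendsto v).comp hv).inner hv
  simp only [hyK] at hvK
  simp only [hyB] at hvB
  refine ⟨v, hW.mem_of_tendsto hv (Eventually.of_forall fun n => hyW _),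
    tendsto_nhds_unique hvK tendsto_const_nhds, ?_⟩
  rw [tendsto_nhds_unique hvB (hul.comp hφ.tendsto_atTop)]
  exact hq

end Abstract

theorem K_compact : IsCompactOperator b.K := by
  classical
  let F : ℕ → H J →L[ℝ] H J := fun N => ∑ k ∈ (b.finite_lam_le N).toFinset,
    (lp.singleContinuousLinearMap ℝ (fun _ : J => ℝ) 2 k).comp
      ((b.lam k)⁻¹ • lp.evalCLM ℝ (fun _ : J => ℝ) 2 k)
  have hF : ∀ N x k, F N x k = if b.lam k ≤ N then (b.lam k)⁻¹ * x k else 0 := by
    intro N x k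
    have : F N x = ∑ k ∈ (b.finite_lam_le N).toFinset, lp.single 2 k ((b.lam k)⁻¹ * x k) := by
      simp only [F, _root_.sum_apply]
      rfl
    rw [this]
    simp only [lp.coeFn_sum, lp.coeFn_single, Finset.sum_apply, Finset.sum_pi_single,
      Finite.mem_toFinset, mem_ofPred_eq]
  refine isCompactOperator_of_tendsto (l := atTop) (F := F) ?_ (Eventually.of_forall fun N => ?_)
  · rw [tendsto_iff_norm_sub_tendsto_zero]
    refine squeeze_zero' (Eventually.of_forall fun _ => norm_nonneg _) ?_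
      (tendsto_inv_atTop_nhds_zero_nat (𝕜 := ℝ))
    filter_upwards [eventually_gt_atTop 0] with N hN
    have hN' : (0 : ℝ) < N := by exact_mod_cast hN
    refine ContinuousLinearMap.opNorm_le_bound _ (by positivity) fun x => ?_
    have h1 : ‖((N : ℝ)⁻¹ • x : H J)‖ = (N : ℝ)⁻¹ * ‖x‖ := by
      rw [norm_smul, Real.norm_of_nonneg (by positivity)]
    rw [← h1]
    refine lp.norm_mono (by norm_num) fun k => ?_
    rw [_root_.sub_apply, lp.coeFn_sub, Pi.sub_apply, hF, Base.K_apply,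
      lp.coeFn_smul, Pi.smul_apply, smul_eq_mul]
    split_ifs with h
    · simp only [sub_self, norm_zero, norm_nonneg]
    · rw [zero_sub, norm_neg, norm_mul, norm_mul]
      refine mul_le_mul_of_nonneg_right ?_ (norm_nonneg _)
      have h2 := b.two_le_lam k
      rw [Real.norm_of_nonneg (by positivity), Real.norm_of_nonneg (by positivity)]
      exact inv_anti₀ hN' (not_le.1 h).le
  · refine (compactOperator (RingHom.id ℝ) (H J) (H J)).sum_mem fun k _ => ?_
    exact (isCompactOperator_of_locallyCompactSpace_dom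
      ((b.lam k)⁻¹ • lp.evalCLM ℝ (fun _ : J => ℝ) 2 k)).clm_comp
        (lp.singleContinuousLinearMap ℝ (fun _ : J => ℝ) 2 k)

theorem K_symm (x y : H J) : ⟪b.K x, y⟫_ℝ = ⟪x, b.K y⟫_ℝ := by
  have := b.mass_symm x y
  rw [Base.mass, Base.mass] at this
  rw [this, real_inner_comm]

theorem mass_nonneg (x : H J) : 0 ≤ b.mass x x := by
  by_cases h : x = 0
  · simp [h, Base.mass]
  · exact (b.mass_pos h).le

/-- vectors supported in `S` and mass-orthogonal to the `V i` -/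
def orthSub (S : Set J) {I : Type} (V : I → H J) : Submodule ℝ (H J) where
  carrier := {y | Supp S y ∧ ∀ i, b.mass (V i) y = 0}
  add_mem' := fun {x y} hx hy => ⟨fun k hk => by
    rw [lp.coeFn_add, Pi.add_apply, hx.1 k hk, hy.1 k hk, add_zero], fun i => by
      have h1 := hx.2 i
      have h2 := hy.2 i
      rw [Base.mass] at h1 h2 ⊢
      rw [inner_add_right, h1, h2, add_zero]⟩
  zero_mem' := ⟨fun k _ => rfl, fun i => by simp [Base.mass]⟩
  smul_mem' := fun c x hx => ⟨fun k hk => by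
    rw [lp.coeFn_smul, Pi.smul_apply, hx.1 k hk, smul_zero], fun i => by
      have h1 := hx.2 i
      rw [Base.mass] at h1 ⊢
      rw [real_inner_smul_right, h1, mul_zero]⟩

theorem mem_orthSub {S : Set J} {I : Type} {V : I → H J} {y : H J} :
    y ∈ orthSub b S V ↔ Supp S y ∧ ∀ i, b.mass (V i) y = 0 := Iff.rfl

theorem isClosed_orthSub (S : Set J) {I : Type} (V : I → H J) :
    IsClosed (orthSub b S V : Set (H J)) := by
  have e : (orthSub b S V : Set (H J)) =
      (⋂ k ∈ Sᶜ, {y : H J | lp.evalCLM ℝ (fun _ : J => ℝ) 2 k y = 0}) ∩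
        ⋂ i, {y : H J | ⟪b.K (V i), y⟫_ℝ = 0} := by
    ext y
    simp only [SetLike.mem_coe, mem_orthSub, mem_inter_iff, mem_iInter, mem_ofPred_eq,
      mem_compl_iff]
    rfl
  rw [e]
  exact (isClosed_biInter fun k _ => isClosed_eq (by fun_prop) continuous_const).inter
    (isClosed_iInter fun i => isClosed_eq (by fun_prop) continuous_const)

theorem supp_sum {S : Set J} {I : Type} [Fintype I] {V : I → H J} (hV : ∀ i, Supp S (V i))
    (c : I → ℝ) : Supp S (∑ i, c i • V i) := fun k hk => by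
  rw [lp.coeFn_sum, Finset.sum_apply]
  exact Finset.sum_eq_zero fun i _ => by rw [lp.coeFn_smul, Pi.smul_apply, hV i k hk, smul_zero]

theorem orthSub_ne {S : Set J} (hS : S.Infinite) {m : ℕ} (V : Fin m → H J) :
    ∃ y ∈ orthSub b S V, y ≠ 0 := by
  classical
  let e : Fin (m + 1) → J := fun i => hS.natEmbedding S i
  have he : Function.Injective e := fun i j h =>
    Fin.ext ((hS.natEmbedding S).injective (Subtype.ext h))
  let w : Fin (m + 1) → H J := fun i => lp.single 2 (e i) (1 : ℝ)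
  have hw : ∀ i, Supp S (w i) := fun i k hk =>
    lp.single_apply_ne 2 (e i) _ fun h => hk (h ▸ (hS.natEmbedding S i).2)
  let f : (Fin (m + 1) → ℝ) →ₗ[ℝ] Fin m → ℝ :=
    LinearMap.pi fun i => (innerₛₗ ℝ (b.K (V i))).comp (Fintype.linearCombination ℝ w)
  obtain ⟨c, hc, hc0⟩ := (Submodule.ne_bot_iff _).1
    (LinearMap.ker_ne_bot_of_finrank_lt (f := f) (by simp))
  refine ⟨∑ i, c i • w i, ⟨supp_sum hw c, fun i => congrFun hc i⟩, fun h => hc0 ?_⟩
  funext i
  have h1 : (∑ j, c j • w j : H J) (e i) = c i := by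
    rw [lp.coeFn_sum, Finset.sum_apply, Finset.sum_eq_single i]
    · rw [lp.coeFn_smul, Pi.smul_apply, lp.single_apply_self, smul_eq_mul, mul_one]
    · intro j _ hj
      rw [lp.coeFn_smul, Pi.smul_apply, lp.single_apply_ne 2 (e j) _ (he.ne hj.symm), smul_zero]
    · simp
  rw [← h1, h]
  rfl

theorem mass_sum_right {B : H J →L[ℝ] H J} {I : Type} [Fintype I] [DecidableEq I] {V : I → H J}
    {l : I → ℝ} (hV : b.EigFam B V l) (c : I → ℝ) (i : I) :
    b.mass (V i) (∑ k, c k • V k) = c i := by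
  have h := hV.orth
  simp only [Base.mass] at h ⊢
  simp only [inner_sum, real_inner_smul_right, h, mul_ite, mul_one, mul_zero, Finset.sum_ite_eq,
    Finset.mem_univ, if_true]

theorem mass_sum_sum {B : H J →L[ℝ] H J} {I : Type} [Fintype I] [DecidableEq I] {V : I → H J}
    {l : I → ℝ} (hV : b.EigFam B V l) (c : I → ℝ) :
    b.mass (∑ k, c k • V k) (∑ k, c k • V k) = ∑ k, c k ^ 2 := by
  have h := mass_sum_right b hV c
  simp only [Base.mass] at h ⊢
  rw [map_sum, sum_inner]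
  refine Finset.sum_congr rfl fun i _ => ?_
  rw [map_smul, real_inner_smul_left, h, sq]

theorem energy_sum_sum {B : H J →L[ℝ] H J} {I : Type} [Fintype I] [DecidableEq I] {V : I → H J}
    {l : I → ℝ} (hV : b.EigFam B V l) (c : I → ℝ) :
    ⟪B (∑ k, c k • V k), ∑ k, c k • V k⟫_ℝ = ∑ k, l k * c k ^ 2 := by
  have h := mass_sum_right b hV c
  simp only [Base.mass] at h
  rw [map_sum, sum_inner]
  refine Finset.sum_congr rfl fun i _ => ?_
  rw [map_smul, real_inner_smul_left, hV.eig, real_inner_smul_left, h]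
  ring

theorem linInd {B : H J →L[ℝ] H J} {I : Type} [Fintype I] [DecidableEq I] {V : I → H J}
    {l : I → ℝ} (hV : b.EigFam B V l) : LinearIndependent ℝ V :=
  Fintype.linearIndependent_iff.2 fun c hc i => by
    rw [← mass_sum_right b hV c i, hc, Base.mass, inner_zero_right]

theorem eigFam_snoc {B : H J →L[ℝ] H J} {m : ℕ} {V : Fin m → H J} {l : Fin m → ℝ}
    (hV : b.EigFam B V l) {v : H J} {t : ℝ} (h1 : B v = t • b.K v) (h2 : b.mass v v = 1)
    (h3 : ∀ i, b.mass (V i) v = 0) :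
    b.EigFam B (Fin.snoc V v : Fin (m + 1) → H J) (Fin.snoc l t : Fin (m + 1) → ℝ) := by
  refine ⟨fun i => ?_, fun i k => ?_⟩
  · induction i using Fin.lastCases with
    | last => simpa only [Fin.snoc_last] using h1
    | cast i => simpa only [Fin.snoc_castSucc] using hV.eig i
  · induction i using Fin.lastCases with
    | last =>
      induction k using Fin.lastCases with
      | last => simp only [Fin.snoc_last, h2, if_true]
      | cast k =>
        rw [Fin.snoc_last, Fin.snoc_castSucc, b.mass_symm, h3, if_neg (Fin.castSucc_ne_last k).symm]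
    | cast i =>
      induction k using Fin.lastCases with
      | last => rw [Fin.snoc_last, Fin.snoc_castSucc, h3, if_neg (Fin.castSucc_ne_last i)]
      | cast k => simp only [Fin.snoc_castSucc, hV.orth, Fin.castSucc_inj]

theorem step {B : H J →L[ℝ] H J} (hB : Adm B) {S : Set J} (hS : S.Infinite)
    (hI : Inv S B) {m : ℕ} {V : Fin m → H J} {l : Fin m → ℝ} (hV : b.EigFam B V l)
    (hs : ∀ i, Supp S (V i))
    (h : ∀ i y, Supp S y → (∀ k, b.mass (V k) y = 0) → l i * b.mass y y ≤ ⟪B y, y⟫_ℝ) :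
    ∃ v, Supp S v ∧ b.mass v v = 1 ∧ (∀ i, b.mass (V i) v = 0) ∧ B v = b.ev B S m • b.K v ∧
      ∀ y, Supp S y → (∀ i, b.mass (V i) y = 0) → b.ev B S m * b.mass y y ≤ ⟪B y, y⟫_ℝ := by
  obtain ⟨v, hv, hv1, hmin⟩ := exists_min (B := B) (K := b.K) (fun x => (hB.2 x).1)
    (fun x hx => b.mass_pos hx) (K_compact b) (isClosed_orthSub b S V) (orthSub_ne b hS V)
  set t := ⟪B v, v⟫_ℝ with ht
  have hT : ∀ x y, ⟪(B - t • b.K) x, y⟫_ℝ = ⟪B x, y⟫_ℝ - t * ⟪b.K x, y⟫_ℝ := fun x y => by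
    rw [_root_.sub_apply, _root_.smul_apply, inner_sub_left,
      real_inner_smul_left]
  have hTs : ∀ x y, ⟪(B - t • b.K) x, y⟫_ℝ = ⟪x, (B - t • b.K) y⟫_ℝ := fun x y => by
    rw [hT, _root_.sub_apply, _root_.smul_apply, inner_sub_right,
      real_inner_smul_right, hB.1, K_symm]
  have hvar : ∀ y ∈ orthSub b S V, ⟪(B - t • b.K) v, y⟫_ℝ = 0 := fun y hy =>
    first_var hTs (fun y hy => by rw [hT]; exact sub_nonneg.2 (hmin y hy)) hv
      (by rw [hT, hv1, mul_one, sub_self]) hy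
  have hVi : ∀ i, ⟪(B - t • b.K) v, V i⟫_ℝ = 0 := fun i => by
    have h1 := hv.2 i
    rw [Base.mass] at h1
    rw [hTs, real_inner_comm, hT, hV.eig, real_inner_smul_left, h1, mul_zero, mul_zero, sub_zero]
  have hall : ∀ y, Supp S y → ⟪(B - t • b.K) v, y⟫_ℝ = 0 := fun y hy => by
    have h1 : y - ∑ i, b.mass (V i) y • V i ∈ orthSub b S V := by
      refine ⟨fun k hk => ?_, fun i => ?_⟩
      · rw [lp.coeFn_sub, Pi.sub_apply, hy k hk, supp_sum hs _ k hk, sub_zero]
      · have h2 := mass_sum_right b hV (fun i => b.mass (V i) y) i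
        rw [Base.mass] at h2
        rw [Base.mass, inner_sub_right, h2, Base.mass, sub_self]
    have h2 := hvar _ h1
    rw [inner_sub_right, inner_sum] at h2
    simpa only [real_inner_smul_right, hVi, mul_zero, Finset.sum_const_zero, sub_zero] using h2
  have heig : B v = t • b.K v := by
    have h1 : Supp S ((B - t • b.K) v) := fun k hk => by
      rw [_root_.sub_apply, lp.coeFn_sub, Pi.sub_apply, hI v hv.1 k hk,
        _root_.smul_apply, lp.coeFn_smul, Pi.smul_apply, Base.K_apply, hv.1 k hk]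
      simp
    have h2 := inner_self_eq_zero.1 (hall _ h1)
    rwa [_root_.sub_apply, sub_eq_zero] at h2
  have hlt : ∀ i, l i ≤ t := fun i => by
    have h1 := h i v hv.1 hv.2
    rwa [Base.mass, hv1, mul_one] at h1
  have hev : b.ev B S m = t := by
    refine le_antisymm ?_ (b.le_ev hB hS (I := Fin m) (by simp) V fun y h1 h2 => hmin y ⟨h1, h2⟩)
    have hV' := eigFam_snoc b hV heig hv1 hv.2
    refine b.ev_le hB (Submodule.span ℝ (range (Fin.snoc V v : Fin (m + 1) → H J)))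
      (by rw [finrank_span_eq_card (linInd b hV'), Fintype.card_fin]) fun y hy => ?_
    obtain ⟨c, rfl⟩ := (Submodule.mem_span_range_iff_exists_fun ℝ).1 hy
    refine ⟨supp_sum (fun i => ?_) c, ?_⟩
    · induction i using Fin.lastCases with
      | last => simpa only [Fin.snoc_last] using hv.1
      | cast i => simpa only [Fin.snoc_castSucc] using hs i
    · rw [energy_sum_sum b hV', mass_sum_sum b hV', Finset.mul_sum]
      refine Finset.sum_le_sum fun i _ => mul_le_mul_of_nonneg_right ?_ (sq_nonneg _)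
      induction i using Fin.lastCases with
      | last => simp only [Fin.snoc_last, le_refl]
      | cast i => simpa only [Fin.snoc_castSucc] using hlt i
  rw [hev]
  exact ⟨v, hv.1, hv1, hv.2, heig, fun y h1 h2 => hmin y ⟨h1, h2⟩⟩

end EvEx

theorem Base.exists_eig {B : H J →L[ℝ] H J} (hB : Adm B) {S : Set J} (hS : S.Infinite)
    (hI : Inv S B) (m : ℕ) :
    ∃ V : Fin m → H J, b.EigFam B V (fun i => b.ev B S i) ∧ (∀ i, Supp S (V i)) ∧
      ∀ y, Supp S y → (∀ i, b.mass (V i) y = 0) → b.ev B S m * b.mass y y ≤ ⟪B y, y⟫_ℝ := by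
  have key : ∀ m : ℕ, ∃ V : Fin m → H J, b.EigFam B V (fun i => b.ev B S i) ∧
      (∀ i, Supp S (V i)) ∧ ∀ (i : Fin m) y, Supp S y → (∀ k, b.mass (V k) y = 0) →
        b.ev B S i * b.mass y y ≤ ⟪B y, y⟫_ℝ := by
    intro m
    induction m with
    | zero => exact ⟨Fin.elim0, ⟨fun i => i.elim0, fun i => i.elim0⟩, fun i => i.elim0,
        fun i => i.elim0⟩
    | succ m ih =>
      obtain ⟨V, hV, hs, h⟩ := ih
      obtain ⟨v, h1, h2, h3, h4, h5⟩ := EvEx.step b hB hS hI hV hs h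
      have hV' := EvEx.eigFam_snoc b hV h4 h2 h3
      have e : (Fin.snoc (fun i : Fin m => b.ev B S i) (b.ev B S m) : Fin (m + 1) → ℝ) =
          fun i : Fin (m + 1) => b.ev B S i := by
        funext i
        induction i using Fin.lastCases with
        | last => simp only [Fin.snoc_last, Fin.val_last]
        | cast i => simp only [Fin.snoc_castSucc, Fin.val_castSucc]
      rw [e] at hV'
      refine ⟨_, hV', fun i => ?_, fun i y hy hy' => ?_⟩
      · induction i using Fin.lastCases with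
        | last => simpa only [Fin.snoc_last] using h1
        | cast i => simpa only [Fin.snoc_castSucc] using hs i
      · refine le_trans (mul_le_mul_of_nonneg_right (b.ev_mono hB hS (Nat.lt_succ_iff.1 i.2))
          (EvEx.mass_nonneg b y)) (h5 y hy fun k => ?_)
        simpa only [Fin.snoc_castSucc] using hy' k.castSucc
  obtain ⟨V, hV, hs, h⟩ := key m
  obtain ⟨v, -, -, -, -, h5⟩ := EvEx.step b hB hS hI hV hs h
  exact ⟨V, hV, hs, h5⟩

end Crest.Agent.R202
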