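import Crest.Agent.R202.Orth
import Crest.Agent.R202.Build

/-!
# Expansion of polynomials and the energy inequality (tasks F1c, F1d)

On the surface `X₀² + X₁² = S`: `X₀ zt μ`, `X₁ zt μ` are combinations of `zt (±(|μ|+1))` and `S zt (±(|μ|-1))`, so every monomial of weight `≤ D`
is a combination of `zt μ τ^b` with `|μ| + r b ≤ D`, and `τ^b = rad m b - ∑_{i ≥ 1} γᵢ τ^{b-(3-r)i}` (strong induction).  So `fn g` is a
combination of the `fn (ek k)` (and of the constant if `j = 0`); the coefficients are found by `ip_ek`.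
Energy: `∬ (Dθ e Dθ e' + Dφ e Dφ e' + κ cos^{2j-2} ev e ev e') w0 = λ δ` by `prof_ode` and an integration by parts; `κ ≥ 0`.
-/

set_option autoImplicit false

noncomputable section

open scoped InnerProductSpace ContDiff
open Set Filter Topology
open MvPolynomial Real

namespace Crest.Agent.R202

variable {r n : ℕ} (c : Cl r n)

def exC (r m b : ℕ) : ℝ → ℝ → ℝ := fun θ φ => sin θ ^ m * cos (m * φ) * (cos θ ^ r) ^ b
def exS (r m b : ℕ) : ℝ → ℝ → ℝ := fun θ φ => sin θ ^ m * sin (m * φ) * (cos θ ^ r) ^ b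
def exX0 : ℝ → ℝ → ℝ := fun θ φ => sin θ * cos φ
def exX1 : ℝ → ℝ → ℝ := fun θ φ => sin θ * sin φ
def exT (r : ℕ) : ℝ → ℝ → ℝ := fun θ _ => cos θ ^ r

/-- the span of the trigonometric monomials of weight `≤ D` -/
def exW (r D : ℕ) : Submodule ℝ (ℝ → ℝ → ℝ) :=
  Submodule.span ℝ {f | ∃ m b, m + r * b ≤ D ∧ (f = exC r m b ∨ f = exS r m b)}

theorem exC_mem {m b D : ℕ} (h : m + r * b ≤ D) : exC r m b ∈ exW r D :=
  Submodule.subset_span ⟨m, b, h, Or.inl rfl⟩

theorem exS_mem {m b D : ℕ} (h : m + r * b ≤ D) : exS r m b ∈ exW r D :=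
  Submodule.subset_span ⟨m, b, h, Or.inr rfl⟩

theorem exW_mono {D D' : ℕ} (h : D ≤ D') : exW r D ≤ exW r D' :=
  Submodule.span_mono fun _ ⟨m, b, h1, h2⟩ => ⟨m, b, h1.trans h, h2⟩

theorem exW_mul (u : ℝ → ℝ → ℝ) {D D' : ℕ} (hC : ∀ m b, m + r * b ≤ D → u * exC r m b ∈ exW r D')
    (hS : ∀ m b, m + r * b ≤ D → u * exS r m b ∈ exW r D') {f : ℝ → ℝ → ℝ} (hf : f ∈ exW r D) :
    u * f ∈ exW r D' := by
  induction hf using Submodule.span_induction with
  | mem f hf =>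
    obtain ⟨m, b, h, rfl | rfl⟩ := hf
    · exact hC m b h
    · exact hS m b h
  | zero => simp
  | add f g _ _ hf hg =>
    rw [mul_add]
    exact Submodule.add_mem _ hf hg
  | smul a f _ hf =>
    rw [mul_smul_comm]
    exact Submodule.smul_mem _ _ hf

theorem exW_pow (u : ℝ → ℝ → ℝ) (w : ℕ) (hu : ∀ D, ∀ f ∈ exW r D, u * f ∈ exW r (D + w)) (a : ℕ)
    {D : ℕ} {f : ℝ → ℝ → ℝ} (hf : f ∈ exW r D) : u ^ a * f ∈ exW r (D + w * a) := by
  induction a with
  | zero => simpa using hf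
  | succ a ih =>
    rw [pow_succ', mul_assoc, Nat.mul_succ, ← add_assoc]
    exact hu _ _ ih

theorem exT_mul (D : ℕ) : ∀ f ∈ exW r D, exT r * f ∈ exW r (D + r) := by
  intro f hf
  refine exW_mul _ (fun m b h => ?_) (fun m b h => ?_) hf
  · have e : exT r * exC r m b = exC r m (b + 1) := by
      funext θ φ
      simp only [exT, exC, Pi.mul_apply]
      ring
    rw [e]
    exact exC_mem (by rw [Nat.mul_succ]; omega)
  · have e : exT r * exS r m b = exS r m (b + 1) := by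
      funext θ φ
      simp only [exT, exS, Pi.mul_apply]
      ring
    rw [e]
    exact exS_mem (by rw [Nat.mul_succ]; omega)

include c in
theorem Cl.ex_tau (θ : ℝ) : (cos θ ^ r) ^ (3 - r) = 1 - sin θ ^ 2 := by
  rcases c.ok with ⟨rfl, -⟩ | ⟨rfl, -⟩
  · norm_num [cos_sq']
  · norm_num [cos_sq']

include c in
theorem Cl.ex_wt (b : ℕ) : r * (b + (3 - r)) = r * b + 2 := by
  rcases c.ok with ⟨rfl, -⟩ | ⟨rfl, -⟩ <;> omega

theorem ex_cast2 (m : ℕ) (φ : ℝ) : ((m + 1 + 1 : ℕ) : ℝ) * φ = ((m + 1 : ℕ) : ℝ) * φ + φ := by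
  push_cast
  ring

theorem ex_cast0 (m : ℕ) (φ : ℝ) : (m : ℝ) * φ = ((m + 1 : ℕ) : ℝ) * φ - φ := by
  push_cast
  ring

include c in
theorem Cl.exX0_mul (D : ℕ) : ∀ f ∈ exW r D, exX0 * f ∈ exW r (D + 1) := by
  intro f hf
  refine exW_mul _ (fun m b h => ?_) (fun m b h => ?_) hf
  · cases m with
    | zero =>
      have e : exX0 * exC r 0 b = exC r 1 b := by
        funext θ φ
        simp [exX0, exC]
      rw [e]
      exact exC_mem (by omega)
    | succ m =>
      have e : exX0 * exC r (m + 1) b = (1 / 2 : ℝ) • exC r (m + 1 + 1) b +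
          (1 / 2 : ℝ) • (exC r m b - exC r m (b + (3 - r))) := by
        funext θ φ
        simp only [exX0, exC, Pi.mul_apply, Pi.add_apply, Pi.smul_apply, Pi.sub_apply, smul_eq_mul]
        rw [ex_cast2, ex_cast0 m, cos_add, cos_sub, pow_add _ b, c.ex_tau]
        ring
      rw [e]
      exact Submodule.add_mem _ (Submodule.smul_mem _ _ (exC_mem (by omega))) (Submodule.smul_mem _ _
        (Submodule.sub_mem _ (exC_mem (by omega)) (exC_mem (by rw [c.ex_wt]; omega))))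
  · cases m with
    | zero =>
      have e : exX0 * exS r 0 b = 0 := by
        funext θ φ
        simp [exS]
      rw [e]
      exact Submodule.zero_mem _
    | succ m =>
      have e : exX0 * exS r (m + 1) b = (1 / 2 : ℝ) • exS r (m + 1 + 1) b +
          (1 / 2 : ℝ) • (exS r m b - exS r m (b + (3 - r))) := by
        funext θ φ
        simp only [exX0, exS, Pi.mul_apply, Pi.add_apply, Pi.smul_apply, Pi.sub_apply, smul_eq_mul]
        rw [ex_cast2, ex_cast0 m, sin_add, sin_sub, pow_add _ b, c.ex_tau]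
        ring
      rw [e]
      exact Submodule.add_mem _ (Submodule.smul_mem _ _ (exS_mem (by omega))) (Submodule.smul_mem _ _
        (Submodule.sub_mem _ (exS_mem (by omega)) (exS_mem (by rw [c.ex_wt]; omega))))

include c in
theorem Cl.exX1_mul (D : ℕ) : ∀ f ∈ exW r D, exX1 * f ∈ exW r (D + 1) := by
  intro f hf
  refine exW_mul _ (fun m b h => ?_) (fun m b h => ?_) hf
  · cases m with
    | zero =>
      have e : exX1 * exC r 0 b = exS r 1 b := by
        funext θ φ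
        simp [exX1, exC, exS]
      rw [e]
      exact exS_mem (by omega)
    | succ m =>
      have e : exX1 * exC r (m + 1) b = (1 / 2 : ℝ) • exS r (m + 1 + 1) b -
          (1 / 2 : ℝ) • (exS r m b - exS r m (b + (3 - r))) := by
        funext θ φ
        simp only [exX1, exC, exS, Pi.mul_apply, Pi.smul_apply, Pi.sub_apply, smul_eq_mul]
        rw [ex_cast2, ex_cast0 m, sin_add, sin_sub, pow_add _ b, c.ex_tau]
        ring
      rw [e]
      exact Submodule.sub_mem _ (Submodule.smul_mem _ _ (exS_mem (by omega))) (Submodule.smul_mem _ _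
        (Submodule.sub_mem _ (exS_mem (by omega)) (exS_mem (by rw [c.ex_wt]; omega))))
  · cases m with
    | zero =>
      have e : exX1 * exS r 0 b = 0 := by
        funext θ φ
        simp [exS]
      rw [e]
      exact Submodule.zero_mem _
    | succ m =>
      have e : exX1 * exS r (m + 1) b = (1 / 2 : ℝ) • (exC r m b - exC r m (b + (3 - r))) -
          (1 / 2 : ℝ) • exC r (m + 1 + 1) b := by
        funext θ φ
        simp only [exX1, exC, exS, Pi.mul_apply, Pi.smul_apply, Pi.sub_apply, smul_eq_mul]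
        rw [ex_cast2, ex_cast0 m, cos_add, cos_sub, pow_add _ b, c.ex_tau]
        ring
      rw [e]
      exact Submodule.sub_mem _ (Submodule.smul_mem _ _
        (Submodule.sub_mem _ (exC_mem (by omega)) (exC_mem (by rw [c.ex_wt]; omega))))
        (Submodule.smul_mem _ _ (exC_mem (by omega)))

include c in
theorem Cl.ex_eval_mem {D : ℕ} {g : P3} (hg : Fil r D g) :
    (fun θ φ => eval (pt r θ φ) g) ∈ exW r D := by
  have e : (fun θ φ => eval (pt r θ φ) g) = ∑ s ∈ g.support,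
      coeff s g • (exX0 ^ s 0 * (exX1 ^ s 1 * (exT r ^ s 2 * exC r 0 0))) := by
    funext θ φ
    rw [eval_eq']
    simp only [Finset.sum_apply]
    refine Finset.sum_congr rfl fun s _ => ?_
    simp [Fin.prod_univ_three, pt, exX0, exX1, exT, exC, mul_assoc]
  rw [e]
  refine Submodule.sum_mem _ fun s hs => Submodule.smul_mem _ _ (exW_mono ?_
    (exW_pow _ 1 c.exX0_mul (s 0) (exW_pow _ 1 c.exX1_mul (s 1) (exW_pow _ r exT_mul (s 2)
      (exC_mem (D := 0) le_rfl)))))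
  have := hg s hs
  omega

/-- functions whose product with `cos ^ j` is a combination of the basis functions -/
def Cl.exU (D : ℕ) : Submodule ℝ (ℝ → ℝ → ℝ) where
  carrier := {f | ∃ (a₀ : ℝ) (a : c.J → ℝ), (c.j ≠ 0 → a₀ = 0) ∧ ∀ θ φ, cos θ ^ c.j * f θ φ =
    a₀ + ∑ k ∈ c.base.low (c.j + D), a k * c.fn (c.ek k) θ φ}
  add_mem' := by
    rintro f g ⟨a₀, a, h0, h⟩ ⟨b₀, b, h0', h'⟩
    refine ⟨a₀ + b₀, a + b, fun hj => by rw [h0 hj, h0' hj, add_zero], fun θ φ => ?_⟩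
    simp only [Pi.add_apply, mul_add, add_mul, Finset.sum_add_distrib, h, h']
    ring
  zero_mem' := ⟨0, 0, fun _ => rfl, fun θ φ => by simp⟩
  smul_mem' := by
    rintro t f ⟨a₀, a, h0, h⟩
    refine ⟨t * a₀, t • a, fun hj => by rw [h0 hj, mul_zero], fun θ φ => ?_⟩
    simp only [Pi.smul_apply, smul_eq_mul, mul_assoc, ← Finset.mul_sum]
    rw [mul_left_comm, h]
    ring

theorem Cl.ex_R_mem {D : ℕ} (μ : ℤ) (b : ℕ) (h : μ.natAbs + r * b ≤ D) :
    (fun θ φ => eval (pt r θ φ) (zt μ * c.rad μ.natAbs b)) ∈ c.exU D := by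
  classical
  by_cases hk : 1 ≤ c.j + μ.natAbs + r * b
  · let k : c.J := ⟨(μ, b), hk⟩
    have hmem : k ∈ c.base.low (c.j + D) := by
      refine c.base.mem_low.mpr ?_
      change c.j + μ.natAbs + r * b ≤ c.j + D
      omega
    refine ⟨0, Pi.single k (c.nrm k)⁻¹, fun _ => rfl, fun θ φ => ?_⟩
    rw [Finset.sum_eq_single_of_mem k hmem fun k' _ hk' => by rw [Pi.single_eq_of_ne hk', zero_mul],
      Pi.single_eq_same, zero_add, Cl.fn, Cl.ek, map_mul (eval _) (C _), eval_C]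
    have := (c.nrm_pos k).ne'
    have e : c.gk k = zt μ * c.rad μ.natAbs b := rfl
    rw [e]
    field_simp
  · have h1 := c.r_pos
    have hb : b = 0 := by
      by_contra hb
      have := Nat.mul_pos h1 (Nat.pos_of_ne_zero hb)
      omega
    have hj : c.j = 0 := by omega
    have hμ : μ = 0 := by omega
    subst hb hμ
    refine ⟨1, 0, fun h => absurd hj h, fun θ φ => ?_⟩
    simp [hj, zt, zeta, Cl.rad, Cl.gam]

theorem Cl.ex_E_mem {D : ℕ} (μ : ℤ) (b : ℕ) (h : μ.natAbs + r * b ≤ D) :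
    (fun θ φ => sin θ ^ μ.natAbs * trig μ φ * (cos θ ^ r) ^ b) ∈ c.exU D := by
  induction b using Nat.strong_induction_on with
  | _ b ih =>
    have e : (fun θ φ => sin θ ^ μ.natAbs * trig μ φ * (cos θ ^ r) ^ b) =
        (fun θ φ => eval (pt r θ φ) (zt μ * c.rad μ.natAbs b)) -
          ∑ i ∈ Finset.range b, c.gam μ.natAbs b (i + 1) •
            fun θ φ => sin θ ^ μ.natAbs * trig μ φ * (cos θ ^ r) ^ (b - (3 - r) * (i + 1)) := by
      funext θ φ
      have e2 : eval (pt r θ φ) (X 2 : P3) = cos θ ^ r := by simp [pt]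
      simp only [Pi.sub_apply, Finset.sum_apply, Pi.smul_apply, smul_eq_mul, map_mul, eval_zt, Cl.rad,
        map_sum, eval_C, map_pow, e2]
      rw [Finset.sum_range_succ', mul_add, Finset.mul_sum]
      simp only [Cl.gam, mul_zero, Nat.sub_zero, one_mul]
      rw [add_comm, add_sub_assoc, ← Finset.sum_sub_distrib, Finset.sum_eq_zero, add_zero]
      intro i _
      ring
    rw [e]
    refine Submodule.sub_mem _ (c.ex_R_mem μ b h) (Submodule.sum_mem _ fun i hi =>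
      Submodule.smul_mem _ _ (ih _ ?_ ?_))
    · have h1 := Finset.mem_range.mp hi
      have h2 : 1 ≤ (3 - r) * (i + 1) := by
        rcases c.ok with ⟨rfl, -⟩ | ⟨rfl, -⟩ <;> omega
      omega
    · exact le_trans (Nat.add_le_add_left (Nat.mul_le_mul_left r (Nat.sub_le _ _)) _) h

theorem Cl.exW_le (D : ℕ) : exW r D ≤ c.exU D := by
  refine Submodule.span_le.mpr ?_
  rintro f ⟨m, b, h, rfl | rfl⟩
  · have h1 := c.ex_E_mem (m : ℤ) b (D := D) (by simpa using h)
    simp only [trig, if_pos (Int.natCast_nonneg m), Int.natAbs_natCast] at h1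
    exact h1
  · by_cases hm : m = 0
    · have e : exS r m b = 0 := by
        funext θ φ
        simp [exS, hm]
      rw [e]
      exact Submodule.zero_mem _
    · have h1 := c.ex_E_mem (-(m : ℤ)) b (D := D) (by simpa using h)
      have h2 : ¬ (0 : ℤ) ≤ -(m : ℤ) := by omega
      simp only [trig, if_neg h2, Int.natAbs_neg, Int.natAbs_natCast] at h1
      exact h1

theorem Cl.ex_ip_comm (g h : P3) : c.ip g h = c.ip h g := by
  simp only [Cl.ip, mul_comm]

theorem Cl.ex_repr {D : ℕ} {g : P3} (hg : Fil r D g) : ∃ (a₀ : ℝ) (a : c.J → ℝ),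
    (c.j ≠ 0 → a₀ = 0) ∧
    (∀ θ φ, c.fn g θ φ = a₀ + ∑ k ∈ c.base.low (c.j + D), a k * c.fn (c.ek k) θ φ) ∧
    ∀ h, c.ip g h = a₀ * c.ip 1 h + ∑ k ∈ c.base.low (c.j + D), a k * c.ip (c.ek k) h := by
  obtain ⟨a₀, a, h0, ha⟩ := c.exW_le D (c.ex_eval_mem hg)
  refine ⟨a₀, a, h0, ha, fun h => ?_⟩
  have h1 := sint_sum (r := r) (n := n) (Finset.insertNone (c.base.low (c.j + D)))
    (fun o => o.elim a₀ a) (fun o θ φ => c.fn (o.elim 1 c.ek) θ φ * c.fn h θ φ)
    fun o => (c.contDiff_fn _).continuous.mul (c.contDiff_fn _).continuous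
  simp only [Finset.sum_insertNone, Option.elim] at h1
  refine Eq.trans ?_ h1
  rw [Cl.ip]
  congr 1
  funext θ φ
  have h2 : a₀ * c.fn 1 θ φ = a₀ := by
    by_cases hj : c.j = 0
    · simp [Cl.fn, hj]
    · rw [h0 hj, zero_mul]
  have h3 : c.fn g θ φ = _ := ha θ φ
  rw [h3, add_mul, Finset.sum_mul, ← mul_assoc, h2]
  simp only [mul_assoc]

theorem Cl.ex_ip_one_one (hj : c.j = 0) : c.ip 1 1 ≠ 0 := by
  rcases c.ok with ⟨rfl, rfl, -⟩ | ⟨-, -, h⟩
  · simp [Cl.ip, sint, Cl.fn, hj, w0]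
  · omega

theorem Cl.ex_coef {D : ℕ} {g : P3} {a₀ : ℝ} {a : c.J → ℝ} (h0 : c.j ≠ 0 → a₀ = 0)
    (h : ∀ h, c.ip g h = a₀ * c.ip 1 h + ∑ k ∈ c.base.low (c.j + D), a k * c.ip (c.ek k) h) (k : c.J) :
    c.ip g (c.ek k) = if k ∈ c.base.low (c.j + D) then a k else 0 := by
  classical
  have h1 : a₀ * c.ip 1 (c.ek k) = 0 := by
    by_cases hj : c.j = 0
    · rw [c.ex_ip_comm, c.ip_ek_one hj, mul_zero]
    · rw [h0 hj, zero_mul]
  rw [h, h1, zero_add]
  simp only [c.ip_ek, mul_ite, mul_one, mul_zero, Finset.sum_ite_eq']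

theorem Cl.expand {D : ℕ} {g : P3} (hg : Fil r D g) (h0 : c.j = 0 → c.ip g 1 = 0) (θ φ : ℝ) :
    c.fn g θ φ = ∑ k ∈ c.base.low (c.j + D), c.ip g (c.ek k) * c.fn (c.ek k) θ φ := by
  obtain ⟨a₀, a, ha0, ha, hip⟩ := c.ex_repr hg
  have h1 : a₀ = 0 := by
    by_cases hj : c.j = 0
    · have h2 := hip 1
      simp only [h0 hj, c.ip_ek_one hj, mul_zero, Finset.sum_const_zero, add_zero] at h2
      exact (mul_eq_zero.mp h2.symm).resolve_right (c.ex_ip_one_one hj)
    · exact ha0 hj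
  rw [ha, h1, zero_add]
  refine Finset.sum_congr rfl fun k hk => ?_
  rw [c.ex_coef ha0 hip, if_pos hk]

theorem Cl.ip_ek_eq_zero {D : ℕ} {g : P3} (hg : Fil r D g) {k : c.J} (hk : c.j + D < c.deg k) :
    c.ip g (c.ek k) = 0 := by
  obtain ⟨a₀, a, ha0, -, hip⟩ := c.ex_repr hg
  rw [c.ex_coef ha0 hip, if_neg]
  rw [c.base.mem_low]
  exact not_le.mpr hk

theorem ex_hasDerivAt_trig (μ : ℤ) (φ : ℝ) :
    HasDerivAt (trig μ) (-(μ : ℝ) * trig (-μ) φ) φ := by
  have hl : HasDerivAt (fun s : ℝ => (μ.natAbs : ℝ) * s) (μ.natAbs : ℝ) φ := by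
    simpa using (hasDerivAt_id φ).const_mul (μ.natAbs : ℝ)
  rcases lt_trichotomy μ 0 with h | h | h
  · have e : trig μ = fun s => sin ((μ.natAbs : ℝ) * s) := by
      funext s
      rw [trig, if_neg (by omega)]
    have e2 : -(μ : ℝ) = (μ.natAbs : ℝ) := by
      rw [Nat.cast_natAbs, abs_of_neg h]
      push_cast
      rfl
    rw [e, trig, if_pos (by omega), Int.natAbs_neg, e2, mul_comm]
    exact hl.sin
  · subst h
    have e : trig 0 = fun _ => 1 := by
      funext s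
      simp [trig]
    rw [e]
    simpa using hasDerivAt_const φ (1 : ℝ)
  · have e : trig μ = fun s => cos ((μ.natAbs : ℝ) * s) := by
      funext s
      rw [trig, if_pos (by omega)]
    have e2 : (μ : ℝ) = (μ.natAbs : ℝ) := by
      rw [Nat.cast_natAbs, abs_of_pos h]
    rw [e, trig, if_neg (by omega), Int.natAbs_neg]
    refine hl.cos.congr_deriv ?_
    rw [← e2]
    ring

theorem ex_continuous_trig (μ : ℤ) : Continuous (trig μ) :=
  continuous_iff_continuousAt.mpr fun φ => (ex_hasDerivAt_trig μ φ).continuousAt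

theorem Cl.ex_Dθ_ek (k : c.J) (θ φ : ℝ) :
    c.Dθ (c.ek k) θ φ = deriv (c.prof k) θ * trig k.1.1 φ := by
  simp only [Cl.Dθ, c.fn_ek]
  exact deriv_mul_const_field _

theorem Cl.ex_Dφ_ek (k : c.J) (θ φ : ℝ) :
    sin θ * c.Dφ (c.ek k) θ φ = c.prof k θ * (-(k.1.1 : ℝ) * trig (-k.1.1) φ) := by
  have h1 := c.hasDerivAt_fn_φ (c.ek k) θ φ
  simp only [c.fn_ek, c.fn_Phi] at h1
  exact h1.unique ((ex_hasDerivAt_trig _ φ).const_mul _)

/-- `cos ^ (j - 1)` times the value -/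
def Cl.exL (g : P3) (θ φ : ℝ) : ℝ := cos θ ^ (c.j - 1) * eval (pt r θ φ) g

theorem Cl.ex_continuous_L (g : P3) : Continuous fun p : ℝ × ℝ => c.exL g p.1 p.2 :=
  ((continuous_cos.comp continuous_fst).pow _).mul (contDiff_evalpt g).continuous

theorem Cl.ex_L_sum {I : Type} (s : Finset I) (a : I → ℝ) (g : I → P3) (θ φ : ℝ) :
    c.exL (∑ i ∈ s, C (a i) * g i) θ φ = ∑ i ∈ s, a i * c.exL (g i) θ φ := by
  simp only [Cl.exL, map_sum, map_mul, eval_C, Finset.mul_sum]
  exact Finset.sum_congr rfl fun i _ => by ring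

theorem Cl.ex_kap_nonneg : 0 ≤ c.kap := by
  rcases c.ok with ⟨-, -, h⟩ | ⟨-, h, -⟩
  · simp [Cl.kap, h]
  · have h1 : (4 : ℝ) ≤ n := by exact_mod_cast h
    have h2 : (0 : ℝ) ≤ c.j := Nat.cast_nonneg _
    exact mul_nonneg h2 (by linarith)

include c in
theorem Cl.ex_sin_ne {θ : ℝ} (h : θ ∈ Ioo 0 (π / r)) : sin θ ≠ 0 := by
  have h1 : (1 : ℝ) ≤ r := by exact_mod_cast c.r_pos
  exact (sin_pos_of_pos_of_lt_pi h.1 (h.2.trans_le (div_le_self pi_pos.le h1))).ne'

theorem Cl.ex_kap_L {θ : ℝ} (h : θ ∈ Ioo 0 (π / r)) (g g₁ : P3) (φ : ℝ) :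
    c.kap * (c.exL g θ φ * c.exL g₁ θ φ) = c.kap / cos θ ^ 2 * (c.fn g θ φ * c.fn g₁ θ φ) := by
  rcases c.ok with ⟨-, -, hj⟩ | ⟨rfl, -, hj⟩
  · simp [Cl.kap, hj]
  · have hc : cos θ ≠ 0 := by
      refine (cos_pos_of_mem_Ioo ⟨by linarith [h.1, pi_pos], ?_⟩).ne'
      exact_mod_cast h.2
    have e : cos θ ^ c.j = cos θ ^ (c.j - 1) * cos θ := by
      rw [← pow_succ, Nat.sub_add_cancel hj]
    rw [Cl.fn, Cl.fn, Cl.exL, Cl.exL, e]
    field_simp

include c in
theorem Cl.ex_w0_end : w0 n (π / r) = 0 := by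
  rcases c.ok with ⟨rfl, -, -⟩ | ⟨rfl, h, -⟩
  · simp [w0]
  · have : n - 3 ≠ 0 := by omega
    simp [w0, this]

theorem Cl.ex_energy_pair (k k₁ : c.J) :
    sint r n (fun θ φ => c.Dθ (c.ek k) θ φ * c.Dθ (c.ek k₁) θ φ + c.Dφ (c.ek k) θ φ * c.Dφ (c.ek k₁) θ φ +
      c.kap * (c.exL (c.ek k) θ φ * c.exL (c.ek k₁) θ φ)) = if k = k₁ then c.base.lam k else 0 := by
  have hr : (0 : ℝ) ≤ π / r := div_nonneg pi_pos.le (Nat.cast_nonneg _)
  have hin : ∀ θ ∈ Ioo 0 (π / r), ∫ φ in (0 : ℝ)..2 * π,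
      (c.Dθ (c.ek k) θ φ * c.Dθ (c.ek k₁) θ φ + c.Dφ (c.ek k) θ φ * c.Dφ (c.ek k₁) θ φ +
        c.kap * (c.exL (c.ek k) θ φ * c.exL (c.ek k₁) θ φ)) =
      (if k.1.1 = k₁.1.1 then (if k.1.1 = 0 then 2 * π else π) else 0) *
        (deriv (c.prof k) θ * deriv (c.prof k₁) θ +
          (c.kap / cos θ ^ 2 + (k.1.1 : ℝ) * k₁.1.1 / sin θ ^ 2) * (c.prof k θ * c.prof k₁ θ)) := by
    intro θ hθ
    have hs := c.ex_sin_ne hθ
    have hD : ∀ (k : c.J) φ, c.Dφ (c.ek k) θ φ =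
        c.prof k θ * (-(k.1.1 : ℝ) * trig (-k.1.1) φ) / sin θ := by
      intro k φ
      rw [← c.ex_Dφ_ek]
      field_simp
    have e : ∀ φ, c.Dθ (c.ek k) θ φ * c.Dθ (c.ek k₁) θ φ + c.Dφ (c.ek k) θ φ * c.Dφ (c.ek k₁) θ φ +
        c.kap * (c.exL (c.ek k) θ φ * c.exL (c.ek k₁) θ φ) =
        (deriv (c.prof k) θ * deriv (c.prof k₁) θ + c.kap / cos θ ^ 2 * (c.prof k θ * c.prof k₁ θ)) *
          (trig k.1.1 φ * trig k₁.1.1 φ) +
        ((k.1.1 : ℝ) * k₁.1.1 / sin θ ^ 2 * (c.prof k θ * c.prof k₁ θ)) *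
          (trig (-k.1.1) φ * trig (-k₁.1.1) φ) := by
      intro φ
      rw [c.ex_kap_L hθ, c.ex_Dθ_ek, c.ex_Dθ_ek, hD, hD, c.fn_ek, c.fn_ek]
      ring
    simp only [e]
    have hi : ∀ (A : ℝ) (μ μ₁ : ℤ), IntervalIntegrable (fun φ => A * (trig μ φ * trig μ₁ φ))
        MeasureTheory.volume 0 (2 * π) := fun A μ μ₁ =>
      (continuous_const.mul ((ex_continuous_trig _).mul (ex_continuous_trig _))).intervalIntegrable _ _
    rw [intervalIntegral.integral_add (hi _ _ _) (hi _ _ _),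
      intervalIntegral.integral_const_mul, intervalIntegral.integral_const_mul, integral_trig,
      integral_trig]
    simp only [neg_inj, neg_eq_zero]
    ring
  rw [sint]
  by_cases hμ : k.1.1 = k₁.1.1
  · have hw : ContDiff ℝ ∞ (w0 n) := by
      unfold w0
      fun_prop
    have hd : ContDiff ℝ ∞ (deriv (c.prof k)) := (contDiff_infty_iff_deriv.mp (c.contDiff_prof k)).2
    have hu : ContDiff ℝ ∞ fun s => w0 n s * deriv (c.prof k) s * c.prof k₁ s :=
      (hw.mul hd).mul (c.contDiff_prof k₁)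
    have hu' := contDiff_infty_iff_deriv.mp hu
    rw [intervalIntegral.integral_congr_Ioo_of_le hr (g := fun θ =>
      (if k.1.1 = 0 then 2 * π else π) * (deriv (fun s => w0 n s * deriv (c.prof k) s * c.prof k₁ s) θ +
        c.base.lam k * (c.prof k θ * c.prof k₁ θ * w0 n θ)))]
    · have hi : IntervalIntegrable (fun θ => c.base.lam k * (c.prof k θ * c.prof k₁ θ * w0 n θ))
          MeasureTheory.volume 0 (π / r) :=
        (continuous_const.mul (((c.contDiff_prof k).continuous.mul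
          (c.contDiff_prof k₁).continuous).mul hw.continuous)).intervalIntegrable _ _
      rw [intervalIntegral.integral_const_mul, intervalIntegral.integral_add
        (hu'.2.continuous.intervalIntegrable _ _) hi,
        intervalIntegral.integral_const_mul, c.prof_orth hμ,
        intervalIntegral.integral_deriv_eq_sub (fun x _ => hu'.1 x)
          (hu'.2.continuous.intervalIntegrable _ _), c.ex_w0_end]
      have h0 : w0 n 0 = 0 := by simp [w0]
      have hπ := pi_ne_zero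
      rw [h0]
      split_ifs <;> field_simp <;> ring
    · intro θ hθ
      have h1 := ((c.prof_ode k hθ).mul
        (((c.contDiff_prof k₁).differentiable (by simp)) θ).hasDerivAt).deriv
      have h2 : deriv (fun s => w0 n s * deriv (c.prof k) s * c.prof k₁ s) θ = _ := h1
      simp only [hin θ hθ, h2, ← hμ, if_true]
      ring
  · have hk : k ≠ k₁ := fun h => hμ (by rw [h])
    rw [if_neg hk, intervalIntegral.integral_congr_Ioo_of_le hr (g := fun _ => 0)]
    · simp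
    · intro θ hθ
      simp only [hin θ hθ, if_neg hμ, zero_mul]

theorem Cl.energy_le (s : Finset c.J) (V : c.J → ℝ) :
    sint r n (fun θ φ => c.Dθ (c.pol s V) θ φ ^ 2 + c.Dφ (c.pol s V) θ φ ^ 2) ≤ ∑ k ∈ s, V k ^ 2 := by
  classical
  set a : c.J → ℝ := fun k => V k / √(c.base.lam k) with ha
  have h1 := sint_sum (r := r) (n := n) (s ×ˢ s) (fun p => a p.1 * a p.2)
    (fun p θ φ => c.Dθ (c.ek p.1) θ φ * c.Dθ (c.ek p.2) θ φ + c.Dφ (c.ek p.1) θ φ * c.Dφ (c.ek p.2) θ φ +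
      c.kap * (c.exL (c.ek p.1) θ φ * c.exL (c.ek p.2) θ φ))
    fun p => (((c.contDiff_Dθ _).continuous.mul (c.contDiff_Dθ _).continuous).add
      ((c.contDiff_Dφ _).continuous.mul (c.contDiff_Dφ _).continuous)).add
      (continuous_const.mul ((c.ex_continuous_L _).mul (c.ex_continuous_L _)))
  have h2 : (fun θ φ => ∑ p ∈ s ×ˢ s, a p.1 * a p.2 *
      (c.Dθ (c.ek p.1) θ φ * c.Dθ (c.ek p.2) θ φ + c.Dφ (c.ek p.1) θ φ * c.Dφ (c.ek p.2) θ φ +
        c.kap * (c.exL (c.ek p.1) θ φ * c.exL (c.ek p.2) θ φ))) = fun θ φ =>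
      c.Dθ (c.pol s V) θ φ ^ 2 + c.Dφ (c.pol s V) θ φ ^ 2 + c.kap * c.exL (c.pol s V) θ φ ^ 2 := by
    funext θ φ
    rw [Cl.pol, c.Dθ_sum, c.Dφ_sum, c.ex_L_sum, sq, sq, sq, Finset.sum_mul_sum, Finset.sum_mul_sum,
      Finset.sum_mul_sum, Finset.sum_product]
    simp only [Finset.mul_sum, ← Finset.sum_add_distrib]
    refine Finset.sum_congr rfl fun k _ => Finset.sum_congr rfl fun k₁ _ => ?_
    simp only [ha]
    ring
  have h3 : ∑ p ∈ s ×ˢ s, a p.1 * a p.2 * (if p.1 = p.2 then c.base.lam p.1 else 0) =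
      ∑ k ∈ s, V k ^ 2 := by
    rw [Finset.sum_product]
    refine Finset.sum_congr rfl fun k hk => ?_
    have hl : 0 < c.base.lam k := by linarith [c.base.two_le_lam k]
    simp only [mul_ite, mul_zero, Finset.sum_ite_eq, if_pos hk, ha]
    rw [div_mul_div_comm, Real.mul_self_sqrt hl.le]
    field_simp
  simp only [c.ex_energy_pair] at h1
  rw [h2, h3] at h1
  rw [← h1]
  have c1 : Continuous fun p : ℝ × ℝ =>
      c.Dθ (c.pol s V) p.1 p.2 ^ 2 + c.Dφ (c.pol s V) p.1 p.2 ^ 2 :=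
    ((c.contDiff_Dθ _).continuous.pow 2).add ((c.contDiff_Dφ _).continuous.pow 2)
  refine c.sint_mono c1 (c1.add (continuous_const.mul ((c.ex_continuous_L _).pow 2))) fun θ _ φ => ?_
  exact le_add_of_nonneg_right (mul_nonneg c.ex_kap_nonneg (sq_nonneg _))

end Crest.Agent.R202
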