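import Crest.Agent.R202.DynDefs

/-!
# Truncation, controlled paths and the standing hypotheses of the dynamical theorem
-/

set_option autoImplicit false

noncomputable section

open scoped InnerProductSpace ContDiff
open Set Filter Topology

namespace Crest.Agent.R202

section
variable {n : ℕ} {J : Type}

/-- indices of degree at most `N` -/
def Base.low (b : Base n J) (N : ℕ) : Finset J := (b.fin N).toFinset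

open Classical in
/-- the truncated operator `D B D + q` -/
def Base.Qop (b : Base n J) (S : Finset J) (B : H J →L[ℝ] H J) (q : ℝ) :
    EuclideanSpace ℝ S →L[ℝ] EuclideanSpace ℝ S :=
  LinearMap.toContinuousLinearMap (Matrix.toEuclideanLin
    (Matrix.of fun k k₁ : S => b.qe B k k₁ + if k = k₁ then q else 0))

/-- the Euclidean growth rate of the mode `k` -/
def Base.rate (b : Base n J) (k : J) : ℝ := (b.deg k : ℝ) + ((n : ℝ) - 2) / 2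

/-- discrete data along the integers `t₀ ≤ m ≤ Th` -/
structure Base.Disc (b : Base n J) (d M : ℕ) (C₀ γ : ℝ) (t₀ T Th : ℕ) (B₀ : ℕ → H J →L[ℝ] H J)
    (Y : Fin M → ℕ → H J) (l : Fin M → ℕ → ℝ) (μ : ℕ → ℝ) (q : ℝ → ℝ) : Prop where
  adm : ∀ m, t₀ ≤ m → Adm (B₀ m)
  band : ∀ m, b.Banded d (B₀ m)
  eig : ∀ m, t₀ ≤ m → b.EigFam (B₀ m) (fun a => Y a m) (fun a => l a m)
  gap : ∀ a m, t₀ ≤ m → l a m + γ ≤ μ m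
  μ_ge : ∀ m, t₀ ≤ m → 1 + γ ≤ μ m
  μ_le : ∀ m, t₀ ≤ m → μ m ≤ C₀
  high : ∀ m, t₀ ≤ m → ∀ y, (∀ a, b.mass (Y a m) y = 0) → μ m * b.mass y y ≤ ⟪B₀ m y, y⟫_ℝ
  dY : ∀ a m, t₀ ≤ m → ‖Y a (m + 1) - Y a m‖ ≤ C₀ * th t₀ T m ^ 6
  dl : ∀ a m, t₀ ≤ m → |l a (m + 1) - l a m| ≤ C₀ * th t₀ T m ^ 6
  dμ : ∀ m, t₀ ≤ m → |μ (m + 1) - μ m| ≤ C₀ * th t₀ T m ^ 6
  dB : ∀ m, t₀ ≤ m → ‖B₀ (m + 1) - B₀ m‖ ≤ C₀ * th t₀ T m ^ 6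
  q_ge : ∀ t, -1 ≤ q t
  q_nonneg : ∀ t : ℝ, t₀ ≤ t → 0 ≤ q t
  q_le : ∀ t, q t ≤ C₀
  dq : ∀ m : ℕ, t₀ ≤ m → ∀ t ∈ Icc (m : ℝ) (m + 1), |q t - q m| ≤ C₀ * th t₀ T m ^ 6

end

section
variable {n : ℕ} {E : Type} [NormedAddCommGroup E] [NormedSpace ℝ E] {ι : Type} {J : ι → Type}

/-- the uncontrolled path: `zi` up to `t₀`, then the slow loop -/
def zb (zi zl : ℝ → E) (t₀ T : ℝ) (t : ℝ) : E := if t ≤ t₀ then zi t else zl (sg t₀ T t)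

/-- the controlled path -/
def cpath (z : ℝ → E) (κ : ℕ → E) (t : ℝ) : E := z t + pulse (t - ⌊t⌋₊) • κ ⌊t⌋₊

structure Setup (F : Fam n E ι J) (zl : ℝ → E) (𝒞 : Set E) (ρ : ℝ) : Prop where
  cpt : IsCompact 𝒞
  cvx : Convex ℝ 𝒞
  adm : ∀ i, ∀ ζ ∈ 𝒞, Adm (F.B i ζ)
  ρ_pos : 0 < ρ
  ball : ∀ σ, Metric.closedBall (zl σ) ρ ⊆ 𝒞

structure TimeData (n : ℕ) (zl : ℝ → E) (𝒞 : Set E) (t₀ T : ℕ) (zi : ℝ → E) (q : ℝ → ℝ) :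
    Prop where
  zi_smooth : ContDiff ℝ ∞ zi
  zi_mem : ∀ t, zi t ∈ 𝒞
  zi_left : ∀ t, t ≤ 0 → zi t = 0
  zi_right : ∀ t : ℝ, t₀ ≤ t → zi t = zl 0
  q_smooth : ContDiff ℝ ∞ q
  q_ge : ∀ t, -1 ≤ q t
  q_le : ∀ t, q t ≤ (((n : ℝ) - 2) / 2) ^ 2
  q_left : ∀ t, t ≤ 0 → q t = (((n : ℝ) - 2) / 2) ^ 2
  q_right : ∀ t : ℝ, t₀ ≤ t → 0 ≤ q t ∧ |deriv q t| ≤ th t₀ T t ^ 6

/-- admissible controls -/
def CtrlSeq (K : ℝ) (t₀ T : ℕ) (κ : ℕ → E) : Prop :=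
  (∀ m, m < t₀ + T → κ m = 0) ∧ ∀ m : ℕ, t₀ ≤ m → ‖κ m‖ ≤ K * th t₀ T m ^ 4

end

/-- coefficient functions solving `c'' = (D B D + q) c`, Euclidean for `t ≤ 0` -/
structure Base.Coef {n : ℕ} {J : Type} (b : Base n J) (B : ℝ → H J →L[ℝ] H J) (q : ℝ → ℝ)
    (c c₁ : J → ℝ → ℝ) : Prop where
  d₁ : ∀ k t, HasDerivAt (c k) (c₁ k t) t
  d₂ : ∀ k t, HasDerivAt (c₁ k) (∑' k₁, b.qe (B t) k k₁ * c k₁ t + q t * c k t) t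
  left : ∀ k t, t ≤ 0 → c k t = c k 0 * Real.exp (b.rate k * t)

end Crest.Agent.R202
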