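import Crest.Agent.R202.FHDefs
import Crest.Agent.R202.EvSpec
import Crest.Agent.R202.Feedback

/-!
# The controlled path and the discrete data of a loop (task C8a)

`cpath` is locally a finite sum `z t + ∑ pulse (t - m) • κ m` (`pulse` vanishes outside `(0,1)`).  `zb` is smooth because
`zl σ = zl 0` for `σ ≤ 1/10`.  `exists_disc`: choose signs recursively from `Loop.near` (the steps of `sg` are `≤ ϑ⁶ ≤ 1/20`); if
`W = Y' - Y` is small in mass then `B W = l K W + (l'-l) K Y' + (B - B') Y'` is small, so `‖W‖ ≤ 2‖B W‖` is small.  `R m κ = ∑ κ_{iac} e_{iac}`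
over `a ≤ c` with `e_{iac}` from `Loop.ctrl`.  `B i`, `fderiv (B i)` are Lipschitz on the compact convex `𝒞`; Taylor's formula to
second order on `closedBall (zl σ) ρ`.  `μ m = evu (zl σ_m) (M i)` (`eigFam_gap`, `ev_lip`, `ev_le_mul`, `one_le_ev`).
-/

set_option autoImplicit false

noncomputable section

open scoped InnerProductSpace ContDiff
open Set Filter Topology

namespace Crest.Agent.R202

variable {n : ℕ} {E : Type} [NormedAddCommGroup E] [NormedSpace ℝ E] [FiniteDimensional ℝ E]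
  {ι : Type} [Fintype ι] [DecidableEq ι] {J : ι → Type} {F : Fam n E ι J} {M : ι → ℕ} {U : Set E}
  {good : ∀ i, Finset (Fin (M i))} {abar : ι → ℝ} (Lp : Loop F M U good abar) {𝒞 : Set E} {ρ : ℝ}

theorem path_th_tendsto (t₀ T : ℝ) : Tendsto (th t₀ T) atTop (𝓝 0) :=
  (tendsto_rpow_neg_atTop (by norm_num)).comp
    (tendsto_atTop_add_const_right _ _ (tendsto_atTop_add_const_right _ _ tendsto_id))

theorem path_sg_tendsto (t₀ T : ℝ) : Tendsto (sg t₀ T) atTop atTop :=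
  tendsto_atTop_add_const_right _ _ (((tendsto_rpow_atTop (by norm_num)).comp
    (tendsto_atTop_add_const_right _ _ (tendsto_atTop_add_const_right _ _ tendsto_id))).const_mul_atTop
      (by norm_num))

theorem path_th_small {ε : ℝ} (hε : 0 < ε) : ∃ T₀ : ℝ, ∀ t₀ T : ℝ, T₀ ≤ T →
    1 ≤ T ∧ ∀ t, t₀ ≤ t → 0 < th t₀ T t ∧ th t₀ T t ≤ ε := by
  obtain ⟨T₀, h⟩ := eventually_atTop.1
    (((path_th_tendsto 0 0).eventually (ge_mem_nhds hε)).and (eventually_ge_atTop 1))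
  refine ⟨T₀, fun t₀ T hT => ⟨(h T hT).2, fun t ht => ⟨th_pos (by linarith [(h T hT).2]), ?_⟩⟩⟩
  simpa [th] using (h (t - t₀ + T) (by linarith)).1

theorem path_th_step {t₀ T s t : ℝ} (h : 1 ≤ s - t₀ + T) (hst : s ≤ t) (h1 : t ≤ s + 1) :
    th t₀ T s ≤ 3 * th t₀ T t := by
  have h2 : Real.exp ((t - s) / 7) ≤ 3 :=
    (Real.exp_le_exp.2 (by linarith)).trans Real.exp_one_lt_three.le
  have h3 := th_pos (t₀ := t₀) (T := T) (t := t) (by linarith)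
  nlinarith [th_slow h hst]

theorem path_sg_step {t₀ T s t : ℝ} (h : 0 < s - t₀ + T) (hst : s ≤ t) (h1 : t ≤ s + 1) :
    |sg t₀ T t - sg t₀ T s| ≤ th t₀ T s ^ 6 := by
  obtain ⟨h2, h3⟩ := sg_step h hst
  have h4 := pow_pos (th_pos (t₀ := t₀) (T := T) (t := t) (by linarith)) 6
  have h5 := pow_pos (th_pos h) 6
  rw [abs_of_nonneg (by nlinarith)]
  nlinarith

omit [FiniteDimensional ℝ E] in
theorem path_eq {zi z : ℝ → E} {t₀ T : ℕ} (hz : zi t₀ = z 0) (κ : ℕ → E) {m : ℕ} (hm : t₀ ≤ m)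
    {t : ℝ} (ht : t ∈ Icc (m : ℝ) (m + 1)) :
    cpath (zb zi z t₀ T) κ t = z (sg t₀ T t) + pulse (t - m) • κ m := by
  have hm' : (t₀ : ℝ) ≤ m := by exact_mod_cast hm
  have h1 : zb zi z t₀ T t = z (sg t₀ T t) := by
    unfold zb
    split_ifs with h
    · rw [le_antisymm h (hm'.trans ht.1), hz]; simp [sg]
    · rfl
  rw [cpath, h1]
  rcases ht.2.eq_or_lt with h | h
  · rw [h, ← Nat.cast_succ, Nat.floor_natCast, pulse_eq_zero (Or.inl (by simp)),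
      pulse_eq_zero (Or.inr (by simp)), zero_smul, zero_smul]
  · rw [(Nat.floor_eq_iff ((Nat.cast_nonneg m).trans ht.1)).2 ⟨ht.1, h⟩]

omit [FiniteDimensional ℝ E] in
theorem path_smooth {zi z : ℝ → E} {t₀ T : ℕ} (hT : 1 ≤ (T : ℝ)) (h1 : th t₀ T t₀ ≤ 1)
    (hzi : ContDiff ℝ ∞ zi) (hz : ContDiff ℝ ∞ z) (h0 : ∀ σ, σ ≤ 1 / 10 → z σ = z 0)
    (hr : ∀ t : ℝ, t₀ ≤ t → zi t = z 0) (κ : ℕ → E) : ContDiff ℝ ∞ (cpath (zb zi z t₀ T) κ) := by
  refine contDiff_iff_contDiffAt.2 fun t => ContDiffAt.add ?_ ?_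
  · rcases lt_or_ge t (t₀ + 1 / 10) with h | h
    · refine hzi.contDiffAt.congr_of_eventuallyEq ?_
      filter_upwards [gt_mem_nhds h] with s hs
      unfold zb
      split_ifs with h2
      · rfl
      have h3 := (sg_step (t₀ := t₀) (T := T) (s := t₀) (by linarith) (not_le.1 h2).le).2
      have h4 : th t₀ T t₀ ^ 6 ≤ 1 := pow_le_one₀ (th_pos (by linarith)).le h1
      rw [hr s (not_le.1 h2).le, h0]
      have h5 : sg t₀ T t₀ = 0 := by simp [sg]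
      nlinarith [not_le.1 h2]
    · have h2 : ContDiffAt ℝ ∞ (sg t₀ T) t :=
        (contDiffAt_const.mul (ContDiffAt.rpow_const_of_ne (f := fun s : ℝ => s - t₀ + T)
          (by fun_prop) (by linarith : 0 < t - t₀ + T).ne')).sub contDiffAt_const
      refine (hz.contDiffAt.comp t h2).congr_of_eventuallyEq ?_
      filter_upwards [lt_mem_nhds (by linarith : (t₀ : ℝ) < t)] with s hs
      exact if_neg (not_le.2 hs)
  · have h2 : ContDiff ℝ ∞ fun s : ℝ => ∑ m ∈ Finset.range (⌊t⌋₊ + 1), pulse (s - m) • κ m :=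
      ContDiff.sum fun m _ => (contDiff_pulse.comp (by fun_prop)).smul contDiff_const
    refine h2.contDiffAt.congr_of_eventuallyEq ?_
    filter_upwards [gt_mem_nhds (Nat.lt_floor_add_one t)] with s hs
    refine (Finset.sum_eq_single_of_mem (f := fun m : ℕ => pulse (s - m) • κ m) ⌊s⌋₊ (Finset.mem_range.2
      ((Nat.floor_lt' (Nat.succ_ne_zero _)).2 (by exact_mod_cast hs))) fun m _ hm => ?_).symm
    rw [pulse_eq_zero, zero_smul]
    rcases hm.lt_or_gt with h | h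
    · have := (Nat.le_floor_iff' m.succ_ne_zero).1 (Nat.succ_le_of_lt h)
      exact Or.inr (by push_cast at this; linarith)
    · exact Or.inl (by linarith [Nat.lt_of_floor_lt h])

theorem path_pulse : ∃ P : ℝ, 0 < P ∧ ∀ s ∈ Icc (0 : ℝ) 1,
    |deriv pulse s| ≤ P ∧ |deriv (deriv pulse) s| ≤ P := by
  have h1 := (contDiff_infty_iff_deriv.1 contDiff_pulse).2
  have h2 := (contDiff_infty_iff_deriv.1 h1).2
  obtain ⟨P, hP, h⟩ := (isCompact_Icc.image (h1.continuous.prodMk h2.continuous)).isBounded.exists_pos_norm_le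
  exact ⟨P, hP, fun s hs => norm_prod_le_iff.1 (h _ ⟨s, hs, rfl⟩)⟩

omit [FiniteDimensional ℝ E] in
theorem path_deriv {z p : ℝ → E} {t₀ T m L P K : ℝ} {κ : E} (hz : ContDiff ℝ ∞ z)
    (h1 : ∀ σ, ‖deriv z σ‖ ≤ L) (h2 : ∀ σ, ‖deriv (deriv z) σ‖ ≤ L)
    (hP : ∀ s ∈ Icc (0 : ℝ) 1, |deriv pulse s| ≤ P ∧ |deriv (deriv pulse) s| ≤ P)
    (hm : 0 < m - t₀ + T) (hth : th t₀ T m ≤ 1) (hκ : ‖κ‖ ≤ K * th t₀ T m ^ 4)
    (hp : ContDiff ℝ ∞ p) (he : ∀ t ∈ Icc m (m + 1), p t = z (sg t₀ T t) + pulse (t - m) • κ)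
    {t : ℝ} (ht : t ∈ Icc m (m + 1)) : ‖deriv p t‖ ≤ (2 * L + P * K) * th t₀ T m ^ 4 ∧
      ‖deriv (deriv p) t‖ ≤ (2 * L + P * K) * th t₀ T m ^ 4 := by
  obtain ⟨hz0, hz1⟩ := contDiff_infty_iff_deriv.1 hz
  obtain ⟨hu0, hu1⟩ := contDiff_infty_iff_deriv.1 contDiff_pulse
  have hp1 := (contDiff_infty_iff_deriv.1 hp).2
  have hp2 := (contDiff_infty_iff_deriv.1 hp1).2
  have hL : 0 ≤ L := (norm_nonneg _).trans (h1 0)
  have hd1 : ∀ s ∈ Ioo m (m + 1), deriv p s =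
      th t₀ T s ^ 6 • deriv z (sg t₀ T s) + deriv pulse (s - m) • κ := fun s hs => by
    refine HasDerivAt.deriv (HasDerivAt.congr_of_eventuallyEq
      (((hz0 _).hasDerivAt.scomp s (hasDerivAt_sg (by linarith [hs.1]))).add
        (((hu0 _).hasDerivAt.comp_sub_const s m).smul_const κ)) ?_)
    filter_upwards [Ioo_mem_nhds hs.1 hs.2] with r hr using he r (Ioo_subset_Icc_self hr)
  have hd2 : ∀ s ∈ Ioo m (m + 1), deriv (deriv p) s =
      th t₀ T s ^ 6 • th t₀ T s ^ 6 • deriv (deriv z) (sg t₀ T s) +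
      (((6 : ℕ) : ℝ) * th t₀ T s ^ (6 - 1) * (-(th t₀ T s ^ 8) / 7)) • deriv z (sg t₀ T s) +
        deriv (deriv pulse) (s - m) • κ := fun s hs => by
    have h0 : 0 < s - t₀ + T := by linarith [hs.1]
    refine HasDerivAt.deriv (HasDerivAt.congr_of_eventuallyEq
      ((((hasDerivAt_th h0).pow 6).smul ((hz1.differentiable (by simp) _).hasDerivAt.scomp s
        (hasDerivAt_sg h0))).add
        (((hu1.differentiable (by simp) _).hasDerivAt.comp_sub_const s m).smul_const κ)) ?_)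
    filter_upwards [Ioo_mem_nhds hs.1 hs.2] with r hr using hd1 r hr
  have key : ∀ s ∈ Ioo m (m + 1), ‖deriv p s‖ ≤ (2 * L + P * K) * th t₀ T m ^ 4 ∧
      ‖deriv (deriv p) s‖ ≤ (2 * L + P * K) * th t₀ T m ^ 4 := fun s hs => by
    have h0 := th_pos (t₀ := t₀) (T := T) (t := s) (by linarith [hs.1])
    have h3 := th_anti hm hs.1.le
    have h4 : ∀ k : ℕ, th t₀ T s ^ (4 + k) ≤ th t₀ T m ^ 4 := fun k =>
      (pow_le_pow_of_le_one h0.le (h3.trans hth) (Nat.le_add_right 4 k)).trans (by gcongr)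
    obtain ⟨h5, h6⟩ := hP (s - m) ⟨by linarith [hs.1], by linarith [hs.2]⟩
    have h7 : ∀ c : ℝ, |c| ≤ P → ‖c • κ‖ ≤ P * (K * th t₀ T m ^ 4) := fun c hc => by
      rw [norm_smul]; exact mul_le_mul hc hκ (norm_nonneg _) ((abs_nonneg _).trans hc)
    have h8 : ∀ (c : ℝ) (v : E), |c| ≤ th t₀ T m ^ 4 → ‖v‖ ≤ L → ‖c • v‖ ≤ th t₀ T m ^ 4 * L :=
      fun c v hc hv => by
        rw [norm_smul]; exact mul_le_mul hc hv (norm_nonneg _) ((abs_nonneg _).trans hc)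
    have h9 : 0 ≤ th t₀ T m ^ 4 * L := by positivity
    rw [hd1 s hs, hd2 s hs, smul_smul]
    refine ⟨(norm_add_le_of_le (h8 _ _ ?_ (h1 _)) (h7 _ h5)).trans (by linarith),
      (norm_add_le_of_le (norm_add_le_of_le (h8 _ _ ?_ (h2 _)) (h8 _ _ ?_ (h1 _)))
        (h7 _ h6)).trans (by linarith)⟩
    · rw [abs_of_pos (by positivity)]; exact h4 2
    · rw [abs_of_pos (by positivity), ← pow_add]; exact h4 8
    · have : th t₀ T s ^ 13 ≤ _ := h4 9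
      have := pow_pos h0 13
      rw [show ((6 : ℕ) : ℝ) * th t₀ T s ^ (6 - 1) * (-(th t₀ T s ^ 8) / 7) =
        -(6 / 7 * th t₀ T s ^ 13) by push_cast; ring, abs_neg, abs_of_pos (by positivity)]
      linarith
  rw [← closure_Ioo (by linarith)] at ht
  exact ⟨le_on_closure (fun s hs => (key s hs).1) hp1.continuous.norm.continuousOn
      continuousOn_const ht,
    le_on_closure (fun s hs => (key s hs).2) hp2.continuous.norm.continuousOn continuousOn_const ht⟩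

theorem cpath_props (hS : Setup F Lp.z 𝒞 ρ) (K : ℝ) (hK : 0 < K) : ∃ K' T₀ : ℝ, 0 < K' ∧
    ∀ t₀ T : ℕ, T₀ ≤ T → ∀ zi q, TimeData n Lp.z 𝒞 t₀ T zi q → ∀ κ : ℕ → E, CtrlSeq K t₀ T κ →
      ContDiff ℝ ∞ (cpath (zb zi Lp.z t₀ T) κ) ∧ (∀ t, cpath (zb zi Lp.z t₀ T) κ t ∈ 𝒞) ∧
      (∀ t : ℝ, t ≤ t₀ → cpath (zb zi Lp.z t₀ T) κ t = zi t) ∧
      (∀ t : ℝ, t₀ ≤ t → ‖deriv (cpath (zb zi Lp.z t₀ T) κ) t‖ ≤ K' * th t₀ T t ^ 4 ∧
        ‖deriv (deriv (cpath (zb zi Lp.z t₀ T) κ)) t‖ ≤ K' * th t₀ T t ^ 4) ∧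
      ∃ i ζ₁ ζ₂, F.B i ζ₁ ≠ F.B i ζ₂ ∧ MapClusterPt ζ₁ atTop (cpath (zb zi Lp.z t₀ T) κ) ∧
        MapClusterPt ζ₂ atTop (cpath (zb zi Lp.z t₀ T) κ) := by
  obtain ⟨P, hP, hP'⟩ := path_pulse
  have hρ := hS.ρ_pos
  have hL := Lp.L_pos
  obtain ⟨T₀, hT₀⟩ := path_th_small (ε := min 1 (ρ / K)) (by positivity)
  refine ⟨(2 * Lp.L + P * K) * 3 ^ 4, T₀, by positivity, fun t₀ T hT zi q hD κ hκ => ?_⟩
  obtain ⟨hT1, hth⟩ := hT₀ t₀ T hT
  simp only [le_min_iff] at hth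
  have hsm := path_smooth hT1 (hth _ le_rfl).2.1 hD.zi_smooth Lp.smooth Lp.start hD.zi_right κ
  have hleft : ∀ t : ℝ, t ≤ t₀ → cpath (zb zi Lp.z t₀ T) κ t = zi t := fun t ht => by
    have h1 : 1 ≤ T := by exact_mod_cast hT1
    rw [cpath, hκ.1 _ (by have := Nat.floor_le_of_le ht; omega), smul_zero, add_zero, zb, if_pos ht]
  have hfl : ∀ t : ℝ, t₀ ≤ t → t₀ ≤ ⌊t⌋₊ ∧ t ∈ Icc (⌊t⌋₊ : ℝ) (⌊t⌋₊ + 1) := fun t ht =>
    ⟨Nat.le_floor ht, Nat.floor_le ((Nat.cast_nonneg _).trans ht), (Nat.lt_floor_add_one t).le⟩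
  have hdist : ∀ t : ℝ, t₀ ≤ t →
      dist (cpath (zb zi Lp.z t₀ T) κ t) (Lp.z (sg t₀ T t)) ≤ K * th t₀ T ⌊t⌋₊ := fun t ht => by
    obtain ⟨h1, h2⟩ := hfl t ht
    obtain ⟨h3, h4, -⟩ := hth ⌊t⌋₊ (by exact_mod_cast h1)
    rw [path_eq (hD.zi_right _ le_rfl) κ h1 h2, dist_self_add_left, norm_smul,
      Real.norm_of_nonneg (pulse_nonneg _).1]
    refine (mul_le_of_le_one_left (norm_nonneg _) (pulse_nonneg _).2).trans ((hκ.2 _ h1).trans ?_)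
    exact mul_le_mul_of_nonneg_left (pow_le_of_le_one h3.le h4 (by norm_num)) hK.le
  have hclus : ∀ ζ, (∀ σ₀, ∃ σ, σ₀ ≤ σ ∧ Lp.z σ = ζ) →
      MapClusterPt ζ atTop (cpath (zb zi Lp.z t₀ T) κ) := fun ζ hζ => by
    refine Metric.nhds_basis_ball.mapClusterPt_iff_frequently.2 fun ε hε => ?_
    have h1 : Tendsto (fun t : ℝ => K * th t₀ T ⌊t⌋₊) atTop (𝓝 (K * 0)) :=
      ((path_th_tendsto _ _).comp
        (tendsto_natCast_atTop_atTop.comp tendsto_nat_floor_atTop)).const_mul K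
    have h2 : ∃ᶠ t in atTop, Lp.z (sg t₀ T t) = ζ := frequently_atTop.2 fun a => by
      obtain ⟨σ, h3, h4⟩ := hζ (sg t₀ T (max a t₀))
      obtain ⟨t, h5, rfl⟩ := intermediate_value_Ici (fun t ht => (hasDerivAt_sg (by
        linarith [le_of_max_le_right (mem_Ici.1 ht)])).continuousAt.continuousWithinAt) (path_sg_tendsto _ _) h3
      exact ⟨t, le_of_max_le_left h5, h4⟩
    refine (h2.and_eventually ((h1.eventually (gt_mem_nhds (a := ε) (by simpa using hε))).and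
      (eventually_ge_atTop (t₀ : ℝ)))).mono fun t ⟨h3, h4, h5⟩ => ?_
    exact h3 ▸ (hdist t h5).trans_lt h4
  refine ⟨hsm, fun t => ?_, hleft, fun t ht => ?_, ?_⟩
  · rcases le_total t t₀ with ht | ht
    · exact hleft t ht ▸ hD.zi_mem t
    · exact hS.ball _ ((hdist t ht).trans ((le_div_iff₀' hK).1
        (hth _ (by exact_mod_cast (hfl t ht).1)).2.2))
  · obtain ⟨h1, h2⟩ := hfl t ht
    have h1' : (t₀ : ℝ) ≤ ⌊t⌋₊ := by exact_mod_cast h1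
    obtain ⟨h3, h4⟩ := path_deriv Lp.smooth Lp.d1 Lp.d2 hP' (by linarith) (hth _ h1').2.1 (hκ.2 _ h1)
      hsm (fun s hs => path_eq (hD.zi_right _ le_rfl) κ h1 hs) h2
    have h5 : (2 * Lp.L + P * K) * th t₀ T ⌊t⌋₊ ^ 4 ≤ (2 * Lp.L + P * K) * 3 ^ 4 * th t₀ T t ^ 4 := by
      rw [mul_assoc, ← mul_pow]
      gcongr
      exacts [(hth _ h1').1.le, path_th_step (by linarith) h2.1 h2.2]
    exact ⟨h3.trans h5, h4.trans h5⟩
  · obtain ⟨i, ζ₁, ζ₂, h1, h2, h3⟩ := Lp.clus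
    exact ⟨i, ζ₁, ζ₂, h1, hclus _ h2, hclus _ h3⟩

omit [FiniteDimensional ℝ E] in
theorem path_taylor {G : Type*} [NormedAddCommGroup G] [NormedSpace ℝ G] {f : E → G}
    (hf : ContDiff ℝ ω f) (h1 : IsCompact 𝒞) (h2 : Convex ℝ 𝒞) : ∃ A : ℝ, ∀ x ∈ 𝒞,
      ‖fderiv ℝ f x‖ ≤ A ∧ ∀ y ∈ 𝒞, ‖f y - f x‖ ≤ A * ‖y - x‖ ∧
        ‖f y - f x - fderiv ℝ f x (y - x)‖ ≤ A * ‖y - x‖ ^ 2 := by
  have hf1 : ContDiff ℝ ω (fderiv ℝ f) := hf.fderiv_right le_top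
  have hf2 : ContDiff ℝ ω (fderiv ℝ (fderiv ℝ f)) := hf1.fderiv_right le_top
  obtain ⟨A₁, hA₁⟩ := h1.exists_bound_of_continuousOn hf1.continuous.continuousOn
  obtain ⟨A₂, hA₂⟩ := h1.exists_bound_of_continuousOn (f := fderiv ℝ (fderiv ℝ f))
    hf2.continuous.continuousOn
  obtain ⟨A, hA, h3⟩ : ∃ A, 0 < A ∧ ∀ x ∈ 𝒞, ‖fderiv ℝ f x‖ ≤ A ∧ ‖fderiv ℝ (fderiv ℝ f) x‖ ≤ A :=
    ⟨max 1 (max A₁ A₂), by positivity, fun x hx => by simp [hA₁ x hx, hA₂ x hx]⟩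
  refine ⟨A, fun x hx => ⟨(h3 x hx).1, fun y hy => ⟨h2.norm_image_sub_le_of_norm_fderiv_le
    (fun x _ => hf.differentiable (by simp) x) (fun x hx => (h3 x hx).1) hx hy, ?_⟩⟩⟩
  rw [sq, ← mul_assoc]
  refine (h2.inter (convex_closedBall x ‖y - x‖)).norm_image_sub_le_of_norm_fderiv_le'
    (fun x _ => hf.differentiable (by simp) x) (fun w hw => ?_) ⟨hx, by simp⟩
    ⟨hy, by simp [dist_eq_norm]⟩
  exact (h2.norm_image_sub_le_of_norm_fderiv_le (fun x _ => hf1.differentiable (by simp) x)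
    (fun x hx => (h3 x hx).2) hx hw.1).trans
    (mul_le_mul_of_nonneg_left (mem_closedBall_iff_norm.1 hw.2) hA.le)

omit [FiniteDimensional ℝ E] [DecidableEq ι] in
theorem path_ctrl (F : Fam n E ι J) (M : ι → ℕ) {L : ℝ} (hL : 0 < L) : ∃ C : ℝ, 0 < C ∧
    ∀ ζ, F.CtrlQ M ζ L → ∀ (V : ∀ i, Fin (M i) → H (J i)) (l : ∀ i, Fin (M i) → ℝ),
      (∀ i, (F.b i).EigFam (F.B i ζ) (V i) (l i)) → (∀ i a, l i a ≤ F.evu i ζ (M i)) →
      ∃ R : (∀ i, Fin (M i) → Fin (M i) → ℝ) →ₗ[ℝ] E, (∀ κ, ‖R κ‖ ≤ C * ‖κ‖) ∧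
        ∀ κ, (∀ i a c, κ i a c = κ i c a) →
          ∀ i a c, ⟪fderiv ℝ (F.B i) ζ (R κ) (V i a), V i c⟫_ℝ = κ i a c := by
  let v := Module.finBasis ℝ (∀ i, Fin (M i) → Fin (M i) → ℝ)
  obtain ⟨C, hC, h⟩ := v.exists_opNorm_le (F := E)
  obtain ⟨s, hs, hs'⟩ := (finite_range v).isBounded.exists_pos_norm_le
  have hv : ∀ j i a c, |v j i a c| ≤ s := fun j i a c =>
    (norm_le_pi_norm (v j i a) c).trans ((norm_le_pi_norm (v j i) a).trans
      ((norm_le_pi_norm (v j) i).trans (hs' _ ⟨j, rfl⟩)))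
  refine ⟨C * (L * s), by positivity, fun ζ hζ V l h1 h2 => ?_⟩
  choose e he he' using fun j => hζ V l h1 h2
    (fun i => Matrix.of fun a c => (v j i a c + v j i c a) / 2) s
    (fun i => Matrix.IsSymm.ext fun a c => by simp [add_comm]) hs.le fun i a c => by
      have := abs_le.1 (hv j i a c)
      have := abs_le.1 (hv j i c a)
      rw [Matrix.of_apply, abs_le]
      constructor <;> linarith
  refine ⟨v.constr ℝ e, fun κ => (v.constrL e).le_of_opNorm_le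
    (h (by positivity) fun j => by simpa using he j) κ, fun κ hκ i a c => ?_⟩
  have h3 : ∀ a c, κ i a c = ∑ j, v.repr κ j * v j i a c := fun a c => by
    conv_lhs => rw [← v.sum_repr κ]
    simp [Finset.sum_apply]
  rw [show κ i a c = (κ i a c + κ i c a) / 2 by rw [hκ i c a]; ring, h3, h3,
    ← Finset.sum_add_distrib, Finset.sum_div]
  simp only [Module.Basis.constr_apply_fintype, Module.Basis.equivFun_apply, map_sum, map_smul,
    sum_apply, smul_apply, sum_inner, real_inner_smul_left, he', Matrix.of_apply]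
  exact Finset.sum_congr rfl fun j _ => by ring

theorem path_sign {n : ℕ} {J : Type} (b : Base n J) (V : ℕ → H J) (t : ℕ → ℝ) (t₀ : ℕ)
    (h : ∀ m, t₀ ≤ m → b.Near (V m) (V (m + 1)) (t m)) : ∃ s : ℕ → ℝ, (∀ m, s m * s m = 1) ∧
      ∀ m, t₀ ≤ m → b.mass (s (m + 1) • V (m + 1) - s m • V m)
        (s (m + 1) • V (m + 1) - s m • V m) ≤ t m ^ 2 := by
  have h1 : ∀ m, ∃ e : ℝ, e * e = 1 ∧
      (t₀ ≤ m → b.mass (V (m + 1) - e • V m) (V (m + 1) - e • V m) ≤ t m ^ 2) := fun m => by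
    by_cases hm : t₀ ≤ m
    · obtain ⟨e, h1, h2⟩ := h m hm
      exact ⟨e, mul_self_eq_one_iff.2 h1, fun _ => h2⟩
    · exact ⟨1, one_mul 1, fun h => absurd h hm⟩
  choose e he he' using h1
  have h2 : ∀ m, (∏ k ∈ Finset.range m, e k) * ∏ k ∈ Finset.range m, e k = 1 := fun m => by
    simp [← Finset.prod_mul_distrib, he]
  refine ⟨fun m => ∏ k ∈ Finset.range m, e k, h2, fun m hm => ?_⟩
  have h3 : (∏ k ∈ Finset.range (m + 1), e k) • V (m + 1) - (∏ k ∈ Finset.range m, e k) • V m =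
      (∏ k ∈ Finset.range (m + 1), e k) • (V (m + 1) - e m • V m) := by
    rw [smul_sub, smul_smul, Finset.prod_range_succ, mul_assoc, he, mul_one]
  simp only [h3, Base.mass, map_smul, real_inner_smul_left, real_inner_smul_right]
  rw [← mul_assoc, h2, one_mul]
  exact he' m hm

theorem path_eig {n : ℕ} {J : Type} {b : Base n J} {B : H J →L[ℝ] H J} (hB : Adm B) {y : H J}
    {l : ℝ} (h : B y = l • b.K y) (h1 : b.mass y y = 1) : 1 ≤ l ∧ ‖y‖ ^ 2 ≤ 2 * l := by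
  have h2 := (hB.2 y).1
  have h3 := b.mass_le y
  rw [h, real_inner_smul_left, ← Base.mass, h1] at h2
  constructor <;> linarith

theorem path_dY {n : ℕ} {J : Type} {b : Base n J} {B B' : H J →L[ℝ] H J} (hB : Adm B)
    {y y' : H J} {l l' Λ A δ : ℝ} (h : B y = l • b.K y) (h' : B' y' = l' • b.K y') (hδ : 0 ≤ δ)
    (hA : 0 ≤ A) (hl : |l| ≤ Λ) (hy : ‖y'‖ ≤ Λ) (h1 : ‖B' - B‖ ≤ A * δ) (h2 : |l' - l| ≤ A * δ)
    (h3 : b.mass (y' - y) (y' - y) ≤ (A * δ) ^ 2) :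
    ‖y' - y‖ ≤ (4 * A * Λ + 2 * Λ * A ^ 2 + 1) * δ := by
  have hK : ‖b.K y'‖ ≤ Λ := by
    refine (lp.norm_mono (by norm_num) fun k => ?_).trans hy
    have := b.two_le_lam k
    rw [Base.K_apply, norm_mul, Real.norm_of_nonneg (by positivity)]
    exact mul_le_of_le_one_left (norm_nonneg _) (inv_le_one_of_one_le₀ (by linarith))
  have hΛ := (norm_nonneg _).trans hy
  have h4 : B (y' - y) = (l' - l) • b.K y' - (B' - B) y' + l • b.K (y' - y) := by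
    simp only [map_sub, sub_apply, h, h']
    module
  have h5 := (hB.2 (y' - y)).1
  have h6 : ‖(l' - l) • b.K y' - (B' - B) y'‖ ≤ A * δ * Λ + A * δ * Λ :=
    norm_sub_le_of_le (by rw [norm_smul]; exact mul_le_mul h2 hK (norm_nonneg _) (by positivity))
      ((ContinuousLinearMap.le_opNorm _ _).trans (by gcongr))
  have h7 := (real_inner_le_norm _ (y' - y)).trans (mul_le_mul_of_nonneg_right h6 (norm_nonneg _))
  have h8 : 0 ≤ b.mass (y' - y) (y' - y) := by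
    rcases eq_or_ne (y' - y) 0 with h0 | h0
    · simp [h0, Base.mass]
    · exact (b.mass_pos h0).le
  have h9 : l * b.mass (y' - y) (y' - y) ≤ Λ * (A * δ) ^ 2 :=
    mul_le_mul (le_of_abs_le hl) h3 h8 hΛ
  rw [h4, inner_add_left, real_inner_smul_left, ← Base.mass] at h5
  generalize ‖y' - y‖ = x at *
  by_contra! h10
  have h11 : 0 ≤ A * Λ * δ := by positivity
  have h12 : 0 ≤ Λ * A ^ 2 * δ := by positivity
  have h13 : δ ≤ x := by nlinarith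
  nlinarith [mul_lt_mul_of_pos_left h10 (lt_of_le_of_lt (by positivity) h10),
    mul_le_mul_of_nonneg_left h13 h12, mul_nonneg hδ (hδ.trans h13)]

theorem exists_disc (hS : Setup F Lp.z 𝒞 ρ) (hM : ∀ i, 0 < M i) : ∃ C₀ : ℝ, 0 < C₀ ∧
    ∀ K : ℝ, 0 < K → ∃ T₀ : ℝ, ∀ t₀ T : ℕ, T₀ ≤ T → ∀ zi q, TimeData n Lp.z 𝒞 t₀ T zi q →
      ∃ (Y : ∀ i, Fin (M i) → ℕ → H (J i)) (μ : ι → ℕ → ℝ)
        (R : ℕ → (∀ i, Fin (M i) → Fin (M i) → ℝ) →ₗ[ℝ] E),
        (∀ i Th, (F.b i).Disc F.d (M i) C₀ Lp.γ t₀ T Th (fun m => F.B i (Lp.z (sg t₀ T m))) (Y i)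
          (fun a m => Lp.l i a (sg t₀ T m)) (μ i) q) ∧
        (∀ m κ, ‖R m κ‖ ≤ C₀ * ‖κ‖) ∧
        ∀ κ : ℕ → ∀ i, Fin (M i) → Fin (M i) → ℝ, (∀ m i a c, κ m i a c = κ m i c a) →
          (∀ m, m < t₀ + T → κ m = 0) → (∀ m : ℕ, t₀ ≤ m → ‖κ m‖ ≤ K * th t₀ T m ^ 4) →
          ∀ i (m : ℕ), t₀ ≤ m → ∀ t ∈ Icc (m : ℝ) (m + 1),
            ‖F.B i (cpath (zb zi Lp.z t₀ T) (fun m => R m (κ m)) t) - F.B i (Lp.z (sg t₀ T m))‖ ≤
              C₀ * th t₀ T m ^ 3 ∧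
            ∀ a c, |⟪(F.B i (cpath (zb zi Lp.z t₀ T) (fun m => R m (κ m)) t) -
              F.B i (Lp.z (sg t₀ T m))) (Y i a m), Y i c m⟫_ℝ - pulse (t - m) * κ m i a c| ≤
              C₀ * th t₀ T m ^ 6 := by
  have hL := Lp.L_pos
  have hρ := hS.ρ_pos
  choose A hA using fun i => path_taylor (F.smooth i) hS.cpt hS.cvx
  obtain ⟨CR, hCR, hR⟩ := path_ctrl F M hL
  obtain ⟨Λ, hΛ1, hΛ⟩ : ∃ Λ : ℝ, 1 ≤ Λ ∧ ∀ i, A i ≤ Λ ∧ 4 * (F.b i).ev 1 univ (M i) ≤ Λ := by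
    obtain ⟨Λ, h⟩ := Finite.exists_le fun i => max (A i) (4 * (F.b i).ev 1 univ (M i))
    exact ⟨max 1 Λ, le_max_left _ _, fun i => max_le_iff.1 ((h i).trans (le_max_right _ _))⟩
  have hz : ∀ σ, Lp.z σ ∈ 𝒞 := fun σ => hS.ball σ (Metric.mem_closedBall_self hρ.le)
  have hadm := fun i σ => hS.adm i _ (hz σ)
  have hinf : ∀ i, (univ : Set (J i)).Infinite := fun i => @infinite_univ _ (F.b i).inf
  have hμ : ∀ i σ, 2 * F.evu i (Lp.z σ) (M i) ≤ Λ := fun i σ => by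
    have := (F.b i).ev_le_mul adm_one (hadm i σ) (hinf i) two_pos
      (fun y _ => by simpa using ((hadm i σ).2 y).2) (M i)
    linarith [(hΛ i).2, show F.evu i (Lp.z σ) (M i) ≤ _ from this]
  have hzl : ∀ σ σ', ‖Lp.z σ' - Lp.z σ‖ ≤ Lp.L * |σ' - σ| := fun σ σ' =>
    convex_univ.norm_image_sub_le_of_norm_deriv_le (fun x _ => Lp.smooth.differentiable (by simp) x)
      (fun x _ => Lp.d1 x) (mem_univ _) (mem_univ _)
  have hBl : ∀ i, ∀ x ∈ 𝒞, ∀ y ∈ 𝒞, ‖F.B i y - F.B i x‖ ≤ Λ * ‖y - x‖ := fun i x hx y hy =>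
    ((hA i x hx).2 y hy).1.trans (mul_le_mul_of_nonneg_right (hΛ i).1 (norm_nonneg _))
  obtain ⟨C₀, hC₀, c1, c2, c3, c4, c5, c6, c7, c8, c9⟩ : ∃ C₀ : ℝ, 0 < C₀ ∧ Λ ≤ C₀ ∧ Lp.L ≤ C₀ ∧
      Λ * Lp.L ≤ C₀ ∧ Λ * (Λ * Lp.L) ≤ C₀ ∧
      4 * (Λ * Lp.L) * Λ + 2 * Λ * (Λ * Lp.L) ^ 2 + 1 ≤ C₀ ∧ CR ≤ C₀ ∧ (((n : ℝ) - 2) / 2) ^ 2 ≤ C₀ ∧
      Λ * (Lp.L + 1) ≤ C₀ ∧ (Λ * (Lp.L + 1) ^ 2 + Λ * Lp.L) * Λ * Λ ≤ C₀ :=
    ⟨max 1 (max _ (max _ (max _ (max _ (max _ (max _ (max _ (max _ _)))))))), by positivity,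
      by simp only [← max_le_iff]; exact le_max_right _ _⟩
  refine ⟨C₀, hC₀, fun K hK => ?_⟩
  obtain ⟨T₀, hT₀⟩ := path_th_small (ε := min (min (1 / 20) ρ) (1 / (CR * K))) (by positivity)
  refine ⟨T₀, fun t₀ T hT zi q hD => ?_⟩
  obtain ⟨hT1, hth⟩ := hT₀ t₀ T hT
  simp only [le_min_iff] at hth
  have hth' : ∀ m : ℕ, t₀ ≤ m → 0 < (m : ℝ) - t₀ + T ∧ 0 < th t₀ T m ∧ th t₀ T m ≤ 1 ∧
      ∀ t ∈ Icc (m : ℝ) (m + 1), |sg t₀ T t - sg t₀ T m| ≤ th t₀ T m ^ 6 := fun m hm => by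
    have hm' : (t₀ : ℝ) ≤ m := by exact_mod_cast hm
    exact ⟨by linarith, (hth _ hm').1, by linarith [(hth _ hm').2.1.1],
      fun t ht => path_sg_step (by linarith) ht.1 ht.2⟩
  have hδ : ∀ m : ℕ, t₀ ≤ m → |sg t₀ T (m + 1 : ℕ) - sg t₀ T m| ≤ th t₀ T m ^ 6 := fun m hm =>
    (hth' m hm).2.2.2 _ ⟨by simp, by simp⟩
  choose s hs hs' using fun i a => path_sign (F.b i) (fun m => Lp.V i a (sg t₀ T m))
    (fun m => Lp.L * |sg t₀ T m - sg t₀ T (m + 1 : ℕ)|) t₀ fun m hm => Lp.near i a _ _ (by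
      rw [abs_sub_comm]
      exact (hδ m hm).trans ((pow_le_of_le_one (hth' m hm).2.1.le (hth' m hm).2.2.1
        (by norm_num)).trans (hth _ (by exact_mod_cast hm)).2.1.1))
  let Y : ∀ i, Fin (M i) → ℕ → H (J i) := fun i a m => s i a m • Lp.V i a (sg t₀ T m)
  have hY : ∀ i (m : ℕ), (F.b i).EigFam (F.B i (Lp.z (sg t₀ T m))) (fun a => Y i a m)
      fun a => Lp.l i a (sg t₀ T m) := fun i m =>
    ⟨fun a => by simp only [Y, map_smul, (Lp.eig i _).eig a, smul_comm (s i a m)], fun a c => by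
      have := (Lp.eig i (sg t₀ T m)).orth a c
      simp only [Y, Base.mass, map_smul, real_inner_smul_left, real_inner_smul_right] at this ⊢
      rw [this]
      split_ifs with h
      · rw [h, mul_one, hs]
      · simp⟩
  have hY' : ∀ i a (m : ℕ), 1 ≤ Lp.l i a (sg t₀ T m) ∧ Lp.l i a (sg t₀ T m) ≤ Λ ∧ ‖Y i a m‖ ≤ Λ :=
    fun i a m => by
      obtain ⟨h1, h2⟩ := path_eig (hadm i _) ((hY i m).eig a) (((hY i m).orth a a).trans (if_pos rfl))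
      have h3 := Lp.gap i a (sg t₀ T m)
      have h4 := hμ i (sg t₀ T m)
      have h5 := Lp.γ_pos
      exact ⟨h1, by linarith, le_of_sq_le_sq (by nlinarith) (by linarith) |>.trans le_rfl⟩
  have hdB : ∀ i (m : ℕ), t₀ ≤ m → ‖F.B i (Lp.z (sg t₀ T (m + 1 : ℕ))) - F.B i (Lp.z (sg t₀ T m))‖ ≤
      Λ * Lp.L * th t₀ T m ^ 6 := fun i m hm => (hBl i _ (hz _) _ (hz _)).trans (by
    rw [mul_assoc]
    exact mul_le_mul_of_nonneg_left ((hzl _ _).trans (mul_le_mul_of_nonneg_left (hδ m hm) hL.le))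
      (by linarith))
  have hdl : ∀ i a (m : ℕ), t₀ ≤ m → |Lp.l i a (sg t₀ T (m + 1 : ℕ)) - Lp.l i a (sg t₀ T m)| ≤
      Lp.L * th t₀ T m ^ 6 := fun i a m hm =>
    (Lp.lip i a _ _).trans (mul_le_mul_of_nonneg_left (hδ m hm) hL.le)
  have hle : ∀ {x c : ℝ} {m k : ℕ}, t₀ ≤ m → x ≤ c * th t₀ T m ^ k → c ≤ C₀ →
      x ≤ C₀ * th t₀ T m ^ k := fun hm h1 h2 =>
    h1.trans (mul_le_mul_of_nonneg_right h2 (pow_pos (hth' _ hm).2.1 _).le)
  choose R hR1 hR2 using fun m : ℕ => hR _ (Lp.ctrl (sg t₀ T m)) (fun i a => Y i a m)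
    (fun i a => Lp.l i a (sg t₀ T m)) (fun i => hY i m) fun i a => by
      linarith [Lp.gap i a (sg t₀ T m), Lp.γ_pos]
  refine ⟨Y, fun i m => F.evu i (Lp.z (sg t₀ T m)) (M i), R, fun i Th => ⟨fun m _ => hadm i _,
    fun m => F.band i _, fun m _ => hY i m, fun a m _ => Lp.gap i a _, fun m _ => ?_, fun m _ => ?_,
    fun m _ y hy => ?_, fun a m hm => hle hm ?_ c5, fun a m hm => hle hm (hdl i a m hm) c2,
    fun m hm => hle hm ?_ c4, fun m hm => hle hm (hdB i m hm) c3, hD.q_ge,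
    fun t ht => (hD.q_right t ht).1, fun t => (hD.q_le t).trans c7,
    fun m hm t ht => hle hm ?_ (hΛ1.trans c1)⟩,
    fun m κ => (hR1 m κ).trans (mul_le_mul_of_nonneg_right c6 (norm_nonneg _)),
    fun κ hκ _ hκ' i m hm t ht => ?_⟩
  · linarith [Lp.gap i ⟨0, hM i⟩ (sg t₀ T m), (hY' i ⟨0, hM i⟩ m).1]
  · linarith [hμ i (sg t₀ T m)]
  · simpa [Fam.evu] using (F.b i).eigFam_gap (hadm i _) (hY i m) (fun a => by
      rw [Fintype.card_fin]
      exact lt_of_lt_of_le (lt_add_of_pos_right _ Lp.γ_pos) (Lp.gap i a _)) y hy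
  · have h1 : Lp.L * th t₀ T m ^ 6 ≤ Λ * Lp.L * th t₀ T m ^ 6 :=
      mul_le_mul_of_nonneg_right (le_mul_of_one_le_left hL.le hΛ1) (by positivity)
    refine path_dY (hadm i _) ((hY i m).eig a) ((hY i (m + 1)).eig a) (by positivity) (by positivity)
      (abs_le.2 ⟨by linarith [(hY' i a m).1], (hY' i a m).2.1⟩) (hY' i a _).2.2 (hdB i m hm)
      ((hdl i a m hm).trans h1) ((hs' i a m hm).trans (pow_le_pow_left₀ (by positivity) ?_ 2))
    rw [abs_sub_comm]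
    exact (mul_le_mul_of_nonneg_left (hδ m hm) hL.le).trans h1
  · rw [mul_assoc]
    exact ((F.b i).ev_lip (hadm i _) (hadm i _) (hinf i) (M i)).trans
      (mul_le_mul (hΛ i).2 (hdB i m hm) (norm_nonneg _) (by linarith))
  · have hm' : (t₀ : ℝ) ≤ m := by exact_mod_cast hm
    have := (convex_Icc (m : ℝ) (m + 1)).norm_image_sub_le_of_norm_deriv_le (C := th t₀ T m ^ 6)
      (fun x _ => hD.q_smooth.differentiable (by simp) x) (fun x hx =>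
        (hD.q_right x (hm'.trans hx.1)).2.trans (pow_le_pow_left₀ (hth x (hm'.trans hx.1)).1.le
          (th_anti (hth' m hm).1 hx.1) 6)) (left_mem_Icc.2 (by linarith)) ht
    rw [mul_comm]
    exact this.trans (mul_le_mul_of_nonneg_left (abs_le.2 ⟨by linarith [ht.1], by linarith [ht.2]⟩)
      (by positivity))
  rw [path_eq (hD.zi_right _ le_rfl) _ hm ht]
  obtain ⟨-, h0, h1, h2⟩ := hth' m hm
  obtain ⟨-, ⟨-, h3⟩, h4⟩ := hth m (by exact_mod_cast hm)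
  have h5 : ‖pulse (t - m) • R m (κ m)‖ ≤ th t₀ T m ^ 3 := by
    rw [norm_smul, Real.norm_of_nonneg (pulse_nonneg _).1]
    refine (mul_le_of_le_one_left (norm_nonneg _) (pulse_nonneg _).2).trans ((hR1 _ _).trans
      ((mul_le_mul_of_nonneg_left (hκ' m hm) hCR.le).trans ?_))
    rw [le_div_iff₀ (by positivity)] at h4
    nlinarith [pow_pos h0 3]
  have h6 : Lp.z (sg t₀ T t) + pulse (t - m) • R m (κ m) ∈ 𝒞 := hS.ball (sg t₀ T t) (by
    rw [Metric.mem_closedBall, dist_self_add_left]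
    exact h5.trans ((pow_le_of_le_one h0.le h1 (by norm_num)).trans h3))
  have h7 := (hzl _ _).trans (mul_le_mul_of_nonneg_left (h2 t ht) hL.le)
  have h8 : ‖Lp.z (sg t₀ T t) + pulse (t - m) • R m (κ m) - Lp.z (sg t₀ T m)‖ ≤
      (Lp.L + 1) * th t₀ T m ^ 3 := by
    rw [add_sub_right_comm]
    have := mul_le_mul_of_nonneg_left (pow_le_pow_of_le_one h0.le h1 (show 3 ≤ 6 by norm_num)) hL.le
    linarith [norm_add_le_of_le h7 h5]
  refine ⟨hle hm ((hBl i _ (hz _) _ h6).trans ?_) c8, fun a c => hle hm ?_ c9⟩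
  · rw [mul_assoc]; gcongr
  obtain ⟨h9, h10⟩ := hA i _ (hz (sg t₀ T m))
  have h11 := (h10 _ h6).2.trans (mul_le_mul (hΛ i).1 (pow_le_pow_left₀ (norm_nonneg _) h8 2)
    (by positivity) (by linarith))
  have h12 := ((fderiv ℝ (F.B i) _).le_opNorm _).trans
    (mul_le_mul (h9.trans (hΛ i).1) h7 (norm_nonneg _) (by linarith))
  have h13 := norm_add_le_of_le h11 h12
  rw [← hR2 m _ (hκ m), ← real_inner_smul_left, ← inner_sub_left,
    ← smul_apply (F := H (J i) →L[ℝ] H (J i)), ← sub_apply, ← map_smul (fderiv ℝ (F.B i) _)]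
  refine (abs_real_inner_le_norm _ _).trans ((mul_le_mul ((ContinuousLinearMap.le_opNorm _ _).trans
    (mul_le_mul (le_of_eq_of_le (congrArg _ ?_) h13) (hY' i a m).2.2 (norm_nonneg _)
      (by positivity))) (hY' i c m).2.2 (norm_nonneg _) (by positivity)).trans_eq (by ring))
  rw [add_sub_right_comm (Lp.z _), map_add]
  abel

end Crest.Agent.R202
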