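import Crest.Agent.R202.FHDefs
import Crest.Agent.R202.Band

/-!
# Exponentially weighted bounds (task C6)

`y = ∑ e^{2ε deg} w²`, `u = e^{ε deg} w`.  `y'' ≥ 2⟪u, E Q E⁻¹ u⟫ ≥ 2((1/2 - 2(2d+1)(e^{εd}-1))‖Du‖² - ‖u‖²)` (`band_mul_le` with
`r p p₁ = e^{ε(p-p₁)} - 1`, `Adm` on the finitely supported vector `Du`), and `‖Du‖² ≥ Λ y - Λ e^{2εΛ} ‖w‖²`.  Look at the maximum
of `y e^{-2at}` on `[0,T]`: interior (`y'' ≤ 4a² y`), `t = 0` (`y' ≤ 2 a y`, use the Robin condition), `t = T` (hypothesis).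
-/

set_option autoImplicit false

noncomputable section

open scoped InnerProductSpace ContDiff
open Set Filter Topology

namespace Crest.Agent.R202

theorem wt_right {f : ℝ → ℝ} {f' x : ℝ} (hf : HasDerivAt f f' x) (h : 0 < f') :
    ∀ᶠ t in 𝓝[>] x, f x < f t := by
  have h1 := (hasDerivAt_iff_tendsto_slope.1 hf).mono_left (nhdsGT_le_nhdsNE x)
  filter_upwards [h1.eventually (lt_mem_nhds h), self_mem_nhdsWithin] with t ht hx
  rw [slope_def_field] at ht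
  have := (div_pos_iff_of_pos_right (sub_pos.2 (show x < t from hx))).1 ht
  linarith

theorem wt_max {z z₁ : ℝ → ℝ} {T t₀ z₂ : ℝ} (hz : ∀ t ∈ Icc 0 T, HasDerivAt z (z₁ t) t) (h0 : 0 ≤ t₀)
    (hT : t₀ < T) (hm : ∀ t ∈ Icc 0 T, z t ≤ z t₀) (hz₁ : HasDerivAt z₁ z₂ t₀) :
    z₁ t₀ ≤ 0 ∧ (0 < t₀ → z₁ t₀ = 0 ∧ z₂ ≤ 0) := by
  refine ⟨?_, fun hp => ?_⟩
  · by_contra hc
    obtain ⟨t, h1, h2⟩ := ((wt_right (hz t₀ ⟨h0, hT.le⟩) (not_le.1 hc)).and (Ioo_mem_nhdsGT hT)).exists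
    exact absurd (hm t ⟨h0.trans h2.1.le, h2.2.le⟩) (not_le.2 h1)
  have e : z₁ t₀ = 0 := by
    refine IsLocalMax.hasDerivAt_eq_zero ?_ (hz t₀ ⟨h0, hT.le⟩)
    filter_upwards [Icc_mem_nhds hp hT] with t ht using hm t ht
  refine ⟨e, ?_⟩
  by_contra hc
  obtain ⟨c, hc1, hc2⟩ := mem_nhdsGT_iff_exists_Ioc_subset.1
    ((wt_right hz₁ (not_le.1 hc)).and (Ioo_mem_nhdsGT hT))
  have hc1 : t₀ < c := hc1
  have hcT : c < T := (hc2 ⟨hc1, le_rfl⟩).2.2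
  obtain ⟨ξ, hξ, hs⟩ := exists_hasDerivAt_eq_slope z z₁ hc1
    (fun t ht => (hz t ⟨h0.trans ht.1, ht.2.trans hcT.le⟩).continuousAt.continuousWithinAt)
    fun t ht => hz t ⟨h0.trans ht.1.le, ht.2.le.trans hcT.le⟩
  have h1 : z₁ t₀ < z₁ ξ := (hc2 ⟨hξ.1, hξ.2.le⟩).1
  rw [e, hs, div_pos_iff_of_pos_right (sub_pos.2 hc1)] at h1
  have := hm c ⟨h0.trans hc1.le, hcT.le⟩
  linarith

theorem wt_adm {J : Type} {B : H J →L[ℝ] H J} (hB : Adm B) (S : Finset J) (v : J → ℝ) :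
    (∑ k ∈ S, v k ^ 2) / 2 ≤ ∑ k ∈ S, ∑ k₁ ∈ S, v k * ent B k k₁ * v k₁ := by
  classical
  have h := (hB.2 (∑ k ∈ S, lp.single 2 k (v k))).1
  have h1 := lp.norm_sum_single (E := fun _ : J => ℝ) (p := 2) (by norm_num) v S
  simp only [ENNReal.toReal_ofNat, Real.rpow_ofNat, Real.norm_eq_abs, sq_abs] at h1
  rw [h1, inner_sum] at h
  refine h.trans_eq (Finset.sum_congr rfl fun k _ => ?_)
  rw [lp.inner_single_right, map_sum, lp.coeFn_sum, Finset.sum_apply, sum_inner]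
  refine Finset.sum_congr rfl fun k₁ _ => ?_
  have e : (lp.single 2 k₁ (v k₁) : H J) = v k₁ • lp.single 2 k₁ (1 : ℝ) := by
    rw [← lp.single_smul, smul_eq_mul, mul_one]
  rw [e, map_smul, lp.coeFn_smul, Pi.smul_apply, smul_eq_mul, ent]
  simp only [RCLike.inner_apply, conj_trivial]
  ring

theorem wt_quad {n d : ℕ} {J : Type} (b : Base n J) {B : H J →L[ℝ] H J} (hB : Adm B) (hd : b.Banded d B)
    {ε : ℝ} (hε : 0 < ε) (hε1 : ε * (16 * (d + 1) * (2 * d + 1)) ≤ 1) (S : Finset J) (w : J → ℝ) :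
    (∑ k ∈ S, b.lam k * (Real.exp (ε * b.deg k) * w k) ^ 2) / 4 ≤
      ∑ k ∈ S, Real.exp (ε * b.deg k) ^ 2 * w k * ∑ k₁ ∈ S, b.qe B k k₁ * w k₁ := by
  obtain ⟨v, hv⟩ : ∃ v : J → ℝ, ∀ k, v k = √(b.lam k) * (Real.exp (ε * b.deg k) * w k) := ⟨_, fun _ => rfl⟩
  have hd0 : (0 : ℝ) ≤ d := Nat.cast_nonneg d
  have h1 : ∑ k ∈ S, b.lam k * (Real.exp (ε * b.deg k) * w k) ^ 2 = ∑ k ∈ S, v k ^ 2 :=
    Finset.sum_congr rfl fun k _ => by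
      rw [hv, mul_pow (√_), Real.sq_sqrt (by linarith [b.two_le_lam k])]
  have h2 := wt_adm hB S v
  have h3 := b.band_mul_le hd (fun p p₁ => Real.exp (ε * p - ε * p₁) - 1) (R := 2 * (ε * d)) (by positivity)
    (fun p p₁ hp hp₁ => by
      have a1 : (p : ℝ) ≤ p₁ + d := by exact_mod_cast hp
      have a2 : (p₁ : ℝ) ≤ p + d := by exact_mod_cast hp₁
      have a3 : |ε * p - ε * p₁| ≤ ε * d := abs_le.2 ⟨by nlinarith, by nlinarith⟩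
      have a4 : ε * d ≤ 1 := by nlinarith [mul_nonneg hε.le hd0, mul_nonneg hε.le (mul_nonneg hd0 hd0)]
      exact (Real.abs_exp_sub_one_le (a3.trans a4)).trans (by linarith)) S S v v
  have hs : 0 ≤ ∑ k ∈ S, v k ^ 2 := Finset.sum_nonneg fun _ _ => sq_nonneg _
  rw [mul_assoc _ (√_), Real.mul_self_sqrt hs] at h3
  have h4 : (2 * d + 1) * (2 * (ε * d)) * ‖B‖ ≤ 1 / 4 := by
    have := adm_norm_le hB
    calc (2 * d + 1) * (2 * (ε * d)) * ‖B‖ ≤ (2 * d + 1) * (2 * (ε * d)) * 2 :=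
          mul_le_mul_of_nonneg_left this (by positivity)
      _ ≤ 1 / 4 := by nlinarith [mul_nonneg hε.le hd0]
  have h5 := (abs_le.1 (h3.trans (mul_le_mul_of_nonneg_right h4 hs))).1
  have h6 : ∑ k ∈ S, Real.exp (ε * b.deg k) ^ 2 * w k * ∑ k₁ ∈ S, b.qe B k k₁ * w k₁ =
      ∑ k ∈ S, ∑ k₁ ∈ S, v k * ent B k k₁ * v k₁ + ∑ k ∈ S, ∑ k₁ ∈ S,
        v k * ((Real.exp (ε * b.deg k - ε * b.deg k₁) - 1) * ent B k k₁) * v k₁ := by
    rw [← Finset.sum_add_distrib]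
    refine Finset.sum_congr rfl fun k _ => ?_
    rw [← Finset.sum_add_distrib, Finset.mul_sum]
    refine Finset.sum_congr rfl fun k₁ _ => ?_
    rw [hv, hv, Real.exp_sub, Base.qe]
    field_simp
    ring
  rw [h1, h6]
  linarith

theorem wt_cut {ε Λ m p x : ℝ} (hε : 0 < ε) (hΛ : 0 ≤ Λ) (hp : 0 ≤ p) (hm : p ≤ m) :
    Λ * (Real.exp (ε * p) * x) ^ 2 - Λ * Real.exp (ε * Λ) ^ 2 * x ^ 2 ≤ m * (Real.exp (ε * p) * x) ^ 2 := by
  rcases le_total Λ p with h | h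
  · have h1 : 0 ≤ Λ * Real.exp (ε * Λ) ^ 2 * x ^ 2 := by positivity
    have h2 := mul_le_mul_of_nonneg_right (h.trans hm) (sq_nonneg (Real.exp (ε * p) * x))
    linarith
  · have h1 : Real.exp (ε * p) ^ 2 ≤ Real.exp (ε * Λ) ^ 2 := by gcongr
    have h2 := mul_nonneg (hp.trans hm) (sq_nonneg (Real.exp (ε * p) * x))
    have h3 := mul_le_mul_of_nonneg_left h1 (mul_nonneg hΛ (sq_nonneg x))
    rw [mul_pow] at h2 ⊢
    linarith

theorem weighted (n d : ℕ) : ∃ ε₀ : ℝ, 0 < ε₀ ∧ ∀ ε, 0 < ε → ε ≤ ε₀ → ∀ a : ℝ, ∃ C₁ : ℝ, 0 < C₁ ∧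
    ∀ (J : Type) (b : Base n J) (S : Finset J) (B : ℝ → H J →L[ℝ] H J) (q : ℝ → ℝ) (T C₀ : ℝ)
      (w w₁ : J → ℝ → ℝ), 0 ≤ T → 0 ≤ C₀ →
      (∀ t ∈ Icc 0 T, Adm (B t) ∧ b.Banded d (B t) ∧ -1 ≤ q t) →
      (∀ k ∈ S, ∀ t ∈ Icc 0 T, HasDerivAt (w k) (w₁ k t) t ∧
        HasDerivAt (w₁ k) (∑ k₁ ∈ S, b.qe (B t) k k₁ * w k₁ t + q t * w k t) t) →
      (∀ k ∈ S, w₁ k 0 = b.rate k * w k 0) →
      (∀ t ∈ Icc 0 T, ∑ k ∈ S, w k t ^ 2 ≤ (C₀ * Real.exp (a * t)) ^ 2) →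
      ∑ k ∈ S, (Real.exp (ε * b.deg k) * w k T) ^ 2 ≤ (C₀ * Real.exp (a * T)) ^ 2 →
      ∀ t ∈ Icc 0 T, ∀ k ∈ S, |w k t| ≤ C₁ * C₀ * Real.exp (a * t - ε * b.deg k) := by
  refine ⟨1 / (16 * (d + 1) * (2 * d + 1)), by positivity, fun ε hε hε0 a => ?_⟩
  have hε1 : ε * (16 * (d + 1) * (2 * d + 1)) ≤ 1 := (le_div_iff₀ (by positivity)).1 hε0
  obtain ⟨Λ, hΛ⟩ : ∃ Λ : ℝ, Λ = 16 * a ^ 2 + 8 := ⟨_, rfl⟩
  have hΛ0 : 0 < Λ := by rw [hΛ]; positivity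
  obtain ⟨G, hG⟩ : ∃ G : ℝ, G = Real.exp (ε * Λ) := ⟨_, rfl⟩
  have hG1 : 1 ≤ G := by rw [hG]; exact Real.one_le_exp (by positivity)
  refine ⟨2 * G, by positivity, fun J b S B q T C₀ w w₁ hT hC hB hw h0 hn hend => ?_⟩
  obtain ⟨e, he⟩ : ∃ e : J → ℝ, ∀ k, e k = Real.exp (ε * b.deg k) := ⟨_, fun _ => rfl⟩
  obtain ⟨w₂, hw₂⟩ : ∃ w₂ : J → ℝ → ℝ, ∀ k t, w₂ k t = ∑ k₁ ∈ S, b.qe (B t) k k₁ * w k₁ t + q t * w k t :=
    ⟨_, fun _ _ => rfl⟩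
  simp only [← hw₂] at hw
  obtain ⟨y, hy⟩ : ∃ y : ℝ → ℝ, y = fun t => ∑ k ∈ S, (e k * w k t) ^ 2 := ⟨_, rfl⟩
  obtain ⟨y₁, hy₁⟩ : ∃ y₁ : ℝ → ℝ, y₁ = fun t => ∑ k ∈ S, 2 * e k ^ 2 * (w k t * w₁ k t) := ⟨_, rfl⟩
  obtain ⟨y₂, hy₂⟩ : ∃ y₂ : ℝ → ℝ, y₂ = fun t => ∑ k ∈ S, 2 * e k ^ 2 * (w₁ k t * w₁ k t + w k t * w₂ k t) :=
    ⟨_, rfl⟩
  have d1 : ∀ t ∈ Icc 0 T, HasDerivAt y (y₁ t) t := fun t ht => by
    rw [hy, hy₁]
    refine HasDerivAt.fun_sum fun k hk => ?_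
    refine (((hw k hk t ht).1.const_mul (e k)).fun_pow 2).congr_deriv ?_
    simp only [Nat.cast_ofNat, Nat.add_one_sub_one, pow_one]
    ring
  have d2 : ∀ t ∈ Icc 0 T, HasDerivAt y₁ (y₂ t) t := fun t ht => by
    rw [hy₁, hy₂]
    exact HasDerivAt.fun_sum fun k hk => ((hw k hk t ht).1.fun_mul (hw k hk t ht).2).const_mul _
  have dE : ∀ t : ℝ, HasDerivAt (fun t => Real.exp (-(2 * a) * t)) (Real.exp (-(2 * a) * t) * (-(2 * a))) t :=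
    fun t => by simpa using ((hasDerivAt_id t).const_mul (-(2 * a))).exp
  have z1 : ∀ t ∈ Icc 0 T, HasDerivAt (fun t => y t * Real.exp (-(2 * a) * t))
      ((y₁ t - 2 * a * y t) * Real.exp (-(2 * a) * t)) t := fun t ht => by
    refine ((d1 t ht).fun_mul (dE t)).congr_deriv ?_
    ring
  have z2 : ∀ t ∈ Icc 0 T, HasDerivAt (fun t => (y₁ t - 2 * a * y t) * Real.exp (-(2 * a) * t))
      ((y₂ t - 4 * a * y₁ t + 4 * a ^ 2 * y t) * Real.exp (-(2 * a) * t)) t := fun t ht => by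
    refine (((d2 t ht).fun_sub ((d1 t ht).const_mul (2 * a))).fun_mul (dE t)).congr_deriv ?_
    ring
  have hy0 : ∀ t, 0 ≤ y t := fun t => by rw [hy]; exact Finset.sum_nonneg fun _ _ => sq_nonneg _
  have cut : ∀ (t : ℝ) (m : J → ℝ), (∀ k, (b.deg k : ℝ) ≤ m k) →
      Λ * y t - Λ * G ^ 2 * ∑ k ∈ S, w k t ^ 2 ≤ ∑ k ∈ S, m k * (e k * w k t) ^ 2 := fun t m hm => by
    rw [hy, Finset.mul_sum, Finset.mul_sum, ← Finset.sum_sub_distrib]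
    refine Finset.sum_le_sum fun k _ => ?_
    rw [he, hG]
    exact wt_cut hε hΛ0.le (Nat.cast_nonneg _) (hm k)
  have hn3 : (3 : ℝ) ≤ n := by exact_mod_cast b.hn
  obtain ⟨t₀, ht₀, hmax⟩ := isCompact_Icc.exists_isMaxOn (nonempty_Icc.2 hT)
    (fun t ht => (z1 t ht).continuousAt.continuousWithinAt)
  have key : y t₀ ≤ 2 * G ^ 2 * (C₀ * Real.exp (a * t₀)) ^ 2 := by
    rcases ht₀.2.eq_or_lt with h | h
    · simp only [← he] at hend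
      rw [h, hy]
      have : 1 ≤ 2 * G ^ 2 := by nlinarith
      exact hend.trans (le_mul_of_one_le_left (sq_nonneg _) this)
    obtain ⟨m1, m2⟩ := wt_max z1 ht₀.1 h hmax (z2 t₀ ht₀)
    have hE := Real.exp_pos (-(2 * a) * t₀)
    refine le_trans ?_ (mul_le_mul_of_nonneg_left (hn t₀ ht₀) (by positivity))
    refine le_of_mul_le_mul_left ?_ hΛ0
    rcases ht₀.1.eq_or_lt with h' | h'
    · subst h'
      have a1 : y₁ 0 ≤ 2 * a * y 0 := by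
        have := nonpos_of_mul_nonpos_left m1 hE
        linarith
      have a2 := cut 0 b.rate fun k => by unfold Base.rate; linarith
      have a3 : y₁ 0 = 2 * ∑ k ∈ S, b.rate k * (e k * w k 0) ^ 2 := by
        rw [hy₁, Finset.mul_sum]
        refine Finset.sum_congr rfl fun k hk => ?_
        rw [h0 k hk]; ring
      have a4 : 2 * a * y 0 ≤ Λ * y 0 := mul_le_mul_of_nonneg_right (by nlinarith) (hy0 0)
      linarith
    · obtain ⟨m3, m4⟩ := m2 h'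
      have a1 : y₁ t₀ = 2 * a * y t₀ := by
        have := (mul_eq_zero.1 m3).resolve_right hE.ne'
        linarith
      have a2 := nonpos_of_mul_nonpos_left m4 hE
      rw [a1] at a2
      have a3 := cut t₀ b.lam fun k => by
        have : (0 : ℝ) ≤ b.deg k := Nat.cast_nonneg _
        unfold Base.lam; nlinarith
      obtain ⟨b1, b2, b3⟩ := hB t₀ ht₀
      have a4 := wt_quad b b1 b2 hε hε1 S fun k => w k t₀
      simp only [← he] at a4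
      have a5 : 2 * (∑ k ∈ S, e k ^ 2 * w k t₀ * ∑ k₁ ∈ S, b.qe (B t₀) k k₁ * w k₁ t₀) - 2 * y t₀ ≤ y₂ t₀ := by
        rw [hy, hy₂, Finset.mul_sum, Finset.mul_sum, ← Finset.sum_sub_distrib]
        refine Finset.sum_le_sum fun k _ => ?_
        rw [hw₂]
        have c1 : 0 ≤ (q t₀ + 1) * (e k * w k t₀) ^ 2 := mul_nonneg (by linarith) (sq_nonneg _)
        have c2 := sq_nonneg (e k * w₁ k t₀)
        nlinarith
      have a6 : Λ * y t₀ = 16 * (a ^ 2 * y t₀) + 8 * y t₀ := by rw [hΛ]; ring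
      nlinarith
  intro t ht k hk
  have f1 : y t * Real.exp (-(2 * a) * t) ≤ y t₀ * Real.exp (-(2 * a) * t₀) := hmax ht
  have f2 : ∀ s : ℝ, Real.exp (a * s) ^ 2 * Real.exp (-(2 * a) * s) = 1 := fun s => by
    rw [sq, ← Real.exp_add, ← Real.exp_add, Real.exp_eq_one_iff]; ring
  have f3 : y t ≤ (2 * G * C₀ * Real.exp (a * t)) ^ 2 := by
    refine le_of_mul_le_mul_right ?_ (Real.exp_pos (-(2 * a) * t))
    have g1 := mul_le_mul_of_nonneg_right key (Real.exp_pos (-(2 * a) * t₀)).le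
    rw [mul_pow, mul_assoc, mul_assoc, mul_assoc, f2] at g1
    rw [mul_pow, mul_assoc, f2]
    nlinarith [sq_nonneg (G * C₀)]
  have f4 : (e k * w k t) ^ 2 ≤ y t := by
    rw [hy]
    exact Finset.single_le_sum (f := fun k => (e k * w k t) ^ 2) (fun _ _ => sq_nonneg _) hk
  have f5 := abs_le_of_sq_le_sq' (f4.trans f3) (by positivity)
  have f6 := abs_le.2 f5
  rw [abs_mul, he, abs_of_pos (Real.exp_pos _)] at f6
  rw [Real.exp_sub, ← mul_div_assoc, le_div_iff₀ (Real.exp_pos _)]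
  linarith

end Crest.Agent.R202
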