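import Crest.Agent.R202.Build
import Crest.Agent.R202.Path
import Crest.Agent.R202.Bvp
import Crest.Agent.R202.Avg
import Crest.Agent.R202.Weighted

/-!
# Auxiliary lemmas for the finite-horizon control problem
-/

set_option autoImplicit false

noncomputable section

open scoped InnerProductSpace ContDiff
open Set Filter Topology

namespace Crest.Agent.R202

theorem fh_abs_clamp {k : ℝ} (hk : 0 ≤ k) (x : ℝ) : |clamp k x| ≤ k := by
  unfold clamp
  rw [abs_le]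
  exact ⟨le_max_left _ _, max_le (by linarith) (min_le_left _ _)⟩

theorem fh_clamp_of_le {k x : ℝ} (h : |x| ≤ k) : clamp k x = x := by
  unfold clamp
  rw [abs_le] at h
  rw [min_eq_right h.2, max_eq_right h.1]

theorem fh_clamp_clamp {k : ℝ} (hk : 0 ≤ k) (x : ℝ) : clamp k (clamp k x) = clamp k x :=
  fh_clamp_of_le (fh_abs_clamp hk x)

theorem fh_continuous_clamp (k : ℝ) : Continuous (clamp k) := by
  unfold clamp; fun_prop

theorem fh_exists_pos_le {ι : Type} [Fintype ι] (f : ι → ℝ) (hf : ∀ i, 0 < f i) :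
    ∃ ε, 0 < ε ∧ ∀ i, ε ≤ f i := by
  classical
  have h0 : 0 ≤ ∑ i, (f i)⁻¹ := Finset.sum_nonneg (fun i _ => (inv_pos.2 (hf i)).le)
  refine ⟨(1 + ∑ i, (f i)⁻¹)⁻¹, by positivity, fun i => ?_⟩
  refine inv_le_of_inv_le₀ (hf i) ?_
  have := Finset.single_le_sum (f := fun i => (f i)⁻¹) (fun i _ => (inv_pos.2 (hf i)).le)
    (Finset.mem_univ i)
  linarith

theorem fh_exists_ge {ι : Type} [Fintype ι] (f : ι → ℝ) : ∃ T, 0 < T ∧ ∀ i, f i ≤ T := by
  have h0 : 0 ≤ ∑ i, |f i| := Finset.sum_nonneg (fun i _ => abs_nonneg _)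
  refine ⟨1 + ∑ i, |f i|, by positivity, fun i => ?_⟩
  have := Finset.single_le_sum (f := fun i => |f i|) (fun i _ => abs_nonneg _) (Finset.mem_univ i)
  linarith [le_abs_self (f i)]

theorem fh_cpath_eq {E : Type} [NormedAddCommGroup E] [NormedSpace ℝ E] (z : ℝ → E) (κ : ℕ → E)
    (S : Finset ℕ) (h : ∀ m, m ∉ S → κ m = 0) (t : ℝ) :
    cpath z κ t = z t + ∑ m ∈ S, pulse (t - m) • κ m := by
  unfold cpath
  congr 1
  rw [Finset.sum_eq_single ⌊t⌋₊]
  · intro m _ hm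
    rw [pulse_eq_zero, zero_smul]
    rcases lt_or_gt_of_ne hm with h1 | h1
    · right
      have h2 : (m : ℝ) + 1 ≤ ⌊t⌋₊ := by exact_mod_cast h1
      have h3 : 0 ≤ t := by
        by_contra hc
        rw [Nat.floor_of_nonpos (not_le.1 hc).le] at h1
        omega
      linarith [Nat.floor_le h3]
    · left
      have h2 : (⌊t⌋₊ : ℝ) + 1 ≤ m := by exact_mod_cast h1
      linarith [Nat.lt_floor_add_one t]
  · intro hm
    rw [h _ hm, smul_zero]

theorem fh_exp_le_th {t₀ T t : ℝ} (hT : 1 ≤ T) (ht : t₀ + T ≤ t) :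
    Real.exp (-(t - t₀)) ≤ th t₀ T t ^ 3 := by
  unfold th
  have h1 : 1 ≤ t - t₀ + T := by linarith
  rw [← Real.rpow_natCast, ← Real.rpow_mul (by linarith)]
  calc Real.exp (-(t - t₀)) ≤ (t - t₀ + T) ^ (-1 : ℝ) := by
        rw [Real.rpow_neg_one, Real.exp_neg]
        refine inv_anti₀ (by linarith) ?_
        have := Real.quadratic_le_exp_of_nonneg (show 0 ≤ t - t₀ by linarith)
        nlinarith [sq_nonneg (t - t₀ - 1)]
    _ ≤ _ := Real.rpow_le_rpow_of_exponent_le h1 (by norm_num)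

theorem fh_th_small {δ : ℝ} (hδ : 0 < δ) :
    ∃ T₀ : ℝ, ∀ t₀ T : ℝ, T₀ ≤ T → th t₀ T t₀ ^ 3 ≤ δ := by
  refine ⟨max 1 (δ⁻¹ ^ 3), fun t₀ T hT => ?_⟩
  have h1 : 1 ≤ T := (le_max_left _ _).trans hT
  have h2 : δ⁻¹ ^ 3 ≤ T := (le_max_right _ _).trans hT
  unfold th
  rw [sub_self, zero_add, ← Real.rpow_natCast, ← Real.rpow_mul (by linarith)]
  calc _ ≤ T ^ (-(1 / 3 : ℝ)) := Real.rpow_le_rpow_of_exponent_le h1 (by norm_num)
    _ ≤ (δ⁻¹ ^ 3) ^ (-(1 / 3 : ℝ)) :=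
        Real.rpow_le_rpow_of_nonpos (by positivity) h2 (by norm_num)
    _ = δ := by
        rw [← Real.rpow_natCast, ← Real.rpow_mul (by positivity)]
        norm_num
        rw [Real.rpow_neg_one, inv_inv]

theorem fh_sqrt_sub {x y : ℝ} (hx : 0 ≤ x) (hy : 0 ≤ y) : (√x - √y) * (√x + √y) = x - y := by
  have := Real.mul_self_sqrt hx
  have := Real.mul_self_sqrt hy
  nlinarith

theorem fh_sqrt_lip {x y : ℝ} (hx : 1 ≤ x) (hy : 1 ≤ y) : |√x - √y| ≤ |x - y| := by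
  rw [← fh_sqrt_sub (x := x) (y := y) (by linarith) (by linarith), abs_mul]
  have h1 := Real.one_le_sqrt.2 hx
  have h2 := Real.one_le_sqrt.2 hy
  exact le_mul_of_one_le_right (abs_nonneg _)
    (le_trans (show 1 ≤ √x + √y by linarith) (le_abs_self _))

theorem fh_sqrt_sep {x y B : ℝ} (hx : 0 ≤ x) (hy : 0 ≤ y) (hxB : x ≤ B) (hyB : y ≤ B) :
    |x - y| ≤ |√x - √y| * (2 * √B) := by
  rw [← fh_sqrt_sub hx hy, abs_mul]
  refine mul_le_mul_of_nonneg_left ?_ (abs_nonneg _)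
  rw [abs_of_nonneg (by positivity)]
  linarith [Real.sqrt_le_sqrt hxB, Real.sqrt_le_sqrt hyB]

theorem fh_sqrt_sign {x y x' y' : ℝ} (hx : 0 ≤ x) (hy : 0 ≤ y) (hx' : 0 ≤ x') (hy' : 0 ≤ y')
    (h : (√x - √y) * (√x' - √y') ≤ 0) : (x - y) * (x' - y') ≤ 0 := by
  rw [← fh_sqrt_sub hx hy, ← fh_sqrt_sub hx' hy']
  calc _ = ((√x - √y) * (√x' - √y')) * ((√x + √y) * (√x' + √y')) := by ring
    _ ≤ 0 := mul_nonpos_of_nonpos_of_nonneg h (by positivity)

theorem fh_sqrt_add {x y r : ℝ} (hx : 0 ≤ x) (hr : 0 ≤ r) (hy : y ≤ r ^ 2) : √(x + y) ≤ √x + r := by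
  rw [Real.sqrt_le_left (by positivity)]
  have := Real.sq_sqrt hx
  nlinarith [mul_nonneg (Real.sqrt_nonneg x) hr]

theorem fh_ivt {g : ℝ → ℝ} (hg : Continuous g) {a b : ℝ} (hab : a ≤ b) (h : g a * g b ≤ 0) :
    ∃ s ∈ Icc a b, g s = 0 := by
  rcases mul_nonpos_iff.1 h with h | h
  · exact intermediate_value_Icc' hab hg.continuousOn ⟨h.2, h.1⟩
  · exact intermediate_value_Icc hab hg.continuousOn ⟨h.1, h.2⟩

theorem fh_gram {V : Type} [NormedAddCommGroup V] [InnerProductSpace ℝ V] {M : ℕ} (X : Fin M → V)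
    {δ : ℝ} (h : ∀ i k, |⟪X i, X k⟫_ℝ - if i = k then 1 else 0| ≤ δ) (hδ0 : 0 ≤ δ)
    (hδ : δ * M ≤ 1 / 2) (v : Fin M → ℝ) :
    (∑ i, |v i|) ^ 2 ≤ 2 * M * ‖∑ i, v i • X i‖ ^ 2 := by
  have h1 : (∑ i, |v i|) ^ 2 ≤ M * ∑ i, v i ^ 2 := by
    have := sq_sum_le_card_mul_sum_sq (s := Finset.univ) (f := fun i => |v i|)
    simpa [sq_abs] using this
  have h2 : ∑ i, v i ^ 2 - δ * (∑ i, |v i|) ^ 2 ≤ ‖∑ i, v i • X i‖ ^ 2 := by
    rw [← real_inner_self_eq_norm_sq, sum_inner, pow_two (∑ i, |v i|), Finset.sum_mul_sum,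
      Finset.mul_sum, ← Finset.sum_sub_distrib]
    refine Finset.sum_le_sum (fun i _ => ?_)
    rw [inner_sum, Finset.mul_sum]
    have e : v i ^ 2 = ∑ k, v i * v k * (if i = k then 1 else 0) := by
      simp [pow_two]
    rw [e, ← Finset.sum_sub_distrib]
    refine Finset.sum_le_sum (fun k _ => ?_)
    rw [real_inner_smul_left, real_inner_smul_right]
    have h3 : |v i * v k * (⟪X i, X k⟫_ℝ - if i = k then 1 else 0)| ≤ |v i| * |v k| * δ := by
      rw [abs_mul, abs_mul]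
      exact mul_le_mul_of_nonneg_left (h i k) (by positivity)
    have := (abs_le.1 h3).1
    linarith
  have h3 : 0 ≤ ∑ i, v i ^ 2 := Finset.sum_nonneg (fun i _ => sq_nonneg _)
  have h4 : δ * (∑ i, |v i|) ^ 2 ≤ 1 / 2 * ∑ i, v i ^ 2 :=
    (mul_le_mul_of_nonneg_left h1 hδ0).trans (by
      rw [← mul_assoc]; exact mul_le_mul_of_nonneg_right hδ h3)
  have h5 : (0 : ℝ) ≤ M := Nat.cast_nonneg M
  nlinarith

theorem fh_hasDerivAt_eucl {S : Type} [Fintype S] {u : ℝ → EuclideanSpace ℝ S}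
    {u' : EuclideanSpace ℝ S} {t : ℝ} :
    HasDerivAt u u' t ↔ ∀ k, HasDerivAt (fun t => u t k) (u' k) t := by
  constructor
  · intro h k
    exact (EuclideanSpace.proj (𝕜 := ℝ) k).hasFDerivAt.comp_hasDerivAt t h
  · intro h
    exact (EuclideanSpace.equiv S ℝ).symm.hasFDerivAt.comp_hasDerivAt t (hasDerivAt_pi.2 h)

section
variable {n : ℕ} {J : Type} (b : Base n J)

theorem Base.fh_one_le {B : H J →L[ℝ] H J} (hB : Adm B) {I : Type} [DecidableEq I] {V : I → H J}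
    {l : I → ℝ} (h : b.EigFam B V l) (i : I) : 1 ≤ l i := by
  have h1 := (hB.2 (V i)).1
  have h2 := b.mass_le (V i)
  have h3 := h.orth i i
  rw [if_pos rfl] at h3
  rw [h.eig i, real_inner_smul_left] at h1
  change _ ≤ l i * b.mass (V i) (V i) at h1
  rw [h3] at h1 h2
  linarith

theorem Base.fh_rate_nonneg (k : J) : 0 ≤ b.rate k := by
  have h2 : (3 : ℝ) ≤ n := by exact_mod_cast b.hn
  unfold Base.rate
  have : (0 : ℝ) ≤ b.deg k := Nat.cast_nonneg _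
  linarith

open Classical in
/-- the Robin condition -/
def Base.fhLam (S : Finset J) : EuclideanSpace ℝ S →L[ℝ] EuclideanSpace ℝ S :=
  LinearMap.toContinuousLinearMap (Matrix.toEuclideanLin (Matrix.diagonal fun k : S => b.rate k))

theorem Base.fhLam_apply (S : Finset J) (x : EuclideanSpace ℝ S) (k : S) :
    b.fhLam S x k = b.rate k * x k := by
  classical
  simp [Base.fhLam, Matrix.mulVec_diagonal]

theorem Base.fhLam_nonneg (S : Finset J) (x : EuclideanSpace ℝ S) : 0 ≤ ⟪b.fhLam S x, x⟫_ℝ := by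
  rw [PiLp.inner_apply]
  refine Finset.sum_nonneg (fun k _ => ?_)
  rw [b.fhLam_apply]
  have := b.fh_rate_nonneg k
  simp only [RCLike.inner_apply, conj_trivial]
  nlinarith [mul_self_nonneg (x k)]

theorem Base.fh_Qop_one (S : Finset J) (x : EuclideanSpace ℝ S) (k : S) :
    b.Qop S 1 ((((n : ℝ) - 2) / 2) ^ 2) x k = b.rate k ^ 2 * x k := by
  classical
  rw [b.Qop_apply, Finset.sum_eq_single k]
  · have h1 : b.qe 1 k k = b.lam k := by
      unfold Base.qe ent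
      rw [Real.mul_self_sqrt (b.evb_lam_pos k).le]
      simp
    rw [h1]
    unfold Base.lam Base.rate
    ring
  · intro k₁ _ hk
    have : (k : J) ≠ k₁ := fun h => hk (Subtype.ext h).symm
    unfold Base.qe ent
    simp [lp.single_apply, this]
  · simp

theorem Base.fh_left (S : Finset J) {Q : ℝ → EuclideanSpace ℝ S →L[ℝ] EuclideanSpace ℝ S}
    (hQ : Continuous Q) (hQ0 : ∀ t, t ≤ 0 → Q t = b.Qop S 1 ((((n : ℝ) - 2) / 2) ^ 2))
    {w w₁ : ℝ → EuclideanSpace ℝ S} (hw : IsSol Q w w₁) (h0 : w₁ 0 = b.fhLam S (w 0))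
    {t : ℝ} (ht : t ≤ 0) (k : S) : w t k = w 0 k * Real.exp (b.rate k * t) := by
  have := sol_unique (s := Iic 0) hQ ordConnected_Iic (mem_Iic.2 le_rfl) hw
    (u := fun t => WithLp.toLp 2 (fun k : S => w 0 k * Real.exp (b.rate k * t)))
    (u₁ := fun t => WithLp.toLp 2 (fun k : S => w 0 k * (Real.exp (b.rate k * t) * b.rate k)))
    (fun s hs => ⟨fh_hasDerivAt_eucl.2 (fun k => ?_), fh_hasDerivAt_eucl.2 (fun k => ?_)⟩)
    (by ext k; simp) (by ext k; rw [h0, b.fhLam_apply]; simp [mul_comm]) t ht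
  · rw [this]
  · have := (((hasDerivAt_id s).const_mul (b.rate k)).exp).const_mul (w 0 k)
    simpa using this
  · rw [hQ0 s hs, b.fh_Qop_one]
    have := ((((hasDerivAt_id s).const_mul (b.rate k)).exp).mul_const (b.rate k)).const_mul (w 0 k)
    refine this.congr_deriv ?_
    simp only [id, mul_one]
    ring

open Classical in
/-- coordinates extended by zero -/
def fhExt (S : Finset J) (w : ℝ → EuclideanSpace ℝ S) (k : J) (t : ℝ) : ℝ :=
  if h : k ∈ S then w t ⟨k, h⟩ else 0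

theorem fhExt_mem {S : Finset J} (w : ℝ → EuclideanSpace ℝ S) {k : J} (h : k ∈ S) (t : ℝ) :
    fhExt S w k t = w t ⟨k, h⟩ := dif_pos h

theorem fhExt_coe {S : Finset J} (w : ℝ → EuclideanSpace ℝ S) (k : S) (t : ℝ) :
    fhExt S w k t = w t k := dif_pos k.2

theorem fhExt_not_mem {S : Finset J} (w : ℝ → EuclideanSpace ℝ S) {k : J} (h : k ∉ S) (t : ℝ) :
    fhExt S w k t = 0 := dif_neg h

theorem Base.fh_deriv (S : Finset J) {B : ℝ → H J →L[ℝ] H J} {q : ℝ → ℝ}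
    {w w₁ : ℝ → EuclideanSpace ℝ S} (hw : IsSol (fun t => b.Qop S (B t) (q t)) w w₁) :
    ∀ k ∈ S, ∀ t, HasDerivAt (fhExt S w k) (fhExt S w₁ k t) t ∧
      HasDerivAt (fhExt S w₁ k) (∑ k₁ ∈ S, b.qe (B t) k k₁ * fhExt S w k₁ t +
        q t * fhExt S w k t) t := by
  intro k hk t
  have e1 : fhExt S w k = fun t => w t ⟨k, hk⟩ := funext (fhExt_mem w hk)
  have e2 : fhExt S w₁ k = fun t => w₁ t ⟨k, hk⟩ := funext (fhExt_mem w₁ hk)
  refine ⟨by rw [e1, e2]; exact fh_hasDerivAt_eucl.1 (hw.1 t) _, ?_⟩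
  have := fh_hasDerivAt_eucl.1 (hw.2 t) ⟨k, hk⟩
  rw [b.Qop_apply] at this
  rw [← Finset.sum_coe_sort S, e1, e2]
  simpa only [fhExt_coe] using this

theorem fh_norm_sq (S : Finset J) (w : ℝ → EuclideanSpace ℝ S) (t : ℝ) :
    ∑ k ∈ S, fhExt S w k t ^ 2 = ‖w t‖ ^ 2 := by
  rw [EuclideanSpace.real_norm_sq_eq, ← Finset.sum_coe_sort S]
  simp only [fhExt_coe]

theorem fh_norm_sq_sum (S : Finset J) {M : ℕ} (w : Fin M → ℝ → EuclideanSpace ℝ S) (t : ℝ)
    (v : Fin M → ℝ) :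
    ∑ k ∈ S, (∑ a, v a * fhExt S (w a) k t) ^ 2 = ‖∑ a, v a • w a t‖ ^ 2 := by
  rw [EuclideanSpace.real_norm_sq_eq, ← Finset.sum_coe_sort S]
  simp [fhExt_coe]

/-- the weighted norm at the right end -/
theorem Base.fh_right (S : Finset J) {M : ℕ} (X : Fin M → EuclideanSpace ℝ S) {δ C ε ε' : ℝ}
    (h : ∀ i k, |⟪X i, X k⟫_ℝ - if i = k then 1 else 0| ≤ δ) (hδ0 : 0 ≤ δ) (hδ : δ * M ≤ 1 / 2)
    (hε' : 0 < ε') (hε : ε ≤ ε' / 2) (hX : ∀ a k, |X a k| ≤ C * Real.exp (-(ε' * b.deg k)))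
    (w : ℝ → EuclideanSpace ℝ S) (t : ℝ) (v : Fin M → ℝ) (hv : w t = ∑ i, v i • X i) :
    ∑ k ∈ S, (Real.exp (ε * b.deg k) * fhExt S w k t) ^ 2 ≤
      2 * M * C ^ 2 * (∑' k, Real.exp (-(ε' * b.deg k))) * ‖w t‖ ^ 2 := by
  have hs : Summable (fun k => Real.exp (-(ε' * b.deg k))) := by
    simpa using b.summable_poly_exp 0 hε'
  have h1 := fh_gram X h hδ0 hδ v
  rw [← hv] at h1
  have h2 : ∀ k ∈ S, (Real.exp (ε * b.deg k) * fhExt S w k t) ^ 2 ≤
      (∑ i, |v i|) ^ 2 * C ^ 2 * Real.exp (-(ε' * b.deg k)) := by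
    intro k hk
    have a1 : |fhExt S w k t| ≤ (∑ i, |v i|) * (C * Real.exp (-(ε' * b.deg k))) := by
      rw [fhExt_mem w hk, hv, Finset.sum_mul]
      simp only [WithLp.ofLp_sum, WithLp.ofLp_smul, Finset.sum_apply, Pi.smul_apply, smul_eq_mul]
      refine (Finset.abs_sum_le_sum_abs _ _).trans (Finset.sum_le_sum (fun i _ => ?_))
      rw [abs_mul]
      exact mul_le_mul_of_nonneg_left (hX i ⟨k, hk⟩) (abs_nonneg _)
    have a2 : Real.exp (ε * b.deg k) ^ 2 * Real.exp (-(ε' * b.deg k)) ≤ 1 := by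
      rw [← Real.exp_nat_mul, ← Real.exp_add]
      refine Real.exp_le_one_iff.2 ?_
      have : (0 : ℝ) ≤ b.deg k := Nat.cast_nonneg _
      push_cast
      nlinarith
    have a3 := pow_le_pow_left₀ (abs_nonneg _) a1 2
    rw [sq_abs] at a3
    calc _ = Real.exp (ε * b.deg k) ^ 2 * fhExt S w k t ^ 2 := by ring
      _ ≤ Real.exp (ε * b.deg k) ^ 2 * ((∑ i, |v i|) * (C * Real.exp (-(ε' * b.deg k)))) ^ 2 :=
          mul_le_mul_of_nonneg_left a3 (by positivity)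
      _ = (Real.exp (ε * b.deg k) ^ 2 * Real.exp (-(ε' * b.deg k))) *
          ((∑ i, |v i|) ^ 2 * C ^ 2 * Real.exp (-(ε' * b.deg k))) := by ring
      _ ≤ _ := mul_le_of_le_one_left (by positivity) a2
  have h3 : ∑ k ∈ S, Real.exp (-(ε' * b.deg k)) ≤ ∑' k, Real.exp (-(ε' * b.deg k)) :=
    hs.sum_le_tsum S (fun k _ => (Real.exp_pos _).le)
  have h4 : 0 ≤ ∑' k, Real.exp (-(ε' * b.deg k)) := tsum_nonneg (fun k => (Real.exp_pos _).le)
  calc _ ≤ ∑ k ∈ S, (∑ i, |v i|) ^ 2 * C ^ 2 * Real.exp (-(ε' * b.deg k)) := Finset.sum_le_sum h2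
    _ = (∑ i, |v i|) ^ 2 * C ^ 2 * ∑ k ∈ S, Real.exp (-(ε' * b.deg k)) := by rw [Finset.mul_sum]
    _ ≤ (2 * M * ‖w t‖ ^ 2) * C ^ 2 * ∑' k, Real.exp (-(ε' * b.deg k)) := by gcongr
    _ = _ := by ring

end

theorem fh_cont_fb {V : Type} [NormedAddCommGroup V] [InnerProductSpace ℝ V] {M : ℕ} (P : Frame V M)
    {Z : Type} [TopologicalSpace Z] {w w₁ : Z → Fin M → ℝ → V}
    (h : ∀ j t, Continuous (fun z => w z j t) ∧ Continuous (fun z => w₁ z j t)) (m : ℕ)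
    (i j : Fin M) : Continuous (fun z => P.fb (w z) (w₁ z) m i j) := by
  have hG : ∀ i j t, Continuous (fun z => P.GG (w z j) (w₁ z j) i t) := by
    intro i j t
    unfold Frame.GG Frame.pp Frame.cc
    have := (h j t).1
    have := (h j t).2
    fun_prop
  unfold Frame.fb
  refine (continuous_const.mul ((hG i j m).div ((hG j j m).max continuous_const)
    (fun z => ?_))).div_const _
  exact (lt_of_lt_of_le (by norm_num) (le_max_right _ _)).ne'

theorem fh_ctl_asymm {V : Type} [NormedAddCommGroup V] [InnerProductSpace ℝ V] {M : ℕ}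
    (P : Frame V M) (m : ℕ) {i j : Fin M} (h : P.ctl m i j) : ¬ P.ctl m j i := by
  unfold Frame.ctl at *
  rintro (h' | ⟨h', h''⟩) <;> rcases h with h | ⟨h, h3⟩
  · linarith
  · linarith
  · linarith
  · exact lt_asymm h'' h3

end Crest.Agent.R202
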