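import Crest.Agent.R202.AopB

/-!
# The analytic family (task F3b) and the algebra of triples

A map `f : Par N → P3` of the form `∑ C (φᵢ ζ) gᵢ` with finitely many analytic `φᵢ` ("polynomial map"); these are closed under `+`, `*`, so
the components of `tripζ` are such maps; then `Aop_sum`.  The derivative: along the line `bpt + ε e` the triple is the evaluation at
`ε` of a triple over `Polynomial P3` (`trip_map`), so `Aop` of it is a polynomial in `ε` with linear coefficient `Aop (dtrip …)`.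
`mq_trip₀`, `mq_dtrip`: apply `trip_map` to `eval`, then `ring` (with `u S = σ²`).
-/

set_option autoImplicit false

noncomputable section

open scoped InnerProductSpace ContDiff
open Set Filter Topology
open MvPolynomial Real

namespace Crest.Agent.R202

variable {r n N : ℕ}

theorem trip_map {R R₁ : Type} [CommRing R] [CommRing R₁] (f : R →+* R₁) (S u c P₁ P₂ : R) :
    (f (trip S u c P₁ P₂).1, f (trip S u c P₁ P₂).2.1, f (trip S u c P₁ P₂).2.2) =
      trip (f S) (f u) (f c) (f P₁) (f P₂) := by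
  simp only [trip, up, lo, map_add, map_mul, map_pow, map_neg, map_one, map_zero, map_ofNat]

theorem famd_up_det {R : Type} [CommRing R] (S u P : R) (t : R × R × R) :
    (1 + u * (up S u P t).1) * (1 + u * (up S u P t).2.2) - u * S * (up S u P t).2.1 ^ 2 =
      (1 + u * t.1) * (1 + u * t.2.2) - u * S * t.2.1 ^ 2 := by
  simp only [up]
  ring

theorem famd_lo_det {R : Type} [CommRing R] (S u P : R) (t : R × R × R) :
    (1 + u * (lo S u P t).1) * (1 + u * (lo S u P t).2.2) - u * S * (lo S u P t).2.1 ^ 2 =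
      (1 + u * t.1) * (1 + u * t.2.2) - u * S * t.2.1 ^ 2 := by
  simp only [lo]
  ring

theorem trip_det {R : Type} [CommRing R] (S u c P₁ P₂ : R) :
    (1 + u * (trip S u c P₁ P₂).1) * (1 + u * (trip S u c P₁ P₂).2.2) -
      u * S * (trip S u c P₁ P₂).2.1 ^ 2 = 1 := by
  simp only [trip, famd_up_det, famd_lo_det]
  ring

theorem trip_base {R : Type} [CommRing R] (S u c : R) : trip S u c 0 0 =
    (4 * S * c ^ 2, -c + 4 * u * S * c ^ 3, -3 * S * c ^ 2 + 4 * u * S ^ 2 * c ^ 4) := by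
  simp only [trip, up, lo, Prod.mk.injEq]
  refine ⟨?_, ?_, ?_⟩ <;> ring

theorem tripζ_zero (om : Polynomial ℝ) (pi : Fin N → P3) : tripζ r om pi 0 = 0 := by
  have h₀ : cpol om (0 : Par N) = 0 := by simp [cpol]
  have h₁ : ppol₁ pi (0 : Par N) = 0 := by simp [ppol₁]
  have h₂ : ppol₂ pi (0 : Par N) = 0 := by simp [ppol₂]
  rw [tripζ, h₀, h₁, h₂, trip_base]
  simp [Prod.ext_iff]

theorem famd_cpol (om : Polynomial ℝ) (ζ : Par N) : cpol om ζ = Polynomial.aeval (X 2 : P3)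
    (Polynomial.C (ζ (.inl 0)) * om + Polynomial.C (ζ (.inl 1))) := by
  simp [cpol]

theorem tripζ_bpt (om : Polynomial ℝ) (pi : Fin N → P3) (θ₀ s : ℝ) :
    tripζ r om pi (bpt N θ₀ s) = trip₀ r (Polynomial.C θ₀ * om + Polynomial.C s) := by
  have h₁ : ppol₁ pi (bpt N θ₀ s) = 0 := by simp [ppol₁, bpt]
  have h₂ : ppol₂ pi (bpt N θ₀ s) = 0 := by simp [ppol₂, bpt]
  rw [tripζ, famd_cpol, h₁, h₂]
  rfl

theorem famd_eval_aeval (cp : Polynomial ℝ) (p : Fin 3 → ℝ) :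
    eval p (Polynomial.aeval (X 2 : P3) cp) = cp.eval (p 2) := by
  induction cp using Polynomial.induction_on' with
  | add p q hp hq => simp only [map_add, hp, hq, Polynomial.eval_add]
  | monomial k a => simp [Polynomial.aeval_monomial]

/-- `x = σ c(τ)` -/
def xx (r : ℕ) (cp : Polynomial ℝ) (θ : ℝ) : ℝ := sgm r θ * cp.eval (cos θ ^ r)

theorem Cl.mq_trip₀ (c : Cl r n) (cp : Polynomial ℝ) (θ φ a b a' b' : ℝ) :
    mq r (trip₀ r cp) θ φ a b a' b' = 4 * xx r cp θ ^ 2 * (a * a') +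
      (xx r cp θ - 4 * xx r cp θ ^ 3) * (a * b' + b * a') +
      (-3 * xx r cp θ ^ 2 + 4 * xx r cp θ ^ 4) * (b * b') := by
  have h : pt r θ φ 2 = cos θ ^ r := rfl
  simp only [mq, trip₀, trip_base, uU, xx, sgm, map_add, map_mul, map_pow, map_neg, map_ofNat,
    c.eval_sS, c.eval_vV, famd_eval_aeval, h]
  ring

/-- `U₁ + i U₂` -/
def Ucx (x a b : ℝ) : ℂ := (1 + 2 * Complex.I * x) * a + (-x + Complex.I * (1 - 2 * x ^ 2)) * b

/-- the density of the derivative of the energy -/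
def dens (σ p₁ p₂ : ℝ) (Ω : ℂ) : ℝ := σ * (-p₁ * Ω.im + p₂ * (2 * σ * Ω.re + (σ ^ 2 - 1) * Ω.im))

theorem famd_lin {R : Type} [CommRing R] (S u c p₁ p₂ : R) :
    (trip (Polynomial.C S) (Polynomial.C u) (Polynomial.C c) (Polynomial.C p₁ * Polynomial.X)
      (Polynomial.C p₂ * Polynomial.X)).1.coeff 1 =
        2 * S * p₂ - 4 * S * c * (p₂ * (1 - u * S) + p₁) - 8 * S ^ 2 * c ^ 2 * u * p₂ ∧
    (trip (Polynomial.C S) (Polynomial.C u) (Polynomial.C c) (Polynomial.C p₁ * Polynomial.X)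
      (Polynomial.C p₂ * Polynomial.X)).2.1.coeff 1 =
        p₂ * (1 - u * S) + p₁ + 4 * c * u * S * p₂ +
          c * u * (2 * S * p₂ - 4 * S * c * (p₂ * (1 - u * S) + p₁) - 8 * S ^ 2 * c ^ 2 * u * p₂) ∧
    (trip (Polynomial.C S) (Polynomial.C u) (Polynomial.C c) (Polynomial.C p₁ * Polynomial.X)
      (Polynomial.C p₂ * Polynomial.X)).2.2.coeff 1 =
        -2 * S * p₂ + 2 * S * c * (p₂ * (1 - u * S) + p₁ + 4 * c * u * S * p₂) + S * c ^ 2 * u *
          (2 * S * p₂ - 4 * S * c * (p₂ * (1 - u * S) + p₁) - 8 * S ^ 2 * c ^ 2 * u * p₂) := by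
  have h20 : (2 : Polynomial R).coeff 0 = 2 := Polynomial.coeff_C_zero (a := (2 : R))
  have h21 : (2 : Polynomial R).coeff 1 = 0 := Polynomial.coeff_C_succ (r := (2 : R)) (n := 0)
  have hC : ∀ a : R, (Polynomial.C a).coeff 1 = 0 := fun a => Polynomial.coeff_C_succ (n := 0)
  have h11 : (1 : Polynomial R).coeff 1 = 0 := hC 1
  simp only [trip, up, lo, sq, Polynomial.coeff_add, Polynomial.coeff_neg, Polynomial.mul_coeff_one,
    Polynomial.mul_coeff_zero, h20, h21, hC, h11, Polynomial.coeff_C_zero, Polynomial.coeff_one_zero,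
    Polynomial.coeff_X_zero, Polynomial.coeff_X_one, mul_zero, zero_mul,
    add_zero, zero_add, mul_one, neg_zero]
  refine ⟨?_, ?_, ?_⟩ <;> ring

theorem Cl.mq_dtrip (c : Cl r n) (cp : Polynomial ℝ) (P₁ P₂ : P3) (θ φ a b a' b' : ℝ) :
    mq r (dtrip r cp P₁ P₂) θ φ a b a' b' = dens (sgm r θ) (eval (pt r θ φ) P₁) (eval (pt r θ φ) P₂)
      (Ucx (xx r cp θ) a b * Ucx (xx r cp θ) a' b') := by
  have h : pt r θ φ 2 = cos θ ^ r := rfl
  obtain ⟨h1, h2, h3⟩ := famd_lin (sS r) (uU r) (Polynomial.aeval (X 2 : P3) cp) P₁ P₂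
  simp only [mq, dtrip, h1, h2, h3]
  simp only [uU, xx, sgm, map_add, map_mul, map_pow, map_neg, map_ofNat,
    map_sub, map_one, c.eval_sS, c.eval_vV, famd_eval_aeval, h, dens, Ucx]
  simp only [Complex.mul_re, Complex.mul_im, Complex.add_re, Complex.add_im, Complex.sub_re,
    Complex.sub_im, Complex.neg_re, Complex.neg_im, Complex.ofReal_re, Complex.ofReal_im,
    Complex.I_re, Complex.I_im, Complex.one_re, Complex.one_im, Complex.re_ofNat, Complex.im_ofNat,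
    ← Complex.ofReal_pow]
  ring

theorem famd_expand (r : ℕ) (om : Polynomial ℝ) (pi : Fin N → P3) :
    ∃ (I : Type) (s : Finset I) (φ : I → Par N → ℝ) (t : I → T3), (∀ i, ContDiff ℝ ω (φ i)) ∧
      ∀ ζ, tripζ r om pi ζ = ∑ i ∈ s, φ i ζ • t i := by
  classical
  let T := trip (R := MvPolynomial (Fin 2 ⊕ Fin N ⊕ Fin N) P3) (C (sS r)) (C (uU r))
    (X (.inl 0) * C (Polynomial.aeval (X 2 : P3) om) + X (.inl 1))
    (∑ m, X (.inr (.inl m)) * C (pi m)) (∑ m, X (.inr (.inr m)) * C (pi m))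
  refine ⟨_, T.1.support ∪ T.2.1.support ∪ T.2.2.support, fun d ζ => ∏ i, ζ i ^ d i,
    fun d => (coeff d T.1, coeff d T.2.1, coeff d T.2.2), fun d => by fun_prop, fun ζ => ?_⟩
  have key : ∀ (Q : MvPolynomial (Fin 2 ⊕ Fin N ⊕ Fin N) P3) (s : Finset _), Q.support ⊆ s →
      eval (fun i => (C (ζ i) : P3)) Q = ∑ d ∈ s, (∏ i, ζ i ^ d i) • coeff d Q := fun Q s hs => by
    rw [eval_eq', Finset.sum_subset hs fun d _ hd => by rw [notMem_support_iff.1 hd, zero_mul]]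
    refine Finset.sum_congr rfl fun d _ => ?_
    rw [smul_eq_C_mul, mul_comm, map_prod]
    simp only [map_pow]
  have h := trip_map (eval fun i => (C (ζ i) : P3)) (C (sS r)) (C (uU r))
    (X (.inl 0) * C (Polynomial.aeval (X 2 : P3) om) + X (.inl 1))
    (∑ m, X (.inr (.inl m)) * C (pi m)) (∑ m, X (.inr (.inr m)) * C (pi m))
  simp only [map_add, map_mul, map_sum, eval_C, eval_X] at h
  refine h.symm.trans (Prod.ext ?_ (Prod.ext ?_ ?_))
  · rw [Prod.fst_sum]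
    exact key _ _ (Finset.subset_union_left.trans Finset.subset_union_left)
  · rw [Prod.snd_sum, Prod.fst_sum]
    exact key _ _ (Finset.subset_union_right.trans Finset.subset_union_left)
  · rw [Prod.snd_sum, Prod.snd_sum]
    exact key _ _ Finset.subset_union_right

theorem famd_fil_sum {I : Type} {s : Finset I} {D : ℕ} {g : I → P3} (a : I → ℝ)
    (h : ∀ i ∈ s, Fil r D (g i)) : Fil r D (∑ i ∈ s, a i • g i) := by
  refine Finset.sum_induction _ (Fil r D) (fun _ _ => Fil.add) (fun d hd => by simp at hd)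
    fun i hi d hd => h i hi d (support_smul hd)

theorem exists_fil_tripζ (om : Polynomial ℝ) (pi : Fin N → P3) : ∃ a, ∀ ζ,
    Fil r a (tripζ r om pi ζ).1 ∧ Fil r a (tripζ r om pi ζ).2.1 ∧ Fil r a (tripζ r om pi ζ).2.2 := by
  obtain ⟨I, s, φ, t, -, h⟩ := famd_expand r om pi
  choose D₁ h₁ using fun i => exists_fil (r := r) (t i).1
  choose D₂ h₂ using fun i => exists_fil (r := r) (t i).2.1
  choose D₃ h₃ using fun i => exists_fil (r := r) (t i).2.2
  have hs : ∀ i ∈ s, D₁ i + D₂ i + D₃ i ≤ s.sup fun i => D₁ i + D₂ i + D₃ i := fun i hi =>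
    Finset.le_sup (f := fun i => D₁ i + D₂ i + D₃ i) hi
  refine ⟨s.sup fun i => D₁ i + D₂ i + D₃ i, fun ζ => ?_⟩
  rw [h, Prod.fst_sum, Prod.snd_sum, Prod.fst_sum, Prod.snd_sum]
  exact ⟨famd_fil_sum _ fun i hi => (h₁ i).mono (by have := hs i hi; omega),
    famd_fil_sum _ fun i hi => (h₂ i).mono (by have := hs i hi; omega),
    famd_fil_sum _ fun i hi => (h₃ i).mono (by have := hs i hi; omega)⟩

theorem Cl.contDiff_Aop (c : Cl r n) (om : Polynomial ℝ) (pi : Fin N → P3) :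
    ContDiff ℝ ω fun ζ : Par N => 1 + c.Aop (tripζ r om pi ζ) := by
  obtain ⟨I, s, φ, t, hφ, h⟩ := famd_expand r om pi
  simp only [h, c.Aop_sum]
  exact contDiff_const.add (ContDiff.sum fun i _ => (hφ i).smul contDiff_const)

theorem famd_line (om : Polynomial ℝ) (pi : Fin N → P3) (θ₀ s : ℝ) (e : Par N)
    (he : ∀ a, e (.inl a) = 0) : ∃ (K : ℕ) (t : ℕ → T3), 1 < K ∧
      t 1 = dtrip r (Polynomial.C θ₀ * om + Polynomial.C s) (ppol₁ pi e) (ppol₂ pi e) ∧
      ∀ ε : ℝ, tripζ r om pi (bpt N θ₀ s + ε • e) = ∑ i ∈ Finset.range K, ε ^ i • t i := by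
  set T := trip (Polynomial.C (sS r)) (Polynomial.C (uU r))
    (Polynomial.C (Polynomial.aeval (X 2 : P3) (Polynomial.C θ₀ * om + Polynomial.C s)))
    (Polynomial.C (ppol₁ pi e) * Polynomial.X) (Polynomial.C (ppol₂ pi e) * Polynomial.X) with hT
  refine ⟨T.1.natDegree + T.2.1.natDegree + T.2.2.natDegree + 2,
    fun i => (T.1.coeff i, T.2.1.coeff i, T.2.2.coeff i), by omega, rfl, fun ε => ?_⟩
  have key : ∀ (Q : Polynomial P3) (K : ℕ), Q.natDegree < K →
      Polynomial.evalRingHom (C ε) Q = ∑ i ∈ Finset.range K, ε ^ i • Q.coeff i := fun Q K hK => by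
    rw [Polynomial.coe_evalRingHom, Polynomial.eval_eq_sum_range' hK]
    exact Finset.sum_congr rfl fun i _ => by rw [smul_eq_C_mul, mul_comm, map_pow]
  have h₀ : cpol om (bpt N θ₀ s + ε • e) =
      Polynomial.aeval (X 2 : P3) (Polynomial.C θ₀ * om + Polynomial.C s) := by
    rw [famd_cpol]
    simp [bpt, he]
  have h₁ : ppol₁ pi (bpt N θ₀ s + ε • e) = ppol₁ pi e * C ε := by
    simp only [ppol₁, Finset.sum_mul]
    exact Finset.sum_congr rfl fun m _ => by simp [bpt]; ring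
  have h₂ : ppol₂ pi (bpt N θ₀ s + ε • e) = ppol₂ pi e * C ε := by
    simp only [ppol₂, Finset.sum_mul]
    exact Finset.sum_congr rfl fun m _ => by simp [bpt]; ring
  have h := trip_map (Polynomial.evalRingHom (C ε : P3)) (Polynomial.C (sS r)) (Polynomial.C (uU r))
    (Polynomial.C (Polynomial.aeval (X 2 : P3) (Polynomial.C θ₀ * om + Polynomial.C s)))
    (Polynomial.C (ppol₁ pi e) * Polynomial.X) (Polynomial.C (ppol₂ pi e) * Polynomial.X)
  rw [← hT] at h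
  simp only [Polynomial.coe_evalRingHom, Polynomial.eval_mul, Polynomial.eval_C,
    Polynomial.eval_X] at h
  rw [tripζ, h₀, h₁, h₂, ← h]
  refine Prod.ext ?_ (Prod.ext ?_ ?_)
  · rw [Prod.fst_sum]
    exact key _ _ (by omega)
  · rw [Prod.snd_sum, Prod.fst_sum]
    exact key _ _ (by omega)
  · rw [Prod.snd_sum, Prod.snd_sum]
    exact key _ _ (by omega)

theorem Cl.fderiv_Aop (c : Cl r n) (om : Polynomial ℝ) (pi : Fin N → P3) (θ₀ s : ℝ) (e : Par N)
    (he : ∀ a, e (.inl a) = 0) :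
    fderiv ℝ (fun ζ : Par N => 1 + c.Aop (tripζ r om pi ζ)) (bpt N θ₀ s) e =
      c.Aop (dtrip r (Polynomial.C θ₀ * om + Polynomial.C s) (ppol₁ pi e) (ppol₂ pi e)) := by
  obtain ⟨K, t, hK, ht, h⟩ := famd_line (r := r) om pi θ₀ s e he
  have h1 : HasLineDerivAt ℝ (fun ζ : Par N => 1 + c.Aop (tripζ r om pi ζ))
      (fderiv ℝ (fun ζ : Par N => 1 + c.Aop (tripζ r om pi ζ)) (bpt N θ₀ s) e) (bpt N θ₀ s) e :=
    ((c.contDiff_Aop om pi).differentiable (by simp) _).hasFDerivAt.hasLineDerivAt e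
  refine h1.unique ?_
  unfold HasLineDerivAt
  simp only [h, c.Aop_sum]
  have h2 := (HasDerivAt.fun_sum (u := Finset.range K) fun i _ =>
    (hasDerivAt_pow i (0 : ℝ)).smul_const (c.Aop (t i))).const_add 1
  rwa [Finset.sum_eq_single_of_mem 1 (Finset.mem_range.2 hK) fun i _ hi => ?_, Nat.cast_one,
    Nat.sub_self, pow_zero, one_mul, one_smul, ht] at h2
  rcases i with _ | _ | i
  · simp
  · exact absurd rfl hi
  · simp

theorem famd_cd_eval (g : P3) : ContDiff ℝ ∞ fun p : Fin 3 → ℝ => eval p g := by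
  induction g using MvPolynomial.induction_on with
  | C a => simpa using contDiff_const
  | add p q hp hq => simpa using hp.add hq
  | mul_X p i hp => simpa using hp.mul (contDiff_apply ℝ ℝ i)

theorem contDiff_eval_tripζ (om : Polynomial ℝ) (pi : Fin N → P3) :
    (ContDiff ℝ ∞ fun p : Par N × (Fin 3 → ℝ) => eval p.2 (tripζ r om pi p.1).1) ∧
    (ContDiff ℝ ∞ fun p : Par N × (Fin 3 → ℝ) => eval p.2 (tripζ r om pi p.1).2.1) ∧
    (ContDiff ℝ ∞ fun p : Par N × (Fin 3 → ℝ) => eval p.2 (tripζ r om pi p.1).2.2) := by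
  obtain ⟨I, s, φ, t, hφ, h⟩ := famd_expand r om pi
  have key : ∀ g : I → P3, ContDiff ℝ ∞ fun p : Par N × (Fin 3 → ℝ) =>
      eval p.2 (∑ i ∈ s, φ i p.1 • g i) := fun g => by
    simp only [map_sum, smul_eval]
    exact ContDiff.sum fun i _ =>
      (((hφ i).of_le le_top).comp contDiff_fst).mul ((famd_cd_eval _).comp contDiff_snd)
  simp only [h, Prod.fst_sum, Prod.snd_sum]
  exact ⟨key _, key _, key _⟩

/-- the family of energies -/
def fam {ι : Type} (cl : ι → Cl r n) (om : Polynomial ℝ) (pi : Fin N → P3) :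
    Fam n (Par N) ι (fun i => (cl i).J) where
  b i := (cl i).base
  B i ζ := 1 + (cl i).Aop (tripζ r om pi ζ)
  smooth i := (cl i).contDiff_Aop om pi
  symm i ζ x y := by
    simp only [ContinuousLinearMap.add_apply, ContinuousLinearMap.one_apply, inner_add_left,
      inner_add_right, (cl i).Aop_symm]
  d := (exists_fil_tripζ (r := r) om pi).choose + 4
  band i ζ :=
    have h := (exists_fil_tripζ (r := r) om pi).choose_spec ζ
    (cl i).banded_Aop h.1 h.2.1 h.2.2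
  zero i := by rw [tripζ_zero, Cl.Aop_zero, add_zero]

theorem famd_cl (r : ℕ) (hr : r = 1 ∨ r = 2) : ∃ n, Nonempty (Cl r n) := by
  rcases hr with h | h
  · exact ⟨3, ⟨⟨0, Or.inl ⟨h, rfl, rfl⟩⟩⟩⟩
  · exact ⟨4, ⟨⟨1, Or.inr ⟨h, le_rfl, le_rfl⟩⟩⟩⟩

theorem famd_vp (r : ℕ) (θ : ℝ) : |vp r θ| ≤ 1 := by
  unfold vp
  split_ifs
  · simp
  · exact abs_cos_le_one θ

theorem famd_sgm (r : ℕ) (θ : ℝ) : |sgm r θ| ≤ 1 := by
  rw [sgm, abs_mul, abs_pow]
  exact mul_le_one₀ (famd_vp r θ) (by positivity) (pow_le_one₀ (abs_nonneg _) (abs_sin_le_one θ))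

theorem famd_quad {A B D δ : ℝ} (hA : |A| ≤ δ) (hB : |B| ≤ δ) (hD : |D| ≤ δ) (a b : ℝ) :
    |A * (a * a) + B * (a * b + b * a) + D * (b * b)| ≤ 2 * δ * (a ^ 2 + b ^ 2) := by
  obtain ⟨hA, hA'⟩ := abs_le.1 hA
  obtain ⟨hB, hB'⟩ := abs_le.1 hB
  obtain ⟨hD, hD'⟩ := abs_le.1 hD
  have h1 := mul_nonneg (sub_nonneg.2 hA) (sq_nonneg a)
  have h2 := mul_nonneg (sub_nonneg.2 hA') (sq_nonneg a)
  have h3 := mul_nonneg (sub_nonneg.2 hD) (sq_nonneg b)
  have h4 := mul_nonneg (sub_nonneg.2 hD') (sq_nonneg b)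
  have h5 := mul_nonneg (sub_nonneg.2 hB) (sq_nonneg (a + b))
  have h6 := mul_nonneg (sub_nonneg.2 hB') (sq_nonneg (a + b))
  have h7 := mul_nonneg (sub_nonneg.2 hB) (sq_nonneg (a - b))
  have h8 := mul_nonneg (sub_nonneg.2 hB') (sq_nonneg (a - b))
  rw [abs_le]
  constructor <;> nlinarith

theorem famd_cos_mem (r : ℕ) (θ : ℝ) : cos θ ^ r ∈ Icc (-1 : ℝ) 1 :=
  abs_le.1 (by rw [abs_pow]; exact pow_le_one₀ (abs_nonneg _) (abs_cos_le_one θ))

theorem famd_trip₀ (r : ℕ) (hr : r = 1 ∨ r = 2) {ε : ℝ} (hε : ε ≤ 1 / 4) {cp : Polynomial ℝ}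
    (h : ∀ x ∈ Icc (-1 : ℝ) 1, |cp.eval x| ≤ ε) : MqLe r (trip₀ r cp) (2 * ε) := by
  obtain ⟨n, ⟨c⟩⟩ := famd_cl r hr
  intro θ φ a b
  rw [c.mq_trip₀]
  have hx : |xx r cp θ| ≤ ε := by
    rw [xx, abs_mul]
    exact (mul_le_of_le_one_left (abs_nonneg _) (famd_sgm r θ)).trans (h _ (famd_cos_mem r θ))
  generalize xx r cp θ = x at hx
  have h0 : 0 ≤ ε := (abs_nonneg _).trans hx
  have h2 : x ^ 2 ≤ ε / 4 := by
    rw [← sq_abs]
    nlinarith [abs_nonneg x]
  have h3 := sq_nonneg x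
  refine famd_quad ?_ ?_ ?_ a b
  · rw [abs_le]
    constructor <;> linarith
  · rw [show x - 4 * x ^ 3 = x * (1 - 4 * x ^ 2) by ring, abs_mul]
    refine (mul_le_of_le_one_right (abs_nonneg _) (abs_le.2 ⟨?_, ?_⟩)).trans hx <;> linarith
  · rw [abs_le]
    constructor <;> nlinarith

theorem famd_pt (r : ℕ) (θ φ : ℝ) : pt r θ φ ∈ Metric.closedBall (0 : Fin 3 → ℝ) 1 := by
  rw [mem_closedBall_zero_iff, pi_norm_le_iff_of_nonneg zero_le_one]
  intro i
  fin_cases i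
  · change |sin θ * cos φ| ≤ 1
    rw [abs_mul]
    exact mul_le_one₀ (abs_sin_le_one _) (abs_nonneg _) (abs_cos_le_one _)
  · change |sin θ * sin φ| ≤ 1
    rw [abs_mul]
    exact mul_le_one₀ (abs_sin_le_one _) (abs_nonneg _) (abs_sin_le_one _)
  · exact abs_le.2 (famd_cos_mem r θ)

theorem mqLe_box (r : ℕ) (hr : r = 1 ∨ r = 2) {ε : ℝ} (hε : 0 < ε) : ∃ ε₁ : ℝ, 0 < ε₁ ∧
    ∀ (N : ℕ) (om : Polynomial ℝ) (pi : Fin N → P3), OmOk om → ∃ ρ : ℝ, 0 < ρ ∧
      ∀ ζ ∈ box N ε₁ ρ, MqLe r (tripζ r om pi ζ) ε := by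
  obtain ⟨n, ⟨c⟩⟩ := famd_cl r hr
  refine ⟨min (ε / 12) (1 / 12), by positivity, fun N om pi hom => ?_⟩
  have e1 := min_le_left (ε / 12) (1 / 12)
  have e2 := min_le_right (ε / 12) (1 / 12)
  have e3 : 0 < min (ε / 12) (1 / 12) := by positivity
  generalize min (ε / 12) (1 / 12) = ε₁ at e1 e2 e3
  obtain ⟨c1, c2, c3⟩ := contDiff_eval_tripζ (r := r) om pi
  have hF := ((isCompact_closedBall (0 : Par N) 1).prod
    (isCompact_closedBall (0 : Fin 3 → ℝ) 1)).uniformContinuousOn_of_continuous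
      (c1.continuous.prodMk (c2.continuous.prodMk c3.continuous)).continuousOn
  obtain ⟨δ, hδ, hF⟩ := Metric.uniformContinuousOn_iff_le.1 hF (ε / 4) (by positivity)
  refine ⟨min δ 1, by positivity, fun ζ hζ θ φ a b => ?_⟩
  have h1 : ζ ∈ Metric.closedBall (0 : Par N) 1 := by
    rw [mem_closedBall_zero_iff, pi_norm_le_iff_of_nonneg zero_le_one]
    rintro (i | i)
    · exact (hζ.1 i).trans (by linarith)
    · exact (hζ.2 i).trans (min_le_right _ _)
  have h2 : bpt N (ζ (.inl 0)) (ζ (.inl 1)) ∈ Metric.closedBall (0 : Par N) 1 := by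
    rw [mem_closedBall_zero_iff, pi_norm_le_iff_of_nonneg zero_le_one]
    rintro (i | i)
    · fin_cases i
      · exact (hζ.1 0).trans (by linarith)
      · exact (hζ.1 1).trans (by linarith)
    · simp [bpt]
  have h3 : dist ζ (bpt N (ζ (.inl 0)) (ζ (.inl 1))) ≤ δ := by
    rw [dist_pi_le_iff hδ.le]
    rintro (i | i)
    · fin_cases i <;> simp [bpt, hδ.le]
    · simpa [bpt] using (hζ.2 i).trans (min_le_left _ _)
  have h4 := hF (ζ, pt r θ φ) ⟨h1, famd_pt r θ φ⟩ (bpt N (ζ (.inl 0)) (ζ (.inl 1)), pt r θ φ)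
    ⟨h2, famd_pt r θ φ⟩ (by simpa [Prod.dist_eq, hδ.le] using h3)
  simp only [Prod.dist_eq, max_le_iff, Real.dist_eq, tripζ_bpt] at h4
  have h5 := famd_trip₀ r hr (ε := 3 * ε₁) (by linarith)
    (cp := Polynomial.C (ζ (.inl 0)) * om + Polynomial.C (ζ (.inl 1))) (fun x hx => by
      simp only [Polynomial.eval_add, Polynomial.eval_mul, Polynomial.eval_C]
      refine (abs_add_le _ _).trans ?_
      have a1 := hζ.1 0
      have a2 := hζ.1 1
      have a3 : |om.eval x| ≤ 2 := abs_le.2 ⟨by linarith [(hom x hx).1], (hom x hx).2.1⟩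
      have := mul_le_mul a1 a3 (abs_nonneg _) e3.le
      rw [abs_mul]
      linarith) θ φ a b
  generalize trip₀ r (Polynomial.C (ζ (.inl 0)) * om + Polynomial.C (ζ (.inl 1))) = t₀ at h4 h5
  generalize tripζ r om pi ζ = t at h4
  have hu : |eval (pt r θ φ) (uU r)| ≤ 1 := by
    rw [uU, map_mul, c.eval_sS, c.eval_vV, abs_mul, abs_pow, abs_pow]
    exact mul_le_one₀ (pow_le_one₀ (abs_nonneg _) (famd_vp r θ)) (by positivity)
      (pow_le_one₀ (abs_nonneg _) (abs_sin_le_one θ))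
  have hm : ∀ {x y : ℝ}, |x| ≤ 1 → |y| ≤ ε / 4 → |x * y| ≤ ε / 4 := fun hx hy => by
    rw [abs_mul]
    exact (mul_le_of_le_one_left (abs_nonneg _) hx).trans hy
  have h6 := famd_quad (hm hu h4.1) (hm ((abs_neg _).trans_le (famd_sgm r θ)) h4.2.1)
    (hm hu h4.2.2) a b
  have h7 : mq r t θ φ a b a b = mq r t₀ θ φ a b a b +
      (eval (pt r θ φ) (uU r) * (eval (pt r θ φ) t.1 - eval (pt r θ φ) t₀.1) * (a * a) +
        -sgm r θ * (eval (pt r θ φ) t.2.1 - eval (pt r θ φ) t₀.2.1) * (a * b + b * a) +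
        eval (pt r θ φ) (uU r) * (eval (pt r θ φ) t.2.2 - eval (pt r θ φ) t₀.2.2) * (b * b)) := by
    simp only [mq, map_mul]
    ring
  rw [h7]
  refine (abs_add_le _ _).trans ((add_le_add h5 h6).trans ?_)
  rw [← add_mul]
  exact mul_le_mul_of_nonneg_right (by linarith) (by positivity)

theorem mqLe_trip₀ (r : ℕ) (hr : r = 1 ∨ r = 2) {ε : ℝ} (hε : ε ≤ 1 / 4) {cp : Polynomial ℝ}
    (h : ∀ x ∈ Icc (-1 : ℝ) 1, |cp.eval x| ≤ ε) : MqLe r (trip₀ r cp) (2 * ε) := by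
  exact famd_trip₀ r hr hε h

end Crest.Agent.R202
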