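import Crest.Agent.R202.DynDefs

/-!
# Feedback, part A: the pulse, the gain and the real-variable one-step estimates
-/

set_option autoImplicit false

noncomputable section

open scoped InnerProductSpace ContDiff
open Set Filter Topology

namespace Crest.Agent.R202

theorem fba_pulse_nonneg (s : ℝ) : 0 ≤ pulse s ∧ pulse s ≤ 1 :=
  ⟨mul_nonneg (Real.smoothTransition.nonneg _) (Real.smoothTransition.nonneg _),
    mul_le_one₀ (Real.smoothTransition.le_one _) (Real.smoothTransition.nonneg _)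
      (Real.smoothTransition.le_one _)⟩

theorem fba_contDiff_pulse : ContDiff ℝ ∞ pulse :=
  (Real.smoothTransition.contDiff.comp (contDiff_const.mul contDiff_id)).mul
    (Real.smoothTransition.contDiff.comp (contDiff_const.sub (contDiff_const.mul contDiff_id)))

theorem fba_continuous_pulse : Continuous pulse := fba_contDiff_pulse.continuous

/-- the integral in the gain -/
def fbI (g : ℝ) : ℝ := ∫ s in (0 : ℝ)..1, Real.exp (g * (1 - s)) * pulse s

theorem fba_cont (g : ℝ) : Continuous fun s => Real.exp (g * (1 - s)) * pulse s :=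
  (Real.continuous_exp.comp (continuous_const.mul (continuous_const.sub continuous_id))).mul
    fba_continuous_pulse

theorem fbI_mono {g g' : ℝ} (h : g ≤ g') : fbI g ≤ fbI g' := by
  refine intervalIntegral.integral_mono_on zero_le_one ((fba_cont g).intervalIntegrable _ _)
    ((fba_cont g').intervalIntegrable _ _) fun s hs => ?_
  exact mul_le_mul_of_nonneg_right (Real.exp_le_exp.2
    (mul_le_mul_of_nonneg_right h (sub_nonneg.2 hs.2))) (fba_pulse_nonneg s).1

theorem fbI_pos (g : ℝ) : 0 < fbI g := by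
  refine intervalIntegral.intervalIntegral_pos_of_pos_on ((fba_cont g).intervalIntegrable _ _)
    (fun s hs => mul_pos (Real.exp_pos _) (mul_pos (Real.smoothTransition.pos_of_pos ?_)
      (Real.smoothTransition.pos_of_pos ?_))) zero_lt_one
  · linarith [hs.1]
  · linarith [hs.2]

theorem fbI_le {g C : ℝ} (h : g ≤ C) (hC : 0 ≤ C) : fbI g ≤ Real.exp C := by
  refine (fbI_mono h).trans ?_
  have := intervalIntegral.integral_mono_on (μ := MeasureTheory.volume) zero_le_one
    ((fba_cont C).intervalIntegrable _ _) (intervalIntegrable_const (c := Real.exp C))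
    fun s hs => by
      have h1 : Real.exp (C * (1 - s)) ≤ Real.exp C :=
        Real.exp_le_exp.2 (by nlinarith [hs.1, hs.2])
      have h2 := fba_pulse_nonneg s
      nlinarith [Real.exp_pos (C * (1 - s))]
  simpa [fbI] using this

theorem gain_eq (a b : ℝ) : gain a b = fbI (a - b) / (2 * b) := rfl

theorem gain_pos {a b : ℝ} (hb : 1 ≤ b) : 0 < gain a b :=
  div_pos (fbI_pos _) (by linarith)

theorem gain_le {a b C : ℝ} (ha : a ≤ C) (hb : 1 ≤ b) (hC : 0 ≤ C) : gain a b ≤ Real.exp C := by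
  rw [gain_eq, div_le_iff₀ (by linarith)]
  have := fbI_le (g := a - b) (C := C) (by linarith) hC
  nlinarith [Real.exp_pos C]

theorem gain_ge {a b C : ℝ} (hab : b ≤ a) (hb : 1 ≤ b) (hC : b ≤ C) :
    fbI 0 / (2 * C) ≤ gain a b :=
  div_le_div₀ (fbI_pos _).le (fbI_mono (by linarith)) (by linarith) (by linarith)

theorem gain_le_gain {a b : ℝ} (hab : b ≤ a) (hb : 1 ≤ b) : gain b a ≤ gain a b :=
  div_le_div₀ (fbI_pos _).le (fbI_mono (by linarith)) (by linarith) (by linarith)

theorem fba_mvt {f f' : ℝ → ℝ} {τ B : ℝ} (hf : ∀ t ∈ Icc τ (τ + 1), HasDerivAt f (f' t) t)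
    (hB : ∀ t ∈ Icc τ (τ + 1), |f' t| ≤ B) {t : ℝ} (ht : t ∈ Icc τ (τ + 1)) :
    |f t - f τ| ≤ B := by
  have h0 : τ ∈ Icc τ (τ + 1) := ⟨le_rfl, by linarith⟩
  have := (convex_Icc τ (τ + 1)).norm_image_sub_le_of_norm_hasDerivWithin_le (C := B)
    (fun x hx => (hf x hx).hasDerivWithinAt) (fun x hx => hB x hx) h0 ht
  rw [Real.norm_eq_abs, Real.norm_eq_abs, abs_of_nonneg (sub_nonneg.2 ht.1)] at this
  have hB0 : 0 ≤ B := (abs_nonneg _).trans (hB τ h0)
  nlinarith [ht.2]

theorem fba_sum_le {M : ℕ} {κ c : Fin M → ℝ} {k D p : ℝ} (hκ : ∀ i, |κ i| ≤ k)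
    (hc : ∀ i, |c i| ≤ D) (hk : 0 ≤ k) (hD : 0 ≤ D) (hp : 0 ≤ p ∧ p ≤ 1) :
    |p * ∑ i, κ i * c i| ≤ M * k * D := by
  have h1 : |∑ i, κ i * c i| ≤ M * k * D := by
    refine (Finset.abs_sum_le_sum_abs _ _).trans ?_
    refine (Finset.sum_le_sum (g := fun _ => k * D) fun i _ => ?_).trans (by simp [mul_assoc])
    rw [abs_mul]
    exact mul_le_mul (hκ i) (hc i) (abs_nonneg _) hk
  rw [abs_mul, abs_of_nonneg hp.1]
  nlinarith [abs_nonneg (∑ i, κ i * c i), hp.1, hp.2]

/-- Duhamel estimate on one unit interval. -/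
theorem fba_duhamel {M : ℕ} {C τ k R S D ξ g₀ : ℝ} {α : Fin M → ℝ} {κ : Fin M → Fin M → ℝ}
    {G c r : Fin M → ℝ → ℝ} {j : Fin M} (hα : ∀ i, 1 ≤ α i ∧ α i ≤ C)
    (hG : ∀ i, ∀ t ∈ Icc τ (τ + 1),
      HasDerivAt (G i) (α i * G i t + pulse (t - τ) * ∑ l, κ i l * c l t + r i t) t)
    (hr : ∀ i, ∀ t ∈ Icc τ (τ + 1), |r i t| ≤ R)
    (hS : ∀ i, ∀ t ∈ Icc τ (τ + 1), |c i t - G i t / (2 * α i)| ≤ S)
    (hD : ∀ i, ∀ t ∈ Icc τ (τ + 1), |c i t| ≤ D) (hκ : ∀ i l, |κ i l| ≤ k)
    (hj : G j τ = g₀) (hξ : ∀ i, i ≠ j → |G i τ| ≤ ξ) (hξ0 : 0 ≤ ξ) (i : Fin M) :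
    |Real.exp (-α i) * G i (τ + 1) - G i τ - κ i j * g₀ * Real.exp (α j - α i) * gain (α i) (α j)| ≤
      M * k * (S + Real.exp C * (ξ + (M * k * D + R))) + R := by
  have h0 : τ ∈ Icc τ (τ + 1) := ⟨le_rfl, by linarith⟩
  have h1 : τ + 1 ∈ Icc τ (τ + 1) := ⟨by linarith, le_rfl⟩
  have hk : 0 ≤ k := (abs_nonneg _).trans (hκ j j)
  have hD0 : 0 ≤ D := (abs_nonneg _).trans (hD j τ h0)
  have hR0 : 0 ≤ R := (abs_nonneg _).trans (hr j τ h0)
  have hS0 : 0 ≤ S := (abs_nonneg _).trans (hS j τ h0)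
  have hexp : ∀ l, ∀ t ∈ Icc τ (τ + 1), Real.exp (-α l * (t - τ)) ≤ 1 := fun l t ht =>
    Real.exp_le_one_iff.2 (by nlinarith [(hα l).1, ht.1])
  have hder : ∀ l, ∀ t ∈ Icc τ (τ + 1), HasDerivAt (fun t => Real.exp (-α l * (t - τ)) * G l t)
      (Real.exp (-α l * (t - τ)) * (pulse (t - τ) * ∑ m, κ l m * c m t + r l t)) t := by
    intro l t ht
    have e1 : HasDerivAt (fun t => Real.exp (-α l * (t - τ))) (Real.exp (-α l * (t - τ)) * -α l) t := by
      simpa using (((hasDerivAt_id t).sub_const τ).const_mul (-α l)).exp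
    exact (e1.mul (hG l t ht)).congr_deriv (by ring)
  have crude : ∀ l, ∀ t ∈ Icc τ (τ + 1),
      |Real.exp (-α l * (t - τ)) * G l t - G l τ| ≤ M * k * D + R := by
    intro l t ht
    have := fba_mvt (B := M * k * D + R) (hder l) (fun s hs => by
      rw [abs_mul, abs_of_pos (Real.exp_pos _)]
      have a1 := fba_sum_le (hκ l) (fun m => hD m s hs) hk hD0 (fba_pulse_nonneg (s - τ))
      have a2 := (abs_add_le _ _).trans (add_le_add a1 (hr l s hs))
      nlinarith [hexp l s hs, abs_nonneg (pulse (s - τ) * ∑ m, κ l m * c m s + r l s),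
        Real.exp_pos (-α l * (s - τ))]) ht
    simpa using this
  have hρ : 0 ≤ M * k * D + R := by positivity
  have fine : ∀ l, ∀ t ∈ Icc τ (τ + 1),
      |c l t - if l = j then Real.exp (α j * (t - τ)) * g₀ / (2 * α j) else 0| ≤
        S + Real.exp C * (ξ + (M * k * D + R)) := by
    intro l t ht
    have a1 := crude l t ht
    have a2 := hS l t ht
    have a3 : Real.exp (α l * (t - τ)) ≤ Real.exp C :=
      Real.exp_le_exp.2 (by nlinarith [(hα l).1, (hα l).2, ht.1, ht.2])
    have a4 : G l t - Real.exp (α l * (t - τ)) * G l τ =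
        Real.exp (α l * (t - τ)) * (Real.exp (-α l * (t - τ)) * G l t - G l τ) := by
      have : Real.exp (α l * (t - τ)) * Real.exp (-α l * (t - τ)) = 1 := by
        rw [← Real.exp_add]; simp
      linear_combination -G l t * this
    have a5 : |G l t - Real.exp (α l * (t - τ)) * G l τ| ≤ Real.exp C * (M * k * D + R) := by
      rw [a4, abs_mul, abs_of_pos (Real.exp_pos _)]
      exact mul_le_mul a3 a1 (abs_nonneg _) (Real.exp_pos _).le
    have a6 : ∀ x : ℝ, |x / (2 * α l)| ≤ |x| := fun x => by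
      rw [abs_div, abs_of_pos (show 0 < 2 * α l by linarith [(hα l).1])]
      exact div_le_self (abs_nonneg _) (by linarith [(hα l).1])
    have a7 : 0 ≤ Real.exp C * ξ := by positivity
    split_ifs with hl
    · subst hl
      have e : c l t - Real.exp (α l * (t - τ)) * g₀ / (2 * α l) = (c l t - G l t / (2 * α l)) +
          (G l t - Real.exp (α l * (t - τ)) * G l τ) / (2 * α l) := by rw [hj]; ring
      rw [e]
      refine (abs_add_le _ _).trans (add_le_add a2 (((a6 _).trans a5).trans ?_))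
      nlinarith
    · have e : c l t - 0 = (c l t - G l t / (2 * α l)) +
          ((G l t - Real.exp (α l * (t - τ)) * G l τ) + Real.exp (α l * (t - τ)) * G l τ) /
            (2 * α l) := by ring
      rw [e]
      refine (abs_add_le _ _).trans (add_le_add a2 ((a6 _).trans ((abs_add_le _ _).trans ?_)))
      have a8 : |Real.exp (α l * (t - τ)) * G l τ| ≤ Real.exp C * ξ := by
        rw [abs_mul, abs_of_pos (Real.exp_pos _)]
        exact mul_le_mul a3 (hξ l hl) (abs_nonneg _) (Real.exp_pos _).le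
      linarith
  have hc2 : Continuous fun s => Real.exp ((α j - α i) * s) * pulse s :=
    (Real.continuous_exp.comp (continuous_const.mul continuous_id)).mul fba_continuous_pulse
  have hI : ∀ t, HasDerivAt (fun t => ∫ s in (0 : ℝ)..(t - τ), Real.exp ((α j - α i) * s) * pulse s)
      (Real.exp ((α j - α i) * (t - τ)) * pulse (t - τ)) t := fun t => by
    exact (((hc2.integral_hasStrictDerivAt 0 (t - τ)).hasDerivAt).comp t
      ((hasDerivAt_id t).sub_const τ)).congr_deriv (mul_one _)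
  have main := fba_mvt (B := M * k * (S + Real.exp C * (ξ + (M * k * D + R))) + R)
    (fun t ht => (hder i t ht).sub ((hI t).const_mul (κ i j * g₀ / (2 * α j)))) (fun s hs => by
      have e : Real.exp (-α i * (s - τ)) * (pulse (s - τ) * ∑ m, κ i m * c m s + r i s) -
          κ i j * g₀ / (2 * α j) * (Real.exp ((α j - α i) * (s - τ)) * pulse (s - τ)) =
          Real.exp (-α i * (s - τ)) * (pulse (s - τ) * ∑ m, κ i m * (c m s -
            if m = j then Real.exp (α j * (s - τ)) * g₀ / (2 * α j) else 0) + r i s) := by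
        have e1 : Real.exp ((α j - α i) * (s - τ)) =
            Real.exp (-α i * (s - τ)) * Real.exp (α j * (s - τ)) := by
          rw [← Real.exp_add]; congr 1; ring
        simp only [mul_sub, Finset.sum_sub_distrib, mul_ite, mul_zero, Finset.sum_ite_eq',
          Finset.mem_univ, if_true]
        simp only [← mul_sub]
        rw [e1]
        ring
      rw [e, abs_mul, abs_of_pos (Real.exp_pos _)]
      have a1 := fba_sum_le (hκ i) (fun m => fine m s hs) hk (by positivity)
        (fba_pulse_nonneg (s - τ))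
      have a2 := (abs_add_le _ _).trans (add_le_add a1 (hr i s hs))
      exact (mul_le_of_le_one_left (abs_nonneg _) (hexp i s hs)).trans a2) h1
  have e2 : ∫ s in (0 : ℝ)..1, Real.exp ((α j - α i) * s) * pulse s =
      Real.exp (α j - α i) * fbI (α i - α j) := by
    rw [fbI, ← intervalIntegral.integral_const_mul]
    refine intervalIntegral.integral_congr fun s _ => ?_
    simp only [← mul_assoc, ← Real.exp_add]
    congr 2
    ring
  simp only [Pi.sub_apply, add_sub_cancel_left, sub_self, mul_one, mul_zero, Real.exp_zero, one_mul,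
    intervalIntegral.integral_same, sub_zero, e2] at main
  convert main using 2
  rw [gain_eq]
  ring

/-- passage to the ratios -/
theorem fba_ratio {C η g₀ a b u v x κ : ℝ} (ha : 1 ≤ a ∧ a ≤ C) (hb : 1 ≤ b ∧ b ≤ C) (hg : 0 < g₀)
    (hη : η ≤ 1 / 2) (hv : |Real.exp (-b) * v - g₀| ≤ η * g₀)
    (hu : |Real.exp (-a) * u - x - κ * g₀ * Real.exp (b - a) * gain a b| ≤ η * g₀)
    (hx : |x| ≤ g₀) (hκ : |κ| * Real.exp C ^ 2 ≤ 1) :
    |u / v - Real.exp (a - b) * (x / g₀) - κ * gain a b| ≤ 6 * Real.exp C * η := by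
  have hη0 : 0 ≤ η := by
    by_contra h
    have := (abs_nonneg _).trans hv
    nlinarith
  set p := Real.exp (-b) * v with hp
  set q := Real.exp (-a) * u with hq
  have hp0 : g₀ / 2 ≤ p := by have := (abs_le.1 hv).1; nlinarith
  have hp1 : 0 < p := by linarith
  set y := x / g₀ + κ * Real.exp (b - a) * gain a b with hy
  have hy2 : |y| ≤ 2 := by
    have a1 : |x / g₀| ≤ 1 := by
      rw [abs_div, abs_of_pos hg]; exact (div_le_one hg).2 hx
    have a2 : |κ * Real.exp (b - a) * gain a b| ≤ 1 := by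
      rw [abs_mul, abs_mul, abs_of_pos (Real.exp_pos _), abs_of_pos (gain_pos hb.1), mul_assoc]
      refine le_trans (mul_le_mul_of_nonneg_left ?_ (abs_nonneg _)) hκ
      rw [sq]
      exact mul_le_mul (Real.exp_le_exp.2 (by linarith [ha.1, hb.2]))
        (gain_le ha.2 hb.1 (by linarith [ha.1, ha.2])) (gain_pos hb.1).le (Real.exp_pos _).le
    linarith [abs_add_le (x / g₀) (κ * Real.exp (b - a) * gain a b)]
  have e1 : u / v - Real.exp (a - b) * (x / g₀) - κ * gain a b =
      Real.exp (a - b) * ((q - y * p) / p) := by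
    have hv0 : v ≠ 0 := fun h => by rw [hp, h, mul_zero] at hp1; exact lt_irrefl _ hp1
    rw [hp, hq, hy, Real.exp_sub, Real.exp_sub, Real.exp_neg, Real.exp_neg]
    field_simp
    ring
  have e2 : q - y * p = (q - x - κ * g₀ * Real.exp (b - a) * gain a b) - y * (p - g₀) := by
    rw [hy]; field_simp; ring
  have a3 : |q - y * p| ≤ 3 * η * g₀ := by
    rw [e2]
    refine (abs_sub _ _).trans ?_
    rw [abs_mul]
    nlinarith [mul_le_mul hy2 hv (abs_nonneg _) (by norm_num)]
  have a4 : |(q - y * p) / p| ≤ 6 * η := by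
    rw [abs_div, abs_of_pos hp1, div_le_iff₀ hp1]
    nlinarith
  rw [e1, abs_mul, abs_of_pos (Real.exp_pos _)]
  have a5 : Real.exp (a - b) ≤ Real.exp C := Real.exp_le_exp.2 (by linarith [ha.2, hb.1])
  nlinarith [mul_le_mul a5 a4 (abs_nonneg _) (Real.exp_pos _).le]

theorem fba_sinh {g C : ℝ} (h0 : 0 ≤ g) (hC : g ≤ C) :
    0 ≤ Real.exp g - Real.exp (-g) ∧
      Real.exp g - Real.exp (-g) ≤ 2 * Real.exp C * (1 - Real.exp (-g)) ∧
      1 - Real.exp (-g) ≤ g ∧ Real.exp (-C) * g ≤ 1 - Real.exp (-g) := by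
  have h1 : Real.exp g * Real.exp (-g) = 1 := by rw [← Real.exp_add]; simp
  have h2 : Real.exp (-g) ≤ 1 := Real.exp_le_one_iff.2 (by linarith)
  have h3 : 1 ≤ Real.exp g := Real.one_le_exp h0
  have h4 : Real.exp g ≤ Real.exp C := Real.exp_le_exp.2 hC
  have h5 : Real.exp (-C) ≤ Real.exp (-g) := Real.exp_le_exp.2 (by linarith)
  have h6 := Real.add_one_le_exp g
  have h7 := Real.add_one_le_exp (-g)
  have h8 := Real.exp_pos (-g)
  refine ⟨by linarith, ?_, by linarith, by nlinarith⟩
  have e : Real.exp g - Real.exp (-g) = (Real.exp g + 1) * (1 - Real.exp (-g)) := by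
    linear_combination h1
  rw [e]
  exact mul_le_mul_of_nonneg_right (by linarith) (by linarith)

/-- the Lyapunov function of a pair -/
theorem fba_pair {C a b x y x' y' κ E : ℝ} (hb : 1 ≤ b) (hab : b ≤ a) (ha : a ≤ C)
    (hκ : κ = -(Real.exp (a - b) - Real.exp (b - a)) * x / gain a b)
    (hx : |x' - Real.exp (a - b) * x - κ * gain a b| ≤ E)
    (hy : |y' - Real.exp (b - a) * y - κ * gain b a| ≤ E) :
    |y'| + 4 * Real.exp C * |x'| ≤
      (1 - Real.exp (-C) / 2 * |a - b|) * (|y| + 4 * Real.exp C * |x|) + (1 + 4 * Real.exp C) * E := by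
  have hg := gain_pos (a := a) hb
  have hg' := gain_pos (a := b) (hb.trans hab)
  obtain ⟨s1, s2, -, s4⟩ := fba_sinh (g := a - b) (C := C) (by linarith) (by linarith)
  rw [neg_sub] at s1 s2 s4
  rw [abs_of_nonneg (sub_nonneg.2 hab)]
  have hq := Real.exp_pos (b - a)
  have hq1 : Real.exp (b - a) ≤ 1 := Real.exp_le_one_iff.2 (by linarith)
  have a1 : |x'| ≤ Real.exp (b - a) * |x| + E := by
    have e : x' = (x' - Real.exp (a - b) * x - κ * gain a b) + Real.exp (b - a) * x := by
      rw [hκ]; field_simp; ring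
    have := abs_add_le (x' - Real.exp (a - b) * x - κ * gain a b) (Real.exp (b - a) * x)
    rw [← e, abs_mul, abs_of_pos hq] at this
    linarith
  have a2 : |κ * gain b a| ≤ 2 * Real.exp C * (1 - Real.exp (b - a)) * |x| := by
    have b1 : |κ * gain b a| ≤ |κ * gain a b| := by
      rw [abs_mul, abs_mul, abs_of_pos hg, abs_of_pos hg']
      exact mul_le_mul_of_nonneg_left (gain_le_gain hab hb) (abs_nonneg _)
    have b2 : κ * gain a b = -(Real.exp (a - b) - Real.exp (b - a)) * x := by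
      rw [hκ]; field_simp
    rw [b2, abs_mul (-_), abs_neg, abs_of_nonneg s1] at b1
    exact b1.trans (mul_le_mul_of_nonneg_right s2 (abs_nonneg _))
  have a3 : |y'| ≤ Real.exp (b - a) * |y| + 2 * Real.exp C * (1 - Real.exp (b - a)) * |x| + E := by
    have e : y' = (y' - Real.exp (b - a) * y - κ * gain b a) + (Real.exp (b - a) * y +
      κ * gain b a) := by ring
    have c1 := abs_add_le (y' - Real.exp (b - a) * y - κ * gain b a) (Real.exp (b - a) * y +
      κ * gain b a)
    have c2 := abs_add_le (Real.exp (b - a) * y) (κ * gain b a)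
    rw [← e] at c1
    rw [abs_mul (Real.exp _), abs_of_pos hq] at c2
    linarith
  have hE := Real.exp_pos C
  have a4 : 4 * Real.exp C * |x'| ≤ 4 * Real.exp C * (Real.exp (b - a) * |x| + E) :=
    mul_le_mul_of_nonneg_left a1 (by positivity)
  have a5 : (1 - (1 - Real.exp (b - a)) / 2) * (|y| + 4 * Real.exp C * |x|) ≤
      (1 - Real.exp (-C) / 2 * (a - b)) * (|y| + 4 * Real.exp C * |x|) :=
    mul_le_mul_of_nonneg_right (by linarith) (by positivity)
  nlinarith [abs_nonneg y, mul_nonneg (sub_nonneg.2 hq1) (abs_nonneg y)]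

/-- size of the feedback -/
theorem fba_fb_le {C a b x : ℝ} (hb : 1 ≤ b) (hab : b ≤ a) (ha : a ≤ C) :
    |-(Real.exp (a - b) - Real.exp (b - a)) * x / gain a b| ≤
      4 * C * Real.exp C / fbI 0 * (|a - b| * |x|) := by
  have hg := gain_pos (a := a) hb
  obtain ⟨s1, s2, s3, -⟩ := fba_sinh (g := a - b) (C := C) (by linarith) (by linarith)
  rw [neg_sub] at s1 s2 s3
  have hI := fbI_pos 0
  have hC : 0 < C := by linarith
  have hE := Real.exp_pos C
  rw [abs_div, abs_mul, abs_neg, abs_of_nonneg s1, abs_of_pos hg, abs_of_nonneg (sub_nonneg.2 hab)]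
  have a1 : (Real.exp (a - b) - Real.exp (b - a)) * |x| ≤ 2 * Real.exp C * ((a - b) * |x|) := by
    rw [← mul_assoc]
    exact mul_le_mul_of_nonneg_right (s2.trans (mul_le_mul_of_nonneg_left s3 (by positivity)))
      (abs_nonneg _)
  refine (div_le_div₀ (by have := sub_nonneg.2 hab; positivity) a1 (by positivity)
    (gain_ge hab hb (hab.trans ha))).trans (le_of_eq ?_)
  field_simp
  ring

theorem fba_clamp_le {k : ℝ} (hk : 0 ≤ k) (x : ℝ) : |clamp k x| ≤ k :=
  abs_le.2 ⟨le_max_left _ _, max_le (by linarith) (min_le_left _ _)⟩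

theorem fba_clamp_eq {k x : ℝ} (h : |x| ≤ k) : clamp k x = x := by
  rw [clamp, min_eq_right (abs_le.1 h).2, max_eq_right (abs_le.1 h).1]

end Crest.Agent.R202
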