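import Crest.Agent.R202.Chart

/-!
# Straightening the low blocks (task B0)

For each class choose `m i > M i` minimal with `ev (m i - 1) < ev (m i)` (so `ev (m i - 1) = ev (M i) ≤ 2 ev 1 (M i)`),
take the charts of `exists_chart`, let `ℓ = dΛ(ζ₀)` (onto the symmetric families by `CtrlAt`), `R` a linear right inverse
on the symmetric families, `Ψ ζ = ζ - R (ℓ ζ) + R (Λ ζ)`; `dΨ(ζ₀) = id`, `Γ` is the analytic local inverse and
`Λ (Γ η) = ℓ η`.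
-/

set_option autoImplicit false

noncomputable section

open scoped InnerProductSpace ContDiff
open Set Filter Topology

namespace Crest.Agent.R202

variable {n : ℕ} {E : Type} [NormedAddCommGroup E] [NormedSpace ℝ E] [FiniteDimensional ℝ E]
  {ι : Type} [Fintype ι] [DecidableEq ι] {J : ι → Type} (F : Fam n E ι J) (M : ι → ℕ)

theorem Fam.exists_flat (ζ₀ : E) (hadm : ∀ i, ∀ᶠ ζ in 𝓝 ζ₀, Adm (F.B i ζ))
    (hc : F.CtrlAt ζ₀ (fun i => 2 * (F.b i).ev 1 univ (M i))) :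
    ∃ (m : ι → ℕ) (ℓ : E →ₗ[ℝ] (∀ i, Fin (m i) → Fin (m i) → ℝ)) (Γ Ψ : E → E) (η₀ : E)
      (W : ∀ i, E → Fin (m i) → H (J i)) (t₁ t₂ : ι → ℝ),
      (∀ i, M i < m i) ∧ (∀ i, t₁ i < t₂ i) ∧
      (∀ S : ∀ i, Fin (m i) → Fin (m i) → ℝ, (∀ i a c, S i a c = S i c a) → ∃ η, ℓ η = S) ∧
      (∀ η i a c, ℓ η i a c = ℓ η i c a) ∧
      AnalyticAt ℝ Γ η₀ ∧ Γ η₀ = ζ₀ ∧ ContinuousAt Ψ ζ₀ ∧ Ψ ζ₀ = η₀ ∧
      (∀ᶠ ζ in 𝓝 ζ₀, Γ (Ψ ζ) = ζ) ∧ (∀ i, AnalyticAt ℝ (W i) η₀) ∧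
      (∀ i a c, ℓ η₀ i a c = if a = c then F.evu i ζ₀ a else 0) ∧
      (∀ e i a c, ⟪fderiv ℝ (F.B i) ζ₀ e (W i η₀ a), W i η₀ c⟫_ℝ = ℓ e i a c) ∧
      ∀ᶠ η in 𝓝 η₀, ∀ i,
        (∀ a, F.B i (Γ η) (W i η a) = ∑ c, ℓ η i c a • (F.b i).K (W i η c)) ∧
        (∀ a c, (F.b i).mass (W i η a) (W i η c) = if a = c then 1 else 0) ∧
        (∀ u : Fin (m i) → ℝ, ∑ a, ∑ c, ℓ η i a c * u a * u c ≤ t₁ i * ∑ a, u a ^ 2) ∧
        ∀ y, (∀ a, (F.b i).mass (W i η a) y = 0) →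
          t₂ i * (F.b i).mass y y ≤ ⟪F.B i (Γ η) y, y⟫_ℝ := by
  classical
  have hA : ∀ i, Adm (F.B i ζ₀) := fun i => (hadm i).self_of_nhds
  have hinf : ∀ i, (univ : Set (J i)).Infinite := fun i => by
    have := (F.b i).inf
    exact infinite_univ
  have hm : ∀ i, ∃ m, M i < m ∧ F.evu i ζ₀ (M i) < F.evu i ζ₀ m ∧
      ∀ a < m, F.evu i ζ₀ a ≤ F.evu i ζ₀ (M i) := by
    intro i
    have h1 : ∃ m, F.evu i ζ₀ (M i) < F.evu i ζ₀ m :=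
      (((F.b i).ev_tendsto (hA i) (hinf i)).eventually (eventually_gt_atTop _)).exists
    refine ⟨Nat.find h1, ?_, Nat.find_spec h1, fun a ha => not_lt.1 (Nat.find_min h1 ha)⟩
    by_contra hle
    exact absurd (Nat.find_spec h1) (not_lt.2 ((F.b i).ev_mono (hA i) (hinf i) (not_lt.1 hle)))
  choose m hMm hgap hlow using hm
  have hV0 := fun i => (F.b i).exists_eig (hA i) (hinf i) (fun _ _ _ hk => absurd (mem_univ _) hk)
    (m i)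
  choose V₀ hV₀ _ _ using hV0
  let t₁ : ι → ℝ := fun i => (2 * F.evu i ζ₀ (M i) + F.evu i ζ₀ (m i)) / 3
  let t₂ : ι → ℝ := fun i => (F.evu i ζ₀ (M i) + 2 * F.evu i ζ₀ (m i)) / 3
  have ht : ∀ i, t₁ i < t₂ i := fun i => by
    have := hgap i
    simp only [t₁, t₂]
    linarith
  have hch := fun i => (F.b i).exists_chart (F.B i) (F.smooth i) ζ₀ (hadm i) (V₀ i) (hV₀ i)
    (t₁ := t₁ i) (t₂ := t₂ i) (fun a => by
      have h1 := hgap i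
      have h2 := hlow i a a.2
      change F.evu i ζ₀ a < _
      simp only [t₁]
      linarith) (ht i) (by
      have h1 := hgap i
      change _ < F.evu i ζ₀ (m i)
      simp only [t₂]
      linarith)
  choose V Λ hVa hΛa hVV hΛ0 hdΛ hev using hch
  let L : E → (∀ i, Fin (m i) → Fin (m i) → ℝ) := fun ζ i => Λ i ζ
  have hLa : AnalyticAt ℝ L ζ₀ := analyticAt_pi_iff.2 hΛa
  let ℓ : E →L[ℝ] (∀ i, Fin (m i) → Fin (m i) → ℝ) := fderiv ℝ L ζ₀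
  have hL : HasFDerivAt L ℓ ζ₀ := hLa.differentiableAt.hasFDerivAt
  have hℓ : ∀ e i a c, ℓ e i a c = ⟪fderiv ℝ (F.B i) ζ₀ e (V₀ i a), V₀ i c⟫_ℝ := by
    intro e i a c
    rw [← hdΛ, (hasFDerivAt_pi'.1 hL i).fderiv]
    rfl
  have hev' := eventually_all.2 hev
  have hsym : ∀ η i a c, ℓ η i a c = ℓ η i c a := by
    intro η i a c
    have h1 := hasFDerivAt_pi'.1 (hasFDerivAt_pi'.1 (hasFDerivAt_pi'.1 hL i) a) c
    have h2 := hasFDerivAt_pi'.1 (hasFDerivAt_pi'.1 (hasFDerivAt_pi'.1 hL i) c) a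
    have h3 := h1.unique (h2.congr_of_eventuallyEq ((hev i).mono fun ζ h => h.2.2.1 a c))
    exact DFunLike.congr_fun h3 η
  have hsurj : ∀ S : ∀ i, Fin (m i) → Fin (m i) → ℝ, (∀ i a c, S i a c = S i c a) →
      ∃ η, ℓ η = S := by
    intro S hS
    obtain ⟨e, he⟩ := hc m V₀ _ hV₀ (fun i a => (hlow i a a.2).trans
      ((F.b i).ev_le_mul adm_one (hA i) (hinf i) two_pos (fun y _ => by
        have := ((hA i).2 y).2
        rwa [one_apply_eq_self, real_inner_self_eq_norm_sq]) _))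
      (fun i => Matrix.of (S i)) (fun i => Matrix.IsSymm.ext fun a c => hS i c a)
    exact ⟨e, by funext i a c; rw [hℓ, he]; rfl⟩
  obtain ⟨g, hg⟩ := ℓ.toLinearMap.rangeRestrict.exists_rightInverse_of_surjective
    (LinearMap.range_rangeRestrict _)
  obtain ⟨R₀, hR₀⟩ := g.exists_extend
  let R := LinearMap.toContinuousLinearMap R₀
  have hR : ∀ η, ℓ (R (ℓ η)) = ℓ η := by
    intro η
    have h1 := DFunLike.congr_fun hR₀ ⟨ℓ η, η, rfl⟩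
    have h2 := congrArg Subtype.val (DFunLike.congr_fun hg ⟨ℓ η, η, rfl⟩)
    change R (ℓ η) = _ at h1
    rw [h1]
    exact h2
  let Ψ : E → E := fun ζ => ζ - R (ℓ ζ) + R (L ζ)
  have hΨa : AnalyticAt ℝ Ψ ζ₀ :=
    (analyticAt_id.sub ((R.comp ℓ).analyticAt ζ₀)).add ((R.analyticAt _).comp hLa)
  have hΨd : HasFDerivAt Ψ ((ContinuousLinearEquiv.refl ℝ E : E ≃L[ℝ] E) : E →L[ℝ] E) ζ₀ := by
    have := ((hasFDerivAt_id ζ₀).sub (R.comp ℓ).hasFDerivAt).add (R.hasFDerivAt.comp ζ₀ hL)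
    rw [sub_add_cancel] at this
    exact this
  have : CompleteSpace E := FiniteDimensional.complete ℝ E
  have hΨc : ContDiffAt ℝ ω Ψ ζ₀ := hΨa.contDiffAt
  have hω : (ω : WithTop ℕ∞) ≠ 0 := by simp
  let Γ := hΨc.localInverse hΨd hω
  have hΓa : AnalyticAt ℝ Γ (Ψ ζ₀) := (hΨc.to_localInverse hΨd hω).analyticAt
  have hΓ0 : Γ (Ψ ζ₀) = ζ₀ := hΨc.localInverse_apply_image hΨd hω
  have hleft : ∀ᶠ ζ in 𝓝 ζ₀, Γ (Ψ ζ) = ζ := (hΨc.hasStrictFDerivAt' hΨd hω).eventually_left_inverse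
  have hright : ∀ᶠ η in 𝓝 (Ψ ζ₀), Ψ (Γ η) = η :=
    (hΨc.hasStrictFDerivAt' hΨd hω).eventually_right_inverse
  have hkey : ∀ ζ, (∀ i a c, Λ i ζ a c = Λ i ζ c a) → ℓ (Ψ ζ) = L ζ := by
    intro ζ h
    obtain ⟨η, hη⟩ := hsurj (L ζ) h
    simp only [Ψ, map_add, map_sub, hR, sub_self, zero_add]
    rw [← hη, hR]
  have hΓt : Tendsto Γ (𝓝 (Ψ ζ₀)) (𝓝 ζ₀) := by
    have := hΓa.continuousAt.tendsto
    rwa [hΓ0] at this
  refine ⟨m, ℓ.toLinearMap, Γ, Ψ, Ψ ζ₀, fun i η => V i (Γ η), t₁, t₂, hMm, ht, hsurj, hsym, hΓa,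
    hΓ0, hΨa.continuousAt, rfl, hleft, fun i => (hVa i).comp_of_eq hΓa hΓ0, ?_, ?_, ?_⟩
  · intro i a c
    change ℓ (Ψ ζ₀) i a c = _
    rw [hkey ζ₀ fun i => (hev'.self_of_nhds i).2.2.1]
    exact hΛ0 i a c
  · intro e i a c
    simp only [hΓ0, hVV]
    exact (hℓ e i a c).symm
  · filter_upwards [hright, hΓt.eventually hev'] with η h1 h2 i
    have h3 : ℓ.toLinearMap η = L (Γ η) := by
      rw [← hkey _ fun i => (h2 i).2.2.1, h1]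
      rfl
    rw [h3]
    exact ⟨(h2 i).1, (h2 i).2.1, (h2 i).2.2.2.1, (h2 i).2.2.2.2⟩

end Crest.Agent.R202
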