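import Crest.Agent.R202.FHDefs
import Crest.Prelude.Def_CoordVolume
import Crest.Prelude.Def_ChartCurvature

/-!
# Geometry: conical metrics `g = φ² G` in Cartesian coordinates

`t = log ‖x‖`, `F = exp ∫₀ᵗ β`, `φ = F(t)/‖x‖ = conf β x`; `G x` fixes `x` and has determinant one, so that in polar form
`g = F² (dt² + ĝ_t)` with `ĝ_t` having the round volume form.
-/

set_option autoImplicit false

noncomputable section

open scoped InnerProductSpace ContDiff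
open Set Filter Topology
open Crest.GeometryTopology.CoordMetric Crest.GeometryTopology.ChartCurvature Matrix

namespace Crest.Agent.R202

abbrev Vec (n : ℕ) : Type := EuclideanSpace ℝ (Fin n)

variable {n : ℕ}

def hat (x : Vec n) : Vec n := ‖x‖⁻¹ • x

/-- `F t = exp ∫₀ᵗ β` -/
def FF (β : ℝ → ℝ) (t : ℝ) : ℝ := Real.exp (∫ s in (0 : ℝ)..t, β s)

/-- the conformal factor as a function of the radius -/
def confR (β : ℝ → ℝ) (R : ℝ) : ℝ := Real.exp (∫ s in (0 : ℝ)..Real.log R, (β s - 1))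

def conf (β : ℝ → ℝ) (x : Vec n) : ℝ := confR β ‖x‖

def met (β : ℝ → ℝ) (G : MetricField n) : MetricField n := fun x => conf β x ^ 2 • G x

/-- geodesic distance from the origin as a function of the radius -/
def rho (β : ℝ → ℝ) (R : ℝ) : ℝ := ∫ s in (0 : ℝ)..R, confR β s

/-- the radial derivative `x · ∂` of a matrix field -/
def rdot (G : MetricField n) : MetricField n := fun x =>
  Matrix.of fun i j => fderiv ℝ (fun y => G y i j) x x

/-- `Σ = ½ G⁻¹ Ġ` -/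
def sig (G : MetricField n) : MetricField n := fun x => (1 / 2 : ℝ) • ((G x)⁻¹ * rdot G x)

structure Prof (β : ℝ → ℝ) (b : ℝ) : Prop where
  smooth : ContDiff ℝ ∞ β
  left : ∀ t, t ≤ 0 → β t = 1
  b_pos : 0 < b
  ge : ∀ t, b ≤ β t
  anti : ∀ t, deriv β t ≤ 0
  lim : Tendsto β atTop (𝓝 b)

structure Rad (G : MetricField n) : Prop where
  smooth : ∀ i j, ContDiff ℝ ∞ fun x => G x i j
  symm : ∀ x, (G x).IsSymm
  bnd : ∀ x w : Vec n, ‖w‖ ^ 2 / 2 ≤ quadForm G x w ∧ quadForm G x w ≤ 2 * ‖w‖ ^ 2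
  left : ∀ x, ‖x‖ ≤ 1 → G x = 1
  rad : ∀ x : Vec n, G x *ᵥ x.ofLp = x.ofLp
  det : ∀ x, (G x).det = 1

section
variable {E : Type} [NormedAddCommGroup E] [NormedSpace ℝ E]

/-- a smooth family of cross-section metrics -/
structure GFam (𝒢 : E → MetricField n) : Prop where
  smooth : ∀ i j, ContDiff ℝ ∞ fun p : E × Vec n => 𝒢 p.1 p.2 i j
  zero : ∀ y, 𝒢 0 y = 1
  symm : ∀ ζ y, (𝒢 ζ y).IsSymm
  rad : ∀ ζ (y : Vec n), ‖y‖ = 1 → 𝒢 ζ y *ᵥ y.ofLp = y.ofLp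
  det : ∀ ζ y, ‖y‖ = 1 → (𝒢 ζ y).det = 1

/-- `C²`-closeness to the identity on the unit sphere -/
def GSmall (G : MetricField n) (ε : ℝ) : Prop :=
  ∀ y : Vec n, ‖y‖ = 1 → ∀ i j, ∀ p ≤ 2,
    ‖iteratedFDeriv ℝ p (fun x => G x i j - (1 : Matrix (Fin n) (Fin n) ℝ) i j) y‖ ≤ ε

def coneG (𝒢 : E → MetricField n) (z : ℝ → E) : MetricField n := fun x =>
  𝒢 (z (Real.log ‖x‖)) (hat x)

end

/-- the angular Laplacian of the cross-section with matrix field `G` (read on the unit sphere) -/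
def angLap (G : MetricField n) (P : Vec n → ℝ) (y : Vec n) : ℝ :=
  ∑ i, pderiv i (fun x => ∑ j, (G (hat x))⁻¹ i j * pderiv j (fun x' => P (hat x')) x) y

/-- Christoffel symbols from the `1`-jet -/
def chrJet (g₀ : Matrix (Fin n) (Fin n) ℝ) (g₁ : Fin n → Matrix (Fin n) (Fin n) ℝ)
    (k i j : Fin n) : ℝ :=
  (1 / 2) * ∑ l, g₀⁻¹ k l * (g₁ i j l + g₁ j i l - g₁ l i j)

/-- `∂_m Γᵏᵢⱼ` from the `2`-jet; `g₂ m i = ∂_m ∂_i g` -/
def dchrJet (g₀ : Matrix (Fin n) (Fin n) ℝ) (g₁ : Fin n → Matrix (Fin n) (Fin n) ℝ)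
    (g₂ : Fin n → Fin n → Matrix (Fin n) (Fin n) ℝ) (m k i j : Fin n) : ℝ :=
  (1 / 2) * ∑ l, (-(g₀⁻¹ * g₁ m * g₀⁻¹) k l * (g₁ i j l + g₁ j i l - g₁ l i j) +
    g₀⁻¹ k l * (g₂ m i j l + g₂ m j i l - g₂ m l i j))

def ricJet (g₀ : Matrix (Fin n) (Fin n) ℝ) (g₁ : Fin n → Matrix (Fin n) (Fin n) ℝ)
    (g₂ : Fin n → Fin n → Matrix (Fin n) (Fin n) ℝ) (i j : Fin n) : ℝ :=
  (∑ k, dchrJet g₀ g₁ g₂ k k i j) - (∑ k, dchrJet g₀ g₁ g₂ j k k i) +
    (∑ k, ∑ l, chrJet g₀ g₁ k k l * chrJet g₀ g₁ l i j) -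
    ∑ k, ∑ l, chrJet g₀ g₁ k j l * chrJet g₀ g₁ l k i

def jet₁ (g : MetricField n) (x : Vec n) (m : Fin n) : Matrix (Fin n) (Fin n) ℝ :=
  Matrix.of fun i j => pderiv m (fun y => g y i j) x

def jet₂ (g : MetricField n) (x : Vec n) (m l : Fin n) : Matrix (Fin n) (Fin n) ℝ :=
  Matrix.of fun i j => pderiv m (fun y => pderiv l (fun y' => g y' i j) y) x

/-- evaluation of a polynomial on `ℝⁿ` -/
def evp (P : MvPolynomial (Fin n) ℝ) (x : Vec n) : ℝ := MvPolynomial.eval x.ofLp P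

end Crest.Agent.R202
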