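import Crest.Agent.R202.FamD
import Crest.Agent.R202.GBasic

/-!
# Algebra of the cross-section matrices (task G7a)

On the unit sphere `Z, W ⊥ y`, `Z ⊥ W`, `|Z|² = u`, `|W|² = S = y₀²+y₁²` (values at `prj r y`; `r = 1` forces `N = 0`).  `rk2 = 1 + U C Uᵀ` with `U = (Z W)`, so
`det = det (1₂ + C UᵀU)` (`Matrix.det_one_add_mul_comm`), and `Gm * Ginv = 1` by the determinant relation.
-/

set_option autoImplicit false

noncomputable section

open scoped InnerProductSpace ContDiff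
open Set Filter Topology
open MvPolynomial Real
open Crest.GeometryTopology.CoordMetric hiding pderiv

namespace Crest.Agent.R202

variable {r N : ℕ}

/-- the determinant relation of a triple -/
def DetOne (r : ℕ) (t : T3) : Prop :=
  (1 + uU r * t.1) * (1 + uU r * t.2.2) - uU r * sS r * t.2.1 ^ 2 = 1

theorem ga_sum (f : Fin (N + 3) → ℝ) :
    ∑ i, f i = f 0 + f 1 + ∑ j : Fin (N + 1), f j.succ.succ := by
  rw [Fin.sum_univ_succ, Fin.sum_univ_succ]; exact (add_assoc _ _ _).symm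

theorem ga_u0 (y : Vec (N + 3)) : uvec r y 0 = 0 := by simp [uvec]
theorem ga_u1 (y : Vec (N + 3)) : uvec r y 1 = 0 := by simp [uvec]
theorem ga_us (y : Vec (N + 3)) (j : Fin (N + 1)) :
    uvec r y j.succ.succ = if r = 1 then 1 else y j.succ.succ := by
  have : ¬ (j.succ.succ : Fin (N + 3)).val < 2 := by simp
  simp only [uvec, if_neg this]
theorem ga_Z0 (y : Vec (N + 3)) : Zv r y 0 = -tau r y * y 0 := by simp [Zv]
theorem ga_Z1 (y : Vec (N + 3)) : Zv r y 1 = -tau r y * y 1 := by simp [Zv]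
theorem ga_Zs (y : Vec (N + 3)) (j : Fin (N + 1)) :
    Zv r y j.succ.succ = (y 0 ^ 2 + y 1 ^ 2) * uvec r y j.succ.succ := by
  have : ¬ (j.succ.succ : Fin (N + 3)).val < 2 := by simp
  simp only [Zv, if_neg this]
theorem ga_W0 (y : Vec (N + 3)) : Wv y 0 = -y 1 := by simp [Wv]
theorem ga_W1 (y : Vec (N + 3)) : Wv y 1 = y 0 := by simp [Wv]
theorem ga_Ws (y : Vec (N + 3)) (j : Fin (N + 1)) : Wv y j.succ.succ = 0 := by
  have h0 : (j.succ.succ : Fin (N + 3)) ≠ 0 := Fin.succ_ne_zero _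
  have h1 : (j.succ.succ : Fin (N + 3)) ≠ 1 := by
    intro h
    have := congrArg Fin.val h
    simp at this
  simp only [Wv, if_neg h0, if_neg h1]

theorem ga_tau (y : Vec (N + 3)) :
    tau r y = ∑ j : Fin (N + 1), uvec r y j.succ.succ * y j.succ.succ := by
  rw [tau, ga_sum, ga_u0, ga_u1]; ring

theorem ga_norm {y : Vec (N + 3)} (hy : ‖y‖ = 1) :
    y 0 ^ 2 + y 1 ^ 2 + ∑ j : Fin (N + 1), y j.succ.succ ^ 2 = 1 := by
  have h := EuclideanSpace.real_norm_sq_eq y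
  rw [hy, ga_sum] at h
  linarith

theorem ga_prj2 (y : Vec (N + 3)) : prj r y 2 = tau r y := rfl

theorem ga_tau_one (y : Vec (0 + 3)) : tau 1 y = y 2 := by
  rw [ga_tau]; simp [ga_us]

theorem ga_tau_two (y : Vec (N + 3)) : tau 2 y = ∑ j : Fin (N + 1), y j.succ.succ ^ 2 := by
  rw [ga_tau]; simp [ga_us, sq]

theorem Cl.ga_cases (c : Cl r (N + 3)) : (r = 1 ∧ N = 0) ∨ r = 2 := by
  rcases c.ok with h | h <;> omega

theorem Cl.ga_facts (c : Cl r (N + 3)) {y : Vec (N + 3)} (hy : ‖y‖ = 1) :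
    y 0 ^ 2 + y 1 ^ 2 = eval (prj r y) (sS r) ∧
    ∑ j : Fin (N + 1), uvec r y j.succ.succ ^ 2 = eval (prj r y) (vV r) ∧
    tau r y ^ 2 + eval (prj r y) (sS r) * eval (prj r y) (vV r) = eval (prj r y) (vV r) := by
  have h := ga_norm hy
  rcases c.ga_cases with ⟨rfl, rfl⟩ | rfl
  · have h2 : y 0 ^ 2 + y 1 ^ 2 + y 2 ^ 2 = 1 := by simpa using h
    refine ⟨?_, ?_, ?_⟩
    · simp only [sS, if_true, map_sub, map_one, map_pow, eval_X, ga_prj2, ga_tau_one]; linarith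
    · simp [vV, ga_us]
    · simp [sS, vV, ga_prj2]
  · refine ⟨?_, ?_, ?_⟩
    · simp only [sS, show (2 : ℕ) ≠ 1 by norm_num, if_false, map_sub, map_one, eval_X, ga_prj2,
        ga_tau_two]
      linarith
    · simp [vV, ga_us, ga_prj2, ga_tau_two]
    · simp only [sS, vV, show (2 : ℕ) ≠ 1 by norm_num, if_false, map_sub, map_one, eval_X, ga_prj2]
      ring

theorem ga_polar (a b : ℝ) : ∃ φ, √(a ^ 2 + b ^ 2) * cos φ = a ∧ √(a ^ 2 + b ^ 2) * sin φ = b := by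
  have hn : ‖(⟨a, b⟩ : ℂ)‖ = √(a ^ 2 + b ^ 2) := by
    rw [Complex.norm_def, Complex.normSq_mk]; congr 1; ring
  refine ⟨Complex.arg ⟨a, b⟩, ?_, ?_⟩
  · rw [← hn]; exact Complex.norm_mul_cos_arg _
  · rw [← hn]; exact Complex.norm_mul_sin_arg _

theorem Cl.exists_pt (c : Cl r (N + 3)) {y : Vec (N + 3)} (hy : ‖y‖ = 1) :
    ∃ θ ∈ Icc 0 (π / r), ∃ φ, prj r y = pt r θ φ := by
  obtain ⟨φ, h0, h1⟩ := ga_polar (y 0) (y 1)
  have h := ga_norm hy
  rcases c.ga_cases with ⟨rfl, rfl⟩ | rfl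
  · have h2 : y 0 ^ 2 + y 1 ^ 2 + y 2 ^ 2 = 1 := by simpa using h
    have ha : -1 ≤ y 2 := by nlinarith [sq_nonneg (y 0), sq_nonneg (y 1)]
    have hb : y 2 ≤ 1 := by nlinarith [sq_nonneg (y 0), sq_nonneg (y 1)]
    have hs : sin (arccos (y 2)) = √(y 0 ^ 2 + y 1 ^ 2) := by
      rw [sin_arccos]; congr 1; linarith
    refine ⟨arccos (y 2), ⟨arccos_nonneg _, by simpa using arccos_le_pi _⟩, φ, ?_⟩
    simp only [prj, pt, hs, h0, h1, cos_arccos ha hb, ga_tau_one, pow_one]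
  · have hT : 0 ≤ tau 2 y := by rw [ga_tau_two]; positivity
    have hT1 : y 0 ^ 2 + y 1 ^ 2 = 1 - tau 2 y := by rw [ga_tau_two]; linarith
    have hT2 : tau 2 y ≤ 1 := by nlinarith [sq_nonneg (y 0), sq_nonneg (y 1)]
    have ha : -1 ≤ √(tau 2 y) := by linarith [Real.sqrt_nonneg (tau 2 y)]
    have hb : √(tau 2 y) ≤ 1 := Real.sqrt_le_one.2 hT2
    have hs : sin (arccos √(tau 2 y)) = √(y 0 ^ 2 + y 1 ^ 2) := by
      rw [sin_arccos, Real.sq_sqrt hT, hT1]
    refine ⟨arccos √(tau 2 y), ⟨arccos_nonneg _, ?_⟩, φ, ?_⟩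
    · simpa using arccos_le_pi_div_two.2 (Real.sqrt_nonneg _)
    · simp only [prj, pt, hs, h0, h1, cos_arccos ha hb, Real.sq_sqrt hT]

theorem Cl.exists_prj (c : Cl r (N + 3)) {θ : ℝ} (hθ : θ ∈ Icc 0 (π / r)) (φ : ℝ) :
    ∃ y : Vec (N + 3), ‖y‖ = 1 ∧ prj r y = pt r θ φ := by
  let v : Fin (N + 3) → ℝ := Fin.cons (sin θ * cos φ) (Fin.cons (sin θ * sin φ) (Fin.cons (cos θ) 0))
  have v0 : v 0 = sin θ * cos φ := rfl
  have v1 : v 1 = sin θ * sin φ := rfl
  have v2 : v (Fin.succ (Fin.succ 0)) = cos θ := rfl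
  have vs : ∀ j : Fin N, v j.succ.succ.succ = 0 := fun j => rfl
  have hs : ∑ j : Fin (N + 1), v j.succ.succ ^ 2 = cos θ ^ 2 := by
    rw [Fin.sum_univ_succ, v2]; simp [vs]
  refine ⟨WithLp.toLp 2 v, ?_, ?_⟩
  · have h := EuclideanSpace.real_norm_sq_eq (WithLp.toLp 2 v : Vec (N + 3))
    rw [ga_sum] at h
    simp only [v0, v1, hs] at h
    have h1 : ‖(WithLp.toLp 2 v : Vec (N + 3))‖ ^ 2 = 1 := by
      rw [h]; nlinarith [sin_sq_add_cos_sq θ, sin_sq_add_cos_sq φ]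
    exact (pow_eq_one_iff_of_nonneg (norm_nonneg _) two_ne_zero).1 h1
  · have ht : tau r (WithLp.toLp 2 v : Vec (N + 3)) = cos θ ^ r := by
      rcases c.ga_cases with ⟨rfl, rfl⟩ | rfl
      · rw [ga_tau_one, pow_one]; rfl
      · rw [ga_tau_two]; exact hs
    simp only [prj, pt, ht]
    rfl

theorem Cl.ZW (c : Cl r (N + 3)) {y : Vec (N + 3)} (hy : ‖y‖ = 1) :
    ∑ i, Zv r y i * y i = 0 ∧ ∑ i, Wv y i * y i = 0 ∧ ∑ i, Zv r y i * Wv y i = 0 ∧
    ∑ i, Zv r y i ^ 2 = eval (prj r y) (uU r) ∧ ∑ i, Wv y i ^ 2 = eval (prj r y) (sS r) ∧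
    y 0 ^ 2 + y 1 ^ 2 = eval (prj r y) (sS r) := by
  obtain ⟨hS, hv, hτ⟩ := c.ga_facts hy
  refine ⟨?_, ?_, ?_, ?_, ?_, hS⟩
  · rw [ga_sum, ga_Z0, ga_Z1]
    simp only [ga_Zs, mul_assoc, ← Finset.mul_sum, ← ga_tau]
    ring
  · rw [ga_sum, ga_W0, ga_W1]
    simp only [ga_Ws, zero_mul, Finset.sum_const_zero]
    ring
  · rw [ga_sum, ga_Z0, ga_Z1, ga_W0, ga_W1]
    simp only [ga_Ws, mul_zero, Finset.sum_const_zero]
    ring
  · rw [ga_sum, ga_Z0, ga_Z1]
    simp only [ga_Zs, mul_pow, ← Finset.mul_sum, hv, uU, map_mul]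
    rw [← hS] at hτ ⊢
    linear_combination (y 0 ^ 2 + y 1 ^ 2) * hτ
  · rw [ga_sum, ga_W0, ga_W1, ← hS]
    simp only [ga_Ws, ne_eq, OfNat.ofNat_ne_zero, not_false_eq_true, zero_pow, Finset.sum_const_zero]
    ring

/-- the matrix with columns `Z, W` -/
def gaU (r : ℕ) (y : Vec (N + 3)) : Matrix (Fin (N + 3)) (Fin 2) ℝ :=
  Matrix.of fun i k => ![Zv r y i, Wv y i] k

theorem ga_rk2 (a b e : ℝ) (y : Vec (N + 3)) :
    rk2 r a b e y = 1 + gaU r y * (!![a, b; b, e] * (gaU r y).transpose) := by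
  unfold rk2
  congr 1
  ext i l
  simp only [gaU, Matrix.mul_apply, Fin.sum_univ_two, Matrix.of_apply, Matrix.transpose_apply,
    Matrix.cons_val_zero, Matrix.cons_val_one, Matrix.cons_val_fin_one]
  ring

theorem Cl.ga_UU (c : Cl r (N + 3)) {y : Vec (N + 3)} (hy : ‖y‖ = 1) :
    (gaU r y).transpose * gaU r y = !![eval (prj r y) (uU r), 0; 0, eval (prj r y) (sS r)] := by
  obtain ⟨-, -, h3, h4, h5, -⟩ := c.ZW hy
  ext k l
  fin_cases k <;> fin_cases l <;> simp [gaU, Matrix.mul_apply]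
  · simpa [sq] using h4
  · exact h3
  · simpa [mul_comm] using h3
  · simpa [sq] using h5

theorem ga_uU_ne (r : ℕ) : uU r ≠ 0 := by
  intro h
  have h1 := congrArg (eval (fun _ => (1 / 2 : ℝ))) h
  unfold uU vV sS at h1
  split_ifs at h1 <;> norm_num at h1

theorem DetOne.ga_rel {t : T3} (ht : DetOne r t) :
    t.1 + t.2.2 + uU r * t.1 * t.2.2 - sS r * t.2.1 ^ 2 = 0 := by
  refine (mul_eq_zero.1 (?_ : uU r * _ = 0)).resolve_left (ga_uU_ne r)
  unfold DetOne at ht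
  linear_combination ht

theorem Cl.inv_Gm (c : Cl r (N + 3)) {t : T3} (ht : DetOne r t) {y : Vec (N + 3)} (hy : ‖y‖ = 1) :
    (Gm r t y)⁻¹ = Ginv r t y := by
  refine Matrix.inv_eq_right_inv ?_
  have hrel := congrArg (eval (prj r y)) ht.ga_rel
  simp only [map_sub, map_add, map_mul, map_pow, map_zero, uU] at hrel
  have hUU := c.ga_UU hy
  simp only [uU, map_mul] at hUU
  simp only [Gm, Ginv, ga_rk2, map_mul]
  generalize eval (prj r y) t.1 = α at *
  generalize eval (prj r y) t.2.1 = β at *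
  generalize eval (prj r y) t.2.2 = γ at *
  generalize eval (prj r y) (vV r) = v at *
  generalize eval (prj r y) (sS r) = S at *
  generalize gaU r y = U at *
  have key : !![γ, -β; -β, v * α] + !![α, β; β, v * γ] +
      !![γ, -β; -β, v * α] * !![v * S, 0; 0, S] * !![α, β; β, v * γ] = 0 := by
    ext k l
    fin_cases k <;> fin_cases l <;> simp
    · linear_combination hrel
    · ring
    · ring
    · linear_combination v * hrel
  rw [← hUU] at key
  generalize !![γ, -β; -β, v * α] = A at *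
  generalize !![α, β; β, v * γ] = B at *
  have e : (1 + U * (A * U.transpose)) * (1 + U * (B * U.transpose)) =
      1 + U * (A + B + A * (U.transpose * U) * B) * U.transpose := by
    simp only [Matrix.add_mul, Matrix.mul_add, Matrix.one_mul, Matrix.mul_one, Matrix.mul_assoc]
    abel
  rw [e, key]
  simp

theorem detOne_tripζ {Np : ℕ} (om : Polynomial ℝ) (pi : Fin Np → P3) (ζ : Par Np) :
    DetOne r (tripζ r om pi ζ) := by
  exact trip_det _ _ _ _ _

theorem ga_cd_coord (i : Fin (N + 3)) : ContDiff ℝ ∞ fun y : Vec (N + 3) => y i :=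
  (EuclideanSpace.proj i : Vec (N + 3) →L[ℝ] ℝ).contDiff

theorem ga_cd_uvec (i : Fin (N + 3)) : ContDiff ℝ ∞ fun y : Vec (N + 3) => uvec r y i := by
  unfold uvec
  split_ifs
  · exact contDiff_const
  · exact contDiff_const
  · exact ga_cd_coord i

theorem ga_cd_tau : ContDiff ℝ ∞ fun y : Vec (N + 3) => tau r y :=
  ContDiff.sum fun i _ => (ga_cd_uvec i).mul (ga_cd_coord i)

theorem ga_cd_prj : ContDiff ℝ ∞ fun y : Vec (N + 3) => prj r y := by
  refine contDiff_pi.2 fun k => ?_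
  fin_cases k
  · exact ga_cd_coord 0
  · exact ga_cd_coord 1
  · exact ga_cd_tau

theorem ga_cd_Z (i : Fin (N + 3)) : ContDiff ℝ ∞ fun y : Vec (N + 3) => Zv r y i := by
  unfold Zv
  split_ifs
  · exact ga_cd_tau.neg.mul (ga_cd_coord i)
  · exact (((ga_cd_coord 0).pow 2).add ((ga_cd_coord 1).pow 2)).mul (ga_cd_uvec i)

theorem ga_cd_W (i : Fin (N + 3)) : ContDiff ℝ ∞ fun y : Vec (N + 3) => Wv y i := by
  unfold Wv
  split_ifs
  · exact (ga_cd_coord 1).neg
  · exact ga_cd_coord 0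
  · exact contDiff_const

theorem ga_cd_v : ContDiff ℝ ∞ fun y : Vec (N + 3) => eval (prj r y) (vV r) := by
  unfold vV
  split_ifs
  · simpa using contDiff_const
  · simpa [ga_prj2] using ga_cd_tau

theorem Cl.ga_det (c : Cl r (N + 3)) {t : T3} (ht : DetOne r t) {y : Vec (N + 3)} (hy : ‖y‖ = 1) :
    (Gm r t y).det = 1 := by
  have hrel := congrArg (eval (prj r y)) ht
  simp only [map_sub, map_add, map_mul, map_pow, map_one, uU] at hrel
  simp only [Gm, ga_rk2]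
  rw [Matrix.det_one_add_mul_comm, Matrix.mul_assoc, c.ga_UU hy, Matrix.det_fin_two]
  simp [uU]
  linear_combination hrel

theorem Cl.ga_rad (c : Cl r (N + 3)) (a b e : ℝ) {y : Vec (N + 3)} (hy : ‖y‖ = 1) :
    (rk2 r a b e y).mulVec y.ofLp = y.ofLp := by
  obtain ⟨h1, h2, -⟩ := c.ZW hy
  have h0 : (gaU r y).transpose.mulVec y.ofLp = 0 := by
    ext k
    fin_cases k
    · simpa [gaU, Matrix.mulVec, dotProduct] using h1
    · simpa [gaU, Matrix.mulVec, dotProduct] using h2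
  rw [ga_rk2, Matrix.add_mulVec, Matrix.one_mulVec, ← Matrix.mulVec_mulVec, ← Matrix.mulVec_mulVec,
    h0]
  simp

theorem Cl.gFam (c : Cl r (N + 3)) {Np : ℕ} (om : Polynomial ℝ) (pi : Fin Np → P3) :
    GFam (fun ζ : Par Np => (Gm r (tripζ r om pi ζ) : MetricField (N + 3))) := by
  obtain ⟨h1, h2, h3⟩ := contDiff_eval_tripζ (r := r) om pi
  have hm : ContDiff ℝ ∞ fun p : Par Np × Vec (N + 3) => (p.1, prj r p.2) :=
    contDiff_fst.prodMk (ga_cd_prj.comp contDiff_snd)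
  have k1 := h1.comp hm
  have k2 := h2.comp hm
  have k3 := h3.comp hm
  refine ⟨fun i l => ?_, fun y => ?_, fun ζ y => ?_, fun ζ y hy => c.ga_rad _ _ _ hy,
    fun ζ y hy => c.ga_det (detOne_tripζ om pi ζ) hy⟩
  · simp only [Gm, rk2, Matrix.add_apply, Matrix.of_apply, map_mul]
    have z1 := (ga_cd_Z (r := r) i).comp (contDiff_snd (E := Par Np))
    have z2 := (ga_cd_Z (r := r) l).comp (contDiff_snd (E := Par Np))
    have w1 := (ga_cd_W i).comp (contDiff_snd (E := Par Np))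
    have w2 := (ga_cd_W l).comp (contDiff_snd (E := Par Np))
    have hv := (ga_cd_v (r := r) (N := N)).comp (contDiff_snd (E := Par Np))
    exact contDiff_const.add (((k3.mul (z1.mul z2)).add
      (k2.neg.mul ((z1.mul w2).add (w1.mul z2)))).add ((hv.mul k1).mul (w1.mul w2)))
  · rw [tripζ_zero]
    ext i l
    simp [Gm, rk2]
  · refine Matrix.IsSymm.ext fun i l => ?_
    simp only [Gm, rk2, Matrix.add_apply, Matrix.of_apply, Matrix.one_apply, eq_comm (a := i)]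
    ring

theorem Cl.exists_Gm_ne (c : Cl r (N + 3)) {t t₁ : T3} (h : c.Aop t ≠ c.Aop t₁) :
    ∃ y : Vec (N + 3), ‖y‖ = 1 ∧ Gm r t y ≠ Gm r t₁ y := by
  by_contra hne
  push Not at hne
  refine h (c.Aop_congr fun θ hθ φ a b a' b' => ?_)
  obtain ⟨y, hy, hp⟩ := c.exists_prj (Ioo_subset_Icc_self hθ) φ
  have hG := hne y hy
  simp only [Gm, ga_rk2, add_right_inj] at hG
  have h2 := congrArg (fun M => (gaU r y).transpose * M * gaU r y) hG
  simp only [← Matrix.mul_assoc] at h2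
  simp only [Matrix.mul_assoc _ _ (gaU r y), c.ga_UU hy] at h2
  have hsin : 0 < sin θ := by
    refine sin_pos_of_pos_of_lt_pi hθ.1 (hθ.2.trans_le ?_)
    have : (1 : ℝ) ≤ r := by exact_mod_cast c.r_pos
    exact div_le_self pi_pos.le this
  have hvp : vp r θ ≠ 0 := by
    rcases c.ga_cases with ⟨rfl, rfl⟩ | rfl
    · simp [vp]
    · have : 0 < cos θ := cos_pos_of_mem_Ioo ⟨by linarith [hθ.1, pi_pos], by simpa using hθ.2⟩
      simpa [vp] using this.ne'
  have hS : eval (pt r θ φ) (sS r) ≠ 0 := by rw [c.eval_sS]; positivity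
  have hv : eval (pt r θ φ) (vV r) ≠ 0 := by rw [c.eval_vV]; exact pow_ne_zero _ hvp
  rw [hp] at h2
  have e00 := congrFun (congrFun h2 0) 0
  have e01 := congrFun (congrFun h2 0) 1
  have e11 := congrFun (congrFun h2 1) 1
  simp [Matrix.mul_apply, Fin.sum_univ_two, uU, hS, hv] at e00 e01 e11
  simp only [mq, map_mul, e00, e01, e11]

end Crest.Agent.R202
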