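import Crest.Agent.R202.GmAlg
import Crest.Agent.R202.Markov

/-!
# `C²`-smallness of the cross-section matrices on a small box (task G7b)

`Gm … y i l - δ = Ψ (c(y), P₁(y), P₂(y), y)` with a fixed polynomial `Ψ` vanishing at `(0,0,0,y)` (`trip_map`), where `c = ζ₀ ω(τ) + ζ₁`.  The `2`-jets of `c` on the unit sphere are
`≤ C ε₁` (`OmOk`, `|τ| ≤ 1`), those of `P₁, P₂` are `≤ C(pi) ρ`.  Either write `Ψ = c Ψ₀ + P₁ Ψ₁ + P₂ Ψ₂` and use the product / composition bounds for `iteratedFDeriv`, or work with the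
class of smooth functions whose `2`-jets on the unit sphere are bounded by a constant (closed under `+`, `*` with explicit constants).
-/

set_option autoImplicit false

noncomputable section

open scoped InnerProductSpace ContDiff
open Set Filter Topology
open MvPolynomial Real
open Crest.GeometryTopology.CoordMetric hiding pderiv

namespace Crest.Agent.R202

/-- smooth with `2`-jets bounded by `M` on the unit sphere -/
def gsJ {n : ℕ} (f : Vec n → ℝ) (M : ℝ) : Prop :=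
  ContDiff ℝ ∞ f ∧ ∀ y : Vec n, ‖y‖ = 1 → ∀ p ≤ 2, ‖iteratedFDeriv ℝ p f y‖ ≤ M

section JB
variable {n : ℕ} {f g : Vec n → ℝ} {M M' : ℝ}

theorem gs_at (h : ContDiff ℝ ∞ f) (p : ℕ) (y : Vec n) : ContDiffAt ℝ p f y :=
  (h.of_le (by exact_mod_cast le_top)).contDiffAt

theorem gsJ.mono (h : gsJ f M) (hM : M ≤ M') : gsJ f M' :=
  ⟨h.1, fun y hy p hp => (h.2 y hy p hp).trans hM⟩

theorem gsJ.add (h : gsJ f M) (h' : gsJ g M') : gsJ (f + g) (M + M') :=
  ⟨h.1.add h'.1, fun y hy p hp => by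
    rw [iteratedFDeriv_add_apply (gs_at h.1 p y) (gs_at h'.1 p y)]
    exact norm_add_le_of_le (h.2 y hy p hp) (h'.2 y hy p hp)⟩

theorem gsJ.neg (h : gsJ f M) : gsJ (-f) M :=
  ⟨h.1.neg, fun y hy p hp => by
    rw [iteratedFDeriv_neg_apply, norm_neg]
    exact h.2 y hy p hp⟩

theorem gsJ.smul (h : gsJ f M) (a : ℝ) : gsJ (a • f) (|a| * M) :=
  ⟨h.1.const_smul a, fun y hy p hp => by
    rw [iteratedFDeriv_const_smul_apply (gs_at h.1 p y), norm_smul, Real.norm_eq_abs]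
    exact mul_le_mul_of_nonneg_left (h.2 y hy p hp) (abs_nonneg a)⟩

theorem gsJ.mul (h : gsJ f M) (h' : gsJ g M') : gsJ (f * g) (4 * M * M') :=
  ⟨h.1.mul h'.1, fun y hy p hp => by
    have hM : 0 ≤ M := (norm_nonneg _).trans (h.2 y hy 0 (by norm_num))
    have hM' : 0 ≤ M' := (norm_nonneg _).trans (h'.2 y hy 0 (by norm_num))
    refine (norm_iteratedFDeriv_mul_le h.1 h'.1 y (n := p) (by exact_mod_cast le_top)).trans ?_
    calc _ ≤ ∑ i ∈ Finset.range (p + 1), (p.choose i : ℝ) * M * M' :=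
          Finset.sum_le_sum fun i hi => by
            have h1 := h.2 y hy i (by have := Finset.mem_range.1 hi; omega)
            have h2 := h'.2 y hy (p - i) (by omega)
            gcongr
      _ = (2 : ℝ) ^ p * M * M' := by
          rw [← Finset.sum_mul, ← Finset.sum_mul, ← Nat.cast_sum, Nat.sum_range_choose]
          norm_num
      _ ≤ (2 : ℝ) ^ 2 * M * M' := by
          have : (2 : ℝ) ^ p ≤ 2 ^ 2 := pow_le_pow_right₀ one_le_two hp
          gcongr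
      _ = _ := by norm_num⟩

theorem gsJ_const (a : ℝ) : gsJ (fun _ : Vec n => a) |a| :=
  ⟨contDiff_const, fun y _ p _ => by
    rcases eq_or_ne p 0 with rfl | hp
    · simp
    · rw [iteratedFDeriv_const_of_ne hp]
      simp⟩

theorem gsJ_sum {ι : Type} (s : Finset ι) (F : ι → Vec n → ℝ) (K : ι → ℝ)
    (h : ∀ i, gsJ (F i) (K i)) : gsJ (∑ i ∈ s, F i) (∑ i ∈ s, K i) := by
  classical
  induction s using Finset.induction_on with
  | empty => exact (gsJ_const (n := n) 0).mono (by simp)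
  | insert i s hi ih => rw [Finset.sum_insert hi, Finset.sum_insert hi]; exact (h i).add ih

theorem gsJ_ex (h : ContDiff ℝ ∞ f) : ∃ M, 0 ≤ M ∧ gsJ f M := by
  have key : ∀ p : ℕ, ∃ C, ∀ y ∈ Metric.sphere (0 : Vec n) 1, ‖iteratedFDeriv ℝ p f y‖ ≤ C :=
    fun p => (isCompact_sphere (0 : Vec n) 1).exists_bound_of_continuousOn
      (h.continuous_iteratedFDeriv (by exact_mod_cast le_top)).continuousOn
  choose C hC using key
  refine ⟨∑ p ∈ Finset.range 3, |C p|, Finset.sum_nonneg fun _ _ => abs_nonneg _, h,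
    fun y hy p hp => ?_⟩
  exact ((hC p y (by simpa using hy)).trans (le_abs_self _)).trans
    (Finset.single_le_sum (f := fun p => |C p|) (fun _ _ => abs_nonneg _)
      (Finset.mem_range.2 (by omega)))

end JB

/-- uniformly bounded families -/
def gsA (T : Type) (n : ℕ) : Subring (T → Vec n → ℝ) where
  carrier := {F | ∃ M, ∀ t, gsJ (F t) M}
  mul_mem' := fun ⟨_, h⟩ ⟨_, h'⟩ => ⟨_, fun t => (h t).mul (h' t)⟩
  one_mem' := ⟨_, fun _ => gsJ_const 1⟩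
  add_mem' := fun ⟨_, h⟩ ⟨_, h'⟩ => ⟨_, fun t => (h t).add (h' t)⟩
  zero_mem' := ⟨_, fun _ => gsJ_const 0⟩
  neg_mem' := fun ⟨_, h⟩ => ⟨_, fun t => (h t).neg⟩

/-- uniformly small families -/
def gsI {T : Type} (n : ℕ) (δ : T → ℝ) : Ideal (gsA T n) where
  carrier := {F | ∃ M, ∀ t, gsJ (F.1 t) (M * δ t)}
  add_mem' := fun ⟨M, h⟩ ⟨M', h'⟩ => ⟨M + M', fun t => by
    rw [add_mul]; exact (h t).add (h' t)⟩
  zero_mem' := ⟨0, fun t => (gsJ_const (n := n) 0).mono (by simp)⟩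
  smul_mem' := fun ⟨_, M', h'⟩ _ ⟨M, h⟩ => ⟨4 * M' * M, fun t => by
    rw [mul_assoc]; exact (h' t).mul (h t)⟩

theorem gs_trip {n : ℕ} {S u g₁ g₂ g₃ : Vec n → ℝ} (hS : ContDiff ℝ ∞ S) (hu : ContDiff ℝ ∞ u)
    (h₁ : ContDiff ℝ ∞ g₁) (h₂ : ContDiff ℝ ∞ g₂) (h₃ : ContDiff ℝ ∞ g₃) :
    ∃ M, ∀ δ ≤ (1 : ℝ), ∀ c P₁ P₂ : Vec n → ℝ, gsJ c δ → gsJ P₁ δ → gsJ P₂ δ →
      gsJ (fun y => (trip (S y) (u y) (c y) (P₁ y) (P₂ y)).1 * g₁ y +
        (trip (S y) (u y) (c y) (P₁ y) (P₂ y)).2.1 * g₂ y +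
        (trip (S y) (u y) (c y) (P₁ y) (P₂ y)).2.2 * g₃ y) (M * δ) := by
  let T := {q : ℝ × (Vec n → ℝ) × (Vec n → ℝ) × (Vec n → ℝ) //
    q.1 ≤ 1 ∧ gsJ q.2.1 q.1 ∧ gsJ q.2.2.1 q.1 ∧ gsJ q.2.2.2 q.1}
  have cst : ∀ {f : Vec n → ℝ}, ContDiff ℝ ∞ f → (fun _ : T => f) ∈ gsA T n := fun hf =>
    let ⟨M, _, h⟩ := gsJ_ex hf
    ⟨M, fun _ => h⟩
  let S' : gsA T n := ⟨_, cst hS⟩
  let u' : gsA T n := ⟨_, cst hu⟩
  let c' : gsA T n := ⟨fun t => t.1.2.1, 1, fun t => t.2.2.1.mono t.2.1⟩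
  let p₁ : gsA T n := ⟨fun t => t.1.2.2.1, 1, fun t => t.2.2.2.1.mono t.2.1⟩
  let p₂ : gsA T n := ⟨fun t => t.1.2.2.2, 1, fun t => t.2.2.2.2.mono t.2.1⟩
  let I := gsI n fun t : T => t.1.1
  have hc : c' ∈ I := ⟨1, fun t => by rw [one_mul]; exact t.2.2.1⟩
  have hp₁ : p₁ ∈ I := ⟨1, fun t => by rw [one_mul]; exact t.2.2.2.1⟩
  have hp₂ : p₂ ∈ I := ⟨1, fun t => by rw [one_mul]; exact t.2.2.2.2⟩
  have hq := trip_map (Ideal.Quotient.mk I) S' u' c' p₁ p₂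
  rw [Ideal.Quotient.eq_zero_iff_mem.2 hc, Ideal.Quotient.eq_zero_iff_mem.2 hp₁,
    Ideal.Quotient.eq_zero_iff_mem.2 hp₂, trip_base] at hq
  simp only [ne_eq, OfNat.ofNat_ne_zero, not_false_eq_true, zero_pow, mul_zero, neg_zero, add_zero,
    Prod.mk.injEq, Ideal.Quotient.eq_zero_iff_mem] at hq
  obtain ⟨M, hM⟩ := I.add_mem (I.add_mem (I.mul_mem_right ⟨_, cst h₁⟩ hq.1)
    (I.mul_mem_right ⟨_, cst h₂⟩ hq.2.1)) (I.mul_mem_right ⟨_, cst h₃⟩ hq.2.2)
  refine ⟨M, fun δ hδ c P₁ P₂ hc hP₁ hP₂ => ?_⟩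
  let t : T := ⟨(δ, c, P₁, P₂), hδ, hc, hP₁, hP₂⟩
  convert hM t using 1
  funext y
  have := trip_map (((Pi.evalRingHom (fun _ : Vec n => ℝ) y).comp
    (Pi.evalRingHom (fun _ : T => Vec n → ℝ) t)).comp (gsA T n).subtype) S' u' c' p₁ p₂
  exact congrArg (fun w : ℝ × ℝ × ℝ => w.1 * g₁ y + w.2.1 * g₂ y + w.2.2 * g₃ y) this.symm

theorem gs_coord {n : ℕ} (i : Fin n) : ContDiff ℝ ∞ fun y : Vec n => y i :=
  (EuclideanSpace.proj (𝕜 := ℝ) i : Vec n →L[ℝ] ℝ).contDiff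

theorem gs_uvec (r N : ℕ) (i : Fin (N + 3)) : ContDiff ℝ ∞ fun y : Vec (N + 3) => uvec r y i := by
  unfold uvec
  split_ifs
  exacts [contDiff_const, contDiff_const, gs_coord i]

theorem gs_tau (r N : ℕ) : ContDiff ℝ ∞ (tau r : Vec (N + 3) → ℝ) :=
  ContDiff.sum fun i _ => (gs_uvec r N i).mul (gs_coord i)

theorem gs_Zv (r N : ℕ) (i : Fin (N + 3)) : ContDiff ℝ ∞ fun y : Vec (N + 3) => Zv r y i := by
  unfold Zv
  split_ifs
  exacts [(gs_tau r N).neg.mul (gs_coord i),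
    (((gs_coord 0).pow 2).add ((gs_coord 1).pow 2)).mul (gs_uvec r N i)]

theorem gs_Wv (N : ℕ) (i : Fin (N + 3)) : ContDiff ℝ ∞ fun y : Vec (N + 3) => Wv y i := by
  unfold Wv
  split_ifs
  exacts [(gs_coord 1).neg, gs_coord 0, contDiff_const]

theorem gs_eval (r N : ℕ) (P : P3) : ContDiff ℝ ∞ fun y : Vec (N + 3) => eval (prj r y) P := by
  induction P using MvPolynomial.induction_on with
  | C a => simpa using contDiff_const
  | add P Q hP hQ => simpa using hP.add hQ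
  | mul_X P j hP =>
    simp only [map_mul, eval_X]
    refine hP.mul ?_
    fin_cases j
    exacts [gs_coord 0, gs_coord 1, gs_tau r N]

theorem gs_tau_mem {r N : ℕ} (hr : (r = 1 ∧ N = 0) ∨ r = 2) {y : Vec (N + 3)} (hy : ‖y‖ = 1) :
    tau r y ∈ Icc (-1 : ℝ) 1 := by
  rcases hr with ⟨rfl, rfl⟩ | rfl
  · have h1 : tau 1 y = y 2 := by simp [tau, uvec, Fin.sum_univ_three]
    have h2 := PiLp.norm_apply_le y 2
    rw [hy, Real.norm_eq_abs] at h2
    rw [h1]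
    exact abs_le.1 h2
  · have h1 : ∑ i, y i ^ 2 = 1 := by rw [← EuclideanSpace.real_norm_sq_eq, hy, one_pow]
    have h2 : ∀ i, 0 ≤ uvec 2 y i * y i ∧ uvec 2 y i * y i ≤ y i ^ 2 := fun i => by
      unfold uvec
      split_ifs with h h'
      · simp [sq_nonneg]
      · omega
      · exact ⟨mul_self_nonneg _, (sq _).ge⟩
    exact ⟨le_trans (by norm_num) (Finset.sum_nonneg fun i _ => (h2 i).1),
      (Finset.sum_le_sum fun i _ => (h2 i).2).trans_eq h1⟩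

theorem gs_om (r N : ℕ) (hr : (r = 1 ∧ N = 0) ∨ r = 2) : ∃ K, 0 ≤ K ∧ ∀ om : Polynomial ℝ, OmOk om →
    gsJ (fun y : Vec (N + 3) => om.eval (tau r y)) K := by
  obtain ⟨M, hM0, hM⟩ := gsJ_ex (gs_tau r N)
  refine ⟨2 * 2 * (M + 1) ^ 2, by positivity, fun om hom => ?_⟩
  have hsm : ContDiff ℝ ∞ fun x : ℝ => om.eval x := by
    simpa only [Polynomial.coe_aeval_eq_eval] using om.contDiff_aeval (𝕜 := ℝ) ∞
  refine ⟨hsm.comp (gs_tau r N), fun y hy p hp => ?_⟩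
  obtain ⟨h0, h1, h2, h3⟩ := hom _ (gs_tau_mem hr hy)
  have hD : ∀ q : Polynomial ℝ, deriv (fun x => q.eval x) = fun x => q.derivative.eval x :=
    fun q => funext fun x => q.deriv
  refine (norm_iteratedFDeriv_comp_le hsm (gs_tau r N) (n := p) (by exact_mod_cast le_top) y
    (C := 2) (D := M + 1) (fun i hi => ?_) fun i hi1 hi => ?_).trans ?_
  · rw [norm_iteratedFDeriv_eq_norm_iteratedDeriv, Real.norm_eq_abs]
    have : i ≤ 2 := hi.trans hp
    interval_cases i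
    · rw [iteratedDeriv_zero, abs_of_pos (by linarith)]
      exact h1
    · rwa [iteratedDeriv_one, hD]
    · rwa [iteratedDeriv_succ, iteratedDeriv_one, hD, hD]
  · exact (hM.2 y hy i (hi.trans hp)).trans ((le_add_of_nonneg_right zero_le_one).trans
      (le_self_pow₀ (by linarith) (by omega)))
  · have e1 : ((p.factorial : ℕ) : ℝ) ≤ 2 := by
      exact_mod_cast (Nat.factorial_le hp).trans_eq Nat.factorial_two
    have e2 : (M + 1) ^ p ≤ (M + 1) ^ 2 := pow_le_pow_right₀ (by linarith) hp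
    gcongr

theorem gs_pp (r N : ℕ) {Np : ℕ} (pi : Fin Np → P3) {δ : ℝ} (hδ : 0 < δ) : ∃ ρ : ℝ, 0 < ρ ∧
    ∀ a : Fin Np → ℝ, (∀ m, |a m| ≤ ρ) →
      gsJ (fun y : Vec (N + 3) => eval (prj r y) (∑ m, C (a m) * pi m)) δ := by
  choose M hM0 hM using fun m => gsJ_ex (gs_eval r N (pi m))
  have hS : 0 ≤ ∑ m, M m := Finset.sum_nonneg fun m _ => hM0 m
  refine ⟨δ / (∑ m, M m + 1), by positivity, fun a ha => ?_⟩
  have := (gsJ_sum Finset.univ _ _ fun m => (hM m).smul (a m)).mono (M' := δ) (by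
    calc ∑ m, |a m| * M m ≤ ∑ m, δ / (∑ m, M m + 1) * M m :=
          Finset.sum_le_sum fun m _ => mul_le_mul_of_nonneg_right (ha m) (hM0 m)
      _ = δ * ((∑ m, M m) / (∑ m, M m + 1)) := by rw [← Finset.mul_sum]; ring
      _ ≤ δ * 1 := by
          gcongr
          rw [div_le_one (by positivity)]
          linarith
      _ = δ := mul_one δ)
  convert this using 1
  funext y
  simp

theorem gSmall_box (r N : ℕ) (hr : (r = 1 ∧ N = 0) ∨ r = 2) {ε : ℝ} (hε : 0 < ε) : ∃ ε₁ : ℝ, 0 < ε₁ ∧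
    ∀ (Np : ℕ) (om : Polynomial ℝ) (pi : Fin Np → P3), OmOk om → ∃ ρ : ℝ, 0 < ρ ∧
      ∀ ζ ∈ box Np ε₁ ρ, GSmall (Gm r (tripζ r om pi ζ) : MetricField (N + 3)) ε := by
  choose M hM using fun i l : Fin (N + 3) => gs_trip (gs_eval r N (sS r)) (gs_eval r N (uU r))
    ((gs_eval r N (vV r)).mul ((gs_Wv N i).mul (gs_Wv N l)))
    (((gs_Zv r N i).mul (gs_Wv N l)).add ((gs_Wv N i).mul (gs_Zv r N l))).neg
    ((gs_Zv r N i).mul (gs_Zv r N l))
  obtain ⟨K, hK0, hK⟩ := gs_om r N hr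
  set M₀ := ∑ p : Fin (N + 3) × Fin (N + 3), |M p.1 p.2| with hM₀
  have hM0 : 0 ≤ M₀ := Finset.sum_nonneg fun _ _ => abs_nonneg _
  have hMle : ∀ i l, M i l ≤ M₀ := fun i l => (le_abs_self _).trans
    (Finset.single_le_sum (f := fun p : Fin (N + 3) × Fin (N + 3) => |M p.1 p.2|)
      (fun _ _ => abs_nonneg _) (Finset.mem_univ (i, l)))
  set δ := min 1 (ε / (M₀ + 1)) with hδ
  have hδ0 : 0 < δ := lt_min one_pos (by positivity)
  have hδε : M₀ * δ ≤ ε := by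
    have h1 : δ ≤ ε / (M₀ + 1) := min_le_right _ _
    rw [le_div_iff₀ (by positivity)] at h1
    nlinarith
  refine ⟨δ / (K + 1), by positivity, fun Np om pi hom => ?_⟩
  obtain ⟨ρ, hρ, hP⟩ := gs_pp r N pi hδ0
  refine ⟨ρ, hρ, fun ζ hζ y hy i l p hp => ?_⟩
  have hc : gsJ (fun y : Vec (N + 3) => eval (prj r y) (cpol om ζ)) δ := by
    have := (((hK om hom).smul (ζ (.inl 0))).add (gsJ_const (ζ (.inl 1)))).mono (M' := δ) (by
      have h1 := hζ.1 0
      have h2 := hζ.1 1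
      calc _ ≤ δ / (K + 1) * K + δ / (K + 1) := by gcongr
        _ = δ := by field_simp)
    convert this using 1
    funext y
    have e : eval (prj r y) (Polynomial.aeval (X 2 : P3) om) = om.eval (tau r y) := by
      have := Polynomial.aeval_algHom_apply (MvPolynomial.aeval (R := ℝ) (prj r y)) (X 2 : P3) om
      rw [MvPolynomial.aeval_X, Polynomial.coe_aeval_eq_eval] at this
      exact this.symm
    simp only [cpol, map_add, map_mul, eval_C, e, Pi.add_apply, Pi.smul_apply, smul_eq_mul]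
  have key := (hM i l δ (min_le_left _ _) _ _ _ hc (hP (fun m => ζ (.inr (.inl m))) fun m => hζ.2 _)
    (hP (fun m => ζ (.inr (.inr m))) fun m => hζ.2 _)).mono
    ((mul_le_mul_of_nonneg_right (hMle i l) hδ0.le).trans hδε)
  convert key.2 y hy p hp using 3
  funext x
  have := trip_map (eval (prj r x)) (sS r) (uU r) (cpol om ζ) (ppol₁ pi ζ) (ppol₂ pi ζ)
  unfold ppol₁ ppol₂ at this
  rw [← this]
  simp only [Gm, rk2, tripζ, ppol₁, ppol₂, Matrix.add_apply, Matrix.of_apply, map_mul]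
  ring

end Crest.Agent.R202
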