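import Crest.Agent.R202.Jet

/-!
# Series of smooth functions and the Laplacian (task G9b)

Multiply the terms by a bump function equal to `1` near `x` and supported in the ball (`ContDiffBump`), apply `contDiff_tsum`,
`iteratedFDeriv_tsum` / `fderiv_tsum`.  For smooth `f`, `Δ f = ∑ gⁱʲ ∂ᵢ∂ⱼ f + ∑ bʲ ∂ⱼ f` with coefficients independent of `f`, and it only
depends on the germ of `f`.
-/

set_option autoImplicit false

noncomputable section

open scoped InnerProductSpace ContDiff
open Set Filter Topology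
open Crest.GeometryTopology.CoordMetric Crest.GeometryTopology.ChartCurvature Matrix

namespace Crest.Agent.R202

variable {n : ℕ}

theorem sr_contDiff_det {g : MetricField n} (hg : IsRiemannianOn g univ) :
    ContDiff ℝ ∞ fun y => (g y).det := by
  simp only [Matrix.det_apply']
  exact ContDiff.sum (fun σ _ => contDiff_const.mul
    (contDiff_prod (fun i _ => contDiffOn_univ.1 (hg.contDiffOn _ _))))

theorem sr_contDiff_sqrt {g : MetricField n} (hg : IsRiemannianOn g univ) :
    ContDiff ℝ ∞ fun y => √((g y).det) :=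
  (sr_contDiff_det hg).sqrt (fun y => (hg.posDef y (mem_univ y)).det_pos.ne')

theorem sr_contDiff_pderiv {f : Vec n → ℝ} (hf : ContDiff ℝ ∞ f) (j : Fin n) :
    ContDiff ℝ ∞ (pderiv j f) :=
  (hf.fderiv_right (m := ∞) (by simp)).clm_apply contDiff_const

theorem sr_congr (g : MetricField n) {f f' : Vec n → ℝ} {x : Vec n} (h : f =ᶠ[𝓝 x] f') :
    laplaceBeltrami g f x = laplaceBeltrami g f' x := by
  unfold laplaceBeltrami
  congr 1
  refine Finset.sum_congr rfl (fun i _ => ?_)
  unfold pderiv
  congr 1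
  refine EventuallyEq.fderiv_eq ?_
  filter_upwards [h.fderiv (𝕜 := ℝ)] with y hy
  rw [hy]

/-- non-divergence form of the Laplacian -/
theorem sr_expand {g : MetricField n} (hg : IsRiemannianOn g univ) {f : Vec n → ℝ}
    (hf : ContDiff ℝ ∞ f) (x : Vec n) :
    laplaceBeltrami g f x = (1 / √((g x).det)) * ∑ i, ∑ j,
      (pderiv i (fun y => √((g y).det) * (g y)⁻¹ i j) x *
          iteratedFDeriv ℝ 1 f x ![EuclideanSpace.single j 1] +
        √((g x).det) * (g x)⁻¹ i j *
          iteratedFDeriv ℝ 2 f x ![EuclideanSpace.single i 1, EuclideanSpace.single j 1]) := by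
  unfold laplaceBeltrami
  congr 1
  refine Finset.sum_congr rfl (fun i _ => ?_)
  have hW : ∀ j, DifferentiableAt ℝ (fun y => √((g y).det) * (g y)⁻¹ i j) x := fun j =>
    ((sr_contDiff_sqrt hg).mul (contDiff_inv_entry hg i j)).differentiable (by simp) x
  have hD : DifferentiableAt ℝ (fderiv ℝ f) x :=
    (hf.fderiv_right (m := ∞) (by simp)).differentiable (by simp) x
  have hP : ∀ j, HasFDerivAt (pderiv j f)
      ((fderiv ℝ (fderiv ℝ f) x).flip (EuclideanSpace.single j 1)) x := fun j => by
    have := hD.hasFDerivAt.clm_apply (hasFDerivAt_const (EuclideanSpace.single j (1 : ℝ)) x)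
    exact this.congr_fderiv (by simp)
  have e : (fun y => √((g y).det) * ∑ j, inverseField g y i j * pderiv j f y) =
      fun y => ∑ j, (√((g y).det) * (g y)⁻¹ i j) * pderiv j f y := by
    funext y
    rw [Finset.mul_sum]
    exact Finset.sum_congr rfl (fun j _ => (mul_assoc _ _ _).symm)
  rw [e, pderiv, (HasFDerivAt.fun_sum (fun j _ => (hW j).hasFDerivAt.fun_mul (hP j))).fderiv]
  rw [_root_.sum_apply]
  refine Finset.sum_congr rfl (fun j _ => ?_)
  rw [iteratedFDeriv_one_apply, iteratedFDeriv_two_apply]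
  simp [pderiv]
  ring

theorem sr_global {g : MetricField n} (hg : IsRiemannianOn g univ) {J : Type}
    (f : J → Vec n → ℝ) (x : Vec n) (hf : ∀ k, ContDiff ℝ ∞ (f k)) (v : ℕ → J → ℝ)
    (hv : ∀ p, Summable (v p)) (hb : ∀ p k y, ‖iteratedFDeriv ℝ p (f k) y‖ ≤ v p k) :
    ContDiff ℝ ∞ (fun y => ∑' k, f k y) ∧
      HasSum (fun k => laplaceBeltrami g (f k) x) (laplaceBeltrami g (fun y => ∑' k, f k y) x) := by
  have h1 : ContDiff ℝ ∞ (fun y => ∑' k, f k y) :=
    contDiff_tsum (N := ⊤) hf (fun p _ => hv p) (fun p k y _ => hb p k y)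
  have h2 : ∀ p : ℕ, HasSum (fun k => iteratedFDeriv ℝ p (f k) x)
      (iteratedFDeriv ℝ p (fun y => ∑' k, f k y) x) := fun p => by
    rw [iteratedFDeriv_tsum_apply (N := ⊤) hf (fun p _ => hv p) (fun p k y _ => hb p k y) le_top]
    exact (Summable.of_norm_bounded (hv p) (fun k => hb p k x)).hasSum
  refine ⟨h1, ?_⟩
  simp only [sr_expand hg h1, sr_expand hg (hf _)]
  exact (hasSum_sum (fun i _ => hasSum_sum (fun j _ =>
    ((ContinuousMultilinearMap.hasSum_eval (h2 1) _).mul_left _).add
      ((ContinuousMultilinearMap.hasSum_eval (h2 2) _).mul_left _)))).mul_left _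

theorem series_laplace {g : MetricField n} (hg : IsRiemannianOn g univ) {J : Type}
    (f : J → Vec n → ℝ) (x : Vec n) {δ : ℝ} (hδ : 0 < δ)
    (hf : ∀ k, ContDiffOn ℝ ∞ (f k) (Metric.ball x δ))
    (hb : ∀ p : ℕ, ∃ v : J → ℝ, Summable v ∧ ∀ k, ∀ y ∈ Metric.ball x δ,
      ‖iteratedFDeriv ℝ p (f k) y‖ ≤ v k) :
    ContDiffAt ℝ ∞ (fun y => ∑' k, f k y) x ∧
      HasSum (fun k => laplaceBeltrami g (f k) x) (laplaceBeltrami g (fun y => ∑' k, f k y) x) := by
  let χ : ContDiffBump x := ⟨δ / 4, δ / 2, by positivity, by linarith⟩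
  have hχ : ContDiff ℝ ∞ χ := χ.contDiff
  have hout : ∀ k y, y ∉ Metric.ball x δ → (fun y => χ y * f k y) =ᶠ[𝓝 y] fun _ => 0 := by
    intro k y hy
    have : y ∉ tsupport χ := by
      rw [χ.tsupport_eq]
      exact fun h => hy (Metric.closedBall_subset_ball (half_lt_self hδ) h)
    filter_upwards [notMem_tsupport_iff_eventuallyEq.1 this] with y' hy'
    rw [hy', Pi.zero_apply, zero_mul]
  have hF : ∀ k, ContDiff ℝ ∞ (fun y => χ y * f k y) := fun k =>
    contDiff_iff_contDiffAt.2 (fun y => by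
      by_cases hy : y ∈ Metric.ball x δ
      · exact hχ.contDiffAt.mul ((hf k).contDiffAt (Metric.isOpen_ball.mem_nhds hy))
      · exact contDiffAt_const.congr_of_eventuallyEq (hout k y hy))
  choose v hv hvb using hb
  have hM : ∀ i : ℕ, ∃ M : ℝ, ∀ y, ‖iteratedFDeriv ℝ i χ y‖ ≤ M := fun i =>
    (hχ.continuous_iteratedFDeriv (by exact_mod_cast le_top)).bounded_above_of_compact_support
      (χ.hasCompactSupport.iteratedFDeriv i)
  choose M hM using hM
  have hM0 : ∀ i, 0 ≤ M i := fun i => (norm_nonneg _).trans (hM i x)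
  have hv0 : ∀ p k, 0 ≤ v p k := fun p k =>
    (norm_nonneg _).trans (hvb p k x (Metric.mem_ball_self hδ))
  obtain ⟨h1, h2⟩ := sr_global hg (fun k y => χ y * f k y) x hF
    (fun p k => ∑ i ∈ Finset.range (p + 1), (p.choose i : ℝ) * M i * v (p - i) k)
    (fun p => summable_sum (fun i _ => (hv _).mul_left _)) (fun p k y => by
      by_cases hy : y ∈ Metric.ball x δ
      · rw [← iteratedFDerivWithin_of_isOpen p Metric.isOpen_ball hy]
        refine (norm_iteratedFDerivWithin_mul_le hχ.contDiffOn (hf k)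
          Metric.isOpen_ball.uniqueDiffOn hy (by exact_mod_cast le_top)).trans
          (Finset.sum_le_sum (fun i _ => ?_))
        rw [iteratedFDerivWithin_of_isOpen _ Metric.isOpen_ball hy,
          iteratedFDerivWithin_of_isOpen _ Metric.isOpen_ball hy]
        have := hM0 i
        exact mul_le_mul (mul_le_mul_of_nonneg_left (hM i y) (by positivity)) (hvb _ k y hy)
          (norm_nonneg _) (by positivity)
      · rw [((hout k y hy).iteratedFDeriv ℝ p).eq_of_nhds, iteratedFDeriv_fun_zero, Pi.zero_apply,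
          norm_zero]
        exact Finset.sum_nonneg (fun i _ => mul_nonneg (mul_nonneg (by positivity) (hM0 i))
          (hv0 _ _)))
  have e1 : ∀ k, (fun y => χ y * f k y) =ᶠ[𝓝 x] f k := fun k => by
    filter_upwards [χ.eventuallyEq_one] with y hy
    rw [hy, Pi.one_apply, one_mul]
  have e2 : (fun y => ∑' k, f k y) =ᶠ[𝓝 x] fun y => ∑' k, χ y * f k y := by
    filter_upwards [χ.eventuallyEq_one] with y hy
    simp only [hy, Pi.one_apply, one_mul]
  refine ⟨h1.contDiffAt.congr_of_eventuallyEq e2, ?_⟩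
  rw [sr_congr g e2]
  simpa only [sr_congr g (e1 _)] using h2

theorem continuous_laplace {g : MetricField n} (hg : IsRiemannianOn g univ) {f : Vec n → ℝ}
    (hf : ContDiff ℝ ∞ f) : Continuous (laplaceBeltrami g f) := by
  unfold laplaceBeltrami
  refine (continuous_const.div (sr_contDiff_sqrt hg).continuous (fun y =>
    (Real.sqrt_pos.2 (hg.posDef y (mem_univ y)).det_pos).ne')).mul
    (continuous_finsetSum _ (fun i _ => (sr_contDiff_pderiv ?_ i).continuous))
  exact (sr_contDiff_sqrt hg).mul (ContDiff.sum (fun j _ =>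
    (contDiff_inv_entry hg i j).mul (sr_contDiff_pderiv hf j)))

end Crest.Agent.R202
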