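import Crest.Agent.R202.LapSep
import Crest.Agent.R202.Markov
import Crest.Agent.R202.Series
import Crest.Agent.R202.CoefReg
import Crest.Agent.R202.Dist

/-!
# Harmonic functions from coefficient functions (task G10)

`a k t = F(t)^{-(n-2)/2} c k t` satisfies `a'' + (n-2)β a' = F^{-(n-2)/2}(c'' - q c)`.  Off the origin use `series_laplace` with
`f k x = a k (log ‖x‖) P k (hat x)` (derivative bounds: `Coef.reg`, `markov`, `norm_iteratedFDeriv_comp_le`, `norm_iteratedFDeriv_mul_le`,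
`summable_poly_exp`), `laplace_sep`, and interchange the absolutely convergent double series.  On the open unit ball
`f k x = c k 0 * P k x` (homogeneity, `Coef.left`, `deg ≥ 1` at `x = 0`), which gives smoothness at `0`; the Laplacian vanishes at `0` by continuity.
Growth: `e^{a t} ≤ F^{κ+(n-2)/2}` (`FF_ge`), `F ≤ ρ` (`FF_le_rho`, `riemDist_zero`).
-/

set_option autoImplicit false

noncomputable section

open scoped InnerProductSpace ContDiff
open Set Filter Topology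
open Crest.GeometryTopology.CoordMetric Crest.GeometryTopology.ChartCurvature Matrix

namespace Crest.Agent.R202

variable {n : ℕ} {J : Type}

/-- the potential in the equation for `F^{(n-2)/2} u` -/
def qpot (n : ℕ) (β : ℝ → ℝ) (t : ℝ) : ℝ :=
  (((n : ℝ) - 2) / 2) ^ 2 * β t ^ 2 + ((n : ℝ) - 2) / 2 * deriv β t

def hfun (β : ℝ → ℝ) (c : J → ℝ → ℝ) (P : J → MvPolynomial (Fin n) ℝ) (x : Vec n) : ℝ :=
  ∑' k, FF β (Real.log ‖x‖) ^ (-(((n : ℝ) - 2) / 2)) * c k (Real.log ‖x‖) * evp (P k) (hat x)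

section bounds
variable {X Y : Type} [NormedAddCommGroup X] [NormedSpace ℝ X] [NormedAddCommGroup Y]
  [NormedSpace ℝ Y]

/-- smooth families with polynomial × exponential bounds for all derivatives -/
def Base.hmB (b : Base n J) (δ : ℝ) (s : Set X) (f : J → X → ℝ) : Prop :=
  (∀ k, ContDiffOn ℝ ∞ (f k) s) ∧ ∀ p : ℕ, ∃ (C : ℝ) (m : ℕ), 0 ≤ C ∧ ∀ k, ∀ y ∈ s, ∀ i ≤ p,
    ‖iteratedFDerivWithin ℝ i (f k) s y‖ ≤ C * ((b.deg k : ℝ) + 1) ^ m * Real.exp (-(δ * b.deg k))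

theorem Base.hmB.mul {b : Base n J} {δ δ' : ℝ} {s : Set X} (hs : IsOpen s) {f g : J → X → ℝ}
    (hf : b.hmB δ s f) (hg : b.hmB δ' s g) : b.hmB (δ + δ') s (fun k y => f k y * g k y) := by
  refine ⟨fun k => (hf.1 k).mul (hg.1 k), fun p => ?_⟩
  obtain ⟨C, m, hC, h1⟩ := hf.2 p
  obtain ⟨C', m', hC', h2⟩ := hg.2 p
  refine ⟨2 ^ p * (C * C'), m + m', by positivity, fun k y hy i hi => ?_⟩
  refine (norm_iteratedFDerivWithin_mul_le (hf.1 k) (hg.1 k) hs.uniqueDiffOn hy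
    (by exact_mod_cast le_top)).trans ?_
  calc _ ≤ ∑ j ∈ Finset.range (i + 1), (i.choose j : ℝ) *
        ((C * ((b.deg k : ℝ) + 1) ^ m * Real.exp (-(δ * b.deg k))) *
          (C' * ((b.deg k : ℝ) + 1) ^ m' * Real.exp (-(δ' * b.deg k)))) := by
        refine Finset.sum_le_sum (fun j hj => ?_)
        rw [mul_assoc]
        have hj' := Finset.mem_range.1 hj
        exact mul_le_mul_of_nonneg_left (mul_le_mul (h1 k y hy j (by omega))
          (h2 k y hy (i - j) (by omega)) (norm_nonneg _) (by positivity)) (by positivity)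
    _ = 2 ^ i * ((C * C') * ((b.deg k : ℝ) + 1) ^ (m + m') *
          Real.exp (-((δ + δ') * b.deg k))) := by
        rw [← Finset.sum_mul, ← Nat.cast_sum, Nat.sum_range_choose, add_mul δ, neg_add,
          Real.exp_add]
        push_cast; ring
    _ ≤ 2 ^ p * ((C * C') * ((b.deg k : ℝ) + 1) ^ (m + m') *
          Real.exp (-((δ + δ') * b.deg k))) :=
        mul_le_mul_of_nonneg_right (pow_le_pow_right₀ (by norm_num) hi) (by positivity)
    _ = _ := by ring

theorem hm_bdd [ProperSpace X] {U K : Set X} (hU : IsOpen U) {φ : X → Y} (hφ : ContDiffOn ℝ ∞ φ U)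
    (hK : IsCompact K) (hKU : K ⊆ U) (p : ℕ) :
    ∃ D : ℝ, 1 ≤ D ∧ ∀ i ≤ p, ∀ y ∈ K, ‖iteratedFDeriv ℝ i φ y‖ ≤ D := by
  have h1 : ∀ i : ℕ, ∃ D : ℝ, ∀ y ∈ K, ‖iteratedFDeriv ℝ i φ y‖ ≤ D := by
    intro i
    have h2 : ContinuousOn (iteratedFDerivWithin ℝ i φ U) U :=
      hφ.continuousOn_iteratedFDerivWithin (by exact_mod_cast le_top) hU.uniqueDiffOn
    exact hK.exists_bound_of_continuousOn
      ((h2.congr (fun y hy => (iteratedFDerivWithin_of_isOpen i hU hy).symm)).mono hKU)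
  choose D hD using h1
  have h0 : 0 ≤ ∑ i ∈ Finset.range (p + 1), |D i| := Finset.sum_nonneg (fun _ _ => abs_nonneg _)
  refine ⟨1 + ∑ i ∈ Finset.range (p + 1), |D i|, by linarith, fun i hi y hy => ?_⟩
  have := Finset.single_le_sum (f := fun i => |D i|) (fun _ _ => abs_nonneg _)
    (Finset.mem_range.2 (Nat.lt_succ_of_le hi))
  linarith [hD i y hy, le_abs_self (D i)]

theorem Base.hmB_comp [ProperSpace X] (b : Base n J) {δ : ℝ} {s U K : Set X} (hs : IsOpen s)
    (hU : IsOpen U) {φ : X → Y} (hφ : ContDiffOn ℝ ∞ φ U) (hK : IsCompact K) (hKU : K ⊆ U)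
    (hsK : s ⊆ K) {g : J → Y → ℝ} (hg : ∀ k, ContDiff ℝ ∞ (g k))
    (hb : ∀ i : ℕ, ∃ (C : ℝ) (m : ℕ), ∀ k, ∀ y ∈ s, ‖iteratedFDeriv ℝ i (g k) (φ y)‖ ≤
      C * ((b.deg k : ℝ) + 1) ^ m * Real.exp (-(δ * b.deg k))) :
    b.hmB δ s (fun k y => g k (φ y)) := by
  have hφs := hφ.mono (hsK.trans hKU)
  refine ⟨fun k => (hg k).comp_contDiffOn hφs, fun p => ?_⟩
  obtain ⟨D, hD1, hD⟩ := hm_bdd hU hφ hK hKU p
  choose C m hC using hb
  have h0 : 0 ≤ ∑ i ∈ Finset.range (p + 1), |C i| := Finset.sum_nonneg (fun _ _ => abs_nonneg _)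
  refine ⟨p.factorial * (∑ i ∈ Finset.range (p + 1), |C i|) * D ^ p,
    ∑ i ∈ Finset.range (p + 1), m i, by positivity, fun k y hy i hi => ?_⟩
  have hd : (1 : ℝ) ≤ (b.deg k : ℝ) + 1 := by linarith [Nat.cast_nonneg (α := ℝ) (b.deg k)]
  refine (norm_iteratedFDerivWithin_comp_le (g := g k) (f := φ) (t := univ) (hg k).contDiffOn hφs
    (by exact_mod_cast le_top) uniqueDiffOn_univ hs.uniqueDiffOn (mapsTo_univ _ _) hy
    (C := (∑ i ∈ Finset.range (p + 1), |C i|) *
      ((b.deg k : ℝ) + 1) ^ (∑ i ∈ Finset.range (p + 1), m i) * Real.exp (-(δ * b.deg k)))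
    (D := D) (fun j hj => ?_) (fun j hj1 hj => ?_)).trans ?_
  · rw [iteratedFDerivWithin_univ]
    have hj' : j ∈ Finset.range (p + 1) := Finset.mem_range.2 (by omega)
    refine (hC j k y hy).trans (mul_le_mul_of_nonneg_right (mul_le_mul ((le_abs_self _).trans
      (Finset.single_le_sum (f := fun i => |C i|) (fun _ _ => abs_nonneg _) hj'))
      (pow_le_pow_right₀ hd (Finset.single_le_sum (f := m) (fun _ _ => Nat.zero_le _) hj'))
      (by positivity) h0) (by positivity))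
  · rw [iteratedFDerivWithin_of_isOpen j hs hy]
    exact (hD j (by omega) y (hsK hy)).trans (le_self_pow₀ hD1 (by omega))
  · have a1 : (i.factorial : ℝ) ≤ p.factorial := by exact_mod_cast Nat.factorial_le hi
    have a2 : D ^ i ≤ D ^ p := pow_le_pow_right₀ hD1 hi
    calc _ ≤ p.factorial * ((∑ i ∈ Finset.range (p + 1), |C i|) *
          ((b.deg k : ℝ) + 1) ^ (∑ i ∈ Finset.range (p + 1), m i) * Real.exp (-(δ * b.deg k))) *
          D ^ p := by gcongr
      _ = _ := by ring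

theorem Base.hmB.summable {b : Base n J} {δ : ℝ} (hδ : 0 < δ) {s : Set X} (hs : IsOpen s)
    {f : J → X → ℝ} (hf : b.hmB δ s f) (p : ℕ) :
    ∃ v : J → ℝ, Summable v ∧ ∀ k, ∀ y ∈ s, ‖iteratedFDeriv ℝ p (f k) y‖ ≤ v k := by
  obtain ⟨C, m, _, h⟩ := hf.2 p
  refine ⟨fun k => C * (((b.deg k : ℝ) + 1) ^ m * Real.exp (-(δ * b.deg k))),
    (b.summable_poly_exp m hδ).mul_left C, fun k y hy => ?_⟩
  rw [← iteratedFDerivWithin_of_isOpen p hs hy]
  exact (h k y hy p le_rfl).trans (le_of_eq (mul_assoc _ _ _))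

end bounds

/-- the factor `F^{-(n-2)/2}` -/
def hmA (n : ℕ) (β : ℝ → ℝ) (t : ℝ) : ℝ := FF β t ^ (-(((n : ℝ) - 2) / 2))

theorem hm_FF_pos (β : ℝ → ℝ) (t : ℝ) : 0 < FF β t := Real.exp_pos _

theorem hm_contDiff_A {β : ℝ → ℝ} (h : ContDiff ℝ ∞ β) : ContDiff ℝ ∞ (hmA n β) := by
  have h1 : ∀ t, HasDerivAt (fun t => ∫ s in (0 : ℝ)..t, β s) (β t) t := fun t =>
    (h.continuous.integral_hasStrictDerivAt 0 t).hasDerivAt
  have h2 : ContDiff ℝ ∞ (fun t => ∫ s in (0 : ℝ)..t, β s) := by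
    refine contDiff_infty_iff_deriv.2 ⟨fun t => (h1 t).differentiableAt, ?_⟩
    rwa [show deriv (fun t => ∫ s in (0 : ℝ)..t, β s) = β from funext (fun t => (h1 t).deriv)]
  exact h2.exp.rpow_const_of_ne (fun t => (hm_FF_pos β t).ne')

theorem hm_hasDerivAt_A {β : ℝ → ℝ} (h : Continuous β) (t : ℝ) :
    HasDerivAt (hmA n β) (-(((n : ℝ) - 2) / 2) * β t * hmA n β t) t := by
  have := (hasDerivAt_FF h t).rpow_const (p := -(((n : ℝ) - 2) / 2)) (Or.inl (hm_FF_pos β t).ne')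
  refine this.congr_deriv ?_
  unfold hmA
  rw [Real.rpow_sub_one (hm_FF_pos β t).ne']
  have := (hm_FF_pos β t).ne'
  field_simp

theorem hm_ode {β : ℝ → ℝ} (h : ContDiff ℝ ∞ β) {c c₁ : ℝ → ℝ} {c₂ t : ℝ}
    (h1 : ∀ t, HasDerivAt c (c₁ t) t) (h2 : HasDerivAt c₁ c₂ t) :
    deriv (deriv (fun t => hmA n β t * c t)) t +
      ((n : ℝ) - 2) * β t * deriv (fun t => hmA n β t * c t) t =
      hmA n β t * (c₂ - qpot n β t * c t) := by
  have e1 : deriv (fun t => hmA n β t * c t) =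
      fun t => hmA n β t * (c₁ t - ((n : ℝ) - 2) / 2 * β t * c t) := by
    funext s
    rw [((hm_hasDerivAt_A h.continuous s).fun_mul (h1 s)).deriv]
    ring
  have hβ : HasDerivAt β (deriv β t) t := (h.differentiable (by simp) t).hasDerivAt
  rw [e1, ((hm_hasDerivAt_A h.continuous t).fun_mul
    (h2.fun_sub ((hβ.const_mul (((n : ℝ) - 2) / 2)).fun_mul (h1 t)))).deriv]
  unfold qpot
  ring

theorem hm_left {b : Base n J} {β : ℝ → ℝ} {b₀ : ℝ} (h : Prof β b₀) {B : ℝ → H J →L[ℝ] H J}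
    {q : ℝ → ℝ} {c c₁ : J → ℝ → ℝ} (hc : b.Coef B q c c₁) (k : J) {t : ℝ} (ht : t ≤ 0) :
    hmA n β t * c k t = c k 0 * Real.exp t ^ b.deg k := by
  have e : ∫ s in (0 : ℝ)..t, β s = t := by
    rw [intervalIntegral.integral_congr (g := fun _ => 1) (fun s hs => h.left s (by
      rw [uIcc_of_ge ht] at hs; exact hs.2))]
    simp
  unfold hmA FF
  rw [e, hc.left k t ht, ← Real.exp_mul, ← Real.exp_nat_mul, mul_left_comm, ← Real.exp_add]
  unfold Base.rate
  congr 2
  ring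

theorem hm_evp_zero {d : ℕ} {P : MvPolynomial (Fin n) ℝ} (hP : P.IsHomogeneous d) (hd : 1 ≤ d) :
    evp P 0 = 0 := by
  have := evp_smul hP 0 0
  rwa [zero_smul, zero_pow (by omega), zero_mul] at this

theorem hm_term_ball {b : Base n J} {β : ℝ → ℝ} {b₀ : ℝ} (h : Prof β b₀)
    {B : ℝ → H J →L[ℝ] H J} {q : ℝ → ℝ} {c c₁ : J → ℝ → ℝ} (hc : b.Coef B q c c₁)
    {P : J → MvPolynomial (Fin n) ℝ} (hP : ∀ k, (P k).IsHomogeneous (b.deg k)) (k : J)
    {x : Vec n} (hx : ‖x‖ ≤ 1) :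
    hmA n β (Real.log ‖x‖) * c k (Real.log ‖x‖) * evp (P k) (hat x) = c k 0 * evp (P k) x := by
  by_cases h0 : x = 0
  · subst h0
    simp [hat, hm_evp_zero (hP k) (b.deg_pos k)]
  · have h1 : 0 < ‖x‖ := norm_pos_iff.2 h0
    rw [hm_left h hc k (Real.log_nonpos h1.le hx), Real.exp_log h1, hat, evp_smul (hP k), inv_pow]
    field_simp

theorem hm_evp_hat {b : Base n J} {P : J → MvPolynomial (Fin n) ℝ}
    (hP : ∀ k, (P k).IsHomogeneous (b.deg k)) {C₀ : ℝ} {p : ℕ}
    (hPb : ∀ k (y : Vec n), ‖y‖ = 1 → |evp (P k) y| ≤ C₀ * ((b.deg k : ℝ) + 1) ^ p) (k : J)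
    (x : Vec n) : |evp (P k) (hat x)| ≤ |C₀| * ((b.deg k : ℝ) + 1) ^ p := by
  by_cases h0 : x = 0
  · subst h0
    simp only [hat, smul_zero, hm_evp_zero (hP k) (b.deg_pos k), abs_zero]
    positivity
  · exact (hPb k _ (norm_hat h0)).trans
      (mul_le_mul_of_nonneg_right (le_abs_self _) (by positivity))

theorem hm_markov {b : Base n J} {P : J → MvPolynomial (Fin n) ℝ}
    (hP : ∀ k, (P k).IsHomogeneous (b.deg k)) {C₀ : ℝ} {p : ℕ}
    (hPb : ∀ k (y : Vec n), ‖y‖ = 1 → |evp (P k) y| ≤ C₀ * ((b.deg k : ℝ) + 1) ^ p) (i : ℕ) :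
    ∃ (C : ℝ) (m : ℕ), 0 ≤ C ∧ ∀ k (x : Vec n), ‖x‖ ≤ 1 →
      ‖iteratedFDeriv ℝ i (evp (P k)) x‖ ≤ C * ((b.deg k : ℝ) + 1) ^ m := by
  obtain ⟨C, hC, h⟩ := markov n i
  refine ⟨C * |C₀|, 3 * i + p, by positivity, fun k x hx => ?_⟩
  refine (h (b.deg k) (P k) (|C₀| * ((b.deg k : ℝ) + 1) ^ p) (hP k) (fun y hy => (hPb k y hy).trans
    (mul_le_mul_of_nonneg_right (le_abs_self _) (by positivity))) (by positivity)
    (by have := b.hn; omega) x hx).trans (le_of_eq ?_)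
  ring

theorem hm_summable (b : Base n J) {B : H J →L[ℝ] H J} {d : ℕ} (hband : b.Banded d B)
    {u v : J → ℝ} {C C₀ ε : ℝ} {p : ℕ} (hε : 0 < ε)
    (hu : ∀ k, |u k| ≤ C * Real.exp (-(ε * b.deg k)))
    (hv : ∀ k, |v k| ≤ C₀ * ((b.deg k : ℝ) + 1) ^ p) :
    Summable (fun k : J × J => b.qe B k.1 k.2 * u k.2 * v k.1) := by
  have h1 := b.summable_poly_exp (p + 1) (half_pos hε)
  have h2 := b.summable_poly_exp 1 (half_pos hε)
  have h3 := (h1.mul_of_nonneg h2 (fun k => by positivity) (fun k => by positivity)).mul_left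
    ((n : ℝ) * n * ‖B‖ * |C| * |C₀| * Real.exp (ε / 2 * d))
  refine Summable.of_norm_bounded h3 (fun k => ?_)
  by_cases hk : b.deg k.2 + d < b.deg k.1
  · rw [Base.qe, hband _ _ (Or.inr hk), mul_zero, zero_mul, zero_mul, norm_zero]
    positivity
  have a1 : (b.deg k.1 : ℝ) ≤ b.deg k.2 + d := by exact_mod_cast not_lt.1 hk
  have a2 : |u k.2| ≤ |C| * (Real.exp (ε / 2 * d) * Real.exp (-(ε / 2 * b.deg k.1)) *
      Real.exp (-(ε / 2 * b.deg k.2))) := by
    refine (hu k.2).trans (mul_le_mul (le_abs_self _) ?_ (by positivity) (abs_nonneg _))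
    rw [← Real.exp_add, ← Real.exp_add]
    exact Real.exp_le_exp.2 (by nlinarith)
  have a3 : |v k.1| ≤ |C₀| * ((b.deg k.1 : ℝ) + 1) ^ p :=
    (hv k.1).trans (mul_le_mul_of_nonneg_right (le_abs_self _) (by positivity))
  rw [Real.norm_eq_abs, Base.qe, abs_mul, abs_mul, abs_mul, abs_mul,
    abs_of_nonneg (Real.sqrt_nonneg _), abs_of_nonneg (Real.sqrt_nonneg _)]
  calc _ ≤ n * ((b.deg k.1 : ℝ) + 1) * (n * ((b.deg k.2 : ℝ) + 1)) * ‖B‖ *
        (|C| * (Real.exp (ε / 2 * d) * Real.exp (-(ε / 2 * b.deg k.1)) *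
          Real.exp (-(ε / 2 * b.deg k.2)))) * (|C₀| * ((b.deg k.1 : ℝ) + 1) ^ p) := by
        gcongr
        · exact b.cr_sqrt_le _
        · exact b.cr_sqrt_le _
        · exact abs_ent_le _ _ _
    _ = _ := by ring

theorem hm_swap {T : J × J → ℝ} (hT : Summable T) :
    HasSum (fun k => ∑' k₁, T (k, k₁) - ∑' k₁, T (k₁, k)) 0 := by
  have h1 : HasSum (fun k => ∑' k₁, T (k, k₁)) (∑' p, T p) :=
    hT.hasSum.prod_fiberwise (fun k => (hT.prod_factor k).hasSum)
  have h2 : HasSum (fun p : J × J => T p.swap) (∑' p, T p) :=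
    (Equiv.prodComm J J).hasSum_iff.2 hT.hasSum
  have h3 : HasSum (fun k => ∑' k₁, T (k₁, k)) (∑' p, T p) :=
    h2.prod_fiberwise (fun k => (h2.summable.prod_factor k).hasSum)
  simpa using h1.sub h3

theorem harmonic_hfun (b : Base n J) {E : Type} [NormedAddCommGroup E] [NormedSpace ℝ E]
    {𝒢 : E → MetricField n} (h𝒢 : GFam 𝒢) {β : ℝ → ℝ} {b₀ : ℝ} (h : Prof β b₀) {z : ℝ → E}
    (hz : ContDiff ℝ ∞ z) (hG : Rad (coneG 𝒢 z)) (B : ℝ → H J →L[ℝ] H J) (hB : ContDiff ℝ ∞ B)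
    {d : ℕ} (hband : ∀ t, b.Banded d (B t)) (P : J → MvPolynomial (Fin n) ℝ)
    (hP : ∀ k, (P k).IsHomogeneous (b.deg k)) {C₀ : ℝ} {p : ℕ}
    (hPb : ∀ k (y : Vec n), ‖y‖ = 1 → |evp (P k) y| ≤ C₀ * ((b.deg k : ℝ) + 1) ^ p)
    (hL : ∀ t k (y : Vec n), ‖y‖ = 1 → angLap (𝒢 (z t)) (evp (P k)) y =
      -∑' k₁, b.qe (B t) k₁ k * evp (P k₁) y)
    {c c₁ : J → ℝ → ℝ} (hc : b.Coef B (qpot n β) c c₁) {C a ε : ℝ} (hε : 0 < ε)
    (hcb : ∀ k t, 0 ≤ t → |c k t| ≤ C * Real.exp (a * t - ε * b.deg k)) (κ : ℕ)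
    (ha : a ≤ b₀ * (κ + ((n : ℝ) - 2) / 2)) :
    IsHarmonicOn (met β (coneG 𝒢 z)) univ (hfun β c P) ∧ ∃ C' : ℝ, ∀ x,
      |hfun β c P x| ≤ C' * (1 + riemDist (met β (coneG 𝒢 z)) univ 0 x) ^ κ := by
  have hg := isRiemannian_met h hG
  have hn3 : (3 : ℝ) ≤ n := by exact_mod_cast b.hn
  have hq : ContDiff ℝ ∞ (qpot n β) :=
    (contDiff_const.mul (h.smooth.pow 2)).add
      (contDiff_const.mul (contDiff_infty_iff_deriv.1 h.smooth).2)
  obtain ⟨hcs, hcd⟩ := hc.reg hB hband hq hε hcb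
  have hA : ContDiff ℝ ∞ (hmA n β) := hm_contDiff_A h.smooth
  have hfe : hfun β c P = fun y => ∑' k,
      hmA n β (Real.log ‖y‖) * c k (Real.log ‖y‖) * evp (P k) (hat y) := rfl
  have hc0 : ∀ k, |c k 0| ≤ |C| * Real.exp (-(ε * b.deg k)) := fun k => by
    have := hcb k 0 le_rfl
    rw [mul_zero, zero_sub] at this
    exact this.trans (mul_le_mul_of_nonneg_right (le_abs_self _) (by positivity))
  -- off the origin
  have hoff : ∀ x : Vec n, x ≠ 0 → ContDiffAt ℝ ∞ (hfun β c P) x ∧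
      laplaceBeltrami (met β (coneG 𝒢 z)) (hfun β c P) x = 0 := by
    intro x hx
    have hx0 : 0 < ‖x‖ := norm_pos_iff.2 hx
    have hKU : Metric.closedBall x (‖x‖ / 2) ⊆ ({0}ᶜ : Set (Vec n)) := by
      intro y hy h0
      rw [mem_singleton_iff.1 h0, Metric.mem_closedBall, dist_zero_left] at hy
      linarith
    have hlog : ContDiffOn ℝ ∞ (fun y : Vec n => Real.log ‖y‖) {0}ᶜ := fun y hy =>
      ((contDiffAt_norm ℝ hy).log (norm_ne_zero_iff.2 hy)).contDiffWithinAt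
    have hhat : ContDiffOn ℝ ∞ (hat : Vec n → Vec n) {0}ᶜ := fun y hy =>
      (contDiffAt_hat hy).contDiffWithinAt
    obtain ⟨R, hR⟩ := (isCompact_closedBall x (‖x‖ / 2)).exists_bound_of_continuousOn
      (hlog.continuousOn.mono hKU)
    have hR' : ∀ y ∈ Metric.ball x (‖x‖ / 2), Real.log ‖y‖ ∈ Icc (-R) R := fun y hy =>
      abs_le.1 (hR y (Metric.ball_subset_closedBall hy))
    have b1 := b.hmB_comp (δ := 0) Metric.isOpen_ball isOpen_compl_singleton hlog
      (isCompact_closedBall x (‖x‖ / 2)) hKU Metric.ball_subset_closedBall (g := fun _ => hmA n β)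
      (fun _ => hA) (fun i => by
        obtain ⟨D, -, hD⟩ := hm_bdd isOpen_univ hA.contDiffOn (isCompact_Icc (a := -R) (b := R))
          (subset_univ _) i
        exact ⟨D, 0, fun k y hy => by simpa using hD i le_rfl _ (hR' y hy)⟩)
    have b2 := b.hmB_comp (δ := ε / 2) Metric.isOpen_ball isOpen_compl_singleton hlog
      (isCompact_closedBall x (‖x‖ / 2)) hKU Metric.ball_subset_closedBall (g := c) hcs
      (fun i => by
        obtain ⟨D, hD⟩ := hcd i R
        refine ⟨D, 0, fun k y hy => ?_⟩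
        rw [norm_iteratedFDeriv_eq_norm_iteratedDeriv, pow_zero, mul_one]
        exact hD k _ (hR' y hy))
    have b3 := b.hmB_comp (δ := 0) Metric.isOpen_ball isOpen_compl_singleton hhat
      (isCompact_closedBall x (‖x‖ / 2)) hKU Metric.ball_subset_closedBall
      (g := fun k => evp (P k)) (fun k => contDiff_evp _) (fun i => by
        obtain ⟨D, m, -, hD⟩ := hm_markov hP hPb i
        refine ⟨D, m, fun k y hy => ?_⟩
        simpa using hD k _ (norm_hat (hKU (Metric.ball_subset_closedBall hy))).le)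
    have b4 := (b1.mul Metric.isOpen_ball b2).mul Metric.isOpen_ball b3
    obtain ⟨s1, s2⟩ := series_laplace hg _ x (half_pos hx0) b4.1
      (b4.summable (by linarith) Metric.isOpen_ball)
    rw [← hfe] at s1 s2
    refine ⟨s1, ?_⟩
    obtain ⟨D, hD⟩ := hcd 0 |Real.log ‖x‖|
    have hT := hm_summable b (hband (Real.log ‖x‖)) (u := fun k => c k (Real.log ‖x‖))
      (v := fun k => evp (P k) (hat x)) (half_pos hε)
      (fun k => by simpa using hD k _ ⟨neg_abs_le _, le_abs_self _⟩)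
      (fun k => hm_evp_hat hP hPb k x)
    have s3 := (hm_swap hT).mul_left (hmA n β (Real.log ‖x‖))
    have s4 := s2.mul_left (FF β (Real.log ‖x‖) ^ 2)
    have s5 : FF β (Real.log ‖x‖) ^ 2 * laplaceBeltrami (met β (coneG 𝒢 z)) (hfun β c P) x =
        hmA n β (Real.log ‖x‖) * 0 := by
      refine s4.unique (s3.congr_fun (fun k => ?_))
      have l1 := laplace_sep h𝒢 h hz (a := fun t => hmA n β t * c k t) (hA.mul (hcs k))
        (contDiff_evp (P k)) hx
      rw [hm_ode h.smooth (hc.d₁ k) (hc.d₂ k _), hL _ k _ (norm_hat hx)] at l1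
      rw [l1, add_sub_cancel_right]
      simp only
      have e2 : ∀ k₁, b.qe (B (Real.log ‖x‖)) k₁ k * c k (Real.log ‖x‖) * evp (P k₁) (hat x) =
          c k (Real.log ‖x‖) * (b.qe (B (Real.log ‖x‖)) k₁ k * evp (P k₁) (hat x)) :=
        fun k₁ => by ring
      simp_rw [e2]
      rw [tsum_mul_right, tsum_mul_left]
      ring
    rw [mul_zero] at s5
    exact (mul_eq_zero.1 s5).resolve_left (pow_ne_zero _ (hm_FF_pos β _).ne')
  -- at the origin
  have hzero : ContDiffAt ℝ ∞ (hfun β c P) 0 := by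
    have s1 := (series_laplace hg (fun k y => c k 0 • evp (P k) y) 0 one_pos
      (fun k => ((contDiff_evp (P k)).const_smul _).contDiffOn) (fun i => by
        obtain ⟨D, m, hD0, hD⟩ := hm_markov hP hPb i
        refine ⟨fun k => |C| * D * (((b.deg k : ℝ) + 1) ^ m * Real.exp (-(ε * b.deg k))),
          (b.summable_poly_exp m hε).mul_left _, fun k y hy => ?_⟩
        rw [iteratedFDeriv_const_smul_apply' ((contDiff_evp (P k)).contDiffAt.of_le
          (by exact_mod_cast le_top)), norm_smul, Real.norm_eq_abs]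
        refine (mul_le_mul (hc0 k) (hD k y (by simpa using (mem_ball_zero_iff.1 hy).le))
          (norm_nonneg _) (by positivity)).trans (le_of_eq ?_)
        ring)).1
    refine s1.congr_of_eventuallyEq ?_
    filter_upwards [Metric.closedBall_mem_nhds (0 : Vec n) one_pos] with y hy
    rw [hfe]
    exact tsum_congr (fun k => hm_term_ball h hc hP k (mem_closedBall_zero_iff.1 hy))
  have hsm : ContDiff ℝ ∞ (hfun β c P) := contDiff_iff_contDiffAt.2 (fun x => by
    by_cases hx : x = 0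
    · rw [hx]; exact hzero
    · exact (hoff x hx).1)
  refine ⟨⟨hsm.contDiffOn, fun x _ => ?_⟩, ?_⟩
  · have : Nonempty (Fin n) := ⟨⟨0, by have := b.hn; omega⟩⟩
    exact congrFun (Continuous.ext_on (dense_compl_singleton (0 : Vec n))
      (continuous_laplace hg hsm) continuous_const (fun y hy => (hoff y hy).2)) x
  · have hs := b.summable_poly_exp p hε
    refine ⟨|C| * |C₀| * ∑' k, ((b.deg k : ℝ) + 1) ^ p * Real.exp (-(ε * b.deg k)), fun x => ?_⟩
    rw [riemDist_zero h hG]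
    have hρ : 0 ≤ rho β ‖x‖ :=
      intervalIntegral.integral_nonneg (norm_nonneg x) (fun s _ => (Real.exp_pos _).le)
    have key : ∀ k, |hmA n β (Real.log ‖x‖) * c k (Real.log ‖x‖)| ≤
        |C| * Real.exp (-(ε * b.deg k)) * (1 + rho β ‖x‖) ^ κ := by
      intro k
      rcases le_or_gt (Real.log ‖x‖) 0 with ht | ht
      · rw [hm_left h hc k ht, abs_mul]
        refine mul_le_mul (hc0 k) ?_ (abs_nonneg _) (by positivity)
        rw [abs_of_nonneg (by positivity)]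
        exact (pow_le_one₀ (by positivity) (Real.exp_le_one_iff.2 ht)).trans
          (one_le_pow₀ (by linarith))
      · have hx0 : 0 < ‖x‖ := by
          rcases (norm_nonneg x).eq_or_lt with h0 | h0
          · rw [← h0, Real.log_zero] at ht; exact absurd ht (lt_irrefl _)
          · exact h0
        have hF := hm_FF_pos β (Real.log ‖x‖)
        have a1 : Real.exp (a * Real.log ‖x‖) ≤
            FF β (Real.log ‖x‖) ^ ((κ : ℝ) + ((n : ℝ) - 2) / 2) := by
          refine le_trans ?_ (Real.rpow_le_rpow (by positivity) (h.FF_ge ht.le) (by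
            have : (0 : ℝ) ≤ κ := Nat.cast_nonneg _
            linarith))
          rw [← Real.exp_mul]
          exact Real.exp_le_exp.2 (by nlinarith)
        have a2 : hmA n β (Real.log ‖x‖) * FF β (Real.log ‖x‖) ^ ((κ : ℝ) + ((n : ℝ) - 2) / 2) =
            FF β (Real.log ‖x‖) ^ κ := by
          unfold hmA
          rw [← Real.rpow_add hF, ← Real.rpow_natCast]
          congr 1; ring
        have a3 : FF β (Real.log ‖x‖) ^ κ ≤ (1 + rho β ‖x‖) ^ κ :=
          pow_le_pow_left₀ hF.le (by linarith [h.FF_le_rho hx0]) κ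
        have a4 : 0 < hmA n β (Real.log ‖x‖) := Real.rpow_pos_of_pos hF _
        have a5 := (hcb k _ ht.le).trans
          (mul_le_mul_of_nonneg_right (le_abs_self _) (by positivity))
        rw [sub_eq_add_neg, Real.exp_add] at a5
        rw [abs_mul, abs_of_pos a4]
        calc _ ≤ hmA n β (Real.log ‖x‖) * (|C| * (FF β (Real.log ‖x‖) ^
              ((κ : ℝ) + ((n : ℝ) - 2) / 2) * Real.exp (-(ε * b.deg k)))) := by
              refine mul_le_mul_of_nonneg_left (a5.trans ?_) a4.le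
              gcongr
          _ = |C| * Real.exp (-(ε * b.deg k)) * FF β (Real.log ‖x‖) ^ κ := by rw [← a2]; ring
          _ ≤ _ := mul_le_mul_of_nonneg_left a3 (by positivity)
    rw [hfe, ← Real.norm_eq_abs, mul_right_comm]
    refine tsum_of_norm_bounded
      (hs.hasSum.mul_left (|C| * |C₀| * (1 + rho β ‖x‖) ^ κ)) (fun k => ?_)
    rw [Real.norm_eq_abs, abs_mul]
    refine (mul_le_mul (key k) (hm_evp_hat hP hPb k x) (abs_nonneg _) (by positivity)).trans
      (le_of_eq (by ring))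

end Crest.Agent.R202
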