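import Crest.Agent.R202.Orth
import Crest.Agent.R202.Markov

/-!
# Polynomial sup bounds for the basis functions (task F2)

`prof k θ = evp Q (cos θ, sin θ)` with `Q = nrm x^j y^m ∑ γᵢ x^{rb-2i} (x²+y²)^i` homogeneous of degree `deg k` on `ℝ²`; `markov` bounds the first two
derivatives by `C (deg+1)^6 M`, `M = sup |prof k|`.  `|prof k|` takes all its values on `[0, π/r]` (parity), so `|prof k| ≥ M/2` on a subinterval of
length `≥ c (deg+1)^{-3}` and `prof_orth` bounds `M`.  `sin θ Dφ (ek k) = prof k θ * (trig μ)'`; for `μ ≠ 0`, `prof k` vanishes where `sin` does.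
-/

set_option autoImplicit false

noncomputable section

open scoped InnerProductSpace ContDiff
open Set Filter Topology
open MvPolynomial Real

namespace Crest.Agent.R202

variable {r n : ℕ} (c : Cl r n)

/-- the point of the unit circle -/
def supE (θ : ℝ) : Vec 2 :=
  cos θ • EuclideanSpace.single 0 (1 : ℝ) + sin θ • EuclideanSpace.single 1 (1 : ℝ)

/-- restrictions of homogeneous polynomials to the circle -/
def SupTP (d : ℕ) (f : ℝ → ℝ) : Prop :=
  ∃ Q : MvPolynomial (Fin 2) ℝ, Q.IsHomogeneous d ∧ ∀ θ, f θ = evp Q (supE θ)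

theorem supE_zero (θ : ℝ) : supE θ 0 = cos θ := by simp [supE]

theorem supE_one (θ : ℝ) : supE θ 1 = sin θ := by simp [supE]

theorem supE_surj (y : Vec 2) (hy : ‖y‖ = 1) : ∃ θ, y = supE θ := by
  have h : ‖(⟨y 0, y 1⟩ : ℂ)‖ = 1 := by
    rw [← hy, EuclideanSpace.norm_eq, Complex.norm_eq_sqrt_sq_add_sq]
    simp
  refine ⟨Complex.arg ⟨y 0, y 1⟩, ?_⟩
  ext i
  fin_cases i
  · simp [supE_zero, Complex.cos_arg (norm_ne_zero_iff.1 (h.trans_ne one_ne_zero)), h]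
  · simp [supE_one, Complex.sin_arg, h]

theorem sup_step : ∃ C : ℝ, 1 ≤ C ∧ ∀ (d : ℕ) (f : ℝ → ℝ), 1 ≤ d → SupTP d f → SupTP d (deriv f) ∧
    ∀ M, (∀ θ, |f θ| ≤ M) → ∀ θ, |deriv f θ| ≤ C * ((d : ℝ) + 1) ^ 3 * M := by
  obtain ⟨C, hC, h⟩ := markov 2 1
  refine ⟨2 * C + 1, by linarith, fun d f hd ⟨Q, hQ, hf⟩ => ?_⟩
  obtain rfl : f = fun θ => evp Q (supE θ) := funext hf
  have h1 : ∀ θ, deriv (fun θ => evp Q (supE θ)) θ = fderiv ℝ (evp Q) (supE θ)
      (-sin θ • EuclideanSpace.single 0 (1 : ℝ) + cos θ • EuclideanSpace.single 1 (1 : ℝ)) :=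
    fun θ => (((contDiff_evp Q).differentiable (by simp) _).hasFDerivAt.comp_hasDerivAt θ
      (((hasDerivAt_cos θ).smul_const _).add ((hasDerivAt_sin θ).smul_const _))).deriv
  refine ⟨⟨-X 1 * pderiv 0 Q + X 0 * pderiv 1 Q, ?_, fun θ => ?_⟩, fun M hM θ => ?_⟩
  · rw [show d = 1 + (d - 1) by omega]
    exact ((isHomogeneous_X _ _).neg.mul hQ.pderiv).add ((isHomogeneous_X _ _).mul hQ.pderiv)
  · rw [h1, map_add, map_smul, map_smul]
    have a0 := pderiv_evp Q 0 (supE θ)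
    have a1 := pderiv_evp Q 1 (supE θ)
    unfold Crest.GeometryTopology.CoordMetric.pderiv at a0 a1
    rw [a0, a1]
    simp [evp, supE_zero, supE_one]
  · have hM0 : 0 ≤ M := (abs_nonneg _).trans (hM 0)
    have h2 := h d Q M hQ (fun y hy => by obtain ⟨θ, rfl⟩ := supE_surj y hy; exact hM θ) hM0
      one_le_two (supE θ) (by simp [EuclideanSpace.norm_eq, supE_zero, supE_one])
    rw [norm_iteratedFDeriv_one, Nat.mul_one] at h2
    rw [h1, ← Real.norm_eq_abs]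
    refine (ContinuousLinearMap.le_opNorm _ _).trans ((mul_le_mul h2 (show _ ≤ (2 : ℝ) from
      (norm_add_le _ _).trans ?_) (norm_nonneg _) (by positivity)).trans ?_)
    · simp only [norm_smul, norm_neg, PiLp.norm_single, Real.norm_eq_abs, abs_one, mul_one]
      linarith [abs_sin_le_one θ, abs_cos_le_one θ]
    · nlinarith [show 0 ≤ ((d : ℝ) + 1) ^ 3 * M by positivity]

theorem Cl.sup_prof (k : c.J) (θ : ℝ) : c.prof k θ = c.nrm k * (cos θ ^ c.j * sin θ ^ k.1.1.natAbs *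
    ∑ i ∈ Finset.range (k.1.2 + 1),
      c.gam k.1.1.natAbs k.1.2 i * (cos θ ^ r) ^ (k.1.2 - (3 - r) * i)) := by
  simp [Cl.prof, Cl.rad, pt]

theorem Cl.sup_tp (k : c.J) : SupTP (c.deg k) (c.prof k) := by
  refine ⟨∑ i ∈ Finset.range (k.1.2 + 1), if (3 - r) * i ≤ k.1.2 then
    C (c.nrm k * c.gam k.1.1.natAbs k.1.2 i) * (X 0 ^ (c.j + r * (k.1.2 - (3 - r) * i)) *
      X 1 ^ k.1.1.natAbs * (X 0 ^ 2 + X 1 ^ 2) ^ i) else 0,
    IsHomogeneous.sum _ _ _ fun i _ => ?_, fun θ => ?_⟩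
  · split_ifs with h
    · rw [show c.deg k = c.j + r * (k.1.2 - (3 - r) * i) + k.1.1.natAbs + 2 * i by
        unfold Cl.deg
        rcases c.ok with ⟨rfl, -⟩ | ⟨rfl, -⟩ <;> omega]
      exact ((((isHomogeneous_X_pow 0 _).mul (isHomogeneous_X_pow 1 _)).mul
        (((isHomogeneous_X_pow 0 2).add (isHomogeneous_X_pow 1 2)).pow i))).C_mul _
    · exact isHomogeneous_zero _ _ _
  · rw [c.sup_prof, evp, map_sum, Finset.mul_sum, Finset.mul_sum]
    refine Finset.sum_congr rfl fun i _ => ?_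
    split_ifs with h
    · simp only [map_mul, map_pow, map_add, eval_C, eval_X, supE_zero, supE_one, cos_sq_add_sin_sq,
        one_pow, pow_add, pow_mul]
      ring
    · simp [c.gam_eq_zero _ _ _ (not_le.1 h)]

theorem Cl.sup_par (θ : ℝ) : ∃ θ' ∈ Icc 0 (π / r), ∀ k, |c.prof k θ| = |c.prof k θ'| := by
  have key : ∀ θ', |sin θ'| = |sin θ| → |cos θ'| = |cos θ| → cos θ' ^ r = cos θ ^ r →
      ∀ k, |c.prof k θ| = |c.prof k θ'| := fun θ' h1 h2 h3 k => by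
    simp only [c.sup_prof, abs_mul, abs_pow, h1, h2, h3]
  rcases c.ok with ⟨rfl, -⟩ | ⟨rfl, -⟩
  · have h := cos_arccos (neg_one_le_cos θ) (cos_le_one θ)
    refine ⟨arccos (cos θ), ⟨arccos_nonneg _, by simpa using arccos_le_pi _⟩,
      key _ (sq_eq_sq_iff_abs_eq_abs _ _ |>.1 ?_) (by rw [h]) (by rw [h])⟩
    rw [sin_sq, sin_sq, h]
  · have h := cos_arccos (neg_one_lt_zero.le.trans (abs_nonneg (cos θ))) (abs_cos_le_one θ)
    refine ⟨arccos |cos θ|, ⟨arccos_nonneg _, by simp⟩,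
      key _ (sq_eq_sq_iff_abs_eq_abs _ _ |>.1 ?_) (by rw [h, abs_abs]) (by rw [h, sq_abs])⟩
    rw [sin_sq, sin_sq, h, sq_abs]

theorem sup_sin {η x : ℝ} (h0 : 0 ≤ η) (h1 : η ≤ x) (h2 : x ≤ π - η) : η / 2 ≤ sin x := by
  have key : ∀ x, η ≤ x → x ≤ π / 2 → η / 2 ≤ sin x := fun x h1 h2 => by
    refine le_trans ?_ (mul_le_sin (h0.trans h1) h2)
    have : 1 / 2 ≤ 2 / π := by
      rw [div_le_div_iff₀ two_pos pi_pos]
      linarith [pi_le_four]
    nlinarith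
  rcases le_total x (π / 2) with h | h
  · exact key x h1 h
  · rw [← sin_pi_sub]
    exact key _ (by linarith) (by linarith)

include c in
theorem Cl.sup_w0 {η θ : ℝ} (h0 : 0 ≤ η) (h1 : η ≤ θ) (h2 : θ ≤ π / r - η) :
    (η / 2) ^ (n - 2) ≤ w0 n θ := by
  unfold w0
  rcases c.ok with ⟨rfl, rfl, -⟩ | ⟨rfl, h, -⟩
  · simpa using sup_sin h0 h1 (by simpa using h2)
  · push_cast at h2
    rw [show n - 2 = n - 3 + 1 by omega, pow_succ', ← sin_pi_div_two_sub]
    have h3 := sup_sin h0 h1 (by linarith [pi_pos])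
    have h4 := sup_sin (x := π / 2 - θ) h0 (by linarith) (by linarith [pi_pos])
    gcongr
    linarith

theorem Cl.sup_max (k : c.J) {K : ℝ} (hK : 1 ≤ K)
    (h : ∀ M, (∀ θ, |c.prof k θ| ≤ M) → ∀ θ, |deriv (c.prof k) θ| ≤ K * M) (θ : ℝ) :
    |c.prof k θ| ≤ (8 * K) ^ n := by
  have hc := (c.contDiff_prof k).continuous
  have hr : π / 2 ≤ π / r ∧ 3 ≤ n := by
    rcases c.ok with ⟨rfl, rfl, -⟩ | ⟨rfl, h, -⟩
    · exact ⟨by simpa using pi_pos.le, le_rfl⟩
    · exact ⟨le_rfl, by omega⟩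
  have hπ := pi_gt_three
  obtain ⟨θ₀, h0, h1⟩ := (isCompact_Icc (a := 0) (b := π / r)).exists_isMaxOn
    ⟨0, le_rfl, by linarith⟩ hc.abs.continuousOn
  have hM : ∀ θ, |c.prof k θ| ≤ |c.prof k θ₀| := fun θ => by
    obtain ⟨θ', h2, h3⟩ := c.sup_par θ
    exact (h3 k).trans_le (h1 h2)
  refine (hM θ).trans ?_
  set M := |c.prof k θ₀|
  have hM0 : 0 ≤ M := abs_nonneg _
  set η := (4 * K)⁻¹ with hη
  have η0 : 0 < η := by positivity
  have η1 : η * K = 1 / 4 := by rw [hη]; field_simp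
  have η2 : η ≤ 1 / 4 := by nlinarith
  obtain ⟨a, a1, a2, a3⟩ : ∃ a, η ≤ a ∧ a + η ≤ π / r - η ∧ ∀ x ∈ Icc a (a + η), |x - θ₀| ≤ 2 * η := by
    rcases le_total θ₀ (π / r / 2) with h2 | h2
    · exact ⟨θ₀ + η, by linarith [h0.1], by linarith,
        fun x hx => abs_le.2 ⟨by linarith [hx.1], by linarith [hx.2]⟩⟩
    · exact ⟨θ₀ - 2 * η, by linarith, by linarith [h0.2],
        fun x hx => abs_le.2 ⟨by linarith [hx.1], by linarith [hx.2]⟩⟩
  have hw : Continuous fun θ => c.prof k θ * c.prof k θ * w0 n θ := by unfold w0; fun_prop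
  have b1 : ∫ _ in a..a + η, (M / 2) ^ 2 * (η / 2) ^ (n - 2) ≤
      ∫ θ in a..a + η, c.prof k θ * c.prof k θ * w0 n θ := by
    refine intervalIntegral.integral_mono_on (by linarith) intervalIntegrable_const
      (hw.intervalIntegrable _ _) fun x hx => ?_
    have b2 : |c.prof k x - c.prof k θ₀| ≤ K * M * |x - θ₀| :=
      convex_univ.norm_image_sub_le_of_norm_deriv_le
        (fun y _ => (c.contDiff_prof k).differentiable (by simp) y) (fun y _ => h M hM y) trivial trivial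
    have b3 : K * M * |x - θ₀| ≤ K * M * (2 * η) := by gcongr; exact a3 x hx
    have b4 := abs_sub_abs_le_abs_sub (c.prof k θ₀) (c.prof k x)
    rw [abs_sub_comm] at b4
    rw [← abs_mul_abs_self, ← sq]
    exact mul_le_mul (pow_le_pow_left₀ (by positivity) (by nlinarith) 2)
      (c.sup_w0 η0.le (a1.trans hx.1) (hx.2.trans a2)) (by positivity) (by positivity)
  have b2 := b1.trans (intervalIntegral.integral_mono_interval (c := 0) (d := π / r) (by linarith)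
    (by linarith) (by linarith) (MeasureTheory.ae_restrict_of_forall_mem measurableSet_Ioc
      fun x hx => mul_nonneg (mul_self_nonneg _) (c.w0_nonneg ⟨hx.1.le, hx.2⟩))
    (hw.intervalIntegrable _ _))
  rw [c.prof_orth rfl, if_pos rfl, intervalIntegral.integral_const, add_sub_cancel_left,
    smul_eq_mul] at b2
  have b3 : η * ((M / 2) ^ 2 * (η / 2) ^ (n - 2)) ≤ 1 :=
    b2.trans (inv_le_one_of_one_le₀ (by split_ifs <;> linarith))
  obtain ⟨m, rfl⟩ := Nat.exists_eq_add_of_le' (show 2 ≤ n by omega)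
  have b4 : η / 2 = (8 * K)⁻¹ := by rw [hη]; field_simp; norm_num
  rw [Nat.add_sub_cancel, b4, inv_pow, ← mul_assoc, mul_inv_le_iff₀ (by positivity), one_mul] at b3
  have b5 : 1 ≤ (8 * K) ^ (m + 2) := one_le_pow₀ (by linarith)
  have b6 : M ^ 2 ≤ (8 * K) ^ (m + 2) := by
    have b7 := mul_le_mul_of_nonneg_left b3 (show 0 ≤ 16 * K by positivity)
    rw [pow_add]
    have b8 : 16 * K * (8 * K) ^ m ≤ (8 * K) ^ m * (8 * K) ^ 2 := by
      rw [mul_comm]
      gcongr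
      nlinarith
    nlinarith
  nlinarith

theorem sup_trig (μ : ℤ) (φ : ℝ) : |trig μ φ| ≤ 1 ∧ ∃ v, HasDerivAt (trig μ) v φ ∧ |v| ≤ μ.natAbs := by
  have h := (hasDerivAt_id φ).const_mul (μ.natAbs : ℝ)
  unfold trig
  split_ifs
  · exact ⟨abs_cos_le_one _, _, h.cos, by
      simpa [abs_mul] using mul_le_of_le_one_left (abs_nonneg _) (abs_sin_le_one _)⟩
  · exact ⟨abs_sin_le_one _, _, h.sin, by
      simpa [abs_mul] using mul_le_of_le_one_left (abs_nonneg _) (abs_cos_le_one _)⟩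

theorem Cl.sup_Dφ (k : c.J) {L : ℝ} (h : ∀ θ, |deriv (c.prof k) θ| ≤ L) (θ φ : ℝ) :
    |c.Dφ (c.ek k) θ φ| ≤ 2 * L * k.1.1.natAbs := by
  have hL : 0 ≤ L := (abs_nonneg _).trans (h 0)
  obtain ⟨-, v, h1, h2⟩ := sup_trig k.1.1 φ
  have hd : Dense (range fun m : ℤ => m * π)ᶜ := (countable_range _).dense_compl ℝ
  refine (isClosed_le (((c.contDiff_Dφ _).continuous.comp
    (continuous_id.prodMk continuous_const)).abs) continuous_const).closure_subset_iff.2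
    (fun θ hθ => ?_) (hd θ)
  have h3 : sin θ ≠ 0 := fun h => hθ (sin_eq_zero_iff.1 h)
  have h4 : sin θ * c.Dφ (c.ek k) θ φ = c.prof k θ * v := by
    rw [← c.fn_Phi]
    refine (c.hasDerivAt_fn_φ _ θ φ).unique ?_
    simpa only [c.fn_ek] using h1.const_mul (c.prof k θ)
  refine le_of_mul_le_mul_left ?_ (abs_pos.2 h3)
  change _ * |c.Dφ (c.ek k) θ φ| ≤ _
  rw [← abs_mul, h4, abs_mul]
  by_cases h5 : k.1.1.natAbs = 0
  · rw [h5, Nat.cast_zero] at h2 ⊢
    simp [abs_nonpos_iff.1 h2]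
  have h6 : |θ - round (θ / π) * π| ≤ π / 2 := by
    have := mul_le_mul_of_nonneg_right (abs_sub_round (θ / π)) pi_pos.le
    rw [← abs_of_pos pi_pos, ← abs_mul, abs_of_pos pi_pos, sub_mul, div_mul_cancel₀ _ pi_pos.ne'] at this
    linarith
  have h7 := mul_abs_le_abs_sin h6
  rw [sin_sub_int_mul_pi, abs_mul, abs_zpow, abs_neg, abs_one, one_zpow, one_mul] at h7
  have h8 : |c.prof k θ - c.prof k (round (θ / π) * π)| ≤ L * |θ - round (θ / π) * π| :=
    convex_univ.norm_image_sub_le_of_norm_deriv_le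
      (fun y _ => (c.contDiff_prof k).differentiable (by simp) y) (fun y _ => h y) trivial trivial
  rw [c.sup_prof k (_ * _), sin_int_mul_pi, zero_pow h5, mul_zero, zero_mul, mul_zero, sub_zero] at h8
  have h9 : 1 / 2 ≤ 2 / π := by
    rw [div_le_div_iff₀ two_pos pi_pos]
    linarith [pi_le_four]
  have h10 : |θ - round (θ / π) * π| ≤ 2 * |sin θ| := by
    nlinarith [abs_nonneg (θ - round (θ / π) * π)]
  calc _ ≤ L * (2 * |sin θ|) * k.1.1.natAbs := by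
        gcongr
        exact h8.trans (by gcongr)
    _ = _ := by ring

theorem Cl.prof_bound : ∃ (C : ℝ) (p : ℕ), 0 < C ∧ ∀ (k : c.J) (θ : ℝ),
    |c.prof k θ| ≤ C * ((c.deg k : ℝ) + 1) ^ p ∧ |deriv (c.prof k) θ| ≤ C * ((c.deg k : ℝ) + 1) ^ p ∧
    |deriv (deriv (c.prof k)) θ| ≤ C * ((c.deg k : ℝ) + 1) ^ p ∧
    ∀ φ, |c.Dθ (c.ek k) θ φ| ≤ C * ((c.deg k : ℝ) + 1) ^ p ∧
      |c.Dφ (c.ek k) θ φ| ≤ C * ((c.deg k : ℝ) + 1) ^ p := by
  obtain ⟨C, hC, h⟩ := sup_step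
  refine ⟨2 * 8 ^ n * C ^ (n + 2), 3 * n + 7, by positivity, fun k θ => ?_⟩
  obtain ⟨h1, h2⟩ := h _ _ k.2 (c.sup_tp k)
  obtain ⟨-, h3⟩ := h _ _ k.2 h1
  have hd : (k.1.1.natAbs : ℝ) ≤ c.deg k + 1 := by
    exact_mod_cast (show k.1.1.natAbs ≤ c.deg k + 1 by unfold Cl.deg; omega)
  have hD : (1 : ℝ) ≤ c.deg k + 1 := by linarith [Nat.cast_nonneg (α := ℝ) (c.deg k)]
  change ∀ M, _ → ∀ θ, _ ≤ C * ((c.deg k : ℝ) + 1) ^ 3 * M at h2 h3
  generalize (c.deg k : ℝ) + 1 = D at *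
  have hK : 1 ≤ C * D ^ 3 := one_le_mul_of_one_le_of_one_le hC (one_le_pow₀ hD)
  have a0 := c.sup_max k hK h2
  have a1 := h2 _ a0
  have a2 := h3 _ a1
  rw [show 2 * 8 ^ n * C ^ (n + 2) * D ^ (3 * n + 7) =
    2 * D * (C * D ^ 3 * (C * D ^ 3 * (8 * (C * D ^ 3)) ^ n)) by ring]
  have hP : 0 ≤ (8 * (C * D ^ 3)) ^ n := by positivity
  generalize (8 * (C * D ^ 3)) ^ n = P at *
  generalize C * D ^ 3 = K at *
  have b1 : P ≤ K * P := le_mul_of_one_le_left hP hK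
  have b2 : K * P ≤ K * (K * P) := le_mul_of_one_le_left (hP.trans b1) hK
  have b3 : K * (K * P) ≤ 2 * D * (K * (K * P)) :=
    le_mul_of_one_le_left (hP.trans (b1.trans b2)) (by linarith)
  refine ⟨by linarith [a0 θ], by linarith [a1 θ], by linarith [a2 θ], fun φ => ⟨?_, ?_⟩⟩
  · simp only [Cl.Dθ, c.fn_ek, deriv_mul_const_field, abs_mul]
    linarith [a1 θ, mul_le_of_le_one_right (abs_nonneg (deriv (c.prof k) θ)) (sup_trig k.1.1 φ).1]
  · refine (c.sup_Dφ k a1 θ φ).trans ?_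
    rw [mul_right_comm]
    exact mul_le_mul (by linarith) b2 (hP.trans b1) (by linarith)

end Crest.Agent.R202
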