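import Crest.Agent.R202.GmAlg
import Crest.Agent.R202.Markov
import Crest.Agent.R202.Sup

/-!
# The homogeneous harmonic polynomials of the modes (task G8b)

`Δ (h |x|^{2i}) = Δh |x|^{2i} + 2i(2 deg h + 2i + n - 2) h |x|^{2i-2}`, and for `h = Y ζ τ^q`: `Δ h = p(p+ν-1) Y ζ τ^{q-(3-r)}`, `p = r q`, `ν = 2j+n-3` (`ζ` is harmonic in `x₀,x₁`; Euler's
identity for `Y`); the sum telescopes by `gam_rec`, `gam_eq_zero`.  (`Crest.Agent.R230.Poly` has product rules for the polynomial Laplacian.)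
Bound: `Y` depends only on the last variables, whose norm is `|cos θ|`, so `|Y y| ≤ C |cos θ|^j`, and `prof_bound`.
-/

set_option autoImplicit false

noncomputable section

open scoped InnerProductSpace ContDiff
open Set Filter Topology
open MvPolynomial Real
open Crest.GeometryTopology.CoordMetric hiding pderiv

namespace Crest.Agent.R202

variable {r N : ℕ} (c : Cl r (N + 3)) {Y : MvPolynomial (Fin (N + 3)) ℝ}

section lap

variable {n : ℕ}

/-- the polynomial Laplacian -/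
def hpol_L (P : MvPolynomial (Fin n) ℝ) : MvPolynomial (Fin n) ℝ := ∑ i, pderiv i (pderiv i P)

theorem hpol_L_mul (P Q : MvPolynomial (Fin n) ℝ) : hpol_L (P * Q) =
    hpol_L P * Q + 2 * ∑ i, pderiv i P * pderiv i Q + P * hpol_L Q := by
  simp only [hpol_L, pderiv_mul, map_add, Finset.sum_mul, Finset.mul_sum, ← Finset.sum_add_distrib]
  exact Finset.sum_congr rfl fun i _ => by ring

theorem hpol_L_C_mul (a : ℝ) (P : MvPolynomial (Fin n) ℝ) : hpol_L (C a * P) = C a * hpol_L P := by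
  simp only [hpol_L, pderiv_C_mul, Finset.mul_sum]

theorem hpol_L_pow {σ h : MvPolynomial (Fin n) ℝ} {D ν : ℕ} (h0 : h.IsHomogeneous D)
    (h1 : σ.IsHomogeneous 2) (h2 : hpol_L σ = 2 * ν)
    (h3 : ∀ i l, pderiv l (h * σ ^ i) * pderiv l σ = 2 * (X l * pderiv l (h * σ ^ i))) (i : ℕ) :
    hpol_L (h * σ ^ i) = hpol_L h * σ ^ i +
      C (2 * i * (2 * D + 2 * i + ν - 2) : ℝ) * (h * σ ^ (i - 1)) := by
  induction i with
  | zero => simp
  | succ i ih =>
    rw [pow_succ, ← mul_assoc, hpol_L_mul, ih, h2]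
    simp only [h3, ← Finset.mul_sum, (h0.mul (h1.pow i)).sum_X_mul_pderiv, nsmul_eq_mul, map_mul,
      map_add, map_sub, map_natCast, map_ofNat, Nat.add_sub_cancel]
    cases i <;> push_cast <;> ring

theorem hpol_rho_hom : (∑ l, X l ^ 2 : MvPolynomial (Fin n) ℝ).IsHomogeneous 2 :=
  IsHomogeneous.sum _ _ _ fun l _ => isHomogeneous_X_pow l 2

theorem hpol_rho_d (l : Fin n) : pderiv l (∑ l, X l ^ 2 : MvPolynomial (Fin n) ℝ) = 2 * X l := by
  simp [pderiv_X, Pi.single_apply]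

theorem hpol_two : (2 : MvPolynomial (Fin n) ℝ) = C 2 := rfl

theorem hpol_L_rho {h : MvPolynomial (Fin n) ℝ} {D : ℕ} (h0 : h.IsHomogeneous D) (i : ℕ) :
    hpol_L (h * (∑ l, X l ^ 2) ^ i) = hpol_L h * (∑ l, X l ^ 2) ^ i +
      C (2 * i * (2 * D + 2 * i + n - 2) : ℝ) * (h * (∑ l, X l ^ 2) ^ (i - 1)) :=
  hpol_L_pow h0 hpol_rho_hom (by
    simp only [hpol_L, hpol_rho_d, hpol_two, pderiv_C_mul, pderiv_X_self]
    simp [mul_comm]) (fun i l => by rw [hpol_rho_d]; ring) i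

end lap

/-- the lift of a polynomial in `X 0, X 1` -/
abbrev hpol_z (N : ℕ) (g : P3) : MvPolynomial (Fin (N + 3)) ℝ := aeval ![X 0, X 1, 0] g

theorem hpol_zeta (m : ℕ) :
    ((hpol_z N (zeta m).1).IsHomogeneous m ∧ (hpol_z N (zeta m).2).IsHomogeneous m) ∧
    (∀ l : Fin (N + 3), ¬ l.val < 2 →
      pderiv l (hpol_z N (zeta m).1) = 0 ∧ pderiv l (hpol_z N (zeta m).2) = 0) ∧
    (pderiv 0 (hpol_z N (zeta m).1) = pderiv 1 (hpol_z N (zeta m).2) ∧
      pderiv 1 (hpol_z N (zeta m).1) = -pderiv 0 (hpol_z N (zeta m).2)) ∧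
    (hpol_L (hpol_z N (zeta m).1) = 0 ∧ hpol_L (hpol_z N (zeta m).2) = 0) ∧
    ∀ (y : Vec (N + 3)) (t : ℝ), evp (hpol_z N (zeta m).1) y = eval ![y 0, y 1, t] (zeta m).1 ∧
      evp (hpol_z N (zeta m).2) y = eval ![y 0, y 1, t] (zeta m).2 := by
  induction m with
  | zero => simp [zeta, hpol_L, evp, isHomogeneous_one, isHomogeneous_zero]
  | succ m ih =>
    obtain ⟨⟨a1, a2⟩, b, ⟨c1, c2⟩, ⟨d1, d2⟩, e⟩ := ih
    have e1 : hpol_z N (zeta (m + 1)).1 =
        X 0 * hpol_z N (zeta m).1 - X 1 * hpol_z N (zeta m).2 := by simp [zeta, hpol_z]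
    have e2 : hpol_z N (zeta (m + 1)).2 =
        X 1 * hpol_z N (zeta m).1 + X 0 * hpol_z N (zeta m).2 := by simp [zeta, hpol_z]
    have hX : ∀ (a : Fin (N + 3)) (P : MvPolynomial (Fin (N + 3)) ℝ),
        hpol_L (X a * P) = 2 * pderiv a P + X a * hpol_L P := fun a P => by
      rw [hpol_L_mul]
      simp [hpol_L, pderiv_X, Pi.single_apply, apply_ite]
    rw [e1, e2]
    generalize hpol_z N (zeta m).1 = P at *
    generalize hpol_z N (zeta m).2 = Q at *
    refine ⟨⟨?_, ?_⟩, fun l hl => ?_, ?_, ⟨?_, ?_⟩, fun y t => ?_⟩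
    · rw [add_comm m]
      exact ((isHomogeneous_X _ _).mul a1).sub ((isHomogeneous_X _ _).mul a2)
    · rw [add_comm m]
      exact ((isHomogeneous_X _ _).mul a1).add ((isHomogeneous_X _ _).mul a2)
    · have h0 : (0 : Fin (N + 3)) ≠ l := by rintro rfl; simp at hl
      have h1 : (1 : Fin (N + 3)) ≠ l := by rintro rfl; simp at hl
      simp [pderiv_X_of_ne h0, pderiv_X_of_ne h1, b l hl]
    · simp only [map_sub, map_add, pderiv_mul, pderiv_X_self, c1, c2,
        pderiv_X_of_ne (zero_ne_one (α := Fin (N + 3))),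
        pderiv_X_of_ne (one_ne_zero (α := Fin (N + 3)))]
      constructor <;> ring
    · have := hX 0 P
      have := hX 1 Q
      simp only [hpol_L, map_sub, Finset.sum_sub_distrib] at *
      simp only [*]
      ring
    · have := hX 1 P
      have := hX 0 Q
      simp only [hpol_L, map_add, Finset.sum_add_distrib] at *
      simp only [*]
      ring
    · have := e y t
      simp only [evp] at this
      simp [evp, zeta, this]

theorem hpol_zt (μ : ℤ) : (hpol_z N (zt μ)).IsHomogeneous μ.natAbs ∧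
    (∀ l : Fin (N + 3), ¬ l.val < 2 → pderiv l (hpol_z N (zt μ)) = 0) ∧
    hpol_L (hpol_z N (zt μ)) = 0 ∧
    ∀ (y : Vec (N + 3)) (t : ℝ), evp (hpol_z N (zt μ)) y = eval ![y 0, y 1, t] (zt μ) := by
  obtain ⟨a, b, -, d, e⟩ := hpol_zeta (N := N) μ.natAbs
  unfold zt
  split_ifs
  · exact ⟨a.1, fun l hl => (b l hl).1, d.1, fun y t => (e y t).1⟩
  · exact ⟨a.2, fun l hl => (b l hl).2, d.2, fun y t => (e y t).2⟩

theorem hpol_tau_hom : (tauP r N).IsHomogeneous r :=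
  IsHomogeneous.sum _ _ _ fun l _ => by
    split_ifs
    · exact isHomogeneous_zero _ _ _
    · exact isHomogeneous_X_pow l r

theorem hpol_tau_d (l : Fin (N + 3)) :
    pderiv l (tauP r N) = if l.val < 2 then 0 else (r : MvPolynomial _ ℝ) * X l ^ (r - 1) := by
  rw [tauP, map_sum, Finset.sum_eq_single l]
  · split_ifs <;> simp
  · intro i _ hi
    split_ifs <;> simp [pderiv_X_of_ne hi]
  · simp

theorem YOk.hpol_d {j : ℕ} (hY : YOk j Y) {l : Fin (N + 3)} (hl : l.val < 2) : pderiv l Y = 0 := by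
  rcases (by omega : l.val = 0 ∨ l.val = 1) with h | h
  · rw [show l = 0 from Fin.ext h, hY.d0]
  · rw [show l = 1 from Fin.ext h, hY.d1]

theorem YOk.hpol_dT {j : ℕ} (hY : YOk j Y) (a : ℕ) {l : Fin (N + 3)} (hl : l.val < 2) :
    pderiv l (Y * tauP r N ^ a) = 0 := by
  simp [hY.hpol_d hl, hpol_tau_d, hl]

theorem Cl.hpol_LT (hY : YOk c.j Y) (a : ℕ) : hpol_L (Y * tauP r N ^ a) =
    C ((r * a : ℕ) * ((r * a : ℕ) + (2 * c.j + (N + 3 : ℕ) - 3) - 1) : ℝ) *
      (Y * tauP r N ^ (a - (3 - r))) := by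
  rcases c.ok with ⟨rfl, h1, h2⟩ | ⟨rfl, -⟩
  · obtain rfl : N = 0 := by omega
    rw [h2] at hY ⊢
    rw [totalDegree_eq_zero_iff_eq_C.1 (Nat.le_zero.1 hY.hom.totalDegree_le), hpol_L_C_mul,
      show tauP 1 0 = X 2 by simp [tauP, Fin.sum_univ_three], mul_left_comm]
    congr 1
    rcases a with _ | _ | a <;> simp [hpol_L, Fin.sum_univ_three, pderiv_X]
    ring
  · rw [hpol_L_pow (ν := N + 1) hY.hom hpol_tau_hom ?_ fun i l => ?_, show hpol_L Y = 0 from hY.harm,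
      zero_mul, zero_add]
    · congr 2
      push_cast
      ring
    · simp only [hpol_L, hpol_tau_d, Fin.sum_univ_succ (n := N + 2), Fin.sum_univ_succ (n := N + 1)]
      simp [hpol_two, mul_comm]
    · rw [hpol_tau_d]
      split_ifs with h
      · simp [hY.hpol_dT i h]
      · simp
        ring

theorem Cl.hpol_eq (Y : MvPolynomial (Fin (N + 3)) ℝ) (k : c.J) : c.hpol Y k =
    C (c.nrm k) * ∑ i ∈ Finset.range (k.1.2 + 1), C (c.gam k.1.1.natAbs k.1.2 i) *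
      (hpol_z N (zt k.1.1) * (Y * tauP r N ^ (k.1.2 - (3 - r) * i)) * (∑ l, X l ^ 2) ^ i) := by
  rw [Cl.hpol, Finset.mul_sum, Finset.mul_sum]
  refine Finset.sum_congr rfl fun i _ => ?_
  split_ifs with h
  · ring
  · simp [c.gam_eq_zero _ _ _ (not_le.1 h)]

theorem Cl.hpol_hom (hY : YOk c.j Y) (k : c.J) : (c.hpol Y k).IsHomogeneous (c.deg k) := by
  have h := ((hY.hom.mul (isHomogeneous_C _ (c.nrm k))).mul (hpol_zt (N := N) k.1.1).1)
  refine h.mul (IsHomogeneous.sum _ _ _ fun i _ => ?_)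
  split_ifs with h
  · rw [mul_assoc, show r * k.1.2 = r * (k.1.2 - (3 - r) * i) + 2 * i by
      rcases c.ok with ⟨rfl, -⟩ | ⟨rfl, -⟩ <;> omega]
    exact ((hpol_tau_hom.pow _).mul (hpol_rho_hom.pow i)).C_mul _
  · exact isHomogeneous_zero _ _ _

theorem Cl.evp_hpol (Y : MvPolynomial (Fin (N + 3)) ℝ) (k : c.J) {y : Vec (N + 3)} (hy : ‖y‖ = 1) :
    evp (c.hpol Y k) y = evp Y y * eval (prj r y) (c.ek k) := by
  have h1 : ∑ l, y l ^ 2 = 1 := by rw [← EuclideanSpace.real_norm_sq_eq, hy, one_pow]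
  have h2 : eval y.ofLp (tauP r N) = tau r y := by
    rw [tauP, tau, map_sum]
    refine Finset.sum_congr rfl fun i _ => ?_
    rcases c.ok with ⟨rfl, -⟩ | ⟨rfl, -⟩ <;> unfold uvec <;> split_ifs <;> simp_all [sq]
  have h3 := (hpol_zt (N := N) k.1.1).2.2.2 y (tau r y)
  rw [c.hpol_eq]
  simp only [evp] at h3 ⊢
  simp only [Cl.ek, Cl.gk, Cl.rad, prj, map_mul, map_sum, map_pow, eval_C, eval_X, h1, h2, h3,
    Finset.mul_sum, Matrix.cons_val]
  exact Finset.sum_congr rfl fun i _ => by ring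

theorem Cl.hpol_harm (hY : YOk c.j Y) (k : c.J) :
    ∑ i, pderiv i (pderiv i (c.hpol Y k)) = 0 := by
  obtain ⟨⟨μ, b⟩, hk⟩ := k
  obtain ⟨z1, z2, z3, -⟩ := hpol_zt (N := N) μ
  set u : ℕ → ℕ → MvPolynomial (Fin (N + 3)) ℝ := fun a i =>
    hpol_z N (zt μ) * (Y * tauP r N ^ (b - (3 - r) * a)) * (∑ l, X l ^ 2) ^ i with hu
  have h1 : ∀ i, hpol_L (C (c.gam μ.natAbs b i) * u i i) =
      C (c.gam μ.natAbs b i * (((r * b : ℕ) : ℝ) - 2 * i) *
        (((r * b : ℕ) : ℝ) - 2 * i + (2 * c.j + (N + 3 : ℕ) - 3) - 1)) * u (i + 1) i +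
      C (c.gam μ.natAbs b i * (2 * i * (2 * ((c.j + μ.natAbs + r * b : ℕ) : ℝ) - 2 * i +
        (N + 3 : ℕ) - 2))) * u i (i - 1) := fun i => by
    rcases lt_or_ge b ((3 - r) * i) with h | h
    · simp [c.gam_eq_zero _ _ _ h, hpol_L]
    have e : ((r * (b - (3 - r) * i) : ℕ) : ℝ) = (r * b : ℕ) - 2 * i := by
      rw [eq_sub_iff_add_eq]
      exact_mod_cast (by rcases c.ok with ⟨rfl, -⟩ | ⟨rfl, -⟩ <;> omega)
    rw [hpol_L_C_mul, hpol_L_rho (z1.mul (hY.hom.mul (hpol_tau_hom.pow _))), hpol_L_mul, z3,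
      Finset.sum_eq_zero fun l _ => ?_, c.hpol_LT hY, Nat.cast_add μ.natAbs, Nat.cast_add c.j, e,
      Nat.sub_sub, ← Nat.mul_succ]
    · simp only [hu, map_mul, map_add, map_sub, map_natCast, map_ofNat, map_one, Nat.cast_add]
      ring
    · by_cases hl : l.val < 2
      · rw [hY.hpol_dT _ hl, mul_zero]
      · rw [z2 l hl, zero_mul]
  rw [c.hpol_eq]
  change hpol_L (_ * ∑ i ∈ Finset.range (b + 1), C (c.gam μ.natAbs b i) * u i i) = 0
  have h2 : hpol_L (∑ i ∈ Finset.range (b + 1), C (c.gam μ.natAbs b i) * u i i) =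
      ∑ i ∈ Finset.range (b + 1), hpol_L (C (c.gam μ.natAbs b i) * u i i) := by
    simp only [hpol_L, map_sum]
    exact Finset.sum_comm
  have h3 : c.gam μ.natAbs b b * (((r * b : ℕ) : ℝ) - 2 * b) = 0 := by
    rcases c.ok with ⟨rfl, -⟩ | ⟨rfl, -⟩
    · rcases b with _ | b
      · simp
      · rw [c.gam_eq_zero _ _ _ (by omega), zero_mul]
    · simp
  rw [hpol_L_C_mul, h2, Finset.sum_congr rfl fun i _ => h1 i, Finset.sum_add_distrib,
    Finset.sum_range_succ, Finset.sum_range_succ', h3]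
  simp only [zero_mul, mul_zero, map_zero, add_zero, Nat.cast_zero, ← Finset.sum_add_distrib]
  rw [Finset.sum_eq_zero fun i hi => ?_, mul_zero]
  rw [Nat.add_sub_cancel, ← add_mul, ← map_add, mul_eq_zero]
  refine Or.inl (C_eq_zero.2 ?_)
  rw [Nat.cast_succ i]
  linear_combination c.gam_rec μ.natAbs b i (Finset.mem_range.1 hi)

theorem Cl.abs_Y_le (hY : YOk c.j Y) : ∃ C : ℝ, 0 ≤ C ∧ ∀ (y : Vec (N + 3)) (θ φ : ℝ), ‖y‖ = 1 →
    prj r y = pt r θ φ → |evp Y y| ≤ C * |cos θ| ^ c.j := by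
  refine ⟨∑ m ∈ Y.support, |coeff m Y|, Finset.sum_nonneg fun _ _ => abs_nonneg _,
    fun y θ φ hy h => ?_⟩
  have h0 : y 0 = sin θ * cos φ := congrFun h 0
  have h1 : y 1 = sin θ * sin φ := congrFun h 1
  have h2 : ∀ l : Fin (N + 3), ¬ l.val < 2 → |y l| ≤ |cos θ| := fun l hl => by
    have a0 : (0 : Fin (N + 3)) ≠ l := by rintro rfl; simp at hl
    have a1 : (1 : Fin (N + 3)) ≠ l := by rintro rfl; simp at hl
    have h3 := Finset.sum_le_sum_of_subset_of_nonneg (f := fun l => y l ^ 2)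
      (Finset.subset_univ {0, 1, l}) fun _ _ _ => sq_nonneg _
    rw [← EuclideanSpace.real_norm_sq_eq, hy, Finset.sum_insert (by simp [a0]),
      Finset.sum_pair a1, h0, h1] at h3
    exact sq_le_sq.1 (by nlinarith [sin_sq_add_cos_sq θ, sin_sq_add_cos_sq φ])
  rw [evp, eval_eq', Finset.sum_mul]
  refine (Finset.abs_sum_le_sum_abs _ _).trans (Finset.sum_le_sum fun m hm => ?_)
  have h3 : ∑ i, m i = c.j := by
    rw [← hY.hom (mem_support_iff.1 hm), Finsupp.weight_apply, Finsupp.sum_fintype _ _ (by simp)]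
    simp
  rw [abs_mul, Finset.abs_prod, ← h3, ← Finset.prod_pow_eq_pow_sum]
  refine mul_le_mul_of_nonneg_left (Finset.prod_le_prod (fun _ _ => abs_nonneg _) fun l _ => ?_)
    (abs_nonneg _)
  rw [abs_pow]
  by_cases hl : l.val < 2
  · by_cases h4 : m l = 0
    · simp [h4]
    · have h5 := coeff_pderiv (i := l) Y (m - Finsupp.single l 1)
      rw [hY.hpol_d hl, coeff_zero, tsub_add_cancel_of_le (Finsupp.single_le_iff.2 (by omega))] at h5
      exact absurd h5.symm (mul_ne_zero (mem_support_iff.1 hm) (by positivity))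
  · exact pow_le_pow_left₀ (abs_nonneg _) (h2 l hl) _

theorem Cl.hpol_bound (hY : YOk c.j Y) : ∃ (C : ℝ) (p : ℕ), ∀ (k : c.J) (y : Vec (N + 3)), ‖y‖ = 1 →
    |evp (c.hpol Y k) y| ≤ C * ((c.deg k : ℝ) + 1) ^ p := by
  obtain ⟨C1, h0, h1⟩ := c.abs_Y_le hY
  obtain ⟨C2, p, -, h2⟩ := c.prof_bound
  refine ⟨C1 * C2, p, fun k y hy => ?_⟩
  obtain ⟨θ, -, φ, h⟩ := c.exists_pt hy
  rw [c.evp_hpol Y k hy, abs_mul, h, mul_assoc]
  refine (mul_le_mul_of_nonneg_right (h1 y θ φ hy h) (abs_nonneg _)).trans ?_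
  rw [mul_assoc, ← abs_pow, ← abs_mul]
  refine mul_le_mul_of_nonneg_left ((congrArg abs (c.fn_ek k θ φ)).trans_le ?_) h0
  rw [abs_mul]
  exact (mul_le_of_le_one_right (abs_nonneg _) (sup_trig _ _).1).trans (h2 k θ).1

end Crest.Agent.R202
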