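import Crest.Agent.R202.Hpol
import Crest.Agent.R202.AngExtra
import Crest.Agent.R202.Harm

/-!
# The eigen-relation on the sphere and linear independence (task G11b)

`angLap_hpol`: `angLap_congr`, `angLap_extra`, `angLap_one`, `Lop_expand` (cancel `cos^j θ`, or both sides vanish by `abs_Y_le`).
`series_indep`: on a fibre of `prj` the function is `∑ Y(y) f_{i,Y}(θ,φ)`, `cos^j θ f = ∑' a k fn (ek k)`; `YInd` gives `f = 0` for `θ ∈ (0,π/r)`; multiply by `fn (ek k₁)` and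
integrate termwise (uniform convergence, `prof_bound`, `ip_ek`).
-/

set_option autoImplicit false

noncomputable section

open scoped InnerProductSpace ContDiff
open Set Filter Topology
open MvPolynomial Real
open Crest.GeometryTopology.CoordMetric hiding pderiv

namespace Crest.Agent.R202

variable {r N : ℕ}

theorem Cl.angLap_hpol (c : Cl r (N + 3)) {Y : MvPolynomial (Fin (N + 3)) ℝ} (hY : YOk c.j Y)
    {t : T3} (ht : DetOne r t) (k : c.J) {y : Vec (N + 3)} (hy : ‖y‖ = 1) :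
    angLap (Gm r t) (evp (c.hpol Y k)) y =
      -∑' k₁, c.base.qe (1 + c.Aop t) k₁ k * evp (c.hpol Y k₁) y := by
  obtain ⟨s, h1, h2⟩ := c.Lop_expand t k
  obtain ⟨θ, -, φ, h3⟩ := c.exists_pt hy
  obtain ⟨C, -, h4⟩ := c.abs_Y_le hY
  rw [angLap_congr _ (fun x hx => c.evp_hpol Y k hx) hy, c.angLap_extra hY ht _ hy,
    ← angLap_congr _ (fun x hx => c.evp_hpol Y k hx) hy,
    angLap_one (c.hpol_hom hY k) (c.hpol_harm hY k) hy,
    tsum_eq_sum (s := s) fun k₁ hk => by rw [h1 k₁ hk, zero_mul]]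
  simp only [c.evp_hpol Y _ hy, h3]
  by_cases h : cos θ ^ c.j = 0
  · have h5 := h4 y θ φ hy h3
    rw [← abs_pow, h, abs_zero, mul_zero, abs_nonpos_iff] at h5
    simp [h5]
  · refine mul_left_cancel₀ h ?_
    have h5 := congrArg (evp Y y * ·) (h2 θ φ)
    simp only [Cl.fn, Finset.mul_sum] at h5
    rw [mul_neg, Finset.mul_sum, Finset.sum_congr rfl fun k₁ _ => show _ = evp Y y *
      (c.base.qe (1 + c.Aop t) k₁ k * (cos θ ^ c.j * eval (pt r θ φ) (c.ek k₁))) by ring, ← h5]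
    simp only [Base.lam, Cl.base]
    ring

theorem Cl.ind_one {n : ℕ} (c : Cl r n) {a : c.J → ℝ} {C ε : ℝ} (hε : 0 < ε)
    (ha : ∀ k, |a k| ≤ C * Real.exp (-(ε * c.deg k)))
    (h0 : ∀ θ ∈ Ioo 0 (π / r), ∀ φ, ∑' k, a k * c.fn (c.ek k) θ φ = 0) (k₁ : c.J) : a k₁ = 0 := by
  classical
  obtain ⟨D, p, -, hD⟩ := c.prof_bound
  have hb : ∀ k (x : ℝ × ℝ), ‖a k * c.fn (c.ek k) x.1 x.2‖ ≤
      C * D * (((c.base.deg k : ℝ) + 1) ^ p * Real.exp (-(ε * c.base.deg k))) := fun k x => by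
    rw [Real.norm_eq_abs, c.fn_ek, abs_mul, abs_mul]
    exact (mul_le_mul (ha k) ((mul_le_of_le_one_right (abs_nonneg _) (sup_trig _ _).1).trans
      (hD k x.1).1) (by positivity) ((abs_nonneg _).trans (ha k))).trans_eq
      (by simp only [Cl.base]; ring)
  have hu := Metric.tendstoUniformly_iff.1
    (tendstoUniformly_tsum ((c.base.summable_poly_exp p hε).mul_left (C * D)) hb)
  have hc : ∀ k, Continuous fun x : ℝ × ℝ => c.fn (c.ek k) x.1 x.2 * c.fn (c.ek k₁) x.1 x.2 :=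
    fun k => (c.contDiff_fn _).continuous.mul (c.contDiff_fn _).continuous
  obtain ⟨M, hM⟩ : ∃ M, ∀ θ φ, |a k₁ * c.fn (c.ek k₁) θ φ| ≤ M := ⟨_, fun θ φ => hb k₁ (θ, φ)⟩
  have h1 : Tendsto (fun δ : ℝ => δ * sint r n fun _ _ => M) (𝓝[>] 0) (𝓝 (0 * _)) :=
    ((continuous_id.mul continuous_const).tendsto 0).mono_left nhdsWithin_le_nhds
  refine mul_self_eq_zero.1 (le_antisymm ((ge_of_tendsto h1
    (eventually_nhdsWithin_of_forall fun δ hδ => ?_)).trans_eq (zero_mul _)) (mul_self_nonneg _))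
  obtain ⟨s, h2, h3⟩ := ((hu δ hδ).and (eventually_ge_atTop {k₁})).exists
  calc _ = ∑ k ∈ s, a k₁ * a k * c.ip (c.ek k) (c.ek k₁) := by
        simp only [c.ip_ek, mul_ite, mul_one, mul_zero]
        rw [Finset.sum_ite_eq', if_pos (h3 (Finset.mem_singleton_self _))]
    _ = sint r n fun θ φ => ∑ k ∈ s, a k₁ * a k * (c.fn (c.ek k) θ φ * c.fn (c.ek k₁) θ φ) :=
        (sint_sum s _ _ hc).symm
    _ ≤ sint r n fun _ _ => δ * M := by
        refine c.sint_mono (continuous_finsetSum _ fun k _ => continuous_const.mul (hc k))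
          continuous_const fun θ hθ φ => ?_
        have h4 := h2 (θ, φ)
        rw [h0 θ hθ φ, dist_zero_left, Real.norm_eq_abs] at h4
        rw [Finset.sum_congr rfl fun k _ => show _ = a k * c.fn (c.ek k) θ φ *
          (a k₁ * c.fn (c.ek k₁) θ φ) by ring, ← Finset.sum_mul]
        refine (le_abs_self _).trans ?_
        rw [abs_mul]
        exact mul_le_mul h4.le (hM θ φ) (abs_nonneg _) (le_of_lt hδ)
    _ = _ := by simp only [sint, intervalIntegral.integral_const_mul, mul_assoc]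

theorem ind_series {I : Type} [Fintype I] (cl : I → Cl r (N + 3))
    (Y : I → MvPolynomial (Fin (N + 3)) ℝ) (hI : YInd r Y) (a : ∀ i, (cl i).J → ℝ) {ε : ℝ}
    (hε : 0 < ε) (C : I → ℝ) (ha : ∀ i k, |a i k| ≤ C i * Real.exp (-(ε * (cl i).deg k)))
    (h0 : ∀ y : Vec (N + 3), ‖y‖ = 1 → ∑ i, ∑' k, a i k * evp ((cl i).hpol (Y i) k) y = 0) :
    ∀ i k, a i k = 0 := by
  refine fun i => (cl i).ind_one hε (ha i) fun θ hθ φ => ?_
  have h := congrFun (hI θ hθ φ (fun i => ∑' k, a i k * eval (pt r θ φ) ((cl i).ek k))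
    fun y hy h => ?_) i
  · simp only [Cl.fn, mul_left_comm (a i _), tsum_mul_left]
    exact mul_eq_zero_of_right _ h
  · rw [← h0 y hy]
    simp only [Cl.evp_hpol _ _ _ hy, h, ← tsum_mul_right, mul_assoc, mul_comm (evp _ y)]

theorem series_indep {I : Type} [Fintype I] (cl : I → Cl r (N + 3))
    (Y : I → MvPolynomial (Fin (N + 3)) ℝ) (hY : ∀ i, YOk (cl i).j (Y i)) (hI : YInd r Y)
    (a : ∀ i, (cl i).J → ℝ) {C ε : ℝ} (hε : 0 < ε)
    (ha : ∀ i k, |a i k| ≤ C * Real.exp (-(ε * (cl i).deg k)))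
    (h0 : ∀ y : Vec (N + 3), ‖y‖ = 1 → ∑ i, ∑' k, a i k * evp ((cl i).hpol (Y i) k) y = 0) :
    ∀ i k, a i k = 0 :=
  ind_series cl Y hI a hε (fun _ => C) ha h0

theorem hfun_indep {ι : Type} [Fintype ι] [DecidableEq ι] (cl : ι → Cl r (N + 3)) (κ : ι → Type)
    [∀ i, Fintype (κ i)] (Y : ∀ i, κ i → MvPolynomial (Fin (N + 3)) ℝ)
    (hY : ∀ i a, YOk (cl i).j (Y i a)) (hI : YInd r fun p : Σ i, κ i => Y p.1 p.2)
    (M : ι → ℕ) (good : ∀ i, Finset (Fin (M i))) (c : ∀ i, Fin (M i) → (cl i).J → ℝ → ℝ) (β : ℝ → ℝ)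
    {t₁ C ε : ℝ} (hε : 0 < ε)
    (hc : ∀ i, ∀ a ∈ good i, ∀ k, |c i a k t₁| ≤ C * Real.exp (-(ε * (cl i).deg k)))
    (hi : ∀ i (v : Fin (M i) → ℝ), (∀ k, ∑ a ∈ good i, v a * c i a k t₁ = 0) → ∀ a ∈ good i, v a = 0) :
    LinearIndependent ℝ fun p : Σ i, κ i × good i =>
      hfun β (c p.1 p.2.2) ((cl p.1).hpol (Y p.1 p.2.1)) := by
  refine Fintype.linearIndependent_iff.2 fun g hg => ?_
  have key := ind_series (fun p : Σ i, κ i => cl p.1) (fun p => Y p.1 p.2) hI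
    (fun p k => ∑ a : good p.1, g ⟨p.1, p.2, a⟩ * c p.1 a k t₁) hε
    (fun p => ∑ a : good p.1, |g ⟨p.1, p.2, a⟩| * C) (fun p k => ?_) fun y hy => ?_
  · rintro ⟨i, x, a⟩
    have h := hi i (fun a => if h : a ∈ good i then g ⟨i, x, a, h⟩ else 0) (fun k => ?_) a a.2
    · simpa using h
    · rw [← Finset.sum_coe_sort, ← key ⟨i, x⟩ k]
      exact Finset.sum_congr rfl fun a _ => by simp
  · rw [Finset.sum_mul]
    refine (Finset.abs_sum_le_sum_abs _ _).trans (Finset.sum_le_sum fun a _ => ?_)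
    rw [abs_mul, mul_assoc]
    exact mul_le_mul_of_nonneg_left (hc _ a a.2 k) (abs_nonneg _)
  · have h1 : ‖Real.exp t₁ • y‖ = Real.exp t₁ := by
      rw [norm_smul, hy, mul_one, Real.norm_of_nonneg (Real.exp_pos _).le]
    have h2 : hat (Real.exp t₁ • y) = y := by
      rw [hat, h1, smul_smul, inv_mul_cancel₀ (Real.exp_pos _).ne', one_smul]
    have h3 := congrFun hg (Real.exp t₁ • y)
    simp only [Finset.sum_apply, Pi.smul_apply, smul_eq_mul, hfun, h1, h2, Real.log_exp,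
      Pi.zero_apply, mul_assoc, tsum_mul_left, mul_left_comm (g _), ← Finset.mul_sum] at h3
    rw [← (mul_eq_zero.1 h3).resolve_left (Real.rpow_pos_of_pos (hm_FF_pos β t₁) _).ne',
      Fintype.sum_sigma, Fintype.sum_sigma]
    refine Finset.sum_congr rfl fun i _ => ?_
    rw [Fintype.sum_prod_type]
    refine Finset.sum_congr rfl fun x _ => ?_
    obtain ⟨D, p, hD⟩ := (cl i).hpol_bound (hY i x)
    simp only [Finset.sum_mul, mul_assoc]
    rw [Summable.tsum_finsetSum fun a _ => Summable.mul_left _ ?_]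
    · simp only [tsum_mul_left]
    refine Summable.of_norm_bounded (((cl i).base.summable_poly_exp p hε).mul_left (C * D))
      fun k => ?_
    rw [Real.norm_eq_abs, abs_mul]
    exact (mul_le_mul (hc i a a.2 k) (hD k y hy) (abs_nonneg _)
      ((abs_nonneg _).trans (hc i a a.2 k))).trans_eq (by simp only [Cl.base]; ring)

end Crest.Agent.R202
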