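import Crest.Agent.R202.GBasic

/-!
# The Ricci tensor as a function of the 2-jet (task G1)

`pderiv` of the inverse matrix: differentiate `g⁻¹ g = 1` (entries of `g⁻¹` are smooth: `Matrix.inv_def`, `det`, `adjugate`).
Symmetry: `∑ₖ Γᵏₖᵢ = ½ tr (g⁻¹ ∂ᵢ g)`.  The conformally flat jets are those of `φ² · 1` scaled by the radius:
`R ∂ₘ log φ = (β-1) yₘ =: aₘ`, `R² ∂ₘ∂ₗ log φ = β' yₘ yₗ + (β-1)(δₘₗ - 2 yₘ yₗ) =: hₘₗ`; `Γᵏᵢⱼ = δᵏᵢ aⱼ + δᵏⱼ aᵢ - δᵢⱼ aₖ` and
`Ric = -(n-2)(h - a aᵀ) - (tr h + (n-2)|a|²) 1`.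
-/

set_option autoImplicit false

noncomputable section

open scoped InnerProductSpace ContDiff
open Set Filter Topology
open Crest.GeometryTopology.CoordMetric Crest.GeometryTopology.ChartCurvature Matrix

namespace Crest.Agent.R202

variable {n : ℕ}

theorem jet_cd_det {X : Type} [NormedAddCommGroup X] [NormedSpace ℝ X]
    {M : X → Matrix (Fin n) (Fin n) ℝ} (h : ∀ i j, ContDiff ℝ ∞ fun x => M x i j) :
    ContDiff ℝ ∞ fun x => (M x).det := by
  simp only [Matrix.det_apply']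
  exact ContDiff.sum fun σ _ => contDiff_const.mul (contDiff_prod fun i _ => h _ _)

theorem jet_cd {g : MetricField n} (hg : IsRiemannianOn g univ) (i j : Fin n) :
    ContDiff ℝ ∞ fun x => g x i j := contDiffOn_univ.1 (hg.contDiffOn i j)

theorem jet_det_ne {g : MetricField n} (hg : IsRiemannianOn g univ) (x : Vec n) : (g x).det ≠ 0 :=
  (hg.posDef x trivial).det_pos.ne'

theorem jet_symm {g : MetricField n} (hg : IsRiemannianOn g univ) (x : Vec n) (i j : Fin n) :
    g x i j = g x j i := by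
  simpa using (hg.posDef x trivial).isHermitian.apply j i

theorem jet_cd_pd {f : Vec n → ℝ} (hf : ContDiff ℝ ∞ f) (i : Fin n) :
    ContDiff ℝ ∞ (pderiv i f) :=
  (hf.fderiv_right (m := ∞) (by simp)).clm_apply contDiff_const

theorem jet_da {f : Vec n → ℝ} (hf : ContDiff ℝ ∞ f) (x : Vec n) : DifferentiableAt ℝ f x :=
  hf.differentiable (by simp) x

theorem jet_pd_add {f f' : Vec n → ℝ} {x : Vec n} (hf : DifferentiableAt ℝ f x)
    (hf' : DifferentiableAt ℝ f' x) (m : Fin n) :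
    pderiv m (fun y => f y + f' y) x = pderiv m f x + pderiv m f' x := by
  simp only [pderiv, fderiv_fun_add hf hf', _root_.add_apply]

theorem jet_pd_sub {f f' : Vec n → ℝ} {x : Vec n} (hf : DifferentiableAt ℝ f x)
    (hf' : DifferentiableAt ℝ f' x) (m : Fin n) :
    pderiv m (fun y => f y - f' y) x = pderiv m f x - pderiv m f' x := by
  simp only [pderiv, fderiv_fun_sub hf hf', _root_.sub_apply]

theorem jet_pd_mul {f f' : Vec n → ℝ} {x : Vec n} (hf : DifferentiableAt ℝ f x)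
    (hf' : DifferentiableAt ℝ f' x) (m : Fin n) :
    pderiv m (fun y => f y * f' y) x = pderiv m f x * f' x + f x * pderiv m f' x := by
  simp only [pderiv, fderiv_fun_mul hf hf', _root_.add_apply,
    _root_.smul_apply, smul_eq_mul]
  ring

theorem jet_pd_const (c : ℝ) (x : Vec n) (m : Fin n) : pderiv m (fun _ => c) x = 0 := by
  simp [pderiv]

theorem jet_pd_const_mul {f : Vec n → ℝ} {x : Vec n} (hf : DifferentiableAt ℝ f x) (c : ℝ)
    (m : Fin n) : pderiv m (fun y => c * f y) x = c * pderiv m f x := by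
  rw [jet_pd_mul (differentiableAt_const c) hf, jet_pd_const, zero_mul, zero_add]

theorem jet_pd_sum {ι : Type} {s : Finset ι} {f : ι → Vec n → ℝ} {x : Vec n}
    (hf : ∀ l ∈ s, DifferentiableAt ℝ (f l) x) (m : Fin n) :
    pderiv m (fun y => ∑ l ∈ s, f l y) x = ∑ l ∈ s, pderiv m (f l) x := by
  simp only [pderiv, fderiv_fun_sum hf, _root_.sum_apply]

theorem jet_pd_comm {f : Vec n → ℝ} (hf : ContDiff ℝ ∞ f) (x : Vec n) (m l : Fin n) :
    pderiv m (pderiv l f) x = pderiv l (pderiv m f) x := by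
  have h1 : DifferentiableAt ℝ (fderiv ℝ f) x :=
    (hf.fderiv_right (m := ∞) (by simp)).differentiable (by simp) x
  have h2 : ∀ a b : Fin n, pderiv a (pderiv b f) x =
      fderiv ℝ (fderiv ℝ f) x (EuclideanSpace.single a 1) (EuclideanSpace.single b 1) := by
    intro a b
    change fderiv ℝ (fun y => fderiv ℝ f y (EuclideanSpace.single b 1)) x _ = _
    rw [fderiv_clm_apply h1 (differentiableAt_const _)]
    simp
  rw [h2, h2]
  exact (hf.contDiffAt.isSymmSndFDerivAt (by simp only [minSmoothness_of_isRCLikeNormedField]; exact WithTop.coe_le_coe.2 le_top)).eq _ _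

theorem contDiff_inv_entry {g : MetricField n} (hg : IsRiemannianOn g univ) (i j : Fin n) :
    ContDiff ℝ ∞ fun x => (g x)⁻¹ i j := by
  simp only [Matrix.inv_def, Ring.inverse_eq_inv', Matrix.smul_apply, smul_eq_mul,
    Matrix.adjugate_apply]
  refine ((jet_cd_det (jet_cd hg)).inv (jet_det_ne hg)).mul (jet_cd_det fun a b => ?_)
  simp only [Matrix.updateRow_apply]
  split_ifs
  · exact contDiff_const
  · exact jet_cd hg a b

theorem contDiff_christoffel {g : MetricField n} (hg : IsRiemannianOn g univ) (k i j : Fin n) :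
    ContDiff ℝ ∞ fun x => christoffel g x k i j := by
  unfold christoffel
  exact contDiff_const.mul (ContDiff.sum fun l _ => (contDiff_inv_entry hg k l).mul
    (((jet_cd_pd (jet_cd hg j l) i).add (jet_cd_pd (jet_cd hg i l) j)).sub
      (jet_cd_pd (jet_cd hg i j) l)))

theorem christoffel_eq_jet (g : MetricField n) (x : Vec n) (k i j : Fin n) :
    christoffel g x k i j = chrJet (g x) (jet₁ g x) k i j := by
  rfl

theorem christoffel_symm {g : MetricField n} (hg : IsRiemannianOn g univ) (x : Vec n)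
    (k i j : Fin n) : christoffel g x k i j = christoffel g x k j i := by
  unfold christoffel
  simp only [jet_symm hg _ i j, add_comm]

theorem jet_pd_inv {g : MetricField n} (hg : IsRiemannianOn g univ) (x : Vec n) (m k l : Fin n) :
    pderiv m (fun y => (g y)⁻¹ k l) x = -((g x)⁻¹ * jet₁ g x m * (g x)⁻¹) k l := by
  have hu : ∀ y, IsUnit (g y).det := fun y => (jet_det_ne hg y).isUnit
  have h : (Matrix.of fun k l => pderiv m (fun y => (g y)⁻¹ k l) x) * g x +
      (g x)⁻¹ * jet₁ g x m = 0 := by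
    ext a b
    have h1 : (fun y => ∑ c, (g y)⁻¹ a c * g y c b) = fun _ => (1 : Matrix (Fin n) (Fin n) ℝ) a b :=
      funext fun y => by rw [← Matrix.mul_apply, Matrix.nonsing_inv_mul _ (hu y)]
    have h2 := congrArg (fun f => pderiv m f x) h1
    simp only [jet_pd_const] at h2
    rw [jet_pd_sum fun c _ =>
      (jet_da (contDiff_inv_entry hg a c) x).fun_mul (jet_da (jet_cd hg c b) x)] at h2
    simp only [Matrix.add_apply, Matrix.mul_apply, Matrix.of_apply, jet₁, Matrix.zero_apply,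
      ← Finset.sum_add_distrib]
    rw [← h2]
    exact Finset.sum_congr rfl fun c _ =>
      (jet_pd_mul (jet_da (contDiff_inv_entry hg a c) x) (jet_da (jet_cd hg c b) x) m).symm
  have h' := congrArg (· * (g x)⁻¹) h
  simp only [Matrix.add_mul, Matrix.zero_mul, Matrix.mul_nonsing_inv_cancel_right _ _ (hu x)] at h'
  exact congrFun (congrFun (eq_neg_of_add_eq_zero_left h') k) l

theorem pderiv_christoffel {g : MetricField n} (hg : IsRiemannianOn g univ) (x : Vec n)
    (m k i j : Fin n) : pderiv m (fun y => christoffel g y k i j) x =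
      dchrJet (g x) (jet₁ g x) (jet₂ g x) m k i j := by
  have h1 := fun a b => jet_da (contDiff_inv_entry hg a b) x
  have h2 := fun a b c => jet_da (jet_cd_pd (jet_cd hg b c) a) x
  unfold christoffel dchrJet inverseField
  rw [jet_pd_const_mul (DifferentiableAt.fun_sum fun l _ =>
      (h1 k l).fun_mul (((h2 i j l).fun_add (h2 j i l)).fun_sub (h2 l i j))),
    jet_pd_sum fun l _ => (h1 k l).fun_mul (((h2 i j l).fun_add (h2 j i l)).fun_sub (h2 l i j))]
  congr 1
  refine Finset.sum_congr rfl fun l _ => ?_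
  rw [jet_pd_mul (h1 k l) (((h2 i j l).fun_add (h2 j i l)).fun_sub (h2 l i j)),
    jet_pd_sub ((h2 i j l).fun_add (h2 j i l)) (h2 l i j), jet_pd_add (h2 i j l) (h2 j i l),
    jet_pd_inv hg]
  rfl

theorem ricci_eq_jet {g : MetricField n} (hg : IsRiemannianOn g univ) (x : Vec n) (i j : Fin n) :
    ricci g x i j = ricJet (g x) (jet₁ g x) (jet₂ g x) i j := by
  unfold ricci ricJet
  rw [jet_pd_sum fun k _ => jet_da (contDiff_christoffel hg k k i) x]
  simp only [pderiv_christoffel hg]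
  rfl

theorem jet_trace {B : Matrix (Fin n) (Fin n) ℝ} (hB : B.IsSymm)
    {T : Fin n → Matrix (Fin n) (Fin n) ℝ} (hT : ∀ m, (T m).IsSymm) (i : Fin n) :
    ∑ k, ∑ l, B k l * (T k i l + T i k l - T l k i) = (B * T i).trace := by
  have h1 : ∑ k, ∑ l, B k l * T k i l = ∑ k, ∑ l, B k l * T l k i := by
    rw [Finset.sum_comm]
    exact Finset.sum_congr rfl fun k _ => Finset.sum_congr rfl fun l _ => by
      rw [hB.apply k l, (hT l).apply k i]
  simp only [mul_add, mul_sub, Finset.sum_add_distrib, Finset.sum_sub_distrib, h1,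
    add_sub_cancel_left, Matrix.trace, Matrix.diag_apply, Matrix.mul_apply]
  exact Finset.sum_congr rfl fun k _ => Finset.sum_congr rfl fun l _ => by rw [(hT i).apply k l]

theorem jet_dchr_trace {g₀ : Matrix (Fin n) (Fin n) ℝ} (h₀ : g₀.IsSymm)
    {g₁ : Fin n → Matrix (Fin n) (Fin n) ℝ} (h₁ : ∀ m, (g₁ m).IsSymm)
    {g₂ : Fin n → Fin n → Matrix (Fin n) (Fin n) ℝ} (h₂ : ∀ m l, (g₂ m l).IsSymm) (i j : Fin n) :
    ∑ k, dchrJet g₀ g₁ g₂ j k k i =
      (1 / 2) * (-(g₀⁻¹ * g₁ j * (g₀⁻¹ * g₁ i)).trace + (g₀⁻¹ * g₂ j i).trace) := by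
  have hA : g₀⁻¹.IsSymm := by rw [Matrix.IsSymm, Matrix.transpose_nonsing_inv, h₀.eq]
  have hB : (g₀⁻¹ * g₁ j * g₀⁻¹).IsSymm := by
    rw [Matrix.IsSymm, Matrix.transpose_mul, Matrix.transpose_mul, hA.eq, (h₁ j).eq,
      Matrix.mul_assoc]
  unfold dchrJet
  rw [← Finset.mul_sum, ← Matrix.mul_assoc, ← jet_trace hB h₁, ← jet_trace hA (h₂ j)]
  simp only [Finset.sum_add_distrib, neg_mul, Finset.sum_neg_distrib]

theorem ricci_symm {g : MetricField n} (hg : IsRiemannianOn g univ) (x : Vec n) (i j : Fin n) :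
    ricci g x i j = ricci g x j i := by
  have h₀ : (g x).IsSymm := Matrix.IsSymm.ext fun a b => jet_symm hg x b a
  have h₁ : ∀ m, (jet₁ g x m).IsSymm := fun m => Matrix.IsSymm.ext fun a b => by
    simp only [jet₁, Matrix.of_apply, jet_symm hg _ a b]
  have h₂ : ∀ m l, (jet₂ g x m l).IsSymm := fun m l => Matrix.IsSymm.ext fun a b => by
    simp only [jet₂, Matrix.of_apply, jet_symm hg _ a b]
  have h₃ : jet₂ g x i j = jet₂ g x j i := by
    ext a b
    exact jet_pd_comm (jet_cd hg a b) x i j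
  have h₄ : pderiv j (fun y => ∑ k, christoffel g y k k i) x =
      pderiv i (fun y => ∑ k, christoffel g y k k j) x := by
    rw [jet_pd_sum fun k _ => jet_da (contDiff_christoffel hg k k i) x,
      jet_pd_sum fun k _ => jet_da (contDiff_christoffel hg k k j) x]
    simp only [pderiv_christoffel hg]
    rw [jet_dchr_trace h₀ h₁ h₂, jet_dchr_trace h₀ h₁ h₂, h₃, Matrix.trace_mul_comm]
  have h₅ : ∑ k, ∑ l, christoffel g x k j l * christoffel g x l k i =
      ∑ k, ∑ l, christoffel g x k i l * christoffel g x l k j := by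
    rw [Finset.sum_comm]
    exact Finset.sum_congr rfl fun k _ => Finset.sum_congr rfl fun l _ => by
      rw [mul_comm, christoffel_symm hg x k l i, christoffel_symm hg x l j k]
  unfold ricci
  rw [h₄, h₅]
  simp only [christoffel_symm hg _ _ i j]

theorem jet_inv_smul {c : ℝ} (hc : c ≠ 0) (g₀ : Matrix (Fin n) (Fin n) ℝ) :
    (c • g₀)⁻¹ = c⁻¹ • g₀⁻¹ := by
  by_cases h : IsUnit g₀.det
  · refine Matrix.inv_eq_right_inv ?_
    rw [Matrix.smul_mul, Matrix.mul_smul, smul_smul, mul_inv_cancel₀ hc, one_smul,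
      Matrix.mul_nonsing_inv _ h]
  · rw [Matrix.nonsing_inv_apply_not_isUnit _ h, smul_zero, Matrix.nonsing_inv_apply_not_isUnit]
    rw [Matrix.det_smul]
    exact fun h' => h (isUnit_of_mul_isUnit_right h')

theorem chrJet_smul {c : ℝ} (hc : c ≠ 0) (s : ℝ) (g₀ : Matrix (Fin n) (Fin n) ℝ)
    (g₁ : Fin n → Matrix (Fin n) (Fin n) ℝ) (k i j : Fin n) :
    chrJet (c • g₀) ((c * s) • g₁) k i j = s * chrJet g₀ g₁ k i j := by
  unfold chrJet
  rw [jet_inv_smul hc, mul_left_comm, Finset.mul_sum _ _ s]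
  congr 1
  refine Finset.sum_congr rfl fun l _ => ?_
  simp only [Matrix.smul_apply, Pi.smul_apply, smul_eq_mul]
  field_simp

theorem dchrJet_smul {c : ℝ} (hc : c ≠ 0) (s : ℝ) (g₀ : Matrix (Fin n) (Fin n) ℝ)
    (g₁ : Fin n → Matrix (Fin n) (Fin n) ℝ) (g₂ : Fin n → Fin n → Matrix (Fin n) (Fin n) ℝ)
    (m k i j : Fin n) :
    dchrJet (c • g₀) ((c * s) • g₁) ((c * s ^ 2) • g₂) m k i j =
      s ^ 2 * dchrJet g₀ g₁ g₂ m k i j := by
  unfold dchrJet
  rw [jet_inv_smul hc, mul_left_comm, Finset.mul_sum _ _ (s ^ 2)]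
  congr 1
  refine Finset.sum_congr rfl fun l _ => ?_
  simp only [Matrix.smul_apply, Pi.smul_apply, smul_eq_mul, Matrix.smul_mul, Matrix.mul_smul]
  field_simp

theorem ricJet_smul {c : ℝ} (hc : c ≠ 0) (s : ℝ) (g₀ : Matrix (Fin n) (Fin n) ℝ)
    (g₁ : Fin n → Matrix (Fin n) (Fin n) ℝ) (g₂ : Fin n → Fin n → Matrix (Fin n) (Fin n) ℝ)
    (i j : Fin n) :
    ricJet (c • g₀) ((c * s) • g₁) ((c * s ^ 2) • g₂) i j = s ^ 2 * ricJet g₀ g₁ g₂ i j := by
  unfold ricJet
  simp only [chrJet_smul hc, dchrJet_smul hc, mul_sub, mul_add, Finset.mul_sum]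
  congr 1
  · congr 1
    exact Finset.sum_congr rfl fun k _ => Finset.sum_congr rfl fun l _ => by ring
  · exact Finset.sum_congr rfl fun k _ => Finset.sum_congr rfl fun l _ => by ring

theorem continuousOn_ricJet (i j : Fin n) :
    ContinuousOn (fun p : Matrix (Fin n) (Fin n) ℝ × (Fin n → Matrix (Fin n) (Fin n) ℝ) ×
      (Fin n → Fin n → Matrix (Fin n) (Fin n) ℝ) => ricJet p.1 p.2.1 p.2.2 i j)
      {p | p.1.det ≠ 0} := by
  intro p hp
  refine ContinuousAt.continuousWithinAt ?_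
  have h1 : ContinuousAt (fun A : Matrix (Fin n) (Fin n) ℝ => A⁻¹) p.1 :=
    continuousAt_matrix_inv _ (by
      rw [Ring.inverse_eq_inv']
      exact continuousAt_inv₀ hp)
  have h2 : ∀ k l, ContinuousAt (fun p : Matrix (Fin n) (Fin n) ℝ ×
      (Fin n → Matrix (Fin n) (Fin n) ℝ) × (Fin n → Fin n → Matrix (Fin n) (Fin n) ℝ) =>
        p.1⁻¹ k l) p := fun k l =>
    ((continuous_apply_apply k l).continuousAt.comp h1).comp continuousAt_fst
  have h3 : ∀ a k l, ContinuousAt (fun p : Matrix (Fin n) (Fin n) ℝ ×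
      (Fin n → Matrix (Fin n) (Fin n) ℝ) × (Fin n → Fin n → Matrix (Fin n) (Fin n) ℝ) =>
        p.2.1 a k l) p := fun a k l => by fun_prop
  have h4 : ∀ a b k l, ContinuousAt (fun p : Matrix (Fin n) (Fin n) ℝ ×
      (Fin n → Matrix (Fin n) (Fin n) ℝ) × (Fin n → Fin n → Matrix (Fin n) (Fin n) ℝ) =>
        p.2.2 a b k l) p := fun a b k l => by fun_prop
  have h5 : ∀ k a b, ContinuousAt (fun p : Matrix (Fin n) (Fin n) ℝ ×
      (Fin n → Matrix (Fin n) (Fin n) ℝ) × (Fin n → Fin n → Matrix (Fin n) (Fin n) ℝ) =>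
        chrJet p.1 p.2.1 k a b) p := fun k a b =>
    continuousAt_const.mul (tendsto_finsetSum _ fun l _ =>
      (h2 k l).mul (((h3 _ _ _).add (h3 _ _ _)).sub (h3 _ _ _)))
  have h6 : ∀ m k a b, ContinuousAt (fun p : Matrix (Fin n) (Fin n) ℝ ×
      (Fin n → Matrix (Fin n) (Fin n) ℝ) × (Fin n → Fin n → Matrix (Fin n) (Fin n) ℝ) =>
        dchrJet p.1 p.2.1 p.2.2 m k a b) p := fun m k a b => by
    simp only [dchrJet, Matrix.mul_apply]
    exact continuousAt_const.mul (tendsto_finsetSum _ fun l _ =>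
      (((ContinuousAt.neg (tendsto_finsetSum _ fun c _ => ContinuousAt.mul
        (tendsto_finsetSum _ fun d _ => (h2 _ _).mul (h3 _ _ _)) (h2 _ _))).mul
        (((h3 _ _ _).add (h3 _ _ _)).sub (h3 _ _ _))).add
        ((h2 k l).mul (((h4 _ _ _ _).add (h4 _ _ _ _)).sub (h4 _ _ _ _)))))
  exact (((ContinuousAt.sub (tendsto_finsetSum _ fun k _ => h6 _ _ _ _)
    (tendsto_finsetSum _ fun k _ => h6 _ _ _ _)).add (tendsto_finsetSum _ fun k _ =>
      tendsto_finsetSum _ fun l _ => (h5 _ _ _).mul (h5 _ _ _))).sub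
    (tendsto_finsetSum _ fun k _ => tendsto_finsetSum _ fun l _ => (h5 _ _ _).mul (h5 _ _ _)))

theorem chrJet_conf (a : Fin n → ℝ) (k i j : Fin n) :
    chrJet 1 (fun m => (2 * a m) • (1 : Matrix (Fin n) (Fin n) ℝ)) k i j =
      (if k = j then a i else 0) + (if k = i then a j else 0) - if i = j then a k else 0 := by
  simp only [chrJet, inv_one, Matrix.smul_apply, Matrix.one_apply, smul_eq_mul, ite_mul, one_mul,
    zero_mul, Finset.sum_ite_eq, Finset.mem_univ, if_true, mul_ite, mul_one, mul_zero,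
    @eq_comm _ j k, @eq_comm _ i k]
  split_ifs <;> ring

theorem dchrJet_conf (a : Fin n → ℝ) (h : Fin n → Fin n → ℝ) (m k i j : Fin n) :
    dchrJet 1 (fun m => (2 * a m) • (1 : Matrix (Fin n) (Fin n) ℝ))
      (fun m l => (2 * h m l + 4 * a m * a l) • (1 : Matrix (Fin n) (Fin n) ℝ)) m k i j =
      (if k = j then h m i else 0) + (if k = i then h m j else 0) - if i = j then h m k else 0 := by
  simp only [dchrJet, inv_one, Matrix.smul_apply, Matrix.one_apply,
    smul_eq_mul, ite_mul, one_mul, zero_mul, Finset.sum_ite_eq, Finset.mem_univ, if_true, mul_ite,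
    mul_one, mul_zero, neg_ite, neg_zero, Finset.sum_add_distrib, @eq_comm _ j k, @eq_comm _ i k]
  split_ifs <;> ring

theorem ricJet_conf (a : Fin n → ℝ) (h : Fin n → Fin n → ℝ) (hh : ∀ m l, h m l = h l m) (i j : Fin n) :
    ricJet 1 (fun m => (2 * a m) • (1 : Matrix (Fin n) (Fin n) ℝ))
      (fun m l => (2 * h m l + 4 * a m * a l) • (1 : Matrix (Fin n) (Fin n) ℝ)) i j =
      -((n : ℝ) - 2) * (h i j - a i * a j) -
        (if i = j then ∑ m, h m m + ((n : ℝ) - 2) * ∑ m, a m ^ 2 else 0) := by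
  unfold ricJet
  simp only [chrJet_conf, dchrJet_conf]
  by_cases hij : i = j
  · subst hij
    simp [mul_add, add_mul, sub_mul, mul_sub, Finset.sum_add_distrib, Finset.sum_sub_distrib,
      ite_mul, mul_ite, sq]
    ring
  · simp [mul_add, add_mul, sub_mul, mul_sub, Finset.sum_add_distrib, Finset.sum_sub_distrib,
      ite_mul, mul_ite, hij, Ne.symm hij, hh j i]
    ring

end Crest.Agent.R202
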