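import Crest.Agent.R202.GBasic

/-!
# The Laplacian of a separated function (task G8a)

`√det g = φⁿ`, `g⁻¹ = φ⁻² G⁻¹`, `G⁻¹ x = x`.  With `P̂ = P ∘ hat`: `∂ⱼ f = a' xⱼ/R² P̂ + a ∂ⱼP̂`, `x·∂P̂ = 0`; the field
`Vⁱ(ζ, x) = 𝒢 ζ (hat x)⁻¹ᵢⱼ ∂ⱼP̂` is tangential for every `ζ` (so the `z'` term of its divergence vanishes) and homogeneous of degree `-1` in `x`.
-/

set_option autoImplicit false

noncomputable section

open scoped InnerProductSpace ContDiff
open Set Filter Topology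
open Crest.GeometryTopology.CoordMetric Crest.GeometryTopology.ChartCurvature Matrix

namespace Crest.Agent.R202

section
variable {n : ℕ}

theorem ls_fderiv_eq (f : Vec n → ℝ) (x v : Vec n) : fderiv ℝ f x v = ∑ j, v j * pderiv j f x := by
  conv_lhs => rw [← (EuclideanSpace.basisFun (Fin n) ℝ).sum_repr v]
  simp [pderiv]

theorem ls_hat_smul {s : ℝ} (hs : 0 < s) (y : Vec n) : hat (s • y) = hat y := by
  unfold hat
  rw [norm_smul, Real.norm_of_nonneg hs.le, smul_smul, mul_inv]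
  congr 1
  field_simp

theorem ls_homog {f : Vec n → ℝ} {s c : ℝ} (hs : s ≠ 0) (h : ∀ y, f (s • y) = c * f y) (j : Fin n)
    (y : Vec n) : pderiv j f (s • y) = c / s * pderiv j f y := by
  have h1 := fderiv_comp_smul (𝕜 := ℝ) (f := f) (x := y) s
  rw [show (fun y => f (s • y)) = c • f from funext h, fderiv_const_smul_field] at h1
  have h2 := congrArg (fun L : Vec n →L[ℝ] ℝ => L (EuclideanSpace.single j 1)) h1
  simp only [Pi.smul_apply, _root_.smul_apply, smul_eq_mul] at h2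
  unfold pderiv
  field_simp
  linarith

theorem ls_radial {f : Vec n → ℝ} {x : Vec n} (hf : DifferentiableAt ℝ f x)
    (h : ∀ s : ℝ, 0 < s → f (s • x) = f x) : ∑ j, x j * pderiv j f x = 0 := by
  rw [← ls_fderiv_eq]
  have h1 : HasDerivAt (fun s : ℝ => s • x) x 1 := by simpa using (hasDerivAt_id (1 : ℝ)).smul_const x
  have h2 := HasFDerivAt.comp_hasDerivAt_of_eq (1 : ℝ) hf.hasFDerivAt h1 (one_smul _ _).symm
  refine h2.unique ((hasDerivAt_const (1 : ℝ) (f x)).congr_of_eventuallyEq ?_)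
  filter_upwards [lt_mem_nhds (zero_lt_one' ℝ)] with s hs
  exact h s hs

theorem ls_log {x : Vec n} (hx : x ≠ 0) :
    HasFDerivAt (fun y : Vec n => Real.log ‖y‖) ((‖x‖ ^ 2)⁻¹ • innerSL ℝ x) x := by
  have h0 : ‖x‖ ^ 2 ≠ 0 := pow_ne_zero _ (norm_ne_zero_iff.2 hx)
  have h1 := (((hasStrictFDerivAt_norm_sq x).hasFDerivAt).log h0).const_mul (1 / 2 : ℝ)
  have e : (fun y : Vec n => Real.log ‖y‖) = fun y => 1 / 2 * Real.log (‖y‖ ^ 2) := by
    funext y; rw [Real.log_pow]; push_cast; ring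
  rw [e]
  refine h1.congr_fderiv ?_
  ext v
  simp
  ring

theorem ls_chain {H : ℝ × Vec n → ℝ} {x : Vec n} (hx : x ≠ 0)
    (hH : DifferentiableAt ℝ H (Real.log ‖x‖, x)) (i : Fin n) :
    pderiv i (fun y => H (Real.log ‖y‖, y)) x =
      deriv (fun t => H (t, x)) (Real.log ‖x‖) * x i / ‖x‖ ^ 2 +
        pderiv i (fun y => H (Real.log ‖x‖, y)) x := by
  have h1 := HasFDerivAt.comp (f := fun y => (Real.log ‖y‖, id y)) x hH.hasFDerivAt
    ((ls_log hx).prodMk (hasFDerivAt_id x))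
  have h2 := HasFDerivAt.comp (f := fun y => (Real.log ‖x‖, id y)) x hH.hasFDerivAt
    ((hasFDerivAt_const (Real.log ‖x‖) x).prodMk (hasFDerivAt_id x))
  have h3 := HasFDerivAt.comp_hasDerivAt (f := fun t => (id t, x)) (Real.log ‖x‖) hH.hasFDerivAt
    ((hasDerivAt_id (Real.log ‖x‖)).prodMk (hasDerivAt_const _ x))
  unfold pderiv
  rw [show (fun y => H (Real.log ‖y‖, y)) = H ∘ fun y => (Real.log ‖y‖, id y) from rfl, h1.fderiv,
    show (fun y => H (Real.log ‖x‖, y)) = H ∘ fun y => (Real.log ‖x‖, id y) from rfl, h2.fderiv,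
    show (fun t => H (t, x)) = H ∘ fun t => (id t, x) from rfl, h3.deriv]
  generalize fderiv ℝ H (Real.log ‖x‖, x) = L
  have : ((‖x‖ ^ 2)⁻¹ * x i, EuclideanSpace.single i (1 : ℝ)) =
      ((‖x‖ ^ 2)⁻¹ * x i) • ((1 : ℝ), (0 : Vec n)) + (0, EuclideanSpace.single i (1 : ℝ)) := by simp
  simp [EuclideanSpace.inner_single_right, this, -Prod.smul_mk, -Prod.mk_add_mk]
  ring

theorem ls_contDiffAt_det {X : Type} [NormedAddCommGroup X] [NormedSpace ℝ X]
    {A : X → Matrix (Fin n) (Fin n) ℝ} {p : X} (h : ∀ i j, ContDiffAt ℝ ∞ (fun p => A p i j) p) :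
    ContDiffAt ℝ ∞ (fun p => (A p).det) p := by
  simp only [Matrix.det_apply']
  exact ContDiffAt.sum (fun σ _ => contDiffAt_const.mul (contDiffAt_prod (fun i _ => h _ _)))

theorem ls_contDiffAt_adj {X : Type} [NormedAddCommGroup X] [NormedSpace ℝ X]
    {A : X → Matrix (Fin n) (Fin n) ℝ} {p : X} (h : ∀ i j, ContDiffAt ℝ ∞ (fun p => A p i j) p)
    (i j : Fin n) : ContDiffAt ℝ ∞ (fun p => (A p).adjugate i j) p := by
  simp only [Matrix.adjugate_apply]
  refine ls_contDiffAt_det (fun k l => ?_)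
  simp only [Matrix.updateRow_apply]
  split_ifs
  · exact contDiffAt_const
  · exact h _ _

theorem ls_contDiffAt_pderiv {f : Vec n → ℝ} {x : Vec n} (hf : ContDiffAt ℝ ∞ f x) (j : Fin n) :
    ContDiffAt ℝ ∞ (pderiv j f) x :=
  (hf.fderiv_right (m := ∞) (by simp)).clm_apply contDiffAt_const

theorem ls_inv_mulVec {A : Matrix (Fin n) (Fin n) ℝ} (hd : A.det = 1) {y : Vec n} (hy : y ≠ 0)
    (h : A *ᵥ (hat y).ofLp = (hat y).ofLp) : A⁻¹ *ᵥ y.ofLp = y.ofLp := by
  have h1 : A *ᵥ y.ofLp = y.ofLp := by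
    have h2 : y.ofLp = ‖y‖ • (hat y).ofLp := by
      simp [hat, smul_smul, norm_ne_zero_iff.2 hy]
    rw [h2, Matrix.mulVec_smul, h]
  conv_lhs => rw [← h1]
  rw [Matrix.mulVec_mulVec, Matrix.nonsing_inv_mul _ (by simp [hd]), Matrix.one_mulVec]

end

theorem laplace_sep {n : ℕ} {E : Type} [NormedAddCommGroup E] [NormedSpace ℝ E]
    {𝒢 : E → MetricField n} (h𝒢 : GFam 𝒢) {β : ℝ → ℝ} {b : ℝ} (h : Prof β b) {z : ℝ → E}
    (hz : ContDiff ℝ ∞ z) {a : ℝ → ℝ} (ha : ContDiff ℝ ∞ a) {P : Vec n → ℝ} (hP : ContDiff ℝ ∞ P)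
    {x : Vec n} (hx : x ≠ 0) :
    FF β (Real.log ‖x‖) ^ 2 *
      laplaceBeltrami (met β (coneG 𝒢 z)) (fun x' => a (Real.log ‖x'‖) * P (hat x')) x =
      (deriv (deriv a) (Real.log ‖x‖) +
        ((n : ℝ) - 2) * β (Real.log ‖x‖) * deriv a (Real.log ‖x‖)) * P (hat x) +
      a (Real.log ‖x‖) * angLap (𝒢 (z (Real.log ‖x‖))) P (hat x) := by
  have hβ := h.smooth.continuous
  have hI : ∀ t, HasDerivAt (fun t => ∫ s in (0 : ℝ)..t, β s) (β t) t := fun t =>
    (hβ.integral_hasStrictDerivAt 0 t).hasDerivAt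
  obtain ⟨I, hIdef⟩ : ∃ I : ℝ → ℝ, I = fun t => ∫ s in (0 : ℝ)..t, β s := ⟨_, rfl⟩
  rw [← hIdef] at hI
  have hFF : ∀ t, FF β t = Real.exp (I t) := fun t => by rw [hIdef]; rfl
  obtain ⟨Q, hQ⟩ : ∃ Q : Vec n → ℝ, Q = fun y => P (hat y) := ⟨_, rfl⟩
  have hQs : ∀ y : Vec n, y ≠ 0 → ContDiffAt ℝ ∞ Q y := fun y hy => by
    rw [hQ]; exact hP.contDiffAt.comp y (contDiffAt_hat hy)
  have hQh : ∀ s : ℝ, 0 < s → ∀ y, Q (s • y) = Q y := fun s hs y => by
    simp only [hQ, ls_hat_smul hs]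
  have hQr : ∑ j, x j * pderiv j Q x = 0 :=
    ls_radial ((hQs x hx).differentiableAt (by simp)) (fun s hs => hQh s hs x)
  obtain ⟨V, hV⟩ : ∃ V : Fin n → E → Vec n → ℝ,
      V = fun i ζ y => ∑ j, (𝒢 ζ (hat y))⁻¹ i j * pderiv j Q y := ⟨_, rfl⟩
  obtain ⟨U, hU⟩ : ∃ U : ℝ → ℝ,
      U = fun t => Real.exp (((n : ℝ) - 2) * I t - n * t) * deriv a t := ⟨_, rfl⟩
  obtain ⟨W, hW⟩ : ∃ W : ℝ → ℝ,
      W = fun t => Real.exp (((n : ℝ) - 2) * (I t - t)) * a t := ⟨_, rfl⟩
  have ha1 : ∀ t, HasDerivAt a (deriv a t) t := fun t => (ha.differentiable (by simp) t).hasDerivAt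
  have ha2 : ∀ t, HasDerivAt (deriv a) (deriv (deriv a) t) t := fun t =>
    ((contDiff_infty_iff_deriv.1 ha).2.differentiable (by simp) t).hasDerivAt
  have hU' : ∀ t, HasDerivAt U (Real.exp (((n : ℝ) - 2) * I t - n * t) *
      (deriv (deriv a) t + ((n : ℝ) - 2) * β t * deriv a t) - n * U t) t := fun t => by
    rw [hU]
    refine (((((hI t).const_mul _).fun_sub ((hasDerivAt_id' t).const_mul _)).exp).fun_mul
      (ha2 t)).congr_deriv ?_
    ring
  have hW' : ∀ t, DifferentiableAt ℝ W t := fun t => by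
    rw [hW]
    exact (((((hI t).fun_sub (hasDerivAt_id' t)).const_mul _).exp).fun_mul (ha1 t)).differentiableAt
  have hconf : ∀ y : Vec n, y ≠ 0 → conf β y = Real.exp (I (Real.log ‖y‖) - Real.log ‖y‖) := by
    intro y hy
    have h0 : 0 < ‖y‖ := norm_pos_iff.2 hy
    rw [conf, confR_eq hβ h0, hFF, Real.exp_sub, Real.exp_log h0]
  have hdet : ∀ y : Vec n, y ≠ 0 → √((met β (coneG 𝒢 z) y).det) = conf β y ^ n := by
    intro y hy
    rw [met, Matrix.det_smul, coneG, h𝒢.det _ _ (norm_hat hy), mul_one, Fintype.card_fin,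
      ← pow_mul, mul_comm, pow_mul, Real.sqrt_sq (by rw [hconf y hy]; positivity)]
  have hinv : ∀ y : Vec n, y ≠ 0 → (met β (coneG 𝒢 z) y)⁻¹ =
      (conf β y ^ 2)⁻¹ • (𝒢 (z (Real.log ‖y‖)) (hat y))⁻¹ := by
    intro y hy
    refine Matrix.inv_eq_right_inv ?_
    have h0 : conf β y ^ 2 ≠ 0 := by rw [hconf y hy]; positivity
    rw [met, coneG, Matrix.smul_mul, Matrix.mul_smul, smul_smul, mul_inv_cancel₀ h0, one_smul,
      Matrix.mul_nonsing_inv _ (by simp [h𝒢.det _ _ (norm_hat hy)])]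
  have hGx : ∀ ζ (y : Vec n), y ≠ 0 → ∀ i, ∑ j, (𝒢 ζ (hat y))⁻¹ i j * y j = y i := by
    intro ζ y hy i
    exact congrFun (ls_inv_mulVec (h𝒢.det ζ _ (norm_hat hy)) hy (h𝒢.rad ζ _ (norm_hat hy))) i
  have hfield : ∀ i, (fun y => √((met β (coneG 𝒢 z) y).det) * ∑ j,
      inverseField (met β (coneG 𝒢 z)) y i j *
        pderiv j (fun x' => a (Real.log ‖x'‖) * P (hat x')) y) =ᶠ[𝓝 x]
      fun y => (fun p : ℝ × Vec n => U p.1 * (p.2 i * Q p.2) + W p.1 * V i (z p.1) p.2)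
        (Real.log ‖y‖, y) := by
    intro i
    filter_upwards [isOpen_compl_singleton.mem_nhds hx] with y hy
    have hy0 : y ≠ 0 := hy
    have h0 : 0 < ‖y‖ := norm_pos_iff.2 hy0
    have hd : ∀ j, pderiv j (fun x' => a (Real.log ‖x'‖) * P (hat x')) y =
        deriv a (Real.log ‖y‖) * (‖y‖ ^ 2)⁻¹ * Q y * y j + a (Real.log ‖y‖) * pderiv j Q y := by
      intro j
      have h1 := ((ha1 _).comp_hasFDerivAt y (ls_log hy0)).fun_mul
        ((hQs y hy0).differentiableAt (by simp)).hasFDerivAt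
      have e : (fun x' => a (Real.log ‖x'‖) * P (hat x')) =
          fun x' => (a ∘ fun y : Vec n => Real.log ‖y‖) x' * Q x' := by rw [hQ]; rfl
      unfold pderiv
      rw [e, h1.fderiv]
      simp [EuclideanSpace.inner_single_right]
      ring
    have e1 : conf β y ^ n * (conf β y ^ 2)⁻¹ =
        Real.exp (((n : ℝ) - 2) * (I (Real.log ‖y‖) - Real.log ‖y‖)) := by
      rw [hconf y hy0, ← Real.exp_nat_mul, ← Real.exp_nat_mul, ← Real.exp_neg, ← Real.exp_add]
      congr 1; push_cast; ring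
    have e2 : Real.exp (((n : ℝ) - 2) * I (Real.log ‖y‖) - n * Real.log ‖y‖) =
        Real.exp (((n : ℝ) - 2) * (I (Real.log ‖y‖) - Real.log ‖y‖)) * (‖y‖ ^ 2)⁻¹ := by
      conv_rhs => enter [2]; rw [← Real.exp_log h0, ← Real.exp_nat_mul, ← Real.exp_neg]
      rw [← Real.exp_add]
      congr 1; push_cast; ring
    simp only [inverseField, hdet y hy0, hinv y hy0, hd, Matrix.smul_apply, smul_eq_mul, hU, hW, hV]
    rw [e2, ← e1, ← hGx (z (Real.log ‖y‖)) y hy0 i]
    simp only [Finset.mul_sum, Finset.sum_mul, ← Finset.sum_add_distrib]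
    exact Finset.sum_congr rfl (fun j _ => by ring)
  have hVs : ∀ i, DifferentiableAt ℝ (fun p : ℝ × Vec n => V i (z p.1) p.2) (Real.log ‖x‖, x) := by
    intro i
    rw [hV]
    refine DifferentiableAt.fun_sum (fun j _ => DifferentiableAt.fun_mul ?_ ?_)
    · have h1 : ContDiffAt ℝ ∞ (fun p : ℝ × Vec n => (𝒢 (z p.1) (hat p.2)).adjugate i j)
          (Real.log ‖x‖, x) := ls_contDiffAt_adj (fun k l =>
        (h𝒢.smooth k l).contDiffAt.comp (f := fun p : ℝ × Vec n => (z p.1, hat p.2)) _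
          ((hz.contDiffAt.comp _ contDiffAt_fst).prodMk
            (ContDiffAt.comp (g := hat) _ (contDiffAt_hat hx) contDiffAt_snd))) i j
      refine (h1.differentiableAt (by simp)).congr_of_eventuallyEq ?_
      filter_upwards [continuousAt_snd.preimage_mem_nhds (isOpen_compl_singleton.mem_nhds hx)]
        with p hp
      rw [Matrix.inv_def, h𝒢.det _ _ (norm_hat hp)]
      simp
    · exact DifferentiableAt.comp (g := pderiv j Q) _
        ((ls_contDiffAt_pderiv (hQs x hx) j).differentiableAt (by simp)) differentiableAt_snd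
  have hQd : DifferentiableAt ℝ Q x := (hQs x hx).differentiableAt (by simp)
  have hcoord : ∀ i, HasFDerivAt (fun y : Vec n => y i) (EuclideanSpace.proj (𝕜 := ℝ) i) x :=
    fun i => (EuclideanSpace.proj (𝕜 := ℝ) i).hasFDerivAt
  have hH : ∀ i, DifferentiableAt ℝ
      (fun p : ℝ × Vec n => U p.1 * (p.2 i * Q p.2) + W p.1 * V i (z p.1) p.2) (Real.log ‖x‖, x) :=
    fun i => ((DifferentiableAt.comp (g := U) _ (hU' _).differentiableAt differentiableAt_fst).fun_mul
      ((DifferentiableAt.comp (g := fun y : Vec n => y i) _ (hcoord i).differentiableAt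
        differentiableAt_snd).fun_mul (DifferentiableAt.comp (g := Q) _ hQd
          differentiableAt_snd))).fun_add
      ((DifferentiableAt.comp (g := W) _ (hW' _) differentiableAt_fst).fun_mul (hVs i))
  have h0 : 0 < ‖x‖ := norm_pos_iff.2 hx
  have hxx : ∑ i, x i * x i = ‖x‖ ^ 2 := by
    rw [EuclideanSpace.real_norm_sq_eq]; exact Finset.sum_congr rfl (fun i _ => (pow_two _).symm)
  -- the `t`-derivative
  have s1 : ∑ i, deriv (fun t => U t * (x i * Q x) + W t * V i (z t) x) (Real.log ‖x‖) * x i =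
      deriv U (Real.log ‖x‖) * (‖x‖ ^ 2 * Q x) := by
    have h1 : ∀ i, DifferentiableAt ℝ (fun t => U t * (x i * Q x) + W t * V i (z t) x)
        (Real.log ‖x‖) := fun i =>
      DifferentiableAt.comp (f := fun t => (t, x)) _ (hH i)
        (differentiableAt_id.prodMk (differentiableAt_const _))
    have h2 := HasDerivAt.fun_sum (u := Finset.univ) (fun i _ => (h1 i).hasDerivAt.mul_const (x i))
    have e : (fun t => ∑ i, (U t * (x i * Q x) + W t * V i (z t) x) * x i) =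
        fun t => U t * (‖x‖ ^ 2 * Q x) := by
      funext t
      have h3 : ∑ i, V i (z t) x * x i = 0 := by
        simp only [hV, Finset.sum_mul]
        rw [Finset.sum_comm, ← hQr]
        refine Finset.sum_congr rfl (fun j _ => ?_)
        rw [← hGx (z t) x hx j, Finset.sum_mul]
        refine Finset.sum_congr rfl (fun i _ => ?_)
        rw [(h𝒢.symm (z t) (hat x)).inv.apply i j]
        ring
      calc _ = U t * Q x * ∑ i, x i * x i + W t * ∑ i, V i (z t) x * x i := by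
            simp only [Finset.mul_sum, ← Finset.sum_add_distrib]
            exact Finset.sum_congr rfl (fun i _ => by ring)
        _ = _ := by rw [h3, hxx]; ring
    rw [e] at h2
    exact h2.unique ((hU' _).differentiableAt.hasDerivAt.mul_const _)
  -- the `y`-derivative
  have s2 : ∑ i, pderiv i (fun y => U (Real.log ‖x‖) * (y i * Q y) +
      W (Real.log ‖x‖) * V i (z (Real.log ‖x‖)) y) x = U (Real.log ‖x‖) * (n * Q x) +
      W (Real.log ‖x‖) * ((‖x‖ ^ 2)⁻¹ * angLap (𝒢 (z (Real.log ‖x‖))) P (hat x)) := by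
    have h1 : ∀ i, pderiv i (fun y => U (Real.log ‖x‖) * (y i * Q y) +
        W (Real.log ‖x‖) * V i (z (Real.log ‖x‖)) y) x =
        U (Real.log ‖x‖) * (x i * pderiv i Q x + Q x) + W (Real.log ‖x‖) *
          ((‖x‖ ^ 2)⁻¹ * pderiv i (V i (z (Real.log ‖x‖))) (hat x)) := by
      intro i
      have h2 : DifferentiableAt ℝ (V i (z (Real.log ‖x‖))) x :=
        DifferentiableAt.comp (f := fun y => (Real.log ‖x‖, y)) _ (hVs i)
          ((differentiableAt_const _).prodMk differentiableAt_id)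
      have h3 := ls_homog (f := V i (z (Real.log ‖x‖))) (s := ‖x‖) (c := ‖x‖⁻¹) h0.ne' (fun y => by
        simp only [hV, ls_hat_smul h0, Finset.mul_sum]
        refine Finset.sum_congr rfl (fun j _ => ?_)
        rw [ls_homog (c := 1) h0.ne' (fun y => by rw [hQh _ h0, one_mul])]
        ring) i (hat x)
      rw [show ‖x‖ • hat x = x by simp [hat, smul_smul, h0.ne'],
        show ‖x‖⁻¹ / ‖x‖ = (‖x‖ ^ 2)⁻¹ by field_simp] at h3
      rw [← h3]
      unfold pderiv
      rw [((((hcoord i).fun_mul hQd.hasFDerivAt).const_mul _).fun_add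
        (h2.hasFDerivAt.const_mul _)).fderiv]
      simp
      ring
    simp only [h1, Finset.sum_add_distrib, ← Finset.mul_sum, hQr]
    simp only [angLap, hV, hQ]
    simp
  unfold laplaceBeltrami
  have s3 : ∀ i, pderiv i (fun y => √((met β (coneG 𝒢 z) y).det) * ∑ j,
      inverseField (met β (coneG 𝒢 z)) y i j *
        pderiv j (fun x' => a (Real.log ‖x'‖) * P (hat x')) y) x = _ := fun i =>
    (congrArg (fun L : Vec n →L[ℝ] ℝ => L (EuclideanSpace.single i 1)) (hfield i).fderiv_eq).trans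
      (ls_chain hx (hH i) i)
  simp only [s3, Finset.sum_add_distrib, ← Finset.sum_div, s1, s2]
  rw [(hU' _).deriv, hdet x hx, hconf x hx, hFF, show P (hat x) = Q x by rw [hQ]]
  have e1 : Real.exp (I (Real.log ‖x‖)) ^ 2 * (1 / Real.exp (I (Real.log ‖x‖) - Real.log ‖x‖) ^ n) *
      Real.exp (((n : ℝ) - 2) * I (Real.log ‖x‖) - n * Real.log ‖x‖) = 1 := by
    rw [one_div, ← Real.exp_nat_mul, ← Real.exp_nat_mul, ← Real.exp_neg, ← Real.exp_add,
      ← Real.exp_add, Real.exp_eq_one_iff]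
    push_cast; ring
  have e2 : W (Real.log ‖x‖) * (‖x‖ ^ 2)⁻¹ =
      Real.exp (((n : ℝ) - 2) * I (Real.log ‖x‖) - n * Real.log ‖x‖) * a (Real.log ‖x‖) := by
    rw [hW]
    conv_lhs => enter [2]; rw [← Real.exp_log h0, ← Real.exp_nat_mul, ← Real.exp_neg]
    simp only
    rw [mul_right_comm, ← Real.exp_add]
    congr 2; push_cast; ring
  rw [← mul_assoc (W _), e2, mul_comm (‖x‖ ^ 2), ← mul_assoc _ (Q x),
    mul_div_cancel_right₀ _ (by positivity)]
  linear_combination ((deriv (deriv a) (Real.log ‖x‖) +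
    ((n : ℝ) - 2) * β (Real.log ‖x‖) * deriv a (Real.log ‖x‖)) * Q x +
      a (Real.log ‖x‖) * angLap (𝒢 (z (Real.log ‖x‖))) P (hat x)) * e1

end Crest.Agent.R202
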