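import Mathlib

/-!
# A Goursat-type lemma for products of `sl₂` (task F6a)

`e = !![0,1;0,0]`, `f = !![0,0;1,0]`, `h = !![1,0;0,-1]`.  Each projection of `𝔤` is all of `sl₂` (`X, N', [X,N']` have determinant `4μ(ρ²-m²μ)`; if `μ = 0` use
`e, h` and `N''`).  For `A ∈ sl₂`, `A² = k(A)`, `k = -det`, and `ad³ = 4k ad`.  `k_α(X + tN') = μ_α + 2mμ_α t + ρ_α² t²`, so for `α ≠ β` some `A = X + tN'` has
`k_α ≠ k_β` (and `A_α ≠ 0`).  The elements of `𝔤` vanishing on a set `T ∌ α` form an ideal whose `α`-projection is a non-zero ideal of the simple `sl₂`; applying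
`ad(A)³ - 4k_β ad(A)` adds `β` to `T`.
-/

set_option autoImplicit false

noncomputable section

open scoped InnerProductSpace ContDiff
open Set Filter Topology
open Matrix

namespace Crest.Agent.R202

theorem ls_eta (Z : Matrix (Fin 2) (Fin 2) ℝ) (hZ : Z.trace = 0) :
    Z = !![Z 0 0, Z 0 1; Z 1 0, -Z 0 0] := by
  rw [Matrix.trace_fin_two] at hZ
  have : Z 1 1 = -Z 0 0 := by linarith
  rw [← this]
  exact Matrix.eta_fin_two Z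

/-- simplicity of `sl₂(ℝ)` -/
theorem ls_ideal (J : Submodule ℝ (Matrix (Fin 2) (Fin 2) ℝ))
    (hJ : ∀ Y : Matrix (Fin 2) (Fin 2) ℝ, Y.trace = 0 → ∀ W ∈ J, Y * W - W * Y ∈ J)
    (W : Matrix (Fin 2) (Fin 2) ℝ) (hW : W ∈ J) (h0 : W 0 1 ≠ 0)
    (Z : Matrix (Fin 2) (Fin 2) ℝ) (hZ : Z.trace = 0) : Z ∈ J := by
  have tf : (!![0, 0; 1, 0] : Matrix (Fin 2) (Fin 2) ℝ).trace = 0 := by simp [Matrix.trace_fin_two]
  have te : (!![0, 1; 0, 0] : Matrix (Fin 2) (Fin 2) ℝ).trace = 0 := by simp [Matrix.trace_fin_two]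
  have h1 := J.smul_mem (-(2 * W 0 1)⁻¹) (hJ _ tf _ (hJ _ tf _ hW))
  have hf : (!![0, 0; 1, 0] : Matrix (Fin 2) (Fin 2) ℝ) ∈ J := by
    convert h1 using 1
    obtain ⟨a, b, c, d, rfl⟩ : ∃ a b c d, W = !![a, b; c, d] := ⟨_, _, _, _, Matrix.eta_fin_two W⟩
    have hb : b ≠ 0 := h0
    ext i j
    fin_cases i <;> fin_cases j <;> simp <;> field_simp <;> ring
  have hh : (!![1, 0; 0, -1] : Matrix (Fin 2) (Fin 2) ℝ) ∈ J := by
    convert hJ _ te _ hf using 1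
    ext i j
    fin_cases i <;> fin_cases j <;> simp
  have he : (!![0, 1; 0, 0] : Matrix (Fin 2) (Fin 2) ℝ) ∈ J := by
    convert J.smul_mem (-1 / 2) (hJ _ te _ hh) using 1
    ext i j
    fin_cases i <;> fin_cases j <;> simp <;> norm_num
  convert J.add_mem (J.add_mem (J.smul_mem (Z 0 0) hh) (J.smul_mem (Z 0 1) he))
    (J.smul_mem (Z 1 0) hf) using 1
  conv_lhs => rw [ls_eta Z hZ]
  ext i j
  fin_cases i <;> fin_cases j <;> simp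

theorem ls_ad3 (a b c : ℝ) (Y : Matrix (Fin 2) (Fin 2) ℝ) (B : Matrix (Fin 2) (Fin 2) ℝ)
    (hB : B = !![a, b; c, -a]) :
    B * (B * (B * Y - Y * B) - (B * Y - Y * B) * B) - (B * (B * Y - Y * B) - (B * Y - Y * B) * B) * B =
      (4 * (a ^ 2 + b * c)) • (B * Y - Y * B) := by
  subst hB
  rw [Matrix.eta_fin_two Y]
  ext i j
  fin_cases i <;> fin_cases j <;> simp <;> ring

theorem ls_span3 (J : Submodule ℝ (Matrix (Fin 2) (Fin 2) ℝ)) {μ ρ m : ℝ} (hμ : μ ≠ 0)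
    (hρm : ρ ^ 2 ≠ m ^ 2 * μ) (hX : !![0, 1; μ, 0] ∈ J) (hN : !![-ρ, 0; 2 * m * μ, ρ] ∈ J)
    (hB : !![0, 1; μ, 0] * !![-ρ, 0; 2 * m * μ, ρ] - !![-ρ, 0; 2 * m * μ, ρ] * !![0, 1; μ, 0] ∈ J)
    (Z : Matrix (Fin 2) (Fin 2) ℝ) (hZ : Z.trace = 0) : Z ∈ J := by
  obtain ⟨D, hD⟩ : ∃ D, D = ρ ^ 2 - m ^ 2 * μ := ⟨_, rfl⟩
  have hd : D ≠ 0 := hD ▸ sub_ne_zero.2 hρm
  rw [ls_eta Z hZ]
  generalize Z 0 0 = a
  generalize Z 0 1 = b
  generalize Z 1 0 = c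
  -- `Z = p X + q N + r [X, N]`
  convert J.add_mem (J.add_mem
    (J.smul_mem ((ρ ^ 2 * b * μ + ρ ^ 2 * c + 2 * m * μ * ρ * a - 2 * m ^ 2 * μ ^ 2 * b) /
      (2 * μ * D)) hX)
    (J.smul_mem ((m * μ * b - m * c - 2 * ρ * a) / (2 * D)) hN))
    (J.smul_mem ((ρ * (b * μ - c) - 2 * m * μ * a) / (4 * μ * D)) hB) using 1
  ext i j
  fin_cases i <;> fin_cases j <;> simp <;> field_simp <;> (try rw [hD]) <;> ring

theorem ls_span3' (J : Submodule ℝ (Matrix (Fin 2) (Fin 2) ℝ)) {ρ : ℝ} (hρ : ρ ≠ 0)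
    (hX : !![0, 1; 0, 0] ∈ J) (hN : !![-ρ, 0; 0, ρ] ∈ J) {N : Matrix (Fin 2) (Fin 2) ℝ} (hN₂ : N ∈ J)
    (hNt : N.trace = 0) (h₂ : N 1 0 ≠ 0)
    (Z : Matrix (Fin 2) (Fin 2) ℝ) (hZ : Z.trace = 0) : Z ∈ J := by
  convert J.add_mem (J.add_mem (J.smul_mem (Z 0 1 - Z 1 0 / N 1 0 * N 0 1) hX)
    (J.smul_mem ((Z 1 0 / N 1 0 * N 0 0 - Z 0 0) / ρ) hN)) (J.smul_mem (Z 1 0 / N 1 0) hN₂) using 1
  have e1 : Z 1 1 = -Z 0 0 := by rw [Matrix.trace_fin_two] at hZ; linarith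
  have e2 : N 1 1 = -N 0 0 := by rw [Matrix.trace_fin_two] at hNt; linarith
  ext i j
  fin_cases i <;> fin_cases j <;> simp [e1, e2] <;> field_simp <;> ring

theorem lie_full {A : Type} [Fintype A] [DecidableEq A] (𝔤 : Submodule ℝ (A → Matrix (Fin 2) (Fin 2) ℝ))
    (hbr : ∀ x ∈ 𝔤, ∀ y ∈ 𝔤, x * y - y * x ∈ 𝔤) (htr : ∀ x ∈ 𝔤, ∀ α, (x α).trace = 0)
    (μ ρ : A → ℝ) (m : ℝ) (hρ : ∀ α, ρ α ≠ 0) (hρm : ∀ α, ρ α ^ 2 ≠ m ^ 2 * μ α)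
    (hsep : ∀ α β, α ≠ β → μ α ≠ μ β ∨ ρ α ^ 2 ≠ ρ β ^ 2)
    (hX : (fun α => !![0, 1; μ α, 0]) ∈ 𝔤) (hN : (fun α => !![-ρ α, 0; 2 * m * μ α, ρ α]) ∈ 𝔤)
    (N₂ : A → Matrix (Fin 2) (Fin 2) ℝ) (hN₂ : N₂ ∈ 𝔤) (h₂ : ∀ α, μ α = 0 → N₂ α 1 0 ≠ 0)
    (α : A) (Z : Matrix (Fin 2) (Fin 2) ℝ) (hZ : Z.trace = 0) : Pi.single α Z ∈ 𝔤 := by
  have hfull : ∀ γ (Y : Matrix (Fin 2) (Fin 2) ℝ), Y.trace = 0 → ∃ x ∈ 𝔤, x γ = Y := by
    intro γ Y hY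
    have key : Y ∈ 𝔤.map (LinearMap.proj γ) := by
      have h1 : !![0, 1; μ γ, 0] ∈ 𝔤.map (LinearMap.proj γ) := ⟨_, hX, rfl⟩
      have h2 : !![-ρ γ, 0; 2 * m * μ γ, ρ γ] ∈ 𝔤.map (LinearMap.proj γ) := ⟨_, hN, rfl⟩
      by_cases hμ : μ γ = 0
      · rw [hμ] at h1
        rw [hμ, mul_zero] at h2
        exact ls_span3' _ (hρ γ) h1 h2 ⟨_, hN₂, rfl⟩ (htr _ hN₂ γ) (h₂ γ hμ) Y hY
      · exact ls_span3 _ hμ (hρm γ) h1 h2 ⟨_, hbr _ hX _ hN, rfl⟩ Y hY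
    exact key
  have main : ∀ T : Finset A, α ∉ T → ∀ Y : Matrix (Fin 2) (Fin 2) ℝ, Y.trace = 0 →
      ∃ x ∈ 𝔤, x α = Y ∧ ∀ β ∈ T, x β = 0 := by
    intro T
    induction T using Finset.induction_on with
    | empty =>
      intro _ Y hY
      obtain ⟨x, hx, h⟩ := hfull α Y hY
      exact ⟨x, hx, h, fun β hβ => absurd hβ (Finset.notMem_empty β)⟩
    | insert β T hβ ih =>
      intro hα Y hY
      rw [Finset.mem_insert, not_or] at hα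
      obtain ⟨t, ht⟩ : ∃ t : ℝ, (-(t * ρ α)) ^ 2 + 1 * (μ α + t * (2 * m * μ α)) ≠
          (-(t * ρ β)) ^ 2 + 1 * (μ β + t * (2 * m * μ β)) := by
        by_cases hμ : μ α = μ β
        · have := (hsep α β hα.1).resolve_left (not_not.2 hμ)
          refine ⟨1, fun h => this ?_⟩
          rw [hμ] at h
          linarith
        · exact ⟨0, fun h => hμ (by linarith)⟩
      obtain ⟨y, hy, hyα, hyT⟩ := ih hα.2 !![1, 0; 0, -1] (by simp [Matrix.trace_fin_two])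
      obtain ⟨B, hB, hBe⟩ : ∃ B ∈ 𝔤, ∀ γ,
          B γ = !![-(t * ρ γ), 1; μ γ + t * (2 * m * μ γ), -(-(t * ρ γ))] := by
        refine ⟨_, 𝔤.add_mem hX (𝔤.smul_mem t hN), fun γ => ?_⟩
        ext i j
        fin_cases i <;> fin_cases j <;> simp
      let J : Submodule ℝ (Matrix (Fin 2) (Fin 2) ℝ) :=
        (𝔤 ⊓ ⨅ γ ∈ insert β T, LinearMap.ker (LinearMap.proj γ)).map (LinearMap.proj α)
      have hJ : ∀ W, W ∈ J ↔ ∃ x ∈ 𝔤, x α = W ∧ ∀ γ ∈ insert β T, x γ = 0 := by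
        intro W
        simp only [J, Submodule.mem_map, Submodule.mem_inf, Submodule.mem_iInf, LinearMap.mem_ker,
          LinearMap.proj_apply]
        exact ⟨fun ⟨x, ⟨h1, h2⟩, h3⟩ => ⟨x, h1, h3, h2⟩, fun ⟨x, h1, h3, h2⟩ => ⟨x, ⟨h1, h2⟩, h3⟩⟩
      rw [← hJ]
      have hw := 𝔤.sub_mem (hbr _ hB _ (hbr _ hB _ (hbr _ hB _ hy)))
        (𝔤.smul_mem (4 * ((-(t * ρ β)) ^ 2 + 1 * (μ β + t * (2 * m * μ β)))) (hbr _ hB _ hy))
      refine ls_ideal J (fun Y' hY' W hW => ?_) _ ((hJ _).2 ⟨_, hw, rfl, fun γ hγ => ?_⟩) ?_ Y hY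
      · obtain ⟨x, hx, rfl, hxT⟩ := (hJ W).1 hW
        obtain ⟨x', hx', rfl⟩ := hfull α Y' hY'
        exact (hJ _).2 ⟨_, hbr _ hx' _ hx, rfl, fun γ hγ => by simp [hxT γ hγ]⟩
      · rcases Finset.mem_insert.1 hγ with rfl | hγ
        · simp only [Pi.sub_apply, Pi.mul_apply, Pi.smul_apply]
          rw [ls_ad3 _ _ _ _ _ (hBe γ), sub_self]
        · simp [hyT γ hγ]
      · simp only [Pi.sub_apply, Pi.mul_apply, Pi.smul_apply]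
        rw [ls_ad3 _ _ _ _ _ (hBe α), ← sub_smul, hBe α, hyα, ← mul_sub, Matrix.smul_apply, smul_eq_mul]
        refine mul_ne_zero (mul_ne_zero four_ne_zero (sub_ne_zero.2 ht)) ?_
        simp
        norm_num
  obtain ⟨x, hx, h1, h2⟩ := main (Finset.univ.erase α) (Finset.notMem_erase _ _) Z hZ
  convert hx using 1
  funext β
  by_cases hβ : β = α
  · rw [hβ, Pi.single_eq_same, h1]
  · rw [Pi.single_eq_of_ne hβ, h2 β (by simp [hβ])]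

theorem ls_span (u v : Fin 2 → ℂ) (hu : u ≠ 0)
    (h : ∀ Z : Matrix (Fin 2) (Fin 2) ℝ, Z.trace = 0 → (Z.map (↑) *ᵥ u) ⬝ᵥ v = 0) : v = 0 := by
  have he := h !![0, 1; 0, 0] (by simp [Matrix.trace_fin_two])
  have hf := h !![0, 0; 1, 0] (by simp [Matrix.trace_fin_two])
  have hh := h !![1, 0; 0, -1] (by simp [Matrix.trace_fin_two])
  simp only [dotProduct, Matrix.mulVec, Fin.sum_univ_two, Matrix.map_apply, Matrix.of_apply,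
    Matrix.cons_val', Matrix.cons_val_zero, Matrix.cons_val_one, Matrix.cons_val_fin_one,
    Complex.ofReal_zero, Complex.ofReal_one, Complex.ofReal_neg, zero_mul, one_mul, zero_add,
    add_zero, neg_mul] at he hf hh
  have key : v 0 = 0 ∧ v 1 = 0 := by
    by_cases h0 : u 0 = 0
    · have h1 : u 1 ≠ 0 := fun h1 => hu (by ext i; fin_cases i <;> simp [h0, h1])
      rw [h0, zero_mul, zero_add, neg_eq_zero] at hh
      exact ⟨(mul_eq_zero.1 he).resolve_left h1, (mul_eq_zero.1 hh).resolve_left h1⟩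
    · have h1 := (mul_eq_zero.1 hf).resolve_left h0
      rw [h1, mul_zero, neg_zero, add_zero] at hh
      exact ⟨(mul_eq_zero.1 hh).resolve_left h0, h1⟩
  ext i
  fin_cases i
  exacts [key.1, key.2]

/-- a symmetric form all of whose second order "derivatives" vanish at a generic vector is zero -/
theorem form_zero {A : Type} [Fintype A] [DecidableEq A] (Q : A → A → Matrix (Fin 2) (Fin 2) ℂ)
    (hQ : ∀ α β, Q β α = (Q α β)ᵀ) (u : A → Fin 2 → ℂ) (hu : ∀ α, u α ≠ 0)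
    (h₁ : ∀ α (Z : Matrix (Fin 2) (Fin 2) ℝ), Z.trace = 0 →
      ∑ β, (Z.map (↑) *ᵥ u α) ⬝ᵥ (Q α β *ᵥ u β) = 0)
    (h₂ : ∀ α β (Z Z₁ : Matrix (Fin 2) (Fin 2) ℝ), Z.trace = 0 → Z₁.trace = 0 →
      (Z.map (↑) *ᵥ u α) ⬝ᵥ (Q α β *ᵥ (Z₁.map (↑) *ᵥ u β)) +
        (if α = β then ∑ γ, ((Z * Z₁).map (↑) *ᵥ u α) ⬝ᵥ (Q α γ *ᵥ u γ) else 0) = 0) : Q = 0 := by
  have hv : ∀ α, ∑ β, Q α β *ᵥ u β = 0 := fun α =>
    ls_span (u α) _ (hu α) fun Z hZ => by rw [dotProduct_sum]; exact h₁ α Z hZ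
  funext α β
  have h3 : ∀ Z₁ : Matrix (Fin 2) (Fin 2) ℝ, Z₁.trace = 0 → Q α β *ᵥ (Z₁.map (↑) *ᵥ u β) = 0 :=
    fun Z₁ hZ₁ => ls_span (u α) _ (hu α) fun Z hZ => by
      have := h₂ α β Z Z₁ hZ hZ₁
      rwa [← dotProduct_sum, hv, dotProduct_zero, ite_self, add_zero] at this
  ext i j
  exact congrFun (ls_span (u β) (Q α β i) (hu β) fun Z hZ => by
    rw [dotProduct_comm]; exact congrFun (h3 Z hZ) i) j

end Crest.Agent.R202
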