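import Crest.Agent.R202.AlgInd

/-!
# From the vanishing of the quadratic expression to `S = 0` (task F6c)

Gauge: `Ỹ = e^{-iμG} Y`, `P̃ = e^{-iμG} P`, `G' = g` solve the system of `alg_indep` with parameters `(κ i, l i a, μ²)`.  In each block with a non-zero member choose one,
`u`; it never vanishes (ODE uniqueness) and the others are constant multiples `C_{aμ} u` (zero Wronskian).  The Fourier coefficient of `e^{iνφ}` of the hypothesis,
times `e^{-iνG}`, is a quadratic form in the `u`'s with constant coefficients; `alg_indep` and the independence of the functionals `p ∓ μ y` give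
`T = ∑_{a ∈ λ, c ∈ λ'} S_{ac} C_{aμ} C_{cμ'} = 0`; apply `ind` twice.
-/

set_option autoImplicit false

noncomputable section

open scoped InnerProductSpace ContDiff
open Set Filter Topology
open Real

namespace Crest.Agent.R202

theorem li_uniq {a b : ℝ} {A B C : ℝ → ℝ} (hA : ContinuousOn A (Ioo a b))
    (hB : ContinuousOn B (Ioo a b)) (hC : ContinuousOn C (Ioo a b)) {y p : ℝ → ℂ}
    (h : ∀ θ ∈ Ioo a b, HasDerivAt y (A θ * p θ) θ ∧ HasDerivAt p (B θ * p θ + C θ * y θ) θ)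
    {θ0 : ℝ} (h0 : θ0 ∈ Ioo a b) (hy : y θ0 = 0) (hp : p θ0 = 0) :
    ∀ θ ∈ Ioo a b, y θ = 0 ∧ p θ = 0 := by
  intro θ hθ
  obtain ⟨a', ha1, ha2⟩ := exists_between (lt_min hθ.1 h0.1)
  obtain ⟨b', hb1, hb2⟩ := exists_between (max_lt hθ.2 h0.2)
  have hsub : Icc a' b' ⊆ Ioo a b := fun t ht => ⟨ha1.trans_le ht.1, ht.2.trans_lt hb2⟩
  obtain ⟨K, hK⟩ := isCompact_Icc.exists_bound_of_continuousOn
    (((hA.abs.add hB.abs).add hC.abs).mono hsub)
  have key := ODE_solution_unique_of_mem_Ioo (K := K.toNNReal) (a := a') (b := b') (t₀ := θ0)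
    (v := fun t (x : ℂ × ℂ) => ((A t * x.2, B t * x.2 + C t * x.1) : ℂ × ℂ)) (s := fun _ => univ)
    (f := fun t => (y t, p t)) (g := fun _ => (0, 0)) (fun t ht => ?_)
    ⟨ha2.trans_le (min_le_right _ _), (le_max_right _ _).trans_lt hb1⟩
    (fun t ht => ⟨(h t (hsub (Ioo_subset_Icc_self ht))).1.prodMk
      (h t (hsub (Ioo_subset_Icc_self ht))).2, trivial⟩)
    (fun t _ => ⟨(hasDerivAt_const t _).congr_deriv (by ext <;> simp), trivial⟩) (by simp [hy, hp])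
  · have := key ⟨ha2.trans_le (min_le_left _ _), (le_max_left _ _).trans_lt hb1⟩
    exact ⟨congrArg Prod.fst this, congrArg Prod.snd this⟩
  · have h1 : |A t| + |B t| + |C t| ≤ K := (le_abs_self _).trans (hK t (Ioo_subset_Icc_self ht))
    refine (LipschitzWith.of_dist_le_mul fun x z => ?_).lipschitzOnWith
    have a0 := abs_nonneg (A t)
    have b0 := abs_nonneg (B t)
    have c0 := abs_nonneg (C t)
    have d1 : ‖x.1 - z.1‖ ≤ dist x z := by rw [dist_eq_norm]; exact norm_fst_le (x - z)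
    have d2 : ‖x.2 - z.2‖ ≤ dist x z := by rw [dist_eq_norm]; exact norm_snd_le (x - z)
    have d0 := dist_nonneg (x := x) (y := z)
    rw [Real.coe_toNNReal _ (by linarith), Prod.dist_eq, max_le_iff]
    generalize dist x z = r at *
    simp only [dist_eq_norm]
    constructor
    · rw [← mul_sub, norm_mul, Complex.norm_real, Real.norm_eq_abs]
      exact mul_le_mul (by linarith) d2 (norm_nonneg _) (by linarith)
    · rw [show (B t * x.2 + C t * x.1 - (B t * z.2 + C t * z.1) : ℂ) =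
        B t * (x.2 - z.2) + C t * (x.1 - z.1) by ring]
      refine (norm_add_le _ _).trans ?_
      rw [norm_mul, norm_mul, Complex.norm_real, Complex.norm_real, Real.norm_eq_abs,
        Real.norm_eq_abs]
      nlinarith [mul_le_mul_of_nonneg_left d1 c0, mul_le_mul_of_nonneg_left d2 b0]

theorem li_prim {a b : ℝ} {g : ℝ → ℝ} (hab : a < b) (hg : ContinuousOn g (Ioo a b)) :
    ∃ G : ℝ → ℝ, ∀ θ ∈ Ioo a b, HasDerivAt G (g θ) θ := by
  obtain ⟨c, hc⟩ : (Ioo a b).Nonempty := nonempty_Ioo.2 hab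
  refine ⟨fun θ => ∫ s in c..θ, g s, fun θ hθ => ?_⟩
  refine intervalIntegral.integral_hasDerivAt_right ?_
    (hg.stronglyMeasurableAtFilter isOpen_Ioo θ hθ) (hg.continuousAt (isOpen_Ioo.mem_nhds hθ))
  exact (hg.mono (ordConnected_Ioo.uIcc_subset hc hθ)).intervalIntegrable

theorem li_four {T : Type} [Fintype T] (w : T → ℂ) (f : T → ℤ)
    (h : ∀ φ ∈ Ioo 0 (2 * π), ∑ t, w t * Complex.exp (Complex.I * f t * φ) = 0) (ν : ℤ) :
    ∑ t, (if f t = ν then w t else 0) = 0 := by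
  have hπ : (0 : ℝ) ≤ 2 * π := by positivity
  have h1 : ∫ φ in (0 : ℝ)..2 * π, ∑ t, w t * Complex.exp (Complex.I * (f t - ν : ℤ) * φ) = 0 := by
    rw [intervalIntegral.integral_of_le hπ, MeasureTheory.integral_Ioc_eq_integral_Ioo]
    refine MeasureTheory.setIntegral_eq_zero_of_forall_eq_zero fun φ hφ => ?_
    have := congrArg (· * Complex.exp (-(Complex.I * ν * φ))) (h φ hφ)
    simp only [zero_mul, Finset.sum_mul, mul_assoc, ← Complex.exp_add] at this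
    refine Eq.trans (Finset.sum_congr rfl fun t _ => ?_) this
    congr 2
    push_cast
    ring
  rw [intervalIntegral.integral_finsetSum fun t _ => Continuous.intervalIntegrable (by fun_prop) _ _]
    at h1
  have h2 : ∀ k : ℤ, ∫ φ in (0 : ℝ)..2 * π, Complex.exp (Complex.I * k * φ) =
      if k = 0 then ((2 * π : ℝ) : ℂ) else 0 := fun k => by
    split_ifs with hk
    · simp [hk]
    · rw [integral_exp_mul_complex (by simpa using hk)]
      have := Complex.exp_int_mul_two_pi_mul_I k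
      rw [show Complex.I * k * ((2 * π : ℝ) : ℂ) = k * (2 * π * Complex.I) by push_cast; ring, this]
      simp
  simp only [intervalIntegral.integral_const_mul, h2, sub_eq_zero, mul_ite, mul_zero] at h1
  have h3 : (∑ t, if f t = ν then w t else 0) * ((2 * π : ℝ) : ℂ) = 0 := by
    rw [Finset.sum_mul]
    exact (Finset.sum_congr rfl fun t _ => by split_ifs <;> simp).trans h1
  exact (mul_eq_zero.1 h3).resolve_right (by exact_mod_cast (by positivity : (2 * π : ℝ) ≠ 0))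

/-- the gauged system -/
def LiODE (n : ℕ) (k : ℝ × ℝ × ℝ) (ϱ : ℝ → ℝ) (y p : ℝ → ℂ) (θ : ℝ) : Prop :=
  HasDerivAt y ((ϱ θ / sin θ : ℝ) * p θ) θ ∧
    HasDerivAt p ((((n : ℝ) - 3) * tan θ : ℝ) * p θ +
      (sin θ * (k.1 / cos θ ^ 2 - k.2.1) + ϱ θ * k.2.2 / sin θ : ℝ) * y θ) θ

theorem li_uniq' {n : ℕ} {k : ℝ × ℝ × ℝ} {a b : ℝ} (ha : 0 < a) (hb : b < π / 2) {ϱ : ℝ → ℝ}
    (hc : ContinuousOn ϱ (Ioo a b)) {y p : ℝ → ℂ} (h : ∀ θ ∈ Ioo a b, LiODE n k ϱ y p θ)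
    {θ0 : ℝ} (h0 : θ0 ∈ Ioo a b) (hy : y θ0 = 0) (hp : p θ0 = 0) :
    ∀ θ ∈ Ioo a b, y θ = 0 ∧ p θ = 0 := by
  have hs : ∀ θ ∈ Ioo a b, sin θ ≠ 0 := fun θ hθ =>
    (sin_pos_of_pos_of_lt_pi (ha.trans hθ.1) (by linarith [hθ.2, pi_pos])).ne'
  have hco : ∀ θ ∈ Ioo a b, cos θ ≠ 0 := fun θ hθ =>
    (cos_pos_of_mem_Ioo ⟨by linarith [hθ.1, pi_pos], hθ.2.trans hb⟩).ne'
  refine li_uniq (A := fun θ => ϱ θ / sin θ) (B := fun θ => ((n : ℝ) - 3) * tan θ)
    (C := fun θ => sin θ * (k.1 / cos θ ^ 2 - k.2.1) + ϱ θ * k.2.2 / sin θ)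
    (hc.div continuous_sin.continuousOn hs)
    (continuousOn_const.mul (continuousOn_tan.mono hco)) ?_ h h0 hy hp
  exact (continuous_sin.continuousOn.mul ((continuousOn_const.div (by fun_prop)
    fun θ hθ => pow_ne_zero 2 (hco θ hθ)).sub continuousOn_const)).add
    ((hc.mul continuousOn_const).div continuous_sin.continuousOn hs)

theorem LiODE.sub_mul {n : ℕ} {k : ℝ × ℝ × ℝ} {ϱ : ℝ → ℝ} {y p y' p' : ℝ → ℂ} {θ : ℝ}
    (h : LiODE n k ϱ y p θ) (h' : LiODE n k ϱ y' p' θ) (c : ℂ) :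
    LiODE n k ϱ (fun t => y t - c * y' t) (fun t => p t - c * p' t) θ :=
  ⟨(h.1.sub (h'.1.const_mul c)).congr_deriv (by ring),
    (h.2.sub (h'.2.const_mul c)).congr_deriv (by ring)⟩

theorem li_blocks {J : Type} [Fintype J] {n : ℕ} (key : J → ℝ × ℝ × ℝ) {a b : ℝ} (ha : 0 < a)
    (hab : a < b) (hb : b < π / 2) {ϱ : ℝ → ℝ} (hc : ContinuousOn ϱ (Ioo a b)) (y p : J → ℝ → ℂ)
    (hy : ∀ j, ∀ θ ∈ Ioo a b, LiODE n (key j) ϱ (y j) (p j) θ)
    (hw : ∀ j j', key j = key j' → ∀ θ ∈ Ioo a b, y j θ * p j' θ = p j θ * y j' θ) :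
    ∃ (A : Finset J) (c : J → A → ℂ), Function.Injective (fun α : A => key α) ∧
      (∀ α : A, ∀ θ ∈ Ioo a b, y α θ ≠ 0 ∨ p α θ ≠ 0) ∧ (∀ j (α : A), key j ≠ key α → c j α = 0) ∧
      ∀ j, ∀ θ ∈ Ioo a b, ∀ s, ![y j θ, p j θ] s = ∑ α, c j α * ![y α θ, p α θ] s := by
  classical
  obtain ⟨θ0, h0⟩ : (Ioo a b).Nonempty := nonempty_Ioo.2 hab
  obtain ⟨A, hA1, hA2, hA3⟩ := Finset.exists_subset_injOn_image_eq_of_surjOn (f := key)
    {j | y j θ0 ≠ 0 ∨ p j θ0 ≠ 0}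
    ((Finset.univ.filter fun j => y j θ0 ≠ 0 ∨ p j θ0 ≠ 0).image key) (fun k hk => by
      simpa using hk)
  have hex : ∀ j, ∃ c : A → ℂ, (∀ α : A, key j ≠ key α → c α = 0) ∧
      ∀ θ ∈ Ioo a b, ∀ s, ![y j θ, p j θ] s = ∑ α, c α * ![y α θ, p α θ] s := fun j => by
    by_cases hj : y j θ0 ≠ 0 ∨ p j θ0 ≠ 0
    · obtain ⟨α, hα, hk⟩ := Finset.mem_image.1 (hA3 ▸ Finset.mem_image_of_mem key
        (Finset.mem_filter.2 ⟨Finset.mem_univ j, hj⟩) : key j ∈ A.image key)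
      obtain ⟨C, hC1, hC2⟩ : ∃ C : ℂ, y j θ0 - C * y α θ0 = 0 ∧ p j θ0 - C * p α θ0 = 0 := by
        have hw' := hw α j hk θ0 h0
        rcases hA1 hα with h | h
        · refine ⟨y j θ0 / y α θ0, by field_simp; ring, ?_⟩
          field_simp
          linear_combination hw'
        · refine ⟨p j θ0 / p α θ0, ?_, by field_simp; ring⟩
          field_simp
          linear_combination -hw'
      have := li_uniq' ha hb hc (fun θ hθ => (hy j θ hθ).sub_mul (hk ▸ hy α θ hθ) C) h0 hC1 hC2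
      refine ⟨Pi.single ⟨α, hα⟩ C, fun β hβ => Pi.single_eq_of_ne (fun h => hβ ?_) _,
        fun θ hθ s => ?_⟩
      · rw [h, hk]
      · rw [Finset.sum_eq_single ⟨α, hα⟩ (fun β _ hβ => by rw [Pi.single_eq_of_ne hβ, zero_mul])
          (by simp), Pi.single_eq_same]
        obtain ⟨h1, h2⟩ := this θ hθ
        fin_cases s
        · exact sub_eq_zero.1 h1
        · exact sub_eq_zero.1 h2
    · push Not at hj
      refine ⟨0, fun _ _ => rfl, fun θ hθ s => ?_⟩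
      obtain ⟨h1, h2⟩ := li_uniq' ha hb hc (hy j) h0 hj.1 hj.2 θ hθ
      fin_cases s <;> simp [h1, h2]
  choose c hc1 hc2 using hex
  refine ⟨A, c, fun α β h => Subtype.ext (hA2 α.2 β.2 h), fun α θ hθ => ?_, hc1, hc2⟩
  by_contra hcon
  push Not at hcon
  obtain ⟨h1, h2⟩ := li_uniq' ha hb hc (hy α) hθ hcon.1 hcon.2 θ0 h0
  rcases hA1 α.2 with h | h
  exacts [h h1, h h2]

open Matrix in
theorem li_main {ι : Type} [Fintype ι] {X : ι → Type} [∀ i, Fintype (X i)] (n : ℕ) (κ : ι → ℝ)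
    (hκ : Function.Injective κ) (k : ∀ i, X i → ℝ × ℝ) (hlam : ∀ i x, 0 < (k i x).1) {a b : ℝ}
    (ha : 0 < a) (hab : a < b) (hb : b < π / 2) {ϱ : ℝ → ℝ} (hc : ContinuousOn ϱ (Ioo a b))
    (hrough : ∀ a' b', a ≤ a' → a' < b' → b' ≤ b → ¬ContDiffOn ℝ ∞ ϱ (Ioo a' b'))
    (y p : ∀ i, X i → ℝ → ℂ)
    (hy : ∀ i x, ∀ θ ∈ Ioo a b, LiODE n (κ i, k i x) ϱ (y i x) (p i x) θ)
    (hw : ∀ i x x', k i x = k i x' → ∀ θ ∈ Ioo a b, y i x θ * p i x' θ = p i x θ * y i x' θ)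
    (B : ∀ i, X i → X i → Matrix (Fin 2) (Fin 2) ℂ) (hB : ∀ i x x', B i x' x = (B i x x')ᵀ)
    (h0 : ∀ θ ∈ Ioo a b, ∑ i, ∑ x, ∑ x', ∑ s, ∑ t,
      B i x x' s t * (![y i x θ, p i x θ] s * ![y i x' θ, p i x' θ] t) = 0)
    (i : ι) (k1 k2 : ℝ × ℝ) {θ θ' : ℝ} (hθ : θ ∈ Ioo a b) (hθ' : θ' ∈ Ioo a b) (s t s' t' : Fin 2) :
    ∑ x, ∑ x', B i x x' s t * ((if k i x = k1 then ![y i x θ, p i x θ] s' else 0) *
      (if k i x' = k2 then ![y i x' θ', p i x' θ'] t' else 0)) = 0 := by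
  classical
  obtain ⟨A, c, h1, h2, h3, h4⟩ := li_blocks (J := Σ i, X i) (fun j => (κ j.1, k j.1 j.2)) ha hab hb
    hc (fun j => y j.1 j.2) (fun j => p j.1 j.2) (fun j => hy j.1 j.2) (by
      rintro ⟨i, x⟩ ⟨i', x'⟩ h
      obtain rfl : i = i' := hκ (congrArg Prod.fst h)
      exact hw i x x' (congrArg Prod.snd h))
  have expand : ∀ (s t : Fin 2) (u v : A → ℂ),
      ∑ α, ∑ β, (∑ i, ∑ x, ∑ x', (c ⟨i, x⟩ α * c ⟨i, x'⟩ β) • B i x x') s t * (u α * v β) =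
        ∑ i, ∑ x, ∑ x', B i x x' s t * ((∑ α, c ⟨i, x⟩ α * u α) * ∑ β, c ⟨i, x'⟩ β * v β) := by
    intro s t u v
    simp only [Matrix.sum_apply, Matrix.smul_apply, smul_eq_mul, Finset.sum_mul_sum]
    simp only [Finset.sum_mul, Finset.mul_sum]
    iterate 3
      rw [Finset.sum_comm_cycle]
      refine Finset.sum_congr rfl fun _ _ => ?_
    exact Finset.sum_congr rfl fun _ _ => Finset.sum_congr rfl fun _ _ => by ring
  have hQ := alg_indep n (fun α : A => κ α.1.1) (fun α : A => (k _ α.1.2).1)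
    (fun α : A => (k _ α.1.2).2) h1 (fun α => hlam _ _) ha hab hb hc hrough
    (fun α => y _ α.1.2) (fun α => p _ α.1.2) (fun α => hy _ α.1.2) h2
    (fun α β => ∑ i, ∑ x, ∑ x', (c ⟨i, x⟩ α * c ⟨i, x'⟩ β) • B i x x') (fun α β => by
      simp only [Matrix.transpose_sum, Matrix.transpose_smul]
      refine Finset.sum_congr rfl fun i _ => ?_
      rw [Finset.sum_comm]
      exact Finset.sum_congr rfl fun x _ => Finset.sum_congr rfl fun x' _ => by
        rw [hB, mul_comm]) (fun θ hθ => by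
      have e1 : ∀ (Q : Matrix (Fin 2) (Fin 2) ℂ) (u v : Fin 2 → ℂ),
          u ⬝ᵥ (Q *ᵥ v) = ∑ s, ∑ t, Q s t * (u s * v t) := fun Q u v => by
        simp [dotProduct, mulVec]
        ring
      have e2 := fun s t => expand s t (fun α => ![y _ α.1.2 θ, p _ α.1.2 θ] s)
        (fun α => ![y _ α.1.2 θ, p _ α.1.2 θ] t)
      simp only [← h4 _ θ hθ] at e2
      simpa only [e1, Fin.sum_univ_two, Finset.sum_add_distrib, e2] using h0 θ hθ)
  have hu : ∀ (K : ℝ × ℝ × ℝ) (j : Σ i, X i), ∀ θ ∈ Ioo a b, ∀ s,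
      ∑ α : A, c j α * (if (κ α.1.1, k _ α.1.2) = K then ![y _ α.1.2 θ, p _ α.1.2 θ] s else 0) =
        if (κ j.1, k _ j.2) = K then ![y _ j.2 θ, p _ j.2 θ] s else 0 := by
    intro K j θ hθ s
    split_ifs with h
    · rw [h4 j θ hθ s]
      refine Finset.sum_congr rfl fun α _ => ?_
      split_ifs with h'
      · rfl
      · rw [h3 j α (h ▸ Ne.symm h'), zero_mul, zero_mul]
    · refine Finset.sum_eq_zero fun α _ => ?_
      split_ifs with h'
      · rw [h3 j α (h' ▸ h), zero_mul]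
      · exact mul_zero _
  have := expand s t
    (fun α => if (κ α.1.1, k _ α.1.2) = (κ i, k1) then ![y _ α.1.2 θ, p _ α.1.2 θ] s' else 0)
    (fun α => if (κ α.1.1, k _ α.1.2) = (κ i, k2) then ![y _ α.1.2 θ', p _ α.1.2 θ'] t' else 0)
  simp only [hu _ _ _ hθ, hu _ _ _ hθ', fun α β => congrFun (congrFun hQ α) β] at this
  rw [Finset.sum_eq_single i (fun i' _ hi => by simp [hκ.ne hi]) (by simp)] at this
  simpa using this.symm

theorem limit_indep (n : ℕ) {ι : Type} [Fintype ι] [DecidableEq ι] (κ : ι → ℝ)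
    (hκ : Function.Injective κ) (M : ι → ℕ) (m₀ : ℕ) (l : ∀ i, Fin (M i) → ℝ) (hl : ∀ i a, 0 < l i a)
    {a b : ℝ} (ha : 0 < a) (hab : a < b) (hb : b < π / 2) {ϱ g : ℝ → ℝ}
    (hc : ContinuousOn ϱ (Ioo a b)) (hg : ContinuousOn g (Ioo a b))
    (hrough : ∀ a' b', a ≤ a' → a' < b' → b' ≤ b → ¬ContDiffOn ℝ ∞ ϱ (Ioo a' b'))
    (Y P : ∀ i, Fin (M i) → ℤ → ℝ → ℂ)
    (hode : ∀ i c, ∀ μ ∈ Finset.Icc (-(m₀ : ℤ)) m₀, ∀ θ ∈ Ioo a b,
      SecODE n (κ i) (l i c) μ ϱ g (Y i c μ) (P i c μ) θ)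
    (hwr : ∀ i c c₁, ∀ μ ∈ Finset.Icc (-(m₀ : ℤ)) m₀, ∀ μ₁ ∈ Finset.Icc (-(m₀ : ℤ)) m₀,
      l i c = l i c₁ → μ ^ 2 = μ₁ ^ 2 → ∀ θ ∈ Ioo a b,
        Y i c μ θ * P i c₁ μ₁ θ = P i c μ θ * Y i c₁ μ₁ θ)
    (hind : ∀ i (lam : ℝ) (v : Fin (M i) → ℂ), (∀ c, l i c ≠ lam → v c = 0) →
      (∀ μ ∈ Finset.Icc (-(m₀ : ℤ)) m₀, ∀ θ ∈ Ioo a b,
        ∑ c, v c * Y i c μ θ = 0 ∧ ∑ c, v c * P i c μ θ = 0) → v = 0)
    (S : ∀ i, Matrix (Fin (M i)) (Fin (M i)) ℝ) (hS : ∀ i, (S i).IsSymm)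
    (h0 : ∀ θ ∈ Ioo a b, ∀ φ ∈ Ioo 0 (2 * π), ∑ i, ∑ c, ∑ c₁,
      (S i c c₁ : ℂ) * (Wsum m₀ (Y i c) (P i c) θ φ * Wsum m₀ (Y i c₁) (P i c₁) θ φ) = 0) :
    ∀ i, S i = 0 := by
  classical
  obtain ⟨G, hG⟩ := li_prim hab hg
  obtain ⟨e, he⟩ : ∃ e : ℤ → ℝ → ℂ, e = fun (μ : ℤ) (θ : ℝ) => Complex.exp (-(Complex.I * μ * G θ)) :=
    ⟨_, rfl⟩
  have he0 : ∀ μ θ, e μ θ ≠ 0 := fun μ θ => he ▸ Complex.exp_ne_zero _
  have he1 : ∀ μ μ' θ, e μ θ * e μ' θ = e (μ + μ') θ := fun μ μ' θ => by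
    simp only [he, ← Complex.exp_add]
    congr 1
    push_cast
    ring
  have he2 : ∀ μ, ∀ θ ∈ Ioo a b, HasDerivAt (e μ) (e μ θ * -(Complex.I * μ * g θ)) θ :=
    fun μ θ hθ => he ▸ (((hG θ hθ).ofReal_comp.const_mul (Complex.I * μ)).neg).cexp
  have main := fun ν : ℤ => li_main (X := fun i => Fin (M i) × Finset.Icc (-(m₀ : ℤ)) m₀) n κ hκ
    (fun i x => (l i x.1, ((x.2 : ℤ) : ℝ) ^ 2)) (fun i x => hl i x.1) ha hab hb hc hrough
    (fun i x θ => e x.2 θ * Y i x.1 x.2 θ) (fun i x θ => e x.2 θ * P i x.1 x.2 θ)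
    (fun i x θ hθ => ⟨((he2 x.2 θ hθ).mul (hode i x.1 x.2 x.2.2 θ hθ).1).congr_deriv (by ring),
      ((he2 x.2 θ hθ).mul (hode i x.1 x.2 x.2.2 θ hθ).2).congr_deriv (by ring)⟩)
    (fun i x x' h θ hθ => by
      have h1 : ((x.2 : ℤ) : ℝ) ^ 2 = ((x'.2 : ℤ) : ℝ) ^ 2 := congrArg Prod.snd h
      have := hwr i x.1 x'.1 x.2 x.2.2 x'.2 x'.2.2 (congrArg Prod.fst h) (by exact_mod_cast h1) θ hθ
      linear_combination e x.2 θ * e x'.2 θ * this)
    (fun i x x' => Matrix.of fun s t => (if (x.2 : ℤ) + x'.2 = ν then (S i x.1 x'.1 : ℂ) else 0) *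
      (![-((x.2 : ℤ) : ℂ), 1] s * ![-((x'.2 : ℤ) : ℂ), 1] t))
    (fun i x x' => by
      ext s t
      simp only [Matrix.of_apply, Matrix.transpose_apply]
      rw [add_comm, (hS i).apply, mul_comm (_ : ℂ) (![_, _] s)])
    (fun θ hθ => by
      have h1 := li_four (T := Σ i, (Fin (M i) × Finset.Icc (-(m₀ : ℤ)) m₀) ×
          (Fin (M i) × Finset.Icc (-(m₀ : ℤ)) m₀))
        (fun t => (S t.1 t.2.1.1 t.2.2.1 : ℂ) *
          ((P t.1 t.2.1.1 t.2.1.2 θ - (t.2.1.2 : ℤ) * Y t.1 t.2.1.1 t.2.1.2 θ) *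
            (P t.1 t.2.2.1 t.2.2.2 θ - (t.2.2.2 : ℤ) * Y t.1 t.2.2.1 t.2.2.2 θ)))
        (fun t => t.2.1.2 + t.2.2.2) (fun φ hφ => by
          refine Eq.trans ?_ (h0 θ hθ φ hφ)
          rw [Fintype.sum_sigma]
          refine Finset.sum_congr rfl fun i _ => ?_
          simp only [Fintype.sum_prod_type]
          refine Finset.sum_congr rfl fun c _ => ?_
          rw [Finset.sum_comm]
          refine Finset.sum_congr rfl fun c' _ => ?_
          rw [Wsum, Wsum, ← Finset.sum_coe_sort (Finset.Icc _ _),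
            ← Finset.sum_coe_sort (Finset.Icc _ _), Finset.sum_mul_sum, Finset.mul_sum]
          refine Finset.sum_congr rfl fun μ _ => ?_
          rw [Finset.mul_sum]
          refine Finset.sum_congr rfl fun μ' _ => ?_
          push_cast
          rw [mul_add, add_mul, Complex.exp_add]
          ring) ν
      have h2 := congrArg (e ν θ * ·) h1
      simp only [mul_zero] at h2
      refine Eq.trans ?_ h2
      rw [Fintype.sum_sigma, Finset.mul_sum]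
      refine Finset.sum_congr rfl fun i _ => ?_
      conv_rhs => rw [Fintype.sum_prod_type, Finset.mul_sum]
      refine Finset.sum_congr rfl fun x _ => ?_
      rw [Finset.mul_sum]
      refine Finset.sum_congr rfl fun x' _ => ?_
      by_cases h : (x.2 : ℤ) + x'.2 = ν
      · simp only [Matrix.of_apply, if_pos h, Fin.sum_univ_two, Matrix.cons_val_zero,
          Matrix.cons_val_one]
        rw [← h, ← he1]
        ring
      · simp [h])
  have star : ∀ i (lam lam' : ℝ) (μ0 μ1 : Finset.Icc (-(m₀ : ℤ)) m₀), ∀ θ ∈ Ioo a b, ∀ θ' ∈ Ioo a b,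
      ∀ s' t' : Fin 2, ∑ c, ∑ c', (S i c c' : ℂ) *
        ((if l i c = lam then ![Y i c μ0 θ, P i c μ0 θ] s' else 0) *
          if l i c' = lam' then ![Y i c' μ1 θ', P i c' μ1 θ'] t' else 0) = 0 := by
    intro i lam lam' μ0 μ1 θ hθ θ' hθ' s' t'
    obtain ⟨r0, r1, hr1, hr2⟩ : ∃ r0 r1 : ℂ, r0 * -((μ0 : ℤ) : ℂ) + r1 = 1 ∧ ∀ μ : ℤ, μ ≠ μ0 →
        (μ : ℝ) ^ 2 = ((μ0 : ℤ) : ℝ) ^ 2 → r0 * -(μ : ℂ) + r1 = 0 := by
      by_cases h : (μ0 : ℤ) = 0
      · refine ⟨0, 1, by simp, fun μ h1 h2 => absurd ?_ h1⟩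
        rw [h] at h2 ⊢
        simpa using h2
      · have h' : ((μ0 : ℤ) : ℂ) ≠ 0 := by exact_mod_cast h
        refine ⟨-1 / (2 * (μ0 : ℤ)), 1 / 2, by field_simp; ring, fun μ h1 h2 => ?_⟩
        have h3 : μ ^ 2 = (μ0 : ℤ) ^ 2 := by exact_mod_cast h2
        rw [(sq_eq_sq_iff_eq_or_eq_neg.1 h3).resolve_left h1]
        push_cast
        field_simp
        ring
    have a0 := main (μ0 + μ1) i (lam, ((μ0 : ℤ) : ℝ) ^ 2) (lam', ((μ1 : ℤ) : ℝ) ^ 2) hθ hθ' 0 1 s' t'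
    have a1 := main (μ0 + μ1) i (lam, ((μ0 : ℤ) : ℝ) ^ 2) (lam', ((μ1 : ℤ) : ℝ) ^ 2) hθ hθ' 1 1 s' t'
    have a2 := congrArg₂ (fun u v => r0 * u + r1 * v) a0 a1
    simp only [Finset.mul_sum, ← Finset.sum_add_distrib, mul_zero, add_zero] at a2
    refine (mul_eq_zero.1 (Eq.trans ?_ a2)).resolve_left (mul_ne_zero (he0 μ0 θ) (he0 μ1 θ'))
    rw [Finset.mul_sum, Fintype.sum_prod_type]
    refine Finset.sum_congr rfl fun c _ => ?_
    rw [Finset.sum_eq_single μ0 (fun μ _ hμ => Finset.sum_eq_zero fun x' _ => ?_) (by simp),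
      Finset.mul_sum, Fintype.sum_prod_type]
    · refine Finset.sum_congr rfl fun c' _ => ?_
      rw [Finset.sum_eq_single μ1 (fun μ _ hμ => by simp [hμ]) (by simp)]
      simp only [Matrix.of_apply, if_true, Matrix.cons_val_zero, Matrix.cons_val_one,
        Prod.mk.injEq, and_true]
      have b1 : ∀ (z u v : ℂ) (s : Fin 2), ![z * u, z * v] s = z * ![u, v] s := fun z u v s => by
        fin_cases s <;> rfl
      simp only [b1]
      split_ifs
      · linear_combination -(e μ0 θ * e μ1 θ' * S i c c' * ![Y i c μ0 θ, P i c μ0 θ] s' *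
          ![Y i c' μ1 θ', P i c' μ1 θ'] t') * hr1
      all_goals simp
    · by_cases h : (((μ : ℤ) : ℝ)) ^ 2 = ((μ0 : ℤ) : ℝ) ^ 2
      · have := hr2 μ (fun h' => hμ (Subtype.ext h')) h
        simp only [Matrix.of_apply, Matrix.cons_val_zero, Matrix.cons_val_one]
        have b2 : ∀ w z u : ℂ, r0 * (w * (u * 1) * z) + r1 * (w * (1 * 1) * z) =
            w * z * (r0 * u + r1) := fun w z u => by ring
        rw [b2, this, mul_zero]
      · simp [h]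
  intro i
  ext c0 c1
  have step : ∀ (lam : ℝ) (w : Fin (M i) → ℂ), (∀ μ : Finset.Icc (-(m₀ : ℤ)) m₀, ∀ θ ∈ Ioo a b,
      ∀ s : Fin 2, ∑ c, w c * (if l i c = lam then ![Y i c μ θ, P i c μ θ] s else 0) = 0) →
      ∀ c, l i c = lam → w c = 0 := fun lam w hw c hc' => by
    have := hind i lam (fun c => if l i c = lam then w c else 0) (fun c hc => if_neg hc)
      fun μ hμ θ hθ => ⟨by simpa using hw ⟨μ, hμ⟩ θ hθ 0, by simpa using hw ⟨μ, hμ⟩ θ hθ 1⟩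
    simpa [hc'] using congrFun this c
  have := step (l i c1) (fun c' => S i c0 c') (fun μ1 θ' hθ' t' =>
    step (l i c0) (fun c => ∑ c', (S i c c' : ℂ) *
      if l i c' = l i c1 then ![Y i c' μ1 θ', P i c' μ1 θ'] t' else 0) (fun μ0 θ hθ s' => by
      refine Eq.trans (Finset.sum_congr rfl fun c _ => ?_)
        (star i (l i c0) (l i c1) μ0 μ1 θ hθ θ' hθ' s' t')
      rw [Finset.sum_mul]
      exact Finset.sum_congr rfl fun c' _ => by ring) c0 rfl) c1 rfl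
  simpa using this

end Crest.Agent.R202
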