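import Crest.Agent.R202.Defs

/-!
# Auxiliary lemmas for `LoopEx`: the schedule, averages, windows
-/

set_option autoImplicit false

noncomputable section

open scoped ContDiff
open Set Filter Topology

namespace Crest.Agent.R202

section sched

variable {ι : Type} [DecidableEq ι]

/-- the action of a move on the ranks of class `i` -/
def lxAct (i : ι) (m : ι × ℕ) : Equiv.Perm ℕ := if i = m.1 then Equiv.swap m.2 (m.2 + 1) else 1

/-- the ranks at the start of loop `p` -/
def lxRk (s : ℕ → ι × ℕ) (i : ι) : ℕ → Equiv.Perm ℕ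
  | 0 => 1
  | p + 1 => lxAct i (s p) * lxRk s i p

theorem lxRk_eq (s : ℕ → ι × ℕ) (i : ι) (p : ℕ) :
    lxRk s i p = (((List.range p).map s).reverse.map (lxAct i)).prod := by
  induction p with
  | zero => rfl
  | succ p ih => simp [lxRk, ih, List.range_succ]

theorem lxRk_add {s : ℕ → ι × ℕ} {P : ℕ} (hs : ∀ p, s (p + P) = s p) (i : ι) (p : ℕ) :
    lxRk s i (p + P) = lxRk s i p * lxRk s i P := by
  induction p with
  | zero => simp [lxRk]
  | succ p ih => rw [Nat.add_right_comm, lxRk, ih, hs, lxRk, mul_assoc]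

theorem lx_per {α : Type} {s : ℕ → α} {P : ℕ} (hs : ∀ p, s (p + P) = s p) (q p : ℕ) :
    s (p + q * P) = s p := by
  induction q with
  | zero => simp
  | succ q ih => rw [Nat.succ_mul, ← add_assoc, hs, ih]

theorem lxRk_add_mul {s : ℕ → ι × ℕ} {P : ℕ} (hs : ∀ p, s (p + P) = s p) (i : ι) (q p : ℕ) :
    lxRk s i (p + q * P) = lxRk s i p * lxRk s i P ^ q := by
  induction q with
  | zero => simp
  | succ q ih => rw [Nat.succ_mul, ← add_assoc, lxRk_add hs, ih, pow_succ, mul_assoc]

theorem lx_cycle (j k x : ℕ) :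
    ((List.range k).map fun t => Equiv.swap (j + t) (j + t + 1)).prod x =
      if j ≤ x ∧ x < j + k then x + 1 else if x = j + k then j else x := by
  induction k generalizing x with
  | zero => change x = _; split_ifs <;> omega
  | succ k ih =>
    rw [List.range_succ, List.map_append, List.prod_append, List.map_singleton, List.prod_singleton,
      Equiv.Perm.mul_apply, ih, Equiv.swap_apply_def]
    split_ifs <;> omega

theorem lx_prod_flatMap {α β G : Type} [Monoid G] (l : List α) (f : α → List β) (g : β → G) :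
    ((l.flatMap f).map g).prod = (l.map fun a => ((f a).map g).prod).prod := by
  induction l with
  | nil => rfl
  | cons a l ih => simp [ih]

theorem lx_sched [Fintype ι] [Nonempty ι] (j₀ M : ι → ℕ) (hj₀ : ∀ i, j₀ i + 2 ≤ M i) :
    ∃ (P : ℕ) (s : ℕ → ι × ℕ), 0 < P ∧ (∀ p, j₀ (s p).1 ≤ (s p).2 ∧ (s p).2 + 1 < M (s p).1) ∧
      (∀ p, s (p + P) = s p) ∧ ∀ i x, j₀ i ≤ x → x < M i →
        lxRk s i P x = if x + 1 < M i then x + 1 else j₀ i := by
  let blk : ι → List (ι × ℕ) := fun i => (List.range (M i - j₀ i - 1)).map fun t => (i, j₀ i + t)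
  let Λ : List (ι × ℕ) := ((Finset.univ : Finset ι).toList.flatMap blk).reverse
  have hmem : ∀ m ∈ Λ, j₀ m.1 ≤ m.2 ∧ m.2 + 1 < M m.1 := by
    intro m hm
    obtain ⟨i, -, hi⟩ := List.mem_flatMap.1 (List.mem_reverse.1 hm)
    obtain ⟨t, ht, rfl⟩ := List.mem_map.1 hi
    have := List.mem_range.1 ht
    constructor <;> simp only <;> omega
  have hP : 0 < Λ.length := by
    obtain ⟨i⟩ := ‹Nonempty ι›
    refine List.length_pos_of_mem (a := (i, j₀ i + 0)) (List.mem_reverse.2
      (List.mem_flatMap.2 ⟨i, by simp, List.mem_map.2 ⟨0, List.mem_range.2 ?_, rfl⟩⟩))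
    have := hj₀ i
    omega
  refine ⟨Λ.length, fun p => Λ[p % Λ.length]'(Nat.mod_lt _ hP), hP,
    fun p => hmem _ (List.getElem_mem _), fun p => by simp, fun i x h1 h2 => ?_⟩
  have h3 : (List.range Λ.length).map (fun p => Λ[p % Λ.length]'(Nat.mod_lt _ hP)) = Λ := by
    refine List.ext_getElem (by simp) fun p hp hp' => ?_
    simp [Nat.mod_eq_of_lt hp']
  rw [lxRk_eq, h3, List.reverse_reverse, lx_prod_flatMap,
    List.prod_map_eq_pow_single i _ fun i' hi' _ => List.prod_eq_one fun g hg => ?_]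
  · rw [List.count_eq_one_of_mem (Finset.nodup_toList _) (by simp), pow_one, List.map_map]
    have h4 : (lxAct i ∘ fun t => (i, j₀ i + t)) =
        fun t => Equiv.swap (j₀ i + t) (j₀ i + t + 1) := by
      funext t
      simp [lxAct]
    rw [h4, lx_cycle]
    have := hj₀ i
    split_ifs <;> omega
  · obtain ⟨m, hm, rfl⟩ := List.mem_map.1 hg
    obtain ⟨t, -, rfl⟩ := List.mem_map.1 hm
    exact if_neg hi'.symm

/-- permutations supported in `[j, M)` -/
def lxFix (j M : ℕ) (g : Equiv.Perm ℕ) : Prop := ∀ x, ¬(j ≤ x ∧ x < M) → g x = x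

theorem lxFix.mul {j M : ℕ} {g h : Equiv.Perm ℕ} (hg : lxFix j M g) (hh : lxFix j M h) :
    lxFix j M (g * h) := fun x hx => by rw [Equiv.Perm.mul_apply, hh x hx, hg x hx]

theorem lxFix.lt {j M : ℕ} {g : Equiv.Perm ℕ} (hg : lxFix j M g) {x : ℕ} (hx : x < M) :
    g x < M := by
  by_contra h
  have h1 := g.injective (hg (g x) fun h' => h h'.2)
  omega

theorem lxFix_act {j₀ M : ι → ℕ} {m : ι × ℕ} (hm : j₀ m.1 ≤ m.2 ∧ m.2 + 1 < M m.1) (i : ι) :
    lxFix (j₀ i) (M i) (lxAct i m) := by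
  intro x hx
  unfold lxAct
  split_ifs with h
  · subst h
    exact Equiv.swap_apply_of_ne_of_ne (by omega) (by omega)
  · rfl

theorem lxFix_rk {j₀ M : ι → ℕ} {s : ℕ → ι × ℕ}
    (hs : ∀ p, j₀ (s p).1 ≤ (s p).2 ∧ (s p).2 + 1 < M (s p).1) (i : ι) (p : ℕ) :
    lxFix (j₀ i) (M i) (lxRk s i p) := by
  induction p with
  | zero => exact fun _ _ => rfl
  | succ p ih => exact (lxFix_act (hs p) i).mul ih

theorem lx_sum_cycle {j M : ℕ} {π τ : Equiv.Perm ℕ} (hτ : lxFix j M τ)
    (hπ : ∀ x, j ≤ x → x < M → π x = if x + 1 < M then x + 1 else j) {a : ℕ} (h1 : j ≤ a)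
    (h2 : a < M) (f : ℕ → ℝ) :
    ∑ q ∈ Finset.range (M - j), f ((τ * π ^ q) a) = ∑ x ∈ Finset.Ico j M, f x := by
  have hpow : ∀ q, q ≤ M - j → (π ^ q) a = if a + q < M then a + q else a + q + j - M := by
    intro q
    induction q with
    | zero => intro _; simp [h2]
    | succ q ih =>
      intro hq
      rw [pow_succ', Equiv.Perm.mul_apply, ih (by omega), hπ _ (by split_ifs <;> omega)
        (by split_ifs <;> omega)]
      split_ifs <;> omega
  rw [← Equiv.Perm.sum_comp τ (Finset.Ico j M) f fun x hx => by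
    by_contra h
    exact hx (hτ x (by simpa using h))]
  refine Finset.sum_nbij' (fun q => if a + q < M then a + q else a + q + j - M)
    (fun x => if a ≤ x then x - a else x + M - j - a) (fun q hq => ?_) (fun x hx => ?_)
    (fun q hq => ?_) (fun x hx => ?_) fun q hq => ?_
  · simp only [Finset.mem_range, Finset.mem_Ico] at hq ⊢
    split_ifs <;> omega
  · simp only [Finset.mem_range, Finset.mem_Ico] at hx ⊢
    split_ifs <;> omega
  · simp only [Finset.mem_range] at hq
    split_ifs <;> omega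
  · simp only [Finset.mem_Ico] at hx
    split_ifs <;> omega
  · rw [Equiv.Perm.mul_apply, hpow q (Finset.mem_range.1 hq).le]

end sched

theorem lx_avg {f : ℝ → ℝ} (hf : Continuous f) (h0 : ∀ x, 0 ≤ f x) {m : ℕ} (hm : 0 < m) {P A : ℝ}
    (hP : 0 ≤ P) (h : ∀ x, 0 ≤ x → ∑ q ∈ Finset.range m, f (x + q * P) ≤ m * A) {s t : ℝ}
    (hs : 0 ≤ s) (hst : s ≤ t) : ∫ x in s..t, f x ≤ A * (t - s) + m * A * (m * P) := by
  have hm' : (0 : ℝ) < m := by exact_mod_cast hm
  have hb : ∀ x, 0 ≤ x → f x ≤ m * A := fun x hx => by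
    refine le_trans ?_ (h x hx)
    simpa using Finset.single_le_sum (f := fun q : ℕ => f (x + q * P)) (fun q _ => h0 _)
      (Finset.mem_range.2 hm)
  have hA : 0 ≤ m * A := (h0 0).trans (hb 0 le_rfl)
  have hi : ∀ u v, IntervalIntegrable f MeasureTheory.volume u v := fun u v =>
    hf.intervalIntegrable u v
  have h1 : ∀ q ∈ Finset.range m,
      (∫ x in s..t, f x) - m * A * (m * P) ≤ ∫ x in s..t, f (x + q * P) := by
    intro q hq
    have hq' : (q : ℝ) ≤ m := by exact_mod_cast (Finset.mem_range.1 hq).le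
    have hq0 : 0 ≤ (q : ℝ) * P := by positivity
    rw [intervalIntegral.integral_comp_add_right]
    have e1 := intervalIntegral.integral_add_adjacent_intervals (hi s (s + q * P))
      (hi (s + q * P) (t + q * P))
    have e2 := intervalIntegral.integral_add_adjacent_intervals (hi s t) (hi t (t + q * P))
    have e3 : 0 ≤ ∫ x in t..t + q * P, f x :=
      intervalIntegral.integral_nonneg (by linarith) fun x _ => h0 x
    have e4 : ∫ x in s..s + q * P, f x ≤ ∫ _ in s..s + q * P, (m * A : ℝ) :=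
      intervalIntegral.integral_mono_on (by linarith) (hi _ _) (by simp)
        fun x hx => hb x (hs.trans hx.1)
    rw [intervalIntegral.integral_const, smul_eq_mul, add_sub_cancel_left] at e4
    have e5 : q * P * (m * A) ≤ m * P * (m * A) := by gcongr
    linarith
  have h2 := Finset.sum_le_sum h1
  rw [← intervalIntegral.integral_finsetSum (f := fun (q : ℕ) x => f (x + q * P)) fun q _ =>
    (by fun_prop : Continuous fun x => f (x + q * P)).intervalIntegrable s t] at h2
  have h3 : ∫ x in s..t, ∑ q ∈ Finset.range m, f (x + q * P) ≤ ∫ _ in s..t, (m * A : ℝ) :=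
    intervalIntegral.integral_mono_on hst
      ((by fun_prop : Continuous fun x => ∑ q ∈ Finset.range m, f (x + q * P)).intervalIntegrable s t)
      (by simp) fun x hx => h x (hs.trans hx.1)
  rw [intervalIntegral.integral_const, smul_eq_mul] at h3
  rw [Finset.sum_const, Finset.card_range, nsmul_eq_mul] at h2
  refine le_of_mul_le_mul_left ?_ hm'
  linarith

theorem lx_lip {f : ℝ → ℝ} {L : ℝ} (h : ∀ s t, |s - t| ≤ 1 / 20 → |f s - f t| ≤ L * |s - t|)
    (s t : ℝ) : |f s - f t| ≤ L * |s - t| := by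
  have key : ∀ (n : ℕ) (s t : ℝ), t ≤ s → s - t ≤ n / 20 → |f s - f t| ≤ L * (s - t) := by
    intro n
    induction n with
    | zero =>
      intro s t h1 h2
      obtain rfl : s = t := by simp at h2; linarith
      simp
    | succ n ih =>
      intro s t h1 h2
      by_cases h3 : s - t ≤ 1 / 20
      · have := h s t (by rwa [abs_of_nonneg (by linarith)])
        rwa [abs_of_nonneg (by linarith : 0 ≤ s - t)] at this
      · have h4 := ih (s - 1 / 20) t (by linarith) (by push_cast at h2; linarith)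
        have h5 := h s (s - 1 / 20) (by norm_num)
        rw [sub_sub_cancel, abs_of_pos (by norm_num : (0 : ℝ) < 1 / 20)] at h5
        linarith [abs_sub_le (f s) (f (s - 1 / 20)) (f t)]
  rcases le_total t s with h1 | h1
  · obtain ⟨n, hn⟩ := exists_nat_ge (20 * (s - t))
    rw [abs_of_nonneg (by linarith : 0 ≤ s - t)]
    exact key n s t h1 (by linarith)
  · obtain ⟨n, hn⟩ := exists_nat_ge (20 * (t - s))
    rw [abs_sub_comm, abs_sub_comm s, abs_of_nonneg (by linarith : 0 ≤ t - s)]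
    exact key n t s h1 (by linarith)

theorem lx_deriv_bound {E : Type} [NormedAddCommGroup E] [NormedSpace ℝ E] {f : ℝ → E} {z₀ : E}
    (hf : ContDiff ℝ ∞ f) (h : ∀ σ, (σ ≤ 1 / 10 ∨ 9 / 10 ≤ σ) → f σ = z₀) :
    ∃ C, ∀ σ, ‖deriv f σ‖ ≤ C ∧ ‖deriv (deriv f) σ‖ ≤ C := by
  have h1 : HasCompactSupport fun σ => f σ - z₀ :=
    HasCompactSupport.intro (isCompact_Icc (a := 0) (b := 1)) fun σ hσ => by
      rw [h σ, sub_self]
      by_contra hc
      push Not at hc
      exact hσ ⟨by linarith [hc.1], by linarith [hc.2]⟩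
  have h2 : HasCompactSupport (deriv f) := by
    have := h1.deriv
    rwa [show (deriv fun σ => f σ - z₀) = deriv f from funext fun _ => deriv_sub_const _] at this
  have h3 : ContDiff ℝ ∞ (deriv f) := (contDiff_infty_iff_deriv.1 hf).2
  obtain ⟨C, hC⟩ := h3.continuous.bounded_above_of_compact_support h2
  obtain ⟨C', hC'⟩ :=
    (contDiff_infty_iff_deriv.1 h3).2.continuous.bounded_above_of_compact_support h2.deriv
  exact ⟨max C C', fun σ => ⟨(hC σ).trans (le_max_left _ _), (hC' σ).trans (le_max_right _ _)⟩⟩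

/-- the window in which the `p`-th loop describes the concatenation -/
def lxWin (p : ℕ) (σ : ℝ) : Prop := (p = 0 ∨ (p : ℝ) - 1 / 10 ≤ σ) ∧ σ ≤ p + 1 + 1 / 10

theorem lxWin.cases {p : ℕ} {σ : ℝ} (h : lxWin p σ) :
    ⌊σ⌋₊ = p ∨ (p = ⌊σ⌋₊ + 1 ∧ |σ - p| ≤ 1 / 10) ∨
      (⌊σ⌋₊ = p + 1 ∧ |σ - (p + 1 : ℕ)| ≤ 1 / 10) := by
  obtain ⟨h1, h2⟩ := h
  by_cases h3 : (p : ℝ) + 1 ≤ σ
  · refine Or.inr (Or.inr ⟨(Nat.floor_eq_iff (by linarith [(p.cast_nonneg : (0 : ℝ) ≤ p)])).2 ?_, ?_⟩)
    · push_cast; constructor <;> linarith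
    · push_cast; rw [abs_le]; constructor <;> linarith
  · by_cases h4 : (p : ℝ) ≤ σ
    · exact Or.inl ((Nat.floor_eq_iff (p.cast_nonneg.trans h4)).2 ⟨h4, by linarith⟩)
    · cases p with
      | zero => exact Or.inl (Nat.floor_of_nonpos (by simpa using (not_le.1 h4).le))
      | succ p =>
        have h5 := h1.resolve_left (by omega)
        push_cast at h2 h3 h4 h5 ⊢
        have h6 : (0 : ℝ) ≤ p := p.cast_nonneg
        refine Or.inr (Or.inl ⟨?_, by rw [abs_le]; constructor <;> linarith⟩)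
        rw [(Nat.floor_eq_iff (by linarith)).2 ⟨(by linarith : (p : ℝ) ≤ σ), by linarith⟩]

theorem lxWin_floor {σ σ' : ℝ} (h : |σ - σ'| ≤ 1 / 10) : lxWin ⌊σ⌋₊ σ' := by
  obtain ⟨h1, h2⟩ := abs_le.1 h
  refine ⟨?_, by linarith [Nat.lt_floor_add_one σ]⟩
  rcases le_total σ 0 with h3 | h3
  · exact Or.inl (Nat.floor_of_nonpos h3)
  · exact Or.inr (by linarith [Nat.floor_le h3])

theorem lxWin_eventually (σ : ℝ) : ∀ᶠ σ' in 𝓝 σ, lxWin ⌊σ⌋₊ σ' := by
  filter_upwards [Metric.closedBall_mem_nhds σ (by norm_num : (0 : ℝ) < 1 / 10)] with σ' h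
  exact lxWin_floor (by rwa [Metric.mem_closedBall, dist_comm, Real.dist_eq] at h)

theorem lx_hdist_le (σ : ℝ) (p : ℕ) : hdist σ ≤ min |σ - p - 1 / 2| (1 / 2) := by
  refine le_min ?_ (abs_sub_round _)
  have := round_le (σ - 1 / 2) (p : ℤ)
  rwa [Int.cast_natCast, sub_right_comm σ (1 / 2) p] at this

end Crest.Agent.R202
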