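import Crest.Agent.R202.ElemEx
import Crest.Agent.R202.LoopEx_A

/-!
# Concatenating elementary loops (task B5)

Schedule: one round runs through all classes `i` and, in class `i`, through `j = j₀ i, …, M i - 2`; it is repeated for ever
(period `P = ∑ (M i - j₀ i - 1)`).  `z σ = (elem ⌊σ⌋).z (σ - ⌊σ⌋)` for `σ ≥ 0`, `z₀` for `σ < 0`; branch `a` carries the rank
`r_p a` at the start of loop `p`, `r_{p+1} = swap ∘ r_p`.  One round permutes the ranks `j₀ i, …, M i - 1` cyclically,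
so `∑_{q < M i - j₀ i} √(l i a (σ + q P)) = ∑_{j₀ i ≤ j < M i} √(ev (z σ) j)`.
-/

set_option autoImplicit false

noncomputable section

open scoped InnerProductSpace ContDiff
open Set Filter Topology

namespace Crest.Agent.R202

variable {n : ℕ} {E : Type} [NormedAddCommGroup E] [NormedSpace ℝ E] [FiniteDimensional ℝ E]
  {ι : Type} [Fintype ι] [DecidableEq ι] {J : ι → Type} (F : Fam n E ι J) (M : ι → ℕ)

theorem lx_near_sign {J : Type} {b : Base n J} {x y : H J} {t ε ε' : ℝ} (hε : ε = 1 ∨ ε = -1)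
    (hε' : ε' = 1 ∨ ε' = -1) (h : b.Near x y t) : b.Near (ε • x) (ε' • y) t := by
  obtain ⟨s, hs, h⟩ := h
  refine ⟨s * ε * ε', by
    rcases hs with rfl | rfl <;> rcases hε with rfl | rfl <;> rcases hε' with rfl | rfl <;>
      norm_num, ?_⟩
  rw [show ε' • y - (s * ε * ε') • ε • x = ε' • (y - s • x) by
    rcases hε with rfl | rfl <;> module]
  unfold Base.mass at h ⊢
  rw [map_smul, real_inner_smul_left, real_inner_smul_right]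
  rcases hε' with rfl | rfl <;> linarith

theorem lx_sign {J : Type} (b : Base n J) {B : H J →L[ℝ] H J} (hB : Adm B) {k : ℕ}
    (hS : ∀ j, j ≤ k → b.ev B univ j < b.ev B univ (j + 1)) {x y : H J}
    (hx : B x = b.ev B univ k • b.K x) (hx' : b.mass x x = 1)
    (hy : B y = b.ev B univ k • b.K y) (hy' : b.mass y y = 1) :
    ∃ ε : ℝ, (ε = 1 ∨ ε = -1) ∧ y = ε • x := by
  obtain ⟨γ, hγ, h⟩ := elem_lower (fun j : Fin (k + 1) => b.ev B univ (j + 1) - b.ev B univ j)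
    fun j => sub_pos.2 (hS j (Nat.lt_succ_iff.1 j.2))
  obtain ⟨C, -, hC⟩ := b.near_of_gap k hγ
  have hm := b.ev_mono hB (S := univ) (haveI := b.inf; infinite_univ)
  obtain ⟨ε, hε, h1⟩ := hC B B hB hB
    (fun i hi => by linarith [h ⟨i, by omega⟩, hm (show i + 1 ≤ k from hi)])
    (by linarith [h ⟨k, by omega⟩]) x y hx hx' hy hy'
  refine ⟨ε, hε, sub_eq_zero.1 ?_⟩
  by_contra h2
  have := b.mass_pos h2
  simp at h1
  linarith

omit [FiniteDimensional ℝ E] [Fintype ι] in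
theorem lx_val {U : Set E} {z₀ : E} {m : ι × ℕ} (e : Elem F M U z₀ m.1 m.2) (i : ι)
    (a : Fin (M i)) (σ : ℝ) :
    e.l i a σ = F.evu i (e.z σ) ((if 1 / 2 < σ then lxAct i m else 1) a) := by
  rw [e.val]
  unfold lxAct
  by_cases h1 : i = m.1 <;> by_cases h2 : 1 / 2 < σ <;> simp [h1, h2, -one_div]

omit [FiniteDimensional ℝ E] [Fintype ι] in
/-- two elementary loops match at a junction -/
theorem lx_junction {U : Set E} (hadm : ∀ i, ∀ ζ ∈ U, Adm (F.B i ζ)) {z₀ : E}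
    (hS : F.Simple M z₀) {m m' : ι × ℕ} (e : Elem F M U z₀ m.1 m.2)
    (e' : Elem F M U z₀ m'.1 m'.2) {σ σ' : ℝ} (hσ : 9 / 10 ≤ σ) (hσ' : σ' ≤ 1 / 10) :
    e'.z σ' = e.z σ ∧ ∀ i (a a' : Fin (M i)), (a' : ℕ) = lxAct i m a →
      e'.l i a' σ' = e.l i a σ ∧ ∃ ε : ℝ, (ε = 1 ∨ ε = -1) ∧ e'.V i a' σ' = ε • e.V i a σ := by
  have h1 := e.rest σ (Or.inr hσ)
  have h2 := e'.rest σ' (Or.inl hσ')
  refine ⟨h2.trans h1.symm, fun i a a' ha => ?_⟩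
  have h3 : e.l i a σ = F.evu i z₀ a' := by
    rw [lx_val, if_pos (by linarith), h1, ha]
  have h4 : e'.l i a' σ' = F.evu i z₀ a' := by
    rw [lx_val, if_neg (by linarith), h2, Equiv.Perm.one_apply]
  refine ⟨h4.trans h3.symm, lx_sign (F.b i) (hadm i z₀ (h1 ▸ e.mem σ)) (k := a')
    (fun j hj => hS i j (hj.trans_lt a'.2)) ?_ ?_ ?_ ?_⟩
  · simpa only [h1, h3, Fam.evu] using (e.eig i σ).eig a
  · simpa using (e.eig i σ).orth a a
  · simpa only [h2, h4, Fam.evu] using (e'.eig i σ').eig a'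
  · simpa using (e'.eig i σ').orth a' a'

theorem Fam.exists_loop [Nonempty ι] (a b : E) {ρ₀ : ℝ} (hρ₀ : 0 < ρ₀)
    (hadm : ∀ i, ∀ ζ ∈ tube a b ρ₀, Adm (F.B i ζ))
    (hc : ∀ s ∈ Icc (0 : ℝ) 1, F.CtrlAt (a + s • b) (fun i => 2 * (F.b i).ev 1 univ (M i)))
    (j₀ : ι → ℕ) (hj₀ : ∀ i, j₀ i + 2 ≤ M i)
    (hcr : ∀ i j, j₀ i ≤ j → j + 1 < M i →
      ∃ s ∈ Icc (0 : ℝ) 1, F.evu i (a + s • b) j = F.evu i (a + s • b) (j + 1))
    (abar : ι → ℝ)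
    (habar : ∀ i, ∀ ζ ∈ tube a b ρ₀, ∑ j ∈ Finset.Ico (j₀ i) (M i), √(F.evu i ζ j) ≤
      ((M i : ℝ) - j₀ i) * abar i) :
    Nonempty (Loop F M (tube a b ρ₀) (fun i => Finset.univ.filter fun a => j₀ i ≤ (a : ℕ)) abar) := by
  classical
  obtain ⟨ρ₁, hρ₁, hel⟩ := F.exists_elem M a b hρ₀ hadm hc
  obtain ⟨ρ₂, C, hρ₂, hC, hctrl⟩ := F.tube_ctrl M a b hρ₀ hadm hc
  obtain ⟨z₀, hz₀, hS, hel⟩ := hel (min ρ₀ (min ρ₁ ρ₂)) (lt_min hρ₀ (lt_min hρ₁ hρ₂))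
    ((min_le_right _ _).trans (min_le_left _ _))
  have hU₀ : tube a b (min ρ₀ (min ρ₁ ρ₂)) ⊆ tube a b ρ₀ := fun ζ ⟨t, ht, h⟩ =>
    ⟨t, ht, h.trans_le (min_le_left _ _)⟩
  have hU₂ : tube a b (min ρ₀ (min ρ₁ ρ₂)) ⊆ tube a b ρ₂ := fun ζ ⟨t, ht, h⟩ =>
    ⟨t, ht, h.trans_le ((min_le_right _ _).trans (min_le_right _ _))⟩
  generalize tube a b (min ρ₀ (min ρ₁ ρ₂)) = U at *
  obtain ⟨P, s, hP, hs, hper, hrk⟩ := lx_sched j₀ M hj₀
  -- the elementary loops and uniform constants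
  have : Finite {m : ι × ℕ // j₀ m.1 ≤ m.2 ∧ m.2 + 1 < M m.1} :=
    ((finite_univ.prod (finite_Iio (Finset.univ.sup M))).subset fun m hm =>
      ⟨trivial, lt_of_lt_of_le (Nat.lt_of_succ_lt hm.2)
        (Finset.le_sup (Finset.mem_univ _))⟩).to_subtype
  obtain ⟨e₀⟩ : Nonempty (∀ m : {m : ι × ℕ // j₀ m.1 ≤ m.2 ∧ m.2 + 1 < M m.1},
      Elem F M U z₀ m.1.1 m.1.2) :=
    ⟨fun m => Classical.choice (hel _ _ m.2.2 (hcr _ _ m.2.1 m.2.2))⟩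
  choose D hD using fun m => lx_deriv_bound (e₀ m).smooth (e₀ m).rest
  obtain ⟨L₁, hL₁, hL⟩ := elem_upper fun m => max (e₀ m).L (D m)
  obtain ⟨L₂, hL₂, hL'⟩ := elem_upper fun i =>
    ((M i - j₀ i : ℕ) : ℝ) * abar i * ((M i - j₀ i : ℕ) * (P : ℝ))
  obtain ⟨γ, hγ, hγ'⟩ := elem_lower (fun m => min (e₀ m).γ (e₀ m).c) fun m =>
    lt_min (e₀ m).γ_pos (e₀ m).c_pos
  obtain ⟨e, heL, heD, heγ, hec, hez⟩ : ∃ e : ∀ p, Elem F M U z₀ (s p).1 (s p).2,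
      (∀ p, (e p).L ≤ L₁ + L₂ + C) ∧
      (∀ p σ, ‖deriv (e p).z σ‖ ≤ L₁ + L₂ + C ∧ ‖deriv (deriv (e p).z) σ‖ ≤ L₁ + L₂ + C) ∧
      (∀ p, γ ≤ (e p).γ) ∧ (∀ p, γ ≤ (e p).c) ∧ ∀ q p, (e (p + q * P)).z = (e p).z := by
    refine ⟨fun p => e₀ ⟨s p, hs p⟩, fun p => ?_, fun p σ => ?_,
      fun p => (hγ' _).trans (min_le_left _ _), fun p => (hγ' _).trans (min_le_right _ _),
      fun q p => congrArg (fun m => (e₀ m).z) (Subtype.ext (lx_per hper q p))⟩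
    · linarith [(le_max_left _ _).trans (hL ⟨s p, hs p⟩)]
    · have h1 := (le_max_right _ _).trans (hL ⟨s p, hs p⟩)
      have h2 := hD ⟨s p, hs p⟩ σ
      constructor <;> linarith [h2.1, h2.2]
  obtain ⟨r, hr⟩ : ∃ r : ∀ i, ℕ → Fin (M i) → Fin (M i), ∀ i p a, (r i p a : ℕ) = lxRk s i p a :=
    ⟨fun i p a => ⟨_, (lxFix_rk hs i p).lt a.2⟩, fun _ _ _ => rfl⟩
  have hri : ∀ i p, Function.Injective (r i p) := fun i p a a' h =>
    Fin.ext ((lxRk s i p).injective (by rw [← hr, ← hr, h]))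
  -- the concatenation
  obtain ⟨z, hz⟩ : ∃ z : ℝ → E, ∀ σ, z σ = (e ⌊σ⌋₊).z (σ - ⌊σ⌋₊) := ⟨_, fun _ => rfl⟩
  obtain ⟨l, hl⟩ : ∃ l : ∀ i, Fin (M i) → ℝ → ℝ, ∀ i a σ,
      l i a σ = (e ⌊σ⌋₊).l i (r i ⌊σ⌋₊ a) (σ - ⌊σ⌋₊) := ⟨_, fun _ _ _ => rfl⟩
  obtain ⟨V, hV⟩ : ∃ V : ∀ i, Fin (M i) → ℝ → H (J i), ∀ i a σ,
      V i a σ = (e ⌊σ⌋₊).V i (r i ⌊σ⌋₊ a) (σ - ⌊σ⌋₊) := ⟨_, fun _ _ _ => rfl⟩
  have hwin : ∀ p σ, lxWin p σ → z σ = (e p).z (σ - p) ∧ ∀ i a,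
      l i a σ = (e p).l i (r i p a) (σ - p) ∧
        ∃ ε : ℝ, (ε = 1 ∨ ε = -1) ∧ V i a σ = ε • (e p).V i (r i p a) (σ - p) := by
    intro p σ h
    have hadm' : ∀ i, ∀ ζ ∈ U, Adm (F.B i ζ) := fun i ζ h => hadm i ζ (hU₀ h)
    rw [hz]
    simp only [hl, hV]
    rcases h.cases with h | ⟨h, h'⟩ | ⟨h, h'⟩
    · rw [h]
      exact ⟨rfl, fun i a => ⟨rfl, 1, Or.inl rfl, (one_smul _ _).symm⟩⟩
    · generalize ⌊σ⌋₊ = k at h
      subst h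
      obtain ⟨h1, h2⟩ := abs_le.1 h'
      obtain ⟨h3, h4⟩ := lx_junction F M hadm' hS (e k) (e (k + 1)) (σ := σ - k)
        (by push_cast at h1; linarith) h2
      refine ⟨h3.symm, fun i a => ?_⟩
      obtain ⟨h5, ε, hε, h6⟩ := h4 i (r i k a) (r i (k + 1) a) (by rw [hr, hr]; rfl)
      refine ⟨h5.symm, ε, hε, ?_⟩
      rw [h6, smul_smul]
      rcases hε with rfl | rfl <;> simp
    · rw [h]
      obtain ⟨h1, h2⟩ := abs_le.1 h'
      obtain ⟨h3, h4⟩ := lx_junction F M hadm' hS (e p) (e (p + 1)) (σ := σ - p)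
        (by push_cast at h1; linarith) h2
      exact ⟨h3, fun i a => h4 i _ _ (by rw [hr, hr]; rfl)⟩
  have hev : ∀ σ, z =ᶠ[𝓝 σ] fun σ' => (e ⌊σ⌋₊).z (σ' - ⌊σ⌋₊) := fun σ =>
    (lxWin_eventually σ).mono fun σ' h => (hwin _ _ h).1
  have hlip : ∀ i a σ σ', |l i a σ - l i a σ'| ≤ (L₁ + L₂ + C) * |σ - σ'| := by
    intro i a
    refine lx_lip fun σ σ' h => ?_
    rw [hl i a σ, ((hwin _ σ' (lxWin_floor (h.trans (by norm_num)))).2 i a).1]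
    refine ((e _).lip i _ _ _).trans ?_
    rw [sub_sub_sub_cancel_right]
    exact mul_le_mul_of_nonneg_right (heL _) (abs_nonneg _)
  have hfl : ∀ (q : ℕ) (x : ℝ), 0 ≤ x → ⌊x + q * P⌋₊ = ⌊x⌋₊ + q * P := fun q x hx => by
    rw [← Nat.cast_mul, Nat.floor_add_natCast hx]
  have hzP : ∀ (q : ℕ) (x : ℝ), 0 ≤ x → z (x + q * P) = z x := fun q x hx => by
    rw [hz, hz, hfl q x hx, hez]
    congr 1
    push_cast
    ring
  refine ⟨⟨z, l, V, L₁ + L₂ + C, γ, γ, by positivity, hγ, hγ,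
    contDiff_iff_contDiffAt.2 fun σ => ?_, fun σ => hz σ ▸ hU₀ ((e _).mem _), fun σ => ?_,
    fun σ => ?_, fun σ hσ => ?_, fun i σ => ⟨fun a => ?_, fun a a' => ?_⟩, fun i a σ => ?_, hlip,
    fun i a σ σ' h => ?_, fun i a a' σ h => ?_, fun σ V l h1 h2 S t h3 h4 h5 => ?_,
    fun i a ha σ₁ σ₂ h1 h2 => ?_, (s 0).1, z₀, (e 0).z (1 / 2), fun h => ?_, fun σ₀ => ?_,
    fun σ₀ => ?_⟩⟩
  · exact ((e _).smooth.comp (contDiff_id.sub contDiff_const)).contDiffAt.congr_of_eventuallyEq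
      (hev σ)
  · rw [(hev σ).deriv_eq, deriv_comp_sub_const]
    exact (heD _ _).1
  · rw [(hev σ).deriv.deriv_eq, show (deriv fun σ' => (e ⌊σ⌋₊).z (σ' - ⌊σ⌋₊)) =
      fun σ' => deriv (e ⌊σ⌋₊).z (σ' - ⌊σ⌋₊) from funext fun _ => deriv_comp_sub_const _ _ _,
      deriv_comp_sub_const]
    exact (heD _ _).2
  · rw [(hwin 0 σ ⟨Or.inl rfl, by push_cast; linarith⟩).1,
      (hwin 0 0 ⟨Or.inl rfl, by norm_num⟩).1, (e 0).rest _ (Or.inl (by simpa using hσ)),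
      (e 0).rest _ (Or.inl (by norm_num))]
  · simp only [hz, hl, hV]
    exact ((e _).eig i _).eig _
  · simp only [hV]
    rw [((e _).eig i _).orth]
    simp only [(hri i _).eq_iff]
  · rw [hz, hl]
    exact le_trans (by linarith [heγ ⌊σ⌋₊]) ((e _).gap i _ _)
  · obtain ⟨ε, hε, h1⟩ := ((hwin _ σ' (lxWin_floor (h.trans (by norm_num)))).2 i a).2
    rw [h1, hV i a σ, ← one_smul ℝ ((e _).V i _ (σ - _))]
    refine lx_near_sign (Or.inl rfl) hε (((e _).near i _ _ _ ?_).mono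
      (mul_nonneg (e _).L_pos.le (abs_nonneg _)) ?_)
    · rwa [sub_sub_sub_cancel_right]
    · rw [sub_sub_sub_cancel_right]
      exact mul_le_mul_of_nonneg_right (heL _) (abs_nonneg _)
  · rw [hl, hl]
    exact (mul_le_mul (hec _) (lx_hdist_le σ ⌊σ⌋₊) (abs_nonneg _) (e _).c_pos.le).trans
      ((e _).sep i _ _ _ ((hri i _).ne h))
  · obtain ⟨e', h6, h7⟩ := hctrl (z σ) (hz σ ▸ hU₂ ((e _).mem _)) V l h1 h2 S t h3 h4 h5
    exact ⟨e', h6.trans (mul_le_mul_of_nonneg_right (by linarith) h4), h7⟩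
  · have hc : Continuous (l i a) :=
      (LipschitzWith.of_dist_le' (K := L₁ + L₂ + C) fun σ σ' => hlip i a σ σ').continuous
    refine (lx_avg (A := abar i) hc.sqrt (fun _ => Real.sqrt_nonneg _)
      (Nat.sub_pos_of_lt (by linarith [hj₀ i] : j₀ i < M i)) P.cast_nonneg (fun x hx => ?_)
      h1 h2).trans (by linarith [hL' i])
    have h3 : ∀ q : ℕ, l i a (x + q * P) = F.evu i (z x)
        (((if 1 / 2 < x - ⌊x⌋₊ then lxAct i (s ⌊x⌋₊) else 1) * lxRk s i ⌊x⌋₊ * lxRk s i P ^ q) a) := by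
      intro q
      rw [hl, lx_val, ← hz, hzP q x hx, hr, hfl q x hx, lx_per hper, lxRk_add_mul hper,
        show x + q * P - (⌊x⌋₊ + q * P : ℕ) = x - ⌊x⌋₊ by push_cast; ring]
      rfl
    simp only [h3]
    rw [lx_sum_cycle (lxFix.mul ?_ (lxFix_rk hs i _)) (hrk i) (Finset.mem_filter.1 ha).2 a.2
      fun k => √(F.evu i (z x) k), Nat.cast_sub (by linarith [hj₀ i])]
    · exact habar i _ (hz x ▸ hU₀ ((e _).mem _))
    · split_ifs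
      · exact lxFix_act (hs _) i
      · exact fun _ _ => rfl
  · have h1 := hS (s 0).1 (s 0).2 (Nat.lt_of_succ_lt (hs 0).2)
    have h2 := (e 0).dbl
    unfold Fam.evu at h1 h2
    rw [h] at h1
    exact h1.ne h2
  · obtain ⟨q, hq⟩ := exists_nat_ge σ₀
    exact ⟨q, hq, by rw [hz, (e _).rest _ (Or.inl (by simp))]⟩
  · obtain ⟨q, hq⟩ := exists_nat_ge σ₀
    have h1 : (q : ℝ) * 1 ≤ q * P := by gcongr; exact_mod_cast hP
    refine ⟨1 / 2 + q * P, by linarith, ?_⟩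
    rw [hzP q _ (by norm_num), (hwin 0 _ ⟨Or.inl rfl, by norm_num⟩).1]
    simp

end Crest.Agent.R202
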