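import Crest.Agent.R202.Radial
import Crest.Agent.R202.ConeJet
import Crest.Agent.R202.Scalar

/-!
# Negatively curved radial planes far out (task G6)

Pick `w ⊥ y` with `𝒢 ζ₁ y (w,w) ≠ 𝒢 ζ₂ y (w,w)` (both matrices are symmetric and fix `y`) and put `f t = G(eᵗ y)(w,w)`; then
`f' = Ġ(w,w)`, `f'' = G̈(w,w)`.  If `secNumer ≥ 0` for `t ≥ t₁`, then `(f' + βf)' ≤ -β' f + ½ ĠG⁻¹Ġ(w,w) ≤ -2|w|²β' + Cϑ⁸`, so
`f' + βf + 2|w|²β + 7Cϑ` is antitone and bounded below; as `f' → 0`, `ϑ → 0`, `β → b > 0`, `f` converges, contradicting the two cluster points.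
-/

set_option autoImplicit false

noncomputable section

open scoped InnerProductSpace ContDiff
open Set Filter Topology
open Crest.GeometryTopology.CoordMetric Crest.GeometryTopology.ChartCurvature Matrix

namespace Crest.Agent.R202

section aux

variable {n : ℕ}

theorem ns_pick {D : Matrix (Fin n) (Fin n) ℝ} (hs : D.IsSymm) {y : Vec n} (hy : ‖y‖ = 1)
    (hD : ∀ i, ∑ j, D i j * y j = 0) (hne : D ≠ 0) :
    ∃ w : Vec n, ⟪y, w⟫_ℝ = 0 ∧ ∑ i, ∑ j, D i j * w i * w j ≠ 0 := by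
  by_contra hcon
  push Not at hcon
  have h0 : ∀ u : Vec n, ∑ i, ∑ j, D i j * u i * u j = 0 := fun u => by
    have h1 := hcon (u - ⟪y, u⟫_ℝ • y) (by
      rw [inner_sub_right, inner_smul_right, real_inner_self_eq_norm_sq, hy]; ring)
    generalize ⟪y, u⟫_ℝ = a at h1
    have h2 : ∑ i, ∑ j, D i j * y i * u j = 0 := by
      rw [Finset.sum_comm]
      refine Finset.sum_eq_zero fun j _ => ?_
      rw [← Finset.sum_mul, ← mul_zero (u j), mul_comm, ← hD j]
      exact congrArg _ (Finset.sum_congr rfl fun i _ => by rw [hs.apply])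
    have h3 : ∑ i, ∑ j, D i j * (u i - a * y i) * y j = 0 :=
      Finset.sum_eq_zero fun i _ => by
        rw [← mul_zero (u i - a * y i), ← hD i, Finset.mul_sum]
        exact Finset.sum_congr rfl fun j _ => by ring
    have h4 : ∑ i, ∑ j, D i j * u i * u j = ∑ i, ∑ j, D i j * (u - a • y) i * (u - a • y) j +
        a * ∑ i, ∑ j, D i j * y i * u j + a * ∑ i, ∑ j, D i j * (u i - a * y i) * y j := by
      simp only [Finset.mul_sum, ← Finset.sum_add_distrib, PiLp.sub_apply, PiLp.smul_apply, smul_eq_mul]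
      exact Finset.sum_congr rfl fun i _ => Finset.sum_congr rfl fun j _ => by ring
    rw [h4, h1, h2, h3]
    ring
  refine hne (Matrix.ext fun i j => ?_)
  have h1 := h0 (EuclideanSpace.single i 1)
  have h2 := h0 (EuclideanSpace.single j 1)
  have h3 := h0 (EuclideanSpace.single i 1 + EuclideanSpace.single j 1)
  simp only [PiLp.add_apply, mul_add, add_mul, Finset.sum_add_distrib, h1, h2] at h3
  simp only [PiLp.single_apply, mul_ite, mul_one, mul_zero, Finset.sum_ite_eq',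
    Finset.mem_univ, if_true] at h3
  rw [hs.apply i j] at h3
  rw [Matrix.zero_apply]
  linarith

theorem ns_deriv {M : MetricField n} (hM : ∀ i j, ContDiff ℝ ∞ fun x => M x i j) (y w : Vec n)
    (t : ℝ) : HasDerivAt (fun t => quadForm M (Real.exp t • y) w)
      (quadForm (rdot M) (Real.exp t • y) w) t := by
  have h1 : ContDiff ℝ ∞ fun x => quadForm M x w :=
    ContDiff.sum fun i _ => ContDiff.sum fun j _ => ((hM i j).mul contDiff_const).mul contDiff_const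
  rw [(rdL_quad hM _ w).unique (rdL.of_smooth h1 _ _) fun _ => rfl]
  exact (h1.differentiable (by simp) _).hasFDerivAt.comp_hasDerivAt t
    ((Real.hasDerivAt_exp t).smul_const y)

theorem ns_conv {f f₁ f₂ β ϑ : ℝ → ℝ} {b W A B t₁ : ℝ} (h : Prof β b) (hW : 0 ≤ W)
    (hf : ∀ t, HasDerivAt f (f₁ t) t) (hf₁ : ∀ t, HasDerivAt f₁ (f₂ t) t)
    (hϑ : ∀ t, t₁ ≤ t → HasDerivAt ϑ (-(ϑ t ^ 8) / 7) t) (hϑ0 : Tendsto ϑ atTop (𝓝 0))
    (hb : ∀ t, 0 ≤ f t ∧ f t ≤ W) (h1 : ∀ t, t₁ ≤ t → |f₁ t| ≤ B * ϑ t ^ 4)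
    (h2 : ∀ t, t₁ ≤ t → f₂ t + β t * f₁ t ≤ -2 * deriv β t * f t + A * ϑ t ^ 8) :
    ∃ L, Tendsto f atTop (𝓝 L) := by
  have hβ : ∀ t, HasDerivAt β (deriv β t) t := fun t =>
    (h.smooth.differentiable (by simp) t).hasDerivAt
  have hd : ∀ t, t₁ ≤ t → HasDerivAt (fun t => f₁ t + β t * f t + W * β t + 7 * A * ϑ t)
      (f₂ t + (deriv β t * f t + β t * f₁ t) + W * deriv β t + 7 * A * (-(ϑ t ^ 8) / 7)) t :=
    fun t ht => (((hf₁ t).add ((hβ t).mul (hf t))).add ((hβ t).const_mul W)).add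
      ((hϑ t ht).const_mul _)
  have hanti : AntitoneOn (fun t => f₁ t + β t * f t + W * β t + 7 * A * ϑ t) (Ici t₁) := by
    refine antitoneOn_of_deriv_nonpos (convex_Ici _)
      (fun t ht => (hd t ht).continuousAt.continuousWithinAt)
      (fun t ht => (hd t (interior_subset ht)).differentiableAt.differentiableWithinAt) fun t ht => ?_
    rw [(hd t (interior_subset ht)).deriv]
    have := h2 t (interior_subset ht)
    nlinarith [mul_nonneg (neg_nonneg.2 (h.anti t)) (sub_nonneg.2 (hb t).2)]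
  have l1 : Tendsto f₁ atTop (𝓝 0) := by
    refine squeeze_zero_norm' ((eventually_ge_atTop t₁).mono h1) ?_
    simpa using (hϑ0.pow 4).const_mul B
  have l2 : Tendsto (fun t => f₁ t + W * β t + 7 * A * ϑ t) atTop (𝓝 (0 + W * b + 7 * A * 0)) :=
    (l1.add (h.lim.const_mul W)).add (hϑ0.const_mul _)
  have hanti' : Antitone fun t => (fun t => f₁ t + β t * f t + W * β t + 7 * A * ϑ t) (max t t₁) :=
    fun s t hst => hanti (le_max_right s t₁) (le_max_right t t₁) (max_le_max_right _ hst)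
  have l3 : ∀ᶠ t in atTop, (fun t => f₁ t + β t * f t + W * β t + 7 * A * ϑ t) (max t t₁) =
      f₁ t + β t * f t + W * β t + 7 * A * ϑ t :=
    (eventually_ge_atTop t₁).mono fun t ht => by rw [max_eq_left ht]
  rcases tendsto_atTop_of_antitone hanti' with l4 | ⟨ℓ, l4⟩
  · exfalso
    obtain ⟨t, a1, a2⟩ := (((l4.congr' l3).eventually_lt_atBot (-1)).and
      (l2.eventually_const_lt (u := -1) (by nlinarith [mul_nonneg hW h.b_pos.le]))).exists
    nlinarith [mul_nonneg (h.b_pos.le.trans (h.ge t)) (hb t).1]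
  · refine ⟨_, (((l4.congr' l3).sub l2).div h.lim h.b_pos.ne').congr fun t => ?_⟩
    have := (h.b_pos.trans_le (h.ge t)).ne'
    simp only [Pi.div_apply]
    field_simp
    ring

end aux

theorem exists_neg_planes {n : ℕ} {E : Type} [NormedAddCommGroup E] [NormedSpace ℝ E]
    {𝒢 : E → MetricField n} (h𝒢 : GFam 𝒢) {𝒞 : Set E} (h𝒞 : IsCompact 𝒞) {ε : ℝ}
    (hε : 2 * n * ε ≤ 1) (hs : ∀ ζ ∈ 𝒞, GSmall (𝒢 ζ) ε) {β : ℝ → ℝ} {b : ℝ} (h : Prof β b)
    {z : ℝ → E} (hz : ContDiff ℝ ∞ z) (hz0 : ∀ t, t ≤ 0 → z t = 0) (hzm : ∀ t, z t ∈ 𝒞)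
    {K t₀ T : ℝ} (hT : 0 < T) (hK : ∀ t, t₀ ≤ t → ‖deriv z t‖ ≤ K * th t₀ T t ^ 4 ∧
      ‖deriv (deriv z) t‖ ≤ K * th t₀ T t ^ 4)
    {ζ₁ ζ₂ : E} (h₁ : MapClusterPt ζ₁ atTop z) (h₂ : MapClusterPt ζ₂ atTop z) {y : Vec n}
    (hy : ‖y‖ = 1) (hne : 𝒢 ζ₁ y ≠ 𝒢 ζ₂ y) :
    ∃ p : ℕ → Vec n, Tendsto (fun j => ‖p j‖) atTop atTop ∧ ∀ j, ∃ w : Vec n,
      0 < gramDet (met β (coneG 𝒢 z)) (p j) (p j) w ∧
      secNumer (met β (coneG 𝒢 z)) (p j) (p j) w < 0 := by
  have hG := h𝒢.rad_coneG hz hz0 hε fun t => hs _ (hzm t)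
  obtain ⟨w, hw, hw1⟩ := ns_pick ((h𝒢.symm ζ₁ y).sub (h𝒢.symm ζ₂ y)) hy (fun i => by
    have a1 : ∑ j, 𝒢 ζ₁ y i j * y j = y i := congrFun (h𝒢.rad ζ₁ y hy) i
    have a2 : ∑ j, 𝒢 ζ₂ y i j * y j = y i := congrFun (h𝒢.rad ζ₂ y hy) i
    simp only [Matrix.sub_apply, sub_mul, Finset.sum_sub_distrib, a1, a2, sub_self])
    (sub_ne_zero.2 hne)
  have hw0 : 0 < ‖w‖ := norm_pos_iff.2 (by rintro rfl; simp at hw1)
  have hnorm : ∀ t, ‖Real.exp t • y‖ = Real.exp t := fun t => by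
    rw [norm_smul, hy, mul_one, Real.norm_of_nonneg (Real.exp_pos t).le]
  have hx : ∀ t, Real.exp t • y ≠ 0 := fun t =>
    norm_pos_iff.1 (by rw [hnorm]; exact Real.exp_pos t)
  have hlog : ∀ t, Real.log ‖Real.exp t • y‖ = t := fun t => by rw [hnorm, Real.log_exp]
  have hxw : ∀ t, ⟪Real.exp t • y, w⟫_ℝ = 0 := fun t => by rw [inner_smul_left, hw, mul_zero]
  have key : ∀ t₁ : ℝ, ∃ t, t₁ ≤ t ∧
      secNumer (met β (coneG 𝒢 z)) (Real.exp t • y) (Real.exp t • y) w < 0 := by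
    intro t₁
    by_contra hcon
    push Not at hcon
    obtain ⟨C₀, -, hJ⟩ := coneG_jets n
    obtain ⟨C, hC, hJ⟩ := hJ E 𝒢 𝒞 h𝒢 h𝒞
    have hϑ0 : Tendsto (th t₀ T) atTop (𝓝 0) :=
      (tendsto_rpow_neg_atTop (by norm_num : (0 : ℝ) < 1 / 7)).comp
        (tendsto_atTop_add_const_right _ T (tendsto_atTop_add_const_right _ (-t₀) tendsto_id))
    obtain ⟨t₂, ht₂⟩ := eventually_atTop.1 ((eventually_ge_atTop t₁).and ((eventually_ge_atTop t₀).and
      (((hϑ0.pow 4).const_mul K).eventually_le_const (u := 1) (by simp))))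
    have hd : ∀ t, t₂ ≤ t → ∀ i j, |rdot (coneG 𝒢 z) (Real.exp t • y) i j| ≤
        C * (K * th t₀ T t ^ 4) := fun t ht =>
      (hJ z ε _ _ hz (hx t) (hzm _) (hs _ (hzm _)) (by rw [hlog]; exact (hK t (ht₂ t ht).2.1).1)
        (by rw [hlog]; exact (hK t (ht₂ t ht).2.1).2) (ht₂ t ht).2.2).2.2.1
    obtain ⟨L, hL⟩ := ns_conv (ϑ := th t₀ T) (t₁ := t₂) (W := 2 * ‖w‖ ^ 2)
      (A := n ^ 4 * (C * K) ^ 2 * ‖w‖ ^ 2) (B := n ^ 2 * (C * K) * ‖w‖ ^ 2) h (by positivity)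
      (ns_deriv hG.smooth y w) (ns_deriv (rd_smooth_rdot hG.smooth) y w)
      (fun t ht => hasDerivAt_th (by linarith [(ht₂ t ht).2.1])) hϑ0
      (fun t => ⟨le_trans (by positivity) (hG.bnd _ w).1, (hG.bnd _ w).2⟩)
      (fun t ht => (cj_bil_le (hd t ht) w w).trans (le_of_eq (by ring))) fun t ht => by
        have a1 := hcon t (ht₂ t ht).1
        rw [secNumer_radial h hG (hx t) w (hxw t), hlog] at a1
        have a2 := nonneg_of_mul_nonneg_right a1
          (lt_of_le_of_ne (sq_nonneg _) (pow_ne_zero 2 (rd_conf_ne β _)).symm)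
        have a3 := (abs_le.1 (cj_bil_le (cj_mul_le (cj_mul_le (hd t ht)
          (hG.cj_inv_le (Real.exp t • y))) (hd t ht)) w w)).2
        have a4 : quadForm (fun y => rdot (coneG 𝒢 z) y * (coneG 𝒢 z y)⁻¹ * rdot (coneG 𝒢 z) y)
          (Real.exp t • y) w ≤ 2 * (n ^ 4 * (C * K) ^ 2 * ‖w‖ ^ 2 * th t₀ T t ^ 8) :=
          a3.trans (le_of_eq (by ring))
        linarith
    have hφ : Continuous fun ζ => quadForm (𝒢 ζ) y w :=
      continuous_finsetSum _ fun i _ => continuous_finsetSum _ fun j _ =>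
        (((h𝒢.smooth i j).continuous.comp (continuous_id.prodMk continuous_const)).mul
          continuous_const).mul continuous_const
    have hL' : Tendsto ((fun ζ => quadForm (𝒢 ζ) y w) ∘ z) atTop (𝓝 L) := by
      refine hL.congr fun t => ?_
      have e : hat (Real.exp t • y) = y := by
        rw [hat, hnorm, smul_smul, inv_mul_cancel₀ (Real.exp_pos t).ne', one_smul]
      simp only [quadForm, coneG, hlog, e, Function.comp_apply]
    have e₁ : quadForm (𝒢 ζ₁) y w = L :=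
      eq_of_nhds_neBot ((h₁.continuousAt_comp hφ.continuousAt).clusterPt.mono hL')
    have e₂ : quadForm (𝒢 ζ₂) y w = L :=
      eq_of_nhds_neBot ((h₂.continuousAt_comp hφ.continuousAt).clusterPt.mono hL')
    refine hw1 ?_
    simp only [Matrix.sub_apply, sub_mul, Finset.sum_sub_distrib]
    exact sub_eq_zero.2 (e₁.trans e₂.symm)
  choose t ht1 ht2 using fun j : ℕ => key j
  refine ⟨fun j => Real.exp (t j) • y, ?_, fun j => ⟨w, ?_, ht2 j⟩⟩
  · simp only [hnorm]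
    exact Real.tendsto_exp_atTop.comp (tendsto_atTop_mono ht1 tendsto_natCast_atTop_atTop)
  · have hx' := hx (t j)
    have hxw' := hxw (t j)
    beta_reduce
    generalize Real.exp (t j) • y = x at hx' hxw'
    have hφ : 0 < conf β x ^ 2 := lt_of_le_of_ne (sq_nonneg _) (pow_ne_zero 2 (rd_conf_ne β _)).symm
    have q : ∀ v : Vec n, 0 < ‖v‖ → 0 < quadForm (met β (coneG 𝒢 z)) x v := fun v hv => by
      have e : quadForm (met β (coneG 𝒢 z)) x v = conf β x ^ 2 * quadForm (coneG 𝒢 z) x v := by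
        simp only [quadForm, rd_met_apply, Finset.mul_sum, mul_assoc]
      rw [e]
      exact mul_pos hφ (lt_of_lt_of_le (by positivity) (hG.bnd x v).1)
    have e : ∑ i, ∑ j, met β (coneG 𝒢 z) x i j * x i * w j = 0 := by
      rw [Finset.sum_comm, ← mul_zero (conf β x ^ 2), ← hxw', rd_inner, Finset.mul_sum]
      refine Finset.sum_congr rfl fun j _ => ?_
      rw [← hG.rd_rad x j, Finset.sum_mul, Finset.mul_sum]
      exact Finset.sum_congr rfl fun i _ => by rw [rd_met_apply, hG.rd_symm x i j]; ring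
    rw [gramDet, e]
    simpa using mul_pos (q x (norm_pos_iff.2 hx')) (q w hw0)

end Crest.Agent.R202
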