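import Crest.Agent.R202.NoDeg_b

/-!
# Independence and vanishing of the quadratic expression in the limit
-/

set_option autoImplicit false

noncomputable section

open scoped InnerProductSpace ContDiff
open Set Filter Topology
open MvPolynomial Real

namespace Crest.Agent.R202.NoDeg

variable {r n : ℕ}

theorem le_at_zero {g : ℝ → ℝ} (hg : Continuous g) {W : ℝ} (h : ∀ η, 0 < η → W ≤ g η) : W ≤ g 0 :=
  ge_of_tendsto ((hg.tendsto 0).mono_left (nhdsWithin_le_nhds (s := Ioi 0)))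
    (eventually_mem_nhdsWithin.mono h)

theorem int_nonneg (c : Cl r n) (f : ℝ → ℂ) : 0 ≤ ∫ θ in (0 : ℝ)..π / r, ‖f θ‖ ^ 2 * w0 n θ :=
  intervalIntegral.integral_nonneg (by positivity) fun θ hθ =>
    mul_nonneg (sq_nonneg _) (c.w0_nonneg hθ)

section one
variable (c : Cl r n) {κ : ℝ} {x : ℝ → ℝ} {m₀ : ℕ} {lp : ℝ} {M : ℕ} {l : Fin M → ℝ}
  {Y P : Fin M → ℤ → ℝ → ℂ} {U : Fin M → ℝ → ℝ → ℂ}

include c in
theorem energy_one (h : SecData r n κ x m₀ lp l Y P U) (a : Fin M) {μ : ℤ}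
    (hμ : μ ∈ Finset.Icc (-(m₀ : ℤ)) m₀) :
    ∫ θ in (0 : ℝ)..π / r, ‖deriv (Y a μ) θ‖ ^ 2 * w0 n θ ≤ lp :=
  (Finset.single_le_sum (f := fun μ => ∫ θ in (0 : ℝ)..π / r, ‖deriv (Y a μ) θ‖ ^ 2 * w0 n θ)
    (fun _ _ => int_nonneg c _) hμ).trans (h.energy a)

include c in
theorem mass_one (h : SecData r n κ x m₀ lp l Y P U) (a : Fin M) {μ : ℤ}
    (hμ : μ ∈ Finset.Icc (-(m₀ : ℤ)) m₀) :
    ∫ θ in (0 : ℝ)..π / r, ‖Y a μ θ‖ ^ 2 * w0 n θ ≤ 1 := by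
  have h1 := h.mass (Pi.single a 1)
  have h2 : ∀ μ θ, ∑ b, ((Pi.single a (1 : ℝ) : Fin M → ℝ) b : ℂ) * Y b μ θ = Y a μ θ := by
    intro μ θ
    rw [Finset.sum_eq_single a]
    · simp
    · intro b _ hb; simp [Pi.single_eq_of_ne hb]
    · simp
  have h3 : ∑ b, (Pi.single a (1 : ℝ) : Fin M → ℝ) b ^ 2 = 1 := by
    rw [Finset.sum_eq_single a]
    · simp
    · intro b _ hb; simp [Pi.single_eq_of_ne hb]
    · simp
  simp only [h2, h3] at h1
  have h4 := Finset.single_le_sum (f := fun μ => ∫ θ in (0 : ℝ)..π / r, ‖Y a μ θ‖ ^ 2 * w0 n θ)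
    (fun _ _ => int_nonneg c _) hμ
  have h5 := int_nonneg c (Y a μ)
  nlinarith [pi_gt_three]

include c in
theorem energy_comb (h : SecData r n κ x m₀ lp l Y P U) (w : Fin M → ℝ) {μ : ℤ}
    (hμ : μ ∈ Finset.Icc (-(m₀ : ℤ)) m₀) :
    ∫ θ in (0 : ℝ)..π / r, ‖deriv (fun s => ∑ a, (w a : ℂ) * Y a μ s) θ‖ ^ 2 * w0 n θ ≤
      (∑ a, w a ^ 2) * (M * lp) := by
  have hd : ∀ θ, deriv (fun s => ∑ a, (w a : ℂ) * Y a μ s) θ = ∑ a, (w a : ℂ) * deriv (Y a μ) θ :=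
    fun θ => (HasDerivAt.fun_sum fun a _ =>
      (((h.c1 a μ).differentiable one_ne_zero θ).hasDerivAt.const_mul _)).deriv
  have hc : ∀ a, Continuous (deriv (Y a μ)) := fun a => (h.c1 a μ).continuous_deriv le_rfl
  have hc' : ∀ a, Continuous fun θ => ‖deriv (Y a μ) θ‖ ^ 2 * w0 n θ :=
    fun a => ((hc a).norm.pow 2).mul (cont_w0 n)
  simp only [hd]
  calc ∫ θ in (0 : ℝ)..π / r, ‖∑ a, (w a : ℂ) * deriv (Y a μ) θ‖ ^ 2 * w0 n θ
      ≤ ∫ θ in (0 : ℝ)..π / r, (∑ a, w a ^ 2) * ∑ a, ‖deriv (Y a μ) θ‖ ^ 2 * w0 n θ := by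
        refine intervalIntegral.integral_mono_on (by positivity) ?_ ?_ fun θ hθ => ?_
        · exact (((continuous_finsetSum _ fun a _ =>
            continuous_const.mul (hc a)).norm.pow 2).mul (cont_w0 n)).intervalIntegrable _ _
        · exact (continuous_const.mul (continuous_finsetSum _ fun a _ => hc' a)).intervalIntegrable _ _
        · rw [← Finset.sum_mul, ← mul_assoc]
          refine mul_le_mul_of_nonneg_right ?_ (c.w0_nonneg hθ)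
          have h1 : ‖∑ a, (w a : ℂ) * deriv (Y a μ) θ‖ ≤ ∑ a, |w a| * ‖deriv (Y a μ) θ‖ :=
            (norm_sum_le _ _).trans (le_of_eq (Finset.sum_congr rfl fun a _ => by
              rw [norm_mul, Complex.norm_real, Real.norm_eq_abs]))
          have h2 := Finset.sum_mul_sq_le_sq_mul_sq Finset.univ (fun a => |w a|)
            fun a => ‖deriv (Y a μ) θ‖
          simp only [sq_abs] at h2
          exact (pow_le_pow_left₀ (norm_nonneg _) h1 2).trans h2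
    _ = (∑ a, w a ^ 2) * ∑ a, ∫ θ in (0 : ℝ)..π / r, ‖deriv (Y a μ) θ‖ ^ 2 * w0 n θ := by
        rw [intervalIntegral.integral_const_mul,
          intervalIntegral.integral_finsetSum fun a _ => (hc' a).intervalIntegrable _ _]
    _ ≤ _ := by
        refine mul_le_mul_of_nonneg_left ?_ (Finset.sum_nonneg fun _ _ => sq_nonneg _)
        refine (Finset.sum_le_sum fun a _ => energy_one c h a hμ).trans (le_of_eq ?_)
        simp

end one

theorem real_zero (c : Cl r n) {κ : ℝ} {x : ℕ → ℝ → ℝ} {m₀ : ℕ} {lp : ℝ} {M : ℕ}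
    {l : ℕ → Fin M → ℝ} {Y P : ℕ → Fin M → ℤ → ℝ → ℂ} {U : ℕ → Fin M → ℝ → ℝ → ℂ}
    (hD : ∀ p, SecData r n κ (x p) m₀ lp (l p) (Y p) (P p) (U p)) {Y₀ : Fin M → ℤ → ℝ → ℂ}
    (hY : ∀ a, ∀ μ ∈ Finset.Icc (-(m₀ : ℤ)) m₀, CC (fun p => Y p a μ) (Y₀ a μ) (Ioo 0 (π / r)))
    (w : Fin M → ℝ)
    (h0 : ∀ μ ∈ Finset.Icc (-(m₀ : ℤ)) m₀, ∀ θ ∈ Ioo 0 (π / r), ∑ a, (w a : ℂ) * Y₀ a μ θ = 0) :
    w = 0 := by
  set W := ∑ a, w a ^ 2 with hW
  set N : ℝ := ((Finset.Icc (-(m₀ : ℤ)) m₀).card : ℝ) with hN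
  have key : ∀ ε, 0 < ε → W ≤ 2 * π * (N * (ε * (W * (M * lp)))) := by
    intro ε hε
    obtain ⟨δ, C, hδ, hδ', hC, hnc⟩ := nonconc c hε
    have h1 : ∀ η, 0 < η → W ≤ 2 * π * (N * (ε * (W * (M * lp)) + C * η ^ 2)) := by
      intro η hη
      have h2 : ∀ μ ∈ Finset.Icc (-(m₀ : ℤ)) m₀, ∀ᶠ p in atTop, ∀ θ ∈ Icc δ (π / r - δ),
          ‖∑ a, (w a : ℂ) * Y p a μ θ‖ ≤ η := by
        intro μ hμ
        have hcc : CC (fun p θ => ∑ a, (w a : ℂ) * Y p a μ θ) (fun θ => ∑ a, (w a : ℂ) * Y₀ a μ θ)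
            (Ioo 0 (π / r)) := fun θ hθ =>
          tendsto_finsetSum _ fun a _ => (hY a μ hμ θ hθ).const_mul _
        have hsub : Icc δ (π / r - δ) ⊆ Ioo 0 (π / r) := fun θ h =>
          ⟨hδ.trans_le h.1, h.2.trans_lt (by linarith)⟩
        exact hcc.small isCompact_Icc hsub (fun θ hθ => h0 μ hμ θ (hsub hθ)) hη
      obtain ⟨p, hp⟩ := ((Finset.eventually_all _).2 h2).exists
      have hm : W = _ := (hD p).mass w
      refine hm.trans_le (mul_le_mul_of_nonneg_left ?_ (by positivity))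
      refine (Finset.sum_le_card_nsmul _ _ (ε * (W * (M * lp)) + C * η ^ 2) fun μ hμ => ?_).trans
        (le_of_eq (nsmul_eq_mul _ _))
      refine (hnc (fun s => ∑ a, (w a : ℂ) * Y p a μ s) (η ^ 2)
        (ContDiff.sum fun a _ => contDiff_const.mul ((hD p).c1 a μ))
        fun θ hθ => pow_le_pow_left₀ (norm_nonneg _) (hp μ hμ θ hθ) 2).trans ?_
      have := energy_comb c (hD p) w hμ
      gcongr
    have := le_at_zero (g := fun η => 2 * π * (N * (ε * (W * (M * lp)) + C * η ^ 2)))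
      (by fun_prop) h1
    simpa using this
  have h3 := le_at_zero (g := fun ε => 2 * π * (N * (ε * (W * (M * lp))))) (by fun_prop) key
  simp only [zero_mul, mul_zero] at h3
  have h4 := (Finset.sum_eq_zero_iff_of_nonneg fun a _ => sq_nonneg (w a)).1
    (le_antisymm h3 (Finset.sum_nonneg fun a _ => sq_nonneg (w a)))
  funext a
  exact pow_eq_zero_iff two_ne_zero |>.1 (h4 a (Finset.mem_univ a))

theorem cont_sgm (r : ℕ) : Continuous (sgm r) := by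
  unfold sgm vp
  split_ifs <;> fun_prop

theorem abs_sgm_le (r : ℕ) (θ : ℝ) : |sgm r θ| ≤ 1 := by
  unfold sgm vp
  rw [abs_mul, abs_pow]
  refine mul_le_one₀ ?_ (by positivity) (pow_le_one₀ (abs_nonneg _) (abs_sin_le_one θ))
  split_ifs
  · simp
  · exact abs_cos_le_one θ

theorem sgm_pos (c : Cl r n) {θ : ℝ} (h : θ ∈ Ioo 0 (π / r)) : 0 < sgm r θ := by
  have hs := sin_pos c h
  unfold sgm vp
  refine mul_pos ?_ (by positivity)
  rcases c.ok with ⟨rfl, -⟩ | ⟨rfl, -⟩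
  · simp
  · simpa using cos_pos2 h

theorem cont_dens : Continuous fun q : ℝ × ℝ × ℝ × ℂ => dens q.1 q.2.1 q.2.2.1 q.2.2.2 := by
  unfold dens; fun_prop

theorem cont_dens' {α : Type} [TopologicalSpace α] {σ p₁ p₂ : α → ℝ} {Ω : α → ℂ} (h : Continuous σ)
    (h₁ : Continuous p₁) (h₂ : Continuous p₂) (h₃ : Continuous Ω) :
    Continuous fun q => dens (σ q) (p₁ q) (p₂ q) (Ω q) :=
  cont_dens.comp (h.prodMk (h₁.prodMk (h₂.prodMk h₃)))

theorem dens_sum {J : Type} [Fintype J] (σ p₁ p₂ : ℝ) (S : J → ℝ) (Ω : J → ℂ) :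
    dens σ p₁ p₂ (∑ j, (S j : ℂ) * Ω j) = ∑ j, S j * dens σ p₁ p₂ (Ω j) := by
  simp only [dens, Complex.re_sum, Complex.im_sum, Complex.re_ofReal_mul, Complex.im_ofReal_mul,
    Finset.mul_sum, ← Finset.sum_add_distrib]
  exact Finset.sum_congr rfl fun j _ => by ring

theorem abs_dens_le {σ : ℝ} (hσ : |σ| ≤ 1) (p₁ p₂ : ℝ) (Ω : ℂ) :
    |dens σ p₁ p₂ Ω| ≤ (|p₁| + 3 * |p₂|) * ‖Ω‖ := by
  have h1 := Complex.abs_re_le_norm Ω
  have h2 := Complex.abs_im_le_norm Ω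
  have h3 : |σ ^ 2 - 1| ≤ 1 := by
    have : σ ^ 2 ≤ 1 := by rw [← sq_abs]; exact pow_le_one₀ (abs_nonneg _) hσ
    rw [abs_le]; constructor <;> nlinarith [sq_nonneg σ]
  have h4 : |2 * σ * Ω.re + (σ ^ 2 - 1) * Ω.im| ≤ 3 * ‖Ω‖ := by
    refine (abs_add_le _ _).trans ?_
    rw [abs_mul, abs_mul, abs_mul, abs_two]
    calc 2 * |σ| * |Ω.re| + |σ ^ 2 - 1| * |Ω.im| ≤ 2 * 1 * ‖Ω‖ + 1 * ‖Ω‖ := by gcongr
      _ = _ := by ring
  unfold dens
  rw [abs_mul]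
  calc |σ| * |-p₁ * Ω.im + p₂ * (2 * σ * Ω.re + (σ ^ 2 - 1) * Ω.im)|
      ≤ 1 * (|p₁| * ‖Ω‖ + |p₂| * (3 * ‖Ω‖)) := by
        gcongr
        refine (abs_add_le _ _).trans ?_
        rw [abs_mul, abs_mul, abs_neg]
        gcongr
    _ = _ := by ring

theorem sint_add {f g : ℝ → ℝ → ℝ} (hf : Continuous fun p : ℝ × ℝ => f p.1 p.2)
    (hg : Continuous fun p : ℝ × ℝ => g p.1 p.2) :
    sint r n (fun θ φ => f θ φ + g θ φ) = sint r n f + sint r n g := by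
  have := sint_sum (r := r) (n := n) (Finset.univ : Finset Bool) (fun _ => 1)
    (fun b => bif b then f else g) (fun b => by cases b <;> simpa)
  simpa using this

theorem omega_zero (c : Cl r n) {J : Type} [Fintype J] (S : ℕ → J → ℝ) (hS : ∀ p j, |S p j| ≤ 1)
    (S₀ : J → ℝ) (hS₀ : ∀ j, Tendsto (fun p => S p j) atTop (𝓝 (S₀ j)))
    (U V : ℕ → J → ℝ → ℝ → ℂ) (hUc : ∀ p j, Continuous fun q : ℝ × ℝ => U p j q.1 q.2)
    (hVc : ∀ p j, Continuous fun q : ℝ × ℝ => V p j q.1 q.2) {B : ℝ}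
    (hU2 : ∀ p j, sint r n (fun θ φ => ‖U p j θ φ‖ ^ 2) ≤ B)
    (hV2 : ∀ p j, sint r n (fun θ φ => ‖V p j θ φ‖ ^ 2) ≤ B) (U₀ V₀ : J → ℝ → ℝ → ℂ)
    (hU : ∀ j, CC (fun p (q : ℝ × ℝ) => U p j q.1 q.2) (fun q => U₀ j q.1 q.2)
      (Ioo 0 (π / r) ×ˢ univ))
    (hV : ∀ j, CC (fun p (q : ℝ × ℝ) => V p j q.1 q.2) (fun q => V₀ j q.1 q.2)
      (Ioo 0 (π / r) ×ˢ univ))
    (h0 : ∀ P₁ P₂ : P3, ∀ᶠ p in atTop, ∑ j, S p j * sint r n (fun θ φ =>
      dens (sgm r θ) (eval (pt r θ φ) P₁) (eval (pt r θ φ) P₂) (U p j θ φ * V p j θ φ)) = 0) :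
    ∀ θ ∈ Ioo 0 (π / r), ∀ φ ∈ Ioo 0 (2 * π), ∑ j, (S₀ j : ℂ) * (U₀ j θ φ * V₀ j θ φ) = 0 := by
  have key : ∀ s₁ s₂ : ℝ, ∀ θ ∈ Ioo 0 (π / r), ∀ φ ∈ Ioo 0 (2 * π),
      dens (sgm r θ) s₁ s₂ (∑ j, (S₀ j : ℂ) * (U₀ j θ φ * V₀ j θ φ)) = 0 := by
    intro s₁ s₂
    have hσ : Continuous fun q : ℝ × ℝ => sgm r q.1 := (cont_sgm r).comp continuous_fst
    have hfc : ∀ p, Continuous fun q : ℝ × ℝ =>
        dens (sgm r q.1) s₁ s₂ (∑ j, (S p j : ℂ) * (U p j q.1 q.2 * V p j q.1 q.2)) := fun p =>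
      cont_dens.comp (hσ.prodMk (continuous_const.prodMk (continuous_const.prodMk
        (continuous_finsetSum _ fun j _ => continuous_const.mul ((hUc p j).mul (hVc p j))))))
    refine test_zero c
      (fun p θ φ => dens (sgm r θ) s₁ s₂ (∑ j, (S p j : ℂ) * (U p j θ φ * V p j θ φ)))
      (fun θ φ => dens (sgm r θ) s₁ s₂ (∑ j, (S₀ j : ℂ) * (U₀ j θ φ * V₀ j θ φ))) hfc
      (C := ∑ _j : J, (|s₁| + 3 * |s₂|) * (B + B)) (fun p => ?_) (CC.tlu fun q hq => ?_) fun Q => ?_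
    · have hc2 : ∀ j, Continuous fun q : ℝ × ℝ => ‖U p j q.1 q.2‖ ^ 2 + ‖V p j q.1 q.2‖ ^ 2 :=
        fun j => ((hUc p j).norm.pow 2).add ((hVc p j).norm.pow 2)
      refine (c.sint_mono (g := fun θ φ => ∑ j, (|s₁| + 3 * |s₂|) *
        (‖U p j θ φ‖ ^ 2 + ‖V p j θ φ‖ ^ 2)) (hfc p).abs
        (continuous_finsetSum _ fun j _ => continuous_const.mul (hc2 j)) fun θ _ φ => ?_).trans ?_
      · refine (abs_dens_le (abs_sgm_le r θ) _ _ _).trans ?_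
        rw [← Finset.mul_sum]
        refine mul_le_mul_of_nonneg_left ((norm_sum_le _ _).trans (Finset.sum_le_sum fun j _ => ?_))
          (by positivity)
        rw [norm_mul, norm_mul, Complex.norm_real, Real.norm_eq_abs]
        have h1 := hS p j
        have h2 := norm_nonneg (U p j θ φ)
        have h3 := norm_nonneg (V p j θ φ)
        calc |S p j| * (‖U p j θ φ‖ * ‖V p j θ φ‖) ≤ 1 * (‖U p j θ φ‖ * ‖V p j θ φ‖) := by gcongr
          _ ≤ _ := by nlinarith [sq_nonneg (‖U p j θ φ‖ - ‖V p j θ φ‖), mul_nonneg h2 h3]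
      · rw [sint_sum Finset.univ (fun _ => |s₁| + 3 * |s₂|)
          (fun j θ φ => ‖U p j θ φ‖ ^ 2 + ‖V p j θ φ‖ ^ 2) hc2]
        refine Finset.sum_le_sum fun j _ => mul_le_mul_of_nonneg_left ?_ (by positivity)
        rw [sint_add (f := fun θ φ => ‖U p j θ φ‖ ^ 2) (g := fun θ φ => ‖V p j θ φ‖ ^ 2)
          ((hUc p j).norm.pow 2) ((hVc p j).norm.pow 2)]
        exact add_le_add (hU2 p j) (hV2 p j)
    · exact (cont_dens.tendsto _).comp ((t_fun hσ.continuousOn hq).prodMk_nhds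
        (tendsto_const_nhds.prodMk_nhds (tendsto_const_nhds.prodMk_nhds
        (tendsto_finsetSum _ fun j _ =>
          ((Complex.continuous_ofReal.tendsto _).comp (t_seq (hS₀ j) _ q)).mul
            ((hU j q hq).mul (hV j q hq))))))
    · filter_upwards [h0 (C s₁ * Q) (C s₂ * Q)] with p hp
      rw [← hp, ← sint_sum Finset.univ (S p) (fun j θ φ => dens (sgm r θ)
        (eval (pt r θ φ) (C s₁ * Q)) (eval (pt r θ φ) (C s₂ * Q)) (U p j θ φ * V p j θ φ))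
        fun j => cont_dens' hσ (contDiff_evalpt (r := r) (C s₁ * Q)).continuous
          (contDiff_evalpt (r := r) (C s₂ * Q)).continuous ((hUc p j).mul (hVc p j))]
      congr 1
      funext θ φ
      rw [← dens_sum]
      simp only [dens, map_mul, eval_C]
      ring
  intro θ hθ φ hφ
  have h1 := key 1 0 θ hθ φ hφ
  have h2 := key 0 1 θ hθ φ hφ
  have hσ := (sgm_pos c hθ).ne'
  generalize ∑ j, (S₀ j : ℂ) * (U₀ j θ φ * V₀ j θ φ) = Ω at h1 h2 ⊢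
  unfold dens at h1 h2
  have h3 : Ω.im = 0 := by simpa [hσ] using h1
  have h4 : Ω.re = 0 := by simpa [hσ, h3] using h2
  exact Complex.ext h4 h3

end Crest.Agent.R202.NoDeg
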