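import Crest.Agent.R202.Surf

/-!
# Three analytic tools for the limit argument (tasks F7a-c)

`ode_limit`: some point of `[a,b]` has `‖u p‖² ≤ C/(b-a)`; Gronwall gives bounds on compact subintervals, so the values at a fixed point have a convergent
subsequence; Gronwall for differences shows the subsequence is locally uniformly Cauchy (or compare with the solution of the limit equation);
`hasDerivAt_of_tendstoLocallyUniformlyOn`.
`nonconc`: `‖f θ‖² ≤ 2‖f δ‖² + 2 (∫‖f'‖² w0) ∫_θ^δ 1/w0`, and `w0(θ) ∫_θ^δ 1/w0 ≤ π/2`-type bounds (monotonicity of `sin`, `cos` near the ends).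
`test_zero`: test with `Ψ ∘ pt`, `Ψ z = max 0 (δ - dist z (pt θ₀ φ₀))`, approximated uniformly on the compact image of `pt` by polynomials (Stone-Weierstrass);
`pt` takes the value `pt θ₀ φ₀` only once on the closed rectangle.
-/

set_option autoImplicit false

noncomputable section

open scoped InnerProductSpace ContDiff
open Set Filter Topology
open MvPolynomial Real

namespace Crest.Agent.R202

theorem ol_gron1 {V : Type} [NormedAddCommGroup V] [NormedSpace ℝ V] {w w' : ℝ → V} {s t K ε : ℝ}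
    (hK : 1 ≤ K) (hε : 0 ≤ ε) (hst : s ≤ t) (hw : ∀ x ∈ Icc s t, HasDerivAt w (w' x) x)
    (hb : ∀ x ∈ Icc s t, ‖w' x‖ ≤ K * ‖w x‖ + ε) : ‖w t‖ ≤ (‖w s‖ + ε) * exp (K * (t - s)) := by
  have h := norm_le_gronwallBound_of_norm_deriv_right_le (f := w) (f' := w') (δ := ‖w s‖) (K := K)
    (ε := ε) (a := s) (b := t) (fun x hx => (hw x hx).continuousAt.continuousWithinAt)
    (fun x hx => (hw x (Ico_subset_Icc_self hx)).hasDerivWithinAt) le_rfl
    (fun x hx => hb x (Ico_subset_Icc_self hx)) t ⟨hst, le_rfl⟩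
  rw [gronwallBound_of_K_ne_0 (by linarith)] at h
  simp only at h
  have h1 : ε / K ≤ ε := div_le_self hε hK
  have h2 : 0 ≤ ε / K := by positivity
  have h3 : 1 ≤ exp (K * (t - s)) := one_le_exp (mul_nonneg (by linarith) (by linarith))
  nlinarith

/-- two-sided Gronwall inequality -/
theorem ol_gron {V : Type} [NormedAddCommGroup V] [NormedSpace ℝ V] {w w' : ℝ → V} {a b K ε : ℝ}
    (hK : 1 ≤ K) (hε : 0 ≤ ε) (hw : ∀ x ∈ Icc a b, HasDerivAt w (w' x) x)
    (hb : ∀ x ∈ Icc a b, ‖w' x‖ ≤ K * ‖w x‖ + ε) {s t : ℝ} (hs : s ∈ Icc a b) (ht : t ∈ Icc a b) :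
    ‖w t‖ ≤ (‖w s‖ + ε) * exp (K * (b - a)) := by
  rcases le_total s t with h | h
  · have hsub : Icc s t ⊆ Icc a b := Icc_subset_Icc hs.1 ht.2
    refine (ol_gron1 hK hε h (fun x hx => hw x (hsub hx)) (fun x hx => hb x (hsub hx))).trans ?_
    have : t - s ≤ b - a := by linarith [hs.1, ht.2]
    gcongr
  · have hm : ∀ x ∈ Icc (-s) (-t), -x ∈ Icc a b := fun x hx =>
      ⟨by linarith [hx.2, ht.1], by linarith [hx.1, hs.2]⟩
    have := ol_gron1 (w := fun x => w (-x)) (w' := fun x => -w' (-x)) (s := -s) (t := -t) hK hε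
      (by linarith) (fun x hx => by
        have := (hw (-x) (hm x hx)).scomp x (hasDerivAt_neg x)
        simpa [Function.comp_def] using this)
      (fun x hx => by rw [norm_neg]; exact hb (-x) (hm x hx))
    simp only [neg_neg] at this
    refine this.trans ?_
    have : -t - -s ≤ b - a := by linarith [hs.2, ht.1]
    gcongr

theorem ol_unif {E : Type} [NormedAddCommGroup E] {F : ℕ → ℝ → E} {f : ℝ → E} {L α β : ℝ}
    (h : TendstoLocallyUniformlyOn F f atTop (Ioo 0 L)) (hα : 0 < α) (hβ : β < L) {η : ℝ}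
    (hη : 0 < η) : ∀ᶠ p in atTop, ∀ x ∈ Icc α β, ‖F p x - f x‖ < η := by
  have hsub : Icc α β ⊆ Ioo 0 L := fun x hx => ⟨by linarith [hx.1], by linarith [hx.2]⟩
  have h1 := (tendstoLocallyUniformlyOn_iff_tendstoUniformlyOn_of_compact isCompact_Icc).1
    (h.mono hsub)
  filter_upwards [Metric.tendstoUniformlyOn_iff.1 h1 η hη] with p hp x hx
  rw [← dist_eq_norm, dist_comm]
  exact hp x hx

theorem ol_loc {E : Type} [NormedAddCommGroup E] {F : ℕ → ℝ → E} {f : ℝ → E} {L a b : ℝ}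
    (ha : 0 < a) (hb : b < L)
    (h : ∀ α β, 0 < α → α ≤ a → b ≤ β → β < L → ∀ η > 0,
      ∀ᶠ p in atTop, ∀ x ∈ Icc α β, ‖F p x - f x‖ < η) :
    TendstoLocallyUniformlyOn F f atTop (Ioo 0 L) := by
  rw [Metric.tendstoLocallyUniformlyOn_iff]
  intro η hη x hx
  refine ⟨Icc (min a (x / 2)) (max b ((x + L) / 2)), mem_nhdsWithin_of_mem_nhds (Icc_mem_nhds ?_ ?_), ?_⟩
  · exact min_lt_of_right_lt (by linarith [hx.1])
  · exact lt_max_of_lt_right (by linarith [hx.2])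
  · filter_upwards [h (min a (x / 2)) (max b ((x + L) / 2)) (lt_min ha (by linarith [hx.1]))
      (min_le_left _ _) (le_max_left _ _) (max_lt hb (by linarith [hx.2])) η hη] with p hp y hy
    rw [dist_comm, dist_eq_norm]
    exact hp y hy

theorem ode_limit {V : Type} [NormedAddCommGroup V] [NormedSpace ℝ V] [FiniteDimensional ℝ V] {L : ℝ}
    (A : ℕ → ℝ → V →L[ℝ] V) (A₀ : ℝ → V →L[ℝ] V) (hA : ∀ p, ContinuousOn (A p) (Ioo 0 L))
    (hlim : TendstoLocallyUniformlyOn A A₀ atTop (Ioo 0 L)) (u : ℕ → ℝ → V)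
    (hu : ∀ p, ∀ θ ∈ Ioo 0 L, HasDerivAt (u p) (A p θ (u p θ)) θ) {a b C : ℝ} (ha : 0 < a)
    (hab : a < b) (hb : b < L) (hC : ∀ p, ∫ θ in a..b, ‖u p θ‖ ^ 2 ≤ C) :
    ∃ (φ : ℕ → ℕ) (u₀ : ℝ → V), StrictMono φ ∧ (∀ θ ∈ Ioo 0 L, HasDerivAt u₀ (A₀ θ (u₀ θ)) θ) ∧
      TendstoLocallyUniformlyOn (fun p => u (φ p)) u₀ atTop (Ioo 0 L) := by
  have : ProperSpace V := FiniteDimensional.proper ℝ V
  have hA₀ : ContinuousOn A₀ (Ioo 0 L) := hlim.continuousOn (Frequently.of_forall hA)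
  have hsub : ∀ {α β : ℝ}, 0 < α → β < L → Icc α β ⊆ Ioo 0 L := fun hα hβ x hx =>
    ⟨by linarith [hx.1], by linarith [hx.2]⟩
  -- a good point
  have hpt : ∀ p, ∃ s ∈ Icc a b, ‖u p s‖ ≤ C / (b - a) + 1 := by
    intro p
    have hc : ContinuousOn (fun θ => ‖u p θ‖ ^ 2) (Icc a b) := fun x hx =>
      ((hu p x (hsub ha hb hx)).continuousAt.norm.pow 2).continuousWithinAt
    obtain ⟨s, hs, hmin⟩ := isCompact_Icc.exists_isMinOn (nonempty_Icc.2 hab.le) hc
    refine ⟨s, hs, ?_⟩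
    have h1 : ∫ _ in a..b, ‖u p s‖ ^ 2 ≤ ∫ θ in a..b, ‖u p θ‖ ^ 2 :=
      intervalIntegral.integral_mono_on hab.le intervalIntegrable_const
        (hc.intervalIntegrable_of_Icc hab.le) fun x hx => hmin hx
    rw [intervalIntegral.integral_const, smul_eq_mul] at h1
    have h2 : ‖u p s‖ ^ 2 ≤ C / (b - a) := by
      rw [le_div_iff₀ (by linarith)]
      linarith [hC p]
    nlinarith [sq_nonneg (‖u p s‖ - 1), norm_nonneg (u p s)]
  -- bounds on compact intervals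
  have hbd : ∀ α β, 0 < α → α ≤ a → b ≤ β → β < L → ∃ K M : ℝ, 1 ≤ K ∧ 0 < M ∧
      (∀ x ∈ Icc α β, ‖A₀ x‖ ≤ K) ∧
      ∀ᶠ p in atTop, ∀ x ∈ Icc α β, ‖A p x‖ ≤ K ∧ ‖u p x‖ ≤ M := by
    intro α β hα hαa hbβ hβ
    obtain ⟨K, hK⟩ := isCompact_Icc.exists_bound_of_continuousOn (hA₀.mono (hsub hα hβ))
    have hK0 : 0 ≤ K := (norm_nonneg _).trans (hK a ⟨hαa, by linarith⟩)
    refine ⟨K + 1, (|C / (b - a) + 1| + 1) * exp ((K + 1) * (β - α)), by linarith, by positivity,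
      fun x hx => by linarith [hK x hx], ?_⟩
    filter_upwards [ol_unif hlim hα hβ one_pos] with p hp
    have hAp : ∀ x ∈ Icc α β, ‖A p x‖ ≤ K + 1 := fun x hx => by
      have := norm_le_norm_add_norm_sub' (A p x) (A₀ x)
      linarith [hp x hx, hK x hx]
    intro x hx
    refine ⟨hAp x hx, ?_⟩
    obtain ⟨s, hs, hs'⟩ := hpt p
    have := ol_gron (w := u p) (w' := fun θ => A p θ (u p θ)) (K := K + 1) (ε := 0) (by linarith)
      le_rfl (fun y hy => hu p y (hsub hα hβ hy)) (fun y hy => by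
        rw [add_zero]
        exact ((A p y).le_opNorm _).trans (by gcongr; exact hAp y hy))
      (s := s) ⟨by linarith [hs.1], by linarith [hs.2]⟩ hx
    refine this.trans ?_
    gcongr
    · exact hs'.trans (le_abs_self _)
    · norm_num
  obtain ⟨K₀, M₀, -, -, -, h₀⟩ := hbd a b ha le_rfl le_rfl hb
  obtain ⟨v, -, φ, hφ, hv⟩ := tendsto_subseq_of_frequently_bounded
    (Metric.isBounded_closedBall (x := (0 : V)) (r := M₀)) (x := fun p => u p a)
    (h₀.mono fun p hp => by simpa using (hp a ⟨le_rfl, hab.le⟩).2).frequently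
  have hφ' := hφ.tendsto_atTop
  have hcau : ∀ α β, 0 < α → α ≤ a → b ≤ β → β < L →
      UniformCauchySeqOn (fun p => u (φ p)) atTop (Icc α β) := by
    intro α β hα hαa hbβ hβ
    obtain ⟨K, M, hK, hM, -, hKM⟩ := hbd α β hα hαa hbβ hβ
    rw [Metric.uniformCauchySeqOn_iff]
    intro η hη
    set E := exp (K * (β - α)) with hE
    have hE0 : 0 < E := exp_pos _
    have h1 := hφ'.eventually (hKM.and (ol_unif hlim hα hβ
      (show 0 < η / (4 * E * M) by positivity)))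
    obtain ⟨N₁, hN₁⟩ := eventually_atTop.1 h1
    obtain ⟨N₂, hN₂⟩ := Metric.cauchySeq_iff.1 hv.cauchySeq (η / (2 * E)) (by positivity)
    refine ⟨max N₁ N₂, fun m hm n hn x hx => ?_⟩
    obtain ⟨hm1, hm2⟩ := hN₁ m ((le_max_left _ _).trans hm)
    obtain ⟨hn1, hn2⟩ := hN₁ n ((le_max_left _ _).trans hn)
    have h2 := hN₂ m ((le_max_right _ _).trans hm) n ((le_max_right _ _).trans hn)
    simp only [Function.comp_apply, dist_eq_norm] at h2 ⊢
    have h3 := ol_gron (w := fun θ => u (φ m) θ - u (φ n) θ)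
      (w' := fun θ => A (φ m) θ (u (φ m) θ) - A (φ n) θ (u (φ n) θ)) (K := K)
      (ε := η / (2 * E)) hK (by positivity)
      (fun y hy => (hu _ y (hsub hα hβ hy)).sub (hu _ y (hsub hα hβ hy))) (fun y hy => by
        have e : A (φ m) y (u (φ m) y) - A (φ n) y (u (φ n) y) =
            A (φ m) y (u (φ m) y - u (φ n) y) +
              ((A (φ m) y - A₀ y) (u (φ n) y) - (A (φ n) y - A₀ y) (u (φ n) y)) := by
          simp only [map_sub, sub_apply]; abel
        have h4 : ∀ B : V →L[ℝ] V, ‖B‖ < η / (4 * E * M) → ‖B (u (φ n) y)‖ ≤ η / (4 * E) := by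
          intro B hB
          refine (B.le_opNorm _).trans ?_
          calc ‖B‖ * ‖u (φ n) y‖ ≤ η / (4 * E * M) * M := by
                gcongr
                exact (hn1 y hy).2
            _ = η / (4 * E) := by field_simp
        rw [e]
        refine (norm_add_le _ _).trans (add_le_add ?_ ((norm_sub_le _ _).trans ?_))
        · exact ((A (φ m) y).le_opNorm _).trans (by gcongr; exact (hm1 y hy).1)
        · have := h4 _ (hm2 y hy)
          have := h4 _ (hn2 y hy)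
          have e2 : η / (2 * E) = η / (4 * E) + η / (4 * E) := by field_simp; ring
          linarith)
      (s := a) ⟨hαa, by linarith⟩ hx
    refine h3.trans_lt ?_
    calc (‖u (φ m) a - u (φ n) a‖ + η / (2 * E)) * E < (η / (2 * E) + η / (2 * E)) * E := by gcongr
      _ = η := by field_simp; ring
  set u₀ : ℝ → V := fun θ => limUnder atTop fun p => u (φ p) θ with hu₀
  have hconv : ∀ α β, 0 < α → α ≤ a → b ≤ β → β < L → ∀ η > 0,
      ∀ᶠ p in atTop, ∀ x ∈ Icc α β, ‖u (φ p) x - u₀ x‖ < η := by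
    intro α β hα hαa hbβ hβ η hη
    have h1 := (hcau α β hα hαa hbβ hβ).tendstoUniformlyOn_of_tendsto (f := u₀) fun x hx =>
      ((hcau α β hα hαa hbβ hβ).cauchySeq hx).tendsto_limUnder
    filter_upwards [Metric.tendstoUniformlyOn_iff.1 h1 η hη] with p hp x hx
    rw [← dist_eq_norm, dist_comm]
    exact hp x hx
  have hloc : TendstoLocallyUniformlyOn (fun p => u (φ p)) u₀ atTop (Ioo 0 L) := ol_loc ha hb hconv
  refine ⟨φ, u₀, hφ, fun θ hθ => ?_, hloc⟩
  refine hasDerivAt_of_tendstoLocallyUniformlyOn (l := atTop) (f := fun p => u (φ p))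
    (f' := fun p θ => A (φ p) θ (u (φ p) θ)) (g' := fun θ => A₀ θ (u₀ θ)) isOpen_Ioo ?_
    (Eventually.of_forall fun p => hu (φ p)) (fun x hx => hloc.tendsto_at hx) hθ
  refine ol_loc ha hb fun α β hα hαa hbβ hβ η hη => ?_
  obtain ⟨K, M, hK, hM, hK₀, hKM⟩ := hbd α β hα hαa hbβ hβ
  filter_upwards [hφ'.eventually (hKM.and (ol_unif hlim hα hβ
      (show 0 < η / (2 * M) by positivity))),
    hconv α β hα hαa hbβ hβ (η / (2 * K)) (by positivity)] with p hp hp' x hx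
  have e : A (φ p) x (u (φ p) x) - A₀ x (u₀ x) =
      (A (φ p) x - A₀ x) (u (φ p) x) + A₀ x (u (φ p) x - u₀ x) := by
    simp only [map_sub, sub_apply]; abel
  rw [e]
  have h1 : ‖(A (φ p) x - A₀ x) (u (φ p) x)‖ ≤ η / (2 * M) * M :=
    (ContinuousLinearMap.le_opNorm _ _).trans (by
      gcongr
      · exact (hp.2 x hx).le
      · exact (hp.1 x hx).2)
  have h2 : ‖A₀ x (u (φ p) x - u₀ x)‖ < K * (η / (2 * K)) :=
    (ContinuousLinearMap.le_opNorm _ _).trans_lt (by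
      calc ‖A₀ x‖ * ‖u (φ p) x - u₀ x‖ ≤ K * ‖u (φ p) x - u₀ x‖ := by gcongr; exact hK₀ x hx
        _ < K * (η / (2 * K)) := by gcongr; exact hp' x hx)
  have e1 : η / (2 * M) * M = η / 2 := by field_simp
  have e2 : K * (η / (2 * K)) = η / 2 := by field_simp
  linarith [norm_add_le ((A (φ p) x - A₀ x) (u (φ p) x)) (A₀ x (u (φ p) x - u₀ x))]

theorem ode_zero {V : Type} [NormedAddCommGroup V] [NormedSpace ℝ V] {a b : ℝ} {A : ℝ → V →L[ℝ] V}
    (hA : ContinuousOn A (Ioo a b)) {u : ℝ → V} (hu : ∀ θ ∈ Ioo a b, HasDerivAt u (A θ (u θ)) θ)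
    {θ₀ : ℝ} (h₀ : θ₀ ∈ Ioo a b) (h : u θ₀ = 0) : ∀ θ ∈ Ioo a b, u θ = 0 := by
  intro θ hθ
  have hsub : Icc (min θ θ₀) (max θ θ₀) ⊆ Ioo a b := fun x hx =>
    ⟨(lt_min hθ.1 h₀.1).trans_le hx.1, hx.2.trans_lt (max_lt hθ.2 h₀.2)⟩
  obtain ⟨K, hK⟩ := isCompact_Icc.exists_bound_of_continuousOn (hA.mono hsub)
  have := ol_gron (w := u) (w' := fun θ => A θ (u θ)) (K := max K 1) (ε := 0) (le_max_right _ _)
    le_rfl (fun y hy => hu y (hsub hy)) (fun y hy => by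
      rw [add_zero]
      exact ((A y).le_opNorm _).trans (by gcongr; exact (hK y hy).trans (le_max_left _ _)))
    (s := θ₀) (t := θ) ⟨min_le_right _ _, le_max_right _ _⟩ ⟨min_le_left _ _, le_max_left _ _⟩
  rw [h, norm_zero, add_zero, zero_mul] at this
  exact norm_le_zero_iff.1 this

theorem ol_cs {h : ℝ → ℝ} (hh : Continuous h) {x y : ℝ} (hxy : x ≤ y) :
    (∫ s in x..y, h s) ^ 2 ≤ (y - x) * ∫ s in x..y, h s ^ 2 := by
  have key : ∀ t : ℝ, 0 ≤ (y - x) * (t * t) + (-2 * ∫ s in x..y, h s) * t + ∫ s in x..y, h s ^ 2 := by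
    intro t
    have h1 : 0 ≤ ∫ s in x..y, (t - h s) ^ 2 :=
      intervalIntegral.integral_nonneg hxy fun _ _ => sq_nonneg _
    have e : ∀ s, (t - h s) ^ 2 = t * t + (-2 * t) * h s + h s ^ 2 := fun s => by ring
    simp only [e] at h1
    rw [intervalIntegral.integral_add, intervalIntegral.integral_add,
      intervalIntegral.integral_const, intervalIntegral.integral_const_mul, smul_eq_mul] at h1
    · linarith
    all_goals exact Continuous.intervalIntegrable (by fun_prop) _ _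
  have := discrim_le_zero key
  unfold discrim at this
  nlinarith

theorem ol_diff {f : ℝ → ℂ} (hf : ContDiff ℝ 1 f) {x y : ℝ} (hxy : x ≤ y) :
    ‖f y - f x‖ ^ 2 ≤ (y - x) * ∫ s in x..y, ‖deriv f s‖ ^ 2 := by
  have hc : Continuous (deriv f) := hf.continuous_deriv le_rfl
  have h1 : ∫ s in x..y, deriv f s = f y - f x :=
    intervalIntegral.integral_deriv_eq_sub (fun s _ => hf.differentiable one_ne_zero s)
      (hc.intervalIntegrable _ _)
  refine le_trans ?_ (ol_cs hc.norm hxy)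
  rw [← h1]
  gcongr
  exact intervalIntegral.norm_integral_le_integral_norm hxy

theorem ol_pt {f : ℝ → ℂ} (hf : ContDiff ℝ 1 f) {w : ℝ → ℝ} (hw : Continuous w) {L K : ℝ}
    (hw0 : ∀ s ∈ Icc 0 L, 0 ≤ w s) (hK : 0 ≤ K) {x y v : ℝ} (hx : 0 ≤ x) (hxy : x ≤ y) (hy : y ≤ L)
    (hv : 0 ≤ v) (hvw : ∀ s ∈ Icc x y, v ≤ K * w s) :
    ‖f y - f x‖ ^ 2 * v ≤ (y - x) * K * ∫ s in (0 : ℝ)..L, ‖deriv f s‖ ^ 2 * w s := by
  have hc : Continuous (deriv f) := hf.continuous_deriv le_rfl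
  have h1 : (∫ s in x..y, ‖deriv f s‖ ^ 2) * v ≤ K * ∫ s in x..y, ‖deriv f s‖ ^ 2 * w s := by
    rw [← intervalIntegral.integral_mul_const, ← intervalIntegral.integral_const_mul]
    refine intervalIntegral.integral_mono_on hxy (Continuous.intervalIntegrable (by fun_prop) _ _)
      (Continuous.intervalIntegrable (by fun_prop) _ _) fun s hs => ?_
    nlinarith [hvw s hs, sq_nonneg ‖deriv f s‖]
  have h2 : ∫ s in x..y, ‖deriv f s‖ ^ 2 * w s ≤ ∫ s in (0 : ℝ)..L, ‖deriv f s‖ ^ 2 * w s := by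
    refine intervalIntegral.integral_mono_interval hx hxy hy ?_
      (Continuous.intervalIntegrable (by fun_prop) _ _)
    filter_upwards [MeasureTheory.ae_restrict_mem measurableSet_Ioc] with s hs
    exact mul_nonneg (sq_nonneg _) (hw0 s (Ioc_subset_Icc_self hs))
  have h3 : 0 ≤ y - x := by linarith
  calc ‖f y - f x‖ ^ 2 * v ≤ ((y - x) * ∫ s in x..y, ‖deriv f s‖ ^ 2) * v := by
        gcongr; exact ol_diff hf hxy
    _ = (y - x) * ((∫ s in x..y, ‖deriv f s‖ ^ 2) * v) := by ring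
    _ ≤ (y - x) * (K * ∫ s in (0 : ℝ)..L, ‖deriv f s‖ ^ 2 * w s) := by
        exact mul_le_mul_of_nonneg_left (h1.trans (mul_le_mul_of_nonneg_left h2 hK)) h3
    _ = _ := by ring

theorem ol_L {r n : ℕ} (c : Cl r n) : π / 2 ≤ π / r ∧ π / r ≤ π := by
  have := pi_pos
  rcases c.ok with ⟨rfl, -, -⟩ | ⟨rfl, -, -⟩
  · simp only [Nat.cast_one, div_one]; constructor <;> linarith
  · simp only [Nat.cast_ofNat]; constructor <;> linarith

theorem ol_w_le (n : ℕ) (θ : ℝ) : w0 n θ ≤ 1 := by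
  refine (le_abs_self _).trans ?_
  rw [w0, abs_mul, abs_pow]
  exact mul_le_one₀ (abs_sin_le_one θ) (by positivity)
    (pow_le_one₀ (abs_nonneg _) (abs_cos_le_one θ))

theorem ol_half {s : ℝ} (h0 : 0 ≤ s) (h1 : s ≤ 1 / 2) : 1 / 2 ≤ cos s := by
  have := one_sub_sq_div_two_le_cos (x := s)
  nlinarith

theorem ol_w_left (n : ℕ) {θ s : ℝ} (h0 : 0 ≤ θ) (h1 : θ ≤ s) (h2 : s ≤ 1 / 2) :
    w0 n θ ≤ 2 ^ (n - 3 + 1) * w0 n s := by
  have hp := pi_gt_three
  have h3 : sin θ ≤ sin s := sin_le_sin_of_le_of_le_pi_div_two (by linarith) (by linarith) h1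
  have h4 : 0 ≤ sin θ := sin_nonneg_of_nonneg_of_le_pi h0 (by linarith)
  have h5 := ol_half (h0.trans h1) h2
  have h6 := ol_half h0 (h1.trans h2)
  have h7 : cos θ ^ (n - 3) ≤ (2 * cos s) ^ (n - 3) := by
    gcongr
    linarith [cos_le_one θ]
  unfold w0
  calc sin θ * cos θ ^ (n - 3) ≤ sin s * (2 * cos s) ^ (n - 3) := by
        gcongr
        linarith
    _ = 1 * (2 ^ (n - 3) * (sin s * cos s ^ (n - 3))) := by rw [mul_pow]; ring
    _ ≤ 2 * (2 ^ (n - 3) * (sin s * cos s ^ (n - 3))) := by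
        gcongr
        · have : 0 ≤ sin s := by linarith
          positivity
        · norm_num
    _ = _ := by ring

theorem ol_w_right {r n : ℕ} (c : Cl r n) {θ s : ℝ} (h0 : θ ≤ π / r) (h1 : s ≤ θ)
    (h2 : π / r - 1 / 2 ≤ s) : w0 n θ ≤ 2 ^ (n - 3 + 1) * w0 n s := by
  have hp := pi_gt_three
  rcases c.ok with ⟨rfl, rfl, -⟩ | ⟨rfl, -, -⟩
  · simp only [Nat.cast_one, div_one] at h0 h2
    have h3 : sin (π - θ) ≤ sin (π - s) :=
      sin_le_sin_of_le_of_le_pi_div_two (by linarith) (by linarith) (by linarith)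
    rw [sin_pi_sub, sin_pi_sub] at h3
    have h4 : 0 ≤ sin s := sin_nonneg_of_nonneg_of_le_pi (by linarith) (by linarith)
    simp only [w0, Nat.sub_self, pow_zero, mul_one, zero_add, pow_one]
    linarith
  · simp only [Nat.cast_ofNat] at h0 h2
    have h3 : cos θ ≤ cos s := cos_le_cos_of_nonneg_of_le_pi (by linarith) (by linarith) h1
    have h4 : 0 ≤ cos θ := cos_nonneg_of_neg_pi_div_two_le_of_le (by linarith) h0
    have h5 := ol_half (s := π / 2 - s) (by linarith) (by linarith)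
    rw [cos_pi_div_two_sub] at h5
    have h6 : (1 : ℝ) ≤ 2 ^ (n - 3) := one_le_pow₀ one_le_two
    unfold w0
    calc sin θ * cos θ ^ (n - 3) ≤ (2 * sin s) * cos s ^ (n - 3) := by
          gcongr
          linarith [sin_le_one θ]
      _ = 1 * (2 * (sin s * cos s ^ (n - 3))) := by ring
      _ ≤ 2 ^ (n - 3) * (2 * (sin s * cos s ^ (n - 3))) := by
          gcongr
          have : 0 ≤ sin s := by linarith
          have : 0 ≤ cos s := by linarith
          positivity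
      _ = _ := by ring

theorem ol_w_cont (n : ℕ) : Continuous (w0 n) := by
  unfold w0; fun_prop

theorem nonconc {r n : ℕ} (c : Cl r n) {ε : ℝ} (hε : 0 < ε) : ∃ δ C : ℝ, 0 < δ ∧ δ < π / r - δ ∧
    0 < C ∧ ∀ (f : ℝ → ℂ) (B : ℝ), ContDiff ℝ 1 f → (∀ θ ∈ Icc δ (π / r - δ), ‖f θ‖ ^ 2 ≤ B) →
      ∫ θ in (0 : ℝ)..π / r, ‖f θ‖ ^ 2 * w0 n θ ≤
        ε * (∫ θ in (0 : ℝ)..π / r, ‖deriv f θ‖ ^ 2 * w0 n θ) + C * B := by
  have hp := pi_gt_three
  have hp' := pi_lt_four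
  obtain ⟨hL1, hL2⟩ := ol_L c
  set L := π / r with hL
  set K : ℝ := 2 ^ (n - 3 + 1) with hK
  have hK0 : 0 < K := by positivity
  set δ := min (1 / 2) (ε / (8 * K)) with hδ
  have hδ0 : 0 < δ := lt_min (by norm_num) (by positivity)
  have hδ1 : δ ≤ 1 / 2 := min_le_left _ _
  have hδ2 : δ * (8 * K) ≤ ε := (le_div_iff₀ (by positivity)).1 (min_le_right _ _)
  refine ⟨δ, 8, hδ0, by linarith, by norm_num, fun f B hf hB => ?_⟩
  have hw0 : ∀ s ∈ Icc 0 L, 0 ≤ w0 n s := fun s hs => c.w0_nonneg hs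
  have hc : Continuous (deriv f) := hf.continuous_deriv le_rfl
  have hfc : Continuous f := hf.continuous
  have hwc := ol_w_cont n
  set E := ∫ θ in (0 : ℝ)..L, ‖deriv f θ‖ ^ 2 * w0 n θ with hE
  have hE0 : 0 ≤ E := intervalIntegral.integral_nonneg (by linarith) fun s hs =>
    mul_nonneg (sq_nonneg _) (hw0 s hs)
  have hB0 : 0 ≤ B := (sq_nonneg _).trans (hB δ ⟨le_rfl, by linarith⟩)
  have aux : ∀ θ ∈ Icc 0 L, ∀ y ∈ Icc δ (L - δ), ‖f θ - f y‖ ^ 2 * w0 n θ ≤ δ * K * E →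
      ‖f θ‖ ^ 2 * w0 n θ ≤ 2 * B + 2 * (δ * K * E) := by
    intro θ hθ y hy h
    have h1 : ‖f θ‖ ≤ ‖f y‖ + ‖f θ - f y‖ := norm_le_norm_add_norm_sub' _ _
    have h2 : ‖f θ‖ ^ 2 ≤ 2 * ‖f y‖ ^ 2 + 2 * ‖f θ - f y‖ ^ 2 := by
      have : ‖f θ‖ ^ 2 ≤ (‖f y‖ + ‖f θ - f y‖) ^ 2 := by gcongr
      nlinarith [sq_nonneg (‖f y‖ - ‖f θ - f y‖)]
    have h3 : ‖f y‖ ^ 2 * w0 n θ ≤ B := by
      calc ‖f y‖ ^ 2 * w0 n θ ≤ B * 1 :=
            mul_le_mul (hB y hy) (ol_w_le n θ) (hw0 θ hθ) hB0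
        _ = B := mul_one _
    calc ‖f θ‖ ^ 2 * w0 n θ ≤ (2 * ‖f y‖ ^ 2 + 2 * ‖f θ - f y‖ ^ 2) * w0 n θ :=
          mul_le_mul_of_nonneg_right h2 (hw0 θ hθ)
      _ ≤ _ := by nlinarith
  have key : ∀ θ ∈ Icc 0 L, ‖f θ‖ ^ 2 * w0 n θ ≤ 2 * B + 2 * (δ * K * E) := by
    intro θ hθ
    rcases le_total θ δ with h1 | h1
    · refine aux θ hθ δ ⟨le_rfl, by linarith⟩ ?_
      rw [norm_sub_rev]
      refine (ol_pt hf hwc hw0 hK0.le hθ.1 h1 (by linarith) (hw0 θ hθ) fun s hs =>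
        ol_w_left n hθ.1 hs.1 (hs.2.trans hδ1)).trans ?_
      gcongr
      linarith [hθ.1]
    · rcases le_total θ (L - δ) with h2 | h2
      · refine aux θ hθ θ ⟨h1, h2⟩ ?_
        rw [sub_self, norm_zero, zero_pow two_ne_zero, zero_mul]
        positivity
      · refine aux θ hθ (L - δ) ⟨by linarith, le_rfl⟩ ?_
        refine (ol_pt hf hwc hw0 hK0.le (by linarith) h2 hθ.2 (hw0 θ hθ) fun s hs =>
          ol_w_right c hθ.2 hs.2 (by linarith [hs.1])).trans ?_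
        gcongr
        linarith [hθ.2]
  have h1 : ∫ θ in (0 : ℝ)..L, ‖f θ‖ ^ 2 * w0 n θ ≤ ∫ _ in (0 : ℝ)..L, (2 * B + 2 * (δ * K * E)) :=
    intervalIntegral.integral_mono_on (by linarith) (Continuous.intervalIntegrable (by fun_prop) _ _)
      intervalIntegrable_const key
  rw [intervalIntegral.integral_const, smul_eq_mul, sub_zero] at h1
  have h2 : L * (2 * B + 2 * (δ * K * E)) ≤ 4 * (2 * B + 2 * (δ * K * E)) := by
    gcongr
    linarith
  nlinarith

/-- injectivity of the parametrisation at interior points -/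
theorem ol_inj {r n : ℕ} (c : Cl r n) {θ φ θ₀ φ₀ : ℝ} (hθ : θ ∈ Icc 0 (π / r)) (hφ : φ ∈ Icc 0 (2 * π))
    (hθ₀ : θ₀ ∈ Ioo 0 (π / r)) (hφ₀ : φ₀ ∈ Ioo 0 (2 * π)) (h : pt r θ φ = pt r θ₀ φ₀) :
    θ = θ₀ ∧ φ = φ₀ := by
  obtain ⟨hL1, hL2⟩ := ol_L c
  have h0 : sin θ * cos φ = sin θ₀ * cos φ₀ := congrFun h 0
  have h1 : sin θ * sin φ = sin θ₀ * sin φ₀ := congrFun h 1
  have h2 : cos θ ^ r = cos θ₀ ^ r := congrFun h 2
  have h3 : cos θ = cos θ₀ := by
    rcases c.ok with ⟨rfl, -, -⟩ | ⟨rfl, -, -⟩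
    · simpa using h2
    · simp only [Nat.cast_ofNat] at hθ hθ₀
      have := pi_pos
      exact (pow_left_inj₀ (cos_nonneg_of_neg_pi_div_two_le_of_le (by linarith [hθ.1]) hθ.2)
        (cos_nonneg_of_neg_pi_div_two_le_of_le (by linarith [hθ₀.1]) hθ₀.2.le) two_ne_zero).1 h2
  have h4 : θ = θ₀ := injOn_cos ⟨hθ.1, hθ.2.trans hL2⟩ ⟨hθ₀.1.le, hθ₀.2.le.trans hL2⟩ h3
  subst h4
  have h5 : 0 < sin θ := sin_pos_of_pos_of_lt_pi hθ₀.1 (hθ₀.2.trans_le hL2)
  have h6 := mul_left_cancel₀ h5.ne' h0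
  have h7 := mul_left_cancel₀ h5.ne' h1
  have h8 : cos (φ - φ₀) = 1 := by rw [cos_sub, h6, h7]; nlinarith [sin_sq_add_cos_sq φ₀]
  have := (cos_eq_one_iff_of_lt_of_lt (by linarith [hφ.1, hφ₀.2]) (by linarith [hφ.2, hφ₀.1])).1 h8
  exact ⟨rfl, by linarith⟩

theorem ol_sint_mono {r n : ℕ} (c : Cl r n) {f g : ℝ → ℝ → ℝ}
    (hf : Continuous fun p : ℝ × ℝ => f p.1 p.2) (hg : Continuous fun p : ℝ × ℝ => g p.1 p.2)
    (h : ∀ θ ∈ Icc 0 (π / r), ∀ φ ∈ Icc 0 (2 * π), f θ φ ≤ g θ φ) : sint r n f ≤ sint r n g := by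
  have hp := pi_pos
  have hwc := ol_w_cont n
  have h1 := intervalIntegral.continuous_parametric_intervalIntegral_of_continuous'
    (μ := MeasureTheory.volume) (f := f) hf 0 (2 * π)
  have h2 := intervalIntegral.continuous_parametric_intervalIntegral_of_continuous'
    (μ := MeasureTheory.volume) (f := g) hg 0 (2 * π)
  refine intervalIntegral.integral_mono_on (by linarith [(ol_L c).1]) ((h1.mul hwc).intervalIntegrable _ _)
    ((h2.mul hwc).intervalIntegrable _ _) fun θ hθ => ?_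
  refine mul_le_mul_of_nonneg_right ?_ (c.w0_nonneg hθ)
  exact intervalIntegral.integral_mono_on (by linarith)
    ((hf.comp (Continuous.prodMk_right θ)).intervalIntegrable _ _)
    ((hg.comp (Continuous.prodMk_right θ)).intervalIntegrable _ _) (h θ hθ)

theorem ol_sint_pos {r n : ℕ} (c : Cl r n) {g : ℝ → ℝ → ℝ}
    (hg : Continuous fun p : ℝ × ℝ => g p.1 p.2) (h0 : ∀ θ φ, 0 ≤ g θ φ) {θ₀ φ₀ : ℝ}
    (hθ₀ : θ₀ ∈ Ioo 0 (π / r)) (hφ₀ : φ₀ ∈ Ioo 0 (2 * π)) (h : 0 < g θ₀ φ₀) : 0 < sint r n g := by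
  have hp := pi_pos
  have hwc := ol_w_cont n
  have h2 := intervalIntegral.continuous_parametric_intervalIntegral_of_continuous'
    (μ := MeasureTheory.volume) (f := g) hg 0 (2 * π)
  refine intervalIntegral.integral_pos (by linarith [(ol_L c).1]) (h2.mul hwc).continuousOn
    (fun θ hθ => mul_nonneg (intervalIntegral.integral_nonneg (by linarith) fun φ _ => h0 θ φ)
      (c.w0_nonneg (Ioc_subset_Icc_self hθ))) ⟨θ₀, Ioo_subset_Icc_self hθ₀, mul_pos ?_ (c.w0_pos hθ₀)⟩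
  exact intervalIntegral.integral_pos (by linarith)
    (hg.comp (Continuous.prodMk_right θ₀)).continuousOn (fun φ _ => h0 θ₀ φ)
    ⟨φ₀, Ioo_subset_Icc_self hφ₀, h⟩

theorem ol_sint_lin {r n : ℕ} (a b : ℝ) {f g : ℝ → ℝ → ℝ}
    (hf : Continuous fun p : ℝ × ℝ => f p.1 p.2) (hg : Continuous fun p : ℝ × ℝ => g p.1 p.2) :
    sint r n (fun θ φ => a * f θ φ + b * g θ φ) = a * sint r n f + b * sint r n g := by
  have := sint_sum (r := r) (n := n) (Finset.univ : Finset Bool) (fun i => if i then a else b)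
    (fun i => if i then f else g) (fun i => by cases i <;> simpa)
  simpa using this

theorem ol_pt_abs (r : ℕ) (θ φ : ℝ) (i : Fin 3) : |pt r θ φ i| ≤ 1 := by
  fin_cases i
  · change |sin θ * cos φ| ≤ 1
    rw [abs_mul]
    exact mul_le_one₀ (abs_sin_le_one θ) (abs_nonneg _) (abs_cos_le_one φ)
  · change |sin θ * sin φ| ≤ 1
    rw [abs_mul]
    exact mul_le_one₀ (abs_sin_le_one θ) (abs_nonneg _) (abs_sin_le_one φ)
  · change |cos θ ^ r| ≤ 1
    rw [abs_pow]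
    exact pow_le_one₀ (abs_nonneg _) (abs_cos_le_one θ)

theorem test_zero {r n : ℕ} (c : Cl r n) (f : ℕ → ℝ → ℝ → ℝ) (f₀ : ℝ → ℝ → ℝ)
    (hf : ∀ p, Continuous fun q : ℝ × ℝ => f p q.1 q.2) {C : ℝ}
    (hC : ∀ p, sint r n (fun θ φ => |f p θ φ|) ≤ C)
    (hlim : TendstoLocallyUniformlyOn (fun p (q : ℝ × ℝ) => f p q.1 q.2) (fun q => f₀ q.1 q.2) atTop
      (Ioo 0 (π / r) ×ˢ univ))
    (h0 : ∀ P : P3, ∀ᶠ p in atTop, sint r n (fun θ φ => eval (pt r θ φ) P * f p θ φ) = 0) :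
    ∀ θ ∈ Ioo 0 (π / r), ∀ φ ∈ Ioo 0 (2 * π), f₀ θ φ = 0 := by
  intro θ₀ hθ₀ φ₀ hφ₀
  by_contra hne
  set s := f₀ θ₀ φ₀ with hs
  have hs0 : 0 < |s| := abs_pos.2 hne
  have hopen : IsOpen (Ioo 0 (π / r) ×ˢ (univ : Set ℝ)) := isOpen_Ioo.prod isOpen_univ
  have hmem : (θ₀, φ₀) ∈ Ioo 0 (π / r) ×ˢ (univ : Set ℝ) := ⟨hθ₀, trivial⟩
  have hf₀ : ContinuousAt (fun q : ℝ × ℝ => f₀ q.1 q.2) (θ₀, φ₀) :=
    (hlim.continuousOn (Frequently.of_forall fun p => (hf p).continuousOn)).continuousAt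
      (hopen.mem_nhds hmem)
  -- a neighbourhood where `s * f p ≥ s ^ 2 / 2`
  obtain ⟨U, hU, hUo, hUm⟩ : ∃ U : Set (ℝ × ℝ), (∀ᶠ p in atTop, ∀ q ∈ U, |s| ^ 2 / 2 ≤ s * f p q.1 q.2) ∧
      IsOpen U ∧ (θ₀, φ₀) ∈ U := by
    obtain ⟨t, ht, ht'⟩ := Metric.tendstoLocallyUniformlyOn_iff.1 hlim (|s| / 4) (by positivity) _ hmem
    rw [hopen.nhdsWithin_eq hmem] at ht
    have h1 := Metric.tendsto_nhds.1 hf₀ (|s| / 4) (by positivity)
    obtain ⟨U, hU1, hU2, hU3⟩ := mem_nhds_iff.1 (inter_mem ht h1)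
    refine ⟨U, ?_, hU2, hU3⟩
    filter_upwards [ht'] with p hp q hq
    have h2 := hp q (hU1 hq).1
    have h3 : dist (f₀ q.1 q.2) s < |s| / 4 := (hU1 hq).2
    have h4 : |f p q.1 q.2 - s| ≤ |s| / 2 := by
      have := dist_triangle (f p q.1 q.2) (f₀ q.1 q.2) s
      rw [dist_comm] at h2
      rw [← Real.dist_eq]
      linarith
    have h5 : |s * (f p q.1 q.2 - s)| ≤ |s| * (|s| / 2) := by rw [abs_mul]; gcongr
    have h6 := (abs_le.1 h5).1
    nlinarith [sq_abs s]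
  -- the kernel
  set D : ℝ × ℝ → ℝ := fun q => ∑ i, (pt r q.1 q.2 i - pt r θ₀ φ₀ i) ^ 2 with hD
  set Q : P3 := 1 - MvPolynomial.C (1 / 16) * ∑ i, (X i - MvPolynomial.C (pt r θ₀ φ₀ i)) ^ 2 with hQ
  have hQD : ∀ θ φ, eval (pt r θ φ) Q = 1 - D (θ, φ) / 16 := by
    intro θ φ
    simp only [hQ, hD, map_sub, map_one, map_mul, eval_C, map_sum, map_pow, eval_X]
    ring
  have hQc : Continuous fun q : ℝ × ℝ => eval (pt r q.1 q.2) Q := (contDiff_evalpt Q).continuous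
  have hDc : Continuous D := by
    have : D = fun q => 16 * (1 - eval (pt r q.1 q.2) Q) := by
      funext q; rw [hQD]; ring
    rw [this]; fun_prop
  have hD0 : ∀ q, 0 ≤ D q := fun q => Finset.sum_nonneg fun _ _ => sq_nonneg _
  have hD1 : ∀ q, D q ≤ 12 := by
    intro q
    have : ∀ i, (pt r q.1 q.2 i - pt r θ₀ φ₀ i) ^ 2 ≤ 4 := fun i => by
      have h1 := abs_le.1 (ol_pt_abs r q.1 q.2 i)
      have h2 := abs_le.1 (ol_pt_abs r θ₀ φ₀ i)
      nlinarith
    have h3 := Finset.sum_le_sum fun i (_ : i ∈ Finset.univ) => this i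
    simp only [Finset.sum_const, Finset.card_univ, Fintype.card_fin, nsmul_eq_mul] at h3
    simp only [hD]
    push_cast at h3
    linarith
  obtain ⟨d, hd0, hd⟩ := ((isCompact_Icc.prod isCompact_Icc :
      IsCompact (Icc 0 (π / r) ×ˢ Icc 0 (2 * π))).diff hUo).exists_forall_le' hDc.continuousOn
      (a := 0) (fun q hq => by
        refine (hD0 q).lt_of_ne fun h => hq.2 ?_
        have h1 := (Finset.sum_eq_zero_iff_of_nonneg fun _ _ => sq_nonneg _).1 h.symm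
        have h2 : pt r q.1 q.2 = pt r θ₀ φ₀ := funext fun i =>
          sub_eq_zero.1 (pow_eq_zero_iff two_ne_zero |>.1 (h1 i (Finset.mem_univ i)))
        obtain ⟨h3, h4⟩ := ol_inj c hq.1.1 hq.1.2 hθ₀ hφ₀ h2
        rw [← h3, ← h4] at hUm
        exact hUm)
  set ρ := 1 - min d 1 / 16 with hρ
  set ρ' := 1 - min d 1 / 32 with hρ'
  have hm0 : 0 < min d 1 := lt_min hd0 one_pos
  have hm1 : min d 1 ≤ 1 := min_le_right _ _
  have hm2 : min d 1 ≤ d := min_le_left _ _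
  have hρ0 : 0 < ρ := by linarith
  have hρ1 : ρ < ρ' := by linarith
  have hρ2 : ρ' < 1 := by linarith
  set χ : ℝ → ℝ → ℝ := fun θ φ => max 0 (eval (pt r θ φ) Q - ρ') with hχ
  have hχc : Continuous fun q : ℝ × ℝ => χ q.1 q.2 := continuous_const.max (hQc.sub continuous_const)
  have hc₀ : 0 < sint r n χ := ol_sint_pos c hχc (fun _ _ => le_max_left _ _) hθ₀ hφ₀ (by
    refine lt_max_of_lt_right ?_
    rw [hQD]
    simp only [hD, sub_self]
    simp
    linarith)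
  -- choice of the exponent
  obtain ⟨k, hk⟩ : ∃ k : ℕ, (ρ / ρ') ^ k * (|s| * C) < |s| ^ 2 / 2 * sint r n χ := by
    have h1 := (tendsto_pow_atTop_nhds_zero_of_lt_one (r := ρ / ρ') (div_nonneg hρ0.le (by linarith))
      ((div_lt_one (by linarith)).2 hρ1)).mul_const (|s| * C)
    rw [zero_mul] at h1
    exact (h1.eventually (gt_mem_nhds (by positivity))).exists
  obtain ⟨p, hp1, hp2⟩ := (hU.and (h0 (MvPolynomial.C s * Q ^ k))).exists
  have hfa : Continuous fun q : ℝ × ℝ => |f p q.1 q.2| := (hf p).abs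
  have h1 := ol_sint_mono c
    (f := fun θ φ => (|s| ^ 2 / 2 * ρ' ^ k) * χ θ φ + (-(ρ ^ k * |s|)) * |f p θ φ|)
    (g := fun θ φ => eval (pt r θ φ) (MvPolynomial.C s * Q ^ k) * f p θ φ)
    (by fun_prop) ((contDiff_evalpt _).continuous.mul (hf p)) (fun θ hθ φ hφ => by
      simp only [map_mul, eval_C, map_pow, hχ]
      have hq0 : 0 ≤ eval (pt r θ φ) Q := by rw [hQD]; linarith [hD1 (θ, φ)]
      have hq1 : eval (pt r θ φ) Q ≤ 1 := by rw [hQD]; linarith [hD0 (θ, φ)]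
      have hneg : 0 ≤ ρ ^ k * |s| * |f p θ φ| := by positivity
      generalize hq : eval (pt r θ φ) Q = q at *
      by_cases hU' : (θ, φ) ∈ U
      · have h2 := hp1 _ hU'
        have h3 : ρ' ^ k * max 0 (q - ρ') ≤ q ^ k := by
          rcases le_total q ρ' with h | h
          · rw [max_eq_left (by linarith), mul_zero]; positivity
          · rw [max_eq_right (by linarith)]
            calc ρ' ^ k * (q - ρ') ≤ q ^ k * 1 := by
                  gcongr
                  · linarith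
                  · linarith
              _ = q ^ k := mul_one _
        have h4 : |s| ^ 2 / 2 * (ρ' ^ k * max 0 (q - ρ')) ≤ (s * f p θ φ) * q ^ k :=
          mul_le_mul h2 h3 (mul_nonneg (pow_nonneg (by linarith) _) (le_max_left _ _))
            (le_trans (by positivity) h2)
        nlinarith
      · have h2 := hd (θ, φ) ⟨⟨hθ, hφ⟩, hU'⟩
        have h3 : q ≤ ρ := by rw [← hq, hQD]; linarith
        rw [max_eq_left (by linarith), mul_zero, zero_add]
        have h4 : |s * q ^ k * f p θ φ| ≤ ρ ^ k * |s| * |f p θ φ| := by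
          rw [abs_mul, abs_mul, abs_of_nonneg (pow_nonneg hq0 k), mul_comm |s|]
          gcongr
        have := (abs_le.1 h4).1
        linarith)
  rw [hp2, ol_sint_lin _ _ hχc hfa] at h1
  have h2 : ρ ^ k * |s| * sint r n (fun θ φ => |f p θ φ|) ≤ ρ ^ k * |s| * C := by
    gcongr; exact hC p
  have hρk : 0 < ρ' ^ k := pow_pos (by linarith) k
  rw [div_pow, div_mul_eq_mul_div, div_lt_iff₀ hρk] at hk
  nlinarith

end Crest.Agent.R202
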