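import Crest.Agent.R202.LimInd
import Crest.Agent.R202.OdeLim
import Crest.Agent.R202.NoDeg_c

/-!
# The limit argument (task F7d)

Pass to a subsequence with `l p → l₀`, `S p → S₀` (`∑ S₀² = 1`); put all `(Y, P)` with `|μ| ≤ m₀` into one vector and apply `ode_limit` on `(0, π/r)` (for `r = 1` the
coefficients `(n-3) tan` and `κ/cos²` vanish identically; `L²` bound on a compact subinterval from `mass`, `energy` and `P = sin (Y' - iμ g Y)/ϱ`).  In the limit: Wronskians vanish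
(`wr`); independence: by `conj` it suffices to treat real `v`, a combination vanishing on `(a,b)` vanishes on `(0,π/r)` (`ode_zero`), contradicting `mass`, `energy`, `nonconc`;
`U p → Wsum/((1-2ix) sin)` locally uniformly, so `test_zero` (first `P₂ = 0`, then `P₁ = 0`) gives `Ω = 0`.  `limit_indep` gives `S₀ = 0`.
-/

set_option autoImplicit false

noncomputable section

open scoped InnerProductSpace ContDiff
open Set Filter Topology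
open MvPolynomial Real

namespace Crest.Agent.R202

namespace NoDeg

theorem kap_inj {r n : ℕ} {ι : Type} (cl : ι → Cl r n)
    (hinj : Function.Injective fun i => (cl i).j) : Function.Injective fun i => (cl i).kap := by
  intro i i' h
  apply hinj
  simp only [Cl.kap] at h ⊢
  rcases (cl i).ok with ⟨h1, -, h3⟩ | ⟨-, h2, h3⟩
  · rcases (cl i').ok with ⟨-, -, h6⟩ | ⟨h4, -⟩
    · rw [h3, h6]
    · omega
  · have hn : (4 : ℝ) ≤ n := by exact_mod_cast h2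
    have hj : (1 : ℝ) ≤ (cl i).j := by exact_mod_cast h3
    have hj' : (0 : ℝ) ≤ (cl i').j := Nat.cast_nonneg _
    have h7 : (((cl i).j : ℝ) - (cl i').j) * ((cl i).j + (cl i').j + n - 4) = 0 := by
      linear_combination h
    have h8 : ((cl i).j : ℝ) = (cl i').j := by
      rcases mul_eq_zero.1 h7 with h | h <;> linarith
    exact_mod_cast h8

theorem one_sub_ne (t : ℝ) : (1 - 2 * Complex.I * t : ℂ) ≠ 0 := fun h => by
  simpa using congrArg Complex.re h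

theorem neg_mem_Icc {m₀ : ℕ} {μ : ℤ} (h : μ ∈ Finset.Icc (-(m₀ : ℤ)) m₀) :
    -μ ∈ Finset.Icc (-(m₀ : ℤ)) m₀ := by
  simp only [Finset.mem_Icc] at h ⊢
  omega

theorem abs_le_one_of {ι : Type} [Fintype ι] {M : ι → ℕ} {S : ∀ i, Matrix (Fin (M i)) (Fin (M i)) ℝ}
    (h : ∑ i, ∑ c, ∑ c₁, S i c c₁ ^ 2 = 1) (i : ι) (c c₁ : Fin (M i)) : |S i c c₁| ≤ 1 := by
  rw [← sq_le_one_iff_abs_le_one, ← h]
  refine le_trans ?_ (Finset.single_le_sum (f := fun i => ∑ c, ∑ c₁, S i c c₁ ^ 2)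
    (fun _ _ => by positivity) (Finset.mem_univ i))
  refine le_trans ?_ (Finset.single_le_sum (f := fun c => ∑ c₁, S i c c₁ ^ 2)
    (fun _ _ => by positivity) (Finset.mem_univ c))
  exact Finset.single_le_sum (f := fun c₁ => S i c c₁ ^ 2) (fun _ _ => by positivity)
    (Finset.mem_univ c₁)

theorem re_comb {M : ℕ} (v F G : Fin M → ℂ) (hG : ∀ c, G c = starRingEnd ℂ (F c))
    (h1 : ∑ c, v c * F c = 0) (h2 : ∑ c, v c * G c = 0) :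
    ∑ c, ((v c).re : ℂ) * F c = 0 ∧ ∑ c, ((v c).im : ℂ) * F c = 0 := by
  have h3 : ∑ c, starRingEnd ℂ (v c) * F c = 0 := by
    have := congrArg (starRingEnd ℂ) h2
    simpa only [map_sum, map_mul, hG, Complex.conj_conj, map_zero] using this
  constructor
  · simp only [Complex.re_eq_add_conj, div_mul_eq_mul_div, add_mul, ← Finset.sum_div,
      Finset.sum_add_distrib, h1, h3, add_zero, zero_div]
  · simp only [Complex.im_eq_sub_conj, div_mul_eq_mul_div, sub_mul, ← Finset.sum_div,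
      Finset.sum_sub_distrib, h1, h3, sub_zero, zero_div]

theorem cc_U {r n : ℕ} (c : Cl r n) {m₀ : ℕ} {x : ℕ → ℝ → ℝ} {x₀ : ℝ → ℝ}
    (hx : CC x x₀ (Ioo 0 (π / r))) {Y P : ℕ → ℤ → ℝ → ℂ} {Y₀ P₀ : ℤ → ℝ → ℂ}
    (hY : ∀ μ ∈ Finset.Icc (-(m₀ : ℤ)) m₀, CC (fun p => Y p μ) (Y₀ μ) (Ioo 0 (π / r)))
    (hP : ∀ μ ∈ Finset.Icc (-(m₀ : ℤ)) m₀, CC (fun p => P p μ) (P₀ μ) (Ioo 0 (π / r)))
    {U : ℕ → ℝ → ℝ → ℂ}
    (hU : ∀ p θ φ, (1 - 2 * Complex.I * x p θ) * sin θ * U p θ φ = Wsum m₀ (Y p) (P p) θ φ) :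
    CC (fun p (q : ℝ × ℝ) => U p q.1 q.2)
      (fun q => Wsum m₀ Y₀ P₀ q.1 q.2 / ((1 - 2 * Complex.I * x₀ q.1) * sin q.1))
      (Ioo 0 (π / r) ×ˢ univ) := by
  have hne : ∀ (t : ℝ), ∀ θ ∈ Ioo 0 (π / r), (1 - 2 * Complex.I * t : ℂ) * (sin θ : ℝ) ≠ 0 :=
    fun t θ hθ => mul_ne_zero (one_sub_ne t) (by exact_mod_cast (sin_pos c hθ).ne')
  refine CC.congr (F := fun p (q : ℝ × ℝ) =>
    Wsum m₀ (Y p) (P p) q.1 q.2 / ((1 - 2 * Complex.I * x p q.1) * sin q.1)) (fun q hq => ?_)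
    fun p q hq => ?_
  · refine Tendsto.div ?_ ?_ (hne _ _ hq.1)
    · unfold Wsum
      refine tendsto_finsetSum _ fun μ hμ => ?_
      refine (((hP μ hμ).fst q hq).sub (((hY μ hμ).fst q hq).const_mul _)).mul ?_
      exact t_fun (g := fun q : ℝ × ℝ => Complex.exp (Complex.I * μ * q.2)) (by fun_prop) hq
    · refine Tendsto.mul ?_ (t_fun (g := fun q : ℝ × ℝ => ((sin q.1 : ℝ) : ℂ)) (by fun_prop) hq)
      exact (hx.comp (g := fun t : ℝ => (1 - 2 * Complex.I * t : ℂ)) (by fun_prop)).fst q hq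
  · rw [div_eq_iff (hne _ _ hq.1), ← hU]
    ring

theorem final {r n : ℕ} {ι : Type} [Fintype ι] [DecidableEq ι] (cl : ι → Cl r n)
    (hinj : Function.Injective fun i => (cl i).j) (m₀ : ℕ) (lp : ℝ) (M : ι → ℕ) (x : ℕ → ℝ → ℝ)
    (x₀ : ℝ → ℝ) (hx : CC x x₀ (Ioo 0 (π / r)))
    {a b : ℝ} (ha : 0 < a) (hab : a < b) (hb : b < π / 2)
    (hrough : ∀ a' b', a ≤ a' → a' < b' → b' ≤ b → ¬ContDiffOn ℝ ∞ (fun θ => rr (x₀ θ)) (Ioo a' b'))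
    (l : ℕ → ∀ i, Fin (M i) → ℝ) (Y P : ℕ → ∀ i, Fin (M i) → ℤ → ℝ → ℂ)
    (U : ℕ → ∀ i, Fin (M i) → ℝ → ℝ → ℂ)
    (hD : ∀ p i, SecData r n (cl i).kap (x p) m₀ lp (l p i) (Y p i) (P p i) (U p i))
    (S : ℕ → ∀ i, Matrix (Fin (M i)) (Fin (M i)) ℝ) (hS : ∀ p i, (S p i).IsSymm)
    (hS₁ : ∀ p, ∑ i, ∑ c, ∑ c₁, S p i c c₁ ^ 2 = 1)
    (h0 : ∀ P₁ P₂ : P3, ∀ᶠ p in atTop, ∑ i, ∑ c, ∑ c₁, S p i c c₁ * sint r n (fun θ φ =>
      dens (sgm r θ) (eval (pt r θ φ) P₁) (eval (pt r θ φ) P₂) (U p i c θ φ * U p i c₁ θ φ)) = 0)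
    (l₀ : ∀ i, Fin (M i) → ℝ) (hl : ∀ i c, Tendsto (fun p => l p i c) atTop (𝓝 (l₀ i c)))
    (S₀ : ∀ i, Matrix (Fin (M i)) (Fin (M i)) ℝ)
    (hS₀ : ∀ i c c₁, Tendsto (fun p => S p i c c₁) atTop (𝓝 (S₀ i c c₁)))
    (Y₀ P₀ : ∀ i, Fin (M i) → ℤ → ℝ → ℂ)
    (hode : ∀ i c, ∀ μ ∈ Finset.Icc (-(m₀ : ℤ)) m₀, ∀ θ ∈ Ioo 0 (π / r),
      SO n (cl i).kap (l₀ i c) μ x₀ (Y₀ i c μ) (P₀ i c μ) θ)
    (hY : ∀ i c, ∀ μ ∈ Finset.Icc (-(m₀ : ℤ)) m₀,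
      CC (fun p => Y p i c μ) (Y₀ i c μ) (Ioo 0 (π / r)))
    (hP : ∀ i c, ∀ μ ∈ Finset.Icc (-(m₀ : ℤ)) m₀,
      CC (fun p => P p i c μ) (P₀ i c μ) (Ioo 0 (π / r))) : False := by
  have hsum : ∑ i, ∑ c, ∑ c₁, S₀ i c c₁ ^ 2 = 1 := by
    have h1 : Tendsto (fun p => ∑ i, ∑ c, ∑ c₁, S p i c c₁ ^ 2) atTop
        (𝓝 (∑ i, ∑ c, ∑ c₁, S₀ i c c₁ ^ 2)) :=
      tendsto_finsetSum _ fun i _ => tendsto_finsetSum _ fun c _ =>
        tendsto_finsetSum _ fun c₁ _ => (hS₀ i c c₁).pow 2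
    simp only [hS₁] at h1
    exact tendsto_nhds_unique h1 tendsto_const_nhds
  rcases isEmpty_or_nonempty ι with hι | ⟨⟨i₀⟩⟩
  · simp at hsum
  have c₀ := cl i₀
  have hsub : Ioo a b ⊆ Ioo 0 (π / r) := fun θ h => ⟨ha.trans h.1, h.2.trans (hb.trans_le (le_L c₀))⟩
  have hx₀ := hx.continuousOn
  have key := limit_indep n (fun i => (cl i).kap) (kap_inj cl hinj) M m₀ l₀
    (fun i c => one_pos.trans_le (ge_of_tendsto' (hl i c) fun p => ((hD p i).l_mem c).1))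
    ha hab hb (ϱ := fun s => rr (x₀ s)) (g := fun s => gs (x₀ s) / sin s)
    (continuous_rr.comp_continuousOn (hx₀.mono hsub))
    ((continuous_gs.comp_continuousOn (hx₀.mono hsub)).div continuous_sin.continuousOn
      fun θ hθ => (sin_pos c₀ (hsub hθ)).ne') hrough Y₀ P₀
    (fun i c μ hμ θ hθ => hode i c μ hμ θ (hsub hθ)) ?_ ?_ S₀ ?_ ?_
  · simp [key] at hsum
  · intro i c c₁ μ hμ μ₁ hμ₁ hll hμμ θ hθ
    have hθ' := hsub hθ
    have h1 := ((((hY i c μ hμ).tendsto_at hθ').mul ((hP i c₁ μ₁ hμ₁).tendsto_at hθ')).sub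
      (((hP i c μ hμ).tendsto_at hθ').mul ((hY i c₁ μ₁ hμ₁).tendsto_at hθ'))).norm.const_mul
      (cos θ ^ (n - 3))
    have h2 := le_of_tendsto_of_tendsto' h1 ((hl i c).sub (hl i c₁)).abs
      fun p => (hD p i).wr c c₁ μ μ₁ hμμ θ hθ'
    rw [hll, sub_self, abs_zero] at h2
    have h3 : 0 < cos θ ^ (n - 3) :=
      pow_pos (cos_pos_of_mem_Ioo ⟨by linarith [hθ.1, pi_pos], hθ.2.trans hb⟩) _
    exact sub_eq_zero.1 (norm_le_zero_iff.1 (nonpos_of_mul_nonpos_right h2 h3))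
  · intro i lam v hv hz
    have hθ₀ : (a + b) / 2 ∈ Ioo a b := ⟨by linarith, by linarith⟩
    have hconj : ∀ c, ∀ μ ∈ Finset.Icc (-(m₀ : ℤ)) m₀, ∀ θ ∈ Ioo 0 (π / r),
        Y₀ i c (-μ) θ = starRingEnd ℂ (Y₀ i c μ θ) ∧ P₀ i c (-μ) θ = starRingEnd ℂ (P₀ i c μ θ) := by
      intro c μ hμ θ hθ
      constructor
      · refine tendsto_nhds_unique ((hY i c _ (neg_mem_Icc hμ)).tendsto_at hθ) ?_
        simp only [fun p => ((hD p i).conj c μ θ).1]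
        exact (Complex.continuous_conj.tendsto _).comp ((hY i c μ hμ).tendsto_at hθ)
      · refine tendsto_nhds_unique ((hP i c _ (neg_mem_Icc hμ)).tendsto_at hθ) ?_
        simp only [fun p => ((hD p i).conj c μ θ).2]
        exact (Complex.continuous_conj.tendsto _).comp ((hP i c μ hμ).tendsto_at hθ)
    have hreal : ∀ w : Fin (M i) → ℝ, (∀ c, l₀ i c ≠ lam → w c = 0) →
        (∀ μ ∈ Finset.Icc (-(m₀ : ℤ)) m₀, ∑ c, (w c : ℂ) * Y₀ i c μ ((a + b) / 2) = 0 ∧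
          ∑ c, (w c : ℂ) * P₀ i c μ ((a + b) / 2) = 0) → w = 0 := fun w hw h =>
      real_zero (cl i) (fun p => hD p i) (hY i) w fun μ hμ =>
        comb_zero (cl i) μ hx₀ (l₀ i) lam (fun c => Y₀ i c μ) (fun c => P₀ i c μ)
          (fun c => hode i c μ hμ) w hw (hsub hθ₀) (h μ hμ).1 (h μ hμ).2
    have hYc := fun μ hμ => re_comb v (fun c => Y₀ i c μ ((a + b) / 2))
      (fun c => Y₀ i c (-μ) ((a + b) / 2)) (fun c => (hconj c μ hμ _ (hsub hθ₀)).1)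
      (hz μ hμ _ hθ₀).1 (hz _ (neg_mem_Icc hμ) _ hθ₀).1
    have hPc := fun μ hμ => re_comb v (fun c => P₀ i c μ ((a + b) / 2))
      (fun c => P₀ i c (-μ) ((a + b) / 2)) (fun c => (hconj c μ hμ _ (hsub hθ₀)).2)
      (hz μ hμ _ hθ₀).2 (hz _ (neg_mem_Icc hμ) _ hθ₀).2
    have hre := hreal (fun c => (v c).re) (fun c hc => by rw [hv c hc, Complex.zero_re])
      fun μ hμ => ⟨(hYc μ hμ).1, (hPc μ hμ).1⟩
    have him := hreal (fun c => (v c).im) (fun c hc => by rw [hv c hc, Complex.zero_im])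
      fun μ hμ => ⟨(hYc μ hμ).2, (hPc μ hμ).2⟩
    funext c
    exact Complex.ext (congrFun hre c) (congrFun him c)
  · intro i
    refine Matrix.IsSymm.ext fun c c₁ => tendsto_nhds_unique (hS₀ i c₁ c) ?_
    simp only [fun p => (hS p i).apply c c₁]
    exact hS₀ i c c₁
  · intro θ hθ φ hφ
    have hθ' := hsub hθ
    have hUU := fun i c => cc_U c₀ hx (hY i c) (hP i c) fun p => (hD p i).Ueq c
    have h1 := omega_zero c₀ (J := Σ i, Fin (M i) × Fin (M i)) (fun p j => S p j.1 j.2.1 j.2.2)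
      (fun p j => abs_le_one_of (hS₁ p) _ _ _) (fun j => S₀ j.1 j.2.1 j.2.2) (fun j => hS₀ _ _ _)
      (fun p j => U p j.1 j.2.1) (fun p j => U p j.1 j.2.2) (fun p j => (hD p j.1).Uc _)
      (fun p j => (hD p j.1).Uc _) (fun p j => (hD p j.1).Ul2 _) (fun p j => (hD p j.1).Ul2 _)
      (fun j θ φ => Wsum m₀ (Y₀ j.1 j.2.1) (P₀ j.1 j.2.1) θ φ /
        ((1 - 2 * Complex.I * x₀ θ) * sin θ))
      (fun j θ φ => Wsum m₀ (Y₀ j.1 j.2.2) (P₀ j.1 j.2.2) θ φ /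
        ((1 - 2 * Complex.I * x₀ θ) * sin θ))
      (fun j => hUU _ _) (fun j => hUU _ _)
      (fun P₁ P₂ => by simpa only [Fintype.sum_sigma, Fintype.sum_prod_type] using h0 P₁ P₂)
      θ hθ' φ hφ
    have hne : (1 - 2 * Complex.I * x₀ θ : ℂ) * (sin θ : ℝ) ≠ 0 :=
      mul_ne_zero (one_sub_ne _) (by exact_mod_cast (sin_pos c₀ hθ').ne')
    generalize (1 - 2 * Complex.I * x₀ θ : ℂ) * (sin θ : ℝ) = d at h1 hne
    simp only [div_mul_div_comm] at h1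
    simp only [Fintype.sum_sigma, Fintype.sum_prod_type, ← mul_div_assoc, ← Finset.sum_div] at h1
    exact (div_eq_zero_iff.1 h1).resolve_right (mul_ne_zero hne hne)

end NoDeg

open NoDeg in
theorem no_degenerate {r n : ℕ} {ι : Type} [Fintype ι] [DecidableEq ι] (cl : ι → Cl r n)
    (hinj : Function.Injective fun i => (cl i).j) (m₀ : ℕ) (lp : ℝ) (M : ι → ℕ) (x : ℕ → ℝ → ℝ)
    (x₀ : ℝ → ℝ) (hx : ∀ p, Continuous (x p)) (hlim : TendstoUniformlyOn x x₀ atTop (Icc 0 (π / r)))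
    {a b : ℝ} (ha : 0 < a) (hab : a < b) (hb : b < π / 2)
    (hrough : ∀ a' b', a ≤ a' → a' < b' → b' ≤ b → ¬ContDiffOn ℝ ∞ (fun θ => rr (x₀ θ)) (Ioo a' b'))
    (l : ℕ → ∀ i, Fin (M i) → ℝ) (Y P : ℕ → ∀ i, Fin (M i) → ℤ → ℝ → ℂ)
    (U : ℕ → ∀ i, Fin (M i) → ℝ → ℝ → ℂ)
    (hD : ∀ p i, SecData r n (cl i).kap (x p) m₀ lp (l p i) (Y p i) (P p i) (U p i))
    (S : ℕ → ∀ i, Matrix (Fin (M i)) (Fin (M i)) ℝ) (hS : ∀ p i, (S p i).IsSymm)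
    (hS₁ : ∀ p, ∑ i, ∑ c, ∑ c₁, S p i c c₁ ^ 2 = 1)
    (h0 : ∀ P₁ P₂ : P3, ∀ᶠ p in atTop, ∑ i, ∑ c, ∑ c₁, S p i c c₁ * sint r n (fun θ φ =>
      dens (sgm r θ) (eval (pt r θ φ) P₁) (eval (pt r θ φ) P₂) (U p i c θ φ * U p i c₁ θ φ)) = 0) :
    False := by
  rcases isEmpty_or_nonempty ι with hι | ⟨⟨i₀⟩⟩
  · simpa using hS₁ 0
  have c₀ := cl i₀
  have hbL : b < π / r := hb.trans_le (le_L c₀)
  have hxc : CC x x₀ (Ioo 0 (π / r)) := (CC.of_tlu hlim.tendstoLocallyUniformlyOn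
    (hlim.continuousOn (Eventually.of_forall fun p => (hx p).continuousOn).frequently)).mono
    Ioo_subset_Icc_self
  obtain ⟨X, hX, hXb⟩ := unif_bound isCompact_Icc hx hlim
  have hK : IsCompact ((Set.pi univ fun i => Set.pi univ fun _ : Fin (M i) => Icc 1 lp) ×ˢ
      (Set.pi univ fun i => Set.pi univ fun _ : Fin (M i) => Set.pi univ fun _ : Fin (M i) =>
        Icc (-1 : ℝ) 1)) :=
    (isCompact_univ_pi fun _ => isCompact_univ_pi fun _ => isCompact_Icc).prod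
      (isCompact_univ_pi fun _ => isCompact_univ_pi fun _ => isCompact_univ_pi fun _ => isCompact_Icc)
  obtain ⟨⟨l₀, S₀⟩, -, φ₁, hφ₁, hlS⟩ := hK.tendsto_subseq
    (x := fun p => (l p, fun i c c₁ => S p i c c₁))
    fun p => ⟨fun i _ c _ => (hD p i).l_mem c, fun i _ c _ c₁ _ =>
      abs_le.1 (abs_le_one_of (hS₁ p) i c c₁)⟩
  have hl : ∀ i c, Tendsto (fun p => l (φ₁ p) i c) atTop (𝓝 (l₀ i c)) := fun i c =>
    tendsto_pi_nhds.1 (tendsto_pi_nhds.1 ((continuous_fst.tendsto _).comp hlS) i) c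
  have hS₀ : ∀ i c c₁, Tendsto (fun p => S (φ₁ p) i c c₁) atTop (𝓝 (S₀ i c c₁)) := fun i c c₁ =>
    tendsto_pi_nhds.1 (tendsto_pi_nhds.1 (tendsto_pi_nhds.1
      ((continuous_snd.tendsto _).comp hlS) i) c) c₁
  obtain ⟨φ₂, hφ₂, hQ⟩ := subseq_fin (K := (Σ i, Fin (M i)) × ℤ)
    (fun k φ => ∃ Y₀ P₀ : ℝ → ℂ,
      (∀ θ ∈ Ioo 0 (π / r), SO n (cl k.1.1).kap (l₀ k.1.1 k.1.2) k.2 x₀ Y₀ P₀ θ) ∧
      CC (fun p => Y (φ₁ (φ p)) k.1.1 k.1.2 k.2) Y₀ (Ioo 0 (π / r)) ∧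
      CC (fun p => P (φ₁ (φ p)) k.1.1 k.1.2 k.2) P₀ (Ioo 0 (π / r)))
    (fun k φ ψ hψ ⟨Y₀, P₀, h1, h2, h3⟩ => ⟨Y₀, P₀, h1, h2.subseq hψ, h3.subseq hψ⟩)
    (Finset.univ ×ˢ Finset.Icc (-(m₀ : ℤ)) m₀) (by
      rintro ⟨⟨i, c⟩, μ⟩ hk φ hφ
      have hμ : μ ∈ Finset.Icc (-(m₀ : ℤ)) m₀ := (Finset.mem_product.1 hk).2
      obtain ⟨K, hK0, hK⟩ := l2_bound (cl i) μ ha hab hbL hX
      exact sec_limit (cl i) μ (x := fun p => x (φ₁ (φ p))) (fun p => hx _)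
        (hxc.subseq (hφ₁.comp hφ)) ((hl i c).comp hφ.tendsto_atTop)
        (fun p => Y (φ₁ (φ p)) i c μ) (fun p => P (φ₁ (φ p)) i c μ)
        (fun p => (hD _ i).ode c μ) ha hab hbL (C := K * (1 + lp)) fun p =>
          (hK _ _ _ _ ((hD _ i).c1 c μ) (hXb _) ((hD _ i).ode c μ)).trans
            (mul_le_mul_of_nonneg_left (add_le_add (mass_one (cl i) (hD _ i) c hμ)
              (energy_one (cl i) (hD _ i) c hμ)) hK0))
  choose! Y₀ P₀ hode hY hP using hQ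
  have hφ := hφ₁.comp hφ₂
  have hm : ∀ (i : ι) (c : Fin (M i)), ∀ μ ∈ Finset.Icc (-(m₀ : ℤ)) m₀,
      ((⟨i, c⟩, μ) : (Σ i, Fin (M i)) × ℤ) ∈ Finset.univ ×ˢ Finset.Icc (-(m₀ : ℤ)) m₀ :=
    fun i c μ hμ => Finset.mem_product.2 ⟨Finset.mem_univ _, hμ⟩
  exact final cl hinj m₀ lp M (fun p => x (φ₁ (φ₂ p))) x₀ (hxc.subseq hφ) ha hab hb hrough
    (fun p => l (φ₁ (φ₂ p))) (fun p => Y (φ₁ (φ₂ p))) (fun p => P (φ₁ (φ₂ p)))
    (fun p => U (φ₁ (φ₂ p))) (fun p => hD _) (fun p => S (φ₁ (φ₂ p))) (fun p => hS _)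
    (fun p => hS₁ _) (fun P₁ P₂ => hφ.tendsto_atTop.eventually (h0 P₁ P₂)) l₀
    (fun i c => (hl i c).comp hφ₂.tendsto_atTop) S₀
    (fun i c c₁ => (hS₀ i c c₁).comp hφ₂.tendsto_atTop)
    (fun i c μ => Y₀ (⟨i, c⟩, μ)) (fun i c μ => P₀ (⟨i, c⟩, μ))
    (fun i c μ hμ => hode _ (hm i c μ hμ)) (fun i c μ hμ => hY _ (hm i c μ hμ))
    fun i c μ hμ => hP _ (hm i c μ hμ)

end Crest.Agent.R202
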