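import Mathlib

/-!
# Continuous convergence, subsequences (tools for `NoDeg`)
-/

set_option autoImplicit false

noncomputable section

open Set Filter Topology

namespace Crest.Agent.R202.NoDeg

section cc
variable {α β γ : Type}

/-- the filter of continuous convergence at `x` within `s` -/
abbrev FF [TopologicalSpace α] (s : Set α) (x : α) : Filter (ℕ × α) := atTop ×ˢ 𝓝[s] x

/-- continuous convergence -/
def CC [TopologicalSpace α] [TopologicalSpace β] (F : ℕ → α → β) (f : α → β) (s : Set α) : Prop :=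
  ∀ x ∈ s, Tendsto (fun y : ℕ × α => F y.1 y.2) (FF s x) (𝓝 (f x))

variable [TopologicalSpace α]

theorem t_fun [TopologicalSpace β] {g : α → β} {s : Set α} (hg : ContinuousOn g s) {x : α}
    (hx : x ∈ s) : Tendsto (fun y : ℕ × α => g y.2) (FF s x) (𝓝 (g x)) :=
  (hg x hx).tendsto.comp tendsto_snd

theorem t_seq [TopologicalSpace β] {l : ℕ → β} {l₀ : β} (h : Tendsto l atTop (𝓝 l₀)) (s : Set α)
    (x : α) : Tendsto (fun y : ℕ × α => l y.1) (FF s x) (𝓝 l₀) :=
  h.comp tendsto_fst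

theorem CC.of_tlu [UniformSpace β] {F : ℕ → α → β} {f : α → β} {s : Set α}
    (h : TendstoLocallyUniformlyOn F f atTop s) (hf : ContinuousOn f s) : CC F f s := fun x hx =>
  (t_fun hf hx).congr_uniformity (tendstoLocallyUniformlyOn_iff_forall_tendsto.1 h x hx)

theorem CC.const [TopologicalSpace β] {f : α → β} {s : Set α} (hf : ContinuousOn f s) :
    CC (fun _ => f) f s := fun _ hx => t_fun hf hx

theorem CC.tendsto_at [TopologicalSpace β] {F : ℕ → α → β} {f : α → β} {s : Set α} (h : CC F f s)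
    {x : α} (hx : x ∈ s) : Tendsto (fun p => F p x) atTop (𝓝 (f x)) :=
  (h x hx).comp (f := fun p : ℕ => (p, x))
    (tendsto_id.prodMk (tendsto_const_pure.mono_right (pure_le_nhdsWithin hx)))

theorem CC.continuousOn [TopologicalSpace β] [RegularSpace β] {F : ℕ → α → β} {f : α → β}
    {s : Set α} (h : CC F f s) : ContinuousOn f s := by
  intro x hx
  refine ((closed_nhds_basis (f x)).tendsto_right_iff).2 ?_
  rintro C ⟨hC, hCc⟩
  obtain ⟨pa, hpa, pb, hpb, hab⟩ := eventually_prod_iff.1 ((h x hx).eventually_mem hC)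
  filter_upwards [hpb, self_mem_nhdsWithin] with y hy hys
  exact hCc.mem_of_tendsto (h.tendsto_at hys) (hpa.mono fun p hp => hab hp hy)

theorem CC.tlu [UniformSpace β] {F : ℕ → α → β} {f : α → β} {s : Set α} (h : CC F f s) :
    TendstoLocallyUniformlyOn F f atTop s :=
  tendstoLocallyUniformlyOn_iff_forall_tendsto.2 fun x hx =>
    ((t_fun h.continuousOn hx).prodMk_nhds (h x hx)).mono_right (nhds_le_uniformity _)

theorem CC.subseq [TopologicalSpace β] {F : ℕ → α → β} {f : α → β} {s : Set α} (h : CC F f s)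
    {φ : ℕ → ℕ} (hφ : StrictMono φ) : CC (fun p => F (φ p)) f s := fun x hx =>
  (h x hx).comp (f := fun y : ℕ × α => (φ y.1, y.2))
    ((hφ.tendsto_atTop.comp tendsto_fst).prodMk tendsto_snd)

theorem CC.mono [TopologicalSpace β] {F : ℕ → α → β} {f : α → β} {s t : Set α} (h : CC F f s)
    (hts : t ⊆ s) : CC F f t := fun x hx =>
  (h x (hts hx)).mono_left (Filter.prod_mono le_rfl (nhdsWithin_mono x hts))

theorem CC.fst [TopologicalSpace β] [TopologicalSpace γ] {F : ℕ → α → β} {f : α → β} {s : Set α}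
    (h : CC F f s) :
    CC (fun p (q : α × γ) => F p q.1) (fun q => f q.1) (s ×ˢ (univ : Set γ)) := fun q hq =>
  (h q.1 hq.1).comp (f := fun y : ℕ × (α × γ) => (y.1, y.2.1))
    (tendsto_fst.prodMk ((continuous_fst.continuousWithinAt.tendsto_nhdsWithin
      (fun _ hz => hz.1)).comp tendsto_snd))

theorem CC.congr [TopologicalSpace β] {F G : ℕ → α → β} {f : α → β} {s : Set α} (h : CC F f s)
    (hFG : ∀ p, ∀ x ∈ s, F p x = G p x) : CC G f s := fun x hx =>
  (h x hx).congr' (by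
    have : ∀ᶠ y : ℕ × α in FF s x, y.2 ∈ s := tendsto_snd.eventually self_mem_nhdsWithin
    filter_upwards [this] with y hy using hFG _ _ hy)

theorem CC.comp [TopologicalSpace β] [TopologicalSpace γ] {F : ℕ → α → β} {f : α → β} {s : Set α}
    (h : CC F f s) {g : β → γ} (hg : Continuous g) :
    CC (fun p x => g (F p x)) (fun x => g (f x)) s := fun x hx =>
  (hg.tendsto _).comp (h x hx)

/-- uniform smallness on compact subsets -/
theorem CC.small [SeminormedAddCommGroup β] {F : ℕ → α → β} {f : α → β} {s K : Set α}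
    (h : CC F f s) (hK : IsCompact K) (hKs : K ⊆ s) (h0 : ∀ x ∈ K, f x = 0) {η : ℝ} (hη : 0 < η) :
    ∀ᶠ p in atTop, ∀ x ∈ K, ‖F p x‖ ≤ η := by
  have h1 := (tendstoLocallyUniformlyOn_iff_tendstoUniformlyOn_of_compact hK).1 (h.mono hKs).tlu
  filter_upwards [Metric.tendstoUniformlyOn_iff.1 h1 η hη] with p hp x hx
  have := hp x hx
  rw [h0 x hx, dist_zero_left] at this
  exact this.le

end cc

theorem subseq_fin {K : Type} (Q : K → (ℕ → ℕ) → Prop)
    (hsub : ∀ k (φ ψ : ℕ → ℕ), StrictMono ψ → Q k φ → Q k (φ ∘ ψ)) (s : Finset K)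
    (hex : ∀ k ∈ s, ∀ φ : ℕ → ℕ, StrictMono φ → ∃ ψ : ℕ → ℕ, StrictMono ψ ∧ Q k (φ ∘ ψ)) :
    ∃ φ : ℕ → ℕ, StrictMono φ ∧ ∀ k ∈ s, Q k φ := by
  classical
  induction s using Finset.induction_on with
  | empty => exact ⟨id, strictMono_id, fun _ h => absurd h (Finset.notMem_empty _)⟩
  | insert k s hk ih =>
    obtain ⟨φ, hφ, h⟩ := ih fun k' hk' => hex k' (Finset.mem_insert_of_mem hk')
    obtain ⟨ψ, hψ, h'⟩ := hex k (Finset.mem_insert_self _ _) φ hφ
    refine ⟨φ ∘ ψ, hφ.comp hψ, fun k' hk' => ?_⟩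
    rcases Finset.mem_insert.1 hk' with rfl | hk'
    · exact h'
    · exact hsub _ _ _ hψ (h k' hk')

theorem unif_bound {x : ℕ → ℝ → ℝ} {x₀ : ℝ → ℝ} {K : Set ℝ} (hK : IsCompact K)
    (hx : ∀ p, Continuous (x p)) (hlim : TendstoUniformlyOn x x₀ atTop K) :
    ∃ X : ℝ, 0 ≤ X ∧ ∀ p, ∀ θ ∈ K, |x p θ| ≤ X := by
  have h0 : ContinuousOn x₀ K :=
    hlim.continuousOn (Eventually.of_forall fun p => (hx p).continuousOn).frequently
  obtain ⟨B₀, hB₀⟩ := hK.exists_bound_of_continuousOn h0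
  choose B hB using fun p => hK.exists_bound_of_continuousOn (hx p).continuousOn
  obtain ⟨N, hN⟩ := eventually_atTop.1 (Metric.tendstoUniformlyOn_iff.1 hlim 1 one_pos)
  have hs : 0 ≤ ∑ p ∈ Finset.range N, |B p| := Finset.sum_nonneg fun _ _ => abs_nonneg _
  refine ⟨|B₀| + 1 + ∑ p ∈ Finset.range N, |B p|, by positivity, fun p θ hθ => ?_⟩
  rcases lt_or_ge p N with hp | hp
  · have h1 : |B p| ≤ ∑ p ∈ Finset.range N, |B p| :=
      Finset.single_le_sum (f := fun p => |B p|) (fun _ _ => abs_nonneg _) (Finset.mem_range.2 hp)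
    have h2 := hB p θ hθ
    rw [Real.norm_eq_abs] at h2
    linarith [le_abs_self (B p), abs_nonneg B₀]
  · have h1 := hN p hp θ hθ
    have h2 := hB₀ θ hθ
    rw [Real.norm_eq_abs] at h2
    rw [Real.dist_eq] at h1
    have h3 : |x p θ| ≤ |x₀ θ| + |x₀ θ - x p θ| := by
      have := abs_sub (x₀ θ) (x₀ θ - x p θ)
      rwa [sub_sub_cancel] at this
    linarith [le_abs_self B₀]

end Crest.Agent.R202.NoDeg
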