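import Crest.Agent.R202.SecDefs
import Crest.Agent.R202.OdeLim
import Crest.Agent.R202.NoDeg_a

/-!
# The sector system as a linear ODE in `ℂ × ℂ`; limit of one sector
-/

set_option autoImplicit false

noncomputable section

open scoped InnerProductSpace ContDiff
open Set Filter Topology
open Real

namespace Crest.Agent.R202.NoDeg

def E12 : ℂ × ℂ →L[ℝ] ℂ × ℂ := (ContinuousLinearMap.inl ℝ ℂ ℂ).comp (ContinuousLinearMap.snd ℝ ℂ ℂ)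
def E21 : ℂ × ℂ →L[ℝ] ℂ × ℂ := (ContinuousLinearMap.inr ℝ ℂ ℂ).comp (ContinuousLinearMap.fst ℝ ℂ ℂ)
def E22 : ℂ × ℂ →L[ℝ] ℂ × ℂ := (ContinuousLinearMap.inr ℝ ℂ ℂ).comp (ContinuousLinearMap.snd ℝ ℂ ℂ)
def EI (μ : ℤ) : ℂ × ℂ →L[ℝ] ℂ × ℂ := (Complex.I * μ : ℂ) • ContinuousLinearMap.id ℝ (ℂ × ℂ)

def secA (n : ℕ) (κ l : ℝ) (μ : ℤ) (x : ℝ → ℝ) (θ : ℝ) : ℂ × ℂ →L[ℝ] ℂ × ℂ :=
  (rr (x θ) / sin θ) • E12 + (gs (x θ) / sin θ) • EI μ + (((n : ℝ) - 3) * tan θ) • E22 +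
    (sin θ * (κ / cos θ ^ 2 - l) + rr (x θ) * (μ : ℝ) ^ 2 / sin θ) • E21

/-- the sector system with the coefficients of a profile `x` -/
abbrev SO (n : ℕ) (κ l : ℝ) (μ : ℤ) (x : ℝ → ℝ) (Y P : ℝ → ℂ) (θ : ℝ) : Prop :=
  SecODE n κ l μ (fun s => rr (x s)) (fun s => gs (x s) / sin s) Y P θ

theorem so_iff {n : ℕ} {κ l : ℝ} {μ : ℤ} {x : ℝ → ℝ} {Y P : ℝ → ℂ} {θ : ℝ} :
    SO n κ l μ x Y P θ ↔
      HasDerivAt (fun s => (Y s, P s)) (secA n κ l μ x θ (Y θ, P θ)) θ := by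
  have e : secA n κ l μ x θ (Y θ, P θ) =
      ((rr (x θ) / sin θ : ℝ) * P θ + Complex.I * μ * (gs (x θ) / sin θ : ℝ) * Y θ,
        Complex.I * μ * (gs (x θ) / sin θ : ℝ) * P θ + (((n : ℝ) - 3) * tan θ : ℝ) * P θ +
        (sin θ * (κ / cos θ ^ 2 - l) + rr (x θ) * (μ : ℝ) ^ 2 / sin θ : ℝ) * Y θ) := by
    simp only [secA, E12, E21, E22, EI, add_apply, smul_apply,
      ContinuousLinearMap.comp_apply, ContinuousLinearMap.coe_snd', ContinuousLinearMap.coe_fst',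
      ContinuousLinearMap.inl_apply, ContinuousLinearMap.inr_apply, ContinuousLinearMap.id_apply,
      Prod.smul_mk, Prod.mk_add_mk, smul_eq_mul, Complex.real_smul, mul_zero, add_zero, zero_add]
    congr 1 <;> ring
  rw [e]
  constructor
  · rintro ⟨h1, h2⟩
    exact h1.prodMk h2
  · intro h
    exact ⟨(ContinuousLinearMap.fst ℝ ℂ ℂ).hasFDerivAt.comp_hasDerivAt θ h,
      (ContinuousLinearMap.snd ℝ ℂ ℂ).hasFDerivAt.comp_hasDerivAt θ h⟩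

theorem continuous_rr : Continuous rr := by
  unfold rr
  exact Continuous.inv₀ (by fun_prop) fun x => by positivity

theorem continuous_gs : Continuous gs := by
  unfold gs
  exact Continuous.mul (by fun_prop) continuous_rr

variable {r n : ℕ}

theorem L_le (c : Cl r n) : π / r ≤ π := by
  have : (1 : ℝ) ≤ r := by exact_mod_cast c.r_pos
  exact div_le_self pi_pos.le this

theorem le_L (c : Cl r n) : π / 2 ≤ π / r := by
  rcases c.ok with ⟨rfl, -⟩ | ⟨rfl, -⟩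
  · simp only [Nat.cast_one, div_one]; linarith [pi_pos]
  · simp

theorem sin_pos (c : Cl r n) {θ : ℝ} (h : θ ∈ Ioo 0 (π / r)) : 0 < sin θ :=
  sin_pos_of_pos_of_lt_pi h.1 (h.2.trans_le (L_le c))

theorem cos_pos2 {θ : ℝ} (h : θ ∈ Ioo 0 (π / (2 : ℕ))) : 0 < cos θ :=
  cos_pos_of_mem_Ioo ⟨by linarith [h.1, pi_pos], by simpa using h.2⟩

theorem cont_tan (c : Cl r n) : ContinuousOn (fun θ => ((n : ℝ) - 3) * tan θ) (Ioo 0 (π / r)) := by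
  rcases c.ok with ⟨rfl, rfl, -⟩ | ⟨rfl, -⟩
  · simp only [Nat.cast_ofNat, sub_self, zero_mul]; exact continuousOn_const
  · exact continuousOn_const.mul (continuousOn_tan.mono fun θ h => (cos_pos2 h).ne')

theorem cont_kap (c : Cl r n) : ContinuousOn (fun θ => c.kap / cos θ ^ 2) (Ioo 0 (π / r)) := by
  rcases c.ok with ⟨-, -, hj⟩ | ⟨rfl, -⟩
  · simp only [Cl.kap, hj, Nat.cast_zero, zero_mul, zero_div]; exact continuousOn_const
  · exact continuousOn_const.div (by fun_prop) fun θ h => pow_ne_zero _ (cos_pos2 h).ne'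

theorem cc_secA (c : Cl r n) (μ : ℤ) {x : ℕ → ℝ → ℝ} {x₀ : ℝ → ℝ} (hx : CC x x₀ (Ioo 0 (π / r)))
    {l : ℕ → ℝ} {l₀ : ℝ} (hl : Tendsto l atTop (𝓝 l₀)) :
    CC (fun p => secA n c.kap (l p) μ (x p)) (secA n c.kap l₀ μ x₀) (Ioo 0 (π / r)) := by
  intro θ hθ
  have h1 := (hx.comp continuous_rr) θ hθ
  have h2 := (hx.comp continuous_gs) θ hθ
  have h3 := t_fun (continuous_sin.continuousOn (s := Ioo 0 (π / r))) hθ
  have h4 := t_fun (cont_tan c) hθ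
  have h5 := t_fun (cont_kap c) hθ
  have h6 := t_seq hl (Ioo 0 (π / r)) θ
  have hs := (sin_pos c hθ).ne'
  unfold secA
  exact ((((h1.div h3 hs).smul_const _).add ((h2.div h3 hs).smul_const _)).add
    (h4.smul_const _)).add (((h3.mul (h5.sub h6)).add ((h1.mul_const _).div h3 hs)).smul_const _)

theorem cont_secA (c : Cl r n) (μ : ℤ) {x : ℝ → ℝ} (hx : ContinuousOn x (Ioo 0 (π / r))) (l : ℝ) :
    ContinuousOn (secA n c.kap l μ x) (Ioo 0 (π / r)) :=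
  (cc_secA c μ (CC.const hx) (l := fun _ => l) tendsto_const_nhds).continuousOn

theorem sec_limit (c : Cl r n) (μ : ℤ) {x : ℕ → ℝ → ℝ} {x₀ : ℝ → ℝ} (hxc : ∀ p, Continuous (x p))
    (hx : CC x x₀ (Ioo 0 (π / r))) {l : ℕ → ℝ} {l₀ : ℝ} (hl : Tendsto l atTop (𝓝 l₀))
    (Y P : ℕ → ℝ → ℂ) (hode : ∀ p, ∀ θ ∈ Ioo 0 (π / r), SO n c.kap (l p) μ (x p) (Y p) (P p) θ)
    {a b C : ℝ} (ha : 0 < a) (hab : a < b) (hb : b < π / r)
    (hC : ∀ p, ∫ θ in a..b, ‖(Y p θ, P p θ)‖ ^ 2 ≤ C) :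
    ∃ φ : ℕ → ℕ, StrictMono φ ∧ ∃ Y₀ P₀ : ℝ → ℂ,
      (∀ θ ∈ Ioo 0 (π / r), SO n c.kap l₀ μ x₀ Y₀ P₀ θ) ∧
      CC (fun p => Y (φ p)) Y₀ (Ioo 0 (π / r)) ∧ CC (fun p => P (φ p)) P₀ (Ioo 0 (π / r)) := by
  obtain ⟨φ, u₀, hφ, h1, h2⟩ := ode_limit (fun p => secA n c.kap (l p) μ (x p)) _
    (fun p => cont_secA c μ (hxc p).continuousOn _) (cc_secA c μ hx hl).tlu
    (fun p θ => (Y p θ, P p θ)) (fun p θ hθ => so_iff.1 (hode p θ hθ)) ha hab hb hC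
  have h3 := CC.of_tlu h2 fun θ hθ => (h1 θ hθ).continuousAt.continuousWithinAt
  exact ⟨φ, hφ, fun θ => (u₀ θ).1, fun θ => (u₀ θ).2, fun θ hθ => so_iff.2 (h1 θ hθ),
    h3.comp continuous_fst, h3.comp continuous_snd⟩

/-- a real combination of solutions with the same parameters which vanishes at a point vanishes -/
theorem comb_zero (c : Cl r n) (μ : ℤ) {x : ℝ → ℝ} (hx : ContinuousOn x (Ioo 0 (π / r))) {M : ℕ}
    (l : Fin M → ℝ) (lam : ℝ) (Y P : Fin M → ℝ → ℂ)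
    (hode : ∀ a, ∀ θ ∈ Ioo 0 (π / r), SO n c.kap (l a) μ x (Y a) (P a) θ) (w : Fin M → ℝ)
    (hw : ∀ a, l a ≠ lam → w a = 0) {θ₀ : ℝ} (h₀ : θ₀ ∈ Ioo 0 (π / r))
    (hY : ∑ a, (w a : ℂ) * Y a θ₀ = 0) (hP : ∑ a, (w a : ℂ) * P a θ₀ = 0) :
    ∀ θ ∈ Ioo 0 (π / r), ∑ a, (w a : ℂ) * Y a θ = 0 := by
  have key := ode_zero (cont_secA c μ hx lam) (u := fun θ => ∑ a, w a • (Y a θ, P a θ))
    (fun θ hθ => ?_) h₀ ?_
  · intro θ hθ
    have := congrArg Prod.fst (key θ hθ)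
    simpa only [Prod.fst_sum, Prod.smul_mk, Complex.real_smul, Prod.fst_zero] using this
  · rw [map_sum]
    refine HasDerivAt.fun_sum fun a _ => ?_
    by_cases h : l a = lam
    · rw [map_smul, ← h]
      exact (so_iff.1 (hode a θ hθ)).const_smul (w a)
    · simp only [hw a h, zero_smul, map_zero]
      exact hasDerivAt_const _ _
  · refine Prod.ext ?_ ?_
    · simpa only [Prod.fst_sum, Prod.smul_mk, Complex.real_smul, Prod.fst_zero] using hY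
    · simpa only [Prod.snd_sum, Prod.smul_mk, Complex.real_smul, Prod.snd_zero] using hP

theorem cont_w0 (n : ℕ) : Continuous (w0 n) := by unfold w0; fun_prop

theorem P_eq {κ l : ℝ} {μ : ℤ} {x : ℝ → ℝ} {Y P : ℝ → ℂ} {θ : ℝ} (h : SO n κ l μ x Y P θ)
    (hs : sin θ ≠ 0) : P θ = (sin θ * (1 + 4 * x θ ^ 2) : ℝ) * deriv Y θ +
      Complex.I * μ * (x θ - 4 * x θ ^ 3 : ℝ) * Y θ := by
  rw [h.1.deriv]
  have h1 : (1 + 4 * x θ ^ 2 : ℝ) ≠ 0 := by positivity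
  have h2 : ((sin θ : ℝ) : ℂ) ≠ 0 := by exact_mod_cast hs
  have h3 : (1 + 4 * (x θ : ℂ) ^ 2) ≠ 0 := by exact_mod_cast h1
  simp only [gs, rr, Complex.ofReal_mul, Complex.ofReal_div, Complex.ofReal_add, Complex.ofReal_pow,
    Complex.ofReal_sub, Complex.ofReal_inv, Complex.ofReal_neg, Complex.ofReal_one,
    Complex.ofReal_ofNat]
  field_simp
  ring

/-- the `L²` bound on a compact subinterval -/
theorem l2_bound (c : Cl r n) (μ : ℤ) {a b : ℝ} (ha : 0 < a) (hab : a < b) (hb : b < π / r)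
    {X : ℝ} (hX : 0 ≤ X) : ∃ K : ℝ, 0 ≤ K ∧ ∀ (l : ℝ) (x : ℝ → ℝ) (Y P : ℝ → ℂ), ContDiff ℝ 1 Y →
      (∀ θ ∈ Icc 0 (π / r), |x θ| ≤ X) → (∀ θ ∈ Ioo 0 (π / r), SO n c.kap l μ x Y P θ) →
      ∫ θ in a..b, ‖(Y θ, P θ)‖ ^ 2 ≤ K * ((∫ θ in (0 : ℝ)..π / r, ‖Y θ‖ ^ 2 * w0 n θ) +
        ∫ θ in (0 : ℝ)..π / r, ‖deriv Y θ‖ ^ 2 * w0 n θ) := by
  have hsub : Icc a b ⊆ Ioo 0 (π / r) := fun θ h => ⟨ha.trans_le h.1, h.2.trans_lt hb⟩
  obtain ⟨θ₀, hθ₀, hmin⟩ := isCompact_Icc.exists_isMinOn (nonempty_Icc.2 hab.le)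
    (cont_w0 n).continuousOn
  have hm : 0 < w0 n θ₀ := c.w0_pos (hsub hθ₀)
  set K₁ : ℝ := (1 + 4 * X ^ 2) + |(μ : ℝ)| * (X + 4 * X ^ 3) with hK₁
  have hK₁0 : 0 ≤ K₁ := by positivity
  refine ⟨(1 + 2 * K₁ ^ 2) / w0 n θ₀, by positivity, fun l x Y P hY hx hode => ?_⟩
  have hY0 : Continuous Y := hY.continuous
  have hY1 : Continuous (deriv Y) := hY.continuous_deriv le_rfl
  have hc1 : Continuous fun θ => ‖Y θ‖ ^ 2 * w0 n θ := (hY0.norm.pow 2).mul (cont_w0 n)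
  have hc2 : Continuous fun θ => ‖deriv Y θ‖ ^ 2 * w0 n θ := (hY1.norm.pow 2).mul (cont_w0 n)
  rw [← intervalIntegral.integral_add (hc1.intervalIntegrable _ _) (hc2.intervalIntegrable _ _),
    ← intervalIntegral.integral_const_mul]
  have hc3 : Continuous fun θ => (1 + 2 * K₁ ^ 2) / w0 n θ₀ *
      (‖Y θ‖ ^ 2 * w0 n θ + ‖deriv Y θ‖ ^ 2 * w0 n θ) := continuous_const.mul (hc1.add hc2)
  refine le_trans ?_ (intervalIntegral.integral_mono_interval ha.le hab.le hb.le ?_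
    (hc3.intervalIntegrable _ _))
  · refine intervalIntegral.integral_mono_on hab.le ?_ (hc3.intervalIntegrable _ _) fun θ hθ => ?_
    · refine ContinuousOn.intervalIntegrable ?_
      rw [uIcc_of_le hab.le]
      exact (ContinuousOn.norm fun θ hθ =>
        (so_iff.1 (hode θ (hsub hθ))).continuousAt.continuousWithinAt).pow 2
    · have hθ' := hsub hθ
      have hxθ := hx θ (Ioo_subset_Icc_self hθ')
      have hP : ‖P θ‖ ≤ K₁ * (‖deriv Y θ‖ + ‖Y θ‖) := by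
        rw [P_eq (hode θ hθ') (sin_pos c hθ').ne']
        refine (norm_add_le _ _).trans ?_
        simp only [norm_mul, Complex.norm_real, Complex.norm_I, one_mul, Complex.norm_intCast,
          Real.norm_eq_abs]
        have e1 : x θ ^ 2 ≤ X ^ 2 := by rw [← sq_abs]; gcongr
        have e2 : |sin θ| * |1 + 4 * x θ ^ 2| ≤ 1 + 4 * X ^ 2 := by
          rw [abs_of_pos (by positivity : (0 : ℝ) < 1 + 4 * x θ ^ 2)]
          calc |sin θ| * (1 + 4 * x θ ^ 2) ≤ 1 * (1 + 4 * X ^ 2) := by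
                gcongr; exact abs_sin_le_one θ
            _ = _ := one_mul _
        have e3 : |x θ - 4 * x θ ^ 3| ≤ X + 4 * X ^ 3 := by
          refine (abs_sub _ _).trans ?_
          rw [abs_mul, abs_pow, abs_of_pos (by norm_num : (0 : ℝ) < 4)]
          gcongr
        have e4 : 0 ≤ |(μ : ℝ)| * (X + 4 * X ^ 3) := by positivity
        calc |sin θ| * |1 + 4 * x θ ^ 2| * ‖deriv Y θ‖ + |(μ : ℝ)| * |x θ - 4 * x θ ^ 3| * ‖Y θ‖
            ≤ K₁ * ‖deriv Y θ‖ + K₁ * ‖Y θ‖ := by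
              gcongr
              · rw [hK₁]; linarith
              · have : |(μ : ℝ)| * |x θ - 4 * x θ ^ 3| ≤ |(μ : ℝ)| * (X + 4 * X ^ 3) := by gcongr
                have : 0 ≤ 1 + 4 * X ^ 2 := by positivity
                rw [hK₁]; linarith
          _ = _ := by ring
      have h1 : ‖(Y θ, P θ)‖ ^ 2 ≤ ‖Y θ‖ ^ 2 + ‖P θ‖ ^ 2 := by
        rw [Prod.norm_mk]
        rcases max_choice ‖Y θ‖ ‖P θ‖ with h | h <;> rw [h] <;> nlinarith [sq_nonneg ‖Y θ‖, sq_nonneg ‖P θ‖]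
      have h2 : ‖P θ‖ ^ 2 ≤ 2 * K₁ ^ 2 * (‖deriv Y θ‖ ^ 2 + ‖Y θ‖ ^ 2) := by
        calc ‖P θ‖ ^ 2 ≤ (K₁ * (‖deriv Y θ‖ + ‖Y θ‖)) ^ 2 := by gcongr
          _ = K₁ ^ 2 * (‖deriv Y θ‖ + ‖Y θ‖) ^ 2 := by ring
          _ ≤ K₁ ^ 2 * (2 * (‖deriv Y θ‖ ^ 2 + ‖Y θ‖ ^ 2)) := by
              gcongr; nlinarith [sq_nonneg (‖deriv Y θ‖ - ‖Y θ‖)]
          _ = _ := by ring
      have h3 : 1 ≤ w0 n θ / w0 n θ₀ := (one_le_div hm).2 (hmin hθ)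
      calc ‖(Y θ, P θ)‖ ^ 2 ≤ (1 + 2 * K₁ ^ 2) * (‖Y θ‖ ^ 2 + ‖deriv Y θ‖ ^ 2) * 1 := by
            nlinarith [sq_nonneg ‖deriv Y θ‖]
        _ ≤ (1 + 2 * K₁ ^ 2) * (‖Y θ‖ ^ 2 + ‖deriv Y θ‖ ^ 2) * (w0 n θ / w0 n θ₀) := by gcongr
        _ = _ := by ring
  · filter_upwards [MeasureTheory.ae_restrict_mem measurableSet_Ioc] with θ hθ
    have := c.w0_nonneg (Ioc_subset_Icc_self hθ)
    show (0 : ℝ) ≤ _
    positivity

end Crest.Agent.R202.NoDeg
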