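import Crest.Agent.R202.Surf

/-!
# The eigen-ODE and orthonormality (task F1b)

`prof k = nrm ∑ γᵢ fᵢ`, `fᵢ = cos^{j+p} sin^m`, `p = rb - 2i`; a direct computation gives
`(w0 f')'/w0 - (κ/cos² + m²/sin²) f = p(p+ν-1) f/cos² - (j+m+p)(j+m+p+n-2) f`, `ν = 2j+n-3`, and the recursion of `gam` makes the sum telescope
(`λ - (d-2i-2)(d-2i-2+n-2) = 2(i+1)(2d-2i-2+n-2)`).  Orthogonality: in `φ` for different `μ`, Sturm-Liouville (Wronskian `w0 (f'g - fg')`
vanishes at both ends) for equal `μ`; the constant function (`j = 0`) is the case `λ = 0`.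
-/

set_option autoImplicit false

noncomputable section

open scoped InnerProductSpace ContDiff
open Set Filter Topology
open MvPolynomial Real

namespace Crest.Agent.R202

variable {r n : ℕ} (c : Cl r n)

theorem Cl.gam_eq_zero (m b i : ℕ) (h : b < (3 - r) * i) : c.gam m b i = 0 := by
  induction i with
  | zero => omega
  | succ i ih =>
    rw [Cl.gam]
    by_cases hi : b < (3 - r) * i
    · simp [ih hi]
    rcases c.ok with ⟨hr, hn, hj⟩ | ⟨hr, hn, hj⟩
    · subst hr hn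
      have : b = 2 * i ∨ b = 2 * i + 1 := by omega
      rcases this with rfl | rfl
      · simp
      · simp [hj]
    · subst hr
      have : b = i := by omega
      subst this
      simp

theorem Cl.gam_rec (m b i : ℕ) (h : i < b) :
    c.gam m b (i + 1) * (2 * (i + 1) * (2 * ((c.j + m + r * b : ℕ) : ℝ) - 2 * i - 2 + n - 2)) =
      -c.gam m b i * (((r * b : ℕ) : ℝ) - 2 * i) *
        (((r * b : ℕ) : ℝ) - 2 * i + (2 * c.j + n - 3) - 1) := by
  rw [Cl.gam]
  refine div_mul_cancel₀ _ (ne_of_gt ?_)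
  have h1 : b ≤ r * b := Nat.le_mul_of_pos_left _ c.r_pos
  have h2 : ((i + 1 : ℕ) : ℝ) ≤ ((c.j + m + r * b : ℕ) : ℝ) := by exact_mod_cast (by omega)
  have h3 : (3 : ℝ) ≤ n := by exact_mod_cast c.base.hn
  have h4 : (0 : ℝ) ≤ i := Nat.cast_nonneg _
  push_cast at h2 ⊢
  apply mul_pos <;> linarith

theorem orth_hd {f g : ℝ → ℝ} {a b x : ℝ} (h : HasDerivAt f a x) (hf : ∀ s, g s = f s)
    (hab : b = a) : HasDerivAt g b x := by
  rw [hab, funext hf]; exact h

theorem orth_d1 (q m : ℕ) (s : ℝ) : HasDerivAt (fun s => cos s ^ q * sin s ^ m)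
    (-(q * cos s ^ (q - 1) * sin s ^ (m + 1)) + m * cos s ^ (q + 1) * sin s ^ (m - 1)) s := by
  have := ((hasDerivAt_cos s).pow q).mul ((hasDerivAt_sin s).pow m)
  refine orth_hd this (fun _ => rfl) ?_
  simp only [Pi.pow_apply]
  ring

theorem orth_d2 (q m a : ℕ) {θ : ℝ} (hs : sin θ ≠ 0) :
    HasDerivAt (fun s => sin s * cos s ^ a *
      (-(q * cos s ^ (q - 1) * sin s ^ (m + 1)) + m * cos s ^ (q + 1) * sin s ^ (m - 1)))
      (sin θ ^ (m + 1) * (q * ((q : ℝ) + a - 1) * cos θ ^ (q + a - 2) +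
        ((m : ℝ) ^ 2 / sin θ ^ 2 - (q + m) * (q + m + a + 1)) * cos θ ^ (q + a))) θ := by
  have e : (fun s => sin s * cos s ^ a *
      (-(q * cos s ^ (q - 1) * sin s ^ (m + 1)) + m * cos s ^ (q + 1) * sin s ^ (m - 1))) =
      fun s => -(q : ℝ) * (cos s ^ (q - 1 + a) * sin s ^ (m + 2)) +
        m * (cos s ^ (q + 1 + a) * sin s ^ m) := by
    funext s
    rcases m with _ | m
    · simp; ring
    · simp only [Nat.add_sub_cancel]; ring
  rw [e]
  have := ((orth_d1 (q - 1 + a) (m + 2) θ).const_mul (-(q : ℝ))).add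
    ((orth_d1 (q + 1 + a) m θ).const_mul (m : ℝ))
  refine orth_hd this (fun _ => rfl) ?_
  have hc : cos θ ^ 2 = 1 - sin θ ^ 2 := cos_sq' θ
  have h1 : (q : ℝ) * (((q - 1 + a : ℕ) : ℝ) * cos θ ^ (q - 1 + a - 1) * sin θ ^ (m + 2 + 1)) =
      sin θ ^ (m + 1) * (q * ((q : ℝ) + a - 1) * cos θ ^ (q + a - 2) -
        q * ((q : ℝ) + a - 1) * cos θ ^ (q + a)) := by
    rcases q with _ | q
    · simp
    · rcases hqa : q + a with _ | t
      · have hq : q = 0 := by omega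
        have ha : a = 0 := by omega
        subst hq ha
        simp
      · have e1 : q + 1 - 1 + a = t + 1 := by omega
        have e2 : q + 1 + a = t + 2 := by omega
        have e3 : ((q + 1 : ℕ) : ℝ) + a - 1 = t + 1 := by
          have : ((q + a : ℕ) : ℝ) = ((t + 1 : ℕ) : ℝ) := by rw [hqa]
          push_cast at this ⊢; linarith
        rw [e1, e2, e3, Nat.add_sub_cancel, Nat.add_sub_cancel, pow_add (cos θ) t 2, hc]
        push_cast; ring
  have h2 : (q : ℝ) * (((m + 2 : ℕ) : ℝ) * cos θ ^ (q - 1 + a + 1) * sin θ ^ (m + 2 - 1)) =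
      q * (m + 2) * cos θ ^ (q + a) * sin θ ^ (m + 1) := by
    rcases q with _ | q
    · simp
    · have e1 : q + 1 - 1 + a + 1 = q + 1 + a := by omega
      have e2 : m + 2 - 1 = m + 1 := by omega
      rw [e1, e2]; push_cast; ring
  have h3 : (m : ℝ) * (m * cos θ ^ (q + 1 + a + 1) * sin θ ^ (m - 1)) =
      sin θ ^ (m + 1) * (((m : ℝ) ^ 2 / sin θ ^ 2 - m ^ 2) * cos θ ^ (q + a)) := by
    rcases m with _ | m
    · simp
    · have e1 : q + 1 + a + 1 = q + a + 2 := by omega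
      rw [e1, Nat.add_sub_cancel, pow_add (cos θ) (q + a) 2, hc]
      field_simp
      ring
  have e4 : q + 1 + a - 1 = q + a := by omega
  rw [e4]
  push_cast at h1 h2 ⊢
  linear_combination -h1 + h2 - h3

/-- the unnormalised profile -/
def Cl.orthP (m b : ℕ) (θ : ℝ) : ℝ := cos θ ^ c.j * sin θ ^ m * eval (pt r θ 0) (c.rad m b)

theorem Cl.orth_eval_rad (m b : ℕ) (θ φ : ℝ) : eval (pt r θ φ) (c.rad m b) =
    ∑ i ∈ Finset.range (b + 1), c.gam m b i * (cos θ ^ r) ^ (b - (3 - r) * i) := by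
  simp [Cl.rad, pt]

theorem Cl.orthP_eq (m b : ℕ) : c.orthP m b = fun θ => ∑ i ∈ Finset.range (b + 1),
    c.gam m b i * (cos θ ^ (c.j + r * (b - (3 - r) * i)) * sin θ ^ m) := by
  funext θ
  rw [Cl.orthP, Cl.orth_eval_rad, Finset.mul_sum]
  refine Finset.sum_congr rfl fun i _ => ?_
  rw [← pow_mul, pow_add]; ring

theorem Cl.orth_exp {m b i : ℕ} (h : c.gam m b i ≠ 0) : r * (b - (3 - r) * i) + 2 * i = r * b := by
  have h1 : ¬ b < (3 - r) * i := fun h1 => h (c.gam_eq_zero m b i h1)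
  rcases c.ok with ⟨hr, -, -⟩ | ⟨hr, -, -⟩ <;> subst hr <;> omega

theorem Cl.orth_A (m b i : ℕ) {x : ℝ} (hx : x ≠ 0 ∨ c.j = 0) :
    c.gam m b i * (((c.j + r * (b - (3 - r) * i) : ℕ) : ℝ) *
      (((c.j + r * (b - (3 - r) * i) : ℕ) : ℝ) + (n - 3 : ℕ) - 1) *
        x ^ (c.j + r * (b - (3 - r) * i) + (n - 3) - 2) -
      c.kap / x ^ 2 * x ^ (c.j + r * (b - (3 - r) * i) + (n - 3))) =
    c.gam m b i * (((r * b : ℕ) : ℝ) - 2 * i) * (((r * b : ℕ) : ℝ) - 2 * i + (2 * c.j + n - 3) - 1) *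
      x ^ (c.j + r * (b - (3 - r) * (i + 1)) + (n - 3)) := by
  by_cases hg : c.gam m b i = 0
  · simp [hg]
  have he := c.orth_exp hg
  have hn3 : ((n - 3 : ℕ) : ℝ) = n - 3 := by rw [Nat.cast_sub c.base.hn]; norm_num
  have hκ : ∀ t : ℕ, c.kap / x ^ 2 * x ^ (t + 2) = c.kap * x ^ t := by
    intro t
    rcases hx with hx | hx
    · field_simp; ring
    · simp [Cl.kap, hx]
  have hP : ((r * b : ℕ) : ℝ) - 2 * i = ((r * (b - (3 - r) * i) : ℕ) : ℝ) := by
    rw [← he]; push_cast; ring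
  rw [hP, hn3]
  rcases he' : r * (b - (3 - r) * i) with _ | _ | t
  · rcases c.ok with ⟨hr, hn, hj⟩ | ⟨hr, hn, hj⟩
    · simp [Cl.kap, hj]
    · obtain ⟨t, ht⟩ : ∃ t, c.j + 0 + (n - 3) = t + 2 := ⟨c.j + (n - 3) - 2, by omega⟩
      rw [ht, hκ, Nat.add_sub_cancel, Cl.kap]
      push_cast; ring
  · rcases c.ok with ⟨hr, hn, hj⟩ | ⟨hr, hn, hj⟩
    · subst hn; simp [Cl.kap, hj]
    · subst hr; omega
  · have e1 : r * (b - (3 - r) * (i + 1)) = t := by
      rcases c.ok with ⟨hr, -, -⟩ | ⟨hr, -, -⟩ <;> subst hr <;> omega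
    have e2 : c.j + (t + 1 + 1) + (n - 3) = c.j + t + (n - 3) + 2 := by omega
    rw [e1, e2, hκ, Nat.add_sub_cancel, Cl.kap]
    push_cast; ring

theorem Cl.orth_sum (m b : ℕ) {x : ℝ} (hx : x ≠ 0 ∨ c.j = 0) :
    ∑ i ∈ Finset.range (b + 1), c.gam m b i * (((c.j + r * (b - (3 - r) * i) : ℕ) : ℝ) *
      (((c.j + r * (b - (3 - r) * i) : ℕ) : ℝ) + (n - 3 : ℕ) - 1) *
        x ^ (c.j + r * (b - (3 - r) * i) + (n - 3) - 2) -
      c.kap / x ^ 2 * x ^ (c.j + r * (b - (3 - r) * i) + (n - 3))) +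
    ∑ i ∈ Finset.range (b + 1), c.gam m b i *
      (((c.j + m + r * b : ℕ) : ℝ) * (((c.j + m + r * b : ℕ) : ℝ) + n - 2) -
        (((c.j + r * (b - (3 - r) * i) : ℕ) : ℝ) + m) *
          (((c.j + r * (b - (3 - r) * i) : ℕ) : ℝ) + m + (n - 3 : ℕ) + 1)) *
        x ^ (c.j + r * (b - (3 - r) * i) + (n - 3)) = 0 := by
  have hn3 : ((n - 3 : ℕ) : ℝ) = n - 3 := by rw [Nat.cast_sub c.base.hn]; norm_num
  simp only [c.orth_A m b _ hx]
  rw [Finset.sum_range_succ, Finset.sum_range_succ']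
  have h1 : c.gam m b b * (((r * b : ℕ) : ℝ) - 2 * b) = 0 := by
    by_cases hg : c.gam m b b = 0
    · simp [hg]
    have he := c.orth_exp hg
    have : r * b = 2 * b := by
      rcases c.ok with ⟨hr, -, -⟩ | ⟨hr, -, -⟩ <;> subst hr <;> omega
    rw [this]; simp
  have h2 : ∀ i ∈ Finset.range b, c.gam m b (i + 1) *
      (((c.j + m + r * b : ℕ) : ℝ) * (((c.j + m + r * b : ℕ) : ℝ) + n - 2) -
        (((c.j + r * (b - (3 - r) * (i + 1)) : ℕ) : ℝ) + m) *
          (((c.j + r * (b - (3 - r) * (i + 1)) : ℕ) : ℝ) + m + (n - 3 : ℕ) + 1)) *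
        x ^ (c.j + r * (b - (3 - r) * (i + 1)) + (n - 3)) =
      -(c.gam m b i * (((r * b : ℕ) : ℝ) - 2 * i) *
        (((r * b : ℕ) : ℝ) - 2 * i + (2 * c.j + n - 3) - 1) *
          x ^ (c.j + r * (b - (3 - r) * (i + 1)) + (n - 3))) := by
    intro i hi
    have h3 := c.gam_rec m b i (Finset.mem_range.1 hi)
    rw [← neg_mul]
    congr 1
    by_cases hg : c.gam m b (i + 1) = 0
    · rw [hg] at h3 ⊢; linear_combination h3
    have he := c.orth_exp hg
    have hP : ((r * (b - (3 - r) * (i + 1)) : ℕ) : ℝ) = ((r * b : ℕ) : ℝ) - 2 * (i + 1) := by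
      rw [← he]; push_cast; ring
    rw [Nat.cast_add c.j (r * _), hP, hn3]
    rw [Nat.cast_add (c.j + m), Nat.cast_add c.j m] at h3 ⊢
    linear_combination h3
  rw [Finset.sum_congr rfl h2, Finset.sum_neg_distrib, h1, hn3]
  simp only [Nat.mul_zero, Nat.sub_zero]
  push_cast; ring

theorem Cl.orthP_ode (m b : ℕ) {θ : ℝ} (h : θ ∈ Ioo 0 (π / r)) :
    HasDerivAt (fun s => w0 n s * deriv (c.orthP m b) s) (w0 n θ *
      ((c.kap / cos θ ^ 2 + (m : ℝ) ^ 2 / sin θ ^ 2 -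
        ((c.j + m + r * b : ℕ) : ℝ) * (((c.j + m + r * b : ℕ) : ℝ) + n - 2)) * c.orthP m b θ)) θ := by
  have hr1 : (1 : ℝ) ≤ r := by exact_mod_cast c.r_pos
  have hs : sin θ ≠ 0 :=
    (sin_pos_of_pos_of_lt_pi h.1 (h.2.trans_le (div_le_self pi_pos.le hr1))).ne'
  have hx : cos θ ≠ 0 ∨ c.j = 0 := by
    rcases c.ok with ⟨hr, hn, hj⟩ | ⟨hr, hn, hj⟩
    · exact Or.inr hj
    · subst hr
      exact Or.inl (cos_pos_of_mem_Ioo ⟨by linarith [h.1, pi_pos], by exact_mod_cast h.2⟩).ne'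
  have e : (fun s => w0 n s * deriv (c.orthP m b) s) = fun s => ∑ i ∈ Finset.range (b + 1),
      c.gam m b i * (sin s * cos s ^ (n - 3) *
        (-((c.j + r * (b - (3 - r) * i) : ℕ) * cos s ^ (c.j + r * (b - (3 - r) * i) - 1) *
          sin s ^ (m + 1)) + m * cos s ^ (c.j + r * (b - (3 - r) * i) + 1) * sin s ^ (m - 1))) := by
    funext s
    rw [Cl.orthP_eq, (HasDerivAt.fun_sum fun i _ => (orth_d1 _ m s).const_mul (c.gam m b i)).deriv,
      Finset.mul_sum, w0]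
    exact Finset.sum_congr rfl fun i _ => by ring
  rw [e]
  have := HasDerivAt.fun_sum (u := Finset.range (b + 1)) fun i _ =>
    (orth_d2 (c.j + r * (b - (3 - r) * i)) m (n - 3) hs).const_mul (c.gam m b i)
  refine orth_hd this (fun _ => rfl) ?_
  have h0 := congrArg (fun t => sin θ ^ (m + 1) * t) (c.orth_sum m b hx)
  simp only [mul_zero] at h0
  rw [← Finset.sum_add_distrib, Finset.mul_sum] at h0
  rw [Cl.orthP_eq, ← sub_eq_zero, ← neg_eq_zero, ← h0, neg_sub, Finset.mul_sum, Finset.mul_sum,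
    ← Finset.sum_sub_distrib]
  refine Finset.sum_congr rfl fun i _ => ?_
  rw [w0, pow_add (cos θ) _ (n - 3)]
  ring

theorem Cl.orth_prof (k : c.J) : c.prof k = fun θ => c.nrm k * c.orthP k.1.1.natAbs k.1.2 θ := rfl

theorem Cl.orthP_contDiff (m b : ℕ) : ContDiff ℝ ∞ (c.orthP m b) := by
  rw [Cl.orthP_eq]; fun_prop

theorem Cl.prof_ode (k : c.J) {θ : ℝ} (h : θ ∈ Ioo 0 (π / r)) :
    HasDerivAt (fun s => w0 n s * deriv (c.prof k) s) (w0 n θ *
      ((c.kap / cos θ ^ 2 + (k.1.1 : ℝ) ^ 2 / sin θ ^ 2 - c.base.lam k) * c.prof k θ)) θ := by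
  have h1 := (c.orthP_ode k.1.1.natAbs k.1.2 h).const_mul (c.nrm k)
  have e : (fun s => w0 n s * deriv (c.prof k) s) =
      fun s => c.nrm k * (w0 n s * deriv (c.orthP k.1.1.natAbs k.1.2) s) := by
    funext s
    rw [Cl.orth_prof, deriv_const_mul_field]; ring
  rw [e]
  refine orth_hd h1 (fun _ => rfl) ?_
  have e2 : ((k.1.1.natAbs : ℕ) : ℝ) ^ 2 = (k.1.1 : ℝ) ^ 2 := by
    rw [Nat.cast_natAbs, Int.cast_abs, sq_abs]
  rw [e2, Cl.orth_prof]
  simp only [Base.lam, Cl.base, Cl.deg]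
  ring

theorem orth_int_cos (a : ℤ) : ∫ φ in (0 : ℝ)..2 * π, cos (a * φ) = if a = 0 then 2 * π else 0 := by
  split_ifs with h
  · simp [h]
  · have ha : (a : ℝ) ≠ 0 := by exact_mod_cast h
    rw [intervalIntegral.integral_comp_mul_left (fun x => cos x) ha, integral_cos]
    have : sin (a * (2 * π)) = 0 := by
      have := sin_int_mul_pi (a * 2)
      rw [← this]; push_cast; ring_nf
    simp [this]

theorem orth_int_sin (a : ℤ) : ∫ φ in (0 : ℝ)..2 * π, sin (a * φ) = 0 := by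
  by_cases h : a = 0
  · simp [h]
  · have ha : (a : ℝ) ≠ 0 := by exact_mod_cast h
    rw [intervalIntegral.integral_comp_mul_left (fun x => sin x) ha, integral_sin]
    simp [cos_int_mul_two_pi]

theorem orth_cc (a b : ℤ) : ∫ φ in (0 : ℝ)..2 * π, cos (a * φ) * cos (b * φ) =
    ((if a - b = 0 then 2 * π else 0) + if a + b = 0 then 2 * π else 0) / 2 := by
  rw [← orth_int_cos, ← orth_int_cos, ← intervalIntegral.integral_add
    (by apply Continuous.intervalIntegrable; fun_prop)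
    (by apply Continuous.intervalIntegrable; fun_prop), ← intervalIntegral.integral_div]
  congr 1; funext φ
  push_cast
  rw [sub_mul, add_mul, cos_sub, cos_add]; ring

theorem orth_ss (a b : ℤ) : ∫ φ in (0 : ℝ)..2 * π, sin (a * φ) * sin (b * φ) =
    ((if a - b = 0 then 2 * π else 0) - if a + b = 0 then 2 * π else 0) / 2 := by
  rw [← orth_int_cos, ← orth_int_cos, ← intervalIntegral.integral_sub
    (by apply Continuous.intervalIntegrable; fun_prop)
    (by apply Continuous.intervalIntegrable; fun_prop), ← intervalIntegral.integral_div]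
  congr 1; funext φ
  push_cast
  rw [sub_mul, add_mul, cos_sub, cos_add]; ring

theorem orth_sc (a b : ℤ) : ∫ φ in (0 : ℝ)..2 * π, sin (a * φ) * cos (b * φ) = 0 := by
  have : (0 : ℝ) = ((∫ φ in (0 : ℝ)..2 * π, sin ((a - b : ℤ) * φ)) +
      ∫ φ in (0 : ℝ)..2 * π, sin ((a + b : ℤ) * φ)) / 2 := by
    rw [orth_int_sin, orth_int_sin]; simp
  refine Eq.trans ?_ this.symm
  rw [← intervalIntegral.integral_add
    (by apply Continuous.intervalIntegrable; fun_prop)
    (by apply Continuous.intervalIntegrable; fun_prop), ← intervalIntegral.integral_div]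
  congr 1; funext φ
  push_cast
  rw [sub_mul, add_mul, sin_sub, sin_add]; ring

theorem integral_trig (μ μ₁ : ℤ) : ∫ φ in (0 : ℝ)..2 * π, trig μ φ * trig μ₁ φ =
    if μ = μ₁ then (if μ = 0 then 2 * π else π) else 0 := by
  have e : ∀ μ : ℤ, ((μ.natAbs : ℕ) : ℝ) = ((μ.natAbs : ℤ) : ℝ) := fun μ => (Int.cast_natCast _).symm
  unfold trig
  by_cases h : 0 ≤ μ <;> by_cases h₁ : 0 ≤ μ₁ <;> simp only [h, h₁, if_true, if_false, e]
  · rw [orth_cc]
    split_ifs <;> first | omega | ring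
  · simp_rw [mul_comm (cos _)]
    rw [orth_sc, if_neg (by omega)]
  · rw [orth_sc, if_neg (by omega)]
  · rw [orth_ss]
    split_ifs <;> first | omega | ring

theorem orth_sint (f g : ℝ → ℝ) (μ μ₁ : ℤ) :
    sint r n (fun θ φ => (f θ * trig μ φ) * (g θ * trig μ₁ φ)) =
      (if μ = μ₁ then (if μ = 0 then 2 * π else π) else 0) *
        ∫ θ in (0 : ℝ)..π / r, f θ * g θ * w0 n θ := by
  rw [sint, ← intervalIntegral.integral_const_mul, ← integral_trig]
  congr 1; funext θ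
  have : (fun φ => (f θ * trig μ φ) * (g θ * trig μ₁ φ)) =
      fun φ => (f θ * g θ) * (trig μ φ * trig μ₁ φ) := by funext φ; ring
  rw [this, intervalIntegral.integral_const_mul]; ring

theorem Cl.orth_fn_gk (k : c.J) (θ φ : ℝ) :
    c.fn (c.gk k) θ φ = c.orthP k.1.1.natAbs k.1.2 θ * trig k.1.1 φ := by
  rw [Cl.fn, Cl.gk, map_mul, eval_zt, Cl.orthP, Cl.orth_eval_rad, Cl.orth_eval_rad]; ring

theorem Cl.orth_ip_gk (k : c.J) : c.ip (c.gk k) (c.gk k) = (if k.1.1 = 0 then 2 * π else π) *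
    ∫ θ in (0 : ℝ)..π / r, c.orthP k.1.1.natAbs k.1.2 θ * c.orthP k.1.1.natAbs k.1.2 θ * w0 n θ := by
  simp only [Cl.ip, Cl.orth_fn_gk]
  rw [orth_sint, if_pos rfl]

theorem orth_w0_cont : Continuous (w0 n) := by unfold w0; fun_prop

theorem Cl.orthP_ne (m b : ℕ) : ∃ θ ∈ Ioo 0 (π / 2), c.orthP m b θ ≠ 0 := by
  by_contra hcon
  push Not at hcon
  let Q : Polynomial ℝ :=
    ∑ i ∈ Finset.range (b + 1), Polynomial.C (c.gam m b i) * Polynomial.X ^ (b - (3 - r) * i)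
  have hQ : Q.coeff b = 1 := by
    simp only [Q, Polynomial.finsetSum_coeff, Polynomial.coeff_C_mul, Polynomial.coeff_X_pow]
    rw [Finset.sum_eq_single 0]
    · simp [Cl.gam]
    · intro i hi h0
      have hi' := Finset.mem_range.1 hi
      rw [if_neg, mul_zero]
      rcases c.ok with ⟨hr, -, -⟩ | ⟨hr, -, -⟩ <;> subst hr <;> omega
    · simp
  have hQ0 : Q ≠ 0 := fun h => by simp [h] at hQ
  apply hQ0
  apply Polynomial.eq_zero_of_infinite_isRoot
  have hinj : InjOn (fun θ => cos θ ^ r) (Ioo 0 (π / 2)) := by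
    intro x hx y hy hxy
    have h1 : 0 ≤ cos x := (cos_pos_of_mem_Ioo ⟨by linarith [hx.1, pi_pos], hx.2⟩).le
    have h2 : 0 ≤ cos y := (cos_pos_of_mem_Ioo ⟨by linarith [hy.1, pi_pos], hy.2⟩).le
    have h3 : cos x = cos y := (pow_left_inj₀ h1 h2 (by have := c.r_pos; omega)).1 hxy
    exact injOn_cos ⟨hx.1.le, by linarith [hx.2, pi_pos]⟩ ⟨hy.1.le, by linarith [hy.2, pi_pos]⟩ h3
  refine ((Ioo_infinite (by positivity : (0 : ℝ) < π / 2)).image hinj).mono ?_
  rintro _ ⟨θ, hθ, rfl⟩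
  have h1 := hcon θ hθ
  have h2 : cos θ ≠ 0 := (cos_pos_of_mem_Ioo ⟨by linarith [hθ.1, pi_pos], hθ.2⟩).ne'
  have h3 : sin θ ≠ 0 := (sin_pos_of_pos_of_lt_pi hθ.1 (by linarith [hθ.2, pi_pos])).ne'
  rw [Cl.orthP, Cl.orth_eval_rad, mul_eq_zero] at h1
  have h4 := h1.resolve_left (mul_ne_zero (pow_ne_zero _ h2) (pow_ne_zero _ h3))
  simp only [mem_ofPred_eq, Polynomial.IsRoot, Q, Polynomial.eval_finsetSum, Polynomial.eval_mul,
    Polynomial.eval_C, Polynomial.eval_pow, Polynomial.eval_X]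
  exact h4

include c in
theorem Cl.orth_half_le : π / 2 ≤ π / r := by
  rcases c.ok with ⟨hr, -, -⟩ | ⟨hr, -, -⟩ <;> subst hr
  · simp only [Nat.cast_one, div_one]; linarith [pi_pos]
  · simp

theorem Cl.orthP_int_pos (m b : ℕ) :
    0 < ∫ θ in (0 : ℝ)..π / r, c.orthP m b θ * c.orthP m b θ * w0 n θ := by
  obtain ⟨θ, hθ, hne⟩ := c.orthP_ne m b
  have hc := (c.orthP_contDiff m b).continuous
  have hw := orth_w0_cont (n := n)
  have h2 := c.orth_half_le
  have := intervalIntegral.integral_lt_integral_of_continuousOn_of_le_of_exists_lt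
    (f := fun _ => (0 : ℝ)) (g := fun θ => c.orthP m b θ * c.orthP m b θ * w0 n θ)
    (a := 0) (b := π / r) (by linarith [hθ.1, hθ.2]) continuousOn_const (by fun_prop)
    (fun x hx => mul_nonneg (mul_self_nonneg _) (c.w0_nonneg ⟨hx.1.le, hx.2⟩))
    ⟨θ, ⟨hθ.1.le, by linarith [hθ.2]⟩,
      mul_pos (mul_self_pos.2 hne) (c.w0_pos ⟨hθ.1, by linarith [hθ.2]⟩)⟩
  simpa using this

theorem Cl.ip_gk_pos (k : c.J) : 0 < c.ip (c.gk k) (c.gk k) := by
  rw [Cl.orth_ip_gk]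
  refine mul_pos ?_ (c.orthP_int_pos _ _)
  split_ifs <;> positivity

theorem Cl.nrm_pos (k : c.J) : 0 < c.nrm k :=
  inv_pos.2 (sqrt_pos.2 (c.ip_gk_pos k))

theorem Cl.prof_congr {k k₁ : c.J} (h : k.1.1.natAbs = k₁.1.1.natAbs) (hb : k.1.2 = k₁.1.2) :
    c.prof k = c.prof k₁ := by
  have h0 : k.1.1 = 0 ↔ k₁.1.1 = 0 := by omega
  have : c.nrm k = c.nrm k₁ := by
    simp only [Cl.nrm, Cl.orth_ip_gk, h, hb, h0]
  rw [Cl.orth_prof, Cl.orth_prof, this, h, hb]

include c in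
theorem Cl.orth_w0_end : w0 n (π / r) = 0 := by
  rcases c.ok with ⟨hr, -, -⟩ | ⟨hr, hn, -⟩ <;> subst hr
  · simp [w0]
  · have : n - 3 ≠ 0 := by omega
    simp [w0, this]

include c in
theorem Cl.orth_ftc {W W' : ℝ → ℝ} (hW : Continuous W) (hW' : Continuous W')
    (h : ∀ θ ∈ Ioo 0 (π / r), HasDerivAt (fun s => w0 n s * W s) (W' θ) θ) :
    ∫ θ in (0 : ℝ)..π / r, W' θ = 0 := by
  have hw := orth_w0_cont (n := n)
  rw [intervalIntegral.integral_eq_sub_of_hasDerivAt_of_le (by positivity) (by fun_prop) h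
    (hW'.intervalIntegrable _ _), c.orth_w0_end]
  simp [w0]

theorem Cl.prof_orth {k k₁ : c.J} (h : k.1.1 = k₁.1.1) :
    ∫ θ in (0 : ℝ)..π / r, c.prof k θ * c.prof k₁ θ * w0 n θ =
      if k = k₁ then (if k.1.1 = 0 then 2 * π else π)⁻¹ else 0 := by
  by_cases hk : k = k₁
  · subst hk
    rw [if_pos rfl]
    have h1 := c.ip_gk_pos k
    have h2 : c.nrm k ^ 2 * c.ip (c.gk k) (c.gk k) = 1 := by
      rw [Cl.nrm, inv_pow, sq_sqrt h1.le, inv_mul_cancel₀ h1.ne']
    rw [Cl.orth_ip_gk] at h2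
    refine eq_inv_of_mul_eq_one_right ?_
    rw [← h2, Cl.orth_prof, mul_left_comm (c.nrm k ^ 2),
      ← intervalIntegral.integral_const_mul (c.nrm k ^ 2)]
    congr 2; funext θ; ring
  rw [if_neg hk]
  have hb : k.1.2 ≠ k₁.1.2 := fun hb => hk (Subtype.ext (Prod.ext h hb))
  have hd : c.deg k ≠ c.deg k₁ := by
    have := c.r_pos
    simp only [Cl.deg, h]
    intro h1
    exact hb (Nat.eq_of_mul_eq_mul_left this (by omega))
  have hl : c.base.lam k₁ - c.base.lam k ≠ 0 := by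
    have h1 : ((c.deg k₁ : ℕ) : ℝ) - c.deg k ≠ 0 := sub_ne_zero.2 (by exact_mod_cast hd.symm)
    have h2 : (3 : ℝ) ≤ n := by exact_mod_cast c.base.hn
    have h3 : ((c.deg k₁ : ℕ) : ℝ) + c.deg k + n - 2 ≠ 0 := by
      have : (0 : ℝ) ≤ c.deg k := Nat.cast_nonneg _
      have : (0 : ℝ) ≤ c.deg k₁ := Nat.cast_nonneg _
      linarith
    have h4 := mul_ne_zero h1 h3
    simp only [Base.lam, Cl.base]
    convert h4 using 1; ring
  have c1 := c.contDiff_prof k
  have c2 := c.contDiff_prof k₁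
  have d1 := c1.continuous_deriv (by simp)
  have d2 := c2.continuous_deriv (by simp)
  have e1 := c1.continuous
  have e2 := c2.continuous
  have hw := orth_w0_cont (n := n)
  have key := c.orth_ftc (W := fun s => deriv (c.prof k) s * c.prof k₁ s - c.prof k s * deriv (c.prof k₁) s)
    (W' := fun θ => (c.base.lam k₁ - c.base.lam k) * (c.prof k θ * c.prof k₁ θ * w0 n θ))
    (by fun_prop) (by fun_prop) (fun θ hθ => by
      have p1 := (c1.differentiable (by simp) θ).hasDerivAt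
      have p2 := (c2.differentiable (by simp) θ).hasDerivAt
      have := ((c.prof_ode k hθ).mul p2).sub (p1.mul (c.prof_ode k₁ hθ))
      refine orth_hd this (fun s => ?_) ?_
      · simp only [Pi.mul_apply, Pi.sub_apply]; ring
      · rw [h]; ring)
  rw [intervalIntegral.integral_const_mul] at key
  exact (mul_eq_zero.1 key).resolve_left hl

theorem Cl.ip_ek (k k₁ : c.J) : c.ip (c.ek k) (c.ek k₁) = if k = k₁ then 1 else 0 := by
  simp only [Cl.ip, Cl.fn_ek]
  rw [orth_sint]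
  by_cases h : k.1.1 = k₁.1.1
  · rw [if_pos h, c.prof_orth h]
    by_cases hk : k = k₁
    · rw [if_pos hk, if_pos hk]
      refine mul_inv_cancel₀ ?_
      split_ifs <;> positivity
    · rw [if_neg hk, if_neg hk, mul_zero]
  · rw [if_neg h, zero_mul, if_neg fun hk => h (by rw [hk])]

theorem Cl.ip_ek_one (h : c.j = 0) (k : c.J) : c.ip (c.ek k) 1 = 0 := by
  have e : ∀ θ φ, c.fn 1 θ φ = (fun _ => (1 : ℝ)) θ * trig 0 φ := by
    intro θ φ; simp [Cl.fn, h, trig]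
  simp only [Cl.ip, Cl.fn_ek, e]
  rw [orth_sint]
  by_cases hμ : k.1.1 = 0
  · have c1 := c.contDiff_prof k
    have e1 := c1.continuous
    have hw := orth_w0_cont (n := n)
    have key := c.orth_ftc (W := deriv (c.prof k))
      (W' := fun θ => -c.base.lam k * (c.prof k θ * 1 * w0 n θ))
      (c1.continuous_deriv (by simp)) (by fun_prop) (fun θ hθ => by
        convert c.prof_ode k hθ using 1
        simp only [Cl.kap, h, hμ]
        simp; ring)
    rw [intervalIntegral.integral_const_mul] at key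
    have hl : -c.base.lam k ≠ 0 := by linarith [c.base.two_le_lam k]
    rw [(mul_eq_zero.1 key).resolve_left hl, mul_zero]
  · rw [if_neg hμ, zero_mul]

end Crest.Agent.R202
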