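import Crest.Agent.R202.Radial_A

/-!
# Exact radial identities (task G2)

`gᵢⱼ xʲ = φ² xᵢ` has a symmetric derivative, hence `Γᵏᵢⱼ xʲ = ½ gᵏˡ x·∂gᵢₗ = (β-1) δᵏᵢ + Σᵏᵢ`.  Differentiate this identity:
with `A = β + Σ`, `xⁱ Ricᵢⱼ = ∂ₖAᵏⱼ - ∂ⱼ tr A + Γᵏₖₗ Aˡⱼ - Γᵏⱼₗ Aˡₖ`.  `Ġ x = 0` (differentiate `G x x = x`), `tr Σ = 0` (Jacobi's formula
for `det G = 1`).  For the sectional curvature put `ωₗ = φ² xₗ`, `Aⱼₖ = φ²(βG + ½Ġ)ⱼₖ`; then `ωₗ Γˡⱼₖ = ∂ⱼωₖ - Aⱼₖ` and
`ωₗ Rˡₖᵢⱼ = -∂ᵢAⱼₖ + ∂ⱼAᵢₖ - Aᵢₐ Γᵃⱼₖ + Aⱼₐ Γᵃᵢₖ`; contract with `xⁱ wʲ wᵏ`.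
-/

set_option autoImplicit false

noncomputable section

open scoped InnerProductSpace ContDiff
open Set Filter Topology
open Crest.GeometryTopology.CoordMetric Crest.GeometryTopology.ChartCurvature Matrix

namespace Crest.Agent.R202

variable {n : ℕ} {β : ℝ → ℝ} {b : ℝ} {G : MetricField n}

theorem Rad.rdot_mulVec (hG : Rad G) (x : Vec n) : rdot G x *ᵥ x.ofLp = 0 := by
  exact funext fun i => hG.rd_rdot_rad x i

theorem Rad.trace_sig (hG : Rad G) (x : Vec n) : (sig G x).trace = 0 := by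
  exact hG.rd_trace_sig x

theorem christoffel_radial (h : Prof β b) (hG : Rad G) {x : Vec n} (hx : x ≠ 0) (k i : Fin n) :
    ∑ j, christoffel (met β G) x k i j * x j =
      (if k = i then β (Real.log ‖x‖) - 1 else 0) + sig G x k i := by
  exact rd_christoffel_radial h hG hx k i

/-- The derivative of `christoffel_radial`. -/
theorem rd_dB (h : Prof β b) (hG : Rad G) {x : Vec n} (hx : x ≠ 0) (v : Vec n) (k i : Fin n) :
    ∑ j, fderiv ℝ (fun y => christoffel (met β G) y k i j) x v * x j =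
      (if k = i then deriv β (Real.log ‖x‖) * ((∑ l, x l * v l) / ‖x‖ ^ 2) else 0) +
        fderiv ℝ (fun y => sig G y k i) x v - ∑ j, christoffel (met β G) x k i j * v j := by
  have hg := isRiemannian_met h hG
  have h1 : rdL (fun y : Vec n => if k = i then β (Real.log ‖y‖) - 1 else 0) x v
      (if k = i then deriv β (Real.log ‖x‖) * ((∑ l, x l * v l) / ‖x‖ ^ 2) else 0) := by
    split_ifs
    · exact ((rdL_beta h hx v).sub (rdL.const 1 x v)).congr (sub_zero _)
    · exact rdL.const 0 x v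
  have h2 := rdL.unique_ne hx
    (rdL.sum fun j => (rdL.of_smooth (contDiff_christoffel hg k i j) x v).mul (rdL.coord j x v))
    (h1.add (rdL.of_smooth (hG.rd_smooth_sig k i) x v)) fun y hy => rd_christoffel_radial h hG hy k i
  rw [Finset.sum_add_distrib] at h2
  linarith

theorem rd_dB_pd (h : Prof β b) (hG : Rad G) {x : Vec n} (hx : x ≠ 0) (m k i : Fin n) :
    ∑ j, pderiv m (fun y => christoffel (met β G) y k i j) x * x j =
      (if k = i then deriv β (Real.log ‖x‖) * (x m / ‖x‖ ^ 2) else 0) +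
        pderiv m (fun y => sig G y k i) x - christoffel (met β G) x k i m := by
  have h1 := rd_dB h hG hx (EuclideanSpace.single m 1) k i
  rw [rd_single_sum, rd_sum_single] at h1
  exact h1

theorem rd_chr_symm (h : Prof β b) (hG : Rad G) (k i j : Fin n) :
    (fun y => christoffel (met β G) y k i j) = fun y => christoffel (met β G) y k j i :=
  funext fun y => christoffel_symm (isRiemannian_met h hG) y k i j

theorem rd_trace (hG : Rad G) (x : Vec n) : ∑ k, sig G x k k = 0 := hG.rd_trace_sig x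

theorem rd_dtrace (hG : Rad G) (x : Vec n) (m : Fin n) :
    ∑ k, pderiv m (fun y => sig G y k k) x = 0 :=
  (rdL.sum fun k => rdL.pd (hG.rd_smooth_sig k k) x m).unique (rdL.const 0 x _) (rd_trace hG)

theorem rd_dsig_rad (hG : Rad G) (x : Vec n) (m k : Fin n) :
    ∑ j, pderiv m (fun y => sig G y k j) x * x j = -sig G x k m := by
  have h1 := (rdL.sum fun j => (rdL.pd (hG.rd_smooth_sig k j) x m).mul (rdL.coord j x _)).unique
    (rdL.const 0 x _) fun y => hG.rd_sig_rad y k
  rw [Finset.sum_add_distrib, rd_sum_single] at h1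
  linarith

theorem rd_drad_sig (hG : Rad G) (x v : Vec n) (j : Fin n) :
    ∑ k, x k * fderiv ℝ (fun y => sig G y k j) x v = -∑ k, v k * sig G x k j := by
  have h1 := (rdL.sum fun k => (rdL.coord k x v).mul
    (rdL.of_smooth (hG.rd_smooth_sig k j) x v)).unique (rdL.const 0 x _) fun y => hG.rd_rad_sig y j
  rw [Finset.sum_add_distrib] at h1
  linarith

theorem rd_sum3 (f : Fin n → Fin n → Fin n → ℝ) :
    ∑ i, ∑ k, ∑ l, f i k l = ∑ k, ∑ l, ∑ i, f i k l := by
  rw [Finset.sum_comm]
  exact Finset.sum_congr rfl fun k _ => Finset.sum_comm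

theorem ricci_radial (h : Prof β b) (hG : Rad G) {x : Vec n} (hx : x ≠ 0) (j : Fin n) :
    ∑ i, x i * ricci (met β G) x i j =
      -((n : ℝ) - 1) * deriv β (Real.log ‖x‖) * x j / ‖x‖ ^ 2 +
      ((∑ k, pderiv k (fun y => sig G y k j) x) +
        (∑ k, ∑ l, christoffel (met β G) x k k l * sig G x l j) -
        ∑ k, ∑ l, christoffel (met β G) x k j l * sig G x l k) := by
  have hg := isRiemannian_met h hG
  have hs := christoffel_symm hg x
  have h0 : ∀ i, pderiv j (fun y => ∑ k, christoffel (met β G) y k k i) x =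
      ∑ k, pderiv j (fun y => christoffel (met β G) y k k i) x := fun i =>
    (rdL.pd (ContDiff.sum fun k _ => contDiff_christoffel hg k k i) x j).unique
      (rdL.sum fun k => rdL.pd (contDiff_christoffel hg k k i) x j) fun _ => rfl
  have a1 : ∑ i, x i * ∑ k, pderiv k (fun y => christoffel (met β G) y k i j) x =
      ∑ k, ∑ i, pderiv k (fun y => christoffel (met β G) y k j i) x * x i := by
    simp only [Finset.mul_sum]
    rw [Finset.sum_comm]
    refine Finset.sum_congr rfl fun k _ => Finset.sum_congr rfl fun i _ => ?_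
    rw [rd_chr_symm h hG k i j, mul_comm]
  have a2 : ∑ i, x i * ∑ k, pderiv j (fun y => christoffel (met β G) y k k i) x =
      ∑ k, ∑ i, pderiv j (fun y => christoffel (met β G) y k k i) x * x i := by
    simp only [Finset.mul_sum]
    rw [Finset.sum_comm]
    exact Finset.sum_congr rfl fun k _ => Finset.sum_congr rfl fun i _ => mul_comm _ _
  have a3 : ∑ i, x i * ∑ k, ∑ l, christoffel (met β G) x k k l * christoffel (met β G) x l i j =
      ∑ k, ∑ l, christoffel (met β G) x k k l * ∑ i, christoffel (met β G) x l j i * x i := by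
    simp only [Finset.mul_sum]
    rw [rd_sum3]
    refine Finset.sum_congr rfl fun k _ => Finset.sum_congr rfl fun l _ =>
      Finset.sum_congr rfl fun i _ => ?_
    rw [hs l i j]
    ring
  have a4 : ∑ i, x i * ∑ k, ∑ l, christoffel (met β G) x k j l * christoffel (met β G) x l k i =
      ∑ k, ∑ l, christoffel (met β G) x k j l * ∑ i, christoffel (met β G) x l k i * x i := by
    simp only [Finset.mul_sum]
    rw [rd_sum3]
    refine Finset.sum_congr rfl fun k _ => Finset.sum_congr rfl fun l _ =>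
      Finset.sum_congr rfl fun i _ => ?_
    ring
  have a5 : ∑ k, christoffel (met β G) x k j k = ∑ k, christoffel (met β G) x k k j :=
    Finset.sum_congr rfl fun k _ => hs k j k
  simp only [ricci, h0, mul_add, mul_sub, Finset.sum_add_distrib, Finset.sum_sub_distrib]
  rw [a1, a2, a3, a4]
  simp only [rd_dB_pd h hG hx, rd_christoffel_radial h hG hx, mul_add, Finset.sum_add_distrib,
    Finset.sum_sub_distrib, mul_ite, mul_zero, Finset.sum_ite_eq', Finset.mem_univ, if_true,
    Finset.sum_const, Finset.card_univ, Fintype.card_fin, nsmul_eq_mul, rd_dtrace hG,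
    ← Finset.sum_mul, a5]
  ring

theorem ricci_radial_radial (h : Prof β b) (hG : Rad G) {x : Vec n} (hx : x ≠ 0) :
    ∑ i, ∑ j, ricci (met β G) x i j * x i * x j =
      -((n : ℝ) - 1) * deriv β (Real.log ‖x‖) - (sig G x * sig G x).trace := by
  have hn : ‖x‖ ≠ 0 := norm_ne_zero_iff.mpr hx
  have hs := christoffel_symm (isRiemannian_met h hG) x
  have a0 : ∑ i, ∑ j, ricci (met β G) x i j * x i * x j =
      ∑ j, (∑ i, x i * ricci (met β G) x i j) * x j := by
    simp only [Finset.sum_mul]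
    rw [Finset.sum_comm]
    exact Finset.sum_congr rfl fun j _ => Finset.sum_congr rfl fun i _ => by ring
  have a1 : ∑ j, -((n : ℝ) - 1) * deriv β (Real.log ‖x‖) * x j / ‖x‖ ^ 2 * x j =
      -((n : ℝ) - 1) * deriv β (Real.log ‖x‖) := by
    have e : ∑ j, -((n : ℝ) - 1) * deriv β (Real.log ‖x‖) * x j / ‖x‖ ^ 2 * x j =
        -((n : ℝ) - 1) * deriv β (Real.log ‖x‖) / ‖x‖ ^ 2 * ∑ j, x j * x j := by
      rw [Finset.mul_sum]
      exact Finset.sum_congr rfl fun j _ => by ring
    rw [e, rd_normsq]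
    field_simp
  have a2 : ∑ j, (∑ k, pderiv k (fun y => sig G y k j) x) * x j = 0 := by
    simp only [Finset.sum_mul]
    rw [Finset.sum_comm]
    simp only [rd_dsig_rad hG, Finset.sum_neg_distrib, rd_trace hG, neg_zero]
  have a3 : ∑ j, (∑ k, ∑ l, christoffel (met β G) x k k l * sig G x l j) * x j = 0 := by
    simp only [Finset.sum_mul]
    rw [rd_sum3]
    simp only [mul_assoc, ← Finset.mul_sum, hG.rd_sig_rad, mul_zero, Finset.sum_const_zero]
  have a4 : ∑ j, (∑ k, ∑ l, christoffel (met β G) x k j l * sig G x l k) * x j =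
      ∑ k, ∑ l, (∑ j, christoffel (met β G) x k l j * x j) * sig G x l k := by
    simp only [Finset.sum_mul]
    rw [rd_sum3]
    refine Finset.sum_congr rfl fun k _ => Finset.sum_congr rfl fun l _ =>
      Finset.sum_congr rfl fun j _ => ?_
    rw [hs k j l]
    ring
  have a5 : (sig G x * sig G x).trace = ∑ k, ∑ l, sig G x k l * sig G x l k := rfl
  rw [a0]
  simp only [ricci_radial h hG hx, add_mul, sub_mul, Finset.sum_add_distrib, Finset.sum_sub_distrib]
  rw [a1, a2, a3, a4, a5]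
  simp only [rd_christoffel_radial h hG hx, add_mul, Finset.sum_add_distrib, ite_mul, zero_mul,
    Finset.sum_ite_eq, Finset.mem_univ, if_true, ← Finset.mul_sum, rd_trace hG]
  ring

theorem rd_sum4 (f : Fin n → Fin n → Fin n → Fin n → ℝ) :
    ∑ k, ∑ i, ∑ j, ∑ a, f k i j a = ∑ a, ∑ i, ∑ j, ∑ k, f k i j a := by
  rw [rd_sum3]
  refine Eq.trans (Finset.sum_congr rfl fun i _ => Finset.sum_congr rfl fun j _ => Finset.sum_comm) ?_
  exact (rd_sum3 fun a i j => ∑ k, f k i j a).symm

theorem rd_alg (Γ : Fin n → Fin n → Fin n → ℝ) (dΓ : Fin n → Fin n → Fin n → ℝ) (x w : Fin n → ℝ)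
    (l : Fin n) :
    ∑ k, ∑ i, ∑ j, (dΓ i j k - dΓ j i k + ∑ a, (Γ l i a * Γ a j k - Γ l j a * Γ a i k)) *
        w k * x i * w j =
      (∑ j, ∑ k, (∑ i, x i * dΓ i j k) * w j * w k) - (∑ k, (∑ i, (∑ j, w j * dΓ j i k) * x i) * w k) +
        (∑ a, (∑ i, Γ l i a * x i) * ∑ j, ∑ k, Γ a j k * w j * w k) -
        ∑ a, (∑ j, Γ l j a * w j) * ∑ k, (∑ i, Γ a i k * x i) * w k := by
  have h1 : ∑ k, ∑ i, ∑ j, dΓ i j k * w k * x i * w j =
      ∑ j, ∑ k, (∑ i, x i * dΓ i j k) * w j * w k := by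
    simp only [Finset.sum_mul]
    rw [← rd_sum3 fun j k i => dΓ i j k * w k * x i * w j]
    refine Finset.sum_congr rfl fun j _ => Finset.sum_congr rfl fun k _ =>
      Finset.sum_congr rfl fun i _ => ?_
    ring
  have h2 : ∑ k, ∑ i, ∑ j, dΓ j i k * w k * x i * w j =
      ∑ k, (∑ i, (∑ j, w j * dΓ j i k) * x i) * w k := by
    simp only [Finset.sum_mul]
    refine Finset.sum_congr rfl fun k _ => Finset.sum_congr rfl fun i _ =>
      Finset.sum_congr rfl fun j _ => ?_
    ring
  have h3 : ∑ k, ∑ i, ∑ j, (∑ a, Γ l i a * Γ a j k) * w k * x i * w j =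
      ∑ a, (∑ i, Γ l i a * x i) * ∑ j, ∑ k, Γ a j k * w j * w k := by
    simp only [Finset.sum_mul]
    rw [rd_sum4]
    simp only [Finset.mul_sum]
    refine Finset.sum_congr rfl fun a _ => Finset.sum_congr rfl fun i _ =>
      Finset.sum_congr rfl fun j _ => Finset.sum_congr rfl fun k _ => ?_
    ring
  have h4 : ∑ k, ∑ i, ∑ j, (∑ a, Γ l j a * Γ a i k) * w k * x i * w j =
      ∑ a, (∑ j, Γ l j a * w j) * ∑ k, (∑ i, Γ a i k * x i) * w k := by
    simp only [Finset.sum_mul]
    rw [rd_sum4]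
    simp only [Finset.mul_sum]
    refine Finset.sum_congr rfl fun a _ => ?_
    rw [rd_sum3]
    refine Finset.sum_congr rfl fun j _ => Finset.sum_congr rfl fun k _ =>
      Finset.sum_congr rfl fun i _ => ?_
    ring
  simp only [add_mul, sub_mul, Finset.sum_add_distrib, Finset.sum_sub_distrib]
  rw [h1, h2, h3, h4]
  ring

theorem rd_dot (M : Matrix (Fin n) (Fin n) ℝ) (u v : Fin n → ℝ) :
    ∑ i, ∑ j, M i j * u i * v j = u ⬝ᵥ M *ᵥ v := by
  simp only [dotProduct, Matrix.mulVec, Finset.mul_sum]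
  exact Finset.sum_congr rfl fun i _ => Finset.sum_congr rfl fun j _ => by ring

theorem rd_quad (M : MetricField n) (x w : Vec n) :
    quadForm M x w = w.ofLp ⬝ᵥ M x *ᵥ w.ofLp := rd_dot _ _ _

theorem rdL_quad {M : MetricField n} (hM : ∀ i j, ContDiff ℝ ∞ fun x => M x i j) (x w : Vec n) :
    rdL (fun y => quadForm M y w) x x (quadForm (rdot M) x w) :=
  rdL.sum fun i => rdL.sum fun j => ((rdL.of_smooth (hM i j) x x).mul_const _).mul_const _

theorem rd_N (h : Prof β b) (hG : Rad G) {x : Vec n} (hx : x ≠ 0) (u v : Fin n → ℝ) :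
    ∑ l, x l * ∑ j, ∑ k, christoffel (met β G) x l j k * u j * v k =
      2 * (β (Real.log ‖x‖) - 1) / ‖x‖ ^ 2 * ((∑ j, x j * u j) * ∑ k, x k * v k) + u ⬝ᵥ v -
        β (Real.log ‖x‖) * (u ⬝ᵥ G x *ᵥ v) - (u ⬝ᵥ rdot G x *ᵥ v) / 2 := by
  have h1 : ∑ l, x l * ∑ j, ∑ k, christoffel (met β G) x l j k * u j * v k =
      ∑ j, ∑ k, (∑ l, x l * christoffel (met β G) x l j k) * u j * v k := by
    simp only [Finset.mul_sum, Finset.sum_mul]
    rw [rd_sum3]
    refine Finset.sum_congr rfl fun j _ => Finset.sum_congr rfl fun k _ =>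
      Finset.sum_congr rfl fun l _ => ?_
    ring
  have h2 : u ⬝ᵥ v = ∑ j, ∑ k, (if j = k then (1 : ℝ) else 0) * u j * v k := by
    simp [dotProduct]
  rw [h1, h2, ← rd_dot, ← rd_dot, Finset.sum_mul_sum]
  simp only [rd_christoffel_lower h hG hx, Finset.mul_sum, Finset.sum_div, ← Finset.sum_add_distrib,
    ← Finset.sum_sub_distrib]
  exact Finset.sum_congr rfl fun j _ => Finset.sum_congr rfl fun k _ => by ring

theorem secNumer_radial (h : Prof β b) (hG : Rad G) {x : Vec n} (hx : x ≠ 0) (w : Vec n)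
    (hw : ⟪x, w⟫_ℝ = 0) :
    secNumer (met β G) x x w = conf β x ^ 2 * (-deriv β (Real.log ‖x‖) * quadForm G x w -
      β (Real.log ‖x‖) / 2 * quadForm (rdot G) x w - quadForm (rdot (rdot G)) x w / 2 +
      quadForm (fun y => rdot G y * (G y)⁻¹ * rdot G y) x w / 4) := by
  have hn : ‖x‖ ≠ 0 := norm_ne_zero_iff.mpr hx
  have hg := isRiemannian_met h hG
  have hs := christoffel_symm hg x
  rw [rd_inner] at hw
  -- lower the index
  have s1 : secNumer (met β G) x x w = conf β x ^ 2 * ∑ l, x l *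
      ∑ k, ∑ i, ∑ j, riemann (met β G) x l k i j * w k * x i * w j := by
    rw [secNumer, Finset.mul_sum]
    refine Finset.sum_congr rfl fun l _ => ?_
    rw [← hG.rd_rad x l, Finset.sum_mul, Finset.mul_sum]
    refine Finset.sum_congr rfl fun m _ => ?_
    rw [rd_met_apply]
    ring
  set B : ℝ := β (Real.log ‖x‖) with hB
  set Q : Fin n → ℝ := fun a => ∑ j, ∑ k, christoffel (met β G) x a j k * w j * w k with hQ
  set P : Fin n → ℝ := (B - 1) • w.ofLp + sig G x *ᵥ w.ofLp with hP
  have hB' : ∀ l a, ∑ i, christoffel (met β G) x l i a * x i =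
      (if l = a then B - 1 else 0) + sig G x l a := by
    intro l a
    rw [← rd_christoffel_radial h hG hx l a]
    exact Finset.sum_congr rfl fun i _ => by rw [hs l i a]
  have hP' : ∀ a, ∑ k, (∑ i, christoffel (met β G) x a i k * x i) * w k = P a := by
    intro a
    simp only [hB', add_mul, Finset.sum_add_distrib, ite_mul, zero_mul, Finset.sum_ite_eq,
      Finset.mem_univ, if_true]
    rfl
  have s2 : ∀ l, ∑ k, ∑ i, ∑ j, riemann (met β G) x l k i j * w k * x i * w j =
      (∑ j, ∑ k, fderiv ℝ (fun y => christoffel (met β G) y l j k) x x * w j * w k) -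
        ((∑ k, fderiv ℝ (fun y => sig G y l k) x w * w k) - Q l) +
        ((B - 1) * Q l + ∑ a, sig G x l a * Q a) -
        ∑ j, ∑ a, christoffel (met β G) x l j a * w j * P a := by
    intro l
    have e := rd_alg (christoffel (met β G) x)
      (fun m i j => pderiv m (fun y => christoffel (met β G) y l i j) x) x.ofLp w.ofLp l
    simp only [hP'] at e
    simp only [← rd_fderiv_sum, hB'] at e
    have e2 : ∀ k, ∑ i, fderiv ℝ (fun y => christoffel (met β G) y l i k) x w * x i =
        fderiv ℝ (fun y => sig G y l k) x w - ∑ j, christoffel (met β G) x l j k * w j := by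
      intro k
      have e3 := rd_dB h hG hx w l k
      simp only [hw, zero_div, mul_zero, ite_self, zero_add] at e3
      simp only [fun i => rd_chr_symm h hG l i k, fun j => hs l j k]
      exact e3
    have e4 : ∑ k, (∑ j, christoffel (met β G) x l j k * w j) * w k = Q l := by
      simp only [Finset.sum_mul]
      exact Finset.sum_comm
    have e5 : ∑ a, (∑ j, christoffel (met β G) x l j a * w j) * P a =
        ∑ j, ∑ a, christoffel (met β G) x l j a * w j * P a := by
      simp only [Finset.sum_mul]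
      exact Finset.sum_comm
    simp only [e2, sub_mul, add_mul, Finset.sum_sub_distrib, Finset.sum_add_distrib, ite_mul,
      zero_mul, Finset.sum_ite_eq, Finset.mem_univ, if_true, e4, e5] at e
    simp only [riemann, sub_mul, add_mul, Finset.sum_sub_distrib, Finset.sum_add_distrib]
    exact e
  -- the values
  have v1 : ∑ l, x l * Q l = w.ofLp ⬝ᵥ w.ofLp - B * quadForm G x w - quadForm (rdot G) x w / 2 := by
    rw [rd_quad, rd_quad, hQ, rd_N h hG hx, hw]
    ring
  have v2 : ∑ l, x l * Q l +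
      ∑ l, x l * ∑ j, ∑ k, fderiv ℝ (fun y => christoffel (met β G) y l j k) x x * w j * w k =
      -(deriv β (Real.log ‖x‖) * quadForm G x w + B * quadForm (rdot G) x w) -
        quadForm (rdot (rdot G)) x w / 2 := by
    have d1 := rdL.sum fun l => (rdL.coord l x x).mul (rdL.sum fun j => rdL.sum fun k =>
      ((rdL.of_smooth (contDiff_christoffel hg l j k) x x).mul_const (w j)).mul_const (w k))
    have d2 : rdL (fun y : Vec n => ∑ j, y j * w j) x x 0 :=
      (rdL.sum fun j => (rdL.coord j x x).mul_const (w j)).congr hw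
    have d3 : rdL (fun y : Vec n => 2 * (β (Real.log ‖y‖) - 1) / ‖y‖ ^ 2) x x _ :=
      HasDerivAt.fun_div (((rdL_beta h hx x).sub (rdL.const 1 x x)).const_mul 2) (rdL_normsq x x)
        (by simpa using hx)
    have d4 := (((d3.mul (d2.mul d2)).add (rdL.const (w.ofLp ⬝ᵥ w.ofLp) x x)).sub
      ((rdL_beta h hx x).mul (rdL_quad hG.smooth x w))).sub
      ((rdL_quad (rd_smooth_rdot hG.smooth) x w).mul_const (1 / 2))
    have d5 := rdL.unique_ne hx d1 d4 fun y hy => by
      rw [rd_N h hG hy, rd_quad, rd_quad]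
      ring
    rw [Finset.sum_add_distrib, hw, rd_normsq, div_self (pow_ne_zero 2 hn)] at d5
    rw [d5]
    ring
  have v3 : ∑ l, x l * ∑ k, fderiv ℝ (fun y => sig G y l k) x w * w k =
      -(w.ofLp ⬝ᵥ sig G x *ᵥ w.ofLp) := by
    have e : ∑ l, x l * ∑ k, fderiv ℝ (fun y => sig G y l k) x w * w k =
        ∑ k, (∑ l, x l * fderiv ℝ (fun y => sig G y l k) x w) * w k := by
      simp only [Finset.mul_sum, Finset.sum_mul]
      rw [Finset.sum_comm]
      exact Finset.sum_congr rfl fun k _ => Finset.sum_congr rfl fun l _ => by ring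
    rw [e, ← rd_dot, Finset.sum_comm, ← Finset.sum_neg_distrib]
    refine Finset.sum_congr rfl fun k _ => ?_
    rw [rd_drad_sig hG, neg_mul, Finset.sum_mul]
    congr 1
    exact Finset.sum_congr rfl fun l _ => by ring
  have v4 : ∑ l, x l * ∑ a, sig G x l a * Q a = 0 := by
    simp only [Finset.mul_sum]
    rw [Finset.sum_comm]
    simp only [← mul_assoc, ← Finset.sum_mul, hG.rd_rad_sig, zero_mul, Finset.sum_const_zero]
  have v5 : ∑ l, x l * ∑ j, ∑ a, christoffel (met β G) x l j a * w j * P a =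
      (B - 1) * (w.ofLp ⬝ᵥ w.ofLp) + w.ofLp ⬝ᵥ sig G x *ᵥ w.ofLp -
        B * ((B - 1) * quadForm G x w + quadForm (rdot G) x w / 2) -
        ((B - 1) * quadForm (rdot G) x w +
          quadForm (fun y => rdot G y * (G y)⁻¹ * rdot G y) x w / 2) / 2 := by
    have m1 : G x * sig G x = (1 / 2 : ℝ) • rdot G x := by
      rw [sig, Matrix.mul_smul, ← Matrix.mul_assoc, Matrix.mul_nonsing_inv _ (hG.rd_unit x),
        Matrix.one_mul]
    have m2 : rdot G x * sig G x = (1 / 2 : ℝ) • (rdot G x * (G x)⁻¹ * rdot G x) := by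
      rw [sig, Matrix.mul_smul, Matrix.mul_assoc]
    rw [rd_N h hG hx, hw, rd_quad, rd_quad, rd_quad, hP]
    simp only [Matrix.mulVec_add, Matrix.mulVec_smul, Matrix.mulVec_mulVec, m1, m2, dotProduct_add,
      dotProduct_smul, Matrix.smul_mulVec, smul_eq_mul]
    ring
  have v6 : ∑ l, x l * ((B - 1) * Q l) = (B - 1) * ∑ l, x l * Q l := by
    rw [Finset.mul_sum]
    exact Finset.sum_congr rfl fun l _ => by ring
  rw [s1]
  congr 1
  simp only [s2, mul_add, mul_sub, Finset.sum_add_distrib, Finset.sum_sub_distrib]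
  rw [v3, v4, v5, v6]
  linear_combination v2 + (B - 1) * v1

end Crest.Agent.R202
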