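import Crest.Agent.R202.Jet

/-!
# Toolkit for `Radial`: line derivatives, Jacobi's formula, first-order identities
-/

set_option autoImplicit false

noncomputable section

open scoped InnerProductSpace ContDiff
open Set Filter Topology
open Crest.GeometryTopology.CoordMetric Crest.GeometryTopology.ChartCurvature Matrix

namespace Crest.Agent.R202

variable {n : ℕ} {β : ℝ → ℝ} {b : ℝ} {G : MetricField n}

/-- `a` is the derivative of `f` at `x` in the direction `v`. -/
def rdL (f : Vec n → ℝ) (x v : Vec n) (a : ℝ) : Prop :=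
  HasDerivAt (fun s : ℝ => f (x + s • v)) a 0

section line

variable {f g : Vec n → ℝ} {x v : Vec n} {a c : ℝ}

theorem rdL.of_diff (hf : DifferentiableAt ℝ f x) (v : Vec n) : rdL f x v (fderiv ℝ f x v) :=
  hf.hasFDerivAt.hasLineDerivAt v

theorem rdL.congr (hf : rdL f x v a) (h : a = c) : rdL f x v c := h ▸ hf

theorem rdL.of_smooth (hf : ContDiff ℝ ∞ f) (x v : Vec n) : rdL f x v (fderiv ℝ f x v) :=
  rdL.of_diff (hf.differentiable (by simp) x) v

theorem rdL.pd (hf : ContDiff ℝ ∞ f) (x : Vec n) (m : Fin n) :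
    rdL f x (EuclideanSpace.single m 1) (pderiv m f x) :=
  rdL.of_smooth hf x _

theorem rdL.const (c : ℝ) (x v : Vec n) : rdL (fun _ => c) x v 0 := hasDerivAt_const _ _

theorem rdL.coord (j : Fin n) (x v : Vec n) : rdL (fun y => y j) x v (v j) := by
  have h : HasDerivAt (fun s : ℝ => x j + s * v j) (v j) 0 := by
    simpa using ((hasDerivAt_id (0 : ℝ)).mul_const (v j)).const_add (x j)
  exact h

theorem rdL.add (hf : rdL f x v a) (hg : rdL g x v c) : rdL (fun y => f y + g y) x v (a + c) :=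
  HasDerivAt.add hf hg

theorem rdL.sub (hf : rdL f x v a) (hg : rdL g x v c) : rdL (fun y => f y - g y) x v (a - c) :=
  HasDerivAt.sub hf hg

theorem rdL.mul (hf : rdL f x v a) (hg : rdL g x v c) :
    rdL (fun y => f y * g y) x v (a * g x + f x * c) := by
  have h := HasDerivAt.fun_mul hf hg
  simp only [zero_smul, add_zero] at h
  exact h

theorem rdL.mul_const (hf : rdL f x v a) (c : ℝ) : rdL (fun y => f y * c) x v (a * c) :=
  HasDerivAt.mul_const hf c

theorem rdL.const_mul (hf : rdL f x v a) (c : ℝ) : rdL (fun y => c * f y) x v (c * a) :=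
  HasDerivAt.const_mul c hf

theorem rdL.sq (hf : rdL f x v a) : rdL (fun y => f y ^ 2) x v (2 * f x * a) := by
  have h := hf.mul hf
  have e : (fun y => f y ^ 2) = fun y => f y * f y := by
    funext y
    ring
  rw [e]
  convert h using 1
  ring

theorem rdL.sum {F : Fin n → Vec n → ℝ} {A : Fin n → ℝ} (h : ∀ j, rdL (F j) x v (A j)) :
    rdL (fun y => ∑ j, F j y) x v (∑ j, A j) :=
  HasDerivAt.fun_sum fun j _ => h j

theorem rdL.unique (hf : rdL f x v a) (hg : rdL g x v c) (h : ∀ y, f y = g y) : a = c := by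
  obtain rfl : f = g := funext h
  exact HasDerivAt.unique hf hg

theorem rdL.unique_ne (hx : x ≠ 0) (hf : rdL f x v a) (hg : rdL g x v c)
    (h : ∀ y, y ≠ 0 → f y = g y) : a = c := by
  refine HasDerivAt.unique (HasDerivAt.congr_of_eventuallyEq hf ?_) hg
  have hc : ContinuousAt (fun s : ℝ => x + s • v) 0 := by fun_prop
  have h0 : ∀ᶠ s : ℝ in 𝓝 0, x + s • v ≠ 0 := hc.eventually_ne (by simpa using hx)
  filter_upwards [h0] with s hs
  exact (h _ hs).symm

theorem rd_fderiv_sum (f : Vec n → ℝ) (x v : Vec n) :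
    fderiv ℝ f x v = ∑ i, v i * pderiv i f x := by
  have hv : v = ∑ i, v i • EuclideanSpace.single i (1 : ℝ) := by
    ext j
    simp [Finset.sum_apply, Pi.single_apply]
  conv_lhs => rw [hv]
  rw [map_sum]
  simp only [map_smul, smul_eq_mul]
  rfl

end line

theorem rd_normsq (x : Vec n) : ∑ i, x i * x i = ‖x‖ ^ 2 := by
  rw [EuclideanSpace.real_norm_sq_eq]
  exact Finset.sum_congr rfl fun i _ => by ring

theorem rd_inner (x v : Vec n) : ⟪x, v⟫_ℝ = ∑ i, x i * v i := by
  rw [PiLp.inner_apply]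
  exact Finset.sum_congr rfl fun i _ => by simp [mul_comm]

theorem rdL_normsq (x v : Vec n) : rdL (fun y => ‖y‖ ^ 2) x v (2 * ∑ i, x i * v i) := by
  have h := rdL.sum fun i => (rdL.coord i x v).mul (rdL.coord i x v)
  simp only [rd_normsq] at h
  convert h using 1
  rw [Finset.mul_sum]
  exact Finset.sum_congr rfl fun i _ => by ring

theorem rdL_log {x : Vec n} (hx : x ≠ 0) (v : Vec n) :
    rdL (fun y => Real.log ‖y‖) x v ((∑ i, x i * v i) / ‖x‖ ^ 2) := by
  have hn : ‖x‖ ^ 2 ≠ 0 := pow_ne_zero 2 (norm_ne_zero_iff.mpr hx)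
  have h := (HasDerivAt.log (rdL_normsq x v) (by simpa using hx)).div_const 2
  simp only [zero_smul, add_zero] at h
  have e : (fun y : Vec n => Real.log ‖y‖) = fun y => Real.log (‖y‖ ^ 2) / 2 := by
    funext y
    rw [Real.log_pow]
    push_cast
    ring
  rw [e]
  refine rdL.congr h ?_
  field_simp

theorem rdL_beta (h : Prof β b) {x : Vec n} (hx : x ≠ 0) (v : Vec n) :
    rdL (fun y => β (Real.log ‖y‖)) x v
      (deriv β (Real.log ‖x‖) * ((∑ i, x i * v i) / ‖x‖ ^ 2)) := by
  have h1 : HasDerivAt β (deriv β (Real.log ‖x‖)) (Real.log ‖x + (0 : ℝ) • v‖) := by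
    rw [zero_smul, add_zero]
    exact (h.smooth.differentiable (by simp) _).hasDerivAt
  exact HasDerivAt.comp (0 : ℝ) h1 (rdL_log hx v)

theorem rdL_conf (h : Prof β b) {x : Vec n} (hx : x ≠ 0) (v : Vec n) :
    rdL (conf β) x v (conf β x * ((β (Real.log ‖x‖) - 1) * (∑ i, x i * v i) / ‖x‖ ^ 2)) := by
  have h1 := rdL.of_smooth (h.contDiff_conf (n := n)) x v
  rw [rd_fderiv_sum] at h1
  convert h1 using 1
  simp only [h.pderiv_conf hx, Finset.mul_sum, Finset.sum_div]
  exact Finset.sum_congr rfl fun i _ => by ring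

theorem rdL_confsq (h : Prof β b) {x : Vec n} (hx : x ≠ 0) (v : Vec n) :
    rdL (fun y => conf β y ^ 2) x v
      (2 * conf β x ^ 2 * ((β (Real.log ‖x‖) - 1) * (∑ i, x i * v i) / ‖x‖ ^ 2)) := by
  convert (rdL_conf h hx v).sq using 1
  ring

theorem rd_conf_ne (β : ℝ → ℝ) (x : Vec n) : conf β x ≠ 0 := (Real.exp_pos _).ne'

/-- Jacobi's formula along a curve. -/
theorem rd_hasDerivAt_det {M : ℝ → Matrix (Fin n) (Fin n) ℝ} {M' : Matrix (Fin n) (Fin n) ℝ} {t : ℝ}
    (h : ∀ i j, HasDerivAt (fun s => M s i j) (M' i j) t) :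
    HasDerivAt (fun s => (M s).det) (((M t).adjugate * M').trace) t := by
  have h1 : ((M t).adjugate * M').trace = ∑ j, ((M t).updateCol j fun k => M' k j).det := by
    refine Finset.sum_congr rfl fun j _ => ?_
    rw [← Matrix.cramer_apply, Matrix.cramer_eq_adjugate_mulVec]
    rfl
  rw [h1]
  simp only [Matrix.det_apply']
  rw [Finset.sum_comm]
  refine HasDerivAt.fun_sum fun π _ => ?_
  rw [← Finset.mul_sum]
  refine HasDerivAt.const_mul _ ?_
  convert HasDerivAt.fun_finsetProd (u := Finset.univ) (fun i _ => h (π i) i) using 1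
  refine Finset.sum_congr rfl fun j _ => ?_
  rw [← Finset.mul_prod_erase Finset.univ _ (Finset.mem_univ j), Matrix.updateCol_self, smul_eq_mul,
    mul_comm]
  congr 1
  exact Finset.prod_congr rfl fun i hi => Matrix.updateCol_ne (Finset.ne_of_mem_erase hi)

theorem Rad.rd_riem (hG : Rad G) : IsRiemannianOn G univ :=
  ⟨isOpen_univ, fun i j => (hG.smooth i j).contDiffOn, fun x _ => hG.posDef x⟩

theorem Rad.rd_symm (hG : Rad G) (x : Vec n) (i j : Fin n) : G x i j = G x j i :=
  (hG.symm x).apply j i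

theorem Rad.rd_rad (hG : Rad G) (x : Vec n) (i : Fin n) : ∑ j, G x i j * x j = x i :=
  congrFun (hG.rad x) i

theorem Rad.rd_unit (hG : Rad G) (x : Vec n) : IsUnit (G x).det := by
  rw [hG.det]
  exact isUnit_one

/-- The derivative of `G y y = y`. -/
theorem Rad.rd_drad (hG : Rad G) (x v : Vec n) (i : Fin n) :
    ∑ j, fderiv ℝ (fun y => G y i j) x v * x j = v i - ∑ j, G x i j * v j := by
  have h := (rdL.sum fun j => (rdL.of_smooth (hG.smooth i j) x v).mul (rdL.coord j x v)).unique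
    (rdL.coord i x v) fun y => hG.rd_rad y i
  rw [Finset.sum_add_distrib] at h
  linarith

theorem Rad.rd_rdot_rad (hG : Rad G) (x : Vec n) (i : Fin n) : ∑ j, rdot G x i j * x j = 0 := by
  have h := hG.rd_drad x x i
  rw [hG.rd_rad, sub_self] at h
  exact h

theorem Rad.rd_rdot_symm (hG : Rad G) (x : Vec n) (i j : Fin n) : rdot G x i j = rdot G x j i := by
  have e : (fun y => G y i j) = fun y => G y j i := funext fun y => hG.rd_symm y i j
  simp only [rdot, Matrix.of_apply, e]

theorem rd_smooth_rdot {M : MetricField n} (h : ∀ i j, ContDiff ℝ ∞ fun x => M x i j) (i j : Fin n) :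
    ContDiff ℝ ∞ fun x => rdot M x i j :=
  ((h i j).fderiv_right (m := ∞) (by simp)).clm_apply contDiff_id

theorem rd_sig_apply (G : MetricField n) (x : Vec n) (k i : Fin n) :
    sig G x k i = 1 / 2 * ∑ l, (G x)⁻¹ k l * rdot G x l i := rfl

theorem Rad.rd_smooth_sig (hG : Rad G) (k i : Fin n) : ContDiff ℝ ∞ fun x => sig G x k i := by
  simp only [rd_sig_apply]
  exact contDiff_const.mul (ContDiff.sum fun l _ =>
    (contDiff_inv_entry hG.rd_riem k l).mul (rd_smooth_rdot hG.smooth l i))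

theorem Rad.rd_sig_rad (hG : Rad G) (x : Vec n) (k : Fin n) : ∑ j, sig G x k j * x j = 0 := by
  have h : rdot G x *ᵥ x.ofLp = 0 := funext fun i => hG.rd_rdot_rad x i
  have h2 : sig G x *ᵥ x.ofLp = 0 := by
    rw [sig, Matrix.smul_mulVec, ← Matrix.mulVec_mulVec, h, Matrix.mulVec_zero, smul_zero]
  exact congrFun h2 k

theorem Rad.rd_vecMul_inv (hG : Rad G) (x : Vec n) : x.ofLp ᵥ* (G x)⁻¹ = x.ofLp := by
  have h1 : x.ofLp ᵥ* G x = x.ofLp := by
    rw [← Matrix.mulVec_transpose, (hG.symm x).eq, hG.rad]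
  conv_lhs => rw [← h1]
  rw [Matrix.vecMul_vecMul, Matrix.mul_nonsing_inv _ (hG.rd_unit x), Matrix.vecMul_one]

theorem Rad.rd_rad_sig (hG : Rad G) (x : Vec n) (j : Fin n) : ∑ k, x k * sig G x k j = 0 := by
  have h : x.ofLp ᵥ* rdot G x = 0 := by
    funext i
    refine Eq.trans ?_ (hG.rd_rdot_rad x i)
    change ∑ k, x k * rdot G x k i = _
    exact Finset.sum_congr rfl fun k _ => by rw [hG.rd_rdot_symm x i k, mul_comm]
  have h2 : x.ofLp ᵥ* sig G x = 0 := by
    rw [sig, Matrix.vecMul_smul, ← Matrix.vecMul_vecMul, hG.rd_vecMul_inv, h, smul_zero]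
  exact congrFun h2 j

theorem Rad.rd_trace_sig (hG : Rad G) (x : Vec n) : (sig G x).trace = 0 := by
  have h1 := rd_hasDerivAt_det (M := fun s : ℝ => G (x + s • x)) (M' := rdot G x) (t := 0)
    fun i j => rdL.of_smooth (hG.smooth i j) x x
  simp only [hG.det, zero_smul, add_zero] at h1
  have h2 := h1.unique (hasDerivAt_const (0 : ℝ) (1 : ℝ))
  rw [sig, Matrix.trace_smul, Matrix.inv_def, hG.det, Ring.inverse_one, one_smul, h2, smul_zero]

theorem rd_met_apply (β : ℝ → ℝ) (G : MetricField n) (x : Vec n) (i j : Fin n) :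
    met β G x i j = conf β x ^ 2 * G x i j := rfl

theorem Rad.rd_met_inv (hG : Rad G) (β : ℝ → ℝ) (x : Vec n) (i j : Fin n) :
    inverseField (met β G) x i j = (conf β x ^ 2)⁻¹ * (G x)⁻¹ i j := by
  have h : (met β G x)⁻¹ = (conf β x ^ 2)⁻¹ • (G x)⁻¹ := by
    refine Matrix.inv_eq_left_inv ?_
    rw [met, Matrix.smul_mul, Matrix.mul_smul, smul_smul, Matrix.nonsing_inv_mul _ (hG.rd_unit x),
      inv_mul_cancel₀ (pow_ne_zero 2 (rd_conf_ne β x)), one_smul]
  rw [inverseField, h]
  rfl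

theorem rd_met_symm (hG : Rad G) (β : ℝ → ℝ) (i j : Fin n) :
    (fun y => met β G y i j) = fun y => met β G y j i := by
  funext y
  rw [rd_met_apply, rd_met_apply, hG.rd_symm]

theorem rd_single_sum (x : Vec n) (m : Fin n) :
    ∑ i, x i * (EuclideanSpace.single m (1 : ℝ) : Vec n) i = x m := by
  simp

theorem rd_sum_single (F : Fin n → ℝ) (m : Fin n) :
    ∑ i, F i * (EuclideanSpace.single m (1 : ℝ) : Vec n) i = F m := by
  simp

theorem rd_pderiv_met (h : Prof β b) (hG : Rad G) {x : Vec n} (hx : x ≠ 0) (m i j : Fin n) :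
    pderiv m (fun y => met β G y i j) x = conf β x ^ 2 *
      (2 * ((β (Real.log ‖x‖) - 1) * x m / ‖x‖ ^ 2) * G x i j + pderiv m (fun y => G y i j) x) := by
  have hs : ContDiff ℝ ∞ fun y => met β G y i j :=
    contDiffOn_univ.mp ((isRiemannian_met h hG).contDiffOn i j)
  have h1 := (rdL.pd hs x m).unique ((rdL_confsq h hx _).mul (rdL.pd (hG.smooth i j) x m))
    fun y => rd_met_apply β G y i j
  rw [h1, rd_single_sum]
  ring

/-- `∂ₘ gᵢⱼ xʲ` -/
theorem rd_M1 (h : Prof β b) (hG : Rad G) {x : Vec n} (hx : x ≠ 0) (m i : Fin n) :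
    ∑ j, pderiv m (fun y => met β G y i j) x * x j = conf β x ^ 2 *
      (2 * ((β (Real.log ‖x‖) - 1) * x m * x i / ‖x‖ ^ 2) + (if i = m then 1 else 0) - G x i m) := by
  have h1 : ∑ j, pderiv m (fun y => G y i j) x * x j = (if i = m then 1 else 0) - G x i m := by
    have h2 := hG.rd_drad x (EuclideanSpace.single m 1) i
    rw [rd_sum_single] at h2
    simpa [pderiv] using h2
  have h3 : ∑ j, pderiv m (fun y => met β G y i j) x * x j = conf β x ^ 2 *
      (2 * ((β (Real.log ‖x‖) - 1) * x m / ‖x‖ ^ 2) * ∑ j, G x i j * x j +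
        ∑ j, pderiv m (fun y => G y i j) x * x j) := by
    simp only [rd_pderiv_met h hG hx, Finset.mul_sum, ← Finset.sum_add_distrib]
    exact Finset.sum_congr rfl fun j _ => by ring
  rw [h3, h1, hG.rd_rad]
  ring

/-- `x · ∂ gᵢₗ` -/
theorem rd_M2 (h : Prof β b) (hG : Rad G) {x : Vec n} (hx : x ≠ 0) (i l : Fin n) :
    ∑ j, pderiv j (fun y => met β G y i l) x * x j = conf β x ^ 2 *
      (2 * (β (Real.log ‖x‖) - 1) * G x i l + rdot G x i l) := by
  have hn : ‖x‖ ^ 2 ≠ 0 := pow_ne_zero 2 (norm_ne_zero_iff.mpr hx)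
  have h3 : ∑ j, pderiv j (fun y => met β G y i l) x * x j = conf β x ^ 2 *
      (2 * ((β (Real.log ‖x‖) - 1) / ‖x‖ ^ 2) * G x i l * ∑ j, x j * x j +
        ∑ j, x j * pderiv j (fun y => G y i l) x) := by
    simp only [rd_pderiv_met h hG hx, Finset.mul_sum, ← Finset.sum_add_distrib]
    exact Finset.sum_congr rfl fun j _ => by ring
  rw [h3, ← rd_fderiv_sum, rd_normsq]
  have e : fderiv ℝ (fun y => G y i l) x x = rdot G x i l := rfl
  rw [e]
  field_simp

theorem rd_christoffel_radial (h : Prof β b) (hG : Rad G) {x : Vec n} (hx : x ≠ 0) (k i : Fin n) :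
    ∑ j, christoffel (met β G) x k i j * x j =
      (if k = i then β (Real.log ‖x‖) - 1 else 0) + sig G x k i := by
  have hφ : conf β x ≠ 0 := rd_conf_ne β x
  have h1 : ∑ j, christoffel (met β G) x k i j * x j = 1 / 2 * ∑ l, inverseField (met β G) x k l *
      ((∑ j, pderiv i (fun y => met β G y l j) x * x j) +
        (∑ j, pderiv j (fun y => met β G y i l) x * x j) -
        ∑ j, pderiv l (fun y => met β G y i j) x * x j) := by
    simp only [christoffel, Finset.mul_sum, Finset.sum_mul, ← Finset.sum_add_distrib,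
      ← Finset.sum_sub_distrib]
    rw [Finset.sum_comm]
    refine Finset.sum_congr rfl fun l _ => Finset.sum_congr rfl fun j _ => ?_
    rw [rd_met_symm hG β j l]
    ring
  have h2 : ∀ l, inverseField (met β G) x k l *
      ((∑ j, pderiv i (fun y => met β G y l j) x * x j) +
        (∑ j, pderiv j (fun y => met β G y i l) x * x j) -
        ∑ j, pderiv l (fun y => met β G y i j) x * x j) =
      2 * (β (Real.log ‖x‖) - 1) * ((G x)⁻¹ k l * G x l i) + (G x)⁻¹ k l * rdot G x l i := by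
    intro l
    rw [rd_M1 h hG hx, rd_M1 h hG hx, rd_M2 h hG hx, hG.rd_met_inv, hG.rd_symm x i l,
      hG.rd_rdot_symm x i l]
    have e : (if i = l then (1 : ℝ) else 0) = if l = i then 1 else 0 := by simp only [eq_comm]
    rw [e]
    field_simp
    ring
  have h3 : ∑ l, (G x)⁻¹ k l * G x l i = if k = i then 1 else 0 := by
    rw [← Matrix.mul_apply, Matrix.nonsing_inv_mul _ (hG.rd_unit x), Matrix.one_apply]
  rw [h1, Finset.sum_congr rfl fun l _ => h2 l, Finset.sum_add_distrib, ← Finset.mul_sum, h3,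
    rd_sig_apply]
  split_ifs <;> ring

/-- `ωₗ Γˡⱼₖ` -/
theorem rd_christoffel_lower (h : Prof β b) (hG : Rad G) {x : Vec n} (hx : x ≠ 0) (j k : Fin n) :
    ∑ l, x l * christoffel (met β G) x l j k =
      2 * ((β (Real.log ‖x‖) - 1) * x j * x k / ‖x‖ ^ 2) + (if j = k then 1 else 0) -
        β (Real.log ‖x‖) * G x j k - rdot G x j k / 2 := by
  have hφ : conf β x ≠ 0 := rd_conf_ne β x
  have h0 : ∀ m, ∑ l, x l * (G x)⁻¹ l m = x m := fun m => congrFun (hG.rd_vecMul_inv x) m
  have h1 : ∑ l, x l * christoffel (met β G) x l j k = 1 / 2 * (conf β x ^ 2)⁻¹ *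
      ∑ m, (∑ l, x l * (G x)⁻¹ l m) * (pderiv j (fun y => met β G y k m) x +
        pderiv k (fun y => met β G y j m) x - pderiv m (fun y => met β G y j k) x) := by
    simp only [christoffel, hG.rd_met_inv, Finset.mul_sum, Finset.sum_mul]
    rw [Finset.sum_comm]
    exact Finset.sum_congr rfl fun l _ => Finset.sum_congr rfl fun m _ => by ring
  have h2 : ∑ m, (∑ l, x l * (G x)⁻¹ l m) * (pderiv j (fun y => met β G y k m) x +
        pderiv k (fun y => met β G y j m) x - pderiv m (fun y => met β G y j k) x) =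
      (∑ m, pderiv j (fun y => met β G y k m) x * x m) +
        (∑ m, pderiv k (fun y => met β G y j m) x * x m) -
        ∑ m, pderiv m (fun y => met β G y j k) x * x m := by
    simp only [h0, ← Finset.sum_add_distrib, ← Finset.sum_sub_distrib]
    exact Finset.sum_congr rfl fun m _ => by ring
  rw [h1, h2, rd_M1 h hG hx, rd_M1 h hG hx, rd_M2 h hG hx, hG.rd_symm x k j]
  have e : (if k = j then (1 : ℝ) else 0) = if j = k then 1 else 0 := by simp only [eq_comm]
  rw [e]
  field_simp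
  ring

end Crest.Agent.R202
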