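import Crest.Agent.R202.FamD
import Crest.Agent.R202.Count

/-!
# Rotation invariance and the Rayleigh quotient of the sectoral harmonic (tasks F4a, F4c)

`mq_trip₀` does not depend on `φ`, and `Dθ (ek k)`, `Dφ (ek k)` are multiples of `cos (mφ)`, `sin (mφ)`, so entries between different `|μ|` vanish.
For `k = (m, 0)`, `fn (ek k) = N cos^j sin^m cos(mφ)`, `x = σ c`, `σ² = vp² sin⁴`: the cross term integrates to zero in `φ`,
`4x² Dθ² ≤ 16 c₁² σ² Dθ²`, `(-3x²+4x⁴) Dφ² ≤ -2 c₁² σ² Dφ²`.  With `E` the mean for the weight `cos^{2j} sin^{2m} w0`: for `r = 2`,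
`σ² Dθ² ∝ S (m - (j+m) S)²`, `σ² Dφ² ∝ m² S (1-S)`, where `E[S] = α/(α+β)`, `E[S²] = α(α+1)/((α+β)(α+β+1))`, `α = m+1`, `β = j+(n-2)/2`
(integration by parts recurrences for `∫ sin^p cos^q`); for `r = 1`: `m² S cos²`, `m² S`, `E[cos²] = 1/(2m+3)`.
So the form is `≤ C c₁² (j+m) - c c₁² ϵ⁴ (j+m)²`, while `lamd (j+a+2) - lamd (j+a-2) ≤ 8(j+a) + 4n`.
-/

set_option autoImplicit false

noncomputable section

open scoped InnerProductSpace ContDiff
open Set Filter Topology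
open MvPolynomial Real

namespace Crest.Agent.R202

variable {r n : ℕ}


theorem ray_trig_deriv (μ : ℤ) (φ : ℝ) : HasDerivAt (trig μ) (-μ * trig (-μ) φ) φ := by
  have h1 : HasDerivAt (fun φ : ℝ => (μ.natAbs : ℝ) * φ) (μ.natAbs : ℝ) φ := by
    simpa using (hasDerivAt_id φ).const_mul (μ.natAbs : ℝ)
  have h2 : (μ.natAbs : ℝ) = |(μ : ℝ)| := by
    rw [← Int.cast_abs, ← Int.natCast_natAbs, Int.cast_natCast]
  rcases lt_trichotomy μ 0 with h | h | h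
  · refine orth_hd h1.sin (fun s => by simp only [trig, if_neg (not_le.2 h)]) ?_
    have h3 : (μ : ℝ) < 0 := by exact_mod_cast h
    simp only [trig, if_pos (show 0 ≤ -μ by omega), Int.natAbs_neg]
    rw [mul_comm]
    congr 1
    rw [h2, abs_of_neg h3]
  · subst h
    refine orth_hd (hasDerivAt_const φ (1 : ℝ)) (fun s => by simp [trig]) (by simp)
  · refine orth_hd h1.cos (fun s => by simp only [trig, if_pos h.le]) ?_
    have h3 : (0 : ℝ) < μ := by exact_mod_cast h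
    simp only [trig, if_neg (show ¬ 0 ≤ -μ by omega), Int.natAbs_neg]
    rw [h2, abs_of_pos h3]
    ring

theorem ray_trig_cont (μ : ℤ) : Continuous (trig μ) :=
  continuous_iff_continuousAt.2 fun φ => (ray_trig_deriv μ φ).continuousAt

theorem Cl.ray_Dθ (c : Cl r n) (k : c.J) (θ φ : ℝ) :
    c.Dθ (c.ek k) θ φ = deriv (c.prof k) θ * trig k.1.1 φ := by
  unfold Cl.Dθ
  simp only [c.fn_ek]
  exact deriv_mul_const_field _

theorem Cl.ray_Dφ (c : Cl r n) (k : c.J) {θ : ℝ} (hs : sin θ ≠ 0) (φ : ℝ) :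
    c.Dφ (c.ek k) θ φ = -k.1.1 * (c.prof k θ / sin θ) * trig (-k.1.1) φ := by
  have h1 := c.hasDerivAt_fn_φ (c.ek k) θ φ
  simp only [c.fn_ek] at h1
  have h2 := h1.unique ((ray_trig_deriv k.1.1 φ).const_mul (c.prof k θ))
  rw [c.fn_Phi] at h2
  field_simp
  linarith

/-- the value of `∫ trig μ * trig μ₁` -/
def rayI (μ μ₁ : ℤ) : ℝ := if μ = μ₁ then (if μ = 0 then 2 * π else π) else 0

theorem ray_comb (A B C D : ℝ) (μ μ₁ : ℤ) :
    ∫ φ in (0 : ℝ)..2 * π, (A * (trig μ φ * trig μ₁ φ) + B * (trig μ φ * trig (-μ₁) φ) +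
      C * (trig (-μ) φ * trig μ₁ φ) + D * (trig (-μ) φ * trig (-μ₁) φ)) =
      A * rayI μ μ₁ + B * rayI μ (-μ₁) + C * rayI (-μ) μ₁ + D * rayI (-μ) (-μ₁) := by
  have h : ∀ (a : ℝ) (x y : ℤ), IntervalIntegrable (fun φ => a * (trig x φ * trig y φ))
      MeasureTheory.volume 0 (2 * π) := fun a x y =>
    (continuous_const.mul ((ray_trig_cont x).mul (ray_trig_cont y))).intervalIntegrable _ _
  rw [intervalIntegral.integral_add (((h _ _ _).add (h _ _ _)).add (h _ _ _)) (h _ _ _),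
    intervalIntegral.integral_add ((h _ _ _).add (h _ _ _)) (h _ _ _),
    intervalIntegral.integral_add (h _ _ _) (h _ _ _)]
  simp only [intervalIntegral.integral_const_mul, integral_trig, rayI]

theorem Cl.ray_sin_pos (c : Cl r n) {θ : ℝ} (h : θ ∈ Ioo 0 (π / r)) : 0 < sin θ := by
  refine sin_pos_of_pos_of_lt_pi h.1 (h.2.trans_le (div_le_self pi_pos.le ?_))
  exact_mod_cast c.r_pos

theorem ray_le (r : ℕ) : (0 : ℝ) ≤ π / r := by positivity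

theorem Cl.ray_inner (c : Cl r n) (cp : Polynomial ℝ) (k k₁ : c.J) {θ : ℝ} (hs : sin θ ≠ 0) :
    ∫ φ in (0 : ℝ)..2 * π, mq r (trip₀ r cp) θ φ (c.Dθ (c.ek k) θ φ) (c.Dφ (c.ek k) θ φ)
      (c.Dθ (c.ek k₁) θ φ) (c.Dφ (c.ek k₁) θ φ) =
      4 * xx r cp θ ^ 2 * (deriv (c.prof k) θ * deriv (c.prof k₁) θ) * rayI k.1.1 k₁.1.1 +
      (xx r cp θ - 4 * xx r cp θ ^ 3) * (deriv (c.prof k) θ * (-k₁.1.1 * (c.prof k₁ θ / sin θ))) *
        rayI k.1.1 (-k₁.1.1) +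
      (xx r cp θ - 4 * xx r cp θ ^ 3) * (-k.1.1 * (c.prof k θ / sin θ) * deriv (c.prof k₁) θ) *
        rayI (-k.1.1) k₁.1.1 +
      (-3 * xx r cp θ ^ 2 + 4 * xx r cp θ ^ 4) *
        (-k.1.1 * (c.prof k θ / sin θ) * (-k₁.1.1 * (c.prof k₁ θ / sin θ))) *
        rayI (-k.1.1) (-k₁.1.1) := by
  rw [← ray_comb]
  congr 1
  funext φ
  rw [c.mq_trip₀, c.ray_Dθ, c.ray_Dθ, c.ray_Dφ k hs, c.ray_Dφ k₁ hs]
  ring

theorem Cl.ray_form_zero (c : Cl r n) (cp : Polynomial ℝ) {k k₁ : c.J}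
    (h : k.1.1.natAbs ≠ k₁.1.1.natAbs) : c.form (trip₀ r cp) (c.ek k) (c.ek k₁) = 0 := by
  unfold Cl.form sint
  rw [intervalIntegral.integral_congr_Ioo_of_le (g := fun _ => 0) (ray_le r)]
  · simp
  · intro θ hθ
    beta_reduce
    rw [c.ray_inner cp k k₁ (c.ray_sin_pos hθ).ne']
    unfold rayI
    rw [if_neg (by omega), if_neg (by omega), if_neg (by omega), if_neg (by omega)]
    simp
theorem Cl.inv_sec (c : Cl r n) (cp : Polynomial ℝ) (m : ℕ) :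
    Inv (c.sec m) (1 + c.Aop (trip₀ r cp)) := by
  intro x hx k hk
  have h1 := ent_hasSum (c.Aop (trip₀ r cp)) x k
  have h2 : (fun k₁ => ent (c.Aop (trip₀ r cp)) k k₁ * x k₁) = fun _ => 0 := by
    funext k₁
    by_cases h : k₁ ∈ c.sec m
    · rw [c.ent_Aop, c.ray_form_zero cp, zero_div, zero_mul]
      intro h3
      exact hk (h3.symm.trans h)
    · rw [hx k₁ h, mul_zero]
  rw [h2] at h1
  have h3 := h1.unique hasSum_zero
  change (x + c.Aop (trip₀ r cp) x) k = 0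
  rw [lp.coeFn_add, Pi.add_apply, hx k hk, h3, add_zero]

theorem Cl.inner_sec_zero (c : Cl r n) (cp : Polynomial ℝ) {x : H c.J} (hx : Supp (c.sec 0) x) :
    0 ≤ ⟪c.Aop (trip₀ r cp) x, x⟫_ℝ := by
  refine ge_of_tendsto' (c.inner_Aop_tendsto (trip₀ r cp) x x) fun s => ?_
  unfold Cl.form sint
  rw [intervalIntegral.integral_congr_Ioo_of_le (g := fun θ =>
    (∫ φ in (0 : ℝ)..2 * π, 4 * xx r cp θ ^ 2 * c.Dθ (c.pol s x) θ φ ^ 2) * w0 n θ) (ray_le r)]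
  · refine intervalIntegral.integral_nonneg (ray_le r) fun θ hθ => mul_nonneg ?_ (c.w0_nonneg hθ)
    exact intervalIntegral.integral_nonneg (by positivity) fun φ _ => by positivity
  · intro θ hθ
    beta_reduce
    congr 2
    funext φ
    have h0 : c.Dφ (c.pol s x) θ φ = 0 := by
      unfold Cl.pol
      rw [c.Dφ_sum]
      refine Finset.sum_eq_zero fun k _ => ?_
      by_cases h : k ∈ c.sec 0
      · have h1 : k.1.1 = 0 := Int.natAbs_eq_zero.1 h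
        rw [c.ray_Dφ k (c.ray_sin_pos hθ).ne', h1]
        simp
      · rw [hx k h]; simp
    rw [c.mq_trip₀, h0]
    ring


/-- the integration by parts recurrence -/
theorem Cl.ray_rec (c : Cl r n) (p q : ℕ) :
    ((p : ℝ) + q + 2) * ∫ θ in (0 : ℝ)..π / r, sin θ ^ (p + 2) * cos θ ^ q =
      ((p : ℝ) + 1) * ∫ θ in (0 : ℝ)..π / r, sin θ ^ p * cos θ ^ q := by
  have hd : ∀ θ, HasDerivAt (fun s => cos s ^ (q + 1) * sin s ^ (p + 1))
      (((p : ℝ) + 1) * (sin θ ^ p * cos θ ^ q) -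
        ((p : ℝ) + q + 2) * (sin θ ^ (p + 2) * cos θ ^ q)) θ := by
    intro θ
    refine orth_hd (orth_d1 (q + 1) (p + 1) θ) (fun _ => rfl) ?_
    have h := sin_sq_add_cos_sq θ
    simp only [Nat.add_sub_cancel]
    push_cast
    linear_combination (-((p : ℝ) + 1) * sin θ ^ p * cos θ ^ q) * h
  have h1 := intervalIntegral.integral_eq_sub_of_hasDerivAt (a := 0) (b := π / r)
    (fun θ _ => hd θ) (Continuous.intervalIntegrable (by fun_prop) _ _)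
  rw [intervalIntegral.integral_sub (Continuous.intervalIntegrable (by fun_prop) _ _)
    (Continuous.intervalIntegrable (by fun_prop) _ _), intervalIntegral.integral_const_mul,
    intervalIntegral.integral_const_mul] at h1
  have h2 : cos (π / r) ^ (q + 1) * sin (π / r) ^ (p + 1) = 0 := by
    rcases c.ok with ⟨hr, -⟩ | ⟨hr, -⟩ <;> subst hr <;> simp
  rw [h2] at h1
  simp only [sin_zero, ne_eq, Nat.add_eq_zero_iff, one_ne_zero, and_false, not_false_eq_true,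
    zero_pow, mul_zero, sub_zero] at h1
  linarith

theorem Cl.ray_prof (c : Cl r n) (k : c.J) (hb : k.1.2 = 0) :
    c.prof k = fun θ => c.nrm k * (cos θ ^ c.j * sin θ ^ k.1.1.natAbs) := by
  funext θ
  unfold Cl.prof
  rw [c.orth_eval_rad, hb]
  simp [Cl.gam]

theorem ray_xx_cont (r : ℕ) (cp : Polynomial ℝ) : Continuous (xx r cp) := by
  unfold xx sgm vp
  have h := cp.continuous
  split_ifs <;> fun_prop

/-- the form of a sectoral harmonic in terms of three moments -/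
theorem Cl.ray_form_le (c : Cl r n) (cp : Polynomial ℝ) (k : c.J) (m : ℕ)
    (hk : k.1 = (((m + 1 : ℕ) : ℤ), 0)) (A0 A1 A2 : ℝ)
    (h : ∀ θ ∈ Ioo 0 (π / r), 4 * xx r cp θ ^ 2 *
        (-(c.j * cos θ ^ (c.j - 1) * sin θ ^ (m + 2)) + (m + 1) * cos θ ^ (c.j + 1) * sin θ ^ m) ^ 2 +
      (-3 * xx r cp θ ^ 2 + 4 * xx r cp θ ^ 4) * ((m + 1) * (cos θ ^ c.j * sin θ ^ m)) ^ 2 ≤
      (cos θ ^ c.j * sin θ ^ (m + 1)) ^ 2 * (A0 + A1 * sin θ ^ 2 + A2 * sin θ ^ 4)) :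
    c.form (trip₀ r cp) (c.ek k) (c.ek k) ≤
      A0 + A1 * (((m : ℝ) + 2) / (c.j + m + 1 + n / 2)) +
        A2 * (((m : ℝ) + 2) * (m + 3) / ((c.j + m + 1 + n / 2) * (c.j + m + 1 + n / 2 + 1))) := by
  have hk1 : k.1.1 = ((m + 1 : ℕ) : ℤ) := by rw [hk]
  have hk2 : k.1.2 = 0 := by rw [hk]
  have hk3 : k.1.1.natAbs = m + 1 := by rw [hk1]; rfl
  have hp := c.ray_prof k hk2
  rw [hk3] at hp
  set N := c.nrm k
  have hn : (3 : ℝ) ≤ n := by exact_mod_cast c.base.hn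
  have hd : ∀ θ, deriv (c.prof k) θ = N *
      (-(c.j * cos θ ^ (c.j - 1) * sin θ ^ (m + 2)) + (m + 1) * cos θ ^ (c.j + 1) * sin θ ^ m) := by
    intro θ
    rw [hp]
    have := ((orth_d1 c.j (m + 1) θ).const_mul N).deriv
    rw [this]
    simp only [Nat.add_sub_cancel]
    push_cast
    ring
  set q := 2 * c.j + (n - 3) with hq
  have hq' : (q : ℝ) = 2 * c.j + n - 3 := by
    rw [hq, Nat.cast_add, Nat.cast_sub c.base.hn]; push_cast; ring
  set I0 := ∫ θ in (0 : ℝ)..π / r, sin θ ^ (2 * m + 3) * cos θ ^ q with hI0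
  set I1 := ∫ θ in (0 : ℝ)..π / r, sin θ ^ (2 * m + 3 + 2) * cos θ ^ q with hI1
  set I2 := ∫ θ in (0 : ℝ)..π / r, sin θ ^ (2 * m + 3 + 2 + 2) * cos θ ^ q with hI2
  have h0 : π * N ^ 2 * I0 = 1 := by
    have h1 := c.prof_orth (k := k) (k₁ := k) rfl
    rw [if_pos rfl, if_neg (by omega)] at h1
    have h2 : ∫ θ in (0 : ℝ)..π / r, c.prof k θ * c.prof k θ * w0 n θ = N ^ 2 * I0 := by
      rw [hI0, ← intervalIntegral.integral_const_mul]
      congr 1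
      funext θ
      rw [hp, hq]
      unfold w0
      ring
    rw [mul_assoc, ← h2, h1, mul_inv_cancel₀ pi_pos.ne']
  have hj0 : (0 : ℝ) ≤ c.j := Nat.cast_nonneg _
  have hm0 : (0 : ℝ) ≤ m := Nat.cast_nonneg _
  set T : ℝ := c.j + m + 1 + n / 2 with hT
  have hT0 : 0 < T := by linarith
  have r1 := c.ray_rec (2 * m + 3) q
  have r2 := c.ray_rec (2 * m + 3 + 2) q
  rw [← hI0, ← hI1, hq'] at r1
  rw [← hI1, ← hI2, hq'] at r2
  push_cast at r1 r2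
  have h1 : π * N ^ 2 * I1 = ((m : ℝ) + 2) / T := by
    rw [eq_div_iff hT0.ne']
    linear_combination (π * N ^ 2 / 2) * r1 + ((m : ℝ) + 2) * h0
  have h2 : π * N ^ 2 * I2 = ((m : ℝ) + 2) * (m + 3) / (T * (T + 1)) := by
    rw [eq_div_iff (by positivity)]
    rw [eq_div_iff hT0.ne'] at h1
    linear_combination (π * N ^ 2 * T / 2) * r2 + ((m : ℝ) + 3) * h1
  rw [← h1, ← h2]
  have hx := ray_xx_cont r cp
  have hw := orth_w0_cont (n := n)
  unfold Cl.form sint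
  rw [intervalIntegral.integral_congr_Ioo_of_le (g := fun θ => π * N ^ 2 * (4 * xx r cp θ ^ 2 *
        (-(c.j * cos θ ^ (c.j - 1) * sin θ ^ (m + 2)) + (m + 1) * cos θ ^ (c.j + 1) * sin θ ^ m) ^ 2 +
      (-3 * xx r cp θ ^ 2 + 4 * xx r cp θ ^ 4) * ((m + 1) * (cos θ ^ c.j * sin θ ^ m)) ^ 2) *
      w0 n θ) (ray_le r)]
  · refine le_trans (intervalIntegral.integral_mono_on_of_le_Ioo (g := fun θ =>
      A0 * (π * N ^ 2) * (sin θ ^ (2 * m + 3) * cos θ ^ q) +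
      A1 * (π * N ^ 2) * (sin θ ^ (2 * m + 3 + 2) * cos θ ^ q) +
      A2 * (π * N ^ 2) * (sin θ ^ (2 * m + 3 + 2 + 2) * cos θ ^ q)) (ray_le r)
      (Continuous.intervalIntegrable (by fun_prop) _ _)
      (Continuous.intervalIntegrable (by fun_prop) _ _) fun θ hθ => ?_) (le_of_eq ?_)
    · have h3 := mul_le_mul_of_nonneg_right
        (mul_le_mul_of_nonneg_left (h θ hθ) (show 0 ≤ π * N ^ 2 by positivity)) (c.w0_pos hθ).le
      refine le_trans h3 (le_of_eq ?_)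
      rw [hq]
      unfold w0
      ring
    · rw [intervalIntegral.integral_add (Continuous.intervalIntegrable (by fun_prop) _ _)
        (Continuous.intervalIntegrable (by fun_prop) _ _),
        intervalIntegral.integral_add (Continuous.intervalIntegrable (by fun_prop) _ _)
        (Continuous.intervalIntegrable (by fun_prop) _ _)]
      simp only [intervalIntegral.integral_const_mul]
      rw [← hI0, ← hI1, ← hI2]
      linear_combination A0 * h0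
  · intro θ hθ
    have hs := (c.ray_sin_pos hθ).ne'
    beta_reduce
    rw [c.ray_inner cp k k hs, hd]
    unfold rayI
    rw [if_pos rfl, if_neg (by omega), if_neg (by omega), if_neg (by omega), if_pos rfl,
      if_neg (by omega)]
    have h3 : c.prof k θ / sin θ = N * (cos θ ^ c.j * sin θ ^ m) := by
      rw [hp, div_eq_iff hs]; ring
    rw [h3, hk1]
    push_cast
    ring

theorem ray_pt {c₁ σ z a b : ℝ} (hc : 0 < c₁) (hc' : c₁ ≤ 1 / 10) (h1 : c₁ ≤ z) (h2 : z ≤ 2 * c₁)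
    (hσ : σ ^ 2 ≤ 1) :
    4 * (σ * z) ^ 2 * a ^ 2 + (-3 * (σ * z) ^ 2 + 4 * (σ * z) ^ 4) * b ^ 2 ≤
      c₁ ^ 2 * (16 * (σ * a) ^ 2 - 2 * (σ * b) ^ 2) := by
  have h3 : z ^ 2 ≤ 4 * c₁ ^ 2 := by nlinarith
  have h4 : c₁ ^ 2 ≤ z ^ 2 := by nlinarith
  have h5 : c₁ ^ 2 ≤ 1 / 100 := by nlinarith
  have h6 : σ ^ 2 * z ^ 2 ≤ 1 / 4 := by nlinarith [sq_nonneg σ, sq_nonneg z]
  have h7 := mul_le_mul_of_nonneg_right h3 (sq_nonneg (σ * a))
  have h8 := mul_le_mul_of_nonneg_right h4 (sq_nonneg (σ * b))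
  have h9 := mul_le_mul_of_nonneg_right h6 (mul_nonneg (sq_nonneg z) (sq_nonneg (σ * b)))
  nlinarith

theorem ray_numA {m j h : ℝ} (hm : 0 ≤ m) (hj : 0 ≤ j) (hh : 1 ≤ h) :
    m ^ 2 - 2 * m * (j + m) * ((m + 1) / (j + m + h)) +
      (j + m) ^ 2 * ((m + 1) * (m + 2) / ((j + m + h) * (j + m + h + 1))) ≤
      (h + 1) ^ 2 + (j + m) := by
  set T := j + m + h with hT
  have hT0 : 0 < T := by linarith
  have e : m ^ 2 - 2 * m * (j + m) * ((m + 1) / T) +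
      (j + m) ^ 2 * ((m + 1) * (m + 2) / (T * (T + 1))) =
      ((m * T - (j + m) * (m + 1)) / T) ^ 2 +
        (j + m) ^ 2 * ((m + 1) * (T - (m + 1))) / (T ^ 2 * (T + 1)) := by
    field_simp
    ring
  rw [e]
  refine add_le_add ?_ ?_
  · refine sq_le_sq' ?_ ?_
    · rw [le_div_iff₀ hT0, hT]; nlinarith [mul_nonneg hm (by linarith : 0 ≤ h), mul_nonneg hj (by linarith : 0 ≤ h)]
    · rw [div_le_iff₀ hT0, hT]; nlinarith [mul_nonneg hm (by linarith : 0 ≤ h), mul_nonneg hj (by linarith : 0 ≤ h)]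
  · rw [div_le_iff₀ (by positivity)]
    have h1 : (m + 1) * (T - (m + 1)) ≤ T ^ 2 := by nlinarith [sq_nonneg (T - 2 * (m + 1))]
    have h2 : (j + m) ^ 2 ≤ (j + m) * (T + 1) := by
      rw [sq]; exact mul_le_mul_of_nonneg_left (by linarith) (by linarith)
    calc (j + m) ^ 2 * ((m + 1) * (T - (m + 1))) ≤ (j + m) ^ 2 * T ^ 2 :=
          mul_le_mul_of_nonneg_left h1 (by positivity)
      _ ≤ (j + m) * (T + 1) * T ^ 2 := mul_le_mul_of_nonneg_right h2 (by positivity)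
      _ = _ := by ring

theorem ray_numB {m T : ℝ} (hT : 0 < T) :
    (m + 1) / T - (m + 1) * (m + 2) / (T * (T + 1)) = (m + 1) * (T - (m + 1)) / (T * (T + 1)) := by
  field_simp
  ring

theorem ray_num2 {c₁ ϵ a j h : ℝ} (hc : 0 < c₁) (hc' : c₁ ≤ 1 / 10) (hϵ : 0 < ϵ) (hj : 0 ≤ j)
    (hh : 1 ≤ h) (ha1 : h + 3 ≤ a) (ha2 : 2 * ((h + 1) ^ 2 + 11 + 8 * h) / (c₁ ^ 2 * ϵ ^ 4) ≤ a)
    (h1 : ϵ * (j + a) ≤ j) (h2 : ϵ * (j + a) ≤ a) {e1 e2 : ℝ}
    (he1 : e1 = (a + 2 + 1) / (j + (a + 2) + h))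
    (he2 : e2 = (a + 2 + 1) * (a + 2 + 2) / ((j + (a + 2) + h) * (j + (a + 2) + h + 1))) :
    c₁ ^ 2 * (16 * (a + 2) ^ 2) + c₁ ^ 2 * (-32 * (a + 2) * (j + (a + 2)) - 2 * (a + 2) ^ 2) * e1 +
      c₁ ^ 2 * (16 * (j + (a + 2)) ^ 2 + 2 * (a + 2) ^ 2) * e2 ≤ -(8 * (j + a) + 8 * h - 8) := by
  have hA := ray_numA (m := a + 2) (j := j) (h := h) (by linarith) hj hh
  have hT : 0 < j + (a + 2) + h := by linarith
  have hB := ray_numB (m := a + 2) hT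
  rw [← he1, ← he2] at hA hB
  set u := j + a with hu
  have hu1 : 1 ≤ u := by linarith
  have hB' : ϵ ^ 2 / 4 ≤ e1 - e2 := by
    rw [hB, div_le_div_iff₀ (by norm_num) (by positivity)]
    have h3 : (j + (a + 2) + h) * (j + (a + 2) + h + 1) ≤ (2 * u) * (2 * u) :=
      mul_le_mul (by linarith) (by linarith) (by linarith) (by linarith)
    have h4 : (ϵ * u) * (ϵ * u) ≤ (a + 2 + 1) * (j + (a + 2) + h - (a + 2 + 1)) :=
      mul_le_mul (by linarith) (by linarith) (by positivity) (by linarith)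
    have h5 := mul_le_mul_of_nonneg_left h3 (sq_nonneg ϵ)
    nlinarith
  have h6 : (ϵ * u) ^ 2 ≤ (a + 2) ^ 2 := pow_le_pow_left₀ (by positivity) (by linarith) 2
  have h7 : (ϵ * u) ^ 2 * (ϵ ^ 2 / 4) ≤ (a + 2) ^ 2 * (e1 - e2) :=
    mul_le_mul h6 hB' (by positivity) (by positivity)
  have h8 : 2 * ((h + 1) ^ 2 + 11 + 8 * h) ≤ u * (c₁ ^ 2 * ϵ ^ 4) := by
    rw [div_le_iff₀ (by positivity)] at ha2
    exact ha2.trans (mul_le_mul_of_nonneg_right (by linarith) (by positivity))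
  have h9 := mul_le_mul_of_nonneg_left h8 (show 0 ≤ u by linarith)
  have hc2 : c₁ ^ 2 ≤ 1 / 100 := by nlinarith
  have hc3 : 0 ≤ c₁ ^ 2 := sq_nonneg _
  have h10 := mul_le_mul_of_nonneg_left hA hc3
  have h11 := mul_le_mul_of_nonneg_left h7 hc3
  have h12 : c₁ ^ 2 * ((h + 1) ^ 2 + (j + (a + 2))) ≤ 1 / 100 * ((h + 1) ^ 2 + (j + (a + 2))) :=
    mul_le_mul_of_nonneg_right hc2 (add_nonneg (sq_nonneg _) (by linarith))
  have h13 : (h + 1) ^ 2 + 8 * h ≤ u * ((h + 1) ^ 2 + 8 * h) :=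
    le_mul_of_one_le_left (by positivity) hu1
  have h14 : 0 ≤ (h + 1) ^ 2 := sq_nonneg _
  nlinarith

theorem ray_num1 {c₁ a : ℝ} (hc : 0 < c₁) (hc' : c₁ ≤ 1 / 10) (ha : 9 / c₁ ^ 2 ≤ a) {e1 e2 : ℝ}
    (he1 : e1 = (a + 2 + 1) / (a + 2 + 3 / 2))
    (he2 : e2 = (a + 2 + 1) * (a + 2 + 2) / ((a + 2 + 3 / 2) * (a + 2 + 3 / 2 + 1))) :
    0 + c₁ ^ 2 * (14 * (a + 2) ^ 2) * e1 + c₁ ^ 2 * (-16 * (a + 2) ^ 2) * e2 ≤ -(8 * a + 4) := by
  have ha0 : 0 < a := lt_of_lt_of_le (by positivity) ha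
  have hB := ray_numB (m := a + 2) (T := a + 2 + 3 / 2) (by linarith)
  rw [← he1, ← he2] at hB
  have h1 : (a + 2) * (e1 - e2) ≤ 1 / 2 := by
    rw [hB, ← mul_div_assoc, div_le_iff₀ (by positivity)]
    nlinarith
  have h2 : 1 / 2 ≤ e1 := by
    rw [he1, le_div_iff₀ (by positivity)]; linarith
  rw [div_le_iff₀ (by positivity)] at ha
  have hc2 : c₁ ^ 2 ≤ 1 / 100 := by nlinarith
  have hc3 : 0 ≤ c₁ ^ 2 := sq_nonneg _
  have h3 := mul_le_mul_of_nonneg_left h1 (show 0 ≤ c₁ ^ 2 * (a + 2) by positivity)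
  have h4 := mul_le_mul_of_nonneg_left h2 (show 0 ≤ c₁ ^ 2 * (a + 2) ^ 2 by positivity)
  have h5 : 9 * (a + 2) ≤ c₁ ^ 2 * (a + 2) ^ 2 := by
    have h6 : 9 ≤ c₁ ^ 2 * (a + 2) := by nlinarith
    nlinarith
  have h7 := mul_le_mul_of_nonneg_right hc2 (show 0 ≤ a + 2 by linarith)
  nlinarith

theorem Cl.ray_ev_le (c : Cl r n) {t : T3} (hA : Adm (1 + c.Aop t)) {S : Set c.J} {k : c.J}
    (hk : k ∈ S) : c.base.ev (1 + c.Aop t) S 0 ≤ c.base.lam k + c.form t (c.ek k) (c.ek k) := by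
  classical
  have hl := c.base.evb_lam_pos k
  have hy : (lp.single 2 k (1 : ℝ) : H c.J) ≠ 0 := by
    intro h
    have := congrArg (fun y : H c.J => y k) h
    simp at this
  have hS : Supp S (lp.single 2 k (1 : ℝ) : H c.J) := by
    intro k₁ hk₁
    rw [lp.single_apply, Pi.single_eq_of_ne]
    rintro rfl; exact hk₁ hk
  have h1 := c.base.ev_zero_le hA hy hS
  have h2 : ∀ x : H c.J, ⟪x, (lp.single 2 k (1 : ℝ) : H c.J)⟫_ℝ = x k := by
    intro x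
    rw [lp.inner_single_right]; simp
  unfold Base.mass at h1
  rw [h2, h2] at h1
  have h3 : (1 + c.Aop t) (lp.single 2 k (1 : ℝ) : H c.J) k = 1 + ent (c.Aop t) k k := by
    change ((lp.single 2 k (1 : ℝ) : H c.J) + c.Aop t (lp.single 2 k (1 : ℝ))) k = _
    rw [lp.coeFn_add, Pi.add_apply]
    have e1 : (lp.single 2 k (1 : ℝ) : H c.J) k = 1 := by simp
    rw [e1]
    unfold ent
    have e2 : ∀ i1 i2 : DecidableEq c.J, @lp.single c.J (fun _ => ℝ) _ i1 2 k 1 =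
        @lp.single c.J (fun _ => ℝ) _ i2 2 k 1 := fun i1 i2 => by rw [Subsingleton.elim i1 i2]
    rw [e2 _ (fun a b => Classical.propDecidable (a = b))]
  rw [h3, c.ent_Aop, Real.mul_self_sqrt hl.le, Base.K_apply] at h1
  simp only [lp.single_apply, Pi.single_eq_same, mul_one] at h1
  rw [mul_inv_le_iff₀ hl] at h1
  refine h1.trans (le_of_eq ?_)
  field_simp
theorem rayleigh (r n : ℕ) {c₁ ϵ : ℝ} (hc : 0 < c₁) (hc' : c₁ ≤ 1 / 10) (hϵ : 0 < ϵ) : ∃ D₀ : ℕ,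
    ∀ (c : Cl r n) (a : ℕ) (cp : Polynomial ℝ), D₀ ≤ a →
      (r = 2 → ϵ * ((c.j : ℝ) + a) ≤ c.j ∧ ϵ * ((c.j : ℝ) + a) ≤ a) →
      (∀ x ∈ Icc (-1 : ℝ) 1, c₁ ≤ cp.eval x ∧ cp.eval x ≤ 2 * c₁) →
      c.base.ev (1 + c.Aop (trip₀ r cp)) (c.sec (a + 2)) 0 ≤ lamd n (c.j + a - 2) := by
  obtain ⟨D₀, hD₀⟩ := exists_nat_ge (2 * (((n : ℝ) / 2 + 1) ^ 2 + 11 + 8 * (n / 2)) / (c₁ ^ 2 * ϵ ^ 4) +
    ((n : ℝ) / 2 + 3) + 9 / c₁ ^ 2)
  refine ⟨D₀, fun c a cp ha hr hcp => ?_⟩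
  have ha' : (D₀ : ℝ) ≤ a := by exact_mod_cast ha
  have hn : (3 : ℝ) ≤ n := by exact_mod_cast c.base.hn
  have p1 : 0 ≤ 2 * (((n : ℝ) / 2 + 1) ^ 2 + 11 + 8 * (n / 2)) / (c₁ ^ 2 * ϵ ^ 4) := by positivity
  have p2 : 0 ≤ 9 / c₁ ^ 2 := by positivity
  have ha2 : 2 ≤ a := by
    have : (2 : ℝ) ≤ a := by linarith
    exact_mod_cast this
  have hr' : r = 1 ∨ r = 2 := by rcases c.ok with h | h <;> omega
  have hA : Adm (1 + c.Aop (trip₀ r cp)) := by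
    refine c.adm_Aop (mqLe_trip₀ r hr' (ε := 2 * c₁) (by linarith) fun x hx => ?_) (by linarith)
    rw [abs_le]
    constructor <;> linarith [(hcp x hx).1, (hcp x hx).2]
  let k : c.J := ⟨(((a + 1 + 1 : ℕ) : ℤ), 0), by simp only [Int.natAbs_natCast]; omega⟩
  have hk : k ∈ c.sec (a + 2) := by
    change ((a + 1 + 1 : ℕ) : ℤ).natAbs = a + 2
    rw [Int.natAbs_natCast]
  refine (c.ray_ev_le hA hk).trans ?_
  have hlam : c.base.lam k = lamd n (c.j + a - 2) + (8 * ((c.j : ℝ) + a) + 8 * (n / 2) - 8) := by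
    have h1 : c.base.deg k = c.j + a + 2 := by
      change c.j + ((a + 1 + 1 : ℕ) : ℤ).natAbs + r * 0 = _
      rw [Int.natAbs_natCast]; omega
    unfold Base.lam lamd
    rw [h1, Nat.cast_sub (by omega)]
    push_cast
    ring
  rw [hlam]
  suffices h : c.form (trip₀ r cp) (c.ek k) (c.ek k) ≤ -(8 * ((c.j : ℝ) + a) + 8 * (n / 2) - 8) by
    linarith
  have hz : ∀ θ, c₁ ≤ cp.eval (cos θ ^ r) ∧ cp.eval (cos θ ^ r) ≤ 2 * c₁ := by
    intro θ
    refine hcp _ (abs_le.1 ?_)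
    rw [abs_pow]
    exact pow_le_one₀ (abs_nonneg _) (abs_cos_le_one θ)
  have hj0 : (0 : ℝ) ≤ c.j := Nat.cast_nonneg _
  rcases c.ok with ⟨h1, h3, hj⟩ | ⟨h2, h4, hj⟩
  · refine le_trans (c.ray_form_le cp k (a + 1) rfl 0 (c₁ ^ 2 * (14 * ((a : ℝ) + 2) ^ 2))
      (c₁ ^ 2 * (-16 * ((a : ℝ) + 2) ^ 2)) fun θ _ => ?_) ?_
    · have hσ : sgm r θ = sin θ ^ 2 := by simp [sgm, vp, h1]
      have hs := sin_sq_le_one θ
      have hσ1 : sgm r θ ^ 2 ≤ 1 := by rw [hσ]; exact pow_le_one₀ (sq_nonneg _) hs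
      unfold xx
      refine le_trans (ray_pt hc hc' (hz θ).1 (hz θ).2 hσ1) (le_of_eq ?_)
      rw [hσ, hj]
      have h := sin_sq_add_cos_sq θ
      push_cast
      linear_combination (16 * c₁ ^ 2 * ((a : ℝ) + 2) ^ 2 * (sin θ ^ (a + 1)) ^ 2 * sin θ ^ 4) * h
    · refine le_trans (ray_num1 hc hc' (by linarith) ?_ ?_) (le_of_eq ?_)
      · rw [hj, h3]; push_cast; ring
      · rw [hj, h3]; push_cast; ring
      · rw [hj, h3]; push_cast; ring
  · refine le_trans (c.ray_form_le cp k (a + 1) rfl (c₁ ^ 2 * (16 * ((a : ℝ) + 2) ^ 2))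
      (c₁ ^ 2 * (-32 * ((a : ℝ) + 2) * (c.j + (a + 2)) - 2 * ((a : ℝ) + 2) ^ 2))
      (c₁ ^ 2 * (16 * ((c.j : ℝ) + (a + 2)) ^ 2 + 2 * ((a : ℝ) + 2) ^ 2)) fun θ _ => ?_) ?_
    · have hσ : sgm r θ = cos θ * sin θ ^ 2 := by simp [sgm, vp, h2]
      have hs := sin_sq_le_one θ
      have hσ1 : sgm r θ ^ 2 ≤ 1 := by
        rw [hσ, mul_pow]
        exact mul_le_one₀ (cos_sq_le_one θ) (by positivity) (pow_le_one₀ (sq_nonneg _) hs)
      unfold xx
      refine le_trans (ray_pt hc hc' (hz θ).1 (hz θ).2 hσ1) ?_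
      obtain ⟨j, hj'⟩ : ∃ j, c.j = j + 1 := ⟨c.j - 1, by omega⟩
      rw [hσ, hj']
      have h := sin_sq_add_cos_sq θ
      simp only [Nat.add_sub_cancel]
      push_cast
      set P := cos θ ^ (j + 1) * sin θ ^ (a + 1 + 1) with hP
      have e1 : cos θ * sin θ ^ 2 * (-(((j : ℝ) + 1) * cos θ ^ j * sin θ ^ (a + 1 + 2)) +
          ((a : ℝ) + 1 + 1) * cos θ ^ (j + 1 + 1) * sin θ ^ (a + 1)) =
          P * sin θ * (((a : ℝ) + 2) - (j + 1 + (a + 2)) * sin θ ^ 2) := by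
        rw [hP]
        linear_combination (((a : ℝ) + 2) * cos θ ^ (j + 1) * sin θ ^ (a + 3)) * h
      have e2 : (cos θ * sin θ ^ 2 * (((a : ℝ) + 1 + 1) * (cos θ ^ (j + 1) * sin θ ^ (a + 1)))) ^ 2 =
          P ^ 2 * ((a : ℝ) + 2) ^ 2 * (sin θ ^ 2 - sin θ ^ 4) := by
        rw [hP]
        linear_combination (((a : ℝ) + 2) ^ 2 * (cos θ ^ (j + 1) * sin θ ^ (a + 3)) ^ 2) * h
      rw [e1, e2]
      have h5 := mul_le_mul_of_nonneg_left hs (show 0 ≤ c₁ ^ 2 * 16 *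
        (P * (((a : ℝ) + 2) - (j + 1 + (a + 2)) * sin θ ^ 2)) ^ 2 by positivity)
      linarith
    · refine ray_num2 (h := n / 2) hc hc' hϵ hj0 (by linarith) (by linarith) (by linarith)
        (hr h2).1 (hr h2).2 ?_ ?_
      · push_cast; ring
      · push_cast; ring

end Crest.Agent.R202
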