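import Crest.Agent.R202.RicTan
import Crest.Agent.R202.Radial
import Crest.Agent.R202.ConeJet

/-!
# Positivity of the Ricci tensor (task G3b)

Write `w = a x̂ + w⊥`.  `R² Ric(w⊥,w⊥) ≥ c |w⊥|²` with `c = (n-2)(1-β₁²)/2` (`ricci_approx`, `δ = c/n`), `R² Ric(x̂,x̂) ≥ -(n-1)β' - C k²`,
`|R² Ric(x̂,w⊥)| ≤ C k |w⊥|` (`ricci_radial`; entries of `G⁻¹` are `≤ 2`, `∂(G⁻¹) = -G⁻¹ ∂G G⁻¹`), `ricci_symm`.
-/

set_option autoImplicit false

noncomputable section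

open scoped InnerProductSpace ContDiff
open Set Filter Topology
open Crest.GeometryTopology.CoordMetric Crest.GeometryTopology.ChartCurvature Matrix

namespace Crest.Agent.R202

section aux

variable {n : ℕ}

theorem rp_dinv {G : MetricField n} (hG : Rad G) (x : Vec n) (m : Fin n) :
    jet₁ (fun y => (G y)⁻¹) x m = -((G x)⁻¹ * jet₁ G x m * (G x)⁻¹) := by
  have h1 : jet₁ (fun y => (G y)⁻¹) x m * G x + (G x)⁻¹ * jet₁ G x m = 0 := by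
    ext k j
    have := (rdL.sum fun l => (rdL.pd (contDiff_inv_entry hG.rd_riem k l) x m).mul
      (rdL.pd (hG.smooth l j) x m)).unique (rdL.const ((1 : Matrix (Fin n) (Fin n) ℝ) k j) x _)
      fun y => by rw [← Matrix.mul_apply, Matrix.nonsing_inv_mul _ (hG.rd_unit y)]
    rw [Finset.sum_add_distrib] at this
    exact this
  rw [← Matrix.neg_mul, ← eq_neg_of_add_eq_zero_left h1, Matrix.mul_assoc,
    Matrix.mul_nonsing_inv _ (hG.rd_unit x), Matrix.mul_one]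

theorem rp_dsig {G : MetricField n} (hG : Rad G) (x : Vec n) (m k j : Fin n) :
    pderiv m (fun y => sig G y k j) x = 1 / 2 * ((-((G x)⁻¹ * jet₁ G x m * (G x)⁻¹) * rdot G x) k j +
      ((G x)⁻¹ * jet₁ (rdot G) x m) k j) := by
  have := (rdL.pd (hG.rd_smooth_sig k j) x m).unique
    ((rdL.sum fun l => (rdL.pd (contDiff_inv_entry hG.rd_riem k l) x m).mul
      (rdL.pd (rd_smooth_rdot hG.smooth l j) x m)).const_mul (1 / 2)) fun y => rd_sig_apply G y k j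
  rw [this, Finset.sum_add_distrib, ← rp_dinv hG]
  rfl

theorem rp_sum_le {f : Fin n → ℝ} {a : ℝ} (h : ∀ i, |f i| ≤ a) : |∑ i, f i| ≤ n * a :=
  (Finset.abs_sum_le_sum_abs _ _).trans ((Finset.sum_le_card_nsmul _ _ a fun i _ => h i).trans
    (by simp))

theorem rp_abs_mul {a b A B : ℝ} (ha : |a| ≤ A) (hb : |b| ≤ B) : |a * b| ≤ A * B := by
  rw [abs_mul]
  exact mul_le_mul ha hb (abs_nonneg _) ((abs_nonneg _).trans ha)

theorem rp_sig_le {G : MetricField n} (hG : Rad G) {x : Vec n} {e : ℝ}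
    (h2 : ∀ i j, |rdot G x i j| ≤ e) (i j : Fin n) : |sig G x i j| ≤ n * e := by
  have := cj_mul_le (hG.cj_inv_le x) h2 i j
  rw [sig, Matrix.smul_apply, smul_eq_mul, abs_mul, abs_of_pos (by norm_num : (0 : ℝ) < 1 / 2)]
  linarith

theorem rp_dsig_le {G : MetricField n} (hG : Rad G) {x : Vec n} {e ε : ℝ}
    (h1 : ∀ m i j, ‖x‖ * |jet₁ G x m i j| ≤ ε) (h2 : ∀ i j, |rdot G x i j| ≤ e)
    (h3 : ∀ m i j, ‖x‖ * |jet₁ (rdot G) x m i j| ≤ e) (m k j : Fin n) :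
    |‖x‖ * pderiv m (fun y => sig G y k j) x| ≤ (2 * n ^ 3 * ε + n) * e := by
  have a1 : ∀ i j, |(‖x‖ • jet₁ G x m) i j| ≤ ε := fun i j => by
    rw [Matrix.smul_apply, smul_eq_mul, abs_mul, abs_norm]; exact h1 m i j
  have a2 : ∀ i j, |(‖x‖ • jet₁ (rdot G) x m) i j| ≤ e := fun i j => by
    rw [Matrix.smul_apply, smul_eq_mul, abs_mul, abs_norm]; exact h3 m i j
  have a3 := cj_mul_le (cj_mul_le (cj_mul_le (hG.cj_inv_le x) a1) (hG.cj_inv_le x)) h2 k j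
  have a4 := cj_mul_le (hG.cj_inv_le x) a2 k j
  simp only [Matrix.mul_smul, Matrix.smul_mul, Matrix.smul_apply, smul_eq_mul] at a3 a4
  rw [rp_dsig hG, Matrix.neg_mul, Matrix.neg_apply, abs_le]
  rw [abs_le] at a3 a4
  constructor <;> linarith [a3.1, a3.2, a4.1, a4.2]

theorem rp_quad {P Q S D k a v c : ℝ} (hc : 0 < c) (hk : 0 < k) (hD : 0 ≤ D) (hv : 0 ≤ v)
    (hP : (D ^ 2 / c + 1) * k ^ 2 ≤ P) (hQ : |Q| ≤ D * k * v) (hS : c * v ^ 2 ≤ S)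
    (hne : a ≠ 0 ∨ v ≠ 0) : 0 < a ^ 2 * P + 2 * a * Q + S := by
  have h1 : -(2 * |a| * (D * k * v)) ≤ 2 * a * Q := by
    have := rp_abs_mul (le_refl |a|) hQ
    linarith [(abs_le.1 this).1]
  have h2 : a ^ 2 * ((D ^ 2 / c + 1) * k ^ 2) ≤ a ^ 2 * P :=
    mul_le_mul_of_nonneg_left hP (sq_nonneg a)
  have h3 : a ^ 2 * (D ^ 2 / c * k ^ 2) - 2 * |a| * (D * k * v) + c * v ^ 2 =
      c * (v - D * k * |a| / c) ^ 2 := by
    rw [← sq_abs a]; field_simp; ring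
  by_cases ha : a = 0
  · have hv0 : 0 < v := hv.lt_of_ne' (hne.resolve_left (not_not.2 ha))
    rw [ha]
    nlinarith [mul_pos hc (pow_pos hv0 2)]
  · have h4 : 0 < a ^ 2 * k ^ 2 := by positivity
    nlinarith [mul_nonneg hc.le (sq_nonneg (v - D * k * |a| / c))]

/-- the constant in the mixed term -/
def rpD (n : ℕ) (ε Cχ : ℝ) : ℝ := n * (n * (2 * n ^ 3 * ε + n) + 2 * (n * (n * (Cχ * n))))

theorem rp_core {β : ℝ → ℝ} {b : ℝ} (h : Prof β b) {G : MetricField n} (hG : Rad G) {x : Vec n}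
    (hx : x ≠ 0) (hn : 3 ≤ n) {c δ ε Cχ Cj k : ℝ} (hc : 0 < c) (hk : 0 < k) (hε : 0 ≤ ε)
    (hχ : 0 ≤ Cχ) (hj : 0 ≤ Cj) (hδ : n ^ 2 * δ = c)
    (hβ : 2 * c ≤ ((n : ℝ) - 2) * (1 - β (Real.log ‖x‖) ^ 2))
    (r1 : ∀ i j, |‖x‖ ^ 2 * ricci (met β G) x i j -
        ric₀ (β (Real.log ‖x‖)) (deriv β (Real.log ‖x‖)) (hat x) i j| ≤ δ)
    (r2 : ∀ k i j, ‖x‖ * |christoffel (met β G) x k i j| ≤ Cχ)
    (h1 : ∀ m i j, ‖x‖ * |jet₁ G x m i j| ≤ ε) (h2 : ∀ i j, |rdot G x i j| ≤ Cj * k)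
    (h3 : ∀ m i j, ‖x‖ * |jet₁ (rdot G) x m i j| ≤ Cj * k)
    (hC : (n ^ 4 * Cj ^ 2 + ((rpD n ε Cχ * Cj) ^ 2 / c + 1)) * k ^ 2 ≤ -deriv β (Real.log ‖x‖))
    (w : Vec n) (hw : w ≠ 0) : 0 < ∑ i, ∑ j, ricci (met β G) x i j * w i * w j := by
  have hR := norm_pos_iff.2 hx
  have hn' : (3 : ℝ) ≤ n := by exact_mod_cast hn
  have hβ' := h.anti (Real.log ‖x‖)
  obtain ⟨a, v, hv, rfl⟩ : ∃ (a : ℝ) (v : Vec n), ∑ i, x i * v i = 0 ∧ w = a • x + ‖x‖ • v := by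
    refine ⟨(∑ i, x i * w i) / ‖x‖ ^ 2, ‖x‖⁻¹ • (w - ((∑ i, x i * w i) / ‖x‖ ^ 2) • x), ?_, ?_⟩
    · rw [← rd_inner, ← rd_inner, inner_smul_right, inner_sub_right, inner_smul_right,
        real_inner_self_eq_norm_sq]
      field_simp
      ring
    · rw [smul_smul, mul_inv_cancel₀ hR.ne', one_smul, add_sub_cancel]
  have hsym := ricci_symm (isRiemannian_met h hG) x
  have e : ∑ i, ∑ j, ricci (met β G) x i j * (a • x + ‖x‖ • v) i * (a • x + ‖x‖ • v) j =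
      a ^ 2 * (∑ i, ∑ j, ricci (met β G) x i j * x i * x j) +
        2 * a * (∑ j, ‖x‖ * (∑ i, x i * ricci (met β G) x i j) * v j) +
        ∑ i, ∑ j, ‖x‖ ^ 2 * ricci (met β G) x i j * v i * v j := by
    have e1 : ∑ j, ‖x‖ * (∑ i, x i * ricci (met β G) x i j) * v j =
        ∑ i, ∑ j, ‖x‖ * (x i * ricci (met β G) x i j) * v j := by
      simp only [Finset.mul_sum, Finset.sum_mul]
      exact Finset.sum_comm
    have e2 : ∑ j, ‖x‖ * (∑ i, x i * ricci (met β G) x i j) * v j =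
        ∑ i, ∑ j, ‖x‖ * (x j * ricci (met β G) x i j) * v i := by
      simp only [Finset.mul_sum, Finset.sum_mul]
      exact Finset.sum_congr rfl fun i _ => Finset.sum_congr rfl fun j _ => by rw [hsym]
    rw [two_mul, add_mul]
    nth_rewrite 1 [e1]
    rw [e2]
    simp only [Finset.mul_sum, ← Finset.sum_add_distrib, PiLp.add_apply, PiLp.smul_apply, smul_eq_mul]
    exact Finset.sum_congr rfl fun i _ => Finset.sum_congr rfl fun j _ => by ring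
  have s1 := rp_sig_le hG h2
  rw [e]
  refine rp_quad (D := rpD n ε Cχ * Cj) hc hk (by unfold rpD; positivity) (norm_nonneg v) ?_ ?_ ?_ ?_
  · have t1 : |(sig G x * sig G x).trace| ≤ n * (n * (n * (Cj * k) * (n * (Cj * k)))) :=
      rp_sum_le fun i => cj_mul_le s1 s1 i i
    rw [ricci_radial_radial h hG hx]
    nlinarith [(abs_le.1 t1).2]
  · have t1 : ∀ j, |‖x‖ * ((∑ k, pderiv k (fun y => sig G y k j) x) +
        (∑ k, ∑ l, christoffel (met β G) x k k l * sig G x l j) -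
        ∑ k, ∑ l, christoffel (met β G) x k j l * sig G x l k)| ≤
        (n * (2 * n ^ 3 * ε + n) + 2 * (n * (n * (Cχ * n)))) * (Cj * k) := fun j => by
      have r3 : ∀ k i j, |‖x‖ * christoffel (met β G) x k i j| ≤ Cχ := fun k i j => by
        rw [abs_mul, abs_norm]; exact r2 k i j
      have u1 := rp_sum_le fun k => rp_dsig_le hG h1 h2 h3 k k j
      have u2 := rp_sum_le fun k => rp_sum_le fun l => rp_abs_mul (r3 k k l) (s1 l j)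
      have u3 := rp_sum_le fun k => rp_sum_le fun l => rp_abs_mul (r3 k j l) (s1 l k)
      simp only [mul_add, mul_sub, Finset.mul_sum, ← mul_assoc ‖x‖]
      rw [abs_le] at u1 u2 u3 ⊢
      constructor <;> linarith [u1.1, u1.2, u2.1, u2.2, u3.1, u3.2]
    have t2 := rp_sum_le fun j => rp_abs_mul (t1 j) (cj_coord_le v j)
    have t3 : ∑ j, ‖x‖ * (-((n : ℝ) - 1) * deriv β (Real.log ‖x‖) * x j / ‖x‖ ^ 2) * v j =
        ‖x‖ * (-((n : ℝ) - 1) * deriv β (Real.log ‖x‖) / ‖x‖ ^ 2) * ∑ j, x j * v j := by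
      rw [Finset.mul_sum]
      exact Finset.sum_congr rfl fun j _ => by ring
    simp only [ricci_radial h hG hx, mul_add ‖x‖ (_ / _), add_mul]
    rw [Finset.sum_add_distrib, t3, hv, mul_zero, zero_add]
    refine t2.trans (le_of_eq ?_)
    unfold rpD
    ring
  · have t1 := (abs_le.1 (cj_bil_le r1 v v)).1
    have t2 : ∑ i, ∑ j, ric₀ (β (Real.log ‖x‖)) (deriv β (Real.log ‖x‖)) (hat x) i j * v i * v j =
        (((n : ℝ) - 2) * (1 - β (Real.log ‖x‖) ^ 2) - deriv β (Real.log ‖x‖)) * ‖v‖ ^ 2 := by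
      have e0 : ∑ i, hat x i * v i = 0 := by rw [cj_sum_hat, hv, mul_zero]
      have e1 : ‖v‖ ^ 2 = ∑ i, ∑ j, (if i = j then (1 : ℝ) else 0) * v i * v j := by
        simp [← rd_normsq]
      have e2 : ∀ s : ℝ, s * ‖v‖ ^ 2 = s * ‖v‖ ^ 2 + (-((n : ℝ) - 1) * deriv β (Real.log ‖x‖) - s) *
          ((∑ i, hat x i * v i) * ∑ i, hat x i * v i) := fun s => by rw [e0]; ring
      rw [e2, e1, Finset.sum_mul_sum]
      simp only [Finset.mul_sum, ← Finset.sum_add_distrib, ric₀]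
      exact Finset.sum_congr rfl fun i _ => Finset.sum_congr rfl fun j _ => by ring
    simp only [sub_mul, Finset.sum_sub_distrib] at t1
    rw [t2, hδ, ← sq] at t1
    nlinarith [sq_nonneg ‖v‖]
  · by_contra hne
    rw [not_or, not_not, not_not, norm_eq_zero] at hne
    exact hw (by rw [hne.1, hne.2, zero_smul, smul_zero, add_zero])

end aux

theorem ricci_pos (n : ℕ) (hn : 3 ≤ n) {β₁ : ℝ} (h₀ : 0 < β₁) (h₁ : β₁ < 1) : ∃ ε₀ : ℝ, 0 < ε₀ ∧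
    2 * n * ε₀ ≤ 1 ∧
    ∀ (E : Type) [NormedAddCommGroup E] [NormedSpace ℝ E] (𝒢 : E → MetricField n) (𝒞 : Set E),
      GFam 𝒢 → IsCompact 𝒞 → (∀ ζ ∈ 𝒞, GSmall (𝒢 ζ) ε₀) → ∃ C k₀ : ℝ, 0 < C ∧ 0 < k₀ ∧
      ∀ (β : ℝ → ℝ) (b : ℝ) (z : ℝ → E), Prof β b → ContDiff ℝ ∞ z → (∀ t, t ≤ 0 → z t = 0) →
      (∀ t, z t ∈ 𝒞) → ∀ (x : Vec n) (k : ℝ), x ≠ 0 → 0 < k → k ≤ k₀ →
      ‖deriv z (Real.log ‖x‖)‖ ≤ k → ‖deriv (deriv z) (Real.log ‖x‖)‖ ≤ k →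
      β (Real.log ‖x‖) ≤ β₁ → -1 ≤ deriv β (Real.log ‖x‖) → C * k ^ 2 ≤ -deriv β (Real.log ‖x‖) →
      ∀ w : Vec n, w ≠ 0 → 0 < ∑ i, ∑ j, ricci (met β (coneG 𝒢 z)) x i j * w i * w j := by
  have hn' : (3 : ℝ) ≤ n := by exact_mod_cast hn
  obtain ⟨c, hc⟩ : ∃ c, c = ((n : ℝ) - 2) * (1 - β₁ ^ 2) / 2 := ⟨_, rfl⟩
  have hc0 : 0 < c := hc ▸ half_pos (mul_pos (by linarith) (by nlinarith))
  obtain ⟨ε, Cχ, hε, hχ, hA⟩ := ricci_approx n (δ := c / n ^ 2) (by positivity)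
  obtain ⟨C₀, hC₀, hJ⟩ := coneG_jets n
  obtain ⟨ε₀, he0, he1, he2, he3⟩ : ∃ ε₀ : ℝ, 0 < ε₀ ∧ 2 * n * ε₀ ≤ 1 ∧ ε₀ ≤ ε ∧ C₀ * ε₀ ≤ ε / 2 :=
    ⟨min (1 / (2 * n)) (min ε (ε / 2 / C₀)), by positivity,
      (le_div_iff₀' (by positivity)).1 (min_le_left _ _),
      (min_le_right _ _).trans (min_le_left _ _),
      (le_div_iff₀' hC₀).1 ((min_le_right _ _).trans (min_le_right _ _))⟩
  refine ⟨ε₀, he0, he1, fun E _ _ 𝒢 𝒞 h𝒢 h𝒞 hs => ?_⟩
  obtain ⟨Cj, hCj, hJ⟩ := hJ E 𝒢 𝒞 h𝒢 h𝒞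
  refine ⟨n ^ 4 * Cj ^ 2 + ((rpD n ε Cχ * Cj) ^ 2 / c + 1), min 1 (ε / 2 / Cj), by positivity,
    by positivity, ?_⟩
  intro β b z h hz hz0 hzm x k hx hk hk0 hk1 hk2 hβ1 hβ2 hβ3 w hw
  have hG := h𝒢.rad_coneG hz hz0 he1 fun t => hs _ (hzm t)
  obtain ⟨j1, j2, j3, j4⟩ := hJ z ε₀ k x hz hx (hzm _) (hs _ (hzm _)) hk1 hk2
    (hk0.trans (min_le_left _ _))
  have hsm : C₀ * ε₀ + Cj * k ≤ ε := by
    have := (le_div_iff₀' hCj).1 (hk0.trans (min_le_right _ _))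
    linarith
  obtain ⟨r1, r2⟩ := hA β b _ h hG x hx hβ2 (fun i j => by
      have := hs _ (hzm (Real.log ‖x‖)) _ (norm_hat hx) i j 0 (by norm_num)
      rw [norm_iteratedFDeriv_zero] at this
      exact this.trans he2)
    (fun m i j => (j1 m i j).trans hsm) fun m l i j => (j2 m l i j).trans hsm
  refine rp_core h hG hx hn hc0 hk hε.le hχ.le hCj.le (by field_simp) ?_ r1 r2
    (fun m i j => (j1 m i j).trans hsm) j3 j4 hβ3 w hw
  have h6 := h.b_pos.trans_le (h.ge (Real.log ‖x‖))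
  rw [hc, mul_div_cancel₀ _ two_ne_zero]
  exact mul_le_mul_of_nonneg_left (by nlinarith) (by linarith)

end Crest.Agent.R202
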