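import Crest.Agent.R202.Radial_A

/-!
# Ricci curvature of `φ² G` up to a small error (task G1b)

At `x ≠ 0`, `R = ‖x‖`, `y = x/R`: the jets of `g = φ² G` are `φ² G`, `φ² R⁻¹ (2 aₘ G + R ∂ₘ G)`,
`φ² R⁻² ((2hₘₗ + 4aₘaₗ) G + 2aₘ R∂ₗG + 2aₗ R∂ₘG + R²∂ₘ∂ₗG)`; use `ricJet_smul`, `ricJet_conf` and uniform continuity of
`ricJet` near the compact set of conformally flat jets with `(β, β', y) ∈ [0,1] × [-1,0] × sphere`.
-/

set_option autoImplicit false

noncomputable section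

open scoped InnerProductSpace ContDiff
open Set Filter Topology
open Crest.GeometryTopology.CoordMetric Crest.GeometryTopology.ChartCurvature Matrix

namespace Crest.Agent.R202

variable {n : ℕ}

/-- the Ricci tensor of the rotationally symmetric model, times `‖x‖²` -/
def ric₀ (β β' : ℝ) (y : Vec n) (i j : Fin n) : ℝ :=
  -((n : ℝ) - 1) * β' * (y i * y j) +
    (((n : ℝ) - 2) * (1 - β ^ 2) - β') * ((if i = j then 1 else 0) - y i * y j)

/-- perturbations of the `2`-jet -/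
abbrev rtQ (n : ℕ) : Type :=
  (Fin n → Fin n → ℝ) × (Fin n → Fin n → Fin n → ℝ) × (Fin n → Fin n → Fin n → Fin n → ℝ)

def rtA (p : ℝ × ℝ × Vec n) (m : Fin n) : ℝ := (p.1 - 1) * p.2.2 m

def rtH (p : ℝ × ℝ × Vec n) (m l : Fin n) : ℝ :=
  p.2.1 * (p.2.2 m * p.2.2 l) + (p.1 - 1) * ((if m = l then 1 else 0) - 2 * (p.2.2 m * p.2.2 l))

def rt₀ (q : rtQ n) : Matrix (Fin n) (Fin n) ℝ := 1 + Matrix.of q.1

def rt₁ (q : rtQ n) (p : ℝ × ℝ × Vec n) (m : Fin n) : Matrix (Fin n) (Fin n) ℝ :=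
  (2 * rtA p m) • rt₀ q + Matrix.of (q.2.1 m)

def rt₂ (q : rtQ n) (p : ℝ × ℝ × Vec n) (m l : Fin n) : Matrix (Fin n) (Fin n) ℝ :=
  (2 * rtH p m l + 4 * rtA p m * rtA p l) • rt₀ q + (2 * rtA p m) • Matrix.of (q.2.1 l) +
    (2 * rtA p l) • Matrix.of (q.2.1 m) + Matrix.of (q.2.2 m l)

/-- the scaled jet of `G - 1` -/
def rtJ (G : MetricField n) (x : Vec n) : rtQ n :=
  (fun i j => G x i j - (1 : Matrix (Fin n) (Fin n) ℝ) i j, fun m i j => ‖x‖ * jet₁ G x m i j,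
    fun m l i j => ‖x‖ ^ 2 * jet₂ G x m l i j)

def rtP (β : ℝ → ℝ) (x : Vec n) : ℝ × ℝ × Vec n :=
  (β (Real.log ‖x‖), deriv β (Real.log ‖x‖), hat x)

theorem rt_j0 (G : MetricField n) (x : Vec n) : rt₀ (rtJ G x) = G x := by
  ext i j
  simp [rt₀, rtJ]

theorem rt_j1 {β : ℝ → ℝ} {b : ℝ} (h : Prof β b) {G : MetricField n} (hG : Rad G) {x : Vec n}
    (hx : x ≠ 0) : jet₁ (met β G) x = (conf β x ^ 2 * ‖x‖⁻¹) • rt₁ (rtJ G x) (rtP β x) := by
  have hn : ‖x‖ ≠ 0 := norm_ne_zero_iff.mpr hx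
  ext m i j
  simp only [jet₁, Matrix.of_apply, rd_pderiv_met h hG hx, Pi.smul_apply, Matrix.smul_apply, rt₁,
    Matrix.add_apply, rt_j0, smul_eq_mul]
  simp only [rtA, rtP, rtJ, hat, jet₁, Matrix.of_apply, PiLp.smul_apply, smul_eq_mul]
  field_simp

theorem rt_j2 {β : ℝ → ℝ} {b : ℝ} (h : Prof β b) {G : MetricField n} (hG : Rad G) {x : Vec n}
    (hx : x ≠ 0) : jet₂ (met β G) x = (conf β x ^ 2 * ‖x‖⁻¹ ^ 2) • rt₂ (rtJ G x) (rtP β x) := by
  have hn : ‖x‖ ≠ 0 := norm_ne_zero_iff.mpr hx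
  ext m l i j
  have hs : ContDiff ℝ ∞ fun y => met β G y i j :=
    contDiffOn_univ.mp ((isRiemannian_met h hG).contDiffOn i j)
  have hp : ∀ {f : Vec n → ℝ}, ContDiff ℝ ∞ f → ContDiff ℝ ∞ fun y => pderiv l f y := fun hf =>
    (hf.fderiv_right (m := ∞) (by simp)).clm_apply contDiff_const
  have h0 : rdL (fun y : Vec n => (‖y‖ ^ 2)⁻¹) x (EuclideanSpace.single m 1)
      (-(2 * x m) / (‖x‖ ^ 2) ^ 2) := by
    have := HasDerivAt.fun_inv (rdL_normsq x (EuclideanSpace.single m 1)) (by simpa using hx)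
    simp only [zero_smul, add_zero, rd_single_sum] at this
    exact this
  have h1 := (rdL.pd (hp hs) x m).unique_ne hx ((rdL_confsq h hx _).mul
    (((((((rdL_beta h hx _).sub (rdL.const 1 x _)).mul (rdL.coord l x _)).mul h0).const_mul 2).mul
      (rdL.pd (hG.smooth i j) x m)).add (rdL.pd (hp (hG.smooth i j)) x m)))
    fun y hy => by rw [rd_pderiv_met h hG hy, div_eq_mul_inv]
  simp only [jet₂, Matrix.of_apply, h1, rd_single_sum, Pi.smul_apply, Matrix.smul_apply, rt₂,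
    Matrix.add_apply, rt_j0, smul_eq_mul]
  simp only [rtA, rtH, rtP, rtJ, hat, jet₁, jet₂, Matrix.of_apply, PiLp.smul_apply, smul_eq_mul,
    PiLp.single_apply, eq_comm (a := l)]
  field_simp
  ring

theorem rt_ricci {β : ℝ → ℝ} {b : ℝ} (h : Prof β b) {G : MetricField n} (hG : Rad G) {x : Vec n}
    (hx : x ≠ 0) (i j : Fin n) : ‖x‖ ^ 2 * ricci (met β G) x i j =
      ricJet (rt₀ (rtJ G x)) (rt₁ (rtJ G x) (rtP β x)) (rt₂ (rtJ G x) (rtP β x)) i j := by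
  have hn : ‖x‖ ≠ 0 := norm_ne_zero_iff.mpr hx
  rw [ricci_eq_jet (isRiemannian_met h hG), rt_j1 h hG hx, rt_j2 h hG hx, met,
    ricJet_smul (pow_ne_zero 2 (rd_conf_ne β x)), rt_j0]
  field_simp

theorem rt_chr {β : ℝ → ℝ} {b : ℝ} (h : Prof β b) {G : MetricField n} (hG : Rad G) {x : Vec n}
    (hx : x ≠ 0) (k i j : Fin n) : ‖x‖ * christoffel (met β G) x k i j =
      chrJet (rt₀ (rtJ G x)) (rt₁ (rtJ G x) (rtP β x)) k i j := by
  have hn : ‖x‖ ≠ 0 := norm_ne_zero_iff.mpr hx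
  rw [christoffel_eq_jet, rt_j1 h hG hx, met, chrJet_smul (pow_ne_zero 2 (rd_conf_ne β x)), rt_j0]
  field_simp

theorem rt_zero₀ : rt₀ (0 : rtQ n) = 1 := by
  ext i j
  simp [rt₀]

theorem rt_flat (p : ℝ × ℝ × Vec n) (hp : ‖p.2.2‖ = 1) (i j : Fin n) :
    ricJet (rt₀ 0) (rt₁ 0 p) (rt₂ 0 p) i j = ric₀ p.1 p.2.1 p.2.2 i j := by
  have e1 : rt₁ 0 p = fun m => (2 * rtA p m) • (1 : Matrix (Fin n) (Fin n) ℝ) := by
    ext m i j
    simp [rt₁, rt_zero₀]
  have e2 : rt₂ 0 p = fun m l =>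
      (2 * rtH p m l + 4 * rtA p m * rtA p l) • (1 : Matrix (Fin n) (Fin n) ℝ) := by
    ext m l i j
    simp [rt₂, rt_zero₀]
  have h1 : ∑ m, p.2.2 m * p.2.2 m = 1 := by rw [rd_normsq, hp, one_pow]
  have h2 : ∑ m, rtH p m m = p.2.1 + (p.1 - 1) * (n - 2) := by
    simp only [rtH, if_true, Finset.sum_add_distrib, ← Finset.mul_sum, Finset.sum_sub_distrib, h1]
    simp
  have h3 : ∑ m, rtA p m ^ 2 = (p.1 - 1) ^ 2 := by
    simp only [rtA, mul_pow, ← Finset.mul_sum, sq (p.2.2 _), h1, mul_one]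
  rw [e1, e2, rt_zero₀, ricJet_conf _ _ fun m l => by simp only [rtH, eq_comm, mul_comm], h2, h3]
  simp only [ric₀, rtH, rtA]
  split_ifs <;> ring

theorem rt_jets_one {G : MetricField n} {x : Vec n} (h1 : ∀ᶠ y in 𝓝 x, G y = 1) :
    G x = 1 ∧ jet₁ G x = 0 ∧ jet₂ G x = 0 := by
  have h2 : ∀ {f : Vec n → ℝ} {c : ℝ} {y : Vec n}, (∀ᶠ z in 𝓝 y, f z = c) → ∀ m, pderiv m f y = 0 :=
    fun {f c y} hf m => by
      rw [pderiv, Filter.EventuallyEq.fderiv_eq (f := fun _ => c) hf]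
      simp
  refine ⟨h1.self_of_nhds, ?_, ?_⟩
  · ext m i j
    exact h2 (h1.mono fun z hz => by rw [hz]) m
  · ext m l i j
    exact h2 (h1.eventually_nhds.mono fun z hz => h2 (hz.mono fun z hz => by rw [hz]) l) m

theorem rt_cont : Continuous fun z : rtQ n × ℝ × ℝ × Vec n =>
    (rt₀ z.1, rt₁ z.1 z.2, rt₂ z.1 z.2) := by
  have h0 : Continuous fun z : rtQ n × ℝ × ℝ × Vec n => rt₀ z.1 :=
    continuous_matrix fun i j => by simp only [rt₀, Matrix.add_apply, Matrix.of_apply]; fun_prop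
  have h0' : ∀ i j, Continuous fun z : rtQ n × ℝ × ℝ × Vec n => rt₀ z.1 i j := fun i j =>
    h0.matrix_elem i j
  refine h0.prodMk (Continuous.prodMk (continuous_pi fun m => continuous_matrix fun i j => ?_)
    (continuous_pi fun m => continuous_pi fun l => continuous_matrix fun i j => ?_))
  · simp only [rt₁, rtA, Matrix.add_apply, Matrix.smul_apply, Matrix.of_apply, smul_eq_mul]
    fun_prop
  · simp only [rt₂, rtA, rtH, Matrix.add_apply, Matrix.smul_apply, Matrix.of_apply, smul_eq_mul]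
    fun_prop

theorem rt_cont_ric (p : ℝ × ℝ × Vec n) (i j : Fin n) : ContinuousAt (fun z : rtQ n × ℝ × ℝ × Vec n =>
    ricJet (rt₀ z.1) (rt₁ z.1 z.2) (rt₂ z.1 z.2) i j) (0, p) :=
  ContinuousAt.comp (f := fun z : rtQ n × ℝ × ℝ × Vec n => (rt₀ z.1, rt₁ z.1 z.2, rt₂ z.1 z.2))
    ((continuousOn_ricJet i j).continuousAt ((isOpen_ne_fun continuous_fst.matrix_det
      continuous_const).mem_nhds (by simp [rt_zero₀]))) rt_cont.continuousAt

theorem rt_cont_chr (p : ℝ × ℝ × Vec n) (k i j : Fin n) :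
    ContinuousAt (fun z : rtQ n × ℝ × ℝ × Vec n => chrJet (rt₀ z.1) (rt₁ z.1 z.2) k i j) (0, p) := by
  have h0 : ContinuousAt (fun z : rtQ n × ℝ × ℝ × Vec n => (rt₀ z.1)⁻¹) (0, p) :=
    ContinuousAt.comp (f := fun z : rtQ n × ℝ × ℝ × Vec n => rt₀ z.1)
      (continuousAt_matrix_inv _ (by
        rw [rt_zero₀, det_one, Ring.inverse_eq_inv']
        exact continuousAt_inv₀ one_ne_zero)) rt_cont.fst.continuousAt
  have h1 : ∀ m i j, ContinuousAt (fun z : rtQ n × ℝ × ℝ × Vec n => rt₁ z.1 z.2 m i j) (0, p) :=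
    fun m i j => (((continuous_apply m).comp rt_cont.snd.fst).matrix_elem i j).continuousAt
  unfold chrJet
  refine continuousAt_const.mul (tendsto_finsetSum _ fun l _ => ContinuousAt.mul ?_
    (((h1 _ _ _).add (h1 _ _ _)).sub (h1 _ _ _)))
  exact (continuous_id.matrix_elem k l).continuousAt.comp h0

theorem ricci_flat {β : ℝ → ℝ} {b : ℝ} (h : Prof β b) {G : MetricField n} (hG : Rad G) {x : Vec n}
    (hx : x ≠ 0) (h1 : ∀ᶠ y in 𝓝 x, G y = 1) (i j : Fin n) :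
    ‖x‖ ^ 2 * ricci (met β G) x i j =
      ric₀ (β (Real.log ‖x‖)) (deriv β (Real.log ‖x‖)) (hat x) i j := by
  obtain ⟨a0, a1, a2⟩ := rt_jets_one h1
  have e : rtJ G x = 0 := by
    simp only [rtJ, a0, a1, a2]
    ext <;> simp
  rw [rt_ricci h hG hx, e]
  exact rt_flat (rtP β x) (norm_hat hx) i j

theorem ricci_nonneg_flat (hn : 2 ≤ n) {β : ℝ → ℝ} {b : ℝ} (h : Prof β b) {G : MetricField n}
    (hG : Rad G) {x : Vec n} (h1 : ∀ᶠ y in 𝓝 x, G y = 1) (w : Vec n) :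
    0 ≤ ∑ i, ∑ j, ricci (met β G) x i j * w i * w j := by
  by_cases hx : x = 0
  · have h2 : ∀ᶠ y in 𝓝 x, met β G y = 1 := by
      filter_upwards [Metric.closedBall_mem_nhds x one_pos] with y hy
      exact met_eq_one h hG (by simpa [hx] using hy)
    obtain ⟨a0, a1, a2⟩ := rt_jets_one h2
    refine Finset.sum_nonneg fun i _ => Finset.sum_nonneg fun j _ => le_of_eq ?_
    rw [ricci_eq_jet (isRiemannian_met h hG), a0, a1, a2]
    simp [ricJet, dchrJet, chrJet]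
  · have hR : 0 < ‖x‖ ^ 2 := pow_pos (norm_pos_iff.2 hx) 2
    refine le_of_mul_le_mul_left ?_ hR
    have e : ‖x‖ ^ 2 * ∑ i, ∑ j, ricci (met β G) x i j * w i * w j =
        -((n : ℝ) - 1) * deriv β (Real.log ‖x‖) * ⟪hat x, w⟫_ℝ ^ 2 +
          (((n : ℝ) - 2) * (1 - β (Real.log ‖x‖) ^ 2) - deriv β (Real.log ‖x‖)) *
            (‖w‖ ^ 2 - ⟪hat x, w⟫_ℝ ^ 2) := by
      have e1 : ‖w‖ ^ 2 = ∑ i, ∑ j, (if i = j then (1 : ℝ) else 0) * w i * w j := by
        simp [← rd_normsq]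
      rw [e1, rd_inner, sq (∑ i, _), Finset.sum_mul_sum]
      simp only [Finset.mul_sum, ← mul_assoc, ricci_flat h hG hx h1, ← Finset.sum_sub_distrib,
        ← Finset.sum_add_distrib, ric₀]
      exact Finset.sum_congr rfl fun i _ => Finset.sum_congr rfl fun j _ => by ring
    have h2 : ⟪hat x, w⟫_ℝ ^ 2 ≤ ‖w‖ ^ 2 := by
      have := abs_real_inner_le_norm (hat x) w
      rw [norm_hat hx, one_mul] at this
      exact sq_le_sq' (abs_le.1 this).1 (abs_le.1 this).2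
    have h3 : (2 : ℝ) ≤ n := by exact_mod_cast hn
    have h4 := h.anti (Real.log ‖x‖)
    have h5 := h.le_one (Real.log ‖x‖)
    have h6 := h.b_pos.trans_le (h.ge (Real.log ‖x‖))
    have h7 : 0 ≤ 1 - β (Real.log ‖x‖) ^ 2 := by nlinarith
    rw [e, mul_zero]
    exact add_nonneg (mul_nonneg (by nlinarith) (sq_nonneg _))
      (mul_nonneg (by nlinarith) (by linarith))

theorem ricci_approx (n : ℕ) {δ : ℝ} (hδ : 0 < δ) : ∃ ε C : ℝ, 0 < ε ∧ 0 < C ∧
    ∀ (β : ℝ → ℝ) (b : ℝ) (G : MetricField n), Prof β b → Rad G → ∀ x : Vec n, x ≠ 0 →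
      -1 ≤ deriv β (Real.log ‖x‖) → (∀ i j, |G x i j - (1 : Matrix (Fin n) (Fin n) ℝ) i j| ≤ ε) →
      (∀ m i j, ‖x‖ * |jet₁ G x m i j| ≤ ε) → (∀ m l i j, ‖x‖ ^ 2 * |jet₂ G x m l i j| ≤ ε) →
      (∀ i j, |‖x‖ ^ 2 * ricci (met β G) x i j -
        ric₀ (β (Real.log ‖x‖)) (deriv β (Real.log ‖x‖)) (hat x) i j| ≤ δ) ∧
      ∀ k i j, ‖x‖ * |christoffel (met β G) x k i j| ≤ C := by
  have hK : IsCompact (Icc (0 : ℝ) 1 ×ˢ Icc (-1 : ℝ) 0 ×ˢ Metric.sphere (0 : Vec n) 1) :=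
    isCompact_Icc.prod (isCompact_Icc.prod (isCompact_sphere _ _))
  obtain ⟨C, hC⟩ := hK.exists_bound_of_continuousOn
    (f := fun p k i j => chrJet (rt₀ (0 : rtQ n)) (rt₁ 0 p) k i j)
    (continuousOn_of_forall_continuousAt fun p _ => continuousAt_pi.2 fun k =>
      continuousAt_pi.2 fun i => continuousAt_pi.2 fun j =>
        (rt_cont_chr p k i j).comp (f := fun p => ((0 : rtQ n), p)) (by fun_prop))
  have h1 := hK.eventually_forall_of_forall_eventually (x₀ := (0 : rtQ n))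
    (P := fun q p => (∀ i j, |ricJet (rt₀ q) (rt₁ q p) (rt₂ q p) i j -
      ricJet (rt₀ 0) (rt₁ 0 p) (rt₂ 0 p) i j| < δ) ∧
      ∀ k i j, |chrJet (rt₀ q) (rt₁ q p) k i j| < |C| + 1) fun p hp => by
    refine Eventually.and (eventually_all.2 fun i => eventually_all.2 fun j => ?_)
      (eventually_all.2 fun k => eventually_all.2 fun i => eventually_all.2 fun j => ?_)
    · exact ((rt_cont_ric p i j).sub ((rt_cont_ric p i j).comp
        (f := fun z : rtQ n × ℝ × ℝ × Vec n => ((0 : rtQ n), z.2)) (by fun_prop))).abs.eventually_lt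
        continuousAt_const (by simpa using hδ)
    · refine (rt_cont_chr p k i j).abs.eventually_lt continuousAt_const ?_
      have := (norm_le_pi_norm _ j).trans ((norm_le_pi_norm _ i).trans
        ((norm_le_pi_norm (fun k i j => chrJet (rt₀ (0 : rtQ n)) (rt₁ 0 p) k i j) k).trans (hC p hp)))
      exact (this.trans (le_abs_self C)).trans_lt (lt_add_one _)
  obtain ⟨ε, hε, h2⟩ := Metric.eventually_nhds_iff.1 h1
  refine ⟨ε / 2, |C| + 1, half_pos hε, by positivity, ?_⟩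
  intro β b G h hG x hx hβ b0 b1 b2
  have he := (half_pos hε).le
  have h3 : dist (rtJ G x) 0 < ε := by
    rw [dist_zero_right]
    refine lt_of_le_of_lt (norm_prod_le_iff.2 ⟨?_, norm_prod_le_iff.2 ⟨?_, ?_⟩⟩) (half_lt_self hε)
    · simpa only [pi_norm_le_iff_of_nonneg he, rtJ, Real.norm_eq_abs] using b0
    · simpa only [pi_norm_le_iff_of_nonneg he, rtJ, Real.norm_eq_abs, abs_mul, abs_norm] using b1
    · simpa only [pi_norm_le_iff_of_nonneg he, rtJ, Real.norm_eq_abs, abs_mul, abs_pow,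
        abs_norm] using b2
  obtain ⟨h4, h5⟩ := h2 h3 (rtP β x) ⟨⟨h.b_pos.le.trans (h.ge _), h.le_one _⟩, ⟨hβ, h.anti _⟩,
    mem_sphere_zero_iff_norm.2 (norm_hat hx)⟩
  refine ⟨fun i j => ?_, fun k i j => ?_⟩
  · have := (h4 i j).le
    rwa [← rt_ricci h hG hx, rt_flat (rtP β x) (norm_hat hx)] at this
  · have := (h5 k i j).le
    rwa [← rt_chr h hG hx, abs_mul, abs_norm] at this

end Crest.Agent.R202
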