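import Crest.Agent.R202.SecSum
import Crest.Agent.R202.Rayleigh

/-!
# The sector ODE of an eigenvector (task F5b)

Write `m₁₁ = 1+4x²`, `m₁₂ = x-4x³`, `m₂₂ = 1-3x²+4x⁴` (`x = xx r cp θ`, `m₁₁ m₂₂ - m₁₂² = 1`).  For a polynomial `g`, `y = fn g`, on `(0, π/r)`:
`fn (Apol (trip₀ cp) g) = -(1/w0) ∂_θ (w0 ((m₁₁-1) Dθ + m₁₂ Dφ)) - (1/sin) ∂_φ (m₁₂ Dθ + (m₂₂-1) Dφ)` (`fn_Zj`, `fn_Phi`, definition of `Zs`); with
`prof_ode` this gives for `g = ek k` the pointwise operator `L`, and `Lop_expand` + the eigen-equation `∑_{k} qe k₁ k X_k = l X_{k₁}`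
(`X = V/√lam`; absolutely convergent double series) give `∑ X_k L e_k = l ∑ X_k e_k`.  Take the coefficients of `cos mφ`, `sin mφ`
(equivalently: apply this to the part of `V` in the sector `|μ| = m`, an eigenvector by `inv_sec` and symmetry, and evaluate at two values of `φ`).
With `p = w0 (m₁₁ Y' + iμ m₁₂ Y/sin)` one gets `p' = w0 ((κ/cos² - l) Y - (iμ/sin)(m₁₂ Y' + iμ m₂₂ Y/sin))`, and `Ps = sin p / w0`.
-/

set_option autoImplicit false

noncomputable section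

open scoped InnerProductSpace ContDiff
open Set Filter Topology
open MvPolynomial Real

namespace Crest.Agent.R202

variable {r n : ℕ} (c : Cl r n)

/-- the derivative of `trig` -/
def soD (μ : ℤ) (φ : ℝ) : ℝ :=
  if 0 ≤ μ then -(μ.natAbs * sin (μ.natAbs * φ)) else μ.natAbs * cos (μ.natAbs * φ)

theorem so_trig (μ : ℤ) (φ : ℝ) :
    HasDerivAt (trig μ) (soD μ φ) φ ∧ HasDerivAt (soD μ) (-((μ : ℝ) ^ 2 * trig μ φ)) φ := by
  have h := (hasDerivAt_id φ).const_mul (μ.natAbs : ℝ)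
  have e : (μ : ℝ) ^ 2 = (μ.natAbs : ℝ) ^ 2 := by simp
  unfold trig soD
  rw [e]
  split_ifs
  · exact ⟨h.cos.congr_deriv (by simp [mul_comm]),
      (h.sin.const_mul _).neg.congr_deriv (by simp only [id]; ring)⟩
  · exact ⟨h.sin.congr_deriv (by simp [mul_comm]),
      (h.cos.const_mul _).congr_deriv (by simp only [id]; ring)⟩

theorem Cl.so_add (g h : P3) (θ φ : ℝ) : c.fn (g + h) θ φ = c.fn g θ φ + c.fn h θ φ := by
  simp [Cl.fn, mul_add]

theorem Cl.so_sub (g h : P3) (θ φ : ℝ) : c.fn (g - h) θ φ = c.fn g θ φ - c.fn h θ φ := by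
  simp [Cl.fn, mul_sub]

theorem Cl.so_mul (g h : P3) (θ φ : ℝ) : c.fn (g * h) θ φ = eval (pt r θ φ) g * c.fn h θ φ := by
  simp [Cl.fn, mul_left_comm]

include c in
theorem Cl.so_pos {θ : ℝ} (hθ : θ ∈ Ioo 0 (π / r)) :
    sin θ ≠ 0 ∧ (r = 1 ∧ n = 3 ∧ c.j = 0 ∨ r = 2 ∧ 4 ≤ n ∧ cos θ ≠ 0) := by
  obtain ⟨j, ⟨rfl, h⟩ | ⟨rfl, h, -⟩⟩ := c
  · exact ⟨(sin_pos_of_pos_of_lt_pi hθ.1 (by simpa using hθ.2)).ne', Or.inl ⟨rfl, h⟩⟩
  · have h2 : θ < π / 2 := by simpa using hθ.2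
    exact ⟨(sin_pos_of_pos_of_lt_pi hθ.1 (by linarith [pi_pos])).ne', Or.inr ⟨rfl, h,
      (cos_pos_of_mem_Ioo ⟨by linarith [hθ.1, pi_pos], h2⟩).ne'⟩⟩

theorem Cl.so_Zs (h : P3) {θ : ℝ} (hθ : θ ∈ Ioo 0 (π / r)) (φ : ℝ) :
    HasDerivAt (fun s => sgm r s * c.fn h s φ) (sin θ * c.fn (c.Zs h) θ φ +
      ((n : ℝ) - 3) * tan θ * (sgm r θ * c.fn h θ φ)) θ := by
  have h1 : HasDerivAt (fun s => c.fn h s φ) (c.Dθ h θ φ) θ :=
    (((c.contDiff_fn h).comp (contDiff_id.prodMk contDiff_const)).differentiable (by simp)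
      θ).hasDerivAt
  have h2 : c.Zs h = (C (c.j : ℝ) * sS r +
      (2 * X 2 - C (((r : ℝ) - 1) * ((c.j : ℝ) + n - 2)) * sS r)) * h - c.Zj h := by
    unfold Cl.Zs Cl.Zj
    ring
  have h3 : eval (pt r θ φ) (X 2 : P3) = cos θ ^ r := by simp [pt]
  rw [h2, c.so_sub, c.so_mul, c.fn_Zj]
  simp only [map_add, map_sub, map_mul, eval_C, c.eval_sS, h3, map_ofNat]
  obtain ⟨-, ⟨rfl, rfl, hj⟩ | ⟨rfl, -, hc⟩⟩ := c.so_pos hθ
  · simp only [sgm, vp, if_true, one_mul, hj]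
    refine (((hasDerivAt_sin θ).pow 2).mul h1).congr_deriv ?_
    simp only [Pi.pow_apply]
    push_cast
    ring
  · simp only [sgm, vp, OfNat.ofNat_ne_one, if_false]
    refine (((hasDerivAt_cos θ).mul ((hasDerivAt_sin θ).pow 2)).mul h1).congr_deriv ?_
    simp only [Pi.pow_apply, Pi.mul_apply, tan_eq_sin_div_cos]
    push_cast
    field_simp
    ring

theorem Cl.so_prof (k : c.J) (θ : ℝ) : HasDerivAt (c.prof k) (deriv (c.prof k) θ) θ ∧
    HasDerivAt (deriv (c.prof k)) (deriv (deriv (c.prof k)) θ) θ :=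
  have h := contDiff_infty_iff_deriv.1 (c.contDiff_prof k)
  ⟨(h.1 θ).hasDerivAt, ((contDiff_infty_iff_deriv.1 h.2).1 θ).hasDerivAt⟩

theorem Cl.so_ode (k : c.J) {θ : ℝ} (hθ : θ ∈ Ioo 0 (π / r)) :
    cos θ * deriv (c.prof k) θ + sin θ * deriv (deriv (c.prof k)) θ -
      ((n : ℝ) - 3) * tan θ * (sin θ * deriv (c.prof k) θ) =
      sin θ * ((c.kap / cos θ ^ 2 + (k.1.1 : ℝ) ^ 2 / sin θ ^ 2 - c.base.lam k) * c.prof k θ) := by
  have h := (c.prof_ode k hθ).unique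
    (((hasDerivAt_sin θ).mul ((hasDerivAt_cos θ).pow (n - 3))).mul (c.so_prof k θ).2)
  simp only [w0, Pi.mul_apply, Pi.pow_apply] at h
  generalize c.kap / cos θ ^ 2 + (k.1.1 : ℝ) ^ 2 / sin θ ^ 2 - c.base.lam k = K at h ⊢
  obtain ⟨-, ⟨-, rfl, -⟩ | ⟨-, hn, hc⟩⟩ := c.so_pos hθ
  · simp only [Nat.sub_self, pow_zero, Nat.cast_zero] at h
    push_cast
    linear_combination -h
  · obtain ⟨m, rfl⟩ := Nat.exists_eq_add_of_le' hn
    simp only [show m + 4 - 3 = m + 1 from rfl, Nat.add_sub_cancel] at h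
    refine mul_left_cancel₀ (pow_ne_zero (m + 1) hc) ?_
    have h2 := tan_mul_cos hc
    push_cast at h ⊢
    linear_combination -h - (m + 1) * cos θ ^ m * sin θ * deriv (c.prof k) θ * h2

theorem Cl.so_L (cp : Polynomial ℝ) (k : c.J) {θ : ℝ} (hθ : θ ∈ Ioo 0 (π / r)) (φ : ℝ) {a' b' : ℝ}
    (ha : HasDerivAt (fun s => sin s * (1 + 4 * xx r cp s ^ 2)) a' θ)
    (hb : HasDerivAt (fun s => xx r cp s - 4 * xx r cp s ^ 3) b' θ) :
    sin θ * (c.base.lam k * c.fn (c.ek k) θ φ + c.fn (c.Apol (trip₀ r cp) (c.ek k)) θ φ) =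
      (sin θ * (c.kap / cos θ ^ 2 + (1 - 3 * xx r cp θ ^ 2 + 4 * xx r cp θ ^ 4) *
          ((k.1.1 : ℝ) ^ 2 / sin θ ^ 2)) * trig k.1.1 φ +
        (((n : ℝ) - 3) * tan θ * (xx r cp θ - 4 * xx r cp θ ^ 3) - b') * soD k.1.1 φ) * c.prof k θ +
      ((((n : ℝ) - 3) * tan θ * (sin θ * (1 + 4 * xx r cp θ ^ 2)) - a') * trig k.1.1 φ -
        2 * (xx r cp θ - 4 * xx r cp θ ^ 3) * soD k.1.1 φ) * deriv (c.prof k) θ +
      -(sin θ * (1 + 4 * xx r cp θ ^ 2)) * trig k.1.1 φ * deriv (deriv (c.prof k)) θ := by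
  have hs := (c.so_pos hθ).1
  have f1 : ∀ s φ, c.fn (c.Zj (c.ek k)) s φ =
      -(vp r s * sin s) * (deriv (c.prof k) s * trig k.1.1 φ) := fun s φ => by
    simp only [c.fn_Zj, Cl.Dθ, c.fn_ek, deriv_mul_const_field]
  have f2 : ∀ s φ, c.fn (Phi (c.ek k)) s φ = c.prof k s * soD k.1.1 φ := fun s φ =>
    (c.hasDerivAt_fn_φ _ s φ).unique
      (by simpa only [c.fn_ek] using (so_trig k.1.1 φ).1.const_mul (c.prof k s))
  set t := trip₀ r cp
  have m1 : ∀ s φ, vp r s ^ 2 * sin s ^ 2 * eval (pt r s φ) t.1 = 4 * xx r cp s ^ 2 := fun s φ => by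
    simpa [mq, uU, c.eval_vV, c.eval_sS] using c.mq_trip₀ cp s φ 1 0 1 0
  have m2 : ∀ s φ, -(vp r s * sin s ^ 2 * eval (pt r s φ) t.2.1) = xx r cp s - 4 * xx r cp s ^ 3 :=
    fun s φ => by simpa [mq, sgm] using c.mq_trip₀ cp s φ 1 0 0 1
  have m3 : ∀ s φ, vp r s ^ 2 * sin s ^ 2 * eval (pt r s φ) t.2.2 =
      -3 * xx r cp s ^ 2 + 4 * xx r cp s ^ 4 := fun s φ => by
    simpa [mq, uU, c.eval_vV, c.eval_sS] using c.mq_trip₀ cp s φ 0 1 0 1
  have e1 : ∀ s, sgm r s * c.fn (t.1 * c.Zj (c.ek k) + t.2.1 * Phi (c.ek k)) s φ =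
      -((sin s * (1 + 4 * xx r cp s ^ 2) - sin s) * deriv (c.prof k) s * trig k.1.1 φ +
        (xx r cp s - 4 * xx r cp s ^ 3) * c.prof k s * soD k.1.1 φ) := fun s => by
    rw [c.so_add, c.so_mul, c.so_mul, f1, f2, sgm]
    linear_combination (-sin s * deriv (c.prof k) s * trig k.1.1 φ) * m1 s φ -
      c.prof k s * soD k.1.1 φ * m2 s φ
  have e2 : ∀ φ, sin θ ^ 2 * c.fn (t.2.1 * c.Zj (c.ek k) + vV r * t.2.2 * Phi (c.ek k)) θ φ =
      (xx r cp θ - 4 * xx r cp θ ^ 3) * sin θ * deriv (c.prof k) θ * trig k.1.1 φ +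
        (-3 * xx r cp θ ^ 2 + 4 * xx r cp θ ^ 4) * c.prof k θ * soD k.1.1 φ := fun φ => by
    rw [c.so_add, c.so_mul, c.so_mul, f1, f2, map_mul, c.eval_vV]
    linear_combination (sin θ * deriv (c.prof k) θ * trig k.1.1 φ) * m2 θ φ +
      c.prof k θ * soD k.1.1 φ * m3 θ φ
  have d1 := c.so_Zs (t.1 * c.Zj (c.ek k) + t.2.1 * Phi (c.ek k)) hθ φ
  have d2 := (c.hasDerivAt_fn_φ (t.2.1 * c.Zj (c.ek k) + vV r * t.2.2 * Phi (c.ek k)) θ φ).const_mul
    (sin θ ^ 2)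
  simp only [e1] at d1
  simp only [e2] at d2
  have g1 := d1.unique ((((ha.sub (hasDerivAt_sin θ)).mul (c.so_prof k θ).2).mul_const _).add
    ((hb.mul (c.so_prof k θ).1).mul_const _)).neg
  have g2 := d2.unique (((so_trig k.1.1 φ).1.const_mul _).add ((so_trig k.1.1 φ).2.const_mul _))
  have g3 := c.so_ode k hθ
  have g4 : sin θ ^ 2 * ((k.1.1 : ℝ) ^ 2 / sin θ ^ 2) = (k.1.1 : ℝ) ^ 2 := by field_simp
  rw [Cl.Apol, c.so_sub, c.fn_ek]
  simp only [Pi.sub_apply] at g1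
  refine mul_left_cancel₀ hs ?_
  linear_combination sin θ * g1 - g2 + sin θ * trig k.1.1 φ * g3 -
    (-3 * xx r cp θ ^ 2 + 4 * xx r cp θ ^ 4) * c.prof k θ * trig k.1.1 φ * g4

/-- the double series -/
theorem Cl.so_sum (t : T3) {W : c.J → ℝ} (hW : c.Decay W) {l : ℝ}
    (he : ∀ k₁, HasSum (fun k => ent (1 + c.Aop t) k₁ k * W k) (l * ((c.base.lam k₁)⁻¹ * W k₁)))
    (θ φ : ℝ) : ∃ S, HasSum (fun k => l * (W k / √(c.base.lam k) * c.fn (c.ek k) θ φ)) S ∧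
      HasSum (fun k => W k / √(c.base.lam k) *
        (c.base.lam k * c.fn (c.ek k) θ φ + c.fn (c.Apol t (c.ek k)) θ φ)) S := by
  obtain ⟨C, ε, hε, hW⟩ := hW
  obtain ⟨C', p, hC', hp⟩ := c.prof_bound
  obtain ⟨a₁, h₁⟩ := exists_fil (r := r) t.1
  obtain ⟨a₂, h₂⟩ := exists_fil (r := r) t.2.1
  obtain ⟨a₃, h₃⟩ := exists_fil (r := r) t.2.2
  have hb := c.banded_Aop (a := a₁ + a₂ + a₃) (h₁.mono (by omega)) (h₂.mono (by omega))
    (h₃.mono (by omega))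
  generalize a₁ + a₂ + a₃ + 4 = d at hb
  have hl : ∀ k, √(c.base.lam k) ≠ 0 := fun k => (sqrt_pos.2 (c.base.evb_lam_pos k)).ne'
  set B := 1 + c.Aop t
  have e : ∀ k₁ k, c.base.qe B k₁ k * (W k / √(c.base.lam k)) = √(c.base.lam k₁) * (ent B k₁ k * W k) :=
    fun k₁ k => by have := hl k; rw [Base.qe]; field_simp
  have hs : Summable fun x : c.J × c.J =>
      c.base.qe B x.1 x.2 * (W x.2 / √(c.base.lam x.2)) * c.fn (c.ek x.1) θ φ := by
    refine .of_norm_bounded ((((c.base.summable_poly_exp (p + 1) (half_pos hε)).mul_of_nonneg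
      (c.base.summable_poly_exp 0 (half_pos hε)) (fun _ => by positivity)
      fun _ => by positivity)).mul_left (n * ‖B‖ * |C| * rexp (ε / 2 * d) * C')) fun ⟨k₁, k⟩ => ?_
    dsimp only
    rw [e]
    by_cases hk : c.base.deg k + d < c.base.deg k₁
    · rw [hb k₁ k (Or.inr hk), zero_mul, mul_zero, zero_mul, norm_zero]
      positivity
    have a1 : (c.base.deg k₁ : ℝ) ≤ c.base.deg k + d := by exact_mod_cast not_lt.1 hk
    have a2 : √(c.base.lam k₁) ≤ n * (c.base.deg k₁ + 1) := by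
      have h1 : (0 : ℝ) ≤ c.base.deg k₁ := Nat.cast_nonneg _
      have h2 : (3 : ℝ) ≤ n := by exact_mod_cast c.base.hn
      refine Real.sqrt_le_iff.2 ⟨by positivity, ?_⟩
      rw [Base.lam, sq]
      exact mul_le_mul (by nlinarith) (by nlinarith) (by linarith) (by positivity)
    have a3 : |W k| ≤ |C| * (rexp (ε / 2 * d) * rexp (-(ε / 2 * c.base.deg k₁)) *
        rexp (-(ε / 2 * c.base.deg k))) := by
      refine (hW k).trans (mul_le_mul (le_abs_self _) ?_ (by positivity) (abs_nonneg _))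
      rw [← exp_add, ← exp_add]
      change rexp (-(ε * c.base.deg k)) ≤ _
      exact exp_le_exp.2 (by nlinarith)
    have a4 : |c.fn (c.ek k₁) θ φ| ≤ C' * ((c.base.deg k₁ : ℝ) + 1) ^ p := by
      rw [c.fn_ek, abs_mul]
      exact (mul_le_of_le_one_right (abs_nonneg _) (sup_trig _ _).1).trans (hp k₁ θ).1
    rw [norm_mul, norm_mul, norm_mul, norm_of_nonneg (sqrt_nonneg _)]
    simp only [norm_eq_abs]
    calc _ ≤ n * (c.base.deg k₁ + 1) * (‖B‖ * (|C| * (rexp (ε / 2 * d) *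
          rexp (-(ε / 2 * c.base.deg k₁)) * rexp (-(ε / 2 * c.base.deg k))))) *
          (C' * ((c.base.deg k₁ : ℝ) + 1) ^ p) := by
          gcongr
          exact abs_ent_le _ _ _
      _ = _ := by ring
  refine ⟨_, hs.hasSum.prod_fiberwise fun k₁ => ?_,
    ((Equiv.prodComm _ _).hasSum_iff.2 hs.hasSum).prod_fiberwise fun k => ?_⟩
  · simp only [e]
    have h1 := ((he k₁).mul_left √(c.base.lam k₁)).mul_right (c.fn (c.ek k₁) θ φ)
    rwa [show √(c.base.lam k₁) * (l * ((c.base.lam k₁)⁻¹ * W k₁)) * c.fn (c.ek k₁) θ φ =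
      l * (W k₁ / √(c.base.lam k₁) * c.fn (c.ek k₁) θ φ) by
        rw [div_eq_mul_inv, ← sqrt_div_self, div_eq_mul_inv]; ring] at h1
  · obtain ⟨s, h1, h2⟩ := c.Lop_expand t k
    rw [h2, Finset.mul_sum]
    have h3 : HasSum (fun k₁ => W k / √(c.base.lam k) * (c.base.qe B k₁ k * c.fn (c.ek k₁) θ φ)) _ :=
      hasSum_sum_of_ne_finset_zero (s := s) fun k₁ hk => by rw [h1 k₁ hk, zero_mul, mul_zero]
    refine h3.congr_fun fun k₁ => ?_
    simp only [Function.comp_apply, Equiv.prodComm_apply, Prod.fst_swap, Prod.snd_swap]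
    ring

/-- the equation in one sector -/
theorem Cl.so_sec (cp : Polynomial ℝ) {V : H c.J} (hV : c.Decay V) {l : ℝ}
    (he : (1 + c.Aop (trip₀ r cp)) V = l • c.base.K V) (m : ℕ) {θ : ℝ} (hθ : θ ∈ Ioo 0 (π / r))
    (φ : ℝ) {a' b' : ℝ} (ha : HasDerivAt (fun s => sin s * (1 + 4 * xx r cp s ^ 2)) a' θ)
    (hb : HasDerivAt (fun s => xx r cp s - 4 * xx r cp s ^ 3) b' θ) :
    ∑ ν ∈ ({(m : ℤ), -(m : ℤ)} : Finset ℤ), (
      (sin θ * (c.kap / cos θ ^ 2 - l + (1 - 3 * xx r cp θ ^ 2 + 4 * xx r cp θ ^ 4) *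
          ((m : ℝ) ^ 2 / sin θ ^ 2)) * trig ν φ +
        (((n : ℝ) - 3) * tan θ * (xx r cp θ - 4 * xx r cp θ ^ 3) - b') * soD ν φ) * c.comp V ν θ +
      ((((n : ℝ) - 3) * tan θ * (sin θ * (1 + 4 * xx r cp θ ^ 2)) - a') * trig ν φ -
        2 * (xx r cp θ - 4 * xx r cp θ ^ 3) * soD ν φ) * deriv (c.comp V ν) θ +
      -(sin θ * (1 + 4 * xx r cp θ ^ 2)) * trig ν φ * deriv (deriv (c.comp V ν)) θ) = 0 := by
  have h0 : ∀ k₁ k : c.J, k₁.1.1.natAbs ≠ k.1.1.natAbs → ent (1 + c.Aop (trip₀ r cp)) k₁ k = 0 :=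
    fun k₁ k h => by
      unfold ent
      refine c.inv_sec cp k.1.1.natAbs _ (fun k' hk' => ?_) k₁ h
      have : k' ≠ k := by rintro rfl; exact hk' rfl
      simp [lp.single_apply, this]
  obtain ⟨S, h1, h2⟩ := c.so_sum (trip₀ r cp) (W := fun k => if k.1.1.natAbs = m then V k else 0)
    (l := l) (by
      obtain ⟨C, ε, hε, hV⟩ := hV
      refine ⟨C, ε, hε, fun k => le_trans ?_ (hV k)⟩
      dsimp only
      split_ifs <;> simp) (fun k₁ => by
      by_cases hk : k₁.1.1.natAbs = m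
      · have := ent_hasSum (1 + c.Aop (trip₀ r cp)) V k₁
        rw [he] at this
        rw [if_pos hk]
        refine this.congr_fun fun k => ?_
        split_ifs with h
        · rfl
        · rw [h0 k₁ k (hk ▸ Ne.symm h), zero_mul, zero_mul]
      · rw [if_neg hk, mul_zero, mul_zero]
        convert hasSum_zero using 2 with k
        split_ifs with h
        · rw [h0 k₁ k (h ▸ hk), zero_mul]
        · rw [mul_zero]) θ φ
  have h3 := (h2.sub h1).mul_left (sin θ)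
  rw [sub_self, mul_zero] at h3
  refine HasSum.unique (hasSum_sum fun ν _ => (((c.hasSum_deriv_comp hV ν θ).1.mul_left _).add
    ((c.hasSum_deriv_comp hV ν θ).2.1.mul_left _)).add
    ((c.hasSum_deriv_comp hV ν θ).2.2.mul_left _)) ?_
  refine h3.congr_fun fun k => ?_
  simp only [mul_ite, mul_zero, ite_add_ite, add_zero, Finset.sum_ite_eq, Finset.mem_insert,
    Finset.mem_singleton, ← Int.natAbs_eq_iff]
  split_ifs with h
  · have h4 := c.so_L cp k hθ φ ha hb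
    rw [show (k.1.1 : ℝ) ^ 2 = (m : ℝ) ^ 2 by simp [← h], c.fn_ek] at h4
    rw [c.fn_ek]
    linear_combination -(V k / √(c.base.lam k)) * h4
  · simp

theorem Cl.sec_ode (cp : Polynomial ℝ) {V : H c.J} (hV : c.Decay V) {l : ℝ}
    (he : (1 + c.Aop (trip₀ r cp)) V = l • c.base.K V) (μ : ℤ) {θ : ℝ} (hθ : θ ∈ Ioo 0 (π / r)) :
    SecODE n c.kap l μ (fun s => rr (xx r cp s)) (fun s => gs (xx r cp s) / sin s)
      (c.Ys V μ) (c.Ps cp V μ) θ := by
  have hx : Differentiable ℝ (xx r cp) := by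
    have := cp.differentiable
    unfold xx sgm vp
    split_ifs <;> fun_prop
  obtain ⟨a', ha⟩ : ∃ a', HasDerivAt (fun s => sin s * (1 + 4 * xx r cp s ^ 2)) a' θ :=
    ⟨_, DifferentiableAt.hasDerivAt (by fun_prop)⟩
  obtain ⟨b', hb⟩ : ∃ b', HasDerivAt (fun s => xx r cp s - 4 * xx r cp s ^ 3) b' θ :=
    ⟨_, DifferentiableAt.hasDerivAt (by fun_prop)⟩
  have h1 : ∀ ν s, HasDerivAt (fun s => (c.comp V ν s : ℂ)) (deriv (c.comp V ν) s : ℝ) s :=
    fun ν s => ((c.contDiff_comp hV ν).differentiable two_ne_zero s).hasDerivAt.ofReal_comp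
  have h2 : ∀ ν, HasDerivAt (fun s => ((deriv (c.comp V ν) s : ℝ) : ℂ))
      (deriv (deriv (c.comp V ν)) θ : ℝ) θ := fun ν =>
    ((c.contDiff_comp hV ν).differentiable_deriv_two θ).hasDerivAt.ofReal_comp
  have key := fun φ => c.so_sec cp hV he μ.natAbs hθ φ ha hb
  have hY := ((c.contDiff_Ys hV μ).differentiable two_ne_zero θ).hasDerivAt
  have hs : (sin θ : ℂ) ≠ 0 := Complex.ofReal_ne_zero.2 (c.so_pos hθ).1
  have hx' : (1 + 4 * (xx r cp θ : ℂ) ^ 2) ≠ 0 := by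
    exact_mod_cast (show (0 : ℝ) < 1 + 4 * xx r cp θ ^ 2 by positivity).ne'
  rw [show (μ.natAbs : ℝ) ^ 2 = (μ : ℝ) ^ 2 by simp] at key
  set z := sin θ * (c.kap / cos θ ^ 2 - l + (1 - 3 * xx r cp θ ^ 2 + 4 * xx r cp θ ^ 4) *
    ((μ : ℝ) ^ 2 / sin θ ^ 2)) with hz
  set τ := ((n : ℝ) - 3) * tan θ
  set A := sin θ * (1 + 4 * xx r cp θ ^ 2) with hA
  set B := xx r cp θ - 4 * xx r cp θ ^ 3 with hB
  obtain ⟨Y2, hY2, hE⟩ : ∃ Y2 : ℂ, HasDerivAt (deriv (c.Ys V μ)) Y2 θ ∧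
      (z + (τ * B - b') * (Complex.I * μ)) * c.Ys V μ θ +
        (τ * A - a' - 2 * B * (Complex.I * μ)) * deriv (c.Ys V μ) θ - A * Y2 = 0 := by
    by_cases h0 : μ = 0
    · subst h0
      have e : c.Ys V 0 = fun s => (c.comp V 0 s : ℂ) := funext fun s => if_pos rfl
      have e' : deriv (c.Ys V 0) = _ := funext fun s => e ▸ (h1 0 s).deriv
      rw [e', e]
      refine ⟨_, h2 0, ?_⟩
      have k1 := key 0
      simp only [Int.natAbs_zero, Nat.cast_zero, neg_zero, Finset.pair_eq_singleton,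
        Finset.sum_singleton, trig, soD, le_refl, if_true, mul_zero, cos_zero, zero_mul] at k1
      have k2 := congrArg (fun x : ℝ => (x : ℂ)) k1
      push_cast at k2 ⊢
      linear_combination k2
    have e : c.Ys V μ = fun s => ((c.comp V |μ| s : ℂ) -
      Complex.I * (Int.sign μ : ℤ) * c.comp V (-|μ|) s) / 2 := funext fun s => if_neg h0
    have e' : deriv (c.Ys V μ) = _ := funext fun s => e ▸
      (((h1 |μ| s).sub ((h1 (-|μ|) s).const_mul (Complex.I * (Int.sign μ : ℤ)))).div_const 2).deriv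
    rw [e', e]
    refine ⟨_, ((h2 |μ|).sub ((h2 (-|μ|)).const_mul (Complex.I * (Int.sign μ : ℤ)))).div_const 2, ?_⟩
    have m0 : (μ.natAbs : ℝ) ≠ 0 := by simpa using h0
    have m1 : (μ.natAbs : ℤ) ≠ -μ.natAbs := by omega
    have m2 : ¬ 0 ≤ -(μ.natAbs : ℤ) := by omega
    have k1 := key 0
    have k2 := key (π / 2 / μ.natAbs)
    simp only [Finset.sum_pair m1, trig, soD, Int.natCast_nonneg, m2, if_true, if_false,
      Int.natAbs_neg, Int.natAbs_natCast, mul_zero, cos_zero, sin_zero, mul_div_cancel₀ _ m0,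
      cos_pi_div_two, sin_pi_div_two] at k1 k2
    rw [Int.natCast_natAbs] at k1 k2
    have k3 := congrArg (fun x : ℝ => (x : ℂ)) k1
    have k4 := congrArg (fun x : ℝ => (x : ℂ)) k2
    have s1 : (μ : ℂ) = (Int.sign μ : ℤ) * (μ.natAbs : ℂ) := by
      rw [← Int.cast_natCast, ← Int.cast_mul, Int.sign_mul_natAbs]
    have s2 : ((Int.sign μ : ℤ) : ℂ) ^ 2 = 1 := by
      rcases lt_or_gt_of_ne h0 with h | h
      · simp [Int.sign_eq_neg_one_of_neg h]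
      · simp [Int.sign_eq_one_of_pos h]
    simp only [Complex.ofReal_add, Complex.ofReal_mul, Complex.ofReal_sub, Complex.ofReal_neg,
      Complex.ofReal_zero, Complex.ofReal_one, Complex.ofReal_ofNat, Complex.ofReal_natCast] at k3 k4
    rw [s1]
    linear_combination k3 / 2 - Complex.I * (Int.sign μ : ℤ) / 2 * k4 +
      μ.natAbs / 2 * ((τ * B - b') * c.comp V (-|μ|) θ - 2 * B * (deriv (c.comp V (-|μ|)) θ : ℝ)) *
        (s2 - ((Int.sign μ : ℤ) : ℂ) ^ 2 * (Complex.I_sq))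
  refine ⟨hY.congr_deriv ?_, ((ha.ofReal_comp.mul hY2).add
    ((hb.ofReal_comp.const_mul (Complex.I * μ)).mul hY)).congr_deriv ?_⟩
  · simp only [Cl.Ps, rr, gs, Complex.ofReal_add, Complex.ofReal_mul, Complex.ofReal_sub,
      Complex.ofReal_neg, Complex.ofReal_one, Complex.ofReal_ofNat, Complex.ofReal_div,
      Complex.ofReal_inv, Complex.ofReal_pow]
    field_simp
    ring
  · have e1 : gs (xx r cp θ) / sin θ * A = -B := by
      have := (c.so_pos hθ).1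
      rw [hA, hB, gs, rr]
      field_simp
    have e2 : sin θ * (c.kap / cos θ ^ 2 - l) + rr (xx r cp θ) * (μ : ℝ) ^ 2 / sin θ -
        (μ : ℝ) ^ 2 * (gs (xx r cp θ) / sin θ * B) = z := by
      have := (c.so_pos hθ).1
      rw [hz, hB, gs, rr]
      field_simp
      ring
    have e3 := congrArg (fun x : ℝ => (x : ℂ)) e1
    have e4 := congrArg (fun x : ℝ => (x : ℂ)) e2
    simp only [Cl.Ps, ← hA, ← hB]
    generalize sin θ * (c.kap / cos θ ^ 2 - l) + rr (xx r cp θ) * (μ : ℝ) ^ 2 / sin θ = q at e4 ⊢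
    generalize gs (xx r cp θ) / sin θ = g at e3 e4 ⊢
    push_cast at e3 e4
    linear_combination -hE - Complex.I * μ * deriv (c.Ys V μ) θ * e3 - c.Ys V μ θ * e4 -
      μ ^ 2 * g * B * c.Ys V μ θ * Complex.I_sq

end Crest.Agent.R202
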