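import Crest.Agent.R202.SecDefs
import Crest.Agent.R202.Sup
import Crest.Agent.R202.Count

/-!
# Series with exponentially decaying coefficients (task F5a)

All series converge uniformly with two derivatives (`prof_bound`, `summable_poly_exp`, `contDiff_tsum` / `hasDerivAt_tsum`); the partial sums
`Dθ (pol s V) → DθV V` uniformly, so forms pass to the limit (`inner_Aop_tendsto`, `energy_le`).  Parseval: `prof_orth`, `integral_trig`.
-/

set_option autoImplicit false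

noncomputable section

open scoped InnerProductSpace ContDiff
open Set Filter Topology
open MvPolynomial Real

namespace Crest.Agent.R202

variable {r n : ℕ} (c : Cl r n) {V W : H c.J}

/-! ### generic lemmas -/

theorem ss_series {J : Type} {f : J → ℝ → ℝ} (hf : ∀ k, ContDiff ℝ ∞ (f k)) {u : J → ℝ}
    (hu : Summable u) (h0 : ∀ k θ, |f k θ| ≤ u k) (h1 : ∀ k θ, |deriv (f k) θ| ≤ u k)
    (h2 : ∀ k θ, |deriv (deriv (f k)) θ| ≤ u k) :
    ContDiff ℝ 2 (fun θ => ∑' k, f k θ) ∧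
      (deriv (fun θ => ∑' k, f k θ) = fun θ => ∑' k, deriv (f k) θ) ∧
      deriv (deriv fun θ => ∑' k, f k θ) = fun θ => ∑' k, deriv (deriv (f k)) θ := by
  have c1 : ∀ k, ContDiff ℝ ∞ (deriv (f k)) := fun k => (hf k).iterate_deriv 1
  have c2 : ∀ k, ContDiff ℝ ∞ (deriv (deriv (f k))) := fun k => (c1 k).iterate_deriv 1
  have d1 : ∀ θ, HasDerivAt (fun θ => ∑' k, f k θ) (∑' k, deriv (f k) θ) θ := fun θ =>
    hasDerivAt_tsum hu (fun k y => ((hf k).differentiable (by simp) y).hasDerivAt) h1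
      (hu.of_norm_bounded fun k => h0 k 0) θ
  have d2 : ∀ θ, HasDerivAt (fun θ => ∑' k, deriv (f k) θ) (∑' k, deriv (deriv (f k)) θ) θ :=
    fun θ => hasDerivAt_tsum hu (fun k y => ((c1 k).differentiable (by simp) y).hasDerivAt) h2
      (hu.of_norm_bounded fun k => h1 k 0) θ
  have e1 : deriv (fun θ => ∑' k, f k θ) = fun θ => ∑' k, deriv (f k) θ :=
    funext fun θ => (d1 θ).deriv
  have e2 : deriv (fun θ => ∑' k, deriv (f k) θ) = fun θ => ∑' k, deriv (deriv (f k)) θ :=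
    funext fun θ => (d2 θ).deriv
  refine ⟨?_, e1, by rw [e1, e2]⟩
  rw [show (2 : WithTop ℕ∞) = 1 + 1 from rfl, contDiff_succ_iff_deriv]
  refine ⟨fun θ => (d1 θ).differentiableAt, by simp, ?_⟩
  rw [e1, contDiff_one_iff_deriv]
  refine ⟨fun θ => (d2 θ).differentiableAt, ?_⟩
  rw [e2]
  exact continuous_tsum (fun k => (c2 k).continuous) hu h2

theorem ss_w0_cont (n : ℕ) : Continuous (w0 n) := by
  unfold w0; fun_prop

theorem ss_sint_tendsto {I : Type} {l : Filter I} [l.IsCountablyGenerated] {f : I → ℝ → ℝ → ℝ}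
    {g G : ℝ → ℝ → ℝ} (hf : ∀ i, Continuous fun p : ℝ × ℝ => f i p.1 p.2)
    (hG : Continuous fun p : ℝ × ℝ => G p.1 p.2) (hb : ∀ i θ φ, |f i θ φ| ≤ G θ φ)
    (hl : ∀ θ φ, Tendsto (fun i => f i θ φ) l (𝓝 (g θ φ))) :
    Tendsto (fun i => sint r n (f i)) l (𝓝 (sint r n g)) := by
  unfold sint
  have hw := ss_w0_cont n
  have hGθ : ∀ θ, Continuous (G θ) := fun θ => hG.comp (Continuous.prodMk_right θ)
  have hfθ : ∀ i θ, Continuous (f i θ) := fun i θ => (hf i).comp (Continuous.prodMk_right θ)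
  refine intervalIntegral.tendsto_integral_filter_of_dominated_convergence
    (fun θ => (∫ φ in (0 : ℝ)..2 * π, G θ φ) * |w0 n θ|) (Eventually.of_forall fun i => ?_)
    (Eventually.of_forall fun i => Eventually.of_forall fun θ _ => ?_) ?_
    (Eventually.of_forall fun θ _ => ?_)
  · exact ((intervalIntegral.continuous_parametric_intervalIntegral_of_continuous' (hf i) _ _).mul
      hw).aestronglyMeasurable
  · rw [norm_mul, Real.norm_eq_abs (w0 n θ)]
    refine mul_le_mul_of_nonneg_right ?_ (abs_nonneg _)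
    exact intervalIntegral.norm_integral_le_of_norm_le (by positivity)
      (Eventually.of_forall fun φ _ => hb i θ φ) ((hGθ θ).intervalIntegrable _ _)
  · exact ((intervalIntegral.continuous_parametric_intervalIntegral_of_continuous' hG _ _).mul
      hw.abs).intervalIntegrable _ _
  · refine Tendsto.mul_const _ ?_
    exact intervalIntegral.tendsto_integral_filter_of_dominated_convergence (G θ)
      (Eventually.of_forall fun i => (hfθ i θ).aestronglyMeasurable)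
      (Eventually.of_forall fun i => Eventually.of_forall fun φ _ => hb i θ φ)
      ((hGθ θ).intervalIntegrable _ _) (Eventually.of_forall fun φ _ => hl θ φ)

theorem ss_Icc {M : Type} [AddCommMonoid M] (f : ℤ → M) (m : ℕ) :
    ∑ μ ∈ Finset.Icc (-(m : ℤ)) m, f μ =
      f 0 + ∑ j ∈ Finset.range m, (f ((j : ℤ) + 1) + f (-((j : ℤ) + 1))) := by
  induction m with
  | zero => simp
  | succ m ih =>
    have e : Finset.Icc (-((m + 1 : ℕ) : ℤ)) ((m + 1 : ℕ) : ℤ) =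
        insert ((m : ℤ) + 1) (insert (-((m : ℤ) + 1)) (Finset.Icc (-(m : ℤ)) m)) := by
      ext x
      simp only [Finset.mem_Icc, Finset.mem_insert]
      omega
    rw [e, Finset.sum_insert, Finset.sum_insert, ih, Finset.sum_range_succ]
    · abel
    · simp only [Finset.mem_Icc]; omega
    · simp only [Finset.mem_Icc, Finset.mem_insert]; omega

/-- passage from real to complex Fourier coefficients -/
def ssY (x : ℤ → ℝ) (μ : ℤ) : ℂ :=
  if μ = 0 then x 0 else (x |μ| - Complex.I * (Int.sign μ : ℤ) * x (-|μ|)) / 2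

theorem ssY_zero (x : ℤ → ℝ) : ssY x 0 = x 0 := by simp [ssY]

theorem ssY_pos (x : ℤ → ℝ) (j : ℕ) :
    ssY x ((j : ℤ) + 1) = (x ((j : ℤ) + 1) - Complex.I * x (-((j : ℤ) + 1))) / 2 := by
  have h : (0 : ℤ) < (j : ℤ) + 1 := by omega
  rw [ssY, if_neg h.ne', abs_of_pos h, Int.sign_eq_one_of_pos h]
  simp

theorem ssY_neg (x : ℤ → ℝ) (j : ℕ) :
    ssY x (-((j : ℤ) + 1)) = (x ((j : ℤ) + 1) + Complex.I * x (-((j : ℤ) + 1))) / 2 := by
  have h : (0 : ℤ) < (j : ℤ) + 1 := by omega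
  rw [ssY, if_neg (by omega), abs_neg, abs_of_pos h, Int.sign_neg, Int.sign_eq_one_of_pos h]
  simp

theorem ss_trig_pos (j : ℕ) (φ : ℝ) : trig ((j : ℤ) + 1) φ = cos (((j : ℝ) + 1) * φ) := by
  have : ((j : ℤ) + 1).natAbs = j + 1 := by omega
  rw [trig, if_pos (by omega), this]
  simp

theorem ss_trig_neg (j : ℕ) (φ : ℝ) : trig (-((j : ℤ) + 1)) φ = sin (((j : ℝ) + 1) * φ) := by
  have : (-((j : ℤ) + 1)).natAbs = j + 1 := by omega
  rw [trig, if_neg (by omega), this]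
  simp

theorem ss_trig_smooth (μ : ℤ) : ContDiff ℝ ∞ (trig μ) := by
  unfold trig
  split_ifs <;> fun_prop

theorem ss_fourier (x : ℤ → ℝ) (m : ℕ) (φ : ℝ) :
    ((∑ μ ∈ Finset.Icc (-(m : ℤ)) m, x μ * trig μ φ : ℝ) : ℂ) =
      ∑ μ ∈ Finset.Icc (-(m : ℤ)) m, ssY x μ * Complex.exp (Complex.I * μ * φ) := by
  rw [ss_Icc, ss_Icc, Complex.ofReal_add, Complex.ofReal_sum]
  congr 1
  · simp [ssY_zero, trig]
  refine Finset.sum_congr rfl fun j _ => ?_
  rw [ssY_pos, ssY_neg, ss_trig_pos, ss_trig_neg]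
  have e1 : Complex.I * (((j : ℤ) + 1 : ℤ) : ℂ) * φ = ((((j : ℝ) + 1) * φ : ℝ) : ℂ) * Complex.I := by
    push_cast; ring
  have e2 : Complex.I * ((-((j : ℤ) + 1) : ℤ) : ℂ) * φ =
      ((-(((j : ℝ) + 1) * φ) : ℝ) : ℂ) * Complex.I := by
    push_cast; ring
  rw [e1, e2, Complex.exp_ofReal_mul_I, Complex.exp_ofReal_mul_I, Real.cos_neg, Real.sin_neg]
  generalize cos (((j : ℝ) + 1) * φ) = a
  generalize sin (((j : ℝ) + 1) * φ) = b
  push_cast
  linear_combination (x (-((j : ℤ) + 1)) * b : ℂ) * Complex.I_sq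

theorem ss_fourier' (x : ℤ → ℝ) (m : ℕ) (φ : ℝ) :
    ((∑ μ ∈ Finset.Icc (-(m : ℤ)) m, x μ * deriv (trig μ) φ : ℝ) : ℂ) =
      ∑ μ ∈ Finset.Icc (-(m : ℤ)) m,
        Complex.I * μ * ssY x μ * Complex.exp (Complex.I * μ * φ) := by
  have h1 : HasDerivAt (fun φ : ℝ => ((∑ μ ∈ Finset.Icc (-(m : ℤ)) m, x μ * trig μ φ : ℝ) : ℂ))
      ((∑ μ ∈ Finset.Icc (-(m : ℤ)) m, x μ * deriv (trig μ) φ : ℝ) : ℂ) φ :=
    (HasDerivAt.fun_sum fun μ _ =>
      ((ss_trig_smooth μ).differentiable (by simp) φ).hasDerivAt.const_mul (x μ)).ofReal_comp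
  have h2 : HasDerivAt (fun φ : ℝ => ∑ μ ∈ Finset.Icc (-(m : ℤ)) m,
      ssY x μ * Complex.exp (Complex.I * μ * φ)) (∑ μ ∈ Finset.Icc (-(m : ℤ)) m,
        Complex.I * μ * ssY x μ * Complex.exp (Complex.I * μ * φ)) φ := by
    refine HasDerivAt.fun_sum fun μ _ => ?_
    have := (((hasDerivAt_id φ).ofReal_comp.const_mul (Complex.I * μ)).cexp).const_mul (ssY x μ)
    refine this.congr_deriv ?_
    simp only [id, Complex.ofReal_one]
    ring
  simp only [ss_fourier] at h1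
  exact h1.unique h2

theorem ss_parseval (x : ℤ → ℝ) (m : ℕ) :
    ∫ φ in (0 : ℝ)..2 * π, (∑ μ ∈ Finset.Icc (-(m : ℤ)) m, x μ * trig μ φ) ^ 2 =
      2 * π * ∑ μ ∈ Finset.Icc (-(m : ℤ)) m, ‖ssY x μ‖ ^ 2 := by
  have hc : ∀ μ, Continuous (trig μ) := fun μ => (ss_trig_smooth μ).continuous
  have h1 : ∀ φ, (∑ μ ∈ Finset.Icc (-(m : ℤ)) m, x μ * trig μ φ) ^ 2 =
      ∑ μ ∈ Finset.Icc (-(m : ℤ)) m, ∑ ν ∈ Finset.Icc (-(m : ℤ)) m,
        x μ * x ν * (trig μ φ * trig ν φ) := fun φ => by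
    rw [sq, Finset.sum_mul_sum]
    exact Finset.sum_congr rfl fun _ _ => Finset.sum_congr rfl fun _ _ => by ring
  simp only [h1]
  rw [intervalIntegral.integral_finsetSum fun μ _ => Continuous.intervalIntegrable
    (continuous_finsetSum _ fun ν _ => by have := hc μ; have := hc ν; fun_prop) _ _]
  have h2 : ∀ μ ∈ Finset.Icc (-(m : ℤ)) m, ∫ φ in (0 : ℝ)..2 * π,
      ∑ ν ∈ Finset.Icc (-(m : ℤ)) m, x μ * x ν * (trig μ φ * trig ν φ) =
        x μ ^ 2 * (if μ = 0 then 2 * π else π) := fun μ hμ => by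
    rw [intervalIntegral.integral_finsetSum fun ν _ => Continuous.intervalIntegrable
      (by have := hc μ; have := hc ν; fun_prop) _ _]
    simp only [intervalIntegral.integral_const_mul, integral_trig, mul_ite, mul_zero]
    rw [Finset.sum_ite_eq, if_pos hμ]
    split_ifs <;> ring
  rw [Finset.sum_congr rfl h2, ss_Icc, ss_Icc, mul_add, Finset.mul_sum]
  congr 1
  · simp [ssY_zero]; ring
  refine Finset.sum_congr rfl fun j _ => ?_
  rw [if_neg (by omega), if_neg (by omega), ssY_pos, ssY_neg, Complex.sq_norm, Complex.sq_norm]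
  simp [Complex.normSq_apply]
  ring

theorem ss_sint_sq (x : ℤ → ℝ → ℝ) (hx : ∀ μ, Continuous (x μ)) (m : ℕ) :
    sint r n (fun θ φ => (∑ μ ∈ Finset.Icc (-(m : ℤ)) m, x μ θ * trig μ φ) ^ 2) =
      2 * π * ∑ μ ∈ Finset.Icc (-(m : ℤ)) m,
        ∫ θ in (0 : ℝ)..π / r, ‖ssY (fun ν => x ν θ) μ‖ ^ 2 * w0 n θ := by
  have hw := ss_w0_cont n
  unfold sint
  have h : ∀ θ, (∫ φ in (0 : ℝ)..2 * π, (∑ μ ∈ Finset.Icc (-(m : ℤ)) m, x μ θ * trig μ φ) ^ 2) *
      w0 n θ = 2 * π * ∑ μ ∈ Finset.Icc (-(m : ℤ)) m, ‖ssY (fun ν => x ν θ) μ‖ ^ 2 * w0 n θ :=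
    fun θ => by rw [ss_parseval (fun ν => x ν θ), mul_assoc, Finset.sum_mul]
  simp only [h]
  rw [intervalIntegral.integral_const_mul, intervalIntegral.integral_finsetSum]
  intro μ _
  refine Continuous.intervalIntegrable ?_ _ _
  have := hx 0
  have := hx |μ|
  have := hx (-|μ|)
  unfold ssY
  split_ifs <;> fun_prop

theorem ss_group {J : Type} (ν : J → ℤ) (y : J → ℝ) (T : ℤ → ℝ) (X : ℤ → ℝ) (m : ℕ)
    (h0 : ∀ k, m < (ν k).natAbs → y k = 0)
    (hX : ∀ μ, HasSum (fun k => if ν k = μ then y k else 0) (X μ)) :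
    HasSum (fun k => y k * T (ν k)) (∑ μ ∈ Finset.Icc (-(m : ℤ)) m, X μ * T μ) := by
  refine (hasSum_sum (s := Finset.Icc (-(m : ℤ)) m) fun μ _ =>
    (hX μ).mul_right (T μ)).congr_fun fun k => Eq.symm ?_
  simp only [ite_mul, zero_mul]
  rw [Finset.sum_ite_eq]
  split_ifs with h
  · rfl
  · rw [h0 k, zero_mul]
    simp only [Finset.mem_Icc] at h
    omega

theorem ss_partial {J : Type} {y u : J → ℝ} (hu : Summable u) (h : ∀ k, |y k| ≤ u k)
    (s : Finset J) : |∑ k ∈ s, y k| ≤ ∑' k, u k :=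
  (Finset.abs_sum_le_sum_abs _ _).trans ((Finset.sum_le_sum fun k _ => h k).trans
    (hu.sum_le_tsum s fun k _ => (abs_nonneg _).trans (h k)))

/-! ### the concrete series -/

theorem Cl.ss_bound (hV : c.Decay V) : ∃ u : c.J → ℝ, Summable u ∧ ∀ k θ,
    |V k / √(c.base.lam k) * c.prof k θ| ≤ u k ∧
    |V k / √(c.base.lam k) * deriv (c.prof k) θ| ≤ u k ∧
    |V k / √(c.base.lam k) * deriv (deriv (c.prof k)) θ| ≤ u k ∧ ∀ φ,
      |V k / √(c.base.lam k) * c.Dθ (c.ek k) θ φ| ≤ u k ∧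
      |V k / √(c.base.lam k) * c.Dφ (c.ek k) θ φ| ≤ u k := by
  obtain ⟨C, ε, hε, hC⟩ := hV
  obtain ⟨D, p, hD, hb⟩ := c.prof_bound
  refine ⟨fun k => C * D * (((c.deg k : ℝ) + 1) ^ p * Real.exp (-(ε * c.deg k))),
    (c.base.summable_poly_exp p hε).mul_left _, fun k θ => ?_⟩
  have key : ∀ y : ℝ, |y| ≤ D * ((c.deg k : ℝ) + 1) ^ p → |V k / √(c.base.lam k) * y| ≤
      C * D * (((c.deg k : ℝ) + 1) ^ p * Real.exp (-(ε * c.deg k))) := fun y hy => by
    have h1 : 1 ≤ √(c.base.lam k) := Real.one_le_sqrt.2 (by linarith [c.base.two_le_lam k])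
    have h2 : |V k / √(c.base.lam k)| ≤ C * Real.exp (-(ε * c.deg k)) := by
      rw [abs_div, abs_of_nonneg (Real.sqrt_nonneg _)]
      exact (div_le_self (abs_nonneg _) h1).trans (hC k)
    rw [abs_mul]
    refine (mul_le_mul h2 hy (abs_nonneg _) ((abs_nonneg _).trans h2)).trans_eq ?_
    ring
  obtain ⟨b0, b1, b2, b3⟩ := hb k θ
  exact ⟨key _ b0, key _ b1, key _ b2, fun φ => ⟨key _ (b3 φ).1, key _ (b3 φ).2⟩⟩

theorem Cl.ss_comp (hV : c.Decay V) (μ : ℤ) : ContDiff ℝ 2 (c.comp V μ) ∧ ∀ θ,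
    HasSum (fun k : c.J => if k.1.1 = μ then V k / √(c.base.lam k) * c.prof k θ else 0)
      (c.comp V μ θ) ∧
    HasSum (fun k : c.J => if k.1.1 = μ then V k / √(c.base.lam k) * deriv (c.prof k) θ else 0)
      (deriv (c.comp V μ) θ) ∧
    HasSum (fun k : c.J => if k.1.1 = μ then V k / √(c.base.lam k) * deriv (deriv (c.prof k)) θ else 0)
      (deriv (deriv (c.comp V μ)) θ) := by
  obtain ⟨u, hu, hb⟩ := c.ss_bound hV
  obtain ⟨f, hf⟩ : ∃ f : c.J → ℝ → ℝ, f = fun k θ =>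
    if k.1.1 = μ then V k / √(c.base.lam k) * c.prof k θ else 0 := ⟨_, rfl⟩
  have e1 : ∀ k, deriv (f k) = fun θ =>
      if k.1.1 = μ then V k / √(c.base.lam k) * deriv (c.prof k) θ else 0 := fun k => by
    funext θ
    rw [hf]
    split_ifs with h
    · simp only [h, if_true, deriv_const_mul_field']
    · simp only [h, if_false, deriv_const]
  have e2 : ∀ k, deriv (deriv (f k)) = fun θ =>
      if k.1.1 = μ then V k / √(c.base.lam k) * deriv (deriv (c.prof k)) θ else 0 := fun k => by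
    funext θ
    rw [e1]
    split_ifs with h
    · simp only [deriv_const_mul_field']
    · simp only [deriv_const]
  have hu0 : ∀ k, 0 ≤ u k := fun k => (abs_nonneg _).trans (hb k 0).1
  have b0 : ∀ k θ, |f k θ| ≤ u k := fun k θ => by
    rw [hf]; beta_reduce; split_ifs
    · exact (hb k θ).1
    · simpa using hu0 k
  have b1 : ∀ k θ, |deriv (f k) θ| ≤ u k := fun k θ => by
    rw [e1]; beta_reduce; split_ifs
    · exact (hb k θ).2.1
    · simpa using hu0 k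
  have b2 : ∀ k θ, |deriv (deriv (f k)) θ| ≤ u k := fun k θ => by
    rw [e2]; beta_reduce; split_ifs
    · exact (hb k θ).2.2.1
    · simpa using hu0 k
  have hs : ∀ k, ContDiff ℝ ∞ (f k) := fun k => by
    rw [hf]; beta_reduce; split_ifs
    · exact contDiff_const.mul (c.contDiff_prof k)
    · exact contDiff_const
  obtain ⟨s0, s1, s2⟩ := ss_series hs hu b0 b1 b2
  have ec : c.comp V μ = fun θ => ∑' k, f k θ := by rw [hf]; rfl
  rw [ec]
  refine ⟨s0, fun θ => ⟨?_, ?_, ?_⟩⟩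
  · have := (hu.of_norm_bounded (f := fun k => f k θ) fun k => b0 k θ).hasSum
    rw [hf] at this ⊢
    exact this
  · have := (hu.of_norm_bounded (f := fun k => deriv (f k) θ) fun k => b1 k θ).hasSum
    rw [s1]
    simp only [e1] at this ⊢
    exact this
  · have := (hu.of_norm_bounded (f := fun k => deriv (deriv (f k)) θ) fun k => b2 k θ).hasSum
    rw [s2]
    simp only [e2] at this ⊢
    exact this

theorem Cl.ss_Ys (V : c.J → ℝ) (μ : ℤ) (θ : ℝ) : c.Ys V μ θ = ssY (fun ν => c.comp V ν θ) μ := rfl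

theorem Cl.ss_deriv_Ys (hV : c.Decay V) (μ : ℤ) (θ : ℝ) :
    deriv (c.Ys V μ) θ = ssY (fun ν => deriv (c.comp V ν) θ) μ := by
  have h : ∀ ν, HasDerivAt (fun θ => (c.comp V ν θ : ℂ)) (deriv (c.comp V ν) θ : ℝ) θ := fun ν =>
    ((c.ss_comp hV ν).1.differentiable (by simp) θ).hasDerivAt.ofReal_comp
  unfold Cl.Ys ssY
  split_ifs
  · exact (h 0).deriv
  · exact (((h _).fun_sub ((h _).const_mul _)).div_const 2).deriv

theorem Cl.ss_Dθ_ek (k : c.J) (θ φ : ℝ) :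
    c.Dθ (c.ek k) θ φ = deriv (c.prof k) θ * trig k.1.1 φ := by
  unfold Cl.Dθ
  simp only [c.fn_ek, deriv_mul_const_field]

theorem Cl.ss_Dφ_ek (k : c.J) (θ φ : ℝ) :
    sin θ * c.Dφ (c.ek k) θ φ = c.prof k θ * deriv (trig k.1.1) φ := by
  rw [← c.fn_Phi, ← (c.hasDerivAt_fn_φ (c.ek k) θ φ).deriv]
  simp only [c.fn_ek, deriv_const_mul_field']

theorem Cl.ss_pol (hV : c.Decay V) : ∃ M : ℝ, ∀ θ φ,
    (∀ s, |c.Dθ (c.pol s V) θ φ| ≤ M ∧ |c.Dφ (c.pol s V) θ φ| ≤ M) ∧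
    Tendsto (fun s => c.Dθ (c.pol s V) θ φ) atTop (𝓝 (c.DθV V θ φ)) ∧
    Tendsto (fun s => c.Dφ (c.pol s V) θ φ) atTop (𝓝 (c.DφV V θ φ)) := by
  obtain ⟨u, hu, hb⟩ := c.ss_bound hV
  refine ⟨∑' k, u k, fun θ φ => ?_⟩
  simp only [Cl.pol, c.Dθ_sum, c.Dφ_sum]
  exact ⟨fun s => ⟨ss_partial hu (fun k => ((hb k θ).2.2.2 φ).1) s,
    ss_partial hu (fun k => ((hb k θ).2.2.2 φ).2) s⟩,
    (hu.of_norm_bounded fun k => ((hb k θ).2.2.2 φ).1).hasSum,
    (hu.of_norm_bounded fun k => ((hb k θ).2.2.2 φ).2).hasSum⟩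

theorem Cl.ss_DθV (hV : c.Decay V) {m₀ : ℕ} (h0 : ∀ k : c.J, m₀ < k.1.1.natAbs → V k = 0)
    (θ φ : ℝ) : c.DθV V θ φ =
      ∑ μ ∈ Finset.Icc (-(m₀ : ℤ)) m₀, deriv (c.comp V μ) θ * trig μ φ := by
  have := ss_group (fun k : c.J => k.1.1) (fun k => V k / √(c.base.lam k) * deriv (c.prof k) θ)
    (fun μ => trig μ φ) (fun μ => deriv (c.comp V μ) θ) m₀
    (fun k hk => by rw [h0 k hk, zero_div, zero_mul]) fun μ => ((c.ss_comp hV μ).2 θ).2.1
  rw [← this.tsum_eq, Cl.DθV]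
  simp only [c.ss_Dθ_ek, mul_assoc]

theorem Cl.contDiff_comp (hV : c.Decay V) (μ : ℤ) : ContDiff ℝ 2 (c.comp V μ) :=
  (c.ss_comp hV μ).1

theorem Cl.hasSum_deriv_comp (hV : c.Decay V) (μ : ℤ) (θ : ℝ) :
    HasSum (fun k : c.J => if k.1.1 = μ then V k / √(c.base.lam k) * c.prof k θ else 0)
      (c.comp V μ θ) ∧
    HasSum (fun k : c.J => if k.1.1 = μ then V k / √(c.base.lam k) * deriv (c.prof k) θ else 0)
      (deriv (c.comp V μ) θ) ∧
    HasSum (fun k : c.J => if k.1.1 = μ then V k / √(c.base.lam k) * deriv (deriv (c.prof k)) θ else 0)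
      (deriv (deriv (c.comp V μ)) θ) :=
  (c.ss_comp hV μ).2 θ

theorem Cl.contDiff_Ys (hV : c.Decay V) (μ : ℤ) : ContDiff ℝ 2 (c.Ys V μ) := by
  have h : ∀ ν, ContDiff ℝ 2 fun θ => (c.comp V ν θ : ℂ) := fun ν =>
    Complex.ofRealCLM.contDiff.comp (c.contDiff_comp hV ν)
  unfold Cl.Ys
  split_ifs
  · exact h 0
  · exact ((h _).sub (contDiff_const.mul (h _))).div_const 2

theorem Cl.continuous_DV (hV : c.Decay V) : (Continuous fun p : ℝ × ℝ => c.DθV V p.1 p.2) ∧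
    Continuous fun p : ℝ × ℝ => c.DφV V p.1 p.2 := by
  obtain ⟨u, hu, hb⟩ := c.ss_bound hV
  exact ⟨continuous_tsum (fun k => continuous_const.mul (c.contDiff_Dθ _).continuous) hu
      fun k p => ((hb k p.1).2.2.2 p.2).1,
    continuous_tsum (fun k => continuous_const.mul (c.contDiff_Dφ _).continuous) hu
      fun k p => ((hb k p.1).2.2.2 p.2).2⟩

theorem Cl.inner_Aop_eq (hV : c.Decay V) (hW : c.Decay W) (t : T3) : ⟪c.Aop t V, W⟫_ℝ =
    sint r n fun θ φ => mq r t θ φ (c.DθV V θ φ) (c.DφV V θ φ) (c.DθV W θ φ) (c.DφV W θ φ) := by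
  obtain ⟨M, hM⟩ := c.ss_pol hV
  obtain ⟨M', hM'⟩ := c.ss_pol hW
  refine tendsto_nhds_unique (c.inner_Aop_tendsto t V W) ?_
  have c1 := (contDiff_evalpt (r := r) (uU r * t.1)).continuous
  have c2 := (contDiff_evalpt (r := r) t.2.1).continuous
  have c3 := (contDiff_evalpt (r := r) (uU r * t.2.2)).continuous
  have c4 : Continuous (sgm r) := by
    unfold sgm vp
    split_ifs <;> fun_prop
  refine ss_sint_tendsto (G := fun θ φ => |eval (pt r θ φ) (uU r * t.1)| * (M * M') +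
    |sgm r θ * eval (pt r θ φ) t.2.1| * (M * M' + M * M') +
      |eval (pt r θ φ) (uU r * t.2.2)| * (M * M')) (fun s => ?_) (by fun_prop) (fun s θ φ => ?_)
    fun θ φ => ?_
  · have d1 := (c.contDiff_Dθ (c.pol s V)).continuous
    have d2 := (c.contDiff_Dφ (c.pol s V)).continuous
    have d3 := (c.contDiff_Dθ (c.pol s W)).continuous
    have d4 := (c.contDiff_Dφ (c.pol s W)).continuous
    unfold mq
    exact ((c1.mul (d1.mul d3)).sub (((c4.comp continuous_fst).mul c2).mul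
      ((d1.mul d4).add (d2.mul d3)))).add (c3.mul (d2.mul d4))
  · obtain ⟨a1, a2⟩ := (hM θ φ).1 s
    obtain ⟨a3, a4⟩ := (hM' θ φ).1 s
    have key : ∀ x y : ℝ, |x| ≤ M → |y| ≤ M' → |x * y| ≤ M * M' := fun x y hx hy => by
      rw [abs_mul]; exact mul_le_mul hx hy (abs_nonneg _) ((abs_nonneg _).trans hx)
    unfold mq
    refine (abs_add_le _ _).trans (add_le_add ((abs_sub _ _).trans (add_le_add ?_ ?_)) ?_)
    · rw [abs_mul]; exact mul_le_mul_of_nonneg_left (key _ _ a1 a3) (abs_nonneg _)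
    · rw [abs_mul]
      exact mul_le_mul_of_nonneg_left ((abs_add_le _ _).trans
        (add_le_add (key _ _ a1 a4) (key _ _ a2 a3))) (abs_nonneg _)
    · rw [abs_mul]; exact mul_le_mul_of_nonneg_left (key _ _ a2 a4) (abs_nonneg _)
  · obtain ⟨-, a1, a2⟩ := hM θ φ
    obtain ⟨-, a3, a4⟩ := hM' θ φ
    unfold mq
    exact (((a1.mul a3).const_mul _).sub (((a1.mul a4).add (a2.mul a3)).const_mul _)).add
      ((a2.mul a4).const_mul _)

theorem Cl.energy_DV (hV : c.Decay V) :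
    sint r n (fun θ φ => c.DθV V θ φ ^ 2 + c.DφV V θ φ ^ 2) ≤ ‖V‖ ^ 2 := by
  obtain ⟨M, hM⟩ := c.ss_pol hV
  have h := ss_sint_tendsto (r := r) (n := n) (l := atTop)
    (f := fun s θ φ => c.Dθ (c.pol s V) θ φ ^ 2 + c.Dφ (c.pol s V) θ φ ^ 2)
    (g := fun θ φ => c.DθV V θ φ ^ 2 + c.DφV V θ φ ^ 2) (G := fun _ _ => M ^ 2 + M ^ 2)
    (fun s => ((c.contDiff_Dθ _).continuous.pow 2).add ((c.contDiff_Dφ _).continuous.pow 2))
    continuous_const (fun s θ φ => by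
      obtain ⟨a1, a2⟩ := (hM θ φ).1 s
      rw [abs_of_nonneg (by positivity)]
      exact add_le_add (sq_le_sq' (abs_le.1 a1).1 (abs_le.1 a1).2)
        (sq_le_sq' (abs_le.1 a2).1 (abs_le.1 a2).2))
    fun θ φ => ((hM θ φ).2.1.pow 2).add ((hM θ φ).2.2.pow 2)
  refine le_of_tendsto' h fun s => (c.energy_le s V).trans ?_
  have := lp.sum_rpow_le_norm_rpow (p := 2) (by norm_num) V s
  simpa using this

theorem Cl.DV_eq (hV : c.Decay V) {m₀ : ℕ} (h0 : ∀ k : c.J, m₀ < k.1.1.natAbs → V k = 0) (θ φ : ℝ) :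
    (c.DθV V θ φ : ℂ) = ∑ μ ∈ Finset.Icc (-(m₀ : ℤ)) m₀,
      deriv (c.Ys V μ) θ * Complex.exp (Complex.I * μ * φ) ∧
    ((sin θ * c.DφV V θ φ : ℝ) : ℂ) = ∑ μ ∈ Finset.Icc (-(m₀ : ℤ)) m₀,
      Complex.I * μ * c.Ys V μ θ * Complex.exp (Complex.I * μ * φ) := by
  refine ⟨?_, ?_⟩
  · rw [c.ss_DθV hV h0, ss_fourier]
    simp only [c.ss_deriv_Ys hV]
  · have := ss_group (fun k : c.J => k.1.1) (fun k => V k / √(c.base.lam k) * c.prof k θ)
      (fun μ => deriv (trig μ) φ) (fun μ => c.comp V μ θ) m₀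
      (fun k hk => by rw [h0 k hk, zero_div, zero_mul]) fun μ => ((c.ss_comp hV μ).2 θ).1
    have e : sin θ * c.DφV V θ φ =
        ∑ μ ∈ Finset.Icc (-(m₀ : ℤ)) m₀, c.comp V μ θ * deriv (trig μ) φ := by
      rw [← this.tsum_eq, Cl.DφV, ← tsum_mul_left]
      refine tsum_congr fun k => ?_
      rw [mul_assoc, ← c.ss_Dφ_ek]
      ring
    rw [e, ss_fourier']
    simp only [c.ss_Ys]

theorem Cl.mass_eq (hV : c.Decay V) {m₀ : ℕ} (h0 : ∀ k : c.J, m₀ < k.1.1.natAbs → V k = 0) :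
    c.base.mass V V = 2 * π * ∑ μ ∈ Finset.Icc (-(m₀ : ℤ)) m₀,
      ∫ θ in (0 : ℝ)..π / r, ‖c.Ys V μ θ‖ ^ 2 * w0 n θ := by
  classical
  obtain ⟨u, hu, hb⟩ := c.ss_bound hV
  simp only [c.ss_Ys]
  rw [← ss_sint_sq (c.comp V) (fun μ => (c.contDiff_comp hV μ).continuous)]
  have hfn : ∀ k, Continuous fun p : ℝ × ℝ => c.fn (c.ek k) p.1 p.2 := fun k =>
    (c.contDiff_fn _).continuous
  have h := ss_sint_tendsto (r := r) (n := n) (l := atTop)
    (f := fun (s : Finset c.J) θ φ => (∑ k ∈ s, V k / √(c.base.lam k) * c.fn (c.ek k) θ φ) ^ 2)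
    (g := fun θ φ => (∑ μ ∈ Finset.Icc (-(m₀ : ℤ)) m₀, c.comp V μ θ * trig μ φ) ^ 2)
    (G := fun _ _ => (∑' k, u k) ^ 2)
    (fun s => (continuous_finsetSum _ fun k _ => continuous_const.mul (hfn k)).pow 2)
    continuous_const (fun s θ φ => by
      have a1 := ss_partial (y := fun k => V k / √(c.base.lam k) * c.fn (c.ek k) θ φ) hu
        (fun k => by
          rw [c.fn_ek, ← mul_assoc, abs_mul]
          exact (mul_le_of_le_one_right (abs_nonneg _) (sup_trig _ _).1).trans (hb k θ).1) s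
      rw [abs_of_nonneg (by positivity)]
      exact sq_le_sq' (abs_le.1 a1).1 (abs_le.1 a1).2)
    fun θ φ => by
      have := ss_group (fun k : c.J => k.1.1) (fun k => V k / √(c.base.lam k) * c.prof k θ)
        (fun μ => trig μ φ) (fun μ => c.comp V μ θ) m₀
        (fun k hk => by rw [h0 k hk, zero_div, zero_mul]) fun μ => ((c.ss_comp hV μ).2 θ).1
      simp only [c.fn_ek, ← mul_assoc]
      exact Tendsto.pow this 2
  refine tendsto_nhds_unique ?_ h
  have e : ∀ s : Finset c.J,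
      sint r n (fun θ φ => (∑ k ∈ s, V k / √(c.base.lam k) * c.fn (c.ek k) θ φ) ^ 2) =
        ∑ k ∈ s, ⟪c.base.K V k, V k⟫_ℝ := fun s => by
    have e1 : ∀ θ φ, (∑ k ∈ s, V k / √(c.base.lam k) * c.fn (c.ek k) θ φ) ^ 2 =
        ∑ q ∈ s ×ˢ s, (V q.1 / √(c.base.lam q.1) * (V q.2 / √(c.base.lam q.2))) *
          (c.fn (c.ek q.1) θ φ * c.fn (c.ek q.2) θ φ) := fun θ φ => by
      rw [sq, Finset.sum_mul_sum, Finset.sum_product]
      exact Finset.sum_congr rfl fun _ _ => Finset.sum_congr rfl fun _ _ => by ring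
    simp only [e1]
    rw [sint_sum (s ×ˢ s) _ (fun q θ φ => c.fn (c.ek q.1) θ φ * c.fn (c.ek q.2) θ φ)
      fun q => (hfn _).mul (hfn _), Finset.sum_product]
    refine Finset.sum_congr rfl fun k hk => ?_
    have e2 : ∀ k₁, sint r n (fun θ φ => c.fn (c.ek k) θ φ * c.fn (c.ek k₁) θ φ) =
      if k = k₁ then 1 else 0 := fun k₁ => c.ip_ek k k₁
    simp only [e2, mul_ite, mul_zero, mul_one]
    rw [Finset.sum_ite_eq, if_pos hk, Base.K_apply, div_mul_div_comm,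
      Real.mul_self_sqrt (by linarith [c.base.two_le_lam k])]
    simp only [RCLike.inner_apply, conj_trivial]
    ring
  simp only [e]
  exact lp.hasSum_inner (c.base.K V) V

theorem Cl.energy_Ys (hV : c.Decay V) {m₀ : ℕ} (h0 : ∀ k : c.J, m₀ < k.1.1.natAbs → V k = 0) :
    2 * π * ∑ μ ∈ Finset.Icc (-(m₀ : ℤ)) m₀,
      ∫ θ in (0 : ℝ)..π / r, ‖deriv (c.Ys V μ) θ‖ ^ 2 * w0 n θ ≤ ‖V‖ ^ 2 := by
  simp only [c.ss_deriv_Ys hV]
  rw [← ss_sint_sq (fun μ => deriv (c.comp V μ))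
    (fun μ => (c.contDiff_comp hV μ).continuous_deriv (by norm_num))]
  simp only [← c.ss_DθV hV h0]
  obtain ⟨h1, h2⟩ := c.continuous_DV hV
  exact (c.sint_mono (h1.pow 2) ((h1.pow 2).add (h2.pow 2)) fun θ _ φ =>
    le_add_of_nonneg_right (sq_nonneg _)).trans (c.energy_DV hV)

end Crest.Agent.R202
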