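import Crest.Agent.R202.CDefs

/-!
# Calculus on the surface (task F1a)

Chain rule for `eval (pt r θ φ) g` (induction on `g`).  The adjoint formulas are integrations by parts: with `W = cos^{2j} w0`,
`(W ϖ sin)' = W (2τ - (r-1)(2j+n-2) S)` and `W ϖ sin` vanishes at both ends; Fubini for continuous functions on a rectangle.
-/

set_option autoImplicit false

noncomputable section

open scoped InnerProductSpace ContDiff
open Set Filter Topology
open MvPolynomial Real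

namespace Crest.Agent.R202

variable {r n : ℕ} (c : Cl r n)

theorem surf_chain {p : ℝ → Fin 3 → ℝ} {p' : Fin 3 → ℝ} {x : ℝ}
    (hp : ∀ i, HasDerivAt (fun s => p s i) (p' i) x) (g : P3) :
    HasDerivAt (fun s => eval (p s) g) (eval (p x) (pderiv 0 g) * p' 0 +
      eval (p x) (pderiv 1 g) * p' 1 + eval (p x) (pderiv 2 g) * p' 2) x := by
  induction g using MvPolynomial.induction_on with
  | C a => simpa using hasDerivAt_const x a
  | add f g hf hg =>
    simp only [map_add]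
    exact (hf.add hg).congr_deriv (by ring)
  | mul_X f i hf =>
    simp only [map_mul, eval_X]
    refine (hf.mul (hp i)).congr_deriv ?_
    fin_cases i <;> simp [Derivation.leibniz, pderiv_X] <;> ring

theorem surf_pt0 (θ φ : ℝ) : pt r θ φ 0 = sin θ * cos φ := rfl
theorem surf_pt1 (θ φ : ℝ) : pt r θ φ 1 = sin θ * sin φ := rfl
theorem surf_pt2 (θ φ : ℝ) : pt r θ φ 2 = cos θ ^ r := rfl

theorem contDiff_evalpt (g : P3) : ContDiff ℝ ∞ fun p : ℝ × ℝ => eval (pt r p.1 p.2) g := by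
  induction g using MvPolynomial.induction_on with
  | C a => simpa using contDiff_const
  | add p q hp hq => simpa using hp.add hq
  | mul_X p i hp =>
    simp only [map_mul, eval_X]
    refine hp.mul ?_
    fin_cases i <;> simp only [pt] <;> simp <;> fun_prop

theorem surf_cont_evalpt (g : P3) : Continuous fun p : ℝ × ℝ => eval (pt r p.1 p.2) g :=
  (contDiff_evalpt g).continuous

theorem surf_zeta (m : ℕ) (θ φ : ℝ) :
    eval (pt r θ φ) (zeta m).1 = sin θ ^ m * cos (m * φ) ∧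
      eval (pt r θ φ) (zeta m).2 = sin θ ^ m * sin (m * φ) := by
  induction m with
  | zero => simp [zeta]
  | succ m ih =>
    have e : ((m + 1 : ℕ) : ℝ) * φ = m * φ + φ := by push_cast; ring
    simp only [zeta, map_sub, map_add, map_mul, eval_X, ih.1, ih.2, surf_pt0, surf_pt1, e,
      cos_add, sin_add]
    constructor <;> ring

theorem eval_zt (μ : ℤ) (θ φ : ℝ) : eval (pt r θ φ) (zt μ) = sin θ ^ μ.natAbs * trig μ φ := by
  unfold zt trig
  split_ifs
  · exact (surf_zeta _ θ φ).1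
  · exact (surf_zeta _ θ φ).2

include c in
theorem Cl.eval_sS (θ φ : ℝ) : eval (pt r θ φ) (sS r) = sin θ ^ 2 := by
  rcases c.ok with ⟨h, -⟩ | ⟨h, -⟩ <;> subst h <;> simp [sS, surf_pt2, sin_sq]

include c in
theorem Cl.eval_vV (θ φ : ℝ) : eval (pt r θ φ) (vV r) = vp r θ ^ 2 := by
  rcases c.ok with ⟨h, -⟩ | ⟨h, -⟩ <;> subst h <;> simp [vV, vp, surf_pt2]

include c in
theorem Cl.w0_nonneg {θ : ℝ} (h : θ ∈ Icc 0 (π / r)) : 0 ≤ w0 n θ := by
  unfold w0
  rcases c.ok with ⟨h1, h2, -⟩ | ⟨h1, -⟩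
  · subst h1 h2
    simp only [Nat.cast_one, div_one] at h
    simpa using sin_nonneg_of_mem_Icc h
  · subst h1
    have h2 : θ ≤ π / 2 := by simpa using h.2
    have h3 := pi_pos
    exact mul_nonneg (sin_nonneg_of_mem_Icc ⟨h.1, by linarith⟩)
      (pow_nonneg (cos_nonneg_of_mem_Icc ⟨by linarith [h.1], h2⟩) _)

include c in
theorem Cl.w0_pos {θ : ℝ} (h : θ ∈ Ioo 0 (π / r)) : 0 < w0 n θ := by
  unfold w0
  rcases c.ok with ⟨h1, h2, -⟩ | ⟨h1, -⟩
  · subst h1 h2
    simp only [Nat.cast_one, div_one] at h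
    simpa using sin_pos_of_mem_Ioo h
  · subst h1
    have h2 : θ < π / 2 := by simpa using h.2
    have h3 := pi_pos
    exact mul_pos (sin_pos_of_mem_Ioo ⟨h.1, by linarith⟩)
      (pow_pos (cos_pos_of_mem_Ioo ⟨by linarith [h.1], h2⟩) _)

theorem Cl.contDiff_fn (g : P3) : ContDiff ℝ ∞ fun p : ℝ × ℝ => c.fn g p.1 p.2 := by
  unfold Cl.fn
  exact ContDiff.mul (by fun_prop) (contDiff_evalpt g)

theorem Cl.surf_hasDerivAt_θ (g : P3) (θ φ : ℝ) :
    HasDerivAt (fun s => c.fn g s φ)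
      ((c.j : ℝ) * cos θ ^ (c.j - 1) * -sin θ * eval (pt r θ φ) g + cos θ ^ c.j *
        (eval (pt r θ φ) (pderiv 0 g) * (cos θ * cos φ) +
          eval (pt r θ φ) (pderiv 1 g) * (cos θ * sin φ) +
          eval (pt r θ φ) (pderiv 2 g) * ((r : ℝ) * cos θ ^ (r - 1) * -sin θ))) θ := by
  have h := surf_chain (p := fun s => pt r s φ)
    (p' := ![cos θ * cos φ, cos θ * sin φ, (r : ℝ) * cos θ ^ (r - 1) * -sin θ]) (x := θ)
    (fun i => by
      fin_cases i
      · exact (hasDerivAt_sin θ).mul_const _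
      · exact (hasDerivAt_sin θ).mul_const _
      · exact (hasDerivAt_cos θ).fun_pow r) g
  exact ((hasDerivAt_cos θ).fun_pow c.j).mul h

theorem Cl.surf_Dθ (g : P3) (θ φ : ℝ) : c.Dθ g θ φ =
    (c.j : ℝ) * cos θ ^ (c.j - 1) * -sin θ * eval (pt r θ φ) g + cos θ ^ c.j *
      (eval (pt r θ φ) (pderiv 0 g) * (cos θ * cos φ) +
        eval (pt r θ φ) (pderiv 1 g) * (cos θ * sin φ) +
        eval (pt r θ φ) (pderiv 2 g) * ((r : ℝ) * cos θ ^ (r - 1) * -sin θ)) :=
  (c.surf_hasDerivAt_θ g θ φ).deriv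

theorem Cl.surf_hasDerivAt_fn_θ (g : P3) (θ φ : ℝ) :
    HasDerivAt (fun s => c.fn g s φ) (c.Dθ g θ φ) θ := by
  rw [c.surf_Dθ]
  exact c.surf_hasDerivAt_θ g θ φ

theorem Cl.contDiff_Dθ (g : P3) : ContDiff ℝ ∞ fun p : ℝ × ℝ => c.Dθ g p.1 p.2 := by
  simp only [c.surf_Dθ]
  have h0 := contDiff_evalpt (r := r) (pderiv 0 g)
  have h1 := contDiff_evalpt (r := r) (pderiv 1 g)
  have h2 := contDiff_evalpt (r := r) (pderiv 2 g)
  have h3 := contDiff_evalpt (r := r) g
  exact (ContDiff.mul (by fun_prop) h3).add (ContDiff.mul (by fun_prop)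
    (((h0.mul (by fun_prop)).add (h1.mul (by fun_prop))).add (h2.mul (by fun_prop))))

theorem Cl.contDiff_Dφ (g : P3) : ContDiff ℝ ∞ fun p : ℝ × ℝ => c.Dφ g p.1 p.2 := by
  unfold Cl.Dφ
  have h0 := contDiff_evalpt (r := r) (pderiv 0 g)
  have h1 := contDiff_evalpt (r := r) (pderiv 1 g)
  exact ContDiff.mul (by fun_prop)
    ((ContDiff.mul (by fun_prop) h0).add (ContDiff.mul (by fun_prop) h1))

theorem Cl.contDiff_prof (k : c.J) : ContDiff ℝ ∞ (c.prof k) := by
  unfold Cl.prof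
  have h := (contDiff_evalpt (r := r) (c.rad k.1.1.natAbs k.1.2)).comp
    (f := fun θ : ℝ => (θ, (0 : ℝ))) (by fun_prop)
  exact contDiff_const.mul (ContDiff.mul (by fun_prop) h)

theorem Cl.fn_ek (k : c.J) (θ φ : ℝ) : c.fn (c.ek k) θ φ = c.prof k θ * trig k.1.1 φ := by
  have h : eval (pt r θ φ) (c.rad k.1.1.natAbs k.1.2) =
      eval (pt r θ 0) (c.rad k.1.1.natAbs k.1.2) := by
    simp only [Cl.rad, map_sum, map_mul, eval_C, map_pow, eval_X, surf_pt2]
  simp only [Cl.fn, Cl.ek, Cl.gk, Cl.prof, map_mul, eval_C, eval_zt, h]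
  ring

theorem Cl.hasDerivAt_fn_φ (g : P3) (θ φ : ℝ) :
    HasDerivAt (fun s => c.fn g θ s) (c.fn (Phi g) θ φ) φ := by
  have h := surf_chain (p := fun s => pt r θ s)
    (p' := ![sin θ * -sin φ, sin θ * cos φ, 0]) (x := φ)
    (fun i => by
      fin_cases i
      · exact (hasDerivAt_cos φ).const_mul _
      · exact (hasDerivAt_sin φ).const_mul _
      · exact hasDerivAt_const φ (cos θ ^ r)) g
  refine (h.const_mul (cos θ ^ c.j)).congr_deriv ?_
  simp only [Cl.fn, Phi, map_add, map_mul, map_neg, eval_X, surf_pt0, surf_pt1]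
  simp
  ring_nf
  simp

theorem Cl.fn_Phi (g : P3) (θ φ : ℝ) : c.fn (Phi g) θ φ = sin θ * c.Dφ g θ φ := by
  simp only [Cl.fn, Cl.Dφ, Phi, map_add, map_mul, map_neg, eval_X, surf_pt0, surf_pt1]
  ring

theorem Cl.fn_Zj (g : P3) (θ φ : ℝ) :
    c.fn (c.Zj g) θ φ = -(vp r θ * sin θ) * c.Dθ g θ φ := by
  rw [c.surf_Dθ]
  simp only [Cl.fn, Cl.Zj, Zd, uU, map_add, map_sub, map_mul, map_neg, eval_X, eval_C, surf_pt0,
    surf_pt1, surf_pt2, c.eval_sS, c.eval_vV]
  rcases c.ok with ⟨h1, -, h2⟩ | ⟨h1, -, h2⟩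
  · subst h1
    simp only [h2, vp, if_true]
    push_cast
    ring
  · subst h1
    obtain ⟨j, hj⟩ := Nat.exists_eq_add_of_le' h2
    simp only [hj, vp, Nat.add_sub_cancel, show (2 : ℕ) ≠ 1 by decide, if_false]
    push_cast
    ring

theorem Cl.Dθ_sum {I : Type} (s : Finset I) (a : I → ℝ) (g : I → P3) (θ φ : ℝ) :
    c.Dθ (∑ i ∈ s, C (a i) * g i) θ φ = ∑ i ∈ s, a i * c.Dθ (g i) θ φ := by
  simp only [c.surf_Dθ, map_sum, map_mul, eval_C, pderiv_C_mul, Finset.mul_sum, Finset.sum_mul,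
    ← Finset.sum_add_distrib]
  exact Finset.sum_congr rfl fun i _ => by ring

theorem Cl.Dφ_sum {I : Type} (s : Finset I) (a : I → ℝ) (g : I → P3) (θ φ : ℝ) :
    c.Dφ (∑ i ∈ s, C (a i) * g i) θ φ = ∑ i ∈ s, a i * c.Dφ (g i) θ φ := by
  simp only [Cl.Dφ, map_sum, map_mul, eval_C, pderiv_C_mul, Finset.mul_sum,
    ← Finset.sum_add_distrib]
  exact Finset.sum_congr rfl fun i _ => by ring

theorem surf_cont_w0 : Continuous (w0 n) := by
  unfold w0
  fun_prop

theorem surf_cont_sec {f : ℝ → ℝ → ℝ} (hf : Continuous fun p : ℝ × ℝ => f p.1 p.2) (θ : ℝ) :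
    Continuous (f θ) :=
  hf.comp (f := fun φ : ℝ => (θ, φ)) (by fun_prop)

theorem surf_cont_inner {f : ℝ → ℝ → ℝ} (hf : Continuous fun p : ℝ × ℝ => f p.1 p.2) :
    Continuous fun θ => (∫ φ in (0 : ℝ)..2 * π, f θ φ) * w0 n θ :=
  (intervalIntegral.continuous_parametric_intervalIntegral_of_continuous' (f := f) hf _ _).mul
    surf_cont_w0

theorem surf_sint_add {f g : ℝ → ℝ → ℝ} (hf : Continuous fun p : ℝ × ℝ => f p.1 p.2)
    (hg : Continuous fun p : ℝ × ℝ => g p.1 p.2) :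
    sint r n (fun θ φ => f θ φ + g θ φ) = sint r n f + sint r n g := by
  unfold sint
  rw [← intervalIntegral.integral_add ((surf_cont_inner hf).intervalIntegrable _ _)
    ((surf_cont_inner hg).intervalIntegrable _ _)]
  congr 1
  funext θ
  rw [intervalIntegral.integral_add ((surf_cont_sec hf θ).intervalIntegrable _ _)
    ((surf_cont_sec hg θ).intervalIntegrable _ _), add_mul]

theorem surf_sint_sub {f g : ℝ → ℝ → ℝ} (hf : Continuous fun p : ℝ × ℝ => f p.1 p.2)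
    (hg : Continuous fun p : ℝ × ℝ => g p.1 p.2) :
    sint r n (fun θ φ => f θ φ - g θ φ) = sint r n f - sint r n g := by
  unfold sint
  rw [← intervalIntegral.integral_sub ((surf_cont_inner hf).intervalIntegrable _ _)
    ((surf_cont_inner hg).intervalIntegrable _ _)]
  congr 1
  funext θ
  rw [intervalIntegral.integral_sub ((surf_cont_sec hf θ).intervalIntegrable _ _)
    ((surf_cont_sec hg θ).intervalIntegrable _ _), sub_mul]

/-- Fubini -/
theorem surf_sint_swap {f : ℝ → ℝ → ℝ} (hf : Continuous fun p : ℝ × ℝ => f p.1 p.2) :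
    sint r n f = ∫ φ in (0 : ℝ)..2 * π, ∫ θ in (0 : ℝ)..π / r, f θ φ * w0 n θ := by
  unfold sint
  simp only [← intervalIntegral.integral_mul_const]
  refine MeasureTheory.intervalIntegral_intervalIntegral_swap
    (F := fun θ φ => f θ φ * w0 n θ) ?_
  have hc : Continuous (Function.uncurry fun θ φ => f θ φ * w0 n θ) :=
    hf.mul (surf_cont_w0.comp continuous_fst)
  exact (hc.continuousOn.integrableOn_compact (isCompact_uIcc.prod isCompact_uIcc)).mono_set
    (prod_mono uIoc_subset_uIcc uIoc_subset_uIcc)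

theorem sint_sum {I : Type} (s : Finset I) (a : I → ℝ) (f : I → ℝ → ℝ → ℝ)
    (hf : ∀ i, Continuous fun p : ℝ × ℝ => f i p.1 p.2) :
    sint r n (fun θ φ => ∑ i ∈ s, a i * f i θ φ) = ∑ i ∈ s, a i * sint r n (f i) := by
  unfold sint
  have h1 : ∀ θ, (∫ φ in (0 : ℝ)..2 * π, ∑ i ∈ s, a i * f i θ φ) * w0 n θ =
      ∑ i ∈ s, a i * ((∫ φ in (0 : ℝ)..2 * π, f i θ φ) * w0 n θ) := fun θ => by
    rw [intervalIntegral.integral_finsetSum fun i _ =>
      ((surf_cont_sec (hf i) θ).const_mul (a i)).intervalIntegrable _ _, Finset.sum_mul]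
    refine Finset.sum_congr rfl fun i _ => ?_
    rw [intervalIntegral.integral_const_mul, mul_assoc]
  simp only [h1]
  rw [intervalIntegral.integral_finsetSum fun i _ =>
    ((surf_cont_inner (n := n) (hf i)).const_mul (a i)).intervalIntegrable _ _]
  exact Finset.sum_congr rfl fun i _ => intervalIntegral.integral_const_mul _ _

include c in
theorem Cl.sint_mono {f g : ℝ → ℝ → ℝ} (hf : Continuous fun p : ℝ × ℝ => f p.1 p.2)
    (hg : Continuous fun p : ℝ × ℝ => g p.1 p.2)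
    (h : ∀ θ ∈ Ioo 0 (π / r), ∀ φ, f θ φ ≤ g θ φ) : sint r n f ≤ sint r n g := by
  unfold sint
  have h0 : (0 : ℝ) ≤ π / r := by positivity
  refine intervalIntegral.integral_mono_on_of_le_Ioo h0 ((surf_cont_inner hf).intervalIntegrable _ _)
    ((surf_cont_inner hg).intervalIntegrable _ _) fun θ hθ => ?_
  refine mul_le_mul_of_nonneg_right ?_ (c.w0_pos hθ).le
  exact intervalIntegral.integral_mono_on (by positivity)
    ((surf_cont_sec hf θ).intervalIntegrable _ _) ((surf_cont_sec hg θ).intervalIntegrable _ _)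
    fun φ _ => h θ hθ φ

theorem Cl.surf_fn_Zs (g : P3) (θ φ : ℝ) : c.fn (c.Zs g) θ φ = -c.fn (c.Zj g) θ φ +
    (2 * cos θ ^ r - ((r : ℝ) - 1) * ((n : ℝ) - 2) * sin θ ^ 2) * c.fn g θ φ := by
  have h : ((2 : ℝ) - r) * c.j = 0 := by
    rcases c.ok with ⟨-, -, h2⟩ | ⟨h1, -⟩
    · simp [h2]
    · simp [h1]
  have e2 : eval (pt r θ φ) (2 : P3) = 2 := map_ofNat _ 2
  simp only [Cl.fn, Cl.Zj, Cl.Zs, map_add, map_sub, map_mul, map_neg, eval_X, eval_C, surf_pt2,
    c.eval_sS, e2]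
  linear_combination (cos θ ^ c.j * sin θ ^ 2 * eval (pt r θ φ) g) * h

include c in
theorem Cl.surf_weight (θ : ℝ) : HasDerivAt (fun θ => vp r θ * sin θ * w0 n θ)
    (w0 n θ * (2 * cos θ ^ r - ((r : ℝ) - 1) * ((n : ℝ) - 2) * sin θ ^ 2)) θ := by
  rcases c.ok with ⟨h1, h2, -⟩ | ⟨h1, h2, -⟩
  · subst h1 h2
    simp only [vp, w0, if_true, Nat.sub_self, pow_zero, mul_one, one_mul]
    refine ((hasDerivAt_sin θ).mul (hasDerivAt_sin θ)).congr_deriv ?_
    push_cast
    ring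
  · subst h1
    obtain ⟨m, rfl⟩ := Nat.exists_eq_add_of_le' h2
    simp only [vp, w0, show (2 : ℕ) ≠ 1 by decide, if_false, show m + 4 - 3 = m + 1 by omega]
    refine (((hasDerivAt_cos θ).mul (hasDerivAt_sin θ)).mul ((hasDerivAt_sin θ).mul
      ((hasDerivAt_cos θ).fun_pow (m + 1)))).congr_deriv ?_
    simp only [Pi.mul_apply, Nat.add_sub_cancel]
    push_cast
    ring

include c in
theorem Cl.surf_bdry : vp r (π / r) * sin (π / r) = 0 := by
  rcases c.ok with ⟨h1, -⟩ | ⟨h1, -⟩ <;> subst h1 <;> simp [vp]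

theorem Cl.ip_Zs (g h : P3) : c.ip (c.Zs g) h = c.ip g (c.Zj h) := by
  rw [← sub_eq_zero]
  unfold Cl.ip
  have cf := fun g => (c.contDiff_fn g).continuous
  rw [← surf_sint_sub ((cf _).mul (cf _)) ((cf _).mul (cf _)),
    surf_sint_swap (((cf _).mul (cf _)).sub ((cf _).mul (cf _)))]
  have h1 : ∀ φ, ∫ θ in (0 : ℝ)..π / r, (c.fn (c.Zs g) θ φ * c.fn h θ φ -
      c.fn g θ φ * c.fn (c.Zj h) θ φ) * w0 n θ = 0 := fun φ => by
    have hc : Continuous fun θ => (c.fn (c.Zs g) θ φ * c.fn h θ φ -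
        c.fn g θ φ * c.fn (c.Zj h) θ φ) * w0 n θ :=
      ((((cf _).mul (cf _)).sub ((cf _).mul (cf _))).comp (f := fun θ : ℝ => (θ, φ))
        (by fun_prop)).mul surf_cont_w0
    rw [intervalIntegral.integral_eq_sub_of_hasDerivAt
      (f := fun θ => vp r θ * sin θ * w0 n θ * (c.fn g θ φ * c.fn h θ φ)) (fun θ _ => ?_)
      (hc.intervalIntegrable _ _)]
    · rw [c.surf_bdry]
      simp
    · refine ((c.surf_weight θ).mul
        ((c.surf_hasDerivAt_fn_θ g θ φ).mul (c.surf_hasDerivAt_fn_θ h θ φ))).congr_deriv ?_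
      rw [c.surf_fn_Zs, c.fn_Zj, c.fn_Zj]
      simp only [Pi.mul_apply]
      ring
  simp only [h1, intervalIntegral.integral_zero]

theorem Cl.ip_Phi (g h : P3) : c.ip (Phi g) h = -c.ip g (Phi h) := by
  unfold Cl.ip sint
  rw [← intervalIntegral.integral_neg]
  congr 1
  funext θ
  have cf := fun g => surf_cont_sec (c.contDiff_fn g).continuous θ
  have h1 := intervalIntegral.integral_eq_sub_of_hasDerivAt (a := 0) (b := 2 * π)
    (f := fun φ => c.fn g θ φ * c.fn h θ φ)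
    (f' := fun φ => c.fn (Phi g) θ φ * c.fn h θ φ + c.fn g θ φ * c.fn (Phi h) θ φ)
    (fun φ _ => (c.hasDerivAt_fn_φ g θ φ).mul (c.hasDerivAt_fn_φ h θ φ))
    ((((cf _).mul (cf _)).add ((cf _).mul (cf _))).intervalIntegrable _ _)
  have h2 : pt r θ (2 * π) = pt r θ 0 := by simp [pt]
  rw [intervalIntegral.integral_add (((cf _).fun_mul (cf _)).intervalIntegrable _ _)
    (((cf _).fun_mul (cf _)).intervalIntegrable _ _)] at h1
  have h3 : c.fn g θ (2 * π) * c.fn h θ (2 * π) - c.fn g θ 0 * c.fn h θ 0 = 0 := by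
    simp only [Cl.fn, h2, sub_self]
  rw [h3] at h1
  rw [eq_neg_of_add_eq_zero_left h1, neg_mul]

theorem Cl.surf_fn_add (g h : P3) (θ φ : ℝ) : c.fn (g + h) θ φ = c.fn g θ φ + c.fn h θ φ := by
  simp only [Cl.fn, map_add]
  ring

theorem Cl.surf_fn_sub (g h : P3) (θ φ : ℝ) : c.fn (g - h) θ φ = c.fn g θ φ - c.fn h θ φ := by
  simp only [Cl.fn, map_sub]
  ring

theorem Cl.surf_fn_mul (g h : P3) (θ φ : ℝ) :
    c.fn (g * h) θ φ = eval (pt r θ φ) g * c.fn h θ φ := by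
  simp only [Cl.fn, map_mul]
  ring

theorem Cl.surf_ip_sub_left (g g₁ h : P3) : c.ip (g - g₁) h = c.ip g h - c.ip g₁ h := by
  have cf := fun g => (c.contDiff_fn g).continuous
  unfold Cl.ip
  rw [← surf_sint_sub ((cf _).mul (cf _)) ((cf _).mul (cf _))]
  congr 1
  funext θ φ
  rw [c.surf_fn_sub, sub_mul]

theorem Cl.ip_Apol (t : T3) (g h : P3) : c.ip (c.Apol t g) h = c.form t g h := by
  have cf := fun g => (c.contDiff_fn g).continuous
  unfold Cl.Apol
  rw [c.surf_ip_sub_left, c.ip_Zs, c.ip_Phi, sub_neg_eq_add]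
  unfold Cl.ip Cl.form
  rw [← surf_sint_add ((cf _).mul (cf _)) ((cf _).mul (cf _))]
  congr 1
  funext θ φ
  simp only [c.surf_fn_add, c.surf_fn_mul, c.fn_Zj, c.fn_Phi, mq, uU, sgm, map_mul, c.eval_sS,
    c.eval_vV]
  ring

theorem Cl.form_symm (t : T3) (g h : P3) : c.form t g h = c.form t h g := by
  unfold Cl.form
  congr 1
  funext θ φ
  unfold mq
  ring

theorem surf_cont_sgm : Continuous (sgm r) := by
  unfold sgm vp
  split_ifs <;> fun_prop

theorem Cl.surf_cont_mq (t : T3) (g h : P3) : Continuous fun p : ℝ × ℝ =>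
    mq r t p.1 p.2 (c.Dθ g p.1 p.2) (c.Dφ g p.1 p.2) (c.Dθ h p.1 p.2) (c.Dφ h p.1 p.2) := by
  unfold mq
  have a1 := (c.contDiff_Dθ g).continuous
  have a2 := (c.contDiff_Dθ h).continuous
  have b1 := (c.contDiff_Dφ g).continuous
  have b2 := (c.contDiff_Dφ h).continuous
  exact (((surf_cont_evalpt _).mul (a1.mul a2)).sub (((surf_cont_sgm.comp continuous_fst).mul
    (surf_cont_evalpt _)).mul ((a1.mul b2).add (b1.mul a2)))).add
    ((surf_cont_evalpt _).mul (b1.mul b2))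

theorem Cl.form_sum (t : T3) {I : Type} (s s₁ : Finset I) (a a₁ : I → ℝ) (g g₁ : I → P3) :
    c.form t (∑ i ∈ s, C (a i) * g i) (∑ i ∈ s₁, C (a₁ i) * g₁ i) =
      ∑ i ∈ s, ∑ i₁ ∈ s₁, a i * a₁ i₁ * c.form t (g i) (g₁ i₁) := by
  unfold Cl.form
  rw [← Finset.sum_product', ← sint_sum (s ×ˢ s₁) (fun x => a x.1 * a₁ x.2)
    (fun x θ φ => mq r t θ φ (c.Dθ (g x.1) θ φ) (c.Dφ (g x.1) θ φ) (c.Dθ (g₁ x.2) θ φ)
      (c.Dφ (g₁ x.2) θ φ)) fun x => c.surf_cont_mq t _ _]
  congr 1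
  funext θ φ
  rw [c.Dθ_sum, c.Dθ_sum, c.Dφ_sum, c.Dφ_sum, Finset.sum_product]
  simp only [mq, Finset.sum_mul_sum, ← Finset.sum_add_distrib]
  simp only [Finset.mul_sum, ← Finset.sum_add_distrib, ← Finset.sum_sub_distrib]
  exact Finset.sum_congr rfl fun i _ => Finset.sum_congr rfl fun i₁ _ => by ring

theorem Fil.mono {D D₁ : ℕ} {g : P3} (h : Fil r D g) (hD : D ≤ D₁) : Fil r D₁ g := by
  exact fun s hs => (h s hs).trans hD

theorem Fil.add {D : ℕ} {g h : P3} (hg : Fil r D g) (hh : Fil r D h) : Fil r D (g + h) := by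
  intro s hs
  rcases Finset.mem_union.1 (support_add hs) with h1 | h1
  · exact hg s h1
  · exact hh s h1

theorem Fil.mul {D D₁ : ℕ} {g h : P3} (hg : Fil r D g) (hh : Fil r D₁ h) :
    Fil r (D + D₁) (g * h) := by
  intro s hs
  obtain ⟨u, hu, v, hv, rfl⟩ := Finset.mem_add.1 (support_mul g h hs)
  have h1 := hg u hu
  have h2 := hh v hv
  simp only [Finsupp.add_apply, mul_add]
  omega

theorem exists_fil (g : P3) : ∃ D, Fil r D g := by
  exact ⟨g.support.sup fun s => s 0 + s 1 + r * s 2, fun s hs =>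
    Finset.le_sup (f := fun s : Fin 3 →₀ ℕ => s 0 + s 1 + r * s 2) hs⟩

theorem Fil.surf_neg {D : ℕ} {g : P3} (hg : Fil r D g) : Fil r D (-g) := by
  intro s hs
  rw [support_neg] at hs
  exact hg s hs

theorem Fil.surf_sub {D : ℕ} {g h : P3} (hg : Fil r D g) (hh : Fil r D h) : Fil r D (g - h) := by
  rw [sub_eq_add_neg]
  exact hg.add hh.surf_neg

theorem surf_fil_C (a : ℝ) : Fil r 0 (C a : P3) := by
  intro s hs
  have : s = 0 := by
    by_contra h
    rw [mem_support_iff, coeff_C, if_neg (Ne.symm h)] at hs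
    exact hs rfl
  simp [this]

theorem surf_fil_one : Fil r 0 (1 : P3) := surf_fil_C 1

theorem surf_fil_zero (D : ℕ) : Fil r D (0 : P3) := fun s hs => by simp at hs

theorem surf_fil_X0 : Fil r 1 (X 0 : P3) := by
  intro s hs
  rw [support_X, Finset.mem_singleton] at hs
  simp [hs]

theorem surf_fil_X1 : Fil r 1 (X 1 : P3) := by
  intro s hs
  rw [support_X, Finset.mem_singleton] at hs
  simp [hs]

theorem surf_fil_X2 : Fil r r (X 2 : P3) := by
  intro s hs
  rw [support_X, Finset.mem_singleton] at hs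
  simp [hs]

theorem Fil.surf_pow {D : ℕ} {g : P3} (hg : Fil r D g) (m : ℕ) : Fil r (D * m) (g ^ m) := by
  induction m with
  | zero => simpa using surf_fil_one
  | succ m ih =>
    rw [pow_succ]
    exact (ih.mul hg).mono (by rw [mul_add, mul_one])

theorem surf_fil_sum {I : Type} {D : ℕ} (s : Finset I) (g : I → P3) (h : ∀ i ∈ s, Fil r D (g i)) :
    Fil r D (∑ i ∈ s, g i) :=
  Finset.sum_induction g (Fil r D) (fun _ _ => Fil.add) (surf_fil_zero D) h

theorem surf_fil_mul_pderiv (i : Fin 3) {a D : ℕ} {g h : P3} (hh : Fil r (a + ![1, 1, r] i) h)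
    (hg : Fil r D g) : Fil r (D + a) (h * pderiv i g) := by
  intro s hs
  obtain ⟨u, hu, v, hv, rfl⟩ := Finset.mem_add.1 (support_mul _ _ hs)
  have h1 := hh u hu
  have h2 := hg (v + Finsupp.single i 1) (by
    rw [mem_support_iff, coeff_pderiv] at hv
    exact mem_support_iff.2 (left_ne_zero_of_mul hv))
  fin_cases i <;> simp [mul_add] at h1 h2 ⊢ <;> omega

theorem surf_fil_Phi {D : ℕ} {g : P3} (hg : Fil r D g) : Fil r D (Phi g) :=
  (surf_fil_mul_pderiv 0 (a := 0) surf_fil_X1.surf_neg hg).add (surf_fil_mul_pderiv 1 (a := 0) surf_fil_X0 hg)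

include c in
theorem Cl.surf_r_le : r ≤ 2 := by rcases c.ok with h | h <;> omega

include c in
theorem Cl.surf_fil_sS : Fil r 2 (sS r) := by
  rcases c.ok with ⟨h, -⟩ | ⟨h, -⟩ <;> subst h
  · exact (surf_fil_one.mono (by omega)).surf_sub (surf_fil_X2.surf_pow 2)
  · exact (surf_fil_one.mono (by omega)).surf_sub surf_fil_X2

include c in
theorem Cl.surf_fil_vV' : Fil r (2 * r - 2) (vV r) := by
  rcases c.ok with ⟨h, -⟩ | ⟨h, -⟩ <;> subst h
  · exact surf_fil_one
  · exact surf_fil_X2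

include c in
theorem Cl.surf_fil_vV : Fil r 2 (vV r) :=
  c.surf_fil_vV'.mono (by have := c.surf_r_le; omega)

include c in
theorem Cl.surf_fil_Zd {D : ℕ} {g : P3} (hg : Fil r D g) : Fil r (D + 2) (Zd r g) := by
  have h1 := c.surf_r_le
  have h2 := c.r_pos
  refine Fil.add (Fil.surf_sub ?_ ?_) ?_
  · exact surf_fil_mul_pderiv 0 ((surf_fil_X2.surf_neg.mul surf_fil_X0).mono (by simp; omega)) hg
  · exact surf_fil_mul_pderiv 1 ((surf_fil_X2.mul surf_fil_X1).mono (by simp; omega)) hg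
  · exact surf_fil_mul_pderiv 2 (((surf_fil_C _).mul (c.surf_fil_vV'.mul c.surf_fil_sS)).mono (by simp; omega)) hg

theorem Cl.surf_fil_Zj {D : ℕ} {g : P3} (hg : Fil r D g) : Fil r (D + 2) (c.Zj g) :=
  (c.surf_fil_Zd hg).add ((((surf_fil_C _).mul c.surf_fil_sS).mul hg).mono (by omega))

theorem Cl.surf_fil_Zs {D : ℕ} {g : P3} (hg : Fil r D g) : Fil r (D + 2) (c.Zs g) := by
  have h1 := c.surf_r_le
  have h2 : Fil r 0 (2 : P3) := by
    have := surf_fil_C (r := r) 2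
    rwa [map_ofNat] at this
  have h3 : Fil r 2 (2 * X 2 - C (((r : ℝ) - 1) * ((c.j : ℝ) + n - 2)) * sS r : P3) :=
    ((h2.mul surf_fil_X2).mono (by omega)).surf_sub (((surf_fil_C _).mul c.surf_fil_sS).mono (by omega))
  exact (c.surf_fil_Zd hg).surf_neg.add ((h3.mul hg).mono (by omega))

theorem Cl.fil_Apol {a D : ℕ} {t : T3} {g : P3} (h₁ : Fil r a t.1) (h₂ : Fil r a t.2.1)
    (h₃ : Fil r a t.2.2) (hg : Fil r D g) : Fil r (D + a + 4) (c.Apol t g) := by
  have h1 : Fil r (D + a + 2) (t.1 * c.Zj g + t.2.1 * Phi g) :=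
    ((h₁.mul (c.surf_fil_Zj hg)).mono (by omega)).add ((h₂.mul (surf_fil_Phi hg)).mono (by omega))
  have h2 : Fil r (D + a + 2) (t.2.1 * c.Zj g + vV r * t.2.2 * Phi g) :=
    ((h₂.mul (c.surf_fil_Zj hg)).mono (by omega)).add
      (((c.surf_fil_vV.mul h₃).mul (surf_fil_Phi hg)).mono (by omega))
  exact (c.surf_fil_Zs h1).surf_sub ((surf_fil_Phi h2).mono (by omega))

theorem surf_fil_zeta (m : ℕ) : Fil r m (zeta m).1 ∧ Fil r m (zeta m).2 := by
  induction m with
  | zero => exact ⟨surf_fil_one, surf_fil_zero _⟩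
  | succ m ih =>
    exact ⟨((surf_fil_X0.mul ih.1).surf_sub (surf_fil_X1.mul ih.2)).mono (by omega),
      ((surf_fil_X1.mul ih.1).add (surf_fil_X0.mul ih.2)).mono (by omega)⟩

theorem Cl.fil_ek (k : c.J) : Fil r (k.1.1.natAbs + r * k.1.2) (c.ek k) := by
  have h1 : Fil r k.1.1.natAbs (zt k.1.1) := by
    unfold zt
    split_ifs
    · exact (surf_fil_zeta _).1
    · exact (surf_fil_zeta _).2
  have h2 : Fil r (r * k.1.2) (c.rad k.1.1.natAbs k.1.2) :=
    surf_fil_sum _ _ fun i _ => ((surf_fil_C _).mul (surf_fil_X2.surf_pow _)).mono (by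
      rw [zero_add]
      exact Nat.mul_le_mul_left _ (Nat.sub_le _ _))
  exact ((surf_fil_C _).mul (h1.mul h2)).mono (by omega)

end Crest.Agent.R202
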