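import Crest.Agent.R202.Flat

/-!
# Uniform controllability on a tube (task B1)

Near each `a + s b` use `exists_flat`: eigenvectors below `ev (M i)` are `W O` with `O` isometric, and
`e ↦ (⟪dB(ζ) e W_a, W_c⟫)` is close to `ℓ`, hence onto the symmetric families with a uniform bound.  Compactness of
`[0,1]` (Lebesgue number).
-/

set_option autoImplicit false

noncomputable section

open scoped InnerProductSpace ContDiff
open Set Filter Topology

namespace Crest.Agent.R202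

namespace TubeAux

/-- a map close to a map onto `P` is onto `P`, with a uniform bound -/
theorem perturb_surj {E Y : Type} [NormedAddCommGroup E] [NormedSpace ℝ E]
    [NormedAddCommGroup Y] [NormedSpace ℝ Y] [FiniteDimensional ℝ Y] (P : Submodule ℝ Y)
    (ℓ : E →ₗ[ℝ] Y) (hℓ : ∀ e, ℓ e ∈ P) (hs : ∀ y ∈ P, ∃ e, ℓ e = y) :
    ∃ δ C : ℝ, 0 < δ ∧ 0 < C ∧ ∀ T : E →ₗ[ℝ] Y, (∀ e, T e ∈ P) →
      (∀ e, ‖T e - ℓ e‖ ≤ δ * ‖e‖) → ∀ y ∈ P, ∃ e, ‖e‖ ≤ C * ‖y‖ ∧ T e = y := by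
  have hsurj : LinearMap.range (ℓ.codRestrict P hℓ) = ⊤ := by
    rw [LinearMap.range_eq_top]
    rintro ⟨y, hy⟩
    obtain ⟨e, he⟩ := hs y hy
    exact ⟨e, Subtype.ext he⟩
  obtain ⟨R, hR⟩ := LinearMap.exists_rightInverse_of_surjective _ hsurj
  have hR' : ∀ y : P, ℓ (R y) = y := fun y => by
    have := congrArg (fun f : P →ₗ[ℝ] P => ((f y : P) : Y)) hR
    simpa using this
  set R' : P →L[ℝ] E := LinearMap.toContinuousLinearMap R with hR'def
  have hRb : ∀ y : P, ‖R y‖ ≤ (‖R'‖ + 1) * ‖(y : Y)‖ := fun y => by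
    have h1 := R'.le_opNorm y
    have h2 : R' y = R y := rfl
    rw [h2] at h1
    have h3 : ‖y‖ = ‖(y : Y)‖ := rfl
    rw [h3] at h1
    nlinarith [norm_nonneg (y : Y)]
  have hpos : 0 < ‖R'‖ + 1 := by positivity
  refine ⟨1 / (2 * (‖R'‖ + 1)), 2 * (‖R'‖ + 1), by positivity, by positivity, ?_⟩
  intro T hT hclose
  set G : P →ₗ[ℝ] P := (T.codRestrict P hT).comp R with hG
  have hGy : ∀ y : P, ((G y : P) : Y) = T (R y) := fun y => rfl
  have hlow : ∀ y : P, ‖(y : Y)‖ ≤ 2 * ‖T (R y)‖ := fun y => by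
    have h1 := hclose (R y)
    rw [hR'] at h1
    have h2 : 1 / (2 * (‖R'‖ + 1)) * ‖R y‖ ≤ ‖(y : Y)‖ / 2 := by
      calc 1 / (2 * (‖R'‖ + 1)) * ‖R y‖ ≤ 1 / (2 * (‖R'‖ + 1)) * ((‖R'‖ + 1) * ‖(y : Y)‖) :=
            mul_le_mul_of_nonneg_left (hRb y) (by positivity)
        _ = ‖(y : Y)‖ / 2 := by field_simp
    have h3 : ‖(y : Y)‖ ≤ ‖T (R y)‖ + ‖T (R y) - y‖ := by
      calc ‖(y : Y)‖ = ‖T (R y) - (T (R y) - y)‖ := by congr 1; abel
        _ ≤ _ := norm_sub_le _ _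
    linarith
  have hinj : Function.Injective G := by
    rw [← LinearMap.ker_eq_bot, LinearMap.ker_eq_bot']
    intro y hy
    have h1 := hlow y
    rw [← hGy, hy] at h1
    simp only [ZeroMemClass.coe_zero, norm_zero, mul_zero] at h1
    exact Subtype.ext (norm_le_zero_iff.mp h1)
  have hsj : Function.Surjective G := LinearMap.injective_iff_surjective.mp hinj
  intro y hy
  obtain ⟨x, hx⟩ := hsj ⟨y, hy⟩
  have hx' : T (R x) = y := by rw [← hGy, hx]
  refine ⟨R x, ?_, hx'⟩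
  have h1 := hlow x
  rw [hx'] at h1
  calc ‖R x‖ ≤ (‖R'‖ + 1) * ‖(x : Y)‖ := hRb x
    _ ≤ (‖R'‖ + 1) * (2 * ‖y‖) := mul_le_mul_of_nonneg_left h1 hpos.le
    _ = _ := by ring

section
variable {n : ℕ} {J : Type} (b : Base n J)

theorem mass_sum_left {I : Type} [Fintype I] (u : I → ℝ) (W : I → H J) (y : H J) :
    b.mass (∑ a, u a • W a) y = ∑ a, u a * b.mass (W a) y := by
  simp only [Base.mass, map_sum, map_smul, sum_inner, inner_smul_left, conj_trivial]

theorem mass_sum_right {I : Type} [Fintype I] (u : I → ℝ) (W : I → H J) (y : H J) :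
    b.mass y (∑ a, u a • W a) = ∑ a, u a * b.mass y (W a) := by
  simp only [Base.mass, inner_sum, inner_smul_right]

theorem mass_sub_right (x y z : H J) : b.mass x (y - z) = b.mass x y - b.mass x z := by
  simp only [Base.mass, inner_sub_right]

theorem mass_sub_left (x y z : H J) : b.mass (x - y) z = b.mass x z - b.mass y z := by
  simp only [Base.mass, map_sub, inner_sub_left]

variable {m : ℕ} {B : H J →L[ℝ] H J} {W : Fin m → H J} {L : Fin m → Fin m → ℝ}

theorem mass_W_sum (h2 : ∀ a c, b.mass (W a) (W c) = if a = c then 1 else 0) (u : Fin m → ℝ)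
    (c : Fin m) : b.mass (W c) (∑ a, u a • W a) = u c := by
  rw [mass_sum_right]
  simp [h2]

theorem mass_sum_sum (h2 : ∀ a c, b.mass (W a) (W c) = if a = c then 1 else 0)
    (u v : Fin m → ℝ) : b.mass (∑ a, u a • W a) (∑ a, v a • W a) = ∑ a, u a * v a := by
  rw [mass_sum_left]
  simp only [mass_W_sum b h2]

theorem inner_BW (h1 : ∀ a, B (W a) = ∑ c, L c a • b.K (W c)) (a : Fin m) (y : H J) :
    ⟪B (W a), y⟫_ℝ = ∑ c, L c a * b.mass (W c) y := by
  rw [h1]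
  simp only [Base.mass, sum_inner, inner_smul_left, conj_trivial]

theorem ev_le_t (hB : Adm B) {M : ℕ} (hM : M < m) {t₁ : ℝ}
    (h1 : ∀ a, B (W a) = ∑ c, L c a • b.K (W c))
    (h2 : ∀ a c, b.mass (W a) (W c) = if a = c then 1 else 0)
    (h3 : ∀ u : Fin m → ℝ, ∑ a, ∑ c, L a c * u a * u c ≤ t₁ * ∑ a, u a ^ 2) :
    b.ev B univ M ≤ t₁ := by
  have hli : LinearIndependent ℝ W := by
    rw [Fintype.linearIndependent_iff]
    intro u hu c
    have := mass_W_sum b h2 u c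
    rw [hu] at this
    simpa [Base.mass] using this.symm
  refine b.ev_le hB (Submodule.span ℝ (range W)) ?_ ?_
  · rw [finrank_span_eq_card hli, Fintype.card_fin]
    omega
  · intro y hy
    refine ⟨fun k hk => absurd (mem_univ k) hk, ?_⟩
    obtain ⟨u, rfl⟩ := (Submodule.mem_span_range_iff_exists_fun ℝ).mp hy
    rw [mass_sum_sum b h2]
    have e1 : ⟪B (∑ a, u a • W a), ∑ a, u a • W a⟫_ℝ = ∑ a, ∑ c, L a c * u a * u c := by
      rw [map_sum, sum_inner, Finset.sum_comm]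
      refine Finset.sum_congr rfl fun a _ => ?_
      rw [map_smul, inner_smul_left, inner_BW b h1, conj_trivial, Finset.mul_sum]
      refine Finset.sum_congr rfl fun c _ => ?_
      rw [mass_W_sum b h2]
      ring
    rw [e1]
    simpa only [sq] using h3 u

theorem eig_mem {t₂ l : ℝ} (hl : l < t₂)
    (h1 : ∀ a, B (W a) = ∑ c, L c a • b.K (W c))
    (h2 : ∀ a c, b.mass (W a) (W c) = if a = c then 1 else 0)
    (h4 : ∀ y, (∀ a, b.mass (W a) y = 0) → t₂ * b.mass y y ≤ ⟪B y, y⟫_ℝ)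
    {V : H J} (hV : B V = l • b.K V) : V = ∑ a, b.mass (W a) V • W a := by
  set y := V - ∑ a, b.mass (W a) V • W a with hy
  have ho : ∀ c, b.mass (W c) y = 0 := fun c => by
    rw [hy, mass_sub_right, mass_W_sum b h2, sub_self]
  have e1 : b.mass y y = b.mass V y := by
    conv_lhs => rw [hy]
    rw [← hy]
    have : b.mass (V - ∑ a, b.mass (W a) V • W a) y = b.mass V y := by
      rw [mass_sub_left, mass_sum_left]
      simp [ho]
    exact this
  have e2 : ⟪B y, y⟫_ℝ = l * b.mass V y := by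
    have : ⟪B (V - ∑ a, b.mass (W a) V • W a), y⟫_ℝ = l * b.mass V y := by
      rw [map_sub, inner_sub_left, hV, inner_smul_left, conj_trivial, map_sum, sum_inner]
      have : ∀ a, ⟪B (b.mass (W a) V • W a), y⟫_ℝ = 0 := fun a => by
        rw [map_smul, inner_smul_left, inner_BW b h1]
        simp [ho]
      simp only [this, Finset.sum_const_zero, sub_zero]
      rfl
    exact this
  by_contra hne
  have hy0 : y ≠ 0 := fun h => hne (sub_eq_zero.mp h)
  have hp := b.mass_pos hy0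
  have := h4 y ho
  rw [e2, ← e1] at this
  nlinarith

end

end TubeAux

open TubeAux

variable {n : ℕ} {E : Type} [NormedAddCommGroup E] [NormedSpace ℝ E] [FiniteDimensional ℝ E]
  {ι : Type} [Fintype ι] [DecidableEq ι] {J : ι → Type} (F : Fam n E ι J) (M : ι → ℕ)

theorem isOpen_tube (a b : E) (ρ : ℝ) : IsOpen (tube a b ρ) := by
  have : tube a b ρ = ⋃ s ∈ Icc (0 : ℝ) 1, Metric.ball (a + s • b) ρ := by
    ext ζ
    simp only [tube, mem_setOf_eq, mem_iUnion, Metric.mem_ball, dist_eq_norm, exists_prop]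
  rw [this]
  exact isOpen_biUnion fun _ _ => Metric.isOpen_ball

theorem convex_tube (a b : E) (ρ : ℝ) : Convex ℝ (tube a b ρ) := by
  rintro x ⟨s, hs, hx⟩ y ⟨t, ht, hy⟩ p q hp hq hpq
  refine ⟨p * s + q * t, (convex_Icc (0 : ℝ) 1) hs ht hp hq hpq, ?_⟩
  have e : p • x + q • y - (a + (p * s + q * t) • b)
      = p • (x - (a + s • b)) + q • (y - (a + t • b)) := by
    have : a = (p + q) • a := by rw [hpq, one_smul]
    conv_lhs => rw [this]
    module
  rw [e]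
  have hx' : x - (a + s • b) ∈ Metric.ball (0 : E) ρ := by simpa using hx
  have hy' : y - (a + t • b) ∈ Metric.ball (0 : E) ρ := by simpa using hy
  simpa using convex_ball (0 : E) ρ hx' hy' hp hq hpq

/-- a property that holds near every point of the segment holds on a tube -/
theorem exists_tube (a b : E) {P : E → Prop} (h : ∀ s ∈ Icc (0 : ℝ) 1, ∀ᶠ ζ in 𝓝 (a + s • b), P ζ) :
    ∃ ρ : ℝ, 0 < ρ ∧ ∀ ζ ∈ tube a b ρ, P ζ := by
  have hK : IsCompact ((fun s : ℝ => a + s • b) '' Icc 0 1) :=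
    isCompact_Icc.image (by fun_prop)
  have hsub : (fun s : ℝ => a + s • b) '' Icc 0 1 ⊆ interior {ζ | P ζ} := by
    rintro _ ⟨s, hs, rfl⟩
    exact mem_interior_iff_mem_nhds.mpr (h s hs)
  obtain ⟨δ, hδ, hth⟩ := hK.exists_thickening_subset_open isOpen_interior hsub
  refine ⟨δ, hδ, ?_⟩
  rintro ζ ⟨s, hs, hζ⟩
  have : ζ ∈ Metric.thickening δ ((fun s : ℝ => a + s • b) '' Icc 0 1) :=
    Metric.mem_thickening_iff.mpr ⟨_, ⟨s, hs, rfl⟩, by rwa [dist_eq_norm]⟩
  exact interior_subset (hth this)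

omit [FiniteDimensional ℝ E] [Fintype ι] [DecidableEq ι] in
theorem TubeAux.ctrlQ_mono {ζ : E} {C C' : ℝ} (h : F.CtrlQ M ζ C) (hC : C ≤ C') :
    F.CtrlQ M ζ C' := by
  intro V l hV hl S s hS hs hb
  obtain ⟨e, he, h'⟩ := h V l hV hl S s hS hs hb
  exact ⟨e, he.trans (mul_le_mul_of_nonneg_right hC hs), h'⟩

omit [FiniteDimensional ℝ E] [Fintype ι] [DecidableEq ι] in
theorem TubeAux.dB_symm (i : ι) (ζ e : E) (x y : H (J i)) :
    ⟪fderiv ℝ (F.B i) ζ e x, y⟫_ℝ = ⟪fderiv ℝ (F.B i) ζ e y, x⟫_ℝ := by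
  have hd : HasFDerivAt (F.B i) (fderiv ℝ (F.B i) ζ) ζ :=
    ((F.smooth i).differentiable (by simp) ζ).hasFDerivAt
  have h : ∀ x y : H (J i), HasFDerivAt (fun ζ => ⟪y, F.B i ζ x⟫_ℝ)
      ((innerSL ℝ y).comp ((ContinuousLinearMap.apply ℝ (H (J i)) x).comp
        (fderiv ℝ (F.B i) ζ))) ζ := fun x y =>
    (innerSL ℝ y).hasFDerivAt.comp ζ
      ((ContinuousLinearMap.apply ℝ (H (J i)) x).hasFDerivAt.comp ζ hd)
  have h1 := h x y
  have h2 := h y x
  have e1 : (fun ζ => ⟪y, F.B i ζ x⟫_ℝ) = fun ζ => ⟪x, F.B i ζ y⟫_ℝ := by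
    funext ζ
    rw [real_inner_comm, F.symm]
  rw [e1] at h1
  have := congrArg (fun f : E →L[ℝ] ℝ => f e) (h1.unique h2)
  simp only [ContinuousLinearMap.comp_apply, ContinuousLinearMap.apply_apply,
    innerSL_apply_apply] at this
  rw [real_inner_comm, this, real_inner_comm]

/-- the local statement -/
theorem TubeAux.local_ctrl (ζ₀ : E) (hadm : ∀ i, ∀ᶠ ζ in 𝓝 ζ₀, Adm (F.B i ζ))
    (hc : F.CtrlAt ζ₀ (fun i => 2 * (F.b i).ev 1 univ (M i))) :
    ∃ C : ℝ, 0 < C ∧ ∀ᶠ ζ in 𝓝 ζ₀, F.CtrlQ M ζ C := by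
  obtain ⟨m, ℓ, Γ, Ψ, η₀, W, t₁, t₂, hm, ht, honto, hsym, -, -, hΨ, hΨ₀, hΓΨ, hW, -, hℓ, hev⟩ :=
    F.exists_flat M ζ₀ hadm hc
  let P : Submodule ℝ (∀ i, Fin (m i) → Fin (m i) → ℝ) :=
    { carrier := {S | ∀ i a c, S i a c = S i c a}
      add_mem' := fun {x y} hx hy i a c => by
        simp only [Pi.add_apply]; rw [hx i a c, hy i a c]
      zero_mem' := fun i a c => rfl
      smul_mem' := fun r x hx i a c => by
        simp only [Pi.smul_apply]; rw [hx i a c] }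
  obtain ⟨δ, C, hδ, hC, hpert⟩ := perturb_surj P ℓ (fun e => hsym e) honto
  have hΨt : Tendsto Ψ (𝓝 ζ₀) (𝓝 η₀) := by
    rw [← hΨ₀]; exact hΨ
  -- the functionals
  let φ : ∀ i, Fin (m i) → Fin (m i) → E → E →L[ℝ] ℝ := fun i a c ζ =>
    (innerSL ℝ (W i (Ψ ζ) c)).comp ((ContinuousLinearMap.apply ℝ (H (J i)) (W i (Ψ ζ) a)).comp
      (fderiv ℝ (F.B i) ζ))
  have hφ : ∀ i a c ζ e, φ i a c ζ e = ⟪fderiv ℝ (F.B i) ζ e (W i (Ψ ζ) a), W i (Ψ ζ) c⟫_ℝ := by
    intro i a c ζ e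
    simp only [φ, ContinuousLinearMap.comp_apply, ContinuousLinearMap.apply_apply,
      innerSL_apply_apply]
    exact real_inner_comm _ _
  have hWc : ∀ i a, ContinuousAt (fun ζ => W i (Ψ ζ) a) ζ₀ := fun i a => by
    have h1 : ContinuousAt (W i) (Ψ ζ₀) := by rw [hΨ₀]; exact (hW i).continuousAt
    exact (continuous_apply a).continuousAt.comp (h1.comp hΨ)
  have hφc : ∀ i a c, ContinuousAt (φ i a c) ζ₀ := fun i a c => by
    have h1 : ContinuousAt (fun ζ => fderiv ℝ (F.B i) ζ) ζ₀ :=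
      ((F.smooth i).continuous_fderiv (by simp)).continuousAt
    exact ((innerSL ℝ).continuous.continuousAt.comp (hWc i c)).clm_comp
      (((ContinuousLinearMap.apply ℝ (H (J i))).continuous.continuousAt.comp (hWc i a)).clm_comp h1)
  have hclose : ∀ᶠ ζ in 𝓝 ζ₀, ∀ i a c, ‖φ i a c ζ - φ i a c ζ₀‖ < δ := by
    simp only [eventually_all]
    intro i a c
    have := Metric.tendsto_nhds.mp (hφc i a c) δ hδ
    simpa only [dist_eq_norm] using this
  have hadm' : ∀ᶠ ζ in 𝓝 ζ₀, ∀ i, Adm (F.B i ζ) := eventually_all.mpr hadm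
  set N : ℝ := ∑ i, (M i : ℝ) ^ 2 + 1 with hN
  have hN0 : 0 < N := by positivity
  refine ⟨C * N, by positivity, ?_⟩
  filter_upwards [hclose, hadm', hΓΨ, hΨt.eventually hev] with ζ hcl hA hΓ hE
  rw [hΓ] at hE
  intro V l hV hl S s hS hs hb
  -- the linear map
  let T : E →ₗ[ℝ] (∀ i, Fin (m i) → Fin (m i) → ℝ) :=
    LinearMap.pi fun i => LinearMap.pi fun a => LinearMap.pi fun c => (φ i a c ζ : E →ₗ[ℝ] ℝ)
  have hT : ∀ e i a c, T e i a c = φ i a c ζ e := fun e i a c => rfl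
  have hTP : ∀ e, T e ∈ P := fun e i a c => by
    rw [hT, hT, hφ, hφ]
    exact dB_symm F i ζ e _ _
  have hTc : ∀ e, ‖T e - ℓ e‖ ≤ δ * ‖e‖ := fun e => by
    have h0 : 0 ≤ δ * ‖e‖ := by positivity
    refine (pi_norm_le_iff_of_nonneg h0).mpr fun i => (pi_norm_le_iff_of_nonneg h0).mpr fun a =>
      (pi_norm_le_iff_of_nonneg h0).mpr fun c => ?_
    have e1 : (T e - ℓ e) i a c = (φ i a c ζ - φ i a c ζ₀) e := by
      simp only [Pi.sub_apply, ContinuousLinearMap.sub_apply]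
      rw [hT, hφ i a c ζ₀, hΨ₀, hℓ]
    rw [e1]
    exact ((φ i a c ζ - φ i a c ζ₀).le_opNorm e).trans
      (mul_le_mul_of_nonneg_right (hcl i a c).le (norm_nonneg _))
  -- the isometries
  let O : ∀ i, Matrix (Fin (m i)) (Fin (M i)) ℝ := fun i =>
    Matrix.of fun p a => (F.b i).mass (W i (Ψ ζ) p) (V i a)
  have hVO : ∀ i a, V i a = ∑ p, O i p a • W i (Ψ ζ) p := fun i a => by
    obtain ⟨h1, h2, h3, h4⟩ := hE i
    have h5 : l i a < t₂ i :=
      lt_of_le_of_lt ((hl i a).trans (ev_le_t (F.b i) (hA i) (hm i) h1 h2 h3)) (ht i)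
    exact eig_mem (F.b i) h5 h1 h2 h4 ((hV i).eig a)
  have hOO : ∀ i a c, ∑ p, O i p a * O i p c = if a = c then 1 else 0 := fun i a c => by
    rw [← (hV i).orth a c, hVO i a, hVO i c, mass_sum_sum (F.b i) (hE i).2.1]
  have hOO' : ∀ i, (O i).transpose * O i = 1 := fun i => by
    ext a c
    rw [Matrix.mul_apply, Matrix.one_apply, ← hOO i a c]
    rfl
  have hO1 : ∀ i p a, |O i p a| ≤ 1 := fun i p a => by
    have h1 := hOO i a a
    rw [if_pos rfl] at h1
    have h2 : O i p a * O i p a ≤ ∑ p, O i p a * O i p a :=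
      Finset.single_le_sum (f := fun p => O i p a * O i p a) (fun p _ => mul_self_nonneg _)
        (Finset.mem_univ p)
    rw [h1] at h2
    exact abs_le_one_iff_mul_self_le_one.mpr h2
  let S' : ∀ i, Fin (m i) → Fin (m i) → ℝ := fun i p q => (O i * S i * (O i).transpose) p q
  have hS'P : S' ∈ P := fun i p q => by
    have h1 : (O i * S i * (O i).transpose).transpose = O i * S i * (O i).transpose := by
      rw [Matrix.transpose_mul, Matrix.transpose_mul, Matrix.transpose_transpose, (hS i).eq,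
        Matrix.mul_assoc]
    show (O i * S i * (O i).transpose) p q = (O i * S i * (O i).transpose) q p
    conv_lhs => rw [← h1]
    rfl
  have hS'b : ‖S'‖ ≤ N * s := by
    have h0 : 0 ≤ N * s := by positivity
    refine (pi_norm_le_iff_of_nonneg h0).mpr fun i => (pi_norm_le_iff_of_nonneg h0).mpr fun p =>
      (pi_norm_le_iff_of_nonneg h0).mpr fun q => ?_
    have h1 : S' i p q = ∑ c, ∑ a, O i p a * S i a c * O i q c := by
      show (O i * S i * (O i).transpose) p q = _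
      simp only [Matrix.mul_apply, Matrix.transpose_apply, Finset.sum_mul]
    rw [h1, Real.norm_eq_abs]
    have h2 : |∑ c, ∑ a, O i p a * S i a c * O i q c| ≤ ∑ _c : Fin (M i), ∑ _a : Fin (M i), s := by
      refine (Finset.abs_sum_le_sum_abs _ _).trans (Finset.sum_le_sum fun c _ => ?_)
      refine (Finset.abs_sum_le_sum_abs _ _).trans (Finset.sum_le_sum fun a _ => ?_)
      rw [abs_mul, abs_mul]
      calc |O i p a| * |S i a c| * |O i q c| ≤ 1 * s * 1 :=
            mul_le_mul (mul_le_mul (hO1 i p a) (hb i a c) (abs_nonneg _) zero_le_one)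
              (hO1 i q c) (abs_nonneg _) (by positivity)
        _ = s := by ring
    refine h2.trans ?_
    simp only [Finset.sum_const, Finset.card_univ, Fintype.card_fin, nsmul_eq_mul]
    have h3 : (M i : ℝ) ^ 2 ≤ ∑ i, (M i : ℝ) ^ 2 :=
      Finset.single_le_sum (f := fun i => (M i : ℝ) ^ 2) (fun _ _ => by positivity)
        (Finset.mem_univ i)
    have h4 : (M i : ℝ) ^ 2 ≤ N := by rw [hN]; linarith
    calc (M i : ℝ) * ((M i : ℝ) * s) = (M i : ℝ) ^ 2 * s := by ring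
      _ ≤ N * s := mul_le_mul_of_nonneg_right h4 hs
  obtain ⟨e, he, hTe⟩ := hpert T hTP hTc S' hS'P
  refine ⟨e, he.trans ?_, fun i a c => ?_⟩
  · rw [mul_assoc]
    exact mul_le_mul_of_nonneg_left hS'b hC.le
  · have h1 : ∀ p q, ⟪fderiv ℝ (F.B i) ζ e (W i (Ψ ζ) p), W i (Ψ ζ) q⟫_ℝ
        = (O i * S i * (O i).transpose) p q := fun p q => by
      rw [← hφ, ← hT, hTe]
    have h2 : (O i).transpose * (O i * S i * (O i).transpose) * O i = S i := by
      rw [Matrix.mul_assoc (O i), ← Matrix.mul_assoc, hOO', Matrix.one_mul, Matrix.mul_assoc,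
        hOO', Matrix.mul_one]
    rw [← h2, hVO i a, hVO i c]
    generalize O i * S i * (O i).transpose = Z at h1
    simp only [map_sum, map_smul, sum_inner, inner_sum, inner_smul_left, inner_smul_right,
      conj_trivial, h1, Matrix.mul_apply, Matrix.transpose_apply, Finset.sum_mul, Finset.mul_sum]
    refine Finset.sum_congr rfl fun q _ => Finset.sum_congr rfl fun p _ => by ring

theorem Fam.tube_ctrl (a b : E) {ρ₀ : ℝ} (hρ₀ : 0 < ρ₀)
    (hadm : ∀ i, ∀ ζ ∈ tube a b ρ₀, Adm (F.B i ζ))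
    (hc : ∀ s ∈ Icc (0 : ℝ) 1, F.CtrlAt (a + s • b) (fun i => 2 * (F.b i).ev 1 univ (M i))) :
    ∃ ρ C : ℝ, 0 < ρ ∧ 0 < C ∧ ∀ ζ ∈ tube a b ρ, F.CtrlQ M ζ C := by
  have key : ∃ C : ℝ, 0 < C ∧ ∀ s ∈ Icc (0 : ℝ) 1, ∀ᶠ ζ in 𝓝 (a + s • b), F.CtrlQ M ζ C := by
    refine isCompact_Icc.induction_on
      (p := fun t => ∃ C : ℝ, 0 < C ∧ ∀ s ∈ t, ∀ᶠ ζ in 𝓝 (a + s • b), F.CtrlQ M ζ C)
      ⟨1, one_pos, fun s hs => absurd hs (notMem_empty s)⟩ ?_ ?_ ?_
    · rintro t t' htt ⟨C, hC, h⟩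
      exact ⟨C, hC, fun s hs => h s (htt hs)⟩
    · rintro t t' ⟨C, hC, h⟩ ⟨C', hC', h'⟩
      refine ⟨max C C', lt_max_of_lt_left hC, ?_⟩
      rintro s (hs | hs)
      · exact (h s hs).mono fun ζ hζ => ctrlQ_mono F M hζ (le_max_left _ _)
      · exact (h' s hs).mono fun ζ hζ => ctrlQ_mono F M hζ (le_max_right _ _)
    · intro s hs
      have hmem : a + s • b ∈ tube a b ρ₀ := ⟨s, hs, by simpa using hρ₀⟩
      have hA : ∀ i, ∀ᶠ ζ in 𝓝 (a + s • b), Adm (F.B i ζ) := fun i =>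
        Filter.mem_of_superset ((isOpen_tube a b ρ₀).mem_nhds hmem) (hadm i)
      obtain ⟨C, hC, h⟩ := local_ctrl F M (a + s • b) hA (hc s hs)
      have hcont : Continuous fun s : ℝ => a + s • b := by fun_prop
      refine ⟨{s' | ∀ᶠ ζ in 𝓝 (a + s' • b), F.CtrlQ M ζ C}, ?_, C, hC, fun s' hs' => hs'⟩
      exact mem_nhdsWithin_of_mem_nhds ((hcont.tendsto s).eventually h.eventually_nhds)
  obtain ⟨C, hC, h⟩ := key
  obtain ⟨ρ, hρ, h'⟩ := exists_tube a b h
  exact ⟨ρ, C, hρ, hC, h'⟩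

end Crest.Agent.R202
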