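import Crest.Agent.R202.CDefs
import Crest.Agent.R202.Markov
import Crest.Agent.R230.Orth

/-!
# Families of harmonic polynomials in the last variables (task G11a)

The Laplacian maps homogeneous polynomials of degree `j` in `N+1` variables (dimension `C(j+N, N)`) to those of degree `j-2`; take a linearly independent family of the required
size in the kernel and `rename` the variables by `i ↦ i+2`.  Independence on a fibre (a sphere of radius `cos θ > 0` in the last variables): harmonic polynomials of different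
degrees are orthogonal on the sphere and a homogeneous polynomial vanishing on the sphere is zero (`Crest.Agent.R230.Orth`: `orth`, `eq_zero_of_ip_self`; `Poly`: `eq_zero_of_sphere`).
-/

set_option autoImplicit false

noncomputable section

open scoped InnerProductSpace ContDiff
open Set Filter Topology
open MvPolynomial Real
open Crest.GeometryTopology.CoordMetric hiding pderiv

namespace Crest.Agent.R202

theorem yf_finrank (N j : ℕ) :
    Module.finrank ℝ (homogeneousSubmodule (Fin (N + 1)) ℝ j) = (j + N).choose N := by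
  have h1 : homogeneousSubmodule (Fin (N + 1)) ℝ j =
      restrictSupport ℝ (↑((Finset.univ : Finset (Fin (N + 1))).finsuppAntidiag j)) := by
    rw [homogeneousSubmodule_eq_finsupp_supported, restrictSupport]
    congr 1
    ext d
    simp [Finsupp.degree_eq_sum]
  rw [h1, Module.finrank_eq_nat_card_basis (basisRestrictSupport ℝ _), Nat.card_coe_set_eq,
    Set.ncard_coe_finset, Finset.card_finsuppAntidiag_nat_eq_choose, Finset.card_univ,
    Fintype.card_fin, show N + 1 + j - 1 = j + N by omega, Nat.choose_symm_add]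

/-- the Laplacian as a linear map -/
def yf_lap (n : ℕ) : R230.Pol n →ₗ[ℝ] R230.Pol n :=
  ∑ i, (pderiv i : Derivation ℝ (R230.Pol n) (R230.Pol n)).toLinearMap ∘ₗ
    (pderiv i : Derivation ℝ (R230.Pol n) (R230.Pol n)).toLinearMap

theorem yf_lap_apply {n : ℕ} (P : R230.Pol n) : yf_lap n P = R230.lap P := by
  simp [yf_lap, R230.lap, LinearMap.sum_apply]

theorem yf_pderiv_zero {n : ℕ} {P : R230.Pol n} (h : P.IsHomogeneous 0) (i : Fin n) :
    pderiv i P = 0 := by
  rw [totalDegree_eq_zero_iff_eq_C.1 ((totalDegree_zero_iff_isHomogeneous _).2 h), pderiv_C]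

theorem yf_range (N j : ℕ) : Module.finrank ℝ (LinearMap.range ((yf_lap (N + 1)).domRestrict
    (homogeneousSubmodule (Fin (N + 1)) ℝ j))) ≤ (j + N - 2).choose N := by
  by_cases hj : j < 2
  · have : LinearMap.range ((yf_lap (N + 1)).domRestrict
        (homogeneousSubmodule (Fin (N + 1)) ℝ j)) = ⊥ := by
      rw [LinearMap.range_eq_bot]
      ext ⟨P, hP⟩ : 1
      rw [LinearMap.domRestrict_apply, yf_lap_apply, LinearMap.zero_apply]
      refine Finset.sum_eq_zero fun i _ => yf_pderiv_zero ?_ i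
      have := IsHomogeneous.pderiv (i := i) hP
      rwa [show j - 1 = 0 by omega] at this
    rw [this, finrank_bot]
    exact Nat.zero_le _
  · have : Module.Finite ℝ (homogeneousSubmodule (Fin (N + 1)) ℝ (j - 2)) :=
      Module.Finite.iff_fg.2 (homogeneousSubmodule_fg _ ℝ _)
    rw [show j + N - 2 = j - 2 + N by omega, ← yf_finrank N (j - 2)]
    refine Submodule.finrank_mono ?_
    rintro _ ⟨⟨P, hP⟩, rfl⟩
    rw [LinearMap.domRestrict_apply, yf_lap_apply]
    exact IsHomogeneous.sum _ _ _ fun i _ => (IsHomogeneous.pderiv hP).pderiv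

theorem yf_ker {V W : Type} [AddCommGroup V] [Module ℝ V] [AddCommGroup W] [Module ℝ W]
    (L : V →ₗ[ℝ] W) (U : Submodule ℝ V) [Module.Finite ℝ U] {m : ℕ}
    (h : m + Module.finrank ℝ (LinearMap.range (L.domRestrict U)) ≤ Module.finrank ℝ U) :
    ∃ Z : Fin m → V, (∀ a, Z a ∈ U ∧ L (Z a) = 0) ∧ LinearIndependent ℝ Z := by
  have h1 := (L.domRestrict U).finrank_range_add_finrank_ker
  obtain ⟨f, hf⟩ := exists_linearIndependent_of_le_finrank (R := ℝ)
    (M := LinearMap.ker (L.domRestrict U)) (n := m) (by omega)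
  exact ⟨fun a => (f a).1.1, fun a => ⟨(f a).1.2, (f a).2⟩,
    (hf.map' _ (Submodule.ker_subtype _)).map' _ (Submodule.ker_subtype _)⟩

theorem yf_exists (N j : ℕ) :
    ∃ Z : Fin ((j + N).choose N - (j + N - 2).choose N) → R230.Pol (N + 1),
      (∀ a, R230.Harm j (Z a)) ∧ LinearIndependent ℝ Z := by
  have : Module.Finite ℝ (homogeneousSubmodule (Fin (N + 1)) ℝ j) :=
    Module.Finite.iff_fg.2 (homogeneousSubmodule_fg _ ℝ _)
  have h2 := yf_range N j
  have h3 : (j + N - 2).choose N ≤ (j + N).choose N := Nat.choose_le_choose N (Nat.sub_le _ _)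
  obtain ⟨Z, hZ, hZi⟩ := yf_ker (yf_lap (N + 1)) (homogeneousSubmodule (Fin (N + 1)) ℝ j)
    (m := (j + N).choose N - (j + N - 2).choose N) (by rw [yf_finrank]; omega)
  exact ⟨Z, fun a => ⟨(hZ a).1, (yf_lap_apply _).symm.trans (hZ a).2⟩, hZi⟩

theorem yf_pderiv_rename {σ τ : Type} (f : σ → τ) (i : τ) (h : ∀ x, f x ≠ i)
    (P : MvPolynomial σ ℝ) : pderiv i (rename f P) = 0 := by
  induction P using MvPolynomial.induction_on with
  | C a => simp
  | add p q hp hq => simp [hp, hq]
  | mul_X p x hp => simp [hp, pderiv_X_of_ne (h x)]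

theorem yf_ok {N j : ℕ} {Z : R230.Pol (N + 1)} (h : R230.Harm j Z) :
    YOk (N := N) j (rename (fun i : Fin (N + 1) => i.succ.succ) Z) := by
  have h0 : pderiv (0 : Fin (N + 3)) (rename (fun i : Fin (N + 1) => i.succ.succ) Z) = 0 :=
    yf_pderiv_rename _ _ (fun x => Fin.succ_ne_zero _) Z
  have h1 : pderiv (Fin.succ 0 : Fin (N + 3)) (rename (fun i : Fin (N + 1) => i.succ.succ) Z) = 0 :=
    yf_pderiv_rename _ _ (fun x hx => Fin.succ_ne_zero _ (Fin.succ_injective _ hx)) Z
  have hinj : Function.Injective fun i : Fin (N + 1) => i.succ.succ :=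
    (Fin.succ_injective _).comp (Fin.succ_injective _)
  refine ⟨h.1.rename_isHomogeneous, h0, h1, ?_⟩
  rw [Fin.sum_univ_succ, Fin.sum_univ_succ, h0, h1, map_zero, map_zero, zero_add, zero_add]
  have h2 : ∀ i : Fin (N + 1), pderiv i.succ.succ (pderiv i.succ.succ
      (rename (fun i : Fin (N + 1) => i.succ.succ) Z)) =
      rename (fun i : Fin (N + 1) => i.succ.succ) (pderiv i (pderiv i Z)) := fun i => by
    rw [pderiv_rename hinj i, pderiv_rename hinj i]
  simp only [h2]
  rw [← map_sum]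
  exact (congrArg _ h.2).trans (map_zero _)

/-- the point of the fibre over `(θ, φ)` in the direction `p` -/
def yf_pt {N : ℕ} (θ φ : ℝ) (p : Fin (N + 1) → ℝ) : Vec (N + 3) :=
  WithLp.toLp 2 (Fin.cons (sin θ * cos φ) (Fin.cons (sin θ * sin φ) fun i => cos θ * p i) :
    Fin (N + 3) → ℝ)

theorem yf_pt_norm {N : ℕ} (θ φ : ℝ) {p : Fin (N + 1) → ℝ} (hp : ∑ i, p i ^ 2 = 1) :
    ‖yf_pt θ φ p‖ = 1 := by
  rw [← sq_eq_sq₀ (norm_nonneg _) zero_le_one, EuclideanSpace.real_norm_sq_eq, Fin.sum_univ_succ,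
    Fin.sum_univ_succ]
  simp only [yf_pt, Fin.cons_zero, Fin.cons_succ, mul_pow, ← Finset.mul_sum, hp]
  nlinarith [sin_sq_add_cos_sq θ, sin_sq_add_cos_sq φ]

theorem yf_tau {N : ℕ} (r : ℕ) (θ φ : ℝ) (p : Fin (N + 1) → ℝ) :
    tau r (yf_pt θ φ p) = ∑ i, (if r = 1 then 1 else cos θ * p i) * (cos θ * p i) := by
  rw [tau, Fin.sum_univ_succ, Fin.sum_univ_succ]
  simp [uvec, yf_pt]

theorem yf_orth {n : ℕ} [NeZero n] (hn : 3 ≤ n) {ι : Type} [Fintype ι] {js : ι → ℕ}
    (hjs : Function.Injective js) {Q : ι → R230.Pol n} (hQ : ∀ i, R230.Harm (js i) (Q i))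
    (h : ∀ p, ‖p‖ = 1 → ∑ i, R230.ev (Q i) p = 0) (i₀ : ι) : Q i₀ = 0 := by
  refine R230.eq_zero_of_ip_self (hQ i₀).1 ?_
  have h1 := R230.ip_sum_left Finset.univ (f := fun i => R230.ev (Q i)) (g := R230.ev (Q i₀))
    (fun i _ => R230.bd_ev _) (R230.bd_ev _)
  rw [Finset.sum_eq_single i₀ (fun i _ hi => R230.orth hn (hjs.ne hi) (hQ i) (hQ i₀))
    (fun h => absurd (Finset.mem_univ _) h)] at h1
  rw [← h1, R230.ip_congr h fun _ _ => rfl]
  simp [R230.ip]

theorem yOk_one : YOk (N := 0) 0 1 :=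
  ⟨isHomogeneous_one _ _, by simp, by simp, by simp⟩

theorem yInd_one {I : Type} [Fintype I] [Unique I] : YInd (N := 0) 1 fun _ : I => 1 := by
  intro θ _ φ v h
  have h1 := h (yf_pt θ φ fun _ => 1) (yf_pt_norm θ φ (by simp)) (by
    unfold prj pt
    rw [yf_tau]
    simp [yf_pt])
  funext i
  rw [Subsingleton.elim i default]
  simpa [evp] using h1

theorem exists_Y (N : ℕ) (hN : 2 ≤ N) :
    ∃ Y : ∀ j : ℕ, Fin ((j + N).choose N - (j + N - 2).choose N) → MvPolynomial (Fin (N + 3)) ℝ,
      (∀ j a, YOk j (Y j a)) ∧ ∀ (ι : Type) [Fintype ι] (js : ι → ℕ), Function.Injective js →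
        YInd 2 fun p : Σ i, Fin ((js i + N).choose N - (js i + N - 2).choose N) => Y (js p.1) p.2 := by
  choose Z hZ hZi using yf_exists N
  refine ⟨fun j a => rename (fun i : Fin (N + 1) => i.succ.succ) (Z j a), fun j a => yf_ok (hZ j a),
    fun ι _ js hjs θ hθ φ v h => ?_⟩
  have hc : 0 < cos θ := cos_pos_of_mem_Ioo ⟨by linarith [hθ.1, pi_pos], by simpa using hθ.2⟩
  have h1 := yf_orth (n := N + 1) (by omega) hjs
    (Q := fun i => ∑ a, (v ⟨i, a⟩ * cos θ ^ js i) • Z (js i) a)
    (fun i => R230.Harm.sum _ fun a _ => (hZ _ a).smul _) fun p hp => by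
      have hp' : ∑ i, p i ^ 2 = 1 := by rw [← EuclideanSpace.real_norm_sq_eq, hp, one_pow]
      have h2 := h (yf_pt θ φ p) (yf_pt_norm θ φ hp') (by
        unfold prj pt
        rw [yf_tau]
        have : ∑ i, cos θ * p i * (cos θ * p i) = cos θ ^ 2 := by
          rw [← mul_one (cos θ ^ 2), ← hp', Finset.mul_sum]
          exact Finset.sum_congr rfl fun i _ => by ring
        simp [yf_pt, this])
      rw [← h2, Fintype.sum_sigma]
      refine Finset.sum_congr rfl fun i _ => ?_
      rw [R230.ev_sum]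
      refine Finset.sum_congr rfl fun a _ => ?_
      rw [R230.ev_smul, mul_assoc, ← R230.ev_smul_of_hom (hZ _ a).1, evp, eval_rename]
      rfl
  funext ⟨i, a⟩
  have h3 := Fintype.linearIndependent_iff.1 (hZi (js i)) _ (h1 i) a
  exact (mul_eq_zero.1 h3).resolve_right (pow_ne_zero _ hc.ne')

end Crest.Agent.R202
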